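/-
Algebra of the tree recursion (statement S0241): Moebius addition, the function `PhiF`, the pair
function `WW`, the edge weight `gE`, and their Lipschitz bounds.
-/
import Mathlib

set_option autoImplicit false

namespace Crest.Agent.Lib.IT

/-- Moebius addition (addition of hyperbolic tangents). -/
noncomputable def mob (a b : ℝ) : ℝ := (a + b) / (1 + a * b)

/-- `Φ(n) = (1 - n²) / (1 - θ² n²)`. -/
noncomputable def PhiF (θ n : ℝ) : ℝ := (1 - n ^ 2) / (1 - θ ^ 2 * n ^ 2)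

/-- The square root in the pair function. -/
noncomputable def RR (θ x y : ℝ) : ℝ :=
  Real.sqrt ((1 - θ ^ 2) ^ 2 + 4 * θ ^ 2 * (x ^ 2 + y ^ 2) - 4 * θ * (1 + θ ^ 2) * (x * y))

/-- The pair function: covariance over `θ (1-x²)(1-y²)`, as a function of the magnetisations. -/
noncomputable def WW (θ x y : ℝ) : ℝ := 2 / (1 + θ ^ 2 - 2 * θ * (x * y) + RR θ x y)

/-- The edge weight. -/
noncomputable def gE (θ x y : ℝ) : ℝ := Real.sqrt (1 - x ^ 2) * Real.sqrt (1 - y ^ 2) * WW θ x y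

/-- Clamping to `[-1/2, 1/2]`. -/
noncomputable def chi (x : ℝ) : ℝ := max (-(1 / 2)) (min (1 / 2) x)

/-- The clamped edge potential. -/
noncomputable def vhat (θ x y : ℝ) : ℝ := max 0 (-Real.log (gE θ (chi x) (chi y)))

/-- The clamped vertex potential. -/
noncomputable def shat (x : ℝ) : ℝ := -(1 / 2) * Real.log (1 - chi x ^ 2)

theorem alg_aux_sub (u v : ℝ) (hu : 0 ≤ u) (hv : 0 ≤ v) (hu1 : u ≤ 1) (hv1 : v ≤ 1) :
    |u - v| ≤ (u + v) * (1 + -(u * v)) := by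
  rcases le_total v u with h | h
  · rw [abs_of_nonneg (by linarith)]
    have h2 : u * (u + v) ≤ 2 := by nlinarith
    have := mul_nonneg hv (sub_nonneg.mpr h2)
    nlinarith
  · rw [abs_of_nonpos (by linarith)]
    have h2 : v * (u + v) ≤ 2 := by nlinarith
    have := mul_nonneg hu (sub_nonneg.mpr h2)
    nlinarith

/-- `log` is Lipschitz away from zero. -/
theorem alg_log_lip {u v m : ℝ} (hm : 0 < m) (hu : m ≤ u) (hv : m ≤ v) :
    |Real.log u - Real.log v| ≤ |u - v| / m := by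
  have hu0 : 0 < u := by linarith
  have hv0 : 0 < v := by linarith
  have h1 : ∀ a b : ℝ, m ≤ a → m ≤ b → Real.log a - Real.log b ≤ |a - b| / m := by
    intro a b ha hb
    have ha0 : 0 < a := by linarith
    have hb0 : 0 < b := by linarith
    have h2 : Real.log (a / b) ≤ a / b - 1 := Real.log_le_sub_one_of_pos (by positivity)
    rw [Real.log_div ha0.ne' hb0.ne'] at h2
    have h3 : a / b - 1 = (a - b) / b := by field_simp
    rw [h3] at h2
    have h4 : (a - b) / b ≤ |a - b| / m := by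
      calc (a - b) / b ≤ |a - b| / b := by
            apply div_le_div_of_nonneg_right (le_abs_self _) hb0.le
        _ ≤ |a - b| / m := div_le_div_of_nonneg_left (abs_nonneg _) hm hb
    linarith
  rw [abs_le]
  constructor
  · have := h1 v u hv hu
    rw [abs_sub_comm] at this
    linarith
  · exact h1 u v hu hv

theorem chi_cases (x : ℝ) : (x ≤ -(1 / 2) ∧ chi x = -(1 / 2)) ∨
    (-(1 / 2) ≤ x ∧ x ≤ 1 / 2 ∧ chi x = x) ∨ (1 / 2 ≤ x ∧ chi x = 1 / 2) := by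
  unfold chi
  rcases le_total x (-(1 / 2)) with h | h
  · left
    refine ⟨h, ?_⟩
    rw [min_eq_right (by linarith), max_eq_left h]
  · rcases le_total x (1 / 2) with h2 | h2
    · right; left
      refine ⟨h, h2, ?_⟩
      rw [min_eq_right h2, max_eq_right h]
    · right; right
      refine ⟨h2, ?_⟩
      rw [min_eq_left h2, max_eq_right (by norm_num)]

theorem abs_chi_le_half (x : ℝ) : |chi x| ≤ 1 / 2 := by
  rw [abs_le]
  rcases chi_cases x with ⟨h, e⟩ | ⟨h, h2, e⟩ | ⟨h, e⟩ <;> rw [e] <;> constructor <;> linarith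

theorem abs_chi_le (x : ℝ) : |chi x| ≤ |x| := by
  rcases chi_cases x with ⟨h, e⟩ | ⟨h, h2, e⟩ | ⟨h, e⟩
  · rw [e, abs_of_nonpos (by linarith : x ≤ 0), abs_of_nonpos (by norm_num)]; linarith
  · rw [e]
  · rw [e, abs_of_nonneg (by linarith : 0 ≤ x), abs_of_nonneg (by norm_num)]; linarith

theorem abs_chi_sub_le (x x' : ℝ) : |chi x - chi x'| ≤ |x - x'| := by
  rcases chi_cases x with ⟨h, e⟩ | ⟨h, h2, e⟩ | ⟨h, e⟩ <;>
    rcases chi_cases x' with ⟨h', e'⟩ | ⟨h', h2', e'⟩ | ⟨h', e'⟩ <;>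
    rw [e, e'] <;> rw [abs_le] <;>
    constructor <;> linarith [neg_abs_le (x - x'), le_abs_self (x - x')]

theorem chi_of_abs_le {x : ℝ} (hx : |x| ≤ 1 / 2) : chi x = x := by
  have h := abs_le.mp hx
  unfold chi
  rw [min_eq_right h.2, max_eq_right h.1]

theorem one_sub_chi_sq_ge (x : ℝ) : 3 / 4 ≤ 1 - chi x ^ 2 := by
  have h := abs_le.mp (abs_chi_le_half x)
  nlinarith

theorem abs_sq_sub_sq_le (a b : ℝ) : |a ^ 2 - b ^ 2| ≤ (|a| + |b|) * |a - b| := by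
  have e : a ^ 2 - b ^ 2 = (a + b) * (a - b) := by ring
  rw [e, abs_mul]
  exact mul_le_mul_of_nonneg_right (abs_add_le a b) (abs_nonneg _)

theorem abs_mul_sub_mul_le (a b c d : ℝ) :
    |a * b - c * d| ≤ |a| * |b - d| + |d| * |a - c| := by
  have e : a * b - c * d = a * (b - d) + d * (a - c) := by ring
  rw [e]
  refine (abs_add_le _ _).trans ?_
  rw [abs_mul, abs_mul]

section
variable {θ : ℝ} (h0 : 0 ≤ θ) (h1 : θ < 1)
include h0 h1

theorem RR_ge {x y : ℝ} (hx : |x| ≤ 1) (hy : |y| ≤ 1) : (1 - θ) ^ 2 ≤ RR θ x y := by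
  have hx2 : |x * y| ≤ 1 := by
    rw [abs_mul]; exact mul_le_one₀ hx (abs_nonneg _) hy
  have hxy : x * y ≤ 1 := (le_abs_self _).trans hx2
  have hθ : 0 ≤ 1 - θ := by linarith
  unfold RR
  apply Real.le_sqrt_of_sq_le
  have key : (1 - θ ^ 2) ^ 2 + 4 * θ ^ 2 * (x ^ 2 + y ^ 2) - 4 * θ * (1 + θ ^ 2) * (x * y) -
      ((1 - θ) ^ 2) ^ 2 = 4 * θ ^ 2 * (x - y) ^ 2 + 4 * θ * (1 - θ) ^ 2 * (1 - x * y) := by ring
  have h3 : 0 ≤ 4 * θ ^ 2 * (x - y) ^ 2 := by positivity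
  have h4 : 0 ≤ 4 * θ * (1 - θ) ^ 2 * (1 - x * y) :=
    mul_nonneg (by positivity) (by linarith)
  linarith

theorem den_ge {x y : ℝ} (hx : |x| ≤ 1) (hy : |y| ≤ 1) :
    2 * (1 - θ) ^ 2 ≤ 1 + θ ^ 2 - 2 * θ * (x * y) + RR θ x y := by
  have hx2 : |x * y| ≤ 1 := by
    rw [abs_mul]; exact mul_le_one₀ hx (abs_nonneg _) hy
  have hxy : x * y ≤ 1 := (le_abs_self _).trans hx2
  have h := RR_ge h0 h1 hx hy
  have h4 : 0 ≤ 2 * θ * (1 - x * y) := mul_nonneg (by positivity) (by linarith)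
  nlinarith

theorem WW_pos {x y : ℝ} (hx : |x| ≤ 1) (hy : |y| ≤ 1) : 0 < WW θ x y := by
  have h := den_ge h0 h1 hx hy
  have hθ : 0 < 1 - θ := by linarith
  have : 0 < 2 * (1 - θ) ^ 2 := by positivity
  unfold WW
  exact div_pos (by norm_num) (by linarith)

theorem WW_le {x y : ℝ} (hx : |x| ≤ 1) (hy : |y| ≤ 1) : WW θ x y ≤ 1 / (1 - θ) ^ 2 := by
  have h := den_ge h0 h1 hx hy
  have hθ : 0 < 1 - θ := by linarith
  have h2 : 0 < (1 - θ) ^ 2 := by positivity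
  unfold WW
  rw [div_le_div_iff₀ (by linarith) h2]
  linarith

theorem WW_ge {x y : ℝ} (hx : |x| ≤ 1) (hy : |y| ≤ 1) : 1 / (2 * (1 + θ) ^ 2 + 4) ≤ WW θ x y := by
  have hx2 : |x * y| ≤ 1 := by
    rw [abs_mul]; exact mul_le_one₀ hx (abs_nonneg _) hy
  have hxy1 : x * y ≤ 1 := (le_abs_self _).trans hx2
  have hxy2 : -1 ≤ x * y := (abs_le.mp hx2).1
  have hx3 : x ^ 2 ≤ 1 := by
    have := abs_le.mp hx; nlinarith
  have hy3 : y ^ 2 ≤ 1 := by
    have := abs_le.mp hy; nlinarith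
  have hR : RR θ x y ≤ (1 + θ) ^ 2 + 4 := by
    unfold RR
    apply Real.sqrt_le_iff.mpr
    refine ⟨by positivity, ?_⟩
    have h5 : 0 ≤ 4 * θ * (1 + θ ^ 2) * (1 + x * y) := mul_nonneg (by positivity) (by linarith)
    have h6 : θ ^ 2 ≤ 1 := by nlinarith
    have h7 : (1 - θ ^ 2) ^ 2 ≤ 1 := by nlinarith [sq_nonneg θ]
    have h8 : 4 * θ ^ 2 * (x ^ 2 + y ^ 2) ≤ 8 := by nlinarith [sq_nonneg θ]
    have h9 : - (4 * θ * (1 + θ ^ 2) * (x * y)) ≤ 8 := by nlinarith [sq_nonneg θ]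
    have h10 : (5 : ℝ) ≤ (1 + θ) ^ 2 + 4 := by nlinarith
    nlinarith
  have hden := den_ge h0 h1 hx hy
  have hθ : 0 < 1 - θ := by linarith
  have h2 : 0 < 2 * (1 - θ) ^ 2 := by positivity
  have h4 : 0 ≤ 2 * θ * (1 + x * y) := mul_nonneg (by positivity) (by linarith)
  unfold WW
  rw [div_le_div_iff₀ (by positivity) (by linarith)]
  nlinarith

theorem mob_den_pos {A B : ℝ} (hA : |A| ≤ 1) (hB : |B| ≤ 1) : 0 < 1 + θ * (A * B) := by
  have h := abs_mul A B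
  have hab : |A * B| ≤ 1 := by
    rw [abs_mul]; exact mul_le_one₀ hA (abs_nonneg _) hB
  have hab2 := (abs_le.mp hab).1
  nlinarith

theorem abs_mob_le_one {a b : ℝ} (ha : |a| ≤ 1) (hb : |b| ≤ 1) : |mob a b| ≤ 1 := by
  have ha' := abs_le.mp ha
  have hb' := abs_le.mp hb
  have h0' : 0 ≤ 1 + a * b := by nlinarith
  unfold mob
  rcases eq_or_lt_of_le h0' with h | h
  · rw [← h]; simp
  · rw [abs_div, abs_of_pos h, div_le_one h, abs_le]
    constructor <;> nlinarith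

theorem abs_mob_le {a b : ℝ} (ha : |a| ≤ 1) (hb : |b| ≤ 1) : |mob a b| ≤ |a| + |b| := by
  have ha' := abs_le.mp ha
  have hb' := abs_le.mp hb
  have h0' : 0 ≤ 1 + a * b := by nlinarith
  unfold mob
  rcases eq_or_lt_of_le h0' with h | h
  · rw [← h]; simp; positivity
  · rw [abs_div, abs_of_pos h, div_le_iff₀ h]
    rcases le_total 0 a with c1 | c1 <;> rcases le_total 0 b with c2 | c2
    · rw [abs_of_nonneg c1, abs_of_nonneg c2, abs_of_nonneg (by linarith)]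
      have := mul_nonneg (add_nonneg c1 c2) (mul_nonneg c1 c2)
      nlinarith
    · have := alg_aux_sub a (-b) c1 (by linarith) ha'.2 (by linarith)
      rw [abs_of_nonneg c1, abs_of_nonpos c2]
      have e : a + b = a - -b := by ring
      have e2 : a * -b = -(a * b) := by ring
      rw [e]
      rw [e2] at this
      linarith
    · have := alg_aux_sub b (-a) c2 (by linarith) hb'.2 (by linarith)
      rw [abs_of_nonpos c1, abs_of_nonneg c2]
      have e : a + b = b - -a := by ring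
      have e2 : b * -a = -(a * b) := by ring
      rw [e]
      rw [e2] at this
      linarith
    · rw [abs_of_nonpos c1, abs_of_nonpos c2, abs_of_nonpos (by linarith)]
      have := mul_nonneg (add_nonneg (neg_nonneg.mpr c1) (neg_nonneg.mpr c2))
        (mul_nonneg_of_nonpos_of_nonpos c1 c2)
      nlinarith

theorem one_sub_mob_sq {A B : ℝ} (hA : |A| ≤ 1) (hB : |B| ≤ 1) :
    1 - mob A (θ * B) ^ 2 = (1 - A ^ 2) * (1 - θ ^ 2 * B ^ 2) / (1 + θ * (A * B)) ^ 2 := by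
  have hD := mob_den_pos h0 h1 hA hB
  unfold mob
  have e : 1 + A * (θ * B) = 1 + θ * (A * B) := by ring
  rw [e]
  have hne : (1 + θ * (A * B)) ^ 2 ≠ 0 := by positivity
  rw [div_pow, eq_div_iff hne, sub_mul, div_mul_cancel₀ _ hne]
  ring

/-- The pair function at a true pair of magnetisations. -/
theorem WW_pair {A B : ℝ} (hA : |A| ≤ 1) (hB : |B| ≤ 1) :
    WW θ (mob A (θ * B)) (mob B (θ * A)) =
      (1 + θ * (A * B)) ^ 2 / ((1 - θ ^ 2 * A ^ 2) * (1 - θ ^ 2 * B ^ 2)) := by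
  have hD := mob_den_pos h0 h1 hA hB
  have hA2 : A ^ 2 ≤ 1 := by have := abs_le.mp hA; nlinarith
  have hB2 : B ^ 2 ≤ 1 := by have := abs_le.mp hB; nlinarith
  have hθ2 : θ ^ 2 < 1 := by nlinarith
  have hpA : 0 < 1 - θ ^ 2 * A ^ 2 := by nlinarith [sq_nonneg θ, sq_nonneg A]
  have hpB : 0 < 1 - θ ^ 2 * B ^ 2 := by nlinarith [sq_nonneg θ, sq_nonneg B]
  have hAB : (A * B) ^ 2 ≤ 1 := by
    have : (A * B) ^ 2 = A ^ 2 * B ^ 2 := by ring
    rw [this]; exact mul_le_one₀ hA2 (sq_nonneg _) hB2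
  have hAB2 : 0 ≤ 1 - θ ^ 2 * (A ^ 2 * B ^ 2) := by
    have : A ^ 2 * B ^ 2 = (A * B) ^ 2 := by ring
    rw [this]
    nlinarith [sq_nonneg θ, sq_nonneg (A * B)]
  have e1 : mob A (θ * B) = (A + θ * B) / (1 + θ * (A * B)) := by
    unfold mob; rw [show 1 + A * (θ * B) = 1 + θ * (A * B) by ring]
  have e2 : mob B (θ * A) = (B + θ * A) / (1 + θ * (A * B)) := by
    unfold mob; rw [show 1 + B * (θ * A) = 1 + θ * (A * B) by ring]
  set D := 1 + θ * (A * B) with hDdef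
  have hDne : D ≠ 0 := hD.ne'
  have hR : RR θ (mob A (θ * B)) (mob B (θ * A)) =
      (1 - θ ^ 2) * (1 - θ ^ 2 * (A ^ 2 * B ^ 2)) / D ^ 2 := by
    unfold RR
    rw [e1, e2]
    have : (1 - θ ^ 2) ^ 2 + 4 * θ ^ 2 * (((A + θ * B) / D) ^ 2 + ((B + θ * A) / D) ^ 2) -
        4 * θ * (1 + θ ^ 2) * ((A + θ * B) / D * ((B + θ * A) / D)) =
        ((1 - θ ^ 2) * (1 - θ ^ 2 * (A ^ 2 * B ^ 2)) / D ^ 2) ^ 2 := by
      field_simp
      rw [hDdef]
      ring
    rw [this]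
    apply Real.sqrt_sq
    have : 0 ≤ 1 - θ ^ 2 := by linarith
    positivity
  unfold WW
  rw [hR, e1, e2]
  have hden : 1 + θ ^ 2 - 2 * θ * ((A + θ * B) / D * ((B + θ * A) / D)) +
      (1 - θ ^ 2) * (1 - θ ^ 2 * (A ^ 2 * B ^ 2)) / D ^ 2 =
      2 * (1 - θ ^ 2 * A ^ 2) * (1 - θ ^ 2 * B ^ 2) / D ^ 2 := by
    field_simp
    rw [hDdef]
    ring
  rw [hden]
  field_simp

theorem cov_pair {A B : ℝ} (hA : |A| ≤ 1) (hB : |B| ≤ 1) :
    (1 - mob A (θ * B) ^ 2) * (1 - mob B (θ * A) ^ 2) * WW θ (mob A (θ * B)) (mob B (θ * A)) =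
      (1 - A ^ 2) * (1 - B ^ 2) / (1 + θ * (A * B)) ^ 2 := by
  have hD := mob_den_pos h0 h1 hA hB
  have hA2 : A ^ 2 ≤ 1 := by have := abs_le.mp hA; nlinarith
  have hB2 : B ^ 2 ≤ 1 := by have := abs_le.mp hB; nlinarith
  have hθ2 : θ ^ 2 < 1 := by nlinarith
  have hpA : 0 < 1 - θ ^ 2 * A ^ 2 := by nlinarith [sq_nonneg θ, sq_nonneg A]
  have hpB : 0 < 1 - θ ^ 2 * B ^ 2 := by nlinarith [sq_nonneg θ, sq_nonneg B]
  rw [WW_pair h0 h1 hA hB, one_sub_mob_sq h0 h1 hA hB, one_sub_mob_sq h0 h1 hB hA,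
    show θ * (B * A) = θ * (A * B) by ring]
  generalize 1 - θ ^ 2 * A ^ 2 = P at hpA ⊢
  generalize 1 - θ ^ 2 * B ^ 2 = Q at hpB ⊢
  generalize 1 + θ * (A * B) = D at hD ⊢
  field_simp

/-- `Cov(x,y) / (1 - x²) = θ Φ(B)` at a true pair. -/
theorem cov_over_pair {A B : ℝ} (hA : |A| ≤ 1) (hB : |B| ≤ 1) :
    (1 - mob B (θ * A) ^ 2) * WW θ (mob A (θ * B)) (mob B (θ * A)) = PhiF θ B := by
  have hD := mob_den_pos h0 h1 hA hB
  have hA2 : A ^ 2 ≤ 1 := by have := abs_le.mp hA; nlinarith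
  have hB2 : B ^ 2 ≤ 1 := by have := abs_le.mp hB; nlinarith
  have hθ2 : θ ^ 2 < 1 := by nlinarith
  have hpA : 0 < 1 - θ ^ 2 * A ^ 2 := by nlinarith [sq_nonneg θ, sq_nonneg A]
  have hpB : 0 < 1 - θ ^ 2 * B ^ 2 := by nlinarith [sq_nonneg θ, sq_nonneg B]
  rw [WW_pair h0 h1 hA hB, one_sub_mob_sq h0 h1 hB hA,
    show θ * (B * A) = θ * (A * B) by ring]
  unfold PhiF
  generalize 1 - θ ^ 2 * A ^ 2 = P at hpA ⊢
  generalize 1 - θ ^ 2 * B ^ 2 = Q at hpB ⊢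
  generalize 1 + θ * (A * B) = D at hD ⊢
  field_simp

theorem PhiF_nonneg {n : ℝ} (hn : |n| ≤ 1) : 0 ≤ PhiF θ n := by
  have hn2 : n ^ 2 ≤ 1 := by have := abs_le.mp hn; nlinarith
  have hθ2 : θ ^ 2 < 1 := by nlinarith
  have hp : 0 < 1 - θ ^ 2 * n ^ 2 := by nlinarith [sq_nonneg θ, sq_nonneg n]
  unfold PhiF
  exact div_nonneg (by linarith) hp.le

theorem PhiF_le {n : ℝ} (hn : |n| ≤ 1) : PhiF θ n ≤ 1 - (1 - θ ^ 2) * n ^ 2 := by
  have hn2 : n ^ 2 ≤ 1 := by have := abs_le.mp hn; nlinarith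
  have hθ2 : θ ^ 2 < 1 := by nlinarith
  have hp : 0 < 1 - θ ^ 2 * n ^ 2 := by nlinarith [sq_nonneg θ, sq_nonneg n]
  unfold PhiF
  rw [div_le_iff₀ hp]
  have : 0 ≤ θ ^ 2 * (1 - θ ^ 2) * n ^ 4 :=
    mul_nonneg (mul_nonneg (sq_nonneg _) (by linarith)) (by positivity)
  nlinarith

theorem PhiF_le_one {n : ℝ} (hn : |n| ≤ 1) : PhiF θ n ≤ 1 := by
  have h := PhiF_le h0 h1 hn
  have hθ2 : θ ^ 2 < 1 := by nlinarith
  have : 0 ≤ (1 - θ ^ 2) * n ^ 2 := mul_nonneg (by linarith) (sq_nonneg _)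
  linarith

theorem sqrt_PhiF_le {n : ℝ} (hn : |n| ≤ 1) :
    Real.sqrt (PhiF θ n) ≤ 1 - (1 / 2) * (1 - θ ^ 2) * n ^ 2 := by
  have hn2 : n ^ 2 ≤ 1 := by have := abs_le.mp hn; nlinarith
  have hθ2 : θ ^ 2 < 1 := by nlinarith
  have h := PhiF_le h0 h1 hn
  have h3 : (1 - θ ^ 2) * n ^ 2 ≤ 1 := by nlinarith [sq_nonneg θ, sq_nonneg n]
  apply Real.sqrt_le_iff.mpr
  refine ⟨by linarith, ?_⟩
  nlinarith [sq_nonneg ((1 - θ ^ 2) * n ^ 2)]

theorem gE_nonneg {x y : ℝ} (hx : |x| ≤ 1) (hy : |y| ≤ 1) : 0 ≤ gE θ x y := by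
  have := WW_pos h0 h1 hx hy
  unfold gE
  positivity

theorem gE_sq_pair {A B : ℝ} (hA : |A| ≤ 1) (hB : |B| ≤ 1) :
    gE θ (mob A (θ * B)) (mob B (θ * A)) ^ 2 = PhiF θ A * PhiF θ B := by
  have hx := abs_mob_le_one h0 h1 (a := A) (b := θ * B) hA (by
    rw [abs_mul, abs_of_nonneg h0]; exact mul_le_one₀ h1.le (abs_nonneg _) hB)
  have hy := abs_mob_le_one h0 h1 (a := B) (b := θ * A) hB (by
    rw [abs_mul, abs_of_nonneg h0]; exact mul_le_one₀ h1.le (abs_nonneg _) hA)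
  have hx2 : 0 ≤ 1 - mob A (θ * B) ^ 2 := by have := abs_le.mp hx; nlinarith
  have hy2 : 0 ≤ 1 - mob B (θ * A) ^ 2 := by have := abs_le.mp hy; nlinarith
  have hD := mob_den_pos h0 h1 hA hB
  have hA2 : A ^ 2 ≤ 1 := by have := abs_le.mp hA; nlinarith
  have hB2 : B ^ 2 ≤ 1 := by have := abs_le.mp hB; nlinarith
  have hθ2 : θ ^ 2 < 1 := by nlinarith
  have hpA : 0 < 1 - θ ^ 2 * A ^ 2 := by nlinarith [sq_nonneg θ, sq_nonneg A]
  have hpB : 0 < 1 - θ ^ 2 * B ^ 2 := by nlinarith [sq_nonneg θ, sq_nonneg B]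
  unfold gE
  rw [mul_pow, mul_pow, Real.sq_sqrt hx2, Real.sq_sqrt hy2, WW_pair h0 h1 hA hB,
    one_sub_mob_sq h0 h1 hA hB, one_sub_mob_sq h0 h1 hB hA,
    show θ * (B * A) = θ * (A * B) by ring]
  unfold PhiF
  generalize 1 - θ ^ 2 * A ^ 2 = P at hpA ⊢
  generalize 1 - θ ^ 2 * B ^ 2 = Q at hpB ⊢
  generalize 1 + θ * (A * B) = D at hD ⊢
  field_simp

theorem gE_decay_pair {A B : ℝ} (hA : |A| ≤ 1) (hB : |B| ≤ 1) :
    gE θ (mob A (θ * B)) (mob B (θ * A)) ^ 2 ≤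
      Real.exp (-((1 - θ ^ 2) / 4) * (mob A (θ * B) ^ 2 + mob B (θ * A) ^ 2)) := by
  rw [gE_sq_pair h0 h1 hA hB]
  have hθ2 : θ ^ 2 < 1 := by nlinarith
  have hc : 0 < 1 - θ ^ 2 := by linarith
  have h1A := PhiF_le h0 h1 hA
  have h1B := PhiF_le h0 h1 hB
  have h0A := PhiF_nonneg h0 h1 hA
  have h0B := PhiF_nonneg h0 h1 hB
  have hexpA : 1 - (1 - θ ^ 2) * A ^ 2 ≤ Real.exp (-((1 - θ ^ 2) * A ^ 2)) := by
    have := Real.add_one_le_exp (-((1 - θ ^ 2) * A ^ 2)); linarith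
  have hexpB : 1 - (1 - θ ^ 2) * B ^ 2 ≤ Real.exp (-((1 - θ ^ 2) * B ^ 2)) := by
    have := Real.add_one_le_exp (-((1 - θ ^ 2) * B ^ 2)); linarith
  have hprod : PhiF θ A * PhiF θ B ≤
      Real.exp (-((1 - θ ^ 2) * A ^ 2)) * Real.exp (-((1 - θ ^ 2) * B ^ 2)) :=
    mul_le_mul (h1A.trans hexpA) (h1B.trans hexpB) h0B (Real.exp_pos _).le
  rw [← Real.exp_add] at hprod
  refine hprod.trans (Real.exp_le_exp.mpr ?_)
  have habsθB : |θ * B| ≤ |B| := by
    rw [abs_mul, abs_of_nonneg h0]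
    exact mul_le_of_le_one_left (abs_nonneg _) h1.le
  have habsθA : |θ * A| ≤ |A| := by
    rw [abs_mul, abs_of_nonneg h0]
    exact mul_le_of_le_one_left (abs_nonneg _) h1.le
  have hx := abs_mob_le h0 h1 (a := A) (b := θ * B) hA (habsθB.trans hB)
  have hy := abs_mob_le h0 h1 (a := B) (b := θ * A) hB (habsθA.trans hA)
  have hx' : |mob A (θ * B)| ≤ |A| + |B| := by linarith
  have hy' : |mob B (θ * A)| ≤ |A| + |B| := by linarith
  have hsx : mob A (θ * B) ^ 2 ≤ (|A| + |B|) ^ 2 := by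
    rw [← sq_abs (mob A (θ * B))]
    exact pow_le_pow_left₀ (abs_nonneg _) hx' 2
  have hsy : mob B (θ * A) ^ 2 ≤ (|A| + |B|) ^ 2 := by
    rw [← sq_abs (mob B (θ * A))]
    exact pow_le_pow_left₀ (abs_nonneg _) hy' 2
  have hAB : (|A| + |B|) ^ 2 ≤ 2 * (A ^ 2 + B ^ 2) := by
    have e1 : A ^ 2 = |A| ^ 2 := (sq_abs A).symm
    have e2 : B ^ 2 = |B| ^ 2 := (sq_abs B).symm
    rw [e1, e2]
    nlinarith [sq_nonneg (|A| - |B|)]
  have hsum : mob A (θ * B) ^ 2 + mob B (θ * A) ^ 2 ≤ 4 * (A ^ 2 + B ^ 2) := by linarith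
  have : (1 - θ ^ 2) / 4 * (mob A (θ * B) ^ 2 + mob B (θ * A) ^ 2) ≤
      (1 - θ ^ 2) / 4 * (4 * (A ^ 2 + B ^ 2)) :=
    mul_le_mul_of_nonneg_left hsum (by positivity)
  nlinarith

theorem continuousOn_WW : ContinuousOn (fun p : ℝ × ℝ => WW θ p.1 p.2)
    {p | |p.1| ≤ 1 ∧ |p.2| ≤ 1} := by
  unfold WW RR
  apply ContinuousOn.div continuousOn_const
  · apply Continuous.continuousOn
    fun_prop
  · rintro ⟨x, y⟩ ⟨hx, hy⟩
    have h := den_ge h0 h1 hx hy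
    have hθ : 0 < 1 - θ := by linarith
    have : 0 < 2 * (1 - θ) ^ 2 := by positivity
    unfold RR at h
    simp only
    exact (by linarith : (0 : ℝ) < _).ne'

theorem continuousOn_gE : ContinuousOn (fun p : ℝ × ℝ => gE θ p.1 p.2)
    {p | |p.1| ≤ 1 ∧ |p.2| ≤ 1} := by
  have h := continuousOn_WW h0 h1
  unfold gE
  apply ContinuousOn.mul _ h
  apply Continuous.continuousOn
  fun_prop

/-- Lipschitz bound with a small factor. -/
theorem exists_WW_lip : ∃ K : ℝ, 0 < K ∧ ∀ x y x' y' : ℝ, |x| ≤ 1 → |y| ≤ 1 → |x'| ≤ 1 → |y'| ≤ 1 →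
    |WW θ x y - WW θ x' y'| ≤ K * (|x| + |y| + |x'| + |y'|) * (|x - x'| + |y - y'|) := by
  have hθ : 0 < 1 - θ := by linarith
  have hθ2 : 0 < (1 - θ) ^ 2 := by positivity
  refine ⟨(2 + 6 / (1 - θ) ^ 2) / (2 * (1 - θ) ^ 4), by positivity, ?_⟩
  intro x y x' y' hx hy hx' hy'
  set S := |x| + |y| + |x'| + |y'| with hS
  set L := |x - x'| + |y - y'| with hL
  have hS0 : 0 ≤ S := by positivity
  have hL0 : 0 ≤ L := by positivity
  have hSL : 0 ≤ S * L := mul_nonneg hS0 hL0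
  -- products
  have hxy : |x * y - x' * y'| ≤ S * L := by
    refine (abs_mul_sub_mul_le x y x' y').trans ?_
    have h1' : |x| * |y - y'| ≤ S * L :=
      mul_le_mul (by rw [hS]; linarith [abs_nonneg y, abs_nonneg x', abs_nonneg y'])
        (by rw [hL]; linarith [abs_nonneg (x - x')]) (abs_nonneg _) hS0
    have hh : |x| * |y - y'| + |y'| * |x - x'| ≤ (|x| + |y'|) * L := by
      have := mul_nonneg (abs_nonneg x) (abs_nonneg (x - x'))
      have := mul_nonneg (abs_nonneg y') (abs_nonneg (y - y'))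
      rw [hL]; nlinarith
    refine hh.trans (mul_le_mul_of_nonneg_right ?_ hL0)
    rw [hS]; linarith [abs_nonneg y, abs_nonneg x']
  have hsq : |(x ^ 2 + y ^ 2) - (x' ^ 2 + y' ^ 2)| ≤ S * L := by
    have e : (x ^ 2 + y ^ 2) - (x' ^ 2 + y' ^ 2) = (x ^ 2 - x' ^ 2) + (y ^ 2 - y' ^ 2) := by ring
    rw [e]
    refine (abs_add_le _ _).trans ?_
    have hp1 := abs_sq_sub_sq_le x x'
    have hp2 := abs_sq_sub_sq_le y y'
    have hh : (|x| + |x'|) * |x - x'| + (|y| + |y'|) * |y - y'| ≤ S * L := by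
      have := mul_nonneg (add_nonneg (abs_nonneg x) (abs_nonneg x')) (abs_nonneg (y - y'))
      have := mul_nonneg (add_nonneg (abs_nonneg y) (abs_nonneg y')) (abs_nonneg (x - x'))
      rw [hS, hL]; nlinarith
    linarith
  -- radicand
  set Rad : ℝ → ℝ → ℝ := fun x y =>
    (1 - θ ^ 2) ^ 2 + 4 * θ ^ 2 * (x ^ 2 + y ^ 2) - 4 * θ * (1 + θ ^ 2) * (x * y) with hRad
  have hR1 := RR_ge h0 h1 hx hy
  have hR2 := RR_ge h0 h1 hx' hy'
  have hRs1 : RR θ x y ^ 2 = Rad x y := by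
    unfold RR
    apply Real.sq_sqrt
    have : 0 ≤ RR θ x y := by linarith [sq_nonneg (1 - θ)]
    have hx2 : |x * y| ≤ 1 := by
      rw [abs_mul]; exact mul_le_one₀ hx (abs_nonneg _) hy
    have hxy1 : x * y ≤ 1 := (le_abs_self _).trans hx2
    have key : (1 - θ ^ 2) ^ 2 + 4 * θ ^ 2 * (x ^ 2 + y ^ 2) - 4 * θ * (1 + θ ^ 2) * (x * y) =
      (1 - θ) ^ 4 + 4 * θ ^ 2 * (x - y) ^ 2 + 4 * θ * (1 - θ) ^ 2 * (1 - x * y) := by ring
    rw [key]
    have h4 : 0 ≤ 4 * θ * (1 - θ) ^ 2 * (1 - x * y) :=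
      mul_nonneg (by positivity) (by linarith)
    positivity
  have hRs2 : RR θ x' y' ^ 2 = Rad x' y' := by
    unfold RR
    apply Real.sq_sqrt
    have hx2 : |x' * y'| ≤ 1 := by
      rw [abs_mul]; exact mul_le_one₀ hx' (abs_nonneg _) hy'
    have hxy1 : x' * y' ≤ 1 := (le_abs_self _).trans hx2
    have key : (1 - θ ^ 2) ^ 2 + 4 * θ ^ 2 * (x' ^ 2 + y' ^ 2) -
        4 * θ * (1 + θ ^ 2) * (x' * y') =
      (1 - θ) ^ 4 + 4 * θ ^ 2 * (x' - y') ^ 2 + 4 * θ * (1 - θ) ^ 2 * (1 - x' * y') := by ring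
    rw [key]
    have h4 : 0 ≤ 4 * θ * (1 - θ) ^ 2 * (1 - x' * y') :=
      mul_nonneg (by positivity) (by linarith)
    positivity
  have hθsq : θ ^ 2 ≤ 1 := by nlinarith
  have hRadDiff : |Rad x y - Rad x' y'| ≤ 12 * (S * L) := by
    have e : Rad x y - Rad x' y' = 4 * θ ^ 2 * ((x ^ 2 + y ^ 2) - (x' ^ 2 + y' ^ 2)) -
        4 * θ * (1 + θ ^ 2) * (x * y - x' * y') := by
      simp only [hRad]; ring
    rw [e]
    refine (abs_sub _ _).trans ?_
    rw [abs_mul (4 * θ ^ 2), abs_mul (4 * θ * (1 + θ ^ 2)),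
      abs_of_nonneg (by positivity : 0 ≤ 4 * θ ^ 2),
      abs_of_nonneg (by positivity : 0 ≤ 4 * θ * (1 + θ ^ 2))]
    have t1 : 4 * θ ^ 2 * |(x ^ 2 + y ^ 2) - (x' ^ 2 + y' ^ 2)| ≤ 4 * (S * L) :=
      mul_le_mul (by linarith) hsq (abs_nonneg _) (by norm_num)
    have hc : 4 * θ * (1 + θ ^ 2) ≤ 8 := by nlinarith
    have t2 : 4 * θ * (1 + θ ^ 2) * |x * y - x' * y'| ≤ 8 * (S * L) :=
      mul_le_mul hc hxy (abs_nonneg _) (by norm_num)
    linarith
  have hRdiff : |RR θ x y - RR θ x' y'| ≤ 6 * (S * L) / (1 - θ) ^ 2 := by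
    have hpos : 0 < RR θ x y + RR θ x' y' := by linarith
    have hmul : |RR θ x y - RR θ x' y'| * (RR θ x y + RR θ x' y') = |Rad x y - Rad x' y'| := by
      rw [← hRs1, ← hRs2, show RR θ x y ^ 2 - RR θ x' y' ^ 2 =
        (RR θ x y - RR θ x' y') * (RR θ x y + RR θ x' y') by ring, abs_mul, abs_of_pos hpos]
    rw [le_div_iff₀ hθ2]
    have h5 : 2 * (1 - θ) ^ 2 ≤ RR θ x y + RR θ x' y' := by linarith
    have h6 : |RR θ x y - RR θ x' y'| * (2 * (1 - θ) ^ 2) ≤ 12 * (S * L) := by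
      calc _ ≤ |RR θ x y - RR θ x' y'| * (RR θ x y + RR θ x' y') :=
            mul_le_mul_of_nonneg_left h5 (abs_nonneg _)
        _ ≤ _ := by rw [hmul]; exact hRadDiff
    linarith
  have hDen := den_ge h0 h1 hx hy
  have hDen' := den_ge h0 h1 hx' hy'
  set Den := 1 + θ ^ 2 - 2 * θ * (x * y) + RR θ x y with hDenDef
  set Den' := 1 + θ ^ 2 - 2 * θ * (x' * y') + RR θ x' y' with hDen'Def
  have hDenPos : 0 < Den := by nlinarith
  have hDen'Pos : 0 < Den' := by nlinarith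
  have hDD : |Den - Den'| ≤ (2 + 6 / (1 - θ) ^ 2) * (S * L) := by
    have e : Den - Den' = - (2 * θ * (x * y - x' * y')) + (RR θ x y - RR θ x' y') := by
      rw [hDenDef, hDen'Def]; ring
    rw [e]
    refine (abs_add_le _ _).trans ?_
    rw [abs_neg, abs_mul, abs_of_nonneg (by positivity : 0 ≤ 2 * θ)]
    have t1 : 2 * θ * |x * y - x' * y'| ≤ 2 * (S * L) :=
      mul_le_mul (by linarith) hxy (abs_nonneg _) (by norm_num)
    have e2 : (2 + 6 / (1 - θ) ^ 2) * (S * L) = 2 * (S * L) + 6 * (S * L) / (1 - θ) ^ 2 := by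
      field_simp
    rw [e2]
    linarith
  have hWW : WW θ x y - WW θ x' y' = 2 * (Den' - Den) / (Den * Den') := by
    unfold WW
    rw [← hDenDef, ← hDen'Def]
    field_simp
  rw [hWW, abs_div, abs_mul, abs_of_pos (by positivity : 0 < Den * Den'), abs_sub_comm Den' Den,
    abs_of_pos (by norm_num : (0 : ℝ) < 2)]
  have hProd : 4 * (1 - θ) ^ 4 ≤ Den * Den' := by
    have : (2 * (1 - θ) ^ 2) * (2 * (1 - θ) ^ 2) ≤ Den * Den' :=
      mul_le_mul hDen hDen' (by positivity) hDenPos.le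
    calc 4 * (1 - θ) ^ 4 = (2 * (1 - θ) ^ 2) * (2 * (1 - θ) ^ 2) := by ring
      _ ≤ _ := this
  have hFinal : 2 * |Den - Den'| / (Den * Den') ≤ 2 * |Den - Den'| / (4 * (1 - θ) ^ 4) :=
    div_le_div_of_nonneg_left (by positivity) (by positivity) hProd
  refine hFinal.trans ?_
  have e3 : (2 + 6 / (1 - θ) ^ 2) / (2 * (1 - θ) ^ 4) * S * L =
      (2 + 6 / (1 - θ) ^ 2) * (S * L) / (2 * (1 - θ) ^ 4) := by ring
  rw [mul_assoc ((2 + 6 / (1 - θ) ^ 2) / (2 * (1 - θ) ^ 4)) S L]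
  rw [show (2 + 6 / (1 - θ) ^ 2) / (2 * (1 - θ) ^ 4) * (S * L) =
      (2 + 6 / (1 - θ) ^ 2) * (S * L) / (2 * (1 - θ) ^ 4) by ring]
  have e4 : 2 * |Den - Den'| / (4 * (1 - θ) ^ 4) = |Den - Den'| / (2 * (1 - θ) ^ 4) := by
    field_simp; ring
  rw [e4]
  exact div_le_div_of_nonneg_right hDD (by positivity)

/-- The two-edge bracket, three forms. -/
theorem exists_bracket_lip : ∃ K : ℝ, 0 < K ∧ ∀ a b x x' : ℝ, |a| ≤ 1 → |b| ≤ 1 → |x| ≤ 1 → |x'| ≤ 1 →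
    |WW θ a x * (1 - x ^ 2) * WW θ x b - WW θ a x' * (1 - x' ^ 2) * WW θ x' b| ≤
        K * (|a| + |b| + |x| + |x'|) * |x - x'| ∧
    |(1 - x ^ 2) * WW θ x b - (1 - x' ^ 2) * WW θ x' b| ≤ K * (|b| + |x| + |x'|) * |x - x'| := by
  obtain ⟨K₀, hK₀, hlip⟩ := exists_WW_lip h0 h1
  have hθ : 0 < 1 - θ := by linarith
  set M := 1 / (1 - θ) ^ 2 with hM
  have hM0 : 0 < M := by positivity
  refine ⟨4 * K₀ * M + M ^ 2 + M + 2 * K₀, by positivity, ?_⟩
  intro a b x x' ha hb hx hx'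
  have hl1 : |WW θ a x - WW θ a x'| ≤ 2 * K₀ * (|a| + |x| + |x'|) * |x - x'| := by
    have := hlip a x a x' ha hx ha hx'
    simp only [sub_self, abs_zero, zero_add] at this
    refine this.trans ?_
    apply le_of_eq_of_le (by ring : _ = K₀ * (2 * |a| + |x| + |x'|) * |x - x'|)
    apply mul_le_mul_of_nonneg_right _ (abs_nonneg _)
    have := abs_nonneg x; have := abs_nonneg x'
    nlinarith
  have hl2 : |WW θ x b - WW θ x' b| ≤ 2 * K₀ * (|b| + |x| + |x'|) * |x - x'| := by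
    have := hlip x b x' b hx hb hx' hb
    rw [sub_self b, abs_zero, add_zero] at this
    refine this.trans ?_
    apply le_of_eq_of_le (by ring : _ = K₀ * (2 * |b| + |x| + |x'|) * |x - x'|)
    apply mul_le_mul_of_nonneg_right _ (abs_nonneg _)
    have := abs_nonneg x; have := abs_nonneg x'
    nlinarith
  have hC : |(1 - x ^ 2) - (1 - x' ^ 2)| ≤ (|x| + |x'|) * |x - x'| := by
    rw [show (1 - x ^ 2) - (1 - x' ^ 2) = -(x ^ 2 - x' ^ 2) by ring, abs_neg]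
    exact abs_sq_sub_sq_le _ _
  have hWa := WW_le h0 h1 ha hx
  have hWa' := WW_le h0 h1 ha hx'
  have hWb := WW_le h0 h1 hx hb
  have hWb' := WW_le h0 h1 hx' hb
  have hWa0 := (WW_pos h0 h1 ha hx).le
  have hWa0' := (WW_pos h0 h1 ha hx').le
  have hWb0 := (WW_pos h0 h1 hx hb).le
  have hWb0' := (WW_pos h0 h1 hx' hb).le
  have hCx : 0 ≤ 1 - x ^ 2 := by have := abs_le.mp hx; nlinarith
  have hCx' : 0 ≤ 1 - x' ^ 2 := by have := abs_le.mp hx'; nlinarith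
  have hCx1 : 1 - x ^ 2 ≤ 1 := by nlinarith [sq_nonneg x]
  have hCx1' : 1 - x' ^ 2 ≤ 1 := by nlinarith [sq_nonneg x']
  set A := WW θ a x
  set A' := WW θ a x'
  set B := WW θ x b
  set B' := WW θ x' b
  set C := 1 - x ^ 2
  set C' := 1 - x' ^ 2
  set t := |x - x'|
  have ht : 0 ≤ t := abs_nonneg _
  have hax := abs_nonneg a
  have hbx := abs_nonneg b
  have hxx := abs_nonneg x
  have hxx' := abs_nonneg x'
  constructor
  · have e : A * C * B - A' * C' * B' = (A - A') * (C * B) + A' * ((C - C') * B) + A' * (C' * (B - B')) := by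
      ring
    rw [e]
    have t1 : |(A - A') * (C * B)| ≤ (2 * K₀ * (|a| + |x| + |x'|) * t) * M := by
      rw [abs_mul, abs_of_nonneg (mul_nonneg hCx hWb0)]
      apply mul_le_mul hl1 _ (mul_nonneg hCx hWb0) (by positivity)
      calc C * B ≤ 1 * M := mul_le_mul hCx1 hWb hWb0 (by norm_num)
        _ = M := one_mul _
    have t2 : |A' * ((C - C') * B)| ≤ M * (((|x| + |x'|) * t) * M) := by
      rw [abs_mul, abs_mul, abs_of_nonneg hWa0', abs_of_nonneg hWb0]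
      exact mul_le_mul hWa' (mul_le_mul hC hWb hWb0 (by positivity))
        (mul_nonneg (abs_nonneg _) hWb0) hM0.le
    have t3 : |A' * (C' * (B - B'))| ≤ M * (2 * K₀ * (|b| + |x| + |x'|) * t) := by
      rw [abs_mul, abs_mul, abs_of_nonneg hWa0', abs_of_nonneg hCx']
      apply mul_le_mul hWa' _ (mul_nonneg hCx' (abs_nonneg _)) hM0.le
      calc C' * |B - B'| ≤ 1 * |B - B'| := mul_le_mul_of_nonneg_right hCx1' (abs_nonneg _)
        _ = |B - B'| := one_mul _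
        _ ≤ _ := hl2
    have tt : |(A - A') * (C * B) + A' * ((C - C') * B) + A' * (C' * (B - B'))| ≤
        (2 * K₀ * (|a| + |x| + |x'|) * t) * M + M * (((|x| + |x'|) * t) * M) +
          M * (2 * K₀ * (|b| + |x| + |x'|) * t) :=
      (abs_add_three _ _ _).trans (add_le_add (add_le_add t1 t2) t3)
    refine tt.trans ?_
    have e2 : (2 * K₀ * (|a| + |x| + |x'|) * t) * M + M * (((|x| + |x'|) * t) * M) +
          M * (2 * K₀ * (|b| + |x| + |x'|) * t) =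
        (2 * K₀ * M * (|a| + |x| + |x'|) + M ^ 2 * (|x| + |x'|) +
          2 * K₀ * M * (|b| + |x| + |x'|)) * t := by ring
    rw [e2]
    apply mul_le_mul_of_nonneg_right _ ht
    have key : (4 * K₀ * M + M ^ 2 + M + 2 * K₀) * (|a| + |b| + |x| + |x'|) -
        (2 * K₀ * M * (|a| + |x| + |x'|) + M ^ 2 * (|x| + |x'|) +
          2 * K₀ * M * (|b| + |x| + |x'|)) =
        (2 * K₀ * M + M ^ 2) * (|a| + |b|) + (M + 2 * K₀) * (|a| + |b| + |x| + |x'|) := by ring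
    have hp : 0 ≤ (2 * K₀ * M + M ^ 2) * (|a| + |b|) := by positivity
    have hq : 0 ≤ (M + 2 * K₀) * (|a| + |b| + |x| + |x'|) := by positivity
    linarith
  · have e : C * B - C' * B' = (C - C') * B + C' * (B - B') := by ring
    rw [e]
    have t1 : |(C - C') * B| ≤ ((|x| + |x'|) * t) * M := by
      rw [abs_mul, abs_of_nonneg hWb0]
      exact mul_le_mul hC hWb hWb0 (by positivity)
    have t2 : |C' * (B - B')| ≤ 2 * K₀ * (|b| + |x| + |x'|) * t := by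
      rw [abs_mul, abs_of_nonneg hCx']
      calc C' * |B - B'| ≤ 1 * |B - B'| := mul_le_mul_of_nonneg_right hCx1' (abs_nonneg _)
        _ = |B - B'| := one_mul _
        _ ≤ _ := hl2
    refine (abs_add_le _ _).trans ((add_le_add t1 t2).trans ?_)
    have e2 : ((|x| + |x'|) * t) * M + 2 * K₀ * (|b| + |x| + |x'|) * t =
        (M * (|x| + |x'|) + 2 * K₀ * (|b| + |x| + |x'|)) * t := by ring
    rw [e2]
    apply mul_le_mul_of_nonneg_right _ ht
    have key : (4 * K₀ * M + M ^ 2 + M + 2 * K₀) * (|b| + |x| + |x'|) -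
        (M * (|x| + |x'|) + 2 * K₀ * (|b| + |x| + |x'|)) =
        (4 * K₀ * M + M ^ 2) * (|b| + |x| + |x'|) + M * |b| := by ring
    have hp : 0 ≤ (4 * K₀ * M + M ^ 2) * (|b| + |x| + |x'|) := by positivity
    have hq : 0 ≤ M * |b| := by positivity
    linarith

theorem exists_vhat_lip : ∃ K : ℝ, 0 < K ∧ ∀ x y x' y' : ℝ, |x| ≤ 1 → |y| ≤ 1 → |x'| ≤ 1 → |y'| ≤ 1 →
    |vhat θ x y - vhat θ x' y'| ≤ K * (|x| + |y| + |x'| + |y'|) * (|x - x'| + |y - y'|) := by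
  obtain ⟨K₀, hK₀, hlip⟩ := exists_WW_lip h0 h1
  have hm : 0 < 1 / (2 * (1 + θ) ^ 2 + 4) := by positivity
  set m := 1 / (2 * (1 + θ) ^ 2 + 4) with hmdef
  refine ⟨1 + K₀ / m, by positivity, ?_⟩
  intro x y x' y' hx hy hx' hy'
  set a := chi x with ha
  set b := chi y with hb
  set a' := chi x' with ha'
  set b' := chi y' with hb'
  have hab : |a| ≤ 1 := (abs_chi_le_half x).trans (by norm_num)
  have hbb : |b| ≤ 1 := (abs_chi_le_half y).trans (by norm_num)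
  have hab' : |a'| ≤ 1 := (abs_chi_le_half x').trans (by norm_num)
  have hbb' : |b'| ≤ 1 := (abs_chi_le_half y').trans (by norm_num)
  have h34a : 3 / 4 ≤ 1 - a ^ 2 := one_sub_chi_sq_ge x
  have h34b : 3 / 4 ≤ 1 - b ^ 2 := one_sub_chi_sq_ge y
  have h34a' : 3 / 4 ≤ 1 - a' ^ 2 := one_sub_chi_sq_ge x'
  have h34b' : 3 / 4 ≤ 1 - b' ^ 2 := one_sub_chi_sq_ge y'
  have hWge := WW_ge h0 h1 hab hbb
  have hWge' := WW_ge h0 h1 hab' hbb'
  have hwp := WW_pos h0 h1 hab hbb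
  have hwp' := WW_pos h0 h1 hab' hbb'
  -- the logarithm of gE
  have hlog : ∀ u v : ℝ, 3 / 4 ≤ 1 - u ^ 2 → 3 / 4 ≤ 1 - v ^ 2 → 0 < WW θ u v →
      Real.log (gE θ u v) = (1 / 2) * Real.log (1 - u ^ 2) + (1 / 2) * Real.log (1 - v ^ 2) +
        Real.log (WW θ u v) := by
    intro u v hu hv hw
    have hu0 : 0 < 1 - u ^ 2 := by linarith
    have hv0 : 0 < 1 - v ^ 2 := by linarith
    unfold gE
    rw [Real.log_mul (mul_pos (Real.sqrt_pos.mpr hu0) (Real.sqrt_pos.mpr hv0)).ne' hw.ne',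
      Real.log_mul (Real.sqrt_pos.mpr hu0).ne' (Real.sqrt_pos.mpr hv0).ne', Real.log_sqrt hu0.le,
      Real.log_sqrt hv0.le]
    ring
  have hvhat : |vhat θ x y - vhat θ x' y'| ≤
      |Real.log (gE θ a b) - Real.log (gE θ a' b')| := by
    unfold vhat
    rw [← ha, ← hb, ← ha', ← hb']
    have := abs_max_sub_max_le_abs (-Real.log (gE θ a b)) (-Real.log (gE θ a' b')) 0
    rw [max_comm 0, max_comm 0]
    refine this.trans (le_of_eq ?_)
    rw [abs_sub_comm]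
    congr 1
    ring
  refine hvhat.trans ?_
  rw [hlog a b h34a h34b hwp, hlog a' b' h34a' h34b' hwp']
  have l1 := alg_log_lip (m := 3 / 4) (by norm_num) h34a h34a'
  have l2 := alg_log_lip (m := 3 / 4) (by norm_num) h34b h34b'
  have l3 := alg_log_lip hm hWge hWge'
  have hW := hlip a b a' b' hab hbb hab' hbb'
  have hchi1 : |a| ≤ |x| := abs_chi_le x
  have hchi2 : |b| ≤ |y| := abs_chi_le y
  have hchi3 : |a'| ≤ |x'| := abs_chi_le x'
  have hchi4 : |b'| ≤ |y'| := abs_chi_le y'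
  have hd1 : |a - a'| ≤ |x - x'| := abs_chi_sub_le x x'
  have hd2 : |b - b'| ≤ |y - y'| := abs_chi_sub_le y y'
  set S := |x| + |y| + |x'| + |y'| with hS
  set L := |x - x'| + |y - y'| with hL
  have hS0 : 0 ≤ S := by positivity
  have hL0 : 0 ≤ L := by positivity
  have hW2 : |WW θ a b - WW θ a' b'| ≤ K₀ * S * L := by
    refine hW.trans ?_
    apply mul_le_mul _ (add_le_add hd1 hd2) (by positivity) (by positivity)
    apply mul_le_mul_of_nonneg_left _ hK₀.le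
    linarith
  have hsa : |(1 - a ^ 2) - (1 - a' ^ 2)| ≤ (|x| + |x'|) * |x - x'| := by
    rw [show (1 - a ^ 2) - (1 - a' ^ 2) = -(a ^ 2 - a' ^ 2) by ring, abs_neg]
    refine (abs_sq_sub_sq_le _ _).trans ?_
    exact mul_le_mul (add_le_add hchi1 hchi3) hd1 (abs_nonneg _) (by positivity)
  have hsb : |(1 - b ^ 2) - (1 - b' ^ 2)| ≤ (|y| + |y'|) * |y - y'| := by
    rw [show (1 - b ^ 2) - (1 - b' ^ 2) = -(b ^ 2 - b' ^ 2) by ring, abs_neg]
    refine (abs_sq_sub_sq_le _ _).trans ?_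
    exact mul_le_mul (add_le_add hchi2 hchi4) hd2 (abs_nonneg _) (by positivity)
  have hsum : (|x| + |x'|) * |x - x'| + (|y| + |y'|) * |y - y'| ≤ S * L := by
    have := mul_nonneg (add_nonneg (abs_nonneg x) (abs_nonneg x')) (abs_nonneg (y - y'))
    have := mul_nonneg (add_nonneg (abs_nonneg y) (abs_nonneg y')) (abs_nonneg (x - x'))
    rw [hS, hL]; nlinarith
  have e : (1 / 2) * Real.log (1 - a ^ 2) + (1 / 2) * Real.log (1 - b ^ 2) + Real.log (WW θ a b) -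
      ((1 / 2) * Real.log (1 - a' ^ 2) + (1 / 2) * Real.log (1 - b' ^ 2) + Real.log (WW θ a' b')) =
      (1 / 2) * (Real.log (1 - a ^ 2) - Real.log (1 - a' ^ 2)) +
        (1 / 2) * (Real.log (1 - b ^ 2) - Real.log (1 - b' ^ 2)) +
        (Real.log (WW θ a b) - Real.log (WW θ a' b')) := by ring
  rw [e]
  refine (abs_add_three _ _ _).trans ?_
  rw [abs_mul, abs_mul, abs_of_nonneg (by norm_num : (0 : ℝ) ≤ 1 / 2)]
  have hq1 : |Real.log (1 - a ^ 2) - Real.log (1 - a' ^ 2)| ≤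
      (|x| + |x'|) * |x - x'| / (3 / 4) :=
    l1.trans (div_le_div_of_nonneg_right hsa (by norm_num))
  have hq2 : |Real.log (1 - b ^ 2) - Real.log (1 - b' ^ 2)| ≤
      (|y| + |y'|) * |y - y'| / (3 / 4) :=
    l2.trans (div_le_div_of_nonneg_right hsb (by norm_num))
  have hq3 : |Real.log (WW θ a b) - Real.log (WW θ a' b')| ≤ K₀ * S * L / m :=
    l3.trans (div_le_div_of_nonneg_right hW2 hm.le)
  have e5 : (1 + K₀ / m) * S * L = S * L + K₀ * S * L / m := by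
    field_simp
  rw [e5]
  have hSL : 0 ≤ S * L := mul_nonneg hS0 hL0
  linarith

omit h0 h1 in
theorem shat_lip (x x' : ℝ) : |shat x - shat x'| ≤ (|x| + |x'|) * |x - x'| := by
  unfold shat
  have h := alg_log_lip (m := 3 / 4) (by norm_num) (one_sub_chi_sq_ge x) (one_sub_chi_sq_ge x')
  have e : -(1 / 2) * Real.log (1 - chi x ^ 2) - -(1 / 2) * Real.log (1 - chi x' ^ 2) =
      -(1 / 2) * (Real.log (1 - chi x ^ 2) - Real.log (1 - chi x' ^ 2)) := by ring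
  rw [e, abs_mul, abs_neg, abs_of_nonneg (by norm_num : (0 : ℝ) ≤ 1 / 2)]
  have h2 : |(1 - chi x ^ 2) - (1 - chi x' ^ 2)| ≤ (|chi x| + |chi x'|) * |chi x - chi x'| := by
    rw [show (1 - chi x ^ 2) - (1 - chi x' ^ 2) = -(chi x ^ 2 - chi x' ^ 2) by ring, abs_neg]
    exact abs_sq_sub_sq_le _ _
  have h3 : (|chi x| + |chi x'|) * |chi x - chi x'| ≤ (|x| + |x'|) * |x - x'| :=
    mul_le_mul (add_le_add (abs_chi_le x) (abs_chi_le x')) (abs_chi_sub_le x x') (abs_nonneg _)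
      (by positivity)
  have h4 : 0 ≤ (|x| + |x'|) * |x - x'| := by positivity
  have h5 : |Real.log (1 - chi x ^ 2) - Real.log (1 - chi x' ^ 2)| ≤
      (|x| + |x'|) * |x - x'| / (3 / 4) :=
    h.trans (div_le_div_of_nonneg_right (h2.trans h3) (by norm_num))
  linarith

omit h0 h1 in
theorem shat_nonneg (x : ℝ) : 0 ≤ shat x := by
  unfold shat
  have h1 := one_sub_chi_sq_ge x
  have h2 : Real.log (1 - chi x ^ 2) ≤ 0 :=
    Real.log_nonpos (by linarith) (by nlinarith [sq_nonneg (chi x)])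
  linarith

omit h0 h1 in
theorem shat_le (x : ℝ) : shat x ≤ 1 := by
  unfold shat
  have h1 := one_sub_chi_sq_ge x
  have h2 : Real.log (3 / 4) ≤ Real.log (1 - chi x ^ 2) :=
    Real.log_le_log (by norm_num) h1
  have h3 : Real.log (4 / 3) ≤ 4 / 3 - 1 := Real.log_le_sub_one_of_pos (by norm_num)
  have h4 : Real.log (3 / 4) = - Real.log (4 / 3) := by
    rw [← Real.log_inv]; norm_num
  linarith

omit h0 h1 in
theorem vhat_nonneg (x y : ℝ) : 0 ≤ vhat θ x y := le_max_left _ _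

/-- On the clamped region with `gE ≤ 1`, the exponential form of `gE`. -/
theorem exp_neg_vhat {x y : ℝ} (hx : |x| ≤ 1 / 2) (hy : |y| ≤ 1 / 2) (hg : gE θ x y ≤ 1) :
    Real.exp (-vhat θ x y) = gE θ x y := by
  unfold vhat
  rw [chi_of_abs_le hx, chi_of_abs_le hy]
  have hx1 : |x| ≤ 1 := hx.trans (by norm_num)
  have hy1 : |y| ≤ 1 := hy.trans (by norm_num)
  have hxp : 0 < 1 - x ^ 2 := by have := abs_le.mp hx; nlinarith
  have hyp : 0 < 1 - y ^ 2 := by have := abs_le.mp hy; nlinarith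
  have hpos : 0 < gE θ x y := by
    unfold gE
    have := WW_pos h0 h1 hx1 hy1
    have := Real.sqrt_pos.mpr hxp
    have := Real.sqrt_pos.mpr hyp
    positivity
  have hlog : Real.log (gE θ x y) ≤ 0 := Real.log_nonpos hpos.le hg
  rw [max_eq_right (by linarith), neg_neg, Real.exp_log hpos]

omit h0 h1 in
theorem exp_neg_shat {x : ℝ} (hx : |x| ≤ 1 / 2) :
    Real.exp (-shat x) = Real.sqrt (1 - x ^ 2) := by
  unfold shat
  rw [chi_of_abs_le hx]
  have hx2 : 0 < 1 - x ^ 2 := by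
    have := abs_le.mp hx; nlinarith
  have : Real.log (Real.sqrt (1 - x ^ 2)) = Real.log (1 - x ^ 2) / 2 := by
    rw [Real.log_sqrt hx2.le]
  have e : - (-(1 / 2) * Real.log (1 - x ^ 2)) = Real.log (Real.sqrt (1 - x ^ 2)) := by
    rw [this]; ring
  rw [e, Real.exp_log (Real.sqrt_pos.mpr hx2)]

end

end Crest.Agent.Lib.IT
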