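/-
The final real-analysis argument of statement S0241: an integrated differential inequality on the
dyadic rationals forces the function to vanish.
-/
import Mathlib

set_option autoImplicit false

namespace Crest.Agent.Lib.IT

/-- The dyadic time `k / 2 ^ n`. -/
noncomputable def tdy (n k : ℕ) : ℝ := (k : ℝ) / 2 ^ n

/-- Hypotheses on the dyadic function `D` and its formal derivative bound `V`. -/
structure GronHyp (D V : ℕ → ℕ → ℝ) (C3 C4 C5 t0 : ℝ) : Prop where
  cons : ∀ n k, D (n + 1) (2 * k) = D n k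
  nonneg : ∀ n k, 0 ≤ D n k
  le_one : ∀ n k, D n k ≤ 1 / 2
  mono : ∀ n k, D n k ≤ D n (k + 1)
  Vnonneg : ∀ n k, 0 ≤ V n k
  /-- The integrated inequality, on fine enough grids. -/
  integ : ∀ n k₁ k₂, 0 < k₁ → k₁ ≤ k₂ → ∀ ε : ℝ, 0 < ε → ∃ r₀, ∀ r, r₀ ≤ r →
    D n k₂ - D n k₁ ≤
      ∑ j ∈ Finset.Ico (k₁ * 2 ^ r) (k₂ * 2 ^ r), (1 / 2 ^ (n + r) : ℝ) * V (n + r) j + ε
  /-- `D` vanishes at time zero. -/
  small : ∀ ε : ℝ, 0 < ε → ∃ δ : ℝ, 0 < δ ∧ ∀ n k, tdy n k < δ → D n k ≤ ε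
  /-- The propagation bound (Step B), for all positive times. -/
  stepB : ∀ n k, 0 < k →
    V n k ≤ D n k * (C3 / tdy n k + C4 + C5 * Real.log (1 / D n k))
  /-- The a priori bound (Step A), for small times, every exponent `p = 2 ^ j`. -/
  stepA : ∀ j : ℕ, 2 ≤ j → ∃ C : ℝ, 0 < C ∧ ∀ n k, 0 < k → tdy n k ≤ t0 →
    V n k ≤ C * ((tdy n k) ^ (-(3 / 4) : ℝ) * (D n k) ^ (1 - 1 / (2 : ℝ) ^ j) +
      (tdy n k) ^ ((2 : ℝ) ^ j / 2 - 2))

namespace GronwallAux

variable {D V : ℕ → ℕ → ℝ} {C3 C4 C5 t0 : ℝ}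

lemma tdy_nonneg (n k : ℕ) : 0 ≤ tdy n k := by unfold tdy; positivity

lemma tdy_pos (n : ℕ) {k : ℕ} (hk : 0 < k) : 0 < tdy n k := by
  unfold tdy; positivity

lemma tdy_shift (n r k : ℕ) : tdy (n + r) (k * 2 ^ r) = tdy n k := by
  unfold tdy
  push_cast
  rw [pow_add]
  field_simp

lemma tdy_succ (n k : ℕ) : tdy (n + 1) k = tdy n k / 2 := by
  unfold tdy
  rw [pow_succ]
  field_simp

lemma tdy_add (n i k : ℕ) : tdy (n + i) k = tdy n k * (1 / 2) ^ i := by
  unfold tdy
  rw [pow_add, one_div, inv_pow]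
  field_simp

lemma tdy_mono (n : ℕ) {k₁ k₂ : ℕ} (h : k₁ ≤ k₂) : tdy n k₁ ≤ tdy n k₂ := by
  unfold tdy
  gcongr

lemma D_shift (h : GronHyp D V C3 C4 C5 t0) (n r k : ℕ) : D (n + r) (k * 2 ^ r) = D n k := by
  induction r with
  | zero => simp
  | succ r ih =>
    rw [show n + (r + 1) = (n + r) + 1 by ring, show k * 2 ^ (r + 1) = 2 * (k * 2 ^ r) by ring,
      h.cons, ih]

lemma D_mono (h : GronHyp D V C3 C4 C5 t0) (n : ℕ) : Monotone (D n) :=
  monotone_nat_of_le_succ (h.mono n)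

lemma D_le_one (h : GronHyp D V C3 C4 C5 t0) (n k : ℕ) : D n k ≤ 1 := by
  have := h.le_one n k; linarith

/-- The points of a fine grid inside a cell. -/
lemma range_facts (h : GronHyp D V C3 C4 C5 t0) {n k₁ k₂ r j : ℕ} (hk₁ : 0 < k₁)
    (h1 : k₁ * 2 ^ r ≤ j) (h2 : j < k₂ * 2 ^ r) :
    0 < j ∧ tdy n k₁ ≤ tdy (n + r) j ∧ tdy (n + r) j ≤ tdy n k₂ ∧ D (n + r) j ≤ D n k₂ := by
  refine ⟨lt_of_lt_of_le (by positivity) h1, ?_, ?_, ?_⟩
  · rw [← tdy_shift n r k₁]
    exact tdy_mono _ h1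
  · rw [← tdy_shift n r k₂]
    exact tdy_mono _ h2.le
  · rw [← D_shift h n r k₂]
    exact D_mono h _ h2.le

lemma cell_bound (h : GronHyp D V C3 C4 C5 t0) {n k₁ k₂ : ℕ} (hk₁ : 0 < k₁) (hk : k₁ ≤ k₂)
    (W : ℝ) (hW : ∀ r j, k₁ * 2 ^ r ≤ j → j < k₂ * 2 ^ r → V (n + r) j ≤ W) :
    D n k₂ - D n k₁ ≤ ((k₂ : ℝ) - k₁) / 2 ^ n * W := by
  apply le_of_forall_pos_le_add
  intro ε hε
  obtain ⟨r₀, hr₀⟩ := h.integ n k₁ k₂ hk₁ hk ε hε
  refine (hr₀ r₀ le_rfl).trans ?_
  gcongr ?_ + _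
  calc ∑ j ∈ Finset.Ico (k₁ * 2 ^ r₀) (k₂ * 2 ^ r₀), (1 / 2 ^ (n + r₀) : ℝ) * V (n + r₀) j
      ≤ ∑ j ∈ Finset.Ico (k₁ * 2 ^ r₀) (k₂ * 2 ^ r₀), (1 / 2 ^ (n + r₀) : ℝ) * W := by
        apply Finset.sum_le_sum
        intro j hj
        rw [Finset.mem_Ico] at hj
        exact mul_le_mul_of_nonneg_left (hW r₀ j hj.1 hj.2) (by positivity)
    _ = ((k₂ : ℝ) - k₁) / 2 ^ n * W := by
        rw [Finset.sum_const, Nat.card_Ico, nsmul_eq_mul,
          Nat.cast_sub (Nat.mul_le_mul_right _ hk)]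
        push_cast
        rw [pow_add]
        field_simp

lemma psi_mono {a c x y : ℝ} (hc : 0 ≤ c) (hac : c ≤ a) (hx : 0 ≤ x) (hxy : x ≤ y) (hy : y ≤ 1) :
    x * (a + c * Real.log (1 / x)) ≤ y * (a + c * Real.log (1 / y)) := by
  have hy0 : 0 ≤ y := hx.trans hxy
  have hL : 0 ≤ Real.log (1 / y) := by
    rcases hy0.eq_or_lt with rfl | hh
    · simp
    · exact Real.log_nonneg (by rw [le_div_iff₀ hh]; linarith)
  rcases hx.eq_or_lt with rfl | hx0
  · simp only [zero_mul]
    exact mul_nonneg hy0 (add_nonneg (hc.trans hac) (mul_nonneg hc hL))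
  · have hy1 : 0 < y := lt_of_lt_of_le hx0 hxy
    have h1 : Real.log (1 / x) = Real.log (1 / y) + Real.log (y / x) := by
      rw [← Real.log_mul (by positivity) (by positivity)]
      congr 1
      field_simp
    have h2 : Real.log (y / x) ≤ y / x - 1 := Real.log_le_sub_one_of_pos (by positivity)
    have h4 : x * Real.log (y / x) ≤ y - x := by
      calc x * Real.log (y / x) ≤ x * (y / x - 1) := mul_le_mul_of_nonneg_left h2 hx0.le
        _ = y - x := by field_simp
    rw [h1]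
    have h5 : 0 ≤ (y - x) * (a - c + c * Real.log (1 / y)) :=
      mul_nonneg (by linarith) (add_nonneg (by linarith) (mul_nonneg hc hL))
    have h6 := mul_le_mul_of_nonneg_left h4 hc
    nlinarith

lemma step_real {x y A : ℝ} (hy : 0 < y) (hA0 : 0 ≤ A) (hA : A ≤ 1 / 2) (hxy : y - x ≤ A * y) :
    0 < x ∧ Real.log (1 / x) ≤ Real.log (1 / y) + 2 * A := by
  have hx : (1 - A) * y ≤ x := by linarith
  have hx0 : 0 < x := lt_of_lt_of_le (mul_pos (by linarith) hy) hx
  refine ⟨hx0, ?_⟩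
  have h1 : Real.log (1 / x) = Real.log (1 / y) + Real.log (y / x) := by
    rw [← Real.log_mul (by positivity) (by positivity)]
    congr 1
    field_simp
  have h2 : Real.log (y / x) ≤ y / x - 1 := Real.log_le_sub_one_of_pos (by positivity)
  have h3 : y / x - 1 ≤ 2 * A := by
    rw [sub_le_iff_le_add, div_le_iff₀ hx0]
    have h7 : y ≤ (2 * A + 1) * ((1 - A) * y) := by
      have : 0 ≤ A * (1 - 2 * A) * y := by
        apply mul_nonneg (mul_nonneg hA0 (by linarith)) hy.le
      nlinarith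
    exact h7.trans (mul_le_mul_of_nonneg_left hx (by linarith))
  linarith

/-- The integrated form of Step B on a cell. -/
lemma cell_B (h : GronHyp D V C3 C4 C5 t0) (hC3 : 0 ≤ C3) (hC4 : 0 ≤ C4) (hC5 : 0 < C5)
    {n k₁ k₂ : ℕ} (hk₁ : 0 < k₁) (hk : k₁ ≤ k₂) :
    D n k₂ - D n k₁ ≤ ((k₂ : ℝ) - k₁) / 2 ^ n *
      (D n k₂ * (C3 / tdy n k₁ + (C4 + C5) + C5 * Real.log (1 / D n k₂))) := by
  apply cell_bound h hk₁ hk
  intro r j h1 h2
  obtain ⟨hj, hτ1, -, hDj⟩ := range_facts h (n := n) hk₁ h1 h2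
  have hτ : 0 < tdy n k₁ := tdy_pos n hk₁
  have hD0 := h.nonneg (n + r) j
  have hb := h.stepB (n + r) j hj
  have h3 : C3 / tdy (n + r) j ≤ C3 / tdy n k₁ :=
    div_le_div_of_nonneg_left hC3 hτ hτ1
  have h4 : D (n + r) j * (C3 / tdy (n + r) j + C4 + C5 * Real.log (1 / D (n + r) j)) ≤
      D (n + r) j * ((C3 / tdy n k₁ + (C4 + C5)) + C5 * Real.log (1 / D (n + r) j)) := by
    apply mul_le_mul_of_nonneg_left _ hD0
    linarith
  have hpos : 0 ≤ C3 / tdy n k₁ := div_nonneg hC3 hτ.le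
  have h5 := psi_mono (a := C3 / tdy n k₁ + (C4 + C5)) (c := C5) hC5.le (by linarith) hD0 hDj
    (D_le_one h n k₂)
  linarith

/-- One halving block of the backward Gronwall argument. -/
lemma block (h : GronHyp D V C3 C4 C5 t0) (hC3 : 0 ≤ C3) (hC4 : 0 ≤ C4) (hC5 : 0 < C5)
    {n k : ℕ} (hk : 0 < k) (hD : 0 < D n k) :
    0 < D (n + 1) k ∧ Real.log (1 / D (n + 1) k) ≤
      Real.exp (tdy n k * C5) * (Real.log (1 / D n k) + 2 * C3 + tdy n k * (C4 + C5)) := by
  set t := tdy n k with ht_def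
  set u0 := Real.log (1 / D n k) with hu0_def
  set c := C4 + C5 with hc_def
  have hc : 0 < c := by positivity
  have ht : 0 < t := tdy_pos n hk
  have hu_nonneg : ∀ y : ℝ, 0 < y → y ≤ 1 → 0 ≤ Real.log (1 / y) := fun y hy hy1 =>
    Real.log_nonneg (by rw [le_div_iff₀ hy]; linarith)
  have hu0 : 0 ≤ u0 := hu_nonneg _ hD (D_le_one h n k)
  set Ubar := Real.exp (t * C5) * (u0 + 2 * C3 + t * c) with hUbar
  have hUbar0 : 0 ≤ Ubar := by positivity
  obtain ⟨m, hm⟩ := pow_unbounded_of_one_lt (2 * C3 + t * c + t * C5 * Ubar + 1)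
    (one_lt_two : (1 : ℝ) < 2)
  set J : ℕ := 2 ^ m with hJ_def
  have hJ_cast : (J : ℝ) = 2 ^ m := by simp [hJ_def]
  have hJ0 : (0 : ℝ) < J := by rw [hJ_cast]; positivity
  have hJbig : 2 * C3 + t * c + t * C5 * Ubar ≤ J := by rw [hJ_cast]; linarith
  set N := n + 1 + m with hN_def
  set f : ℕ → ℝ := fun i => D N ((J + i) * k) with hf_def
  have hf0 : f 0 = D (n + 1) k := by
    simp only [hf_def, add_zero, hJ_def, hN_def]
    rw [mul_comm]
    exact D_shift h (n + 1) m k
  have hfJ : f J = D n k := by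
    simp only [hf_def, hJ_def, hN_def]
    rw [show n + 1 + m = n + (m + 1) by ring,
      show (2 ^ m + 2 ^ m) * k = k * 2 ^ (m + 1) by ring]
    exact D_shift h n (m + 1) k
  set q : ℝ := 1 + t * C5 / J with hq_def
  set r : ℝ := (2 * C3 + t * c) / J with hr_def
  have hq1 : 1 ≤ q := by
    have : 0 ≤ t * C5 / J := by positivity
    linarith
  have hr0 : 0 ≤ r := by positivity
  have hJr : (J : ℝ) * r = 2 * C3 + t * c := by
    rw [hr_def]; field_simp
  have hqJ : q ^ J ≤ Real.exp (t * C5) := by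
    have h1 : q ≤ Real.exp (t * C5 / J) := by
      have := Real.add_one_le_exp (t * C5 / J)
      rw [hq_def]; linarith
    calc q ^ J ≤ (Real.exp (t * C5 / J)) ^ J := pow_le_pow_left₀ (by linarith) h1 _
      _ = Real.exp (t * C5) := by
        rw [← Real.exp_nat_mul]
        congr 1
        field_simp
  have claim : ∀ j : ℕ, j ≤ J → ∀ i, i + j = J → 0 < f i ∧
      Real.log (1 / f i) ≤ q ^ j * (u0 + j * r) := by
    intro j
    induction j with
    | zero =>
      intro _ i hi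
      have : i = J := by omega
      subst this
      rw [hfJ]
      simp only [pow_zero, one_mul, Nat.cast_zero, zero_mul, add_zero]
      exact ⟨hD, le_rfl⟩
    | succ j ih =>
      intro hj i hi
      obtain ⟨hpos, hlog⟩ := ih (by omega) (i + 1) (by omega)
      set y := f (i + 1) with hy_def
      set u := Real.log (1 / y) with hu_def
      have hy1 : y ≤ 1 := D_le_one h _ _
      have hu : 0 ≤ u := hu_nonneg y hpos hy1
      -- the bound on `u`
      have hubar : u ≤ Ubar := by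
        refine hlog.trans ?_
        have h1 : q ^ j ≤ q ^ J := pow_le_pow_right₀ hq1 (by omega)
        have h2 : (j : ℝ) * r ≤ J * r :=
          mul_le_mul_of_nonneg_right (by exact_mod_cast (by omega : j ≤ J)) hr0
        have h3 : u0 + j * r ≤ u0 + 2 * C3 + t * c := by rw [hJr] at h2; linarith
        have h4 : 0 ≤ u0 + j * r := by positivity
        calc q ^ j * (u0 + j * r) ≤ Real.exp (t * C5) * (u0 + 2 * C3 + t * c) :=
              mul_le_mul (h1.trans hqJ) h3 h4 (Real.exp_pos _).le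
          _ = Ubar := rfl
      -- the cell
      have hcell := cell_B h hC3 hC4 hC5 (n := N) (k₁ := (J + i) * k) (k₂ := (J + (i + 1)) * k)
        (by positivity) (Nat.mul_le_mul_right _ (by omega))
      have hh : ((((J + (i + 1)) * k : ℕ) : ℝ) - (((J + i) * k : ℕ) : ℝ)) / 2 ^ N = t / (2 * J) := by
        push_cast
        rw [ht_def]
        unfold tdy
        rw [hN_def, pow_add, pow_succ, hJ_cast]
        field_simp
        ring
      rw [hh] at hcell
      have ha : t / 2 ≤ tdy N ((J + i) * k) := by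
        have : tdy N (J * k) = t / 2 := by
          rw [hN_def, hJ_def, mul_comm (2 ^ m) k, tdy_shift, tdy_succ]
        rw [← this]
        exact tdy_mono _ (Nat.mul_le_mul_right _ (by omega))
      have hC3a : C3 / tdy N ((J + i) * k) ≤ 2 * C3 / t := by
        have h1 : C3 / tdy N ((J + i) * k) ≤ C3 / (t / 2) :=
          div_le_div_of_nonneg_left hC3 (by positivity) ha
        have h2 : C3 / (t / 2) = 2 * C3 / t := by field_simp
        linarith
      set A : ℝ := (2 * C3 + t * c + t * C5 * u) / (2 * J) with hA_def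
      have hA0 : 0 ≤ A := by positivity
      have hA1 : A ≤ 1 / 2 := by
        rw [hA_def, div_le_iff₀ (by positivity)]
        have : t * C5 * u ≤ t * C5 * Ubar := mul_le_mul_of_nonneg_left hubar (by positivity)
        linarith
      have hstep : y - f i ≤ A * y := by
        refine hcell.trans ?_
        have h1 : t / (2 * J) * (y * (C3 / tdy N ((J + i) * k) + c + C5 * u)) ≤
            t / (2 * J) * (y * (2 * C3 / t + c + C5 * u)) := by
          apply mul_le_mul_of_nonneg_left _ (by positivity)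
          apply mul_le_mul_of_nonneg_left _ hpos.le
          linarith
        have h2 : t / (2 * J) * (y * (2 * C3 / t + c + C5 * u)) = A * y := by
          rw [hA_def]
          field_simp
        rw [← h2]
        exact h1
      obtain ⟨hpos', hlog'⟩ := step_real hpos hA0 hA1 hstep
      refine ⟨hpos', hlog'.trans ?_⟩
      have h1 : u + 2 * A = q * u + r := by
        rw [hA_def, hq_def, hr_def]
        field_simp
        ring
      rw [h1]
      have h2 : q * u ≤ q * (q ^ j * (u0 + j * r)) :=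
        mul_le_mul_of_nonneg_left hlog (by linarith)
      have h3 : r ≤ q ^ (j + 1) * r :=
        le_mul_of_one_le_left hr0 (one_le_pow₀ hq1)
      calc q * u + r ≤ q * (q ^ j * (u0 + j * r)) + q ^ (j + 1) * r := add_le_add h2 h3
        _ = q ^ (j + 1) * (u0 + ((j + 1 : ℕ) : ℝ) * r) := by
          push_cast
          ring
  obtain ⟨hpos, hlog⟩ := claim J le_rfl 0 (by omega)
  rw [hf0] at hpos hlog
  refine ⟨hpos, hlog.trans ?_⟩
  rw [hJr]
  have h4 : 0 ≤ u0 + (2 * C3 + t * c) := by positivity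
  calc q ^ J * (u0 + (2 * C3 + t * c)) ≤ Real.exp (t * C5) * (u0 + (2 * C3 + t * c)) :=
        mul_le_mul_of_nonneg_right hqJ h4
    _ = Real.exp (t * C5) * (u0 + 2 * C3 + t * c) := by ring

/-- Iteration of the halving block. -/
lemma iter (h : GronHyp D V C3 C4 C5 t0) (hC3 : 0 ≤ C3) (hC4 : 0 ≤ C4) (hC5 : 0 < C5)
    {n k : ℕ} (hk : 0 < k) (hD : 0 < D n k) (i : ℕ) :
    0 < D (n + i) k ∧ Real.log (1 / D (n + i) k) ≤
      Real.exp (tdy n k * C5 * ∑ l ∈ Finset.range i, (1 / 2 : ℝ) ^ l) *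
        (Real.log (1 / D n k) + i * (2 * C3 + tdy n k * (C4 + C5))) := by
  set t := tdy n k with ht_def
  set u0 := Real.log (1 / D n k) with hu0_def
  set B := 2 * C3 + t * (C4 + C5) with hB_def
  have ht : 0 < t := tdy_pos n hk
  have hB : 0 ≤ B := by positivity
  have hu0 : 0 ≤ u0 :=
    Real.log_nonneg (by rw [le_div_iff₀ hD]; linarith [D_le_one h n k])
  induction i with
  | zero =>
    simp only [add_zero, Finset.range_zero, Finset.sum_empty, mul_zero, Real.exp_zero, one_mul,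
      Nat.cast_zero, zero_mul]
    exact ⟨hD, le_rfl⟩
  | succ i ih =>
    obtain ⟨hpos, hlog⟩ := ih
    obtain ⟨hpos', hlog'⟩ := block h hC3 hC4 hC5 (n := n + i) hk hpos
    refine ⟨hpos', ?_⟩
    rw [show n + (i + 1) = n + i + 1 by ring]
    refine hlog'.trans ?_
    rw [tdy_add, ← ht_def]
    set a : ℝ := (1 / 2) ^ i with ha_def
    have ha0 : 0 ≤ a := by positivity
    have ha1 : a ≤ 1 := pow_le_one₀ (by norm_num) (by norm_num)
    set E := Real.exp (t * C5 * ∑ l ∈ Finset.range i, (1 / 2 : ℝ) ^ l) with hE_def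
    have hE1 : 1 ≤ E := by
      rw [hE_def]
      apply Real.one_le_exp
      have : 0 ≤ ∑ l ∈ Finset.range i, (1 / 2 : ℝ) ^ l :=
        Finset.sum_nonneg (fun _ _ => by positivity)
      positivity
    have hexp : Real.exp (t * C5 * ∑ l ∈ Finset.range (i + 1), (1 / 2 : ℝ) ^ l) =
        Real.exp (t * a * C5) * E := by
      rw [Finset.sum_range_succ, hE_def, ← Real.exp_add]
      congr 1
      ring
    rw [hexp, mul_assoc (Real.exp (t * a * C5))]
    have hC45 : tdy (n + i) k = t * a := by rw [tdy_add]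
    rw [show t * a * C5 = t * a * C5 from rfl]
    apply mul_le_mul_of_nonneg_left _ (Real.exp_pos _).le
    have h1 : t * a * (C4 + C5) ≤ t * (C4 + C5) := by
      have : 0 ≤ t * (C4 + C5) := by positivity
      nlinarith
    have h2 : (2 * C3 + t * (C4 + C5)) ≤ E * B := le_mul_of_one_le_left hB hE1
    push_cast
    nlinarith

lemma absorb {x H e p : ℝ} (hp : 1 ≤ p) (hx : 0 ≤ x) (hH : 0 ≤ H) (he : 0 ≤ e)
    (hh : x ≤ H * x ^ (1 - 1 / p) + e) : x ≤ (2 * H) ^ p + 2 * e := by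
  have hp0 : 0 < p := by linarith
  have hrhs : 0 ≤ (2 * H) ^ p := Real.rpow_nonneg (by positivity) _
  by_cases hc : H * x ^ (1 - 1 / p) ≤ e
  · linarith
  · push Not at hc
    rcases hx.eq_or_lt with rfl | hx0
    · linarith
    · have h2 : x < 2 * H * x ^ (1 - 1 / p) := by linarith
      have h3 : x = x ^ (1 / p) * x ^ (1 - 1 / p) := by
        rw [← Real.rpow_add hx0]
        simp
      have hpos : 0 < x ^ (1 - 1 / p) := Real.rpow_pos_of_pos hx0 _
      have h4 : x ^ (1 / p) ≤ 2 * H := by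
        have : x ^ (1 / p) * x ^ (1 - 1 / p) ≤ 2 * H * x ^ (1 - 1 / p) := by
          rw [← h3]; exact h2.le
        exact le_of_mul_le_mul_right this hpos
      have h5 : x = (x ^ (1 / p)) ^ p := by
        rw [← Real.rpow_mul hx]
        rw [one_div, inv_mul_cancel₀ hp0.ne', Real.rpow_one]
      have h6 : x ≤ (2 * H) ^ p := by
        rw [h5]
        exact Real.rpow_le_rpow (Real.rpow_nonneg hx _) h4 hp0.le
      linarith

/-- The superpolynomial smallness of `D` (Step 1). -/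
lemma apriori (h : GronHyp D V C3 C4 C5 t0) (j : ℕ) (hj : 2 ≤ j) :
    ∃ C : ℝ, 0 < C ∧ ∀ n k, 0 < k → tdy n k ≤ t0 → tdy n k ≤ 1 →
      D n k ≤ C * (tdy n k) ^ (2 ^ (j - 2)) := by
  obtain ⟨C, hC, hA⟩ := h.stepA j hj
  set p : ℝ := 2 ^ j with hp_def
  have hp4 : 4 ≤ p := by
    have h1 : (2 : ℝ) ^ 2 ≤ 2 ^ j := pow_le_pow_right₀ (by norm_num) hj
    rw [hp_def]
    norm_num at h1
    linarith
  set q : ℝ := (1 / 2) ^ (1 / 4 : ℝ) with hq_def
  have hq0 : 0 < q := by positivity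
  have hq1 : q < 1 := Real.rpow_lt_one (by norm_num) (by norm_num) (by norm_num)
  set K : ℝ := 1 / (1 - q) with hK_def
  have hK0 : 0 < K := by
    rw [hK_def]
    apply div_pos one_pos
    linarith
  have hsumq : ∀ N : ℕ, ∑ i ∈ Finset.range N, q ^ (i + 1) ≤ K := by
    intro N
    have h1 : ∑ i ∈ Finset.range N, q ^ (i + 1) ≤ ∑ i ∈ Finset.range N, q ^ i + 0 := by
      have : ∑ i ∈ Finset.range N, q ^ (i + 1) = q * ∑ i ∈ Finset.range N, q ^ i := by
        rw [Finset.mul_sum]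
        exact Finset.sum_congr rfl (fun i _ => by ring)
      rw [this, add_zero]
      have h0 : 0 ≤ ∑ i ∈ Finset.range N, q ^ i := Finset.sum_nonneg (fun _ _ => by positivity)
      nlinarith
    have h2 : ∑ i ∈ Finset.range N, q ^ i ≤ K := by
      rw [geom_sum_eq hq1.ne, hK_def]
      have h3 : 0 < 1 - q := by linarith
      rw [show (q ^ N - 1) / (q - 1) = (1 - q ^ N) / (1 - q) by
        rw [← neg_div_neg_eq]; ring_nf]
      apply div_le_div_of_nonneg_right _ h3.le
      have : 0 ≤ q ^ N := by positivity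
      linarith
    linarith
  have hsum2 : ∀ N : ℕ, ∑ i ∈ Finset.range N, (1 / 2 : ℝ) ^ (i + 1) ≤ 1 := by
    intro N
    have : ∑ i ∈ Finset.range N, (1 / 2 : ℝ) ^ (i + 1) =
        (1 / 2) * ∑ i ∈ Finset.range N, (1 / 2 : ℝ) ^ i := by
      rw [Finset.mul_sum]
      exact Finset.sum_congr rfl (fun i _ => by ring)
    rw [this]
    have := sum_geometric_two_le N
    linarith
  refine ⟨(2 * (C * K)) ^ p + 2 * C, by positivity, ?_⟩
  intro n k hk ht0 ht1
  set t := tdy n k with ht_def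
  have ht : 0 < t := tdy_pos n hk
  set x := D n k with hx_def
  have hx0 : 0 ≤ x := h.nonneg n k
  set X := x ^ (1 - 1 / p) with hX_def
  have hX0 : 0 ≤ X := Real.rpow_nonneg hx0 _
  have hexp1 : 0 ≤ 1 - 1 / p := by
    have : 1 / p ≤ 1 := by
      rw [div_le_one (by linarith)]
      linarith
    linarith
  have hle : ∀ i, D (n + i) k ≤ x := by
    intro i
    induction i with
    | zero => simp [hx_def]
    | succ i ih =>
      have h1 : D (n + (i + 1)) k ≤ D (n + (i + 1)) (2 * k) := D_mono h _ (by omega)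
      rw [show n + (i + 1) = n + i + 1 by ring] at h1 ⊢
      rw [h.cons] at h1
      linarith
  have hone : ∀ i : ℕ, D (n + i) k - D (n + i + 1) k ≤
      C * (t ^ (1 / 4 : ℝ) * X * q ^ (i + 1) + t ^ (p / 2 - 1) * (1 / 2) ^ (i + 1)) := by
    intro i
    have hs_def : tdy (n + i + 1) k = t * (1 / 2) ^ (i + 1) := by
      rw [show n + i + 1 = n + (i + 1) by ring, tdy_add]
    set s := t * (1 / 2 : ℝ) ^ (i + 1) with hs
    have hs0 : 0 < s := by positivity
    have hcell := cell_bound h (n := n + i + 1) (k₁ := k) (k₂ := 2 * k) hk (by omega)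
      (C * (s ^ (-(3 / 4) : ℝ) * X + t ^ (p / 2 - 2))) (by
        intro r j h1 h2
        obtain ⟨hj0, hτ1, hτ2, hDj⟩ := range_facts h (n := n + i + 1) hk h1 h2
        rw [hs_def] at hτ1
        have hτ3 : tdy (n + i + 1) (2 * k) ≤ t := by
          have h3 : tdy (n + i + 1) (2 * k) = t * (1 / 2) ^ i := by
            rw [ht_def, tdy_succ, ← tdy_add] ; unfold tdy; push_cast; field_simp
          rw [h3]
          have : (1 / 2 : ℝ) ^ i ≤ 1 := pow_le_one₀ (by norm_num) (by norm_num)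
          nlinarith
        have hτ4 := hτ2.trans hτ3
        have hDj2 : D (n + i + 1 + r) j ≤ x := by
          rw [h.cons] at hDj
          exact hDj.trans (hle i)
        refine (hA _ _ hj0 (hτ4.trans ht0)).trans ?_
        apply mul_le_mul_of_nonneg_left _ hC.le
        have hτ0 : 0 < tdy (n + i + 1 + r) j := lt_of_lt_of_le hs0 hτ1
        apply add_le_add
        · apply mul_le_mul
          · exact Real.rpow_le_rpow_of_nonpos hs0 hτ1 (by norm_num)
          · exact Real.rpow_le_rpow (h.nonneg _ _) hDj2 hexp1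
          · exact Real.rpow_nonneg (h.nonneg _ _) _
          · exact Real.rpow_nonneg hs0.le _
        · exact Real.rpow_le_rpow hτ0.le hτ4 (by linarith))
    rw [h.cons] at hcell
    refine hcell.trans ?_
    have hcoef : (((2 * k : ℕ) : ℝ) - k) / 2 ^ (n + i + 1) = s := by
      rw [← hs_def]
      unfold tdy
      push_cast
      ring
    rw [hcoef]
    have h14 : s * s ^ (-(3 / 4) : ℝ) = t ^ (1 / 4 : ℝ) * q ^ (i + 1) := by
      have h1 : s * s ^ (-(3 / 4) : ℝ) = s ^ (1 / 4 : ℝ) := by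
        nth_rewrite 1 [← Real.rpow_one s]
        rw [← Real.rpow_add hs0]
        norm_num
      rw [h1, hs, Real.mul_rpow ht.le (by positivity), hq_def, ← Real.rpow_natCast,
        ← Real.rpow_natCast, ← Real.rpow_mul (by norm_num), ← Real.rpow_mul (by norm_num),
        mul_comm ((i + 1 : ℕ) : ℝ)]
    have h2 : s * t ^ (p / 2 - 2) = t ^ (p / 2 - 1) * (1 / 2) ^ (i + 1) := by
      have h3 : t ^ (p / 2 - 1) = t * t ^ (p / 2 - 2) := by
        nth_rewrite 2 [← Real.rpow_one t]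
        rw [← Real.rpow_add ht]
        congr 1
        ring
      rw [h3, hs]
      ring
    apply le_of_eq
    calc s * (C * (s ^ (-(3 / 4) : ℝ) * X + t ^ (p / 2 - 2)))
        = C * ((s * s ^ (-(3 / 4) : ℝ)) * X + s * t ^ (p / 2 - 2)) := by ring
      _ = C * (t ^ (1 / 4 : ℝ) * X * q ^ (i + 1) + t ^ (p / 2 - 1) * (1 / 2) ^ (i + 1)) := by
        rw [h14, h2]
        ring
  have htele : ∀ N : ℕ, x - D (n + N) k ≤
      ∑ i ∈ Finset.range N,
        C * (t ^ (1 / 4 : ℝ) * X * q ^ (i + 1) + t ^ (p / 2 - 1) * (1 / 2) ^ (i + 1)) := by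
    intro N
    induction N with
    | zero => simp [hx_def]
    | succ N ih =>
      rw [Finset.sum_range_succ]
      have := hone N
      rw [show n + (N + 1) = n + N + 1 by ring]
      linarith
  set T1 := t ^ (1 / 4 : ℝ) with hT1
  set T2 := t ^ (p / 2 - 1) with hT2
  have hT10 : 0 ≤ T1 := by positivity
  have hT20 : 0 ≤ T2 := by positivity
  have hmain : x ≤ (C * K * T1) * X + C * T2 := by
    apply le_of_forall_pos_le_add
    intro ε hε
    obtain ⟨δ, hδ, hsmall⟩ := h.small ε hε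
    obtain ⟨N, hN⟩ := exists_pow_lt_of_lt_one (div_pos hδ ht) (by norm_num : (1 / 2 : ℝ) < 1)
    have hN2 : tdy (n + N) k < δ := by
      rw [tdy_add, ← ht_def]
      rw [lt_div_iff₀ ht] at hN
      linarith
    have h1 := hsmall _ _ hN2
    have h2 := htele N
    have h3 : ∑ i ∈ Finset.range N,
        C * (T1 * X * q ^ (i + 1) + T2 * (1 / 2) ^ (i + 1)) ≤ C * K * T1 * X + C * T2 := by
      have : ∑ i ∈ Finset.range N, C * (T1 * X * q ^ (i + 1) + T2 * (1 / 2) ^ (i + 1)) =
          C * T1 * X * (∑ i ∈ Finset.range N, q ^ (i + 1)) +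
            C * T2 * ∑ i ∈ Finset.range N, (1 / 2 : ℝ) ^ (i + 1) := by
        rw [Finset.mul_sum, Finset.mul_sum, ← Finset.sum_add_distrib]
        exact Finset.sum_congr rfl (fun i _ => by ring)
      rw [this]
      have h4 := mul_le_mul_of_nonneg_left (hsumq N) (by positivity : 0 ≤ C * T1 * X)
      have h5 := mul_le_mul_of_nonneg_left (hsum2 N) (by positivity : 0 ≤ C * T2)
      nlinarith
    linarith
  have habs := absorb (x := x) (H := C * K * T1) (e := C * T2) (p := p) (by linarith) hx0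
    (by positivity) (by positivity) hmain
  have hp0 : 0 < p := by linarith
  have hpow : t ^ (p / 4) = t ^ (2 ^ (j - 2)) := by
    have : p / 4 = ((2 ^ (j - 2) : ℕ) : ℝ) := by
      obtain ⟨l, rfl⟩ : ∃ l, j = l + 2 := ⟨j - 2, by omega⟩
      rw [hp_def]
      push_cast
      rw [pow_add]
      ring
    rw [this, Real.rpow_natCast]
  have h1 : (2 * (C * K * T1)) ^ p = (2 * (C * K)) ^ p * t ^ (p / 4) := by
    rw [show 2 * (C * K * T1) = (2 * (C * K)) * T1 by ring,
      Real.mul_rpow (by positivity) hT10, hT1, ← Real.rpow_mul ht.le]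
    congr 2
    ring
  have h2 : T2 ≤ t ^ (p / 4) :=
    Real.rpow_le_rpow_of_exponent_ge ht ht1 (by linarith)
  rw [h1, hpow] at habs
  rw [hpow] at h2
  calc x ≤ (2 * (C * K)) ^ p * t ^ (2 ^ (j - 2)) + 2 * (C * T2) := habs
    _ ≤ (2 * (C * K)) ^ p * t ^ (2 ^ (j - 2)) + 2 * (C * t ^ (2 ^ (j - 2))) := by
      gcongr
    _ = ((2 * (C * K)) ^ p + 2 * C) * t ^ (2 ^ (j - 2)) := by ring

end GronwallAux

open GronwallAux in
theorem gronwall_dyadic {D V : ℕ → ℕ → ℝ} {C3 C4 C5 t0 : ℝ} (hC3 : 0 ≤ C3) (hC4 : 0 ≤ C4)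
    (hC5 : 0 < C5) (ht0 : 0 < t0) (h : GronHyp D V C3 C4 C5 t0) (n k : ℕ) : D n k = 0 := by
  apply le_antisymm _ (h.nonneg n k)
  rcases Nat.eq_zero_or_pos k with rfl | hk
  · apply le_of_forall_pos_le_add
    intro ε hε
    obtain ⟨δ, hδ, hsmall⟩ := h.small ε hε
    have : D n 0 ≤ ε := hsmall n 0 (by simpa [tdy] using hδ)
    linarith
  by_contra hcontra
  push Not at hcontra
  set t := tdy n k with ht_def
  have ht : 0 < t := tdy_pos n hk
  set u0 := Real.log (1 / D n k) with hu0_def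
  have hu0 : 0 ≤ u0 :=
    Real.log_nonneg (by rw [le_div_iff₀ hcontra]; linarith [D_le_one h n k])
  set B := 2 * C3 + t * (C4 + C5) with hB_def
  have hB : 0 ≤ B := by positivity
  set E := Real.exp (t * C5 * 2) with hE_def
  have hE : 0 < E := Real.exp_pos _
  have hlog2 : 0 < Real.log 2 := Real.log_pos (by norm_num)
  -- the polynomial lower bound
  have hlow : ∀ i : ℕ, 0 < D (n + i) k ∧ Real.log (1 / D (n + i) k) ≤ E * (u0 + i * B) := by
    intro i
    obtain ⟨hpos, hlog⟩ := iter h hC3 hC4 hC5 hk hcontra i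
    refine ⟨hpos, hlog.trans ?_⟩
    apply mul_le_mul_of_nonneg_right _ (by positivity)
    rw [hE_def]
    apply Real.exp_le_exp.mpr
    apply mul_le_mul_of_nonneg_left (sum_geometric_two_le i) (by positivity)
  obtain ⟨l, hl⟩ := pow_unbounded_of_one_lt ((E * B + 1) / Real.log 2) (one_lt_two : (1 : ℝ) < 2)
  rw [div_lt_iff₀ hlog2] at hl
  obtain ⟨C, hC, hapr⟩ := apriori h (l + 2) (by omega)
  rw [Nat.add_sub_cancel] at hapr
  set m : ℕ := 2 ^ l with hm_def
  have hm_cast : (m : ℝ) = 2 ^ l := by simp [hm_def]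
  rw [← hm_cast] at hl
  -- choice of `i`
  obtain ⟨i₀, hi₀⟩ := exists_pow_lt_of_lt_one (div_pos (lt_min ht0 one_pos) ht)
    (by norm_num : (1 / 2 : ℝ) < 1)
  rw [lt_div_iff₀ ht] at hi₀
  set R := E * u0 + Real.log C + m * Real.log t with hR_def
  obtain ⟨i₁, hi₁⟩ := exists_nat_gt R
  set i := max i₀ i₁ with hi_def
  have hi1 : (i₁ : ℝ) ≤ i := by exact_mod_cast le_max_right _ _
  have hti : tdy (n + i) k ≤ min t0 1 := by
    rw [tdy_add, ← ht_def]
    have h1 : (1 / 2 : ℝ) ^ i ≤ (1 / 2) ^ i₀ :=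
      pow_le_pow_of_le_one (by norm_num) (by norm_num) (le_max_left _ _)
    have h2 : t * (1 / 2) ^ i ≤ t * (1 / 2) ^ i₀ := mul_le_mul_of_nonneg_left h1 ht.le
    nlinarith
  obtain ⟨hpos, hlog⟩ := hlow i
  have hup := hapr (n + i) k hk (hti.trans (min_le_left _ _)) (hti.trans (min_le_right _ _))
  -- take logarithms
  have hti_eq : tdy (n + i) k = t * (1 / 2) ^ i := by rw [tdy_add]
  have hlog3 : Real.log (C * (t * (1 / 2) ^ i) ^ m) = Real.log C + m * Real.log t -
      m * (i * Real.log 2) := by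
    rw [Real.log_mul hC.ne' (by positivity), Real.log_pow, Real.log_mul ht.ne' (by positivity),
      Real.log_pow]
    simp only [one_div, Real.log_inv]
    ring
  have hlog4 : Real.log (D (n + i) k) ≤ Real.log (C * (t * (1 / 2) ^ i) ^ m) := by
    rw [hti_eq] at hup
    exact Real.log_le_log hpos hup
  have hlog5 : Real.log (1 / D (n + i) k) = - Real.log (D (n + i) k) := by
    rw [one_div, Real.log_inv]
  have hfin : (i : ℝ) * (m * Real.log 2 - E * B) ≤ R := by
    rw [hR_def]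
    rw [hlog5] at hlog
    rw [hlog3] at hlog4
    nlinarith
  have hi0 : (0 : ℝ) ≤ i := by positivity
  have hfin2 : (i : ℝ) ≤ (i : ℝ) * (m * Real.log 2 - E * B) := by
    apply le_mul_of_one_le_right hi0
    linarith
  linarith

end Crest.Agent.Lib.IT
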