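/-
The Gronwall argument without monotonicity (statement S0241).
-/
import Crest.Agent.Lib.IT.Gronwall

set_option autoImplicit false

namespace Crest.Agent.Lib.IT

open MeasureTheory ProbabilityTheory SimpleGraph Filter Topology
open scoped ENNReal NNReal

/-- Hypotheses of the Gronwall argument without monotonicity. -/
structure GronHyp' (D V : ℕ → ℕ → ℝ) (C3 C4 C5 t0 : ℝ) : Prop where
  cons : ∀ n k, D (n + 1) (2 * k) = D n k
  nonneg : ∀ n k, 0 ≤ D n k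
  le_one : ∀ n k, D n k ≤ 1 / 2
  Vnonneg : ∀ n k, 0 ≤ V n k
  integ : ∀ n k₁ k₂, 0 < k₁ → k₁ ≤ k₂ → ∀ ε : ℝ, 0 < ε → ∃ r₀, ∀ r, r₀ ≤ r →
    D n k₂ - D n k₁ ≤
      ∑ j ∈ Finset.Ico (k₁ * 2 ^ r) (k₂ * 2 ^ r), (1 / 2 ^ (n + r) : ℝ) * V (n + r) j + ε
  small : ∀ ε : ℝ, 0 < ε → ∃ δ : ℝ, 0 < δ ∧ ∀ n k, tdy n k < δ → D n k ≤ ε
  stepB : ∀ n k, 0 < k →
    V n k ≤ D n k * (C3 / tdy n k + C4 + C5 * Real.log (1 / D n k))
  stepA : ∀ j : ℕ, 2 ≤ j → ∃ C : ℝ, 0 < C ∧ ∀ n k, 0 < k → tdy n k ≤ t0 →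
    V n k ≤ C * ((tdy n k) ^ (-(3 / 4) : ℝ) * (D n k) ^ (1 - 1 / (2 : ℝ) ^ j) +
      (tdy n k) ^ ((2 : ℝ) ^ j / 2 - 2))

namespace GronNoMono

variable {D V : ℕ → ℕ → ℝ} {C3 C4 C5 t0 : ℝ}

/-- The running supremum of `D`. -/
noncomputable def Dstar (D : ℕ → ℕ → ℝ) (n k : ℕ) : ℝ :=
  ⨆ q : {q : ℕ × ℕ // tdy q.1 q.2 ≤ tdy n k}, D q.1.1 q.1.2

lemma bdd (h : GronHyp' D V C3 C4 C5 t0) (n k : ℕ) :
    BddAbove (Set.range fun q : {q : ℕ × ℕ // tdy q.1 q.2 ≤ tdy n k} => D q.1.1 q.1.2) := by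
  refine ⟨1 / 2, ?_⟩
  rintro _ ⟨q, rfl⟩
  exact h.le_one _ _

instance inst_nonempty (n k : ℕ) : Nonempty {q : ℕ × ℕ // tdy q.1 q.2 ≤ tdy n k} :=
  ⟨⟨(n, k), le_rfl⟩⟩

lemma le_Dstar (h : GronHyp' D V C3 C4 C5 t0) {n k n' k' : ℕ} (hq : tdy n' k' ≤ tdy n k) :
    D n' k' ≤ Dstar D n k :=
  le_ciSup (f := fun q : {q : ℕ × ℕ // tdy q.1 q.2 ≤ tdy n k} => D q.1.1 q.1.2) (bdd h n k)
    ⟨(n', k'), hq⟩

lemma Dstar_le_of (n k : ℕ) {c : ℝ} (hc : ∀ n' k', tdy n' k' ≤ tdy n k → D n' k' ≤ c) :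
    Dstar D n k ≤ c :=
  ciSup_le fun q => hc _ _ q.2

lemma Dstar_mono (h : GronHyp' D V C3 C4 C5 t0) {n k n' k' : ℕ} (hq : tdy n' k' ≤ tdy n k) :
    Dstar D n' k' ≤ Dstar D n k :=
  Dstar_le_of n' k' fun _ _ h' => le_Dstar h (h'.trans hq)

lemma D_shift (h : GronHyp' D V C3 C4 C5 t0) (n r k : ℕ) : D (n + r) (k * 2 ^ r) = D n k := by
  induction r with
  | zero => simp
  | succ r ih =>
    rw [show n + (r + 1) = (n + r) + 1 by ring, show k * 2 ^ (r + 1) = 2 * (k * 2 ^ r) by ring,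
      h.cons, ih]

lemma tdy_lt_iff (L : ℕ) {a b : ℕ} : tdy L a < tdy L b ↔ a < b := by
  unfold tdy
  rw [div_lt_div_iff_of_pos_right (by positivity)]
  exact Nat.cast_lt

lemma tdy_le_iff (L : ℕ) {a b : ℕ} : tdy L a ≤ tdy L b ↔ a ≤ b := by
  unfold tdy
  rw [div_le_div_iff_of_pos_right (by positivity)]
  exact Nat.cast_le

lemma sum_nonneg_aux (h : GronHyp' D V C3 C4 C5 t0) (n r a b : ℕ) :
    0 ≤ ∑ j ∈ Finset.Ico a b, (1 / 2 ^ (n + r) : ℝ) * V (n + r) j :=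
  Finset.sum_nonneg fun _ _ => mul_nonneg (by positivity) (h.Vnonneg _ _)

lemma Dstar_integ (h : GronHyp' D V C3 C4 C5 t0) (n k₁ k₂ : ℕ) (hk₁ : 0 < k₁) (hk : k₁ ≤ k₂)
    (ε : ℝ) (hε : 0 < ε) : ∃ r₀, ∀ r, r₀ ≤ r →
    Dstar D n k₂ - Dstar D n k₁ ≤
      ∑ j ∈ Finset.Ico (k₁ * 2 ^ r) (k₂ * 2 ^ r), (1 / 2 ^ (n + r) : ℝ) * V (n + r) j + ε := by
  have hlt : Dstar D n k₂ - ε / 2 < Dstar D n k₂ := by linarith
  obtain ⟨q, hq⟩ := exists_lt_of_lt_ciSup hlt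
  obtain ⟨⟨n', k'⟩, hq2⟩ := q
  simp only at hq hq2
  by_cases hcase : tdy n' k' ≤ tdy n k₁
  · refine ⟨0, fun r _ => ?_⟩
    have h1 := le_Dstar h hcase
    have h2 := sum_nonneg_aux h n r (k₁ * 2 ^ r) (k₂ * 2 ^ r)
    linarith
  · push Not at hcase
    set L := n + n' with hL
    set a := k₁ * 2 ^ n' with ha
    set c := k₂ * 2 ^ n' with hc
    set b := k' * 2 ^ n with hb
    have tA : tdy L a = tdy n k₁ := GronwallAux.tdy_shift n n' k₁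
    have tC : tdy L c = tdy n k₂ := GronwallAux.tdy_shift n n' k₂
    have tB : tdy L b = tdy n' k' := by
      rw [hL, add_comm n n']; exact GronwallAux.tdy_shift n' n k'
    have dA : D L a = D n k₁ := D_shift h n n' k₁
    have dB : D L b = D n' k' := by
      rw [hL, add_comm n n']; exact D_shift h n' n k'
    have hab : a < b := (tdy_lt_iff L).1 (by rw [tA, tB]; exact hcase)
    have hbc : b ≤ c := (tdy_le_iff L).1 (by rw [tB, tC]; exact hq2)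
    have ha0 : 0 < a := by rw [ha]; positivity
    obtain ⟨r₀, hr₀⟩ := h.integ L a b ha0 hab.le (ε / 2) (by linarith)
    refine ⟨n' + r₀, fun r hr => ?_⟩
    obtain ⟨r', rfl⟩ : ∃ r', r = n' + r' := ⟨r - n', by omega⟩
    have hr' : r₀ ≤ r' := by omega
    have key := hr₀ r' hr'
    have e1 : a * 2 ^ r' = k₁ * 2 ^ (n' + r') := by rw [ha, pow_add]; ring
    have e2 : c * 2 ^ r' = k₂ * 2 ^ (n' + r') := by rw [hc, pow_add]; ring
    have e3 : L + r' = n + (n' + r') := by rw [hL]; ring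
    have hsub : ∑ j ∈ Finset.Ico (a * 2 ^ r') (b * 2 ^ r'), (1 / 2 ^ (L + r') : ℝ) * V (L + r') j
        ≤ ∑ j ∈ Finset.Ico (a * 2 ^ r') (c * 2 ^ r'), (1 / 2 ^ (L + r') : ℝ) * V (L + r') j := by
      apply Finset.sum_le_sum_of_subset_of_nonneg
      · apply Finset.Ico_subset_Ico le_rfl
        exact Nat.mul_le_mul_right _ hbc
      · intro j _ _
        exact mul_nonneg (by positivity) (h.Vnonneg _ _)
    rw [e1, e2, e3] at hsub
    rw [e1, e3] at key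
    have hDk : D n k₁ ≤ Dstar D n k₁ := le_Dstar h le_rfl
    rw [dB, dA] at key
    linarith

lemma Dstar_nonneg (h : GronHyp' D V C3 C4 C5 t0) (n k : ℕ) : 0 ≤ Dstar D n k :=
  (h.nonneg n k).trans (le_Dstar h le_rfl)

/-- The running supremum satisfies the hypotheses of the monotone Gronwall argument. -/
lemma gronHyp_Dstar (hC3 : 0 ≤ C3) (hC4 : 0 ≤ C4) (hC5 : 0 < C5) (hC54 : C5 ≤ C4)
    (h : GronHyp' D V C3 C4 C5 t0) : GronHyp (Dstar D) V C3 C4 C5 t0 where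
  cons n k := by
    have e : tdy (n + 1) (2 * k) = tdy n k := by
      have := GronwallAux.tdy_shift n 1 k
      rwa [pow_one, mul_comm] at this
    exact le_antisymm (Dstar_mono h e.le) (Dstar_mono h e.ge)
  nonneg := Dstar_nonneg h
  le_one n k := Dstar_le_of n k fun _ _ _ => h.le_one _ _
  mono n k := Dstar_mono h (GronwallAux.tdy_mono n (Nat.le_succ k))
  Vnonneg := h.Vnonneg
  integ := Dstar_integ h
  small ε hε := by
    obtain ⟨δ, hδ, hs⟩ := h.small ε hε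
    exact ⟨δ, hδ, fun n k hk => Dstar_le_of n k fun n' k' hq => hs _ _ (lt_of_le_of_lt hq hk)⟩
  stepB n k hk := by
    refine (h.stepB n k hk).trans ?_
    have ht : 0 < tdy n k := GronwallAux.tdy_pos n hk
    have hA : C5 ≤ C3 / tdy n k + C4 := by
      have : 0 ≤ C3 / tdy n k := div_nonneg hC3 ht.le
      linarith
    have hy : Dstar D n k ≤ 1 := (Dstar_le_of n k fun _ _ _ => h.le_one _ _).trans (by norm_num)
    exact GronwallAux.psi_mono hC5.le hA (h.nonneg n k) (le_Dstar h le_rfl) hy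
  stepA j hj := by
    obtain ⟨C, hC, hbd⟩ := h.stepA j hj
    refine ⟨C, hC, fun n k hk ht => (hbd n k hk ht).trans ?_⟩
    have ht0 : 0 ≤ tdy n k := GronwallAux.tdy_nonneg n k
    have hexp : 0 ≤ 1 - 1 / (2 : ℝ) ^ j := by
      have : (1 : ℝ) ≤ 2 ^ j := one_le_pow₀ (by norm_num)
      have : 1 / (2 : ℝ) ^ j ≤ 1 := by
        rw [div_le_one (by positivity)]; exact this
      linarith
    gcongr
    · exact h.nonneg n k
    · exact le_Dstar h le_rfl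

end GronNoMono

/-- The Gronwall argument without monotonicity: pass to the running supremum. -/
theorem gronwall_no_mono {D V : ℕ → ℕ → ℝ} {C3 C4 C5 t0 : ℝ} (hC3 : 0 ≤ C3) (hC4 : 0 ≤ C4)
    (hC5 : 0 < C5) (hC54 : C5 ≤ C4) (ht0 : 0 < t0) (h : GronHyp' D V C3 C4 C5 t0) (n k : ℕ) :
    D n k = 0 := by
  have h0 := gronwall_dyadic hC3 hC4 hC5 ht0 (GronNoMono.gronHyp_Dstar hC3 hC4 hC5 hC54 h) n k
  exact le_antisymm (h0 ▸ GronNoMono.le_Dstar h le_rfl) (h.nonneg n k)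

end Crest.Agent.Lib.IT
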