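/-
Combinatorics of a regular tree for the Ising factor theorem (statement S0241):
distances, closer neighbours, sides of an edge, subtrees and balls as finsets.
-/
import Mathlib

set_option autoImplicit false

namespace Crest.Agent.Lib.IT

open SimpleGraph

variable {V : Type*} {G : SimpleGraph V}

/-- Adjacent vertices have distances to any vertex differing by exactly one. -/
theorem adj_dist (hT : G.IsTree) {x y : V} (h : G.Adj x y) (z : V) :
    G.dist z y = G.dist z x + 1 ∨ G.dist z x = G.dist z y + 1 := by
  classical
  obtain ⟨q, hq⟩ := hT.connected.exists_walk_length_eq_dist z x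
  obtain ⟨q', hq'⟩ := hT.connected.exists_walk_length_eq_dist z y
  have hqp : q.IsPath := q.isPath_of_length_eq_dist hq
  have hqp' : q'.IsPath := q'.isPath_of_length_eq_dist hq'
  by_cases hy : y ∈ q.support
  · -- `y` is on the geodesic to `x`
    right
    have hxy : y ≠ x := h.ne'
    have h1 : (q.takeUntil y hy).length < q.length := by
      have := q.length_takeUntil_lt_length hy hxy
      exact this
    have h2 : G.dist z y ≤ (q.takeUntil y hy).length := dist_le _
    have h3 : G.dist z x ≤ G.dist z y + 1 := by
      have := hT.connected.dist_triangle (u := z) (v := y) (w := x)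
      rw [dist_eq_one_iff_adj.2 h.symm] at this
      exact this
    omega
  · left
    have hc : (q.concat h).IsPath := by
      rw [Walk.concat_isPath_iff]
      exact ⟨hqp, hy⟩
    have huniq := hT.existsUnique_path z y
    have : q.concat h = q' := huniq.unique hc hqp'
    have hl : (q.concat h).length = q.length + 1 := Walk.length_concat _ _
    rw [this] at hl
    omega

/-- There is a neighbour closer to the target. -/
theorem exists_closer (hT : G.IsTree) {x z : V} (hne : x ≠ z) :
    ∃ y, G.Adj x y ∧ G.dist z y + 1 = G.dist z x := by
  obtain ⟨q, hq⟩ := hT.connected.exists_walk_length_eq_dist x z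
  cases q with
  | nil => exact absurd rfl hne
  | @cons _ y _ hxy p =>
    refine ⟨y, hxy, ?_⟩
    have h1 : G.dist y z ≤ p.length := dist_le p
    have h2 : G.dist x z ≤ G.dist y z + 1 := by
      have := hT.connected.dist_triangle (u := x) (v := y) (w := z)
      rw [dist_eq_one_iff_adj.2 hxy] at this
      omega
    rw [Walk.length_cons] at hq
    rw [dist_comm (u := z) (v := y), dist_comm (u := z) (v := x)]
    omega

/-- The closer neighbour is unique. -/
theorem closer_unique (hT : G.IsTree) {x y y' z : V} (h : G.Adj x y) (h' : G.Adj x y')
    (hd : G.dist z y + 1 = G.dist z x) (hd' : G.dist z y' + 1 = G.dist z x) : y = y' := by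
  classical
  obtain ⟨q, hq⟩ := hT.connected.exists_walk_length_eq_dist z y
  obtain ⟨q', hq'⟩ := hT.connected.exists_walk_length_eq_dist z y'
  have hx : x ∉ q.support := by
    intro hx
    have h2 : G.dist z x ≤ (q.takeUntil x hx).length := dist_le _
    have h3 : (q.takeUntil x hx).length ≤ q.length := q.length_takeUntil_le_length hx
    omega
  have hx' : x ∉ q'.support := by
    intro hx
    have h2 : G.dist z x ≤ (q'.takeUntil x hx).length := dist_le _
    have h3 : (q'.takeUntil x hx).length ≤ q'.length := q'.length_takeUntil_le_length hx
    omega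
  have hc : (q.concat h.symm).IsPath := by
    rw [Walk.concat_isPath_iff]
    exact ⟨q.isPath_of_length_eq_dist hq, hx⟩
  have hc' : (q'.concat h'.symm).IsPath := by
    rw [Walk.concat_isPath_iff]
    exact ⟨q'.isPath_of_length_eq_dist hq', hx'⟩
  have := (hT.existsUnique_path z x).unique hc hc'
  have h5 := congrArg Walk.support this
  rw [Walk.support_concat, Walk.support_concat] at h5
  -- penultimate vertices
  have h6 : (q.concat h.symm).penultimate = y := by simp
  have h7 : (q'.concat h'.symm).penultimate = y' := by simp
  rw [← h6, ← h7, this]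

/-- A neighbour which is not the closer one is farther. -/
theorem farther_of_ne (hT : G.IsTree) {x y y' z : V} (h : G.Adj x y) (h' : G.Adj x y')
    (hd : G.dist z y + 1 = G.dist z x) (hne : y' ≠ y) : G.dist z y' = G.dist z x + 1 := by
  rcases adj_dist hT h' z with h1 | h1
  · exact h1
  · exact absurd (closer_unique hT h' h h1.symm hd) hne

open Classical in
/-- The neighbour of `x` closer to `z` (and `x` itself when `x = z`). -/
noncomputable def nxt (hT : G.IsTree) (z x : V) : V :=
  if h : x = z then x else Classical.choose (exists_closer hT h)

lemma nxt_self (hT : G.IsTree) (z : V) : nxt hT z z = z := by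
  simp [nxt]

lemma nxt_adj (hT : G.IsTree) {z x : V} (h : x ≠ z) : G.Adj x (nxt hT z x) := by
  simp only [nxt, h, dif_neg, not_false_eq_true]
  exact (Classical.choose_spec (exists_closer hT h)).1

lemma nxt_dist (hT : G.IsTree) {z x : V} (h : x ≠ z) : G.dist z (nxt hT z x) + 1 = G.dist z x := by
  simp only [nxt, h, dif_neg, not_false_eq_true]
  exact (Classical.choose_spec (exists_closer hT h)).2

lemma eq_nxt (hT : G.IsTree) {z x y : V} (h : G.Adj x y) (hd : G.dist z y + 1 = G.dist z x) :
    y = nxt hT z x := by
  have hne : x ≠ z := by
    rintro rfl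
    simp at hd
  exact closer_unique hT h (nxt_adj hT hne) hd (nxt_dist hT hne)

/-! ### Sides of an edge -/

/-- The side of `c` of the edge `c p`. -/
def Side (G : SimpleGraph V) (c p : V) : Set V := {x | G.dist p x = G.dist c x + 1}

lemma mem_side {c p x : V} : x ∈ Side G c p ↔ G.dist p x = G.dist c x + 1 := Iff.rfl

lemma self_mem_side {c p : V} (h : G.Adj c p) : c ∈ Side G c p := by
  simp [Side, dist_eq_one_iff_adj.2 h.symm]

lemma side_or (hT : G.IsTree) {c p : V} (h : G.Adj c p) (x : V) :
    x ∈ Side G c p ∨ x ∈ Side G p c := by
  rcases adj_dist hT h x with h1 | h1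
  · left
    simp only [mem_side]
    rw [dist_comm (u := p), dist_comm (u := c)]
    exact h1
  · right
    simp only [mem_side]
    rw [dist_comm (u := p), dist_comm (u := c)]
    exact h1

lemma side_disj {c p x : V} (h1 : x ∈ Side G c p) (h2 : x ∈ Side G p c) : False := by
  simp only [mem_side] at h1 h2
  omega

/-- All neighbours of a vertex `a ≠ c` of the side of `c` remain in the side. -/
theorem side_nbr (hT : G.IsTree) {c p a b : V} (hcp : G.Adj c p) (ha : a ∈ Side G c p)
    (hac : a ≠ c) (hab : G.Adj a b) : b ∈ Side G c p := by
  simp only [mem_side] at ha ⊢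
  have hne : a ≠ c := hac
  set y := nxt hT c a with hy
  have hya : G.Adj a y := nxt_adj hT hne
  have hyd : G.dist c y + 1 = G.dist c a := nxt_dist hT hne
  have htri : G.dist p y ≤ G.dist p c + G.dist c y := hT.connected.dist_triangle
  have hpc : G.dist p c = 1 := dist_eq_one_iff_adj.2 hcp.symm
  have hpy : G.dist p y + 1 = G.dist p a := by
    rcases adj_dist hT hya p with h1 | h1 <;> omega
  by_cases hb : b = y
  · subst hb
    omega
  · have h1 := farther_of_ne hT hya hab hyd hb
    have h2 := farther_of_ne hT hya hab hpy hb
    omega

/-- The cut property of an edge. -/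
theorem side_cut (hT : G.IsTree) {c p a b : V} (hcp : G.Adj c p) (ha : a ∈ Side G c p)
    (hb : b ∈ Side G p c) (hab : G.Adj a b) : a = c ∧ b = p := by
  constructor
  · by_contra hac
    exact side_disj (side_nbr hT hcp ha hac hab) hb
  · by_contra hbp
    exact side_disj ha (side_nbr hT hcp.symm hb hbp hab.symm)

/-- The formula for distances across an edge. -/
theorem dist_across (hT : G.IsTree) {c p x z : V} (hcp : G.Adj c p) (hx : x ∈ Side G c p)
    (hz : z ∈ Side G p c) : G.dist x z = G.dist x c + 1 + G.dist p z := by
  have hub : G.dist x z ≤ G.dist x c + 1 + G.dist p z := by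
    have t1 := hT.connected.dist_triangle (u := x) (v := c) (w := z)
    have t2 := hT.connected.dist_triangle (u := c) (v := p) (w := z)
    rw [dist_eq_one_iff_adj.2 hcp] at t2
    omega
  induction hn : G.dist x z generalizing x with
  | zero =>
    have : x = z := (hT.connected.dist_eq_zero_iff).1 hn
    subst this
    exact (side_disj hx hz).elim
  | succ n ih =>
    by_cases hxc : x = c
    · subst hxc
      simp only [mem_side] at hz
      simp only [dist_self, zero_add]
      omega
    · have hne : x ≠ z := by
        rintro rfl
        simp at hn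
      set x' := nxt hT z x with hx'
      have ha : G.Adj x x' := nxt_adj hT hne
      have hd : G.dist z x' + 1 = G.dist z x := nxt_dist hT hne
      have hs : x' ∈ Side G c p := side_nbr hT hcp hx hxc ha
      have hub' : G.dist x' z ≤ G.dist x' c + 1 + G.dist p z := by
        have t1 := hT.connected.dist_triangle (u := x') (v := c) (w := z)
        have t2 := hT.connected.dist_triangle (u := c) (v := p) (w := z)
        rw [dist_eq_one_iff_adj.2 hcp] at t2
        omega
      rw [dist_comm (u := z), dist_comm (u := z)] at hd
      have h1 := ih hs hub' (by omega)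
      have t3 := hT.connected.dist_triangle (u := x) (v := x') (w := c)
      rw [dist_eq_one_iff_adj.2 ha] at t3
      omega

/-! ### Children, subtrees and balls as finsets -/

variable [G.LocallyFinite]

open Classical in
/-- The neighbours of `c` other than `p`. -/
noncomputable def kids (G : SimpleGraph V) [G.LocallyFinite] (c p : V) : Finset V :=
  (G.neighborFinset c).erase p

open Classical in
lemma mem_kids {c p x : V} : x ∈ kids G c p ↔ G.Adj c x ∧ x ≠ p := by
  simp [kids, and_comm]

open Classical in
/-- The part of depth at most `N` below `c`, seen from its neighbour `p`. -/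
noncomputable def subT (G : SimpleGraph V) [G.LocallyFinite] : ℕ → V → V → Finset V
  | 0, c, _ => {c}
  | N + 1, c, p => {c} ∪ (kids G c p).biUnion (fun c' => subT G N c' c)

open Classical in
/-- The ball of radius `N` around `x`. -/
noncomputable def ballF (G : SimpleGraph V) [G.LocallyFinite] : ℕ → V → Finset V
  | 0, x => {x}
  | N + 1, x => {x} ∪ (G.neighborFinset x).biUnion (fun c => subT G N c x)

theorem mem_subT (hT : G.IsTree) {N : ℕ} {c p x : V} (h : G.Adj c p) :
    x ∈ subT G N c p ↔ G.dist c x ≤ N ∧ x ∈ Side G c p := by
  classical
  induction N generalizing c p x with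
  | zero =>
    simp only [subT, Finset.mem_singleton, Nat.le_zero]
    constructor
    · rintro rfl
      exact ⟨by simp, self_mem_side h⟩
    · rintro ⟨h1, -⟩
      exact ((hT.connected.dist_eq_zero_iff).1 h1).symm
  | succ N ih =>
    simp only [subT, Finset.mem_union, Finset.mem_singleton, Finset.mem_biUnion]
    constructor
    · rintro (rfl | ⟨c', hc', hx⟩)
      · exact ⟨by simp, self_mem_side h⟩
      · have hc'' := mem_kids.1 hc'
        have hx' := (ih hc''.1.symm).1 hx
        simp only [mem_side] at hx' ⊢
        have h0 : G.dist c x = G.dist c' x + 1 := hx'.2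
        refine ⟨by omega, ?_⟩
        -- `c'` is the neighbour of `c` closer to `x`, and `p` is another neighbour
        have h1 : G.dist x c' + 1 = G.dist x c := by
          rw [dist_comm (u := x), dist_comm (u := x)]; omega
        have := farther_of_ne hT hc''.1 h h1 hc''.2.symm
        rw [dist_comm (u := p), dist_comm (u := c), this]
    · rintro ⟨h1, h2⟩
      by_cases hxc : c = x
      · left; exact hxc.symm
      · right
        have hne : c ≠ x := hxc
        set c' := nxt hT x c with hc'
        have ha : G.Adj c c' := nxt_adj hT hne
        have hd : G.dist x c' + 1 = G.dist x c := nxt_dist hT hne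
        have hp : c' ≠ p := by
          rintro rfl
          simp only [mem_side] at h2
          rw [dist_comm (u := c'), dist_comm (u := c)] at h2
          omega
        refine ⟨c', mem_kids.2 ⟨ha, hp⟩, (ih ha.symm).2 ?_⟩
        simp only [mem_side]
        rw [dist_comm (u := c'), dist_comm (u := c)]
        constructor
        · have : G.dist x c' + 1 = G.dist x c := hd
          rw [dist_comm (u := x), dist_comm (u := x) (v := c)] at this
          rw [dist_comm (u := x)]
          omega
        · omega

theorem mem_ballF (hT : G.IsTree) {N : ℕ} {c x : V} : x ∈ ballF G N c ↔ G.dist c x ≤ N := by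
  classical
  cases N with
  | zero =>
    simp only [ballF, Finset.mem_singleton, Nat.le_zero]
    constructor
    · rintro rfl; simp
    · intro h1; exact ((hT.connected.dist_eq_zero_iff).1 h1).symm
  | succ N =>
    simp only [ballF, Finset.mem_union, Finset.mem_singleton, Finset.mem_biUnion, mem_neighborFinset]
    constructor
    · rintro (rfl | ⟨c', hc', hx⟩)
      · simp
      · have hx' := (mem_subT hT hc'.symm).1 hx
        simp only [mem_side] at hx'
        omega
    · intro h1
      by_cases hxc : x = c
      · exact Or.inl hxc
      · right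
        have hne : c ≠ x := fun h => hxc h.symm
        set c' := nxt hT x c with hc'
        have ha : G.Adj c c' := nxt_adj hT hne
        have hd : G.dist x c' + 1 = G.dist x c := nxt_dist hT hne
        refine ⟨c', ha, (mem_subT hT ha.symm).2 ?_⟩
        simp only [mem_side]
        rw [dist_comm (u := x), dist_comm (u := x)] at hd
        omega

lemma self_mem_ballF (hT : G.IsTree) (N : ℕ) (c : V) : c ∈ ballF G N c :=
  (mem_ballF hT).2 (by simp)

lemma ballF_mono (hT : G.IsTree) (c : V) {N N' : ℕ} (h : N ≤ N') : ballF G N c ⊆ ballF G N' c := by
  intro x hx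
  rw [mem_ballF hT] at hx ⊢
  omega

lemma exists_mem_ballF (hT : G.IsTree) (c x : V) : ∃ N, x ∈ ballF G N c :=
  ⟨_, (mem_ballF hT).2 le_rfl⟩

end Crest.Agent.Lib.IT
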