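/-
Coding of a regular tree by lists; homogeneity; geodesics; rings and spheres.
-/
import Crest.Agent.Lib.IT.Tree

set_option autoImplicit false

namespace Crest.Agent.Lib.IT

open SimpleGraph

variable {V : Type*} {G : SimpleGraph V}

/-! ### Isomorphisms preserve distances -/

lemma iso_dist_le (g : G ≃g G) (hc : G.Connected) (x y : V) : G.dist (g x) (g y) ≤ G.dist x y := by
  obtain ⟨q, hq⟩ := hc.exists_walk_length_eq_dist x y
  have := dist_le (q.map g.toHom)
  rw [Walk.length_map, hq] at this
  exact this

theorem iso_dist (g : G ≃g G) (hc : G.Connected) (x y : V) : G.dist (g x) (g y) = G.dist x y := by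
  refine le_antisymm (iso_dist_le g hc x y) ?_
  have := iso_dist_le g.symm hc (g x) (g y)
  simpa using this

lemma iso_adj (g : G ≃g G) {x y : V} : G.Adj (g x) (g y) ↔ G.Adj x y := g.map_adj_iff

theorem nxt_iso (hT : G.IsTree) (g : G ≃g G) (z x : V) : g (nxt hT z x) = nxt hT (g z) (g x) := by
  by_cases h : x = z
  · subst h
    simp [nxt_self]
  · have h' : g x ≠ g z := fun h1 => h (g.injective h1)
    refine eq_nxt hT ((iso_adj g).2 (nxt_adj hT h)) ?_
    rw [iso_dist g hT.connected, iso_dist g hT.connected]
    exact nxt_dist hT h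

/-! ### Geodesics -/

/-- The vertices of the geodesic from `z` to `w`. -/
noncomputable def gp (hT : G.IsTree) (z w : V) : ℕ → V
  | 0 => z
  | i + 1 => nxt hT w (gp hT z w i)

lemma gp_zero (hT : G.IsTree) (z w : V) : gp hT z w 0 = z := rfl

lemma gp_succ (hT : G.IsTree) (z w : V) (i : ℕ) : gp hT z w (i + 1) = nxt hT w (gp hT z w i) := rfl

lemma gp_dist (hT : G.IsTree) (z w : V) (i : ℕ) : G.dist w (gp hT z w i) = G.dist w z - i := by
  induction i with
  | zero => rfl
  | succ i ih =>
    rw [gp_succ]
    by_cases h : gp hT z w i = w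
    · rw [h, nxt_self]
      rw [h] at ih
      simp only [dist_self] at ih ⊢
      omega
    · have := nxt_dist hT h
      omega

lemma gp_end (hT : G.IsTree) (z w : V) {i : ℕ} (hi : G.dist z w ≤ i) : gp hT z w i = w := by
  have := gp_dist hT z w i
  rw [dist_comm (u := w) (v := z)] at this
  have h0 : G.dist w (gp hT z w i) = 0 := by omega
  exact ((hT.connected.dist_eq_zero_iff).1 h0).symm

lemma gp_dist_start (hT : G.IsTree) (z w : V) {i : ℕ} (hi : i ≤ G.dist z w) :
    G.dist z (gp hT z w i) = i := by
  have h1 := gp_dist hT z w i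
  have h2 : G.dist z w ≤ G.dist z (gp hT z w i) + G.dist (gp hT z w i) w :=
    hT.connected.dist_triangle
  have h3 : G.dist z (gp hT z w i) ≤ i := by
    clear h1 h2
    induction i with
    | zero => simp [gp_zero]
    | succ i ih =>
      rw [gp_succ]
      have h4 := ih (by omega)
      have hne : gp hT z w i ≠ w := by
        intro h
        have := gp_dist hT z w i
        rw [h, dist_self, dist_comm (u := w)] at this
        omega
      have h5 := nxt_adj hT hne
      have t := hT.connected.dist_triangle (u := z) (v := gp hT z w i) (w := nxt hT w (gp hT z w i))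
      rw [dist_eq_one_iff_adj.2 h5] at t
      omega
  rw [dist_comm (u := gp hT z w i) (v := w), h1, dist_comm (u := w) (v := z)] at h2
  omega

lemma gp_adj (hT : G.IsTree) (z w : V) {i : ℕ} (hi : i < G.dist z w) :
    G.Adj (gp hT z w i) (gp hT z w (i + 1)) := by
  rw [gp_succ]
  refine nxt_adj hT ?_
  intro h
  have := gp_dist hT z w i
  rw [h, dist_self, dist_comm (u := w)] at this
  omega

theorem gp_iso (hT : G.IsTree) (g : G ≃g G) (z w : V) (i : ℕ) :
    g (gp hT z w i) = gp hT (g z) (g w) i := by
  induction i with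
  | zero => rfl
  | succ i ih => rw [gp_succ, gp_succ, nxt_iso, ih]

/-- Non-backtracking paths. -/
structure IsGeo (G : SimpleGraph V) (γ : ℕ → V) (r : ℕ) : Prop where
  adj : ∀ i, i < r → G.Adj (γ i) (γ (i + 1))
  nb : ∀ i, i + 1 < r → γ (i + 2) ≠ γ i

theorem IsGeo.dist_eq (hT : G.IsTree) {γ : ℕ → V} {r : ℕ} (h : IsGeo G γ r) {i j : ℕ}
    (hij : i ≤ j) (hj : j ≤ r) : G.dist (γ i) (γ j) = j - i := by
  induction j using Nat.strong_induction_on with
  | _ j ih =>
    rcases Nat.lt_or_ge i j with hlt | hge
    · obtain ⟨j', rfl⟩ : ∃ j', j = j' + 1 := ⟨j - 1, by omega⟩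
      have hadj := h.adj j' (by omega)
      have h1 := ih j' (by omega) (by omega) (by omega)
      by_cases hji : j' = i
      · subst hji
        simpa using dist_eq_one_iff_adj.2 hadj
      · obtain ⟨j'', rfl⟩ : ∃ j'', j' = j'' + 1 := ⟨j' - 1, by omega⟩
        have hadj' := h.adj j'' (by omega)
        have h2 := ih j'' (by omega) (by omega) (by omega)
        have h3 : G.dist (γ i) (γ j'') + 1 = G.dist (γ i) (γ (j'' + 1)) := by omega
        have := farther_of_ne hT hadj'.symm hadj h3 (h.nb j'' (by omega))
        omega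
    · have : i = j := le_antisymm hij hge |>.symm ▸ rfl
      subst this
      simp

theorem IsGeo.inj (hT : G.IsTree) {γ : ℕ → V} {r : ℕ} (h : IsGeo G γ r) {i j : ℕ}
    (hi : i ≤ r) (hj : j ≤ r) (he : γ i = γ j) : i = j := by
  rcases le_total i j with hij | hij
  · have := h.dist_eq hT hij hj
    rw [he, dist_self] at this
    omega
  · have := h.dist_eq hT hij hi
    rw [he, dist_self] at this
    omega

/-- The geodesic from `z` to `w` is a non-backtracking path. -/
theorem isGeo_gp (hT : G.IsTree) (z w : V) : IsGeo G (gp hT z w) (G.dist z w) where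
  adj i hi := gp_adj hT z w hi
  nb i hi := by
    intro he
    have h1 := gp_dist hT z w i
    have h2 := gp_dist hT z w (i + 2)
    rw [he] at h2
    rw [dist_comm (u := w) (v := z)] at h1 h2
    omega

/-- A non-backtracking path is the geodesic between its end points. -/
theorem IsGeo.eq_gp (hT : G.IsTree) {γ : ℕ → V} {r : ℕ} (h : IsGeo G γ r) {i : ℕ} (hi : i ≤ r) :
    γ i = gp hT (γ 0) (γ r) i := by
  induction i with
  | zero => rfl
  | succ i ih =>
    rw [gp_succ, ← ih (by omega)]
    refine eq_nxt hT (h.adj i (by omega)) ?_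
    rw [dist_comm (u := γ r), dist_comm (u := γ r)]
    rw [h.dist_eq hT hi le_rfl, h.dist_eq hT (by omega) le_rfl]
    omega

variable [G.LocallyFinite]

lemma side_step (hT : G.IsTree) {c p c' x : V} (hcp : G.Adj c p) (hc' : c' ∈ kids G c p)
    (hx : x ∈ Side G c' c) : x ∈ Side G c p ∧ G.dist c x = G.dist c' x + 1 := by
  have hc'' := mem_kids.1 hc'
  simp only [mem_side] at hx ⊢
  refine ⟨?_, hx⟩
  have h1 : G.dist x c' + 1 = G.dist x c := by
    rw [dist_comm (u := x), dist_comm (u := x)]; omega
  have := farther_of_ne hT hc''.1 hcp h1 hc''.2.symm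
  rw [dist_comm (u := p), dist_comm (u := c), this]

lemma side_step_rev (hT : G.IsTree) {c p x : V} (hcp : G.Adj c p) (hx : x ∈ Side G c p)
    (hne : c ≠ x) : nxt hT x c ∈ kids G c p ∧ x ∈ Side G (nxt hT x c) c := by
  have ha : G.Adj c (nxt hT x c) := nxt_adj hT hne
  have hd : G.dist x (nxt hT x c) + 1 = G.dist x c := nxt_dist hT hne
  refine ⟨mem_kids.2 ⟨ha, ?_⟩, ?_⟩
  · intro he
    rw [he] at hd
    simp only [mem_side] at hx
    rw [dist_comm (u := p), dist_comm (u := c)] at hx
    omega
  · simp only [mem_side]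
    rw [dist_comm (u := c), dist_comm (u := nxt hT x c)]
    omega

/-! ### Rings and spheres -/

open Classical in
/-- The vertices at depth `r` below `c`, seen from `p`. -/
noncomputable def ringF (G : SimpleGraph V) [G.LocallyFinite] : ℕ → V → V → Finset V
  | 0, c, _ => {c}
  | r + 1, c, p => (kids G c p).biUnion (fun c' => ringF G r c' c)

open Classical in
/-- The sphere of radius `r` around `o`. -/
noncomputable def sphereF (G : SimpleGraph V) [G.LocallyFinite] : ℕ → V → Finset V
  | 0, o => {o}
  | r + 1, o => (G.neighborFinset o).biUnion (fun c => ringF G r c o)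

theorem mem_ringF (hT : G.IsTree) {r : ℕ} {c p x : V} (h : G.Adj c p) :
    x ∈ ringF G r c p ↔ G.dist c x = r ∧ x ∈ Side G c p := by
  classical
  induction r generalizing c p x with
  | zero =>
    simp only [ringF, Finset.mem_singleton]
    constructor
    · rintro rfl
      exact ⟨by simp, self_mem_side h⟩
    · rintro ⟨h1, -⟩
      exact ((hT.connected.dist_eq_zero_iff).1 h1).symm
  | succ r ih =>
    simp only [ringF, Finset.mem_biUnion]
    constructor
    · rintro ⟨c', hc', hx⟩
      have hc'' := mem_kids.1 hc'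
      have hx' := (ih hc''.1.symm).1 hx
      have := side_step hT h hc' hx'.2
      exact ⟨by omega, this.1⟩
    · rintro ⟨h1, h2⟩
      have hne : c ≠ x := by
        rintro rfl
        simp at h1
      have := side_step_rev hT h h2 hne
      refine ⟨_, this.1, (ih (mem_kids.1 this.1).1.symm).2 ⟨?_, this.2⟩⟩
      have h3 := side_step hT h this.1 this.2
      omega

theorem mem_sphereF (hT : G.IsTree) {r : ℕ} {o x : V} : x ∈ sphereF G r o ↔ G.dist o x = r := by
  classical
  cases r with
  | zero =>
    simp only [sphereF, Finset.mem_singleton]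
    constructor
    · rintro rfl; simp
    · intro h1; exact ((hT.connected.dist_eq_zero_iff).1 h1).symm
  | succ r =>
    simp only [sphereF, Finset.mem_biUnion, mem_neighborFinset]
    constructor
    · rintro ⟨c, hc, hx⟩
      have hx' := (mem_ringF hT hc.symm).1 hx
      simp only [mem_side] at hx'
      omega
    · intro h1
      have hne : o ≠ x := by
        rintro rfl
        simp at h1
      have ha : G.Adj o (nxt hT x o) := nxt_adj hT hne
      have hd : G.dist x (nxt hT x o) + 1 = G.dist x o := nxt_dist hT hne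
      refine ⟨_, ha, (mem_ringF hT ha.symm).2 ?_⟩
      simp only [mem_side]
      rw [dist_comm (u := x), dist_comm (u := x)] at hd
      omega

lemma kids_card (k : ℕ) (hreg : G.IsRegularOfDegree (k + 1)) {c p : V} (h : G.Adj c p) :
    (kids G c p).card = k := by
  classical
  unfold kids
  rw [Finset.card_erase_of_mem (mem_neighborFinset _ _ _ |>.2 h), card_neighborFinset_eq_degree,
    hreg c]
  simp

theorem ringF_card (hT : G.IsTree) (k : ℕ) (hreg : G.IsRegularOfDegree (k + 1)) (r : ℕ) {c p : V}
    (h : G.Adj c p) : (ringF G r c p).card = k ^ r := by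
  classical
  induction r generalizing c p with
  | zero => simp [ringF]
  | succ r ih =>
    simp only [ringF]
    rw [Finset.card_biUnion]
    · rw [Finset.sum_congr rfl fun c' hc' => ih (mem_kids.1 hc').1.symm, Finset.sum_const,
        kids_card k hreg h, smul_eq_mul, pow_succ]
      ring
    · intro c1 h1 c2 h2 hne
      simp only [Function.onFun]
      rw [Finset.disjoint_left]
      intro x hx1 hx2
      have a1 := mem_kids.1 h1
      have a2 := mem_kids.1 h2
      have s1 := ((mem_ringF hT a1.1.symm).1 hx1).2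
      have s2 := ((mem_ringF hT a2.1.symm).1 hx2).2
      simp only [mem_side] at s1 s2
      refine hne (closer_unique hT (z := x) a1.1 a2.1 ?_ ?_)
      · rw [dist_comm (u := x), dist_comm (u := x)]; omega
      · rw [dist_comm (u := x), dist_comm (u := x)]; omega

theorem sphereF_card (hT : G.IsTree) (k : ℕ) (hreg : G.IsRegularOfDegree (k + 1)) (r : ℕ) (o : V) :
    (sphereF G (r + 1) o).card = (k + 1) * k ^ r := by
  classical
  simp only [sphereF]
  rw [Finset.card_biUnion]
  · rw [Finset.sum_congr rfl fun c hc =>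
      ringF_card hT k hreg r ((mem_neighborFinset _ _ _).1 hc).symm, Finset.sum_const,
      card_neighborFinset_eq_degree, hreg o, smul_eq_mul]
  · intro c1 h1 c2 h2 hne
    simp only [Function.onFun]
    rw [Finset.disjoint_left]
    intro x hx1 hx2
    have a1 := (mem_neighborFinset _ _ _).1 h1
    have a2 := (mem_neighborFinset _ _ _).1 h2
    have s1 := ((mem_ringF hT a1.symm).1 hx1).2
    have s2 := ((mem_ringF hT a2.symm).1 hx2).2
    simp only [mem_side] at s1 s2
    refine hne (closer_unique hT (z := x) a1 a2 ?_ ?_)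
    · rw [dist_comm (u := x), dist_comm (u := x)]; omega
    · rw [dist_comm (u := x), dist_comm (u := x)]; omega

/-! ### Systems of children and coding by lists -/

/-- An enumeration of the children at every directed edge. -/
structure ChSys (G : SimpleGraph V) [G.LocallyFinite] (k : ℕ) where
  ch : V → V → Fin k → V
  mem : ∀ {c p : V}, G.Adj c p → ∀ i, ch c p i ∈ kids G c p
  inj : ∀ {c p : V}, G.Adj c p → Function.Injective (ch c p)
  surj : ∀ {c p x : V}, G.Adj c p → x ∈ kids G c p → ∃ i, ch c p i = x

namespace ChSys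

variable {k : ℕ} (S : ChSys G k)

/-- The vertex reached from the directed edge `p → c` by following a list of child indices. -/
def iota : V → V → List (Fin k) → V
  | c, _, [] => c
  | c, p, i :: l => iota (S.ch c p i) c l

@[simp] lemma iota_nil (c p : V) : S.iota c p [] = c := rfl

@[simp] lemma iota_cons (c p : V) (i : Fin k) (l : List (Fin k)) :
    S.iota c p (i :: l) = S.iota (S.ch c p i) c l := rfl

lemma ch_adj {c p : V} (h : G.Adj c p) (i : Fin k) : G.Adj c (S.ch c p i) :=
  (mem_kids.1 (S.mem h i)).1

theorem iota_side (hT : G.IsTree) {c p : V} (h : G.Adj c p) (l : List (Fin k)) :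
    S.iota c p l ∈ Side G c p ∧ G.dist c (S.iota c p l) = l.length := by
  induction l generalizing c p with
  | nil => exact ⟨self_mem_side h, by simp⟩
  | cons i l ih =>
    have h1 := S.ch_adj h i
    have h2 := ih h1.symm
    have h3 := side_step hT h (S.mem h i) h2.1
    refine ⟨h3.1, ?_⟩
    simp only [iota_cons, List.length_cons]
    omega

theorem iota_inj (hT : G.IsTree) {c p : V} (h : G.Adj c p) {l l' : List (Fin k)}
    (he : S.iota c p l = S.iota c p l') : l = l' := by
  induction l generalizing c p l' with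
  | nil =>
    cases l' with
    | nil => rfl
    | cons j l' =>
      have h1 := S.iota_side hT h (j :: l')
      simp only [iota_nil] at he
      rw [← he] at h1
      simp at h1
  | cons i l ih =>
    cases l' with
    | nil =>
      have h1 := S.iota_side hT h (i :: l)
      simp only [iota_nil] at he
      rw [he] at h1
      simp at h1
    | cons j l' =>
      simp only [iota_cons] at he
      have a1 := S.ch_adj h i
      have a2 := S.ch_adj h j
      have s1 := (S.iota_side hT a1.symm l).1
      have s2 := (S.iota_side hT a2.symm l').1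
      rw [he] at s1
      simp only [mem_side] at s1 s2
      have hch : S.ch c p i = S.ch c p j := by
        refine closer_unique hT (z := S.iota (S.ch c p j) c l') a1 a2 ?_ ?_
        · rw [dist_comm (u := S.iota (S.ch c p j) c l'),
            dist_comm (u := S.iota (S.ch c p j) c l')]; omega
        · rw [dist_comm (u := S.iota (S.ch c p j) c l'),
            dist_comm (u := S.iota (S.ch c p j) c l')]; omega
      have hij := S.inj h hch
      subst hij
      rw [ih a1.symm he]

theorem iota_surj (hT : G.IsTree) {c p x : V} (h : G.Adj c p) (hx : x ∈ Side G c p) :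
    ∃ l, S.iota c p l = x := by
  induction hn : G.dist c x generalizing c p with
  | zero =>
    exact ⟨[], (hT.connected.dist_eq_zero_iff).1 hn⟩
  | succ n ih =>
    have hne : c ≠ x := by
      rintro rfl
      simp at hn
    have h1 := side_step_rev hT h hx hne
    obtain ⟨i, hi⟩ := S.surj h h1.1
    have h2 := side_step hT h h1.1 h1.2
    have a1 := (mem_kids.1 h1.1).1
    obtain ⟨l, hl⟩ := ih a1.symm h1.2 (by omega)
    refine ⟨i :: l, ?_⟩
    simp only [iota_cons, hi, hl]

theorem iota_adj_snoc (hT : G.IsTree) {c p : V} (h : G.Adj c p) (l : List (Fin k)) (i : Fin k) :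
    G.Adj (S.iota c p l) (S.iota c p (l ++ [i])) := by
  induction l generalizing c p with
  | nil => simpa using S.ch_adj h i
  | cons j l ih =>
    simp only [List.cons_append, iota_cons]
    exact ih (S.ch_adj h j).symm

theorem iota_adj_iff (hT : G.IsTree) {c p : V} (h : G.Adj c p) {l l' : List (Fin k)}
    (ha : G.Adj (S.iota c p l) (S.iota c p l')) :
    (∃ i, l' = l ++ [i]) ∨ (∃ i, l = l' ++ [i]) := by
  induction l generalizing c p l' with
  | nil =>
    cases l' with
    | nil =>
      simp at ha
    | cons j l' =>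
      left
      simp only [iota_nil, iota_cons] at ha
      have a1 := S.ch_adj h j
      have s1 := (S.iota_side hT a1.symm l').1
      have := side_cut hT a1.symm s1 (self_mem_side a1) ha.symm
      have h2 : S.iota (S.ch c p j) c l' = S.iota (S.ch c p j) c [] := by simpa using this.1
      have := S.iota_inj hT a1.symm h2
      subst this
      exact ⟨j, rfl⟩
  | cons i l ih =>
    cases l' with
    | nil =>
      right
      simp only [iota_nil, iota_cons] at ha
      have a1 := S.ch_adj h i
      have s1 := (S.iota_side hT a1.symm l).1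
      have := side_cut hT a1.symm s1 (self_mem_side a1) ha
      have h2 : S.iota (S.ch c p i) c l = S.iota (S.ch c p i) c [] := by simpa using this.1
      have := S.iota_inj hT a1.symm h2
      subst this
      exact ⟨i, rfl⟩
    | cons j l' =>
      simp only [iota_cons] at ha
      have a1 := S.ch_adj h i
      have a2 := S.ch_adj h j
      by_cases hij : i = j
      · subst hij
        rcases ih a1.symm ha with ⟨m, hm⟩ | ⟨m, hm⟩
        · left; exact ⟨m, by simp [hm]⟩
        · right; exact ⟨m, by simp [hm]⟩
      · exfalso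
        have s1 := (S.iota_side hT a1.symm l).1
        have s2 := (S.iota_side hT a2.symm l').1
        have hk : S.ch c p j ∈ kids G c (S.ch c p i) :=
          mem_kids.2 ⟨a2, fun he => hij (S.inj h he).symm⟩
        have s3 := (side_step hT a1 hk s2).1
        have := side_cut hT a1.symm s1 s3 ha
        rw [this.2] at s2
        simp only [mem_side] at s2
        rw [dist_self, dist_eq_one_iff_adj.2 a2.symm] at s2
        omega

end ChSys

/-- Codes of vertices relative to a root edge. -/
abbrev Code (k : ℕ) := Bool × List (Fin k)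

/-- Adjacency of codes. -/
def CAdj {k : ℕ} (a b : Code k) : Prop :=
  (a.1 = b.1 ∧ ((∃ i, b.2 = a.2 ++ [i]) ∨ (∃ i, a.2 = b.2 ++ [i]))) ∨
    (a.1 ≠ b.1 ∧ a.2 = [] ∧ b.2 = [])

namespace ChSys

variable {k : ℕ} (S : ChSys G k)

/-- Decoding relative to the root edge `c p`. -/
def phi (c p : V) : Code k → V
  | (true, l) => S.iota c p l
  | (false, l) => S.iota p c l

theorem phi_inj (hT : G.IsTree) {c p : V} (h : G.Adj c p) : Function.Injective (S.phi c p) := by
  rintro ⟨b, l⟩ ⟨b', l'⟩ he
  cases b <;> cases b' <;> simp only [phi] at he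
  · rw [S.iota_inj hT h.symm he]
  · exact (side_disj (S.iota_side hT h _).1 (he ▸ (S.iota_side hT h.symm _).1)).elim
  · exact (side_disj (S.iota_side hT h _).1 (he ▸ (S.iota_side hT h.symm _).1)).elim
  · rw [S.iota_inj hT h he]

theorem phi_surj (hT : G.IsTree) {c p : V} (h : G.Adj c p) : Function.Surjective (S.phi c p) := by
  intro x
  rcases side_or hT h x with hx | hx
  · obtain ⟨l, hl⟩ := S.iota_surj hT h hx
    exact ⟨(true, l), hl⟩
  · obtain ⟨l, hl⟩ := S.iota_surj hT h.symm hx
    exact ⟨(false, l), hl⟩

theorem phi_adj (hT : G.IsTree) {c p : V} (h : G.Adj c p) (a b : Code k) :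
    G.Adj (S.phi c p a) (S.phi c p b) ↔ CAdj a b := by
  obtain ⟨b1, l⟩ := a
  obtain ⟨b2, l'⟩ := b
  constructor
  · intro ha
    cases b1 <;> cases b2 <;> simp only [phi] at ha
    · exact Or.inl ⟨rfl, S.iota_adj_iff hT h.symm ha⟩
    · right
      have s1 := (S.iota_side hT h.symm l).1
      have s2 := (S.iota_side hT h l').1
      have := side_cut hT h.symm s1 s2 ha
      refine ⟨by simp, S.iota_inj hT h.symm (by simpa using this.1),
        S.iota_inj hT h (by simpa using this.2)⟩
    · right
      have s1 := (S.iota_side hT h l).1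
      have s2 := (S.iota_side hT h.symm l').1
      have := side_cut hT h s1 s2 ha
      refine ⟨by simp, S.iota_inj hT h (by simpa using this.1),
        S.iota_inj hT h.symm (by simpa using this.2)⟩
    · exact Or.inl ⟨rfl, S.iota_adj_iff hT h ha⟩
  · rintro (⟨h1, h2⟩ | ⟨h1, h2, h3⟩)
    · simp only at h1 h2
      subst h1
      rcases h2 with ⟨i, hi⟩ | ⟨i, hi⟩
      · subst hi
        cases b1
        · exact S.iota_adj_snoc hT h.symm l i
        · exact S.iota_adj_snoc hT h l i
      · subst hi
        cases b1
        · exact (S.iota_adj_snoc hT h.symm l' i).symm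
        · exact (S.iota_adj_snoc hT h l' i).symm
    · simp only at h1 h2 h3
      subst h2 h3
      cases b1 <;> cases b2 <;> simp only [phi, iota_nil] at h1 ⊢
      · exact absurd rfl h1
      · exact h.symm
      · exact h
      · exact absurd rfl h1

/-- Decoding as an equivalence. -/
noncomputable def phiEquiv (hT : G.IsTree) {c p : V} (h : G.Adj c p) : Code k ≃ V :=
  Equiv.ofBijective (S.phi c p) ⟨S.phi_inj hT h, S.phi_surj hT h⟩

end ChSys

/-- Automorphism from two decodings. -/
noncomputable def autOf (hT : G.IsTree) {k : ℕ} (S S' : ChSys G k) {c p c' p' : V} (h : G.Adj c p)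
    (h' : G.Adj c' p') : G ≃g G where
  toEquiv := (S.phiEquiv hT h).symm.trans (S'.phiEquiv hT h')
  map_rel_iff' := by
    intro x y
    obtain ⟨a, rfl⟩ := (S.phiEquiv hT h).surjective x
    obtain ⟨b, rfl⟩ := (S.phiEquiv hT h).surjective y
    simp only [Equiv.trans_apply, Equiv.symm_apply_apply]
    show G.Adj (S'.phi c' p' a) (S'.phi c' p' b) ↔ G.Adj (S.phi c p a) (S.phi c p b)
    rw [S'.phi_adj hT h', S.phi_adj hT h]

lemma autOf_phi (hT : G.IsTree) {k : ℕ} (S S' : ChSys G k) {c p c' p' : V} (h : G.Adj c p)
    (h' : G.Adj c' p') (a : Code k) : autOf hT S S' h h' (S.phi c p a) = S'.phi c' p' a := by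
  show (S'.phiEquiv hT h') ((S.phiEquiv hT h).symm (S.phiEquiv hT h a)) = _
  rw [Equiv.symm_apply_apply]
  rfl

/-! ### Systems with a prescribed first child along a geodesic -/

open Classical in
/-- A bijection from `Fin (k+1)` to the children sending `0` to a prescribed child. -/
lemma exists_enum {k : ℕ} (hreg : G.IsRegularOfDegree (k + 1 + 1)) {c p : V} (h : G.Adj c p)
    {t : V} (ht : t ∈ kids G c p) :
    ∃ f : Fin (k + 1) → V, (∀ i, f i ∈ kids G c p) ∧ Function.Injective f ∧
      (∀ x ∈ kids G c p, ∃ i, f i = x) ∧ f 0 = t := by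
  have hcard : (kids G c p).card = k + 1 := kids_card (k + 1) hreg h
  let e : Fin (k + 1) ≃ kids G c p := (Finset.equivFinOfCardEq hcard).symm
  let t' : kids G c p := ⟨t, ht⟩
  let e' : Fin (k + 1) ≃ kids G c p := e.trans (Equiv.swap (e 0) t')
  refine ⟨fun i => (e' i : V), fun i => (e' i).2, ?_, ?_, ?_⟩
  · intro i j hij
    exact e'.injective (Subtype.ext hij)
  · intro x hx
    obtain ⟨i, hi⟩ := e'.surjective ⟨x, hx⟩
    exact ⟨i, by simp only [hi]⟩
  · simp [e', t']

open Classical in
/-- A system of children whose first child follows a given geodesic. -/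
theorem exists_chSys {k : ℕ} (hT : G.IsTree) (hreg : G.IsRegularOfDegree (k + 1 + 1)) (γ : ℕ → V)
    (r : ℕ) (hγ : IsGeo G γ r) :
    ∃ S : ChSys G (k + 1), ∀ i, i + 1 < r → S.ch (γ (i + 1)) (γ i) 0 = γ (i + 2) := by
  -- the prescribed target at a directed edge
  have hex : ∀ c p : V, ∃ f : Fin (k + 1) → V, G.Adj c p →
      ((∀ i, f i ∈ kids G c p) ∧ Function.Injective f ∧ (∀ x ∈ kids G c p, ∃ i, f i = x) ∧
        ∀ i, i + 1 < r → c = γ (i + 1) → p = γ i → f 0 = γ (i + 2)) := by
    intro c p
    by_cases h : G.Adj c p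
    · by_cases hi : ∃ i, i + 1 < r ∧ c = γ (i + 1) ∧ p = γ i
      · obtain ⟨i, hi1, rfl, rfl⟩ := hi
        have ht : γ (i + 2) ∈ kids G (γ (i + 1)) (γ i) :=
          mem_kids.2 ⟨hγ.adj (i + 1) hi1, hγ.nb i hi1⟩
        obtain ⟨f, f1, f2, f3, f4⟩ := exists_enum hreg h ht
        refine ⟨f, fun _ => ⟨f1, f2, f3, ?_⟩⟩
        intro j hj hc hp
        have : j = i := hγ.inj hT (by omega) (by omega) hp.symm
        subst this
        exact f4
      · have hc : (kids G c p).Nonempty := by
          rw [← Finset.card_pos, kids_card (k + 1) hreg h]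
          omega
        obtain ⟨t, ht⟩ := hc
        obtain ⟨f, f1, f2, f3, f4⟩ := exists_enum hreg h ht
        refine ⟨f, fun _ => ⟨f1, f2, f3, ?_⟩⟩
        intro j hj hc hp
        exact absurd ⟨j, hj, hc, hp⟩ hi
    · exact ⟨fun _ => c, fun h' => absurd h' h⟩
  choose f hf using hex
  refine ⟨⟨f, fun {c p} h i => (hf c p h).1 i, fun {c p} h => (hf c p h).2.1,
    fun {c p x} h hx => (hf c p h).2.2.1 x hx⟩, ?_⟩
  intro i hi
  exact (hf _ _ (hγ.adj i (by omega)).symm).2.2.2 i hi rfl rfl

theorem iota_replicate {k : ℕ} (S : ChSys G (k + 1)) (γ : ℕ → V) (r : ℕ)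
    (hS : ∀ i, i + 1 < r → S.ch (γ (i + 1)) (γ i) 0 = γ (i + 2)) (i n : ℕ) (hn : i + 1 + n ≤ r) :
    S.iota (γ (i + 1)) (γ i) (List.replicate n 0) = γ (i + 1 + n) := by
  induction n generalizing i with
  | zero => simp
  | succ n ih =>
    rw [List.replicate_succ, ChSys.iota_cons, hS i (by omega)]
    have := ih (i + 1) (by omega)
    rw [show i + 1 + 1 = i + 2 from rfl] at this
    rw [this]
    congr 1
    omega

/-- Homogeneity: non-backtracking paths of equal length are mapped to each other. -/
theorem exists_aut_geo {k : ℕ} (hT : G.IsTree) (hreg : G.IsRegularOfDegree (k + 1 + 1))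
    (γ γ' : ℕ → V) (r : ℕ) (hr : 1 ≤ r) (hγ : IsGeo G γ r) (hγ' : IsGeo G γ' r) :
    ∃ g : G ≃g G, ∀ i, i ≤ r → g (γ i) = γ' i := by
  obtain ⟨S, hS⟩ := exists_chSys hT hreg γ r hγ
  obtain ⟨S', hS'⟩ := exists_chSys hT hreg γ' r hγ'
  have h : G.Adj (γ 1) (γ 0) := (hγ.adj 0 (by omega)).symm
  have h' : G.Adj (γ' 1) (γ' 0) := (hγ'.adj 0 (by omega)).symm
  refine ⟨autOf hT S S' h h', ?_⟩
  intro i hi
  cases i with
  | zero =>
    have := autOf_phi hT S S' h h' (false, [])
    simpa [ChSys.phi] using this
  | succ i =>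
    have h1 := iota_replicate S γ r hS 0 i (by omega)
    have h2 := iota_replicate S' γ' r hS' 0 i (by omega)
    have := autOf_phi hT S S' h h' (true, List.replicate i 0)
    simp only [ChSys.phi] at this
    simp only [zero_add] at h1 h2
    rw [h1, h2] at this
    rw [show i + 1 = 1 + i from add_comm i 1]
    exact this

/-- Vertex transitivity. -/
theorem exists_aut_vertex {k : ℕ} (hT : G.IsTree) (hreg : G.IsRegularOfDegree (k + 1 + 1)) (x y : V) :
    ∃ g : G ≃g G, g x = y := by
  classical
  have hne : ∀ z : V, ∃ z', G.Adj z z' := by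
    intro z
    have : (G.neighborFinset z).Nonempty := by
      rw [← Finset.card_pos, card_neighborFinset_eq_degree, hreg z]
      omega
    obtain ⟨z', hz'⟩ := this
    exact ⟨z', (mem_neighborFinset _ _ _).1 hz'⟩
  obtain ⟨x', hx'⟩ := hne x
  obtain ⟨y', hy'⟩ := hne y
  have hγ : IsGeo G (fun i => if i = 0 then x else x') 1 :=
    ⟨fun i hi => by
      obtain rfl : i = 0 := by omega
      simpa using hx', fun i hi => by omega⟩
  have hγ' : IsGeo G (fun i => if i = 0 then y else y') 1 :=
    ⟨fun i hi => by
      obtain rfl : i = 0 := by omega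
      simpa using hy', fun i hi => by omega⟩
  obtain ⟨g, hg⟩ := exists_aut_geo hT hreg _ _ 1 le_rfl hγ hγ'
  exact ⟨g, by simpa using hg 0 (by omega)⟩

end Crest.Agent.Lib.IT
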