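/-
From "the root spin is a function of the i.i.d. field" to an exactly equivariant factor map
on the regular tree (statement S0241).
-/
import Crest.Agent.Lib.IT.Code
import Crest.Prelude.Def_Labels

set_option autoImplicit false

namespace Crest.Agent.Lib.IT

open MeasureTheory ProbabilityTheory SimpleGraph Filter Topology

variable {V : Type*} {G : SimpleGraph V} [G.LocallyFinite]

lemma countable_of_tree (hT : G.IsTree) : Countable V := by
  obtain ⟨o⟩ := hT.connected.nonempty
  have h : (Set.univ : Set V) = ⋃ N, ((ballF G N o : Finset V) : Set V) := by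
    ext x
    simp only [Set.mem_univ, Set.mem_iUnion, Finset.mem_coe, true_iff]
    exact exists_mem_ballF hT o x
  have : (Set.univ : Set V).Countable := by
    rw [h]
    exact Set.countable_iUnion (fun N => Finset.countable_toSet _)
  exact Set.countable_univ_iff.1 this

section Invariant

variable {S : Type*} [MeasurableSpace S]

/-- Restriction of a field to a ball. -/
def resB (G : SimpleGraph V) [G.LocallyFinite] (o : V) (n : ℕ) (w : V → S) : ballF G n o → S :=
  fun v => w v

lemma measurable_resB (o : V) (n : ℕ) : Measurable (resB (S := S) G o n) :=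
  measurable_pi_lambda _ fun _ => measurable_pi_apply _

/-- The filtration of the balls around `o`. -/
noncomputable def ballFilt (hT : G.IsTree) (o : V) :
    Filtration ℕ (MeasurableSpace.pi : MeasurableSpace (V → S)) where
  seq n := MeasurableSpace.comap (resB G o n) MeasurableSpace.pi
  mono' := by
    intro n m hnm
    have hsub := ballF_mono hT o hnm
    have : resB (S := S) G o n =
        (fun (w : ballF G m o → S) (v : ballF G n o) => w ⟨v.1, hsub v.2⟩) ∘ resB G o m := rfl
    show MeasurableSpace.comap _ _ ≤ _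
    rw [this, ← MeasurableSpace.comap_comp]
    refine MeasurableSpace.comap_mono ?_
    exact Measurable.comap_le (measurable_pi_lambda _ fun _ => measurable_pi_apply _)
  le' n := (measurable_resB o n).comap_le

lemma iSup_ballFilt (hT : G.IsTree) (o : V) :
    (MeasurableSpace.pi : MeasurableSpace (V → S)) ≤ ⨆ n, (ballFilt (S := S) hT o) n := by
  refine iSup_le fun v => ?_
  obtain ⟨N, hN⟩ := exists_mem_ballF hT o v
  refine le_trans ?_ (le_iSup _ N)
  have : (fun w : V → S => w v) = (fun w : ballF G N o → S => w ⟨v, hN⟩) ∘ resB G o N := rfl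
  show MeasurableSpace.comap _ _ ≤ MeasurableSpace.comap _ _
  rw [this, ← MeasurableSpace.comap_comp]
  exact MeasurableSpace.comap_mono (Measurable.comap_le (measurable_pi_apply _))

/-- The stabiliser of the root. -/
abbrev Stb (G : SimpleGraph V) (o : V) := {s : G ≃g G // s o = o}

instance (o : V) : Nonempty (Stb G o) := ⟨⟨RelIso.refl _, rfl⟩⟩

/-- Restriction of a stabilising automorphism to a ball. -/
noncomputable def rhoB (hT : G.IsTree) (o : V) (n : ℕ) (s : Stb G o) :
    ballF G n o → ballF G n o :=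
  fun v => ⟨s.1 v, by
    have h1 := (mem_ballF hT).1 v.2
    rw [mem_ballF hT]
    have h2 := iso_dist s.1 hT.connected o v
    rw [s.2] at h2
    omega⟩

lemma rhoB_apply (hT : G.IsTree) (o : V) (n : ℕ) (s : Stb G o) (v : ballF G n o) :
    (rhoB hT o n s v).1 = s.1 v := rfl

/-- Composition of stabilisers. -/
def Stb.mul {o : V} (s t : Stb G o) : Stb G o :=
  ⟨t.1.trans s.1, by
    show s.1 (t.1 o) = o
    rw [t.2, s.2]⟩

/-- Inverse of stabilisers. -/
def Stb.inv {o : V} (s : Stb G o) : Stb G o :=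
  ⟨s.1.symm, by
    have := s.1.symm_apply_apply o
    rw [s.2] at this
    exact this⟩

lemma rhoB_mul (hT : G.IsTree) (o : V) (n : ℕ) (s t : Stb G o) :
    rhoB hT o n (Stb.mul s t) = rhoB hT o n s ∘ rhoB hT o n t := rfl

lemma rhoB_inv_comp (hT : G.IsTree) (o : V) (n : ℕ) (s : Stb G o) (a : ballF G n o → ballF G n o) :
    rhoB hT o n (Stb.inv s) ∘ (rhoB hT o n s ∘ a) = a := by
  funext v
  apply Subtype.ext
  show s.1.symm (s.1 (a v).1) = (a v).1
  simp

lemma rhoB_comp_inv (hT : G.IsTree) (o : V) (n : ℕ) (s : Stb G o) (a : ballF G n o → ballF G n o) :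
    rhoB hT o n s ∘ (rhoB hT o n (Stb.inv s) ∘ a) = a := by
  funext v
  apply Subtype.ext
  show s.1 (s.1.symm (a v).1) = (a v).1
  simp

/-- The finite set of restrictions of stabilisers to a ball. -/
noncomputable def rangeB (hT : G.IsTree) (o : V) (n : ℕ) : Finset (ballF G n o → ballF G n o) :=
  (Set.toFinite (Set.range (rhoB (G := G) hT o n))).toFinset

lemma mem_rangeB (hT : G.IsTree) (o : V) (n : ℕ) (a : ballF G n o → ballF G n o) :
    a ∈ rangeB hT o n ↔ ∃ s, rhoB hT o n s = a := by
  simp [rangeB]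

/-- A representative of a restriction. -/
noncomputable def repB (hT : G.IsTree) (o : V) (n : ℕ) (a : ballF G n o → ballF G n o) : Stb G o :=
  Function.invFun (rhoB hT o n) a

lemma rho_repB (hT : G.IsTree) (o : V) (n : ℕ) {a : ballF G n o → ballF G n o}
    (ha : a ∈ rangeB hT o n) : rhoB hT o n (repB hT o n a) = a :=
  Function.invFun_eq ((mem_rangeB hT o n a).1 ha)

lemma rangeB_card_pos (hT : G.IsTree) (o : V) (n : ℕ) : 0 < (rangeB (G := G) hT o n).card := by
  refine Finset.card_pos.2 ⟨rhoB hT o n ⟨RelIso.refl _, rfl⟩, (mem_rangeB hT o n _).2 ⟨_, rfl⟩⟩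

/-- The average over the stabiliser acting on the ball. -/
noncomputable def avgB (hT : G.IsTree) (o : V) (n : ℕ) (h : (V → S) → ℝ) (w : V → S) : ℝ :=
  ((rangeB (G := G) hT o n).card : ℝ)⁻¹ *
    ∑ a ∈ rangeB (G := G) hT o n, h (w ∘ (repB hT o n a).1)

omit [MeasurableSpace S] in
lemma avgB_invariant (hT : G.IsTree) (o : V) (n : ℕ) {h : (V → S) → ℝ}
    (hh : h.FactorsThrough (resB G o n)) (s : Stb G o) (w : V → S) :
    avgB hT o n h (w ∘ s.1) = avgB hT o n h w := by
  unfold avgB
  congr 1
  refine Finset.sum_nbij' (fun a => rhoB hT o n s ∘ a) (fun a => rhoB hT o n (Stb.inv s) ∘ a)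
    ?_ ?_ ?_ ?_ ?_
  · intro a ha
    obtain ⟨t, rfl⟩ := (mem_rangeB hT o n a).1 ha
    exact (mem_rangeB hT o n _).2 ⟨Stb.mul s t, rfl⟩
  · intro a ha
    obtain ⟨t, rfl⟩ := (mem_rangeB hT o n a).1 ha
    exact (mem_rangeB hT o n _).2 ⟨Stb.mul (Stb.inv s) t, rfl⟩
  · intro a _
    exact rhoB_inv_comp hT o n s a
  · intro a _
    exact rhoB_comp_inv hT o n s a
  · intro a ha
    apply hh
    funext v
    have hb : rhoB hT o n s ∘ a ∈ rangeB hT o n := by
      obtain ⟨t, rfl⟩ := (mem_rangeB hT o n a).1 ha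
      exact (mem_rangeB hT o n _).2 ⟨Stb.mul s t, rfl⟩
    have h1 := congrFun (rho_repB hT o n hb) v
    have h2 := congrFun (rho_repB hT o n ha) v
    have h3 : (repB hT o n (rhoB hT o n s ∘ a)).1 v = s.1 (a v).1 := by
      have := congrArg Subtype.val h1
      simpa [rhoB_apply] using this
    have h4 : (repB hT o n a).1 v = (a v).1 := by
      have := congrArg Subtype.val h2
      simpa [rhoB_apply] using this
    simp only [resB, Function.comp_apply, h3, h4]

theorem exists_stab_invariant (hT : G.IsTree) (o : V)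
    (Q : Measure (V → S)) [IsProbabilityMeasure Q]
    (hQ : ∀ g : G ≃g G, Q.map (fun w => w ∘ g) = Q)
    (f₀ : (V → S) → ℝ) (hf₀ : Measurable f₀) (hfi : Integrable f₀ Q)
    (hfinv : ∀ s : G ≃g G, s o = o → ∀ᵐ w ∂Q, f₀ (w ∘ s) = f₀ w) :
    ∃ ψ : (V → S) → ℝ, Measurable ψ ∧ (∀ s : G ≃g G, s o = o → ∀ w, ψ (w ∘ s) = ψ w) ∧
      ψ =ᵐ[Q] f₀ := by
  classical
  let ℱ := ballFilt (S := S) hT o
  let h : ℕ → (V → S) → ℝ := fun n => Q[f₀ | ℱ n]
  have hsm : ∀ n, StronglyMeasurable[ℱ n] (h n) := fun n => stronglyMeasurable_condExp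
  have hm : ∀ n, Measurable (h n) := fun n => ((hsm n).mono (ℱ.le n)).measurable
  have hfact : ∀ n, (h n).FactorsThrough (resB G o n) := fun n =>
    StronglyMeasurable.factorsThrough (mY := MeasurableSpace.pi) (hsm n)
  have hlim : Tendsto (fun n => eLpNorm (h n - f₀) 1 Q) atTop (𝓝 0) :=
    hfi.tendsto_eLpNorm_condExp
      ((hf₀.mono (iSup_ballFilt hT o) le_rfl).stronglyMeasurable)
  have hTm : ∀ g : G ≃g G, Measurable (fun w : V → S => w ∘ g) := fun g =>
    measurable_pi_lambda _ fun _ => measurable_pi_apply _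
  have hpres : ∀ g : G ≃g G, MeasurePreserving (fun w : V → S => w ∘ g) Q Q := fun g =>
    ⟨hTm g, hQ g⟩
  have hone : ∀ (n : ℕ) (t : Stb G o),
      eLpNorm (fun w => h n (w ∘ t.1) - f₀ w) 1 Q = eLpNorm (h n - f₀) 1 Q := by
    intro n t
    have h1 : (fun w => h n (w ∘ t.1) - f₀ w) =ᵐ[Q] (h n - f₀) ∘ (fun w : V → S => w ∘ t.1) := by
      filter_upwards [hfinv t.1 t.2] with w hw
      simp [hw]
    rw [eLpNorm_congr_ae h1]
    exact eLpNorm_comp_measurePreserving
      (((hm n).sub hf₀).aestronglyMeasurable) (hpres t.1)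
  have hcard : ∀ n, ((rangeB (G := G) hT o n).card : ℝ) ≠ 0 := fun n => by
    have := rangeB_card_pos (G := G) hT o n
    positivity
  have hmavg : ∀ n, Measurable (avgB hT o n (h n)) := by
    intro n
    unfold avgB
    refine Measurable.const_mul (Finset.measurable_fun_sum _ fun a _ => ?_) _
    exact (hm n).comp (hTm _)
  have herr : ∀ n, eLpNorm (avgB hT o n (h n) - f₀) 1 Q ≤ eLpNorm (h n - f₀) 1 Q := by
    intro n
    set c : ℝ := ((rangeB (G := G) hT o n).card : ℝ)⁻¹ with hc
    have hcn : c * ((rangeB (G := G) hT o n).card : ℝ) = 1 := inv_mul_cancel₀ (hcard n)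
    have heq : avgB hT o n (h n) - f₀ =
        c • ∑ a ∈ rangeB (G := G) hT o n, (fun w => h n (w ∘ (repB hT o n a).1) - f₀ w) := by
      funext w
      simp only [Pi.sub_apply, Pi.smul_apply, Finset.sum_apply, smul_eq_mul, avgB]
      rw [Finset.sum_sub_distrib, Finset.sum_const, nsmul_eq_mul, mul_sub, ← mul_assoc, hcn, one_mul]
    rw [heq, eLpNorm_const_smul]
    have hsum : eLpNorm (∑ a ∈ rangeB (G := G) hT o n, (fun w => h n (w ∘ (repB hT o n a).1) - f₀ w))
        1 Q ≤ (rangeB (G := G) hT o n).card • eLpNorm (h n - f₀) 1 Q := by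
      refine (eLpNorm_sum_le (fun a _ => ?_) le_rfl).trans ?_
      · exact ((hm n).comp (hTm _)).sub hf₀ |>.aestronglyMeasurable
      · refine (Finset.sum_le_card_nsmul _ _ _ fun a _ => ?_)
        exact (hone n _).le
    refine (mul_le_mul' le_rfl hsum).trans ?_
    rw [nsmul_eq_mul, ← mul_assoc]
    have : ‖c‖ₑ * ((rangeB (G := G) hT o n).card : ENNReal) = 1 := by
      have hc0 : 0 ≤ c := by rw [hc]; positivity
      rw [Real.enorm_of_nonneg hc0, ← ENNReal.ofReal_natCast, ← ENNReal.ofReal_mul hc0, hcn]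
      simp
    rw [this, one_mul]
  have hlim2 : Tendsto (fun n => eLpNorm (avgB hT o n (h n) - f₀) 1 Q) atTop (𝓝 0) :=
    tendsto_of_tendsto_of_tendsto_of_le_of_le tendsto_const_nhds hlim (fun _ => bot_le) herr
  have hmeas : TendstoInMeasure Q (fun n => avgB hT o n (h n)) atTop f₀ :=
    tendstoInMeasure_of_tendsto_eLpNorm one_ne_zero (fun n => (hmavg n).aestronglyMeasurable)
      hf₀.aestronglyMeasurable hlim2
  obtain ⟨ns, _, hns⟩ := hmeas.exists_seq_tendsto_ae
  refine ⟨fun w => limsup (fun i => avgB hT o (ns i) (h (ns i)) w) atTop, ?_, ?_, ?_⟩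
  · exact Measurable.limsup fun i => hmavg (ns i)
  · intro s hs w
    have : ∀ i, avgB hT o (ns i) (h (ns i)) (w ∘ s) = avgB hT o (ns i) (h (ns i)) w := fun i =>
      avgB_invariant hT o (ns i) (hfact (ns i)) ⟨s, hs⟩ w
    simp only [this]
  · filter_upwards [hns] with w hw
    exact hw.limsup_eq

end Invariant

/-- Let `S` be a standard Borel space with a probability measure `μS`, and let `Jt` be a joint law of
a spin configuration and of an i.i.d. `S`-valued field on the regular tree, invariant under the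
automorphisms, such that the spin at the root `o` is almost surely a measurable function of the
field. Then there is an exactly equivariant measurable factor of uniform labels with the law of the
spins. -/
theorem exists_factor {k : ℕ} (hT : G.IsTree) (hreg : G.IsRegularOfDegree (k + 1 + 1))
    {S : Type*} [MeasurableSpace S] [StandardBorelSpace S] [Nonempty S] (μS : Measure S)
    [IsProbabilityMeasure μS] (Jt : Measure ((V → Bool) × (V → S))) [IsProbabilityMeasure Jt]
    (hinv : ∀ g : G ≃g G, Jt.map (fun p => (p.1 ∘ g, p.2 ∘ g)) = Jt)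
    (hlaw : Jt.map Prod.snd = Measure.infinitePi (fun _ : V => μS))
    (o : V) (ψ₀ : (V → S) → Bool) (hψ₀ : Measurable ψ₀) (hroot : ∀ᵐ p ∂Jt, p.1 o = ψ₀ p.2) :
    ∃ Φ : (V → unitInterval) → (V → Bool), Measurable Φ ∧
      (∀ (g : G ≃g G) (x : V → unitInterval), Φ (x ∘ g) = Φ x ∘ g) ∧
      (Crest.ProbabilityR.Labels.labelMeasure V).map Φ = Jt.map Prod.fst := by
  classical
  have : Countable V := countable_of_tree hT
  -- notation
  let Q : Measure (V → S) := Jt.map Prod.snd
  have : IsProbabilityMeasure Q := Measure.isProbabilityMeasure_map measurable_snd.aemeasurable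
  have hTm : ∀ g : G ≃g G, Measurable (fun w : V → S => w ∘ g) := fun g =>
    measurable_pi_lambda _ fun _ => measurable_pi_apply _
  have hTp : ∀ g : G ≃g G, Measurable (fun p : (V → Bool) × (V → S) => (p.1 ∘ g, p.2 ∘ g)) :=
    fun g => (measurable_pi_lambda _ fun v => (measurable_pi_apply _).comp measurable_fst).prodMk
      (measurable_pi_lambda _ fun v => (measurable_pi_apply _).comp measurable_snd)
  have hQ : ∀ g : G ≃g G, Q.map (fun w => w ∘ g) = Q := by
    intro g
    have h1 : Q.map (fun w => w ∘ g) = (Jt.map (fun p => (p.1 ∘ g, p.2 ∘ g))).map Prod.snd := by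
      rw [Measure.map_map (hTm g) measurable_snd, Measure.map_map measurable_snd (hTp g)]
      rfl
    rw [h1, hinv g]
  -- the root identity at every vertex
  have hrootg : ∀ g : G ≃g G, ∀ᵐ p ∂Jt, p.1 (g o) = ψ₀ (p.2 ∘ g) := by
    intro g
    have := hroot
    rw [← hinv g] at this
    exact ae_of_ae_map (hTp g).aemeasurable this
  let f₀ : (V → S) → ℝ := fun w => if ψ₀ w then 1 else 0
  have hf₀ : Measurable f₀ := by
    have : MeasurableSet {w | ψ₀ w = true} := hψ₀ (measurableSet_singleton true)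
    exact Measurable.ite this measurable_const measurable_const
  have hfi : Integrable f₀ Q := by
    refine Integrable.of_bound hf₀.aestronglyMeasurable 1 (Eventually.of_forall fun w => ?_)
    by_cases h : ψ₀ w <;> simp [f₀, h]
  have hmeqs : ∀ g : G ≃g G, MeasurableSet {w : V → S | ψ₀ (w ∘ g) = ψ₀ w} := fun g =>
    measurableSet_eq_fun (hψ₀.comp (hTm g)) hψ₀
  have hfinv : ∀ s : G ≃g G, s o = o → ∀ᵐ w ∂Q, f₀ (w ∘ s) = f₀ w := by
    intro s hs
    have h1 : ∀ᵐ w ∂Q, ψ₀ (w ∘ s) = ψ₀ w := by
      refine (ae_map_iff measurable_snd.aemeasurable (hmeqs s)).2 ?_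
      filter_upwards [hroot, hrootg s] with p h1 h2
      rw [hs] at h2
      rw [← h2, h1]
    filter_upwards [h1] with w hw
    simp only [f₀, hw]
  obtain ⟨ψ, hψm, hψinv, hψae⟩ := exists_stab_invariant hT o Q hQ f₀ hf₀ hfi hfinv
  choose gv hgv using fun v => exists_aut_vertex hT hreg o v
  obtain ⟨f, hfm, hfmap⟩ := Measure.exists_measurable_map_eq μS
  let Ψ : (V → S) → V → Bool := fun w v => decide (1 / 2 < ψ (w ∘ gv v))
  have hΨm : Measurable Ψ := by
    refine measurable_pi_lambda _ fun v => ?_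
    refine measurable_to_bool ?_
    have : (fun w : V → S => decide (1 / 2 < ψ (w ∘ gv v))) ⁻¹' {true} =
        (fun w => ψ (w ∘ gv v)) ⁻¹' Set.Ioi (1 / 2) := by
      ext w
      simp
    show MeasurableSet ((fun w : V → S => decide (1 / 2 < ψ (w ∘ gv v))) ⁻¹' {true})
    rw [this]
    exact (hψm.comp (hTm _)) measurableSet_Ioi
  have hcomp : Measurable (fun x : V → unitInterval => f ∘ x) :=
    measurable_pi_lambda _ fun v => hfm.comp (measurable_pi_apply v)
  refine ⟨fun x => Ψ (f ∘ x), hΨm.comp hcomp, ?_, ?_⟩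
  · intro g x
    funext v
    show decide (1 / 2 < ψ (f ∘ (x ∘ g) ∘ gv v)) = decide (1 / 2 < ψ (f ∘ x ∘ gv (g v)))
    let s : G ≃g G := ((gv v).trans g).trans (gv (g v)).symm
    have hs : s o = o := by
      show (gv (g v)).symm (g (gv v o)) = o
      have h := (gv (g v)).symm_apply_apply o
      rw [hgv (g v)] at h
      rw [hgv v]
      exact h
    have : f ∘ (x ∘ g) ∘ gv v = (f ∘ x ∘ gv (g v)) ∘ s := by
      funext y
      show f (x (g (gv v y))) = f (x (gv (g v) ((gv (g v)).symm (g (gv v y)))))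
      simp
    rw [this, hψinv s hs]
  · have hmap : (Crest.ProbabilityR.Labels.labelMeasure V).map (fun x : V → unitInterval => f ∘ x)
        = Q := by
      show (Measure.infinitePi fun _ : V => (volume : Measure unitInterval)).map
        (fun x i => f (x i)) = Jt.map Prod.snd
      rw [Measure.infinitePi_map_pi _ (fun _ => hfm), hfmap, hlaw]
    have h1 : (Crest.ProbabilityR.Labels.labelMeasure V).map (fun x => Ψ (f ∘ x)) = Q.map Ψ := by
      rw [← hmap, Measure.map_map hΨm hcomp]
      rfl
    rw [h1]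
    show (Jt.map Prod.snd).map Ψ = _
    rw [Measure.map_map hΨm measurable_snd]
    refine Measure.map_congr ?_
    have hpt : ∀ v, ∀ᵐ p ∂Jt, Ψ p.2 v = p.1 v := by
      intro v
      have h2 : ∀ᵐ w ∂Q, ψ (w ∘ gv v) = f₀ (w ∘ gv v) := by
        have : ∀ᵐ w ∂(Q.map (fun w => w ∘ gv v)), ψ w = f₀ w := by
          rw [hQ]
          exact hψae
        exact ae_of_ae_map (hTm _).aemeasurable this
      have h3 : ∀ᵐ p ∂Jt, ψ (p.2 ∘ gv v) = f₀ (p.2 ∘ gv v) :=
        ae_of_ae_map measurable_snd.aemeasurable h2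
      filter_upwards [h3, hrootg (gv v)] with p hp hq
      show decide (1 / 2 < ψ (p.2 ∘ gv v)) = p.1 v
      rw [hgv v] at hq
      rw [hp, hq]
      by_cases h : ψ₀ (p.2 ∘ gv v)
      · simp only [f₀, h, if_true]
        norm_num
      · simp only [f₀, h]
        norm_num
    have hall := ae_all_iff.2 hpt
    filter_upwards [hall] with p hp
    funext v
    exact hp v

end Crest.Agent.Lib.IT
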