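/-
Fixed-depth planted recursion on the rooted `k`-ary tree (statement S0241): definitions.

Data at a vertex: an agreement bit `b` and a gauged field `z`.  Data on the tree are indexed by
lists of child indices, `[]` being the root.  All variables are i.i.d.: bit `true` has probability
`(1+θ)/2`, `z` has law `N(τ,τ)`.

`msg N d` is the spin-one-half "message" of depth `N` at the root (the magnetisation of the root on
the depth `N` subtree in the gauge where the root spin is `+`).
-/
import Crest.Agent.Lib.IT.Alg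

set_option autoImplicit false

namespace Crest.Agent.Lib.IT

open MeasureTheory ProbabilityTheory
open scoped ENNReal NNReal

/-- Data at a vertex. -/
abbrev XX := Bool × ℝ

/-- A Boolean as a sign. -/
def sg (b : Bool) : ℝ := if b then 1 else -1

/-- The law of an agreement bit. -/
noncomputable def bitLaw (θ : ℝ) : Measure Bool :=
  ENNReal.ofReal ((1 + θ) / 2) • Measure.dirac true + ENNReal.ofReal ((1 - θ) / 2) • Measure.dirac false

/-- The law of the data at one vertex. -/
noncomputable def rhoX (θ τ : ℝ) : Measure XX :=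
  (bitLaw θ).prod (gaussianReal τ τ.toNNReal)

/-- The canonical space of data on the `k`-ary tree. -/
abbrev OmCan (k : ℕ) := List (Fin k) → XX

/-- The canonical product law. -/
noncomputable def Pcan (k : ℕ) (θ τ : ℝ) : Measure (OmCan k) :=
  Measure.infinitePi (fun _ : List (Fin k) => rhoX θ τ)

/-- The data on the subtree of the child `i`. -/
def shiftD {k : ℕ} (i : Fin k) (d : OmCan k) : OmCan k := fun l => d (i :: l)

/-- Moebius sum of `c` and a finite family `v`. -/
noncomputable def mobF {ι : Type*} [Fintype ι] (c : ℝ) (v : ι → ℝ) : ℝ :=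
  ((1 + c) * ∏ i, (1 + v i) - (1 - c) * ∏ i, (1 - v i)) /
    ((1 + c) * ∏ i, (1 + v i) + (1 - c) * ∏ i, (1 - v i))

/-- The message of depth `N` at the root. -/
noncomputable def msg {k : ℕ} (θ : ℝ) : ℕ → OmCan k → ℝ
  | 0, d => Real.tanh (d []).2
  | N + 1, d => mobF (Real.tanh (d []).2) (fun i : Fin k => sg (d [i]).1 * θ * msg θ N (shiftD i d))

/-- The Green function truncated at level `ℓ`, with messages of fixed depth `N`. -/
noncomputable def Tg {k : ℕ} (θ : ℝ) (N : ℕ) : ℕ → OmCan k → ℝ
  | 0, _ => 1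
  | ℓ + 1, d => 1 + θ ^ 2 * ∑ i : Fin k,
      Real.sqrt (PhiF θ (msg θ N (shiftD i d))) * Tg θ N ℓ (shiftD i d)

/-- The sum over paths of length `ℓ`, with message depth decreasing along the path. -/
noncomputable def LvF {k : ℕ} (θ : ℝ) : ℕ → ℕ → OmCan k → ℝ
  | 0, _, _ => 1
  | ℓ + 1, N, d => θ ^ 2 * ∑ i : Fin k,
      Real.sqrt (PhiF θ (msg θ (N - 1) (shiftD i d))) * LvF θ ℓ (N - 1) (shiftD i d)

/-- Second moment of the message of depth `N`. -/
noncomputable def xN (k : ℕ) (θ τ : ℝ) (N : ℕ) : ℝ := ∫ d, msg θ N d ^ 2 ∂(Pcan k θ τ)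

/-- `E tanh² z`. -/
noncomputable def ttl (τ : ℝ) : ℝ := ∫ z, Real.tanh z ^ 2 ∂(gaussianReal τ τ.toNNReal)

/-- The killing rate given the second moment `x` of the sibling message. -/
noncomputable def kill (θ x : ℝ) : ℝ := (1 / 2) * (1 - θ ^ 2) * ((1 - θ) / (1 + θ) ^ 2) * (θ ^ 2 * x)

end Crest.Agent.Lib.IT
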