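/-
The free Ising state on the tree: existence, invariance, cuts (statement S0241).
-/
import Crest.Agent.Lib.IT.PlantedDefs
import Crest.Agent.Lib.IT.Code
import Crest.Prelude.Def_TreeIsing

set_option autoImplicit false

namespace Crest.Agent.Lib.IT

open MeasureTheory ProbabilityTheory SimpleGraph
open Crest.ProbabilityR.TreeIsing

variable {V : Type*} {G : SimpleGraph V} [G.LocallyFinite]

/-- `ν` has the finite connected marginals of the free Ising state. -/
def IsIsing (G : SimpleGraph V) (θ : ℝ) (ν : Measure (V → Bool)) : Prop :=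
  ∀ (S : Finset V) (η : V → Bool), (G.induce (S : Set V)).Connected →
    ν {σ | ∀ v ∈ S, σ v = η v} = ENNReal.ofReal (isingWeight G θ S η)

/-- A set closed under stepping towards `c`, containing `c`, is connected. -/
theorem connected_of_closed (hT : G.IsTree) (F : Finset V) (c : V) (hc : c ∈ F)
    (hcl : ∀ x ∈ F, nxt hT c x ∈ F) : (G.induce (F : Set V)).Connected := by
  have key : ∀ (n : ℕ) (x : V) (hx : x ∈ F), G.dist c x = n →
      (G.induce (F : Set V)).Reachable ⟨x, by exact_mod_cast hx⟩ ⟨c, by exact_mod_cast hc⟩ := by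
    intro n
    induction n with
    | zero =>
      intro x hx hd
      have : c = x := (hT.connected.dist_eq_zero_iff).1 hd
      subst this
      exact Reachable.refl _
    | succ n ih =>
      intro x hx hd
      have hne : x ≠ c := by
        rintro rfl
        simp at hd
      have ha := nxt_adj hT hne
      have hd' := nxt_dist hT hne
      have hmem := hcl x hx
      have h1 := ih _ hmem (by omega)
      refine Reachable.trans ?_ h1
      refine Adj.reachable ?_
      simpa using ha
  haveI : Nonempty (F : Set V) := ⟨⟨c, by exact_mod_cast hc⟩⟩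
  refine ⟨?_⟩
  rintro ⟨x, hx⟩ ⟨y, hy⟩
  have hx' : x ∈ F := by exact_mod_cast hx
  have hy' : y ∈ F := by exact_mod_cast hy
  exact (key _ x hx' rfl).trans (key _ y hy' rfl).symm

/-- A connected set is closed under stepping towards any of its vertices. -/
theorem step_closed (hT : G.IsTree) {S : Finset V} (hS : (G.induce (S : Set V)).Connected) {x y : V}
    (hx : x ∈ S) (hy : y ∈ S) : nxt hT y x ∈ S := by
  classical
  by_cases hne : x = y
  · subst hne
    rw [nxt_self]
    exact hx
  obtain ⟨W⟩ := hS.preconnected ⟨x, by exact_mod_cast hx⟩ ⟨y, by exact_mod_cast hy⟩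
  let W' : G.Walk x y := W.map (Embedding.induce (S : Set V)).toHom
  have hsupp : ∀ v ∈ W'.support, v ∈ S := by
    intro v hv
    have hv' : v ∈ (W.map (Embedding.induce (S : Set V)).toHom).support := hv
    rw [Walk.support_map, List.mem_map] at hv'
    obtain ⟨u, _, rfl⟩ := hv'
    exact_mod_cast u.2
  obtain ⟨q, hq⟩ := hT.connected.exists_walk_length_eq_dist x y
  have hqP : q.IsPath := q.isPath_of_length_eq_dist hq
  have hPq : W'.bypass = q := (hT.existsUnique_path x y).unique W'.bypass_isPath hqP
  have hsq : ∀ v ∈ q.support, v ∈ S := by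
    intro v hv
    rw [← hPq] at hv
    exact hsupp v (W'.support_bypass_subset_support hv)
  cases q with
  | nil => exact absurd rfl hne
  | @cons _ y' _ hxy r =>
    have h1 : G.dist y' y ≤ r.length := dist_le r
    rw [Walk.length_cons] at hq
    have hmem : y' ∈ S := hsq y' (by simp)
    have : y' = nxt hT y x := by
      refine eq_nxt hT hxy ?_
      rw [dist_comm (u := y), dist_comm (u := y)]
      have h2 : G.dist x y ≤ G.dist y' y + 1 := by
        have := hT.connected.dist_triangle (u := x) (v := y') (w := y)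
        rw [dist_eq_one_iff_adj.2 hxy] at this
        omega
      omega
    rw [← this]
    exact hmem

/-- The weight of a union over a single edge. -/
theorem isingWeight_cut (hT : G.IsTree) (θ : ℝ) {F₁ F₂ : Finset V} {c p : V} (hcp : G.Adj c p)
    (h₁ : ∀ x ∈ F₁, x ∈ Side G c p) (h₂ : ∀ x ∈ F₂, x ∈ Side G p c) (hc : c ∈ F₁) (hp : p ∈ F₂)
    (η : V → Bool) [DecidableEq V] :
    isingWeight G θ (F₁ ∪ F₂) η =
      isingWeight G θ F₁ η * isingWeight G θ F₂ η * (1 + θ * (sg (η c) * sg (η p))) := by
  classical
  have hdisj : Disjoint F₁ F₂ := by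
    rw [Finset.disjoint_left]
    intro x hx hx'
    exact side_disj (h₁ x hx) (h₂ x hx')
  unfold isingWeight
  set w : Sym2 V → ℝ := fun e => if (Sym2.map η e).IsDiag then (1 + θ) / 2 else (1 - θ) / 2 with hw
  -- the edge set of the union
  have hedges : ((F₁ ∪ F₂).sym2.filter (· ∈ G.edgeSet)) =
      (F₁.sym2.filter (· ∈ G.edgeSet)) ∪ (F₂.sym2.filter (· ∈ G.edgeSet)) ∪ {s(c, p)} := by
    ext e
    induction e using Sym2.ind with
    | _ a b =>
      simp only [Finset.mem_filter, Finset.mem_union,
        Finset.mem_singleton, mem_edgeSet, Finset.mk_mem_sym2_iff]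
      constructor
      · rintro ⟨⟨ha, hb⟩, hab⟩
        rcases ha with ha | ha <;> rcases hb with hb | hb
        · exact Or.inl (Or.inl ⟨⟨ha, hb⟩, hab⟩)
        · have := side_cut hT hcp (h₁ a ha) (h₂ b hb) hab
          exact Or.inr (by rw [this.1, this.2])
        · have := side_cut hT hcp (h₁ b hb) (h₂ a ha) hab.symm
          exact Or.inr (by rw [this.1, this.2, Sym2.eq_swap])
        · exact Or.inl (Or.inr ⟨⟨ha, hb⟩, hab⟩)
      · rintro ((⟨⟨ha, hb⟩, hab⟩ | ⟨⟨ha, hb⟩, hab⟩) | he)
        · exact ⟨⟨Or.inl ha, Or.inl hb⟩, hab⟩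
        · exact ⟨⟨Or.inr ha, Or.inr hb⟩, hab⟩
        · rw [Sym2.eq_iff] at he
          rcases he with ⟨rfl, rfl⟩ | ⟨rfl, rfl⟩
          · exact ⟨⟨Or.inl hc, Or.inr hp⟩, hcp⟩
          · exact ⟨⟨Or.inr hp, Or.inl hc⟩, hcp.symm⟩
  have hd1 : Disjoint (F₁.sym2.filter (· ∈ G.edgeSet)) (F₂.sym2.filter (· ∈ G.edgeSet)) := by
    rw [Finset.disjoint_left]
    intro e he he'
    induction e using Sym2.ind with
    | _ a b =>
      simp only [Finset.mem_filter, Finset.mk_mem_sym2_iff] at he he'
      exact Finset.disjoint_left.1 hdisj he.1.1 he'.1.1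
  have hd2 : s(c, p) ∉ (F₁.sym2.filter (· ∈ G.edgeSet)) ∪ (F₂.sym2.filter (· ∈ G.edgeSet)) := by
    simp only [Finset.mem_union, Finset.mem_filter, Finset.mk_mem_sym2_iff, not_or, not_and]
    constructor
    · intro h _
      have : p ∈ F₁ := h.2
      exact absurd hp (Finset.disjoint_left.1 hdisj this)
    · intro h _
      have : c ∈ F₂ := h.1
      exact absurd this (Finset.disjoint_left.1 hdisj hc)
  have hprod : ∏ e ∈ (F₁ ∪ F₂).sym2.filter (· ∈ G.edgeSet), w e =
      (∏ e ∈ F₁.sym2.filter (· ∈ G.edgeSet), w e) * (∏ e ∈ F₂.sym2.filter (· ∈ G.edgeSet), w e)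
        * w s(c, p) := by
    rw [hedges, Finset.prod_union (Finset.disjoint_singleton_right.2 hd2), Finset.prod_union hd1,
      Finset.prod_singleton]
  have hwcp : 2 * w s(c, p) = 1 + θ * (sg (η c) * sg (η p)) := by
    simp only [hw, Sym2.map_mk, Sym2.mk_isDiag_iff]
    cases h1 : η c <;> cases h2 : η p <;> simp [sg] <;> ring
  have main : (1 / 2) * ∏ e ∈ (F₁ ∪ F₂).sym2.filter (· ∈ G.edgeSet), w e =
      ((1 / 2) * ∏ e ∈ F₁.sym2.filter (· ∈ G.edgeSet), w e) *
        ((1 / 2) * ∏ e ∈ F₂.sym2.filter (· ∈ G.edgeSet), w e) *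
          (1 + θ * (sg (η c) * sg (η p))) := by
    rw [hprod, ← hwcp]
    ring
  convert main

/-- The broadcast construction from a root: `b` is the root spin, `w x` says whether `x` agrees with
its neighbour towards the root (`w o` is unused). -/
noncomputable def spinOf (hT : G.IsTree) (o : V) (b : Bool) (w : V → Bool) (x : V) : Bool :=
  xor b (decide (Odd (((Finset.range (G.dist o x)).filter (fun i => w (gp hT o x (i + 1)) = false)).card)))

theorem spinOf_root (hT : G.IsTree) (o : V) (b : Bool) (w : V → Bool) : spinOf hT o b w o = b := by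
  simp [spinOf]

/-- The geodesic to `x` starts with the geodesic to the step before `x`. -/
private lemma gp_nxt (hT : G.IsTree) (o : V) {x : V} (hx : x ≠ o) {i : ℕ}
    (hi : i ≤ G.dist o (nxt hT o x)) : gp hT o x i = gp hT o (nxt hT o x) i := by
  have hd := nxt_dist hT hx
  set y := nxt hT o x with hy
  set r := G.dist o y with hr
  have hdx : G.dist o x = r + 1 := by omega
  have hgeo := isGeo_gp hT o x
  have hgeo' : IsGeo G (gp hT o x) r :=
    ⟨fun i hi => hgeo.adj i (by omega), fun i hi => hgeo.nb i (by omega)⟩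
  have hend : gp hT o x r = y := by
    have h1 := gp_dist hT o x r
    have h2 := gp_dist_start hT o x (i := r) (by omega)
    have h3 : G.Adj x (gp hT o x r) := by
      refine dist_eq_one_iff_adj.1 ?_
      rw [h1, dist_comm (u := x), hdx]
      omega
    rw [hy]
    refine eq_nxt hT h3 ?_
    rw [h2, hdx]
  have := hgeo'.eq_gp hT hi
  rw [hend, gp_zero] at this
  exact this

theorem spinOf_step (hT : G.IsTree) (o : V) (b : Bool) (w : V → Bool) {x : V} (hx : x ≠ o) :
    spinOf hT o b w x = xor (spinOf hT o b w (nxt hT o x)) (!(w x)) := by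
  classical
  have hd := nxt_dist hT hx
  set y := nxt hT o x with hy
  set r := G.dist o y with hr
  have hdx : G.dist o x = r + 1 := by omega
  unfold spinOf
  rw [hdx, ← hr, Finset.range_add_one, Finset.filter_insert]
  have hfilt : (Finset.range r).filter (fun i => w (gp hT o x (i + 1)) = false) =
      (Finset.range r).filter (fun i => w (gp hT o y (i + 1)) = false) := by
    refine Finset.filter_congr fun i hi => ?_
    rw [gp_nxt hT o hx (i := i + 1) (by rw [← hy, ← hr]; have := Finset.mem_range.1 hi; omega)]
  have hlast : gp hT o x (r + 1) = x := gp_end hT o x (by omega)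
  rw [hlast, hfilt]
  set A := (Finset.range r).filter (fun i => w (gp hT o y (i + 1)) = false) with hA
  have hr_notin : r ∉ A := by simp [hA]
  cases hw : w x
  · simp only [if_true, Finset.card_insert_of_notMem hr_notin, Bool.not_false, Bool.xor_true]
    cases b <;> by_cases h : Odd A.card <;>
      simp [h, Nat.odd_add_one]
  · simp

theorem measurable_spinOf (hT : G.IsTree) (o : V) [Countable V] :
    Measurable (fun p : Bool × (V → Bool) => spinOf hT o p.1 p.2) := by
  have key : ∀ (n : ℕ) (x : V), G.dist o x = n →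
      Measurable (fun p : Bool × (V → Bool) => spinOf hT o p.1 p.2 x) := by
    intro n
    induction n with
    | zero =>
      intro x hd
      have : o = x := (hT.connected.dist_eq_zero_iff).1 hd
      subst this
      simp only [spinOf_root]
      exact measurable_fst
    | succ n ih =>
      intro x hd
      have hne : x ≠ o := by
        rintro rfl
        simp at hd
      have h1 := ih (nxt hT o x) (by have := nxt_dist hT hne; omega)
      simp only [spinOf_step hT o _ _ hne]
      have h2 : Measurable (fun p : Bool × (V → Bool) => p.2 x) :=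
        (measurable_pi_apply x).comp measurable_snd
      exact (measurable_of_finite (fun q : Bool × Bool => xor q.1 (!q.2))).comp (h1.prodMk h2)
  exact measurable_pi_iff.2 fun x => key _ x rfl

/-- The law of the fair root spin and independent agreement bits. -/
noncomputable def broadLaw (V : Type*) (θ : ℝ) : Measure (Bool × (V → Bool)) :=
  (bitLaw 0).prod (Measure.infinitePi (fun _ : V => bitLaw θ))


/-! ### Bits and coordinate independence -/

section bits

variable {θ : ℝ}

private lemma lawBit_prob (h0 : 0 ≤ θ) (h1 : θ < 1) : IsProbabilityMeasure (bitLaw θ) := by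
  constructor
  simp only [bitLaw, Measure.coe_add, Measure.coe_smul, Pi.add_apply, Pi.smul_apply,
    measure_univ, smul_eq_mul, mul_one]
  rw [← ENNReal.ofReal_add (by linarith) (by linarith)]
  have : (1 + θ) / 2 + (1 - θ) / 2 = 1 := by ring
  rw [this, ENNReal.ofReal_one]

private lemma lawBit_singleton (a : Bool) (h0 : 0 ≤ θ) (h1 : θ < 1) :
    bitLaw θ {a} = ENNReal.ofReal ((1 + θ * sg a) / 2) := by
  cases a <;> simp [bitLaw, sg, Measure.dirac_apply', ← sub_eq_add_neg]

private lemma lawBit_zero_prob : IsProbabilityMeasure (bitLaw 0) := lawBit_prob le_rfl (by norm_num)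

private lemma lawBit_zero_singleton (a : Bool) : bitLaw 0 {a} = ENNReal.ofReal (1 / 2) := by
  rw [lawBit_singleton a le_rfl (by norm_num)]
  simp

end bits

open Classical in
private lemma map_update_infinitePi (β : Measure Bool) [IsProbabilityMeasure β] (ℓ : V) :
    (β.prod (Measure.infinitePi (fun _ : V => β))).map (fun q : Bool × (V → Bool) => Function.update q.2 ℓ q.1) =
      Measure.infinitePi (fun _ : V => β) := by
  have hm : Measurable (fun q : Bool × (V → Bool) => Function.update q.2 ℓ q.1) := by
    refine measurable_pi_iff.2 fun y => ?_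
    by_cases hy : y = ℓ
    · subst hy
      simpa using measurable_fst
    · simp only [Function.update_of_ne hy]
      exact (measurable_pi_apply y).comp measurable_snd
  refine Measure.eq_infinitePi _ fun s t ht => ?_
  have hpi : MeasurableSet ((s : Set V).pi t) := MeasurableSet.pi s.countable_toSet fun i _ => ht i
  rw [Measure.map_apply hm hpi]
  by_cases hl : ℓ ∈ s
  · have hset : (fun q : Bool × (V → Bool) => Function.update q.2 ℓ q.1) ⁻¹' ((s : Set V).pi t) =
        t ℓ ×ˢ ((s.erase ℓ : Finset V) : Set V).pi t := by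
      ext ⟨c, w⟩
      simp only [Set.mem_preimage, Set.mem_pi, Set.mem_prod, Finset.mem_coe, Finset.mem_erase]
      constructor
      · intro h
        refine ⟨by simpa using h ℓ hl, fun i hi => ?_⟩
        have := h i hi.2
        rwa [Function.update_of_ne hi.1] at this
      · rintro ⟨h1, h2⟩ i hi
        by_cases hie : i = ℓ
        · subst hie; simpa using h1
        · rw [Function.update_of_ne hie]; exact h2 i ⟨hie, hi⟩
    rw [hset, Measure.prod_prod, Measure.infinitePi_pi _ (fun i _ => ht i),
      Finset.mul_prod_erase s (fun i => β (t i)) hl]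
  · have hset : (fun q : Bool × (V → Bool) => Function.update q.2 ℓ q.1) ⁻¹' ((s : Set V).pi t) =
        Set.univ ×ˢ (s : Set V).pi t := by
      ext ⟨c, w⟩
      simp only [Set.mem_preimage, Set.mem_pi, Set.mem_prod, Finset.mem_coe, Set.mem_univ, true_and]
      refine forall₂_congr fun i hi => ?_
      rw [Function.update_of_ne (by rintro rfl; exact hl hi)]
    rw [hset, Measure.prod_prod, Measure.infinitePi_pi _ (fun i _ => ht i), measure_univ, one_mul]

private lemma measurableSet_coord (ℓ : V) (a : Bool) : MeasurableSet {w : V → Bool | w ℓ = a} := by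
  have h := (measurable_pi_apply ℓ : Measurable fun w : V → Bool => w ℓ) (measurableSet_singleton a)
  exact h

/-- Coordinate independence for events not depending on the coordinate `ℓ`. -/
private lemma infinitePi_inter_coord (β : Measure Bool) [IsProbabilityMeasure β] (ℓ : V) (a : Bool)
    {E : Set (V → Bool)} (hE : MeasurableSet E)
    (hdep : ∀ (w : V → Bool) (c : Bool), (open Classical in Function.update w ℓ c) ∈ E ↔ w ∈ E) :
    Measure.infinitePi (fun _ : V => β) (E ∩ {w | w ℓ = a}) =
      Measure.infinitePi (fun _ : V => β) E * β {a} := by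
  classical
  have hm : Measurable (fun q : Bool × (V → Bool) => Function.update q.2 ℓ q.1) := by
    refine measurable_pi_iff.2 fun y => ?_
    by_cases hy : y = ℓ
    · subst hy
      simpa using measurable_fst
    · simp only [Function.update_of_ne hy]
      exact (measurable_pi_apply y).comp measurable_snd
  have hset : MeasurableSet (E ∩ {w : V → Bool | w ℓ = a}) := hE.inter (measurableSet_coord ℓ a)
  conv_lhs => rw [← map_update_infinitePi β ℓ]
  rw [Measure.map_apply hm hset]
  have : (fun q : Bool × (V → Bool) => Function.update q.2 ℓ q.1) ⁻¹' (E ∩ {w | w ℓ = a}) =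
      {a} ×ˢ E := by
    ext ⟨c, w⟩
    simp only [Set.mem_preimage, Set.mem_inter_iff, Set.mem_setOf_eq, Function.update_self,
      Set.mem_prod, Set.mem_singleton_iff]
    rw [hdep w c]
    tauto
  rw [this, Measure.prod_prod, mul_comm]

/-- Coordinate independence under the broadcast law. -/
private lemma broad_inter_coord {θ : ℝ} (h0 : 0 ≤ θ) (h1 : θ < 1) (ℓ : V) (a : Bool)
    {A : Set (Bool × (V → Bool))} (hA : MeasurableSet A)
    (hdep : ∀ (b : Bool) (w : V → Bool) (c : Bool),
      (b, (open Classical in Function.update w ℓ c)) ∈ A ↔ (b, w) ∈ A) :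
    broadLaw V θ (A ∩ {p | p.2 ℓ = a}) = broadLaw V θ A * bitLaw θ {a} := by
  classical
  haveI := lawBit_prob h0 h1
  haveI := lawBit_zero_prob
  have hset : MeasurableSet (A ∩ {p : Bool × (V → Bool) | p.2 ℓ = a}) :=
    hA.inter (measurable_snd (measurableSet_coord ℓ a))
  unfold broadLaw
  rw [Measure.prod_apply hset, Measure.prod_apply hA, ← lintegral_mul_const' _ _ (by simp [measure_ne_top])]
  refine lintegral_congr fun b => ?_
  have hE : MeasurableSet (Prod.mk b ⁻¹' A) := measurable_prodMk_left hA
  have : Prod.mk b ⁻¹' (A ∩ {p : Bool × (V → Bool) | p.2 ℓ = a}) =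
      (Prod.mk b ⁻¹' A) ∩ {w | w ℓ = a} := rfl
  rw [this]
  refine infinitePi_inter_coord (bitLaw θ) ℓ a hE fun w c => ?_
  simpa using hdep b w c

private lemma broad_single {θ : ℝ} (h0 : 0 ≤ θ) (h1 : θ < 1) (hT : G.IsTree) [Countable V] (o x : V)
    (a : Bool) : broadLaw V θ {p | spinOf hT o p.1 p.2 x = a} = ENNReal.ofReal (1 / 2) := by
  classical
  haveI := lawBit_prob h0 h1
  haveI := lawBit_zero_prob
  have hm : MeasurableSet {p : Bool × (V → Bool) | spinOf hT o p.1 p.2 x = a} :=
    (measurable_spinOf hT o) (measurableSet_coord x a)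
  unfold broadLaw
  rw [Measure.prod_apply_symm hm]
  have key : ∀ w : V → Bool, (bitLaw 0) ((fun b => (b, w)) ⁻¹'
      {p : Bool × (V → Bool) | spinOf hT o p.1 p.2 x = a}) = ENNReal.ofReal (1 / 2) := by
    intro w
    set g := decide (Odd (((Finset.range (G.dist o x)).filter
      (fun i => w (gp hT o x (i + 1)) = false)).card)) with hg
    have : (fun b => (b, w)) ⁻¹' {p : Bool × (V → Bool) | spinOf hT o p.1 p.2 x = a} =
        {xor a g} := by
      ext b
      simp only [Set.mem_preimage, Set.mem_setOf_eq, Set.mem_singleton_iff, spinOf, ← hg]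
      cases b <;> cases a <;> cases g <;> simp
    rw [this, lawBit_zero_singleton]
  simp only [key, lintegral_const, measure_univ, mul_one]

/-- Changing a coordinate farther than `x` does not change the spin at `x`. -/
private lemma spinOf_update (hT : G.IsTree) (o ℓ : V) (b : Bool) (w : V → Bool) (c : Bool) :
    ∀ (n : ℕ) (x : V), G.dist o x = n → G.dist o x ≤ G.dist o ℓ → x ≠ ℓ →
      spinOf hT o b (open Classical in Function.update w ℓ c) x = spinOf hT o b w x := by
  classical
  intro n
  induction n with
  | zero =>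
    intro x hd _ _
    have : o = x := (hT.connected.dist_eq_zero_iff).1 hd
    subst this
    simp [spinOf_root]
  | succ n ih =>
    intro x hd hle hne
    have hxo : x ≠ o := by
      rintro rfl
      simp at hd
    have h1 := nxt_dist hT hxo
    rw [spinOf_step hT o b _ hxo, spinOf_step hT o b w hxo,
      ih (nxt hT o x) (by omega) (by omega) (by
        rintro he
        rw [he] at h1
        omega), Function.update_of_ne hne]

private lemma measurableSet_cyl [Countable V] (S : Finset V) (η : V → Bool) :
    MeasurableSet {σ : V → Bool | ∀ v ∈ S, σ v = η v} := by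
  have : {σ : V → Bool | ∀ v ∈ S, σ v = η v} = ⋂ v ∈ S, (fun σ => σ v) ⁻¹' {η v} := by
    ext σ
    simp
  rw [this]
  exact Finset.measurableSet_biInter _ fun v _ => measurable_pi_apply v (measurableSet_singleton _)

private lemma isingWeight_nonneg {θ : ℝ} (h0 : 0 ≤ θ) (h1 : θ < 1) (S : Finset V) (η : V → Bool) :
    0 ≤ isingWeight G θ S η := by
  unfold isingWeight
  refine mul_nonneg (by norm_num) (Finset.prod_nonneg fun e _ => ?_)
  split_ifs <;> linarith

private lemma isingWeight_singleton (θ : ℝ) (x : V) (η : V → Bool) :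
    isingWeight G θ {x} η = 1 / 2 := by
  classical
  unfold isingWeight
  rw [Finset.sym2_singleton, Finset.filter_singleton]
  simp [Sym2.diag]

variable {θ : ℝ}

/-- The cylinder formula under the broadcast law. -/
private lemma broad_cyl (h0 : 0 ≤ θ) (h1 : θ < 1) (hT : G.IsTree) [Countable V] (o : V) :
    ∀ (n : ℕ) (S : Finset V) (η : V → Bool), S.card = n → (G.induce (S : Set V)).Connected →
      broadLaw V θ {p | ∀ v ∈ S, spinOf hT o p.1 p.2 v = η v} =
        ENNReal.ofReal (isingWeight G θ S η) := by
  classical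
  intro n
  induction n with
  | zero =>
    intro S η hc hconn
    have : S = ∅ := Finset.card_eq_zero.1 hc
    subst this
    exact absurd hconn.nonempty (by simp)
  | succ n ih =>
    intro S η hc hconn
    have hm : ∀ S' : Finset V, MeasurableSet {p : Bool × (V → Bool) |
        ∀ v ∈ S', spinOf hT o p.1 p.2 v = η v} := fun S' =>
      (measurable_spinOf hT o) (measurableSet_cyl S' η)
    have hne : S.Nonempty := Finset.card_pos.1 (by omega)
    by_cases hn : n = 0
    · -- a single vertex
      subst hn
      obtain ⟨x, rfl⟩ := Finset.card_eq_one.1 hc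
      rw [isingWeight_singleton]
      simp only [Finset.mem_singleton, forall_eq]
      exact broad_single h0 h1 hT o x (η x)
    -- a leaf
    obtain ⟨ℓ, hℓ, hmax⟩ := Finset.exists_max_image S (G.dist o) hne
    obtain ⟨x₀, hx₀, hx₀ne⟩ : ∃ x ∈ S, x ≠ ℓ := by
      have : (S.erase ℓ).Nonempty := by
        rw [← Finset.card_pos, Finset.card_erase_of_mem hℓ]
        omega
      obtain ⟨x, hx⟩ := this
      exact ⟨x, Finset.mem_of_mem_erase hx, Finset.ne_of_mem_erase hx⟩
    have hℓo : ℓ ≠ o := by
      rintro rfl
      have h2 := hmax x₀ hx₀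
      simp only [dist_self, Nat.le_zero] at h2
      exact hx₀ne ((hT.connected.dist_eq_zero_iff).1 h2).symm
    set q := nxt hT o ℓ with hq
    have hadj : G.Adj ℓ q := nxt_adj hT hℓo
    have hdq : G.dist o q + 1 = G.dist o ℓ := nxt_dist hT hℓo
    -- any neighbour of `ℓ` in `S` is `q`
    have hnbr : ∀ y ∈ S, G.Adj ℓ y → y = q := by
      intro y hy hay
      by_contra hyq
      have := farther_of_ne hT hadj hay hdq hyq
      have h2 := hmax y hy
      omega
    have hqS : q ∈ S := by
      have h2 := step_closed hT hconn hℓ hx₀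
      have h3 := hnbr _ h2 (nxt_adj hT hx₀ne.symm)
      rw [← h3]
      exact h2
    -- sides
    have hoside : o ∈ Side G q ℓ := by
      simp only [mem_side]
      rw [dist_comm (u := ℓ), dist_comm (u := q)]
      omega
    have hside : ∀ x ∈ S, x ≠ ℓ → x ∈ Side G q ℓ := by
      intro x hx hxne
      rcases side_or hT hadj x with hs | hs
      · exfalso
        have h2 := dist_across hT hadj hs hoside
        have h3 := hmax x hx
        have h4 : 0 < G.dist x ℓ := by
          rcases Nat.eq_zero_or_pos (G.dist x ℓ) with h5 | h5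
          · exact absurd ((hT.connected.dist_eq_zero_iff).1 h5) hxne
          · exact h5
        rw [dist_comm (u := x) (v := o), dist_comm (u := q) (v := o)] at h2
        omega
      · exact hs
    set S' := S.erase ℓ with hS'
    have hqS' : q ∈ S' := Finset.mem_erase.2 ⟨hadj.ne', hqS⟩
    have hconn' : (G.induce (S' : Set V)).Connected := by
      refine connected_of_closed hT S' q hqS' fun x hx => ?_
      have hxS := Finset.mem_of_mem_erase hx
      have hxne := Finset.ne_of_mem_erase hx
      refine Finset.mem_erase.2 ⟨?_, step_closed hT hconn hxS hqS⟩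
      intro he
      by_cases hxq : x = q
      · subst hxq
        rw [nxt_self] at he
        exact hxne he
      · have h2 := nxt_adj hT hxq
        rw [he] at h2
        exact hxq (hnbr x hxS h2.symm)
    have hc' : S'.card = n := by
      rw [hS', Finset.card_erase_of_mem hℓ, hc]
      simp
    have hih := ih S' η hc' hconn'
    -- the event
    set a : Bool := decide (η ℓ = η q) with ha
    have hevent : {p : Bool × (V → Bool) | ∀ v ∈ S, spinOf hT o p.1 p.2 v = η v} =
        {p : Bool × (V → Bool) | ∀ v ∈ S', spinOf hT o p.1 p.2 v = η v} ∩ {p | p.2 ℓ = a} := by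
      ext ⟨b, w⟩
      simp only [Set.mem_setOf_eq, Set.mem_inter_iff]
      constructor
      · intro h
        refine ⟨fun v hv => h v (Finset.mem_of_mem_erase hv), ?_⟩
        have h2 := h ℓ hℓ
        have h3 := h q hqS
        rw [spinOf_step hT o b w hℓo, ← hq, h3] at h2
        rw [ha]
        cases h4 : η q <;> cases h5 : η ℓ <;> cases h6 : w ℓ <;> simp_all
      · rintro ⟨h, h'⟩ v hv
        by_cases hvl : v = ℓ
        · subst hvl
          have h3 := h q hqS'
          rw [spinOf_step hT o b w hℓo, ← hq, h3, h']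
          rw [ha]
          cases h4 : η q <;> cases h5 : η v <;> simp
        · exact h v (Finset.mem_erase.2 ⟨hvl, hv⟩)
    rw [hevent, broad_inter_coord h0 h1 ℓ a (hm S') ?_, hih, lawBit_singleton a h0 h1]
    · -- the weight
      have hunion : S = {ℓ} ∪ S' := by
        rw [hS']
        ext x
        simp only [Finset.mem_union, Finset.mem_singleton, Finset.mem_erase]
        constructor
        · intro hx
          by_cases h : x = ℓ
          · exact Or.inl h
          · exact Or.inr ⟨h, hx⟩
        · rintro (rfl | ⟨_, h⟩)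
          · exact hℓ
          · exact h
      have hcut := isingWeight_cut hT θ (F₁ := {ℓ}) (F₂ := S') hadj
        (fun x hx => by
          rw [Finset.mem_singleton] at hx
          subst hx
          exact self_mem_side hadj)
        (fun x hx => hside x (Finset.mem_of_mem_erase hx) (Finset.ne_of_mem_erase hx))
        (Finset.mem_singleton_self _) hqS' η
      rw [← hunion, isingWeight_singleton] at hcut
      rw [hcut, ← ENNReal.ofReal_mul (isingWeight_nonneg h0 h1 _ _)]
      congr 1
      have hsg : sg a = sg (η ℓ) * sg (η q) := by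
        rw [ha]
        cases h4 : η q <;> cases h5 : η ℓ <;> simp [sg]
      rw [hsg]
      ring
    · -- independence of the coordinate `ℓ`
      intro b w c
      simp only [Set.mem_setOf_eq]
      refine forall₂_congr fun v hv => ?_
      rw [spinOf_update hT o ℓ b w c _ v rfl (hmax v (Finset.mem_of_mem_erase hv))
        (Finset.ne_of_mem_erase hv)]

private lemma isingWeight_map (θ : ℝ) (g : G ≃g G) (S : Finset V) (η : V → Bool) :
    isingWeight G θ (S.map g.toEquiv.toEmbedding) (η ∘ g.symm) = isingWeight G θ S η := by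
  classical
  unfold isingWeight
  congr 1
  rw [Finset.sym2_map, Finset.filter_map, Finset.prod_map]
  refine Finset.prod_congr ?_ ?_
  · refine Finset.filter_congr fun e _ => ?_
    induction e using Sym2.ind with
    | _ a b =>
      simp only [Function.comp, Function.Embedding.sym2Map_apply, Sym2.map_mk, mem_edgeSet]
      exact g.map_adj_iff
  · intro e _
    induction e using Sym2.ind with
    | _ a b =>
      simp [Function.Embedding.sym2Map_apply, Sym2.map_mk, Sym2.mk_isDiag_iff]

/-- Merge of two configurations along a set. -/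
private noncomputable def mergeOn (A : Set V) (q : (V → Bool) × (V → Bool)) : V → Bool :=
  open Classical in fun x => if x ∈ A then q.1 x else q.2 x

private lemma measurable_mergeOn (A : Set V) : Measurable (mergeOn A) := by
  classical
  refine measurable_pi_iff.2 fun x => ?_
  by_cases hx : x ∈ A
  · have : (fun q : (V → Bool) × (V → Bool) => mergeOn A q x) = fun q => q.1 x := by
      funext q
      simp [mergeOn, hx]
    rw [this]
    exact (measurable_pi_apply x).comp measurable_fst
  · have : (fun q : (V → Bool) × (V → Bool) => mergeOn A q x) = fun q => q.2 x := by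
      funext q
      simp [mergeOn, hx]
    rw [this]
    exact (measurable_pi_apply x).comp measurable_snd

private lemma isIsing_single (hT : G.IsTree) {ν : Measure (V → Bool)} (h : IsIsing G θ ν) (x : V)
    (b : Bool) : ν {σ | σ x = b} = ENNReal.ofReal (1 / 2) := by
  classical
  have hconn : (G.induce (({x} : Finset V) : Set V)).Connected :=
    connected_of_closed hT {x} x (by simp) (fun y hy => by
      rw [Finset.mem_singleton] at hy
      subst hy
      simp [nxt_self])
  have := h {x} (fun _ => b) hconn
  simpa [isingWeight_singleton] using this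

private lemma lint_rho (h0 : 0 ≤ θ) (h1 : θ < 1) (hT : G.IsTree) [Countable V]
    {ν : Measure (V → Bool)} (h : IsIsing G θ ν) (x : V) (b₀ : Bool) :
    ∫⁻ σ, ENNReal.ofReal (1 + θ * (sg b₀ * sg (σ x))) ∂ν = 1 := by
  have hm : Measurable (fun σ : V → Bool => σ x) := measurable_pi_apply x
  have hf : Measurable (fun b : Bool => ENNReal.ofReal (1 + θ * (sg b₀ * sg b))) :=
    measurable_of_finite _
  have hsing : ∀ b : Bool, (ν.map (fun σ : V → Bool => σ x)) {b} = ENNReal.ofReal (1 / 2) := by
    intro b
    rw [Measure.map_apply hm (measurableSet_singleton b)]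
    exact isIsing_single hT h x b
  have : ∫⁻ σ, ENNReal.ofReal (1 + θ * (sg b₀ * sg (σ x))) ∂ν =
      ∫⁻ b, ENNReal.ofReal (1 + θ * (sg b₀ * sg b)) ∂(ν.map (fun σ : V → Bool => σ x)) :=
    (lintegral_map hf hm).symm
  rw [this, lintegral_fintype, Fintype.sum_bool, hsing, hsing]
  have hs : ∀ b : Bool, 0 ≤ 1 + θ * (sg b₀ * sg b) := by
    intro b
    cases b₀ <;> cases b <;> simp [sg] <;> linarith
  rw [← ENNReal.ofReal_mul (hs true), ← ENNReal.ofReal_mul (hs false),
    ← ENNReal.ofReal_add (by have := hs true; positivity) (by have := hs false; positivity)]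
  have : (1 + θ * (sg b₀ * sg true)) * (1 / 2) + (1 + θ * (sg b₀ * sg false)) * (1 / 2) = 1 := by
    simp only [sg, if_true, Bool.false_eq_true, if_false]
    ring
  rw [this, ENNReal.ofReal_one]

private lemma lint_rho' (h0 : 0 ≤ θ) (h1 : θ < 1) (hT : G.IsTree) [Countable V]
    {ν : Measure (V → Bool)} (h : IsIsing G θ ν) (x : V) (b₀ : Bool) :
    ∫⁻ σ, ENNReal.ofReal (1 + θ * (sg (σ x) * sg b₀)) ∂ν = 1 := by
  simp only [mul_comm (sg _) (sg b₀)]
  exact lint_rho h0 h1 hT h x b₀

/-- The density of the coupling across an edge. -/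
private noncomputable def rhoE (θ : ℝ) (c p : V) (q : (V → Bool) × (V → Bool)) : ENNReal :=
  ENNReal.ofReal (1 + θ * (sg (q.1 c) * sg (q.2 p)))

private lemma measurable_sg_coord (x : V) : Measurable (fun σ : V → Bool => sg (σ x)) :=
  (measurable_of_finite sg).comp (measurable_pi_apply x)

private lemma measurable_rhoE (c p : V) : Measurable (rhoE (V := V) θ c p) := by
  unfold rhoE
  refine ENNReal.measurable_ofReal.comp ?_
  exact measurable_const.add (measurable_const.mul
    (((measurable_sg_coord c).comp measurable_fst).mul ((measurable_sg_coord p).comp measurable_snd)))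

/-- In a connected set with points on both sides of the edge, the end points of the edge lie in
the set. -/
private lemma end_mem (hT : G.IsTree) {S : Finset V} (hS : (G.induce (S : Set V)).Connected)
    {c p : V} (hcp : G.Adj c p) {y : V} (hy : y ∈ S) (hy' : y ∈ Side G p c) :
    ∀ (n : ℕ) (x : V), G.dist y x = n → x ∈ S → x ∈ Side G c p → c ∈ S := by
  intro n
  induction n with
  | zero =>
    intro x hd hx hxs
    have : y = x := (hT.connected.dist_eq_zero_iff).1 hd
    subst this
    exact (side_disj hxs hy').elim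
  | succ n ih =>
    intro x hd hx hxs
    by_cases hxc : x = c
    · rwa [hxc] at hx
    · have hne : x ≠ y := by
        rintro rfl
        simp at hd
      have ha := nxt_adj hT hne
      have hdn := nxt_dist hT hne
      exact ih _ (by omega) (step_closed hT hS hx hy) (side_nbr hT hcp hxs hxc ha)

variable (h0 : 0 ≤ θ) (h1 : θ < 1)
include h0 h1

/-- The broadcast law has the Ising marginals. -/
theorem isIsing_broad (hT : G.IsTree) [Countable V] (o : V) :
    IsIsing G θ ((broadLaw V θ).map (fun p => spinOf hT o p.1 p.2)) := by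
  intro S η hconn
  rw [Measure.map_apply (measurable_spinOf hT o) (measurableSet_cyl S η)]
  exact broad_cyl h0 h1 hT o _ S η rfl hconn

theorem isProb_broad : IsProbabilityMeasure (broadLaw V θ) := by
  haveI := lawBit_prob h0 h1
  haveI := lawBit_zero_prob
  unfold broadLaw
  infer_instance

/-- Uniqueness: the Ising marginals determine the law. -/
theorem IsIsing.unique (hT : G.IsTree) [Countable V] {ν ν' : Measure (V → Bool)}
    [IsProbabilityMeasure ν] [IsProbabilityMeasure ν'] (h : IsIsing G θ ν) (h' : IsIsing G θ ν') :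
    ν = ν' := by
  classical
  obtain ⟨o⟩ := hT.connected.nonempty
  have hball : ∀ N, (G.induce (ballF G N o : Set V)).Connected := fun N =>
    connected_of_closed hT _ o (self_mem_ballF hT N o) (fun x hx => by
      rw [mem_ballF hT] at hx ⊢
      by_cases hxo : x = o
      · subst hxo
        simp [nxt_self]
      · have := nxt_dist hT hxo
        omega)
  have hB : ∀ N, ν.map (ballF G N o).restrict = ν'.map (ballF G N o).restrict := by
    intro N
    refine Measure.ext_of_singleton fun ζ => ?_
    have hme : Measurable (Finset.restrict (π := fun _ : V => Bool) (ballF G N o)) :=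
      measurable_pi_iff.2 fun x => measurable_pi_apply _
    rw [Measure.map_apply hme (measurableSet_singleton _),
      Measure.map_apply hme (measurableSet_singleton _)]
    let η : V → Bool := fun v => if hv : v ∈ ballF G N o then ζ ⟨v, hv⟩ else false
    have hset : (Finset.restrict (π := fun _ : V => Bool) (ballF G N o)) ⁻¹' {ζ} =
        {σ | ∀ v ∈ ballF G N o, σ v = η v} := by
      ext σ
      simp only [Set.mem_preimage, Set.mem_singleton_iff, Set.mem_setOf_eq]
      constructor
      · rintro rfl v hv
        simp [η, hv, Finset.restrict]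
      · intro h2
        funext ⟨v, hv⟩
        have := h2 v hv
        simpa [η, hv, Finset.restrict] using this
    rw [hset, h _ η (hball N), h' _ η (hball N)]
  have hproj : IsProjectiveLimit ν' (fun I : Finset V => ν.map I.restrict) := by
    intro I
    have hsub : I ⊆ ballF G (I.sup (G.dist o)) o := by
      intro x hx
      rw [mem_ballF hT]
      exact Finset.le_sup (f := G.dist o) hx
    have hcomp : Finset.restrict (π := fun _ : V => Bool) I =
        (Finset.restrict₂ (π := fun _ : V => Bool) hsub) ∘
          (Finset.restrict (π := fun _ : V => Bool) (ballF G (I.sup (G.dist o)) o)) := rfl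
    have hm1 : Measurable (Finset.restrict₂ (π := fun _ : V => Bool) hsub) :=
      measurable_pi_iff.2 fun x => measurable_pi_apply _
    have hm2 : Measurable (Finset.restrict (π := fun _ : V => Bool)
        (ballF G (I.sup (G.dist o)) o)) :=
      measurable_pi_iff.2 fun x => measurable_pi_apply _
    show ν'.map I.restrict = ν.map I.restrict
    rw [hcomp, ← Measure.map_map hm1 hm2, ← Measure.map_map hm1 hm2, hB]
  exact IsProjectiveLimit.unique (fun I => rfl) hproj

/-- Invariance under automorphisms. -/
theorem IsIsing.map_aut (hT : G.IsTree) [Countable V] {ν : Measure (V → Bool)}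
    [IsProbabilityMeasure ν] (h : IsIsing G θ ν) (g : G ≃g G) :
    ν.map (fun σ => σ ∘ g) = ν := by
  classical
  have hm : Measurable (fun σ : V → Bool => σ ∘ g) :=
    measurable_pi_iff.2 fun v => measurable_pi_apply (g v)
  haveI : IsProbabilityMeasure (ν.map (fun σ : V → Bool => σ ∘ g)) :=
    Measure.isProbabilityMeasure_map hm.aemeasurable
  refine IsIsing.unique h0 h1 hT ?_ h
  intro S η hconn
  rw [Measure.map_apply hm (measurableSet_cyl S η)]
  set S' := S.map g.toEquiv.toEmbedding with hS'
  have hset : (fun σ : V → Bool => σ ∘ g) ⁻¹' {σ | ∀ v ∈ S, σ v = η v} =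
      {σ | ∀ v ∈ S', σ v = (η ∘ g.symm) v} := by
    ext σ
    simp only [Set.mem_preimage, Set.mem_setOf_eq, hS', Finset.mem_map, forall_exists_index,
      and_imp, forall_apply_eq_imp_iff₂, Function.comp]
    refine forall₂_congr fun v _ => ?_
    simp
  obtain ⟨⟨c₀, hc₀⟩⟩ := hconn.nonempty
  have hc₀' : c₀ ∈ S := by exact_mod_cast hc₀
  have hconn' : (G.induce (S' : Set V)).Connected := by
    refine connected_of_closed hT S' (g c₀) (Finset.mem_map.2 ⟨c₀, hc₀', rfl⟩) fun x hx => ?_
    obtain ⟨y, hy, rfl⟩ := Finset.mem_map.1 hx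
    have := nxt_iso hT g c₀ y
    refine Finset.mem_map.2 ⟨nxt hT c₀ y, step_closed hT hconn hy hc₀', this⟩
  rw [hset, h S' _ hconn', isingWeight_map]

/-- The one-edge decoupling identity for functions depending on the spins on the two sides of an
edge (any bounded measurable functions of the coordinates on each side). Both `f` and `f'` are given
on the whole configuration space but only depend on one side. -/
theorem IsIsing.decouple (hT : G.IsTree) [Countable V] {ν : Measure (V → Bool)}
    [IsProbabilityMeasure ν] (h : IsIsing G θ ν) {c p : V} (hcp : G.Adj c p)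
    (f f' : (V → Bool) → ℝ) (hf : Measurable f) (hf' : Measurable f') (C : ℝ)
    (hC : ∀ σ, |f σ| ≤ C) (hC' : ∀ σ, |f' σ| ≤ C)
    (hdep : ∀ σ τ, (∀ x ∈ Side G c p, σ x = τ x) → f σ = f τ)
    (hdep' : ∀ σ τ, (∀ x ∈ Side G p c, σ x = τ x) → f' σ = f' τ) :
    ∫ σ, f σ * f' σ ∂ν = (∫ σ, f σ ∂ν) * (∫ σ, f' σ ∂ν) +
      θ * (∫ σ, f σ * sg (σ c) ∂ν) * (∫ σ, f' σ * sg (σ p) ∂ν) := by
  classical
  set A := Side G c p with hA
  set ν₂ := ν.prod ν with hν₂
  set ρ := rhoE (V := V) θ c p with hρ
  have hρm : Measurable ρ := measurable_rhoE c p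
  set νm := (ν₂.withDensity ρ).map (mergeOn A) with hνm
  have hmm : Measurable (mergeOn (V := V) A) := measurable_mergeOn A
  have hνm_apply : ∀ B, MeasurableSet B → νm B = ∫⁻ q in mergeOn A ⁻¹' B, ρ q ∂ν₂ := by
    intro B hB
    rw [hνm, Measure.map_apply hmm hB, withDensity_apply _ (hmm hB)]
  -- one side integrated out
  have hcyl1 : ∀ A₁ : Set (V → Bool), MeasurableSet A₁ → ∫⁻ q in A₁ ×ˢ Set.univ, ρ q ∂ν₂ = ν A₁ := by
    intro A₁ hA₁
    rw [hν₂, setLIntegral_prod ρ hρm.aemeasurable]
    have : ∀ σ : V → Bool, ∫⁻ σ' in Set.univ, ρ (σ, σ') ∂ν = 1 := by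
      intro σ
      rw [Measure.restrict_univ]
      exact lint_rho h0 h1 hT h p (σ c)
    simp only [this, lintegral_const, MeasurableSet.univ, Measure.restrict_apply, Set.univ_inter,
      one_mul]
  have hcyl2 : ∀ A₂ : Set (V → Bool), MeasurableSet A₂ → ∫⁻ q in Set.univ ×ˢ A₂, ρ q ∂ν₂ = ν A₂ := by
    intro A₂ hA₂
    rw [hν₂, setLIntegral_prod_symm ρ hρm.aemeasurable]
    have : ∀ σ' : V → Bool, ∫⁻ σ in Set.univ, ρ (σ, σ') ∂ν = 1 := by
      intro σ'
      rw [Measure.restrict_univ]
      exact lint_rho' h0 h1 hT h c (σ' p)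
    simp only [this, lintegral_const, MeasurableSet.univ, Measure.restrict_apply, Set.univ_inter,
      one_mul]
  haveI hprob : IsProbabilityMeasure νm := by
    constructor
    rw [hνm_apply _ MeasurableSet.univ, Set.preimage_univ, ← Set.univ_prod_univ,
      hcyl1 _ MeasurableSet.univ, measure_univ]
  have hising : IsIsing G θ νm := by
    intro S η hconn
    rw [hνm_apply _ (measurableSet_cyl S η)]
    set S₁ := S.filter (· ∈ A) with hS₁
    set S₂ := S.filter (· ∉ A) with hS₂
    have hunion : S = S₁ ∪ S₂ := (Finset.filter_union_filter_not_eq _ S).symm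
    have hpre : mergeOn A ⁻¹' {σ | ∀ v ∈ S, σ v = η v} =
        {σ | ∀ v ∈ S₁, σ v = η v} ×ˢ {σ | ∀ v ∈ S₂, σ v = η v} := by
      ext ⟨σ, σ'⟩
      simp only [Set.mem_preimage, Set.mem_setOf_eq, Set.mem_prod, hS₁, hS₂, Finset.mem_filter,
        mergeOn]
      constructor
      · intro h2
        refine ⟨fun v hv => ?_, fun v hv => ?_⟩
        · have := h2 v hv.1
          rwa [if_pos hv.2] at this
        · have := h2 v hv.1
          rwa [if_neg hv.2] at this
      · rintro ⟨h2, h3⟩ v hv
        by_cases hvA : v ∈ A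
        · rw [if_pos hvA]
          exact h2 v ⟨hv, hvA⟩
        · rw [if_neg hvA]
          exact h3 v ⟨hv, hvA⟩
    rw [hpre]
    by_cases he₂ : S₂ = ∅
    · have hS : S = S₁ := by rw [hunion, he₂, Finset.union_empty]
      have huniv : {σ : V → Bool | ∀ v ∈ S₂, σ v = η v} = Set.univ := by
        rw [he₂]
        simp
      rw [huniv, hcyl1 _ (measurableSet_cyl S₁ η), ← hS]
      exact h S η hconn
    by_cases he₁ : S₁ = ∅
    · have hS : S = S₂ := by rw [hunion, he₁, Finset.empty_union]
      have huniv : {σ : V → Bool | ∀ v ∈ S₁, σ v = η v} = Set.univ := by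
        rw [he₁]
        simp
      rw [huniv, hcyl2 _ (measurableSet_cyl S₂ η), ← hS]
      exact h S η hconn
    -- both sides are present
    obtain ⟨x, hx⟩ := Finset.nonempty_iff_ne_empty.2 he₁
    obtain ⟨y, hy⟩ := Finset.nonempty_iff_ne_empty.2 he₂
    have hxS := (Finset.mem_filter.1 hx).1
    have hxA := (Finset.mem_filter.1 hx).2
    have hyS := (Finset.mem_filter.1 hy).1
    have hyA : y ∈ Side G p c := by
      rcases side_or hT hcp y with h2 | h2
      · exact absurd h2 (Finset.mem_filter.1 hy).2
      · exact h2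
    have hcS : c ∈ S := end_mem hT hconn hcp hyS hyA _ x rfl hxS hxA
    have hpS : p ∈ S := end_mem hT hconn hcp.symm hxS hxA _ y rfl hyS hyA
    have hcS₁ : c ∈ S₁ := Finset.mem_filter.2 ⟨hcS, self_mem_side hcp⟩
    have hpS₂ : p ∈ S₂ := Finset.mem_filter.2 ⟨hpS, fun h2 => side_disj h2 (self_mem_side hcp.symm)⟩
    have hS₁A : ∀ z ∈ S₁, z ∈ Side G c p := fun z hz => (Finset.mem_filter.1 hz).2
    have hS₂A : ∀ z ∈ S₂, z ∈ Side G p c := fun z hz => by
      rcases side_or hT hcp z with h2 | h2
      · exact absurd h2 (Finset.mem_filter.1 hz).2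
      · exact h2
    have hconn₁ : (G.induce (S₁ : Set V)).Connected := by
      refine connected_of_closed hT S₁ c hcS₁ fun z hz => ?_
      have hzS := (Finset.mem_filter.1 hz).1
      refine Finset.mem_filter.2 ⟨step_closed hT hconn hzS hcS, ?_⟩
      by_cases hzc : z = c
      · subst hzc
        rw [nxt_self]
        exact hS₁A _ hz
      · exact side_nbr hT hcp (hS₁A z hz) hzc (nxt_adj hT hzc)
    have hconn₂ : (G.induce (S₂ : Set V)).Connected := by
      refine connected_of_closed hT S₂ p hpS₂ fun z hz => ?_
      have hzS := (Finset.mem_filter.1 hz).1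
      refine Finset.mem_filter.2 ⟨step_closed hT hconn hzS hpS, fun h3 => ?_⟩
      by_cases hzc : z = p
      · subst hzc
        rw [nxt_self] at h3
        exact (Finset.mem_filter.1 hz).2 h3
      · exact side_disj h3 (side_nbr hT hcp.symm (hS₂A z hz) hzc (nxt_adj hT hzc))
    have hcut := isingWeight_cut hT θ hcp hS₁A hS₂A hcS₁ hpS₂ η
    have hm₁ := measurableSet_cyl S₁ η
    have hm₂ := measurableSet_cyl S₂ η
    have hconst : ∫⁻ q in {σ : V → Bool | ∀ v ∈ S₁, σ v = η v} ×ˢ {σ : V → Bool | ∀ v ∈ S₂, σ v = η v},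
        ρ q ∂ν₂ = ∫⁻ _ in {σ : V → Bool | ∀ v ∈ S₁, σ v = η v} ×ˢ {σ : V → Bool | ∀ v ∈ S₂, σ v = η v},
        ENNReal.ofReal (1 + θ * (sg (η c) * sg (η p))) ∂ν₂ := by
      refine setLIntegral_congr_fun (hm₁.prod hm₂) ?_
      rintro ⟨σ, σ'⟩ ⟨h2, h3⟩
      simp only [hρ, rhoE]
      have e₁ : σ c = η c := h2 c hcS₁
      have e₂ : σ' p = η p := h3 p hpS₂
      rw [e₁, e₂]
    rw [hconst, setLIntegral_const, hν₂, Measure.prod_prod, h _ η hconn₁, h _ η hconn₂,
      ← ENNReal.ofReal_mul (isingWeight_nonneg h0 h1 _ _), ← ENNReal.ofReal_mul' ?_, hunion, hcut]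
    · congr 1
      ring
    · exact mul_nonneg (isingWeight_nonneg h0 h1 _ _) (isingWeight_nonneg h0 h1 _ _)
  have heq : ν = νm := IsIsing.unique h0 h1 hT h hising
  -- the final computation
  have hbd : ∀ (g : (V → Bool) → ℝ), Measurable g → (∀ σ, |g σ| ≤ C) → Integrable g ν :=
    fun g hg hgC => Integrable.of_bound hg.aestronglyMeasurable C (ae_of_all _ fun σ => by
      simpa using hgC σ)
  have hsgabs : ∀ b : Bool, |sg b| = 1 := by
    intro b
    cases b <;> simp [sg]
  have hfs : Integrable (fun σ : V → Bool => f σ * sg (σ c)) ν :=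
    hbd _ (hf.mul (measurable_sg_coord c)) fun σ => by
      rw [abs_mul, hsgabs, mul_one]
      exact hC σ
  have hfs' : Integrable (fun σ : V → Bool => f' σ * sg (σ p)) ν :=
    hbd _ (hf'.mul (measurable_sg_coord p)) fun σ => by
      rw [abs_mul, hsgabs, mul_one]
      exact hC' σ
  have hmerge₁ : ∀ q, f (mergeOn A q) = f q.1 := by
    intro q
    refine hdep _ _ fun x hx => ?_
    simp [mergeOn, hx]
  have hmerge₂ : ∀ q, f' (mergeOn A q) = f' q.2 := by
    intro q
    refine hdep' _ _ fun x hx => ?_
    have : x ∉ A := fun h2 => side_disj h2 hx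
    simp [mergeOn, this]
  have hnn : ∀ q : (V → Bool) × (V → Bool), 0 ≤ 1 + θ * (sg (q.1 c) * sg (q.2 p)) := by
    intro q
    cases q.1 c <;> cases q.2 p <;> simp [sg] <;> linarith
  have hint : ∫ σ, f σ * f' σ ∂ν =
      ∫ q, (1 + θ * (sg (q.1 c) * sg (q.2 p))) * (f q.1 * f' q.2) ∂ν₂ := by
    conv_lhs => rw [heq, hνm]
    rw [integral_map hmm.aemeasurable (by
      have h3 : Measurable (fun σ : V → Bool => f σ * f' σ) := hf.mul hf'
      exact h3.aestronglyMeasurable),
      integral_withDensity_eq_integral_toReal_smul hρm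
        (ae_of_all _ fun q => ENNReal.ofReal_lt_top)]
    refine integral_congr_ae (ae_of_all _ fun q => ?_)
    simp only [hρ, rhoE, smul_eq_mul]
    rw [ENNReal.toReal_ofReal (hnn q), hmerge₁, hmerge₂]
  rw [hint]
  have hsplit : (fun q : (V → Bool) × (V → Bool) =>
      (1 + θ * (sg (q.1 c) * sg (q.2 p))) * (f q.1 * f' q.2)) =
      fun q => f q.1 * f' q.2 + θ * ((f q.1 * sg (q.1 c)) * (f' q.2 * sg (q.2 p))) := by
    funext q
    ring
  have e₁ : ∫ q : (V → Bool) × (V → Bool), f q.1 * f' q.2 ∂(ν.prod ν) =
      (∫ σ, f σ ∂ν) * ∫ σ, f' σ ∂ν := integral_prod_mul f f'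
  have e₂ : ∫ q : (V → Bool) × (V → Bool), (f q.1 * sg (q.1 c)) * (f' q.2 * sg (q.2 p)) ∂(ν.prod ν) =
      (∫ σ, f σ * sg (σ c) ∂ν) * ∫ σ, f' σ * sg (σ p) ∂ν :=
    integral_prod_mul (fun σ : V → Bool => f σ * sg (σ c)) (fun σ => f' σ * sg (σ p))
  rw [hsplit, integral_add, integral_const_mul, hν₂, e₁, e₂]
  · ring
  · exact (hbd f hf hC).mul_prod (hbd f' hf' hC')
  · exact (hfs.mul_prod hfs').const_mul θ

end Crest.Agent.Lib.IT
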