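/-
Pair occupation probabilities on a finite block (statement S0241).
-/
import Crest.Agent.Lib.LocBayes

set_option autoImplicit false

namespace Crest.Agent.Lib.IT

open MeasureTheory
open Crest.Agent.Lib.Loc

variable {V : Type*}

open Classical in
/-- Numerator of the pair occupation probability. -/
noncomputable def Nfin2 (ν : Measure (V → Bool)) (F : Finset V) (a b : V) (t : ℝ) (v : V → ℝ) : ℝ :=
  ∑ S ∈ F.powerset.filter (fun S => a ∈ S ∧ b ∈ S), mass ν F S * wt S t v

/-- The pair occupation probability. -/
noncomputable def Mfin2 (ν : Measure (V → Bool)) (F : Finset V) (a b : V) (t : ℝ) (v : V → ℝ) : ℝ :=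
  Nfin2 ν F a b t v / Zfin ν F t v

end Crest.Agent.Lib.IT
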