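/-
Finite tree algebra for the Ising state with fields (statement S0241): belief propagation, pair
covariances and the path formula.  Notation of the localization library: `Mfin ν F x t v` is the
posterior probability of occupation (spin `true`) of `x` on `F`, at time `t` and observation `v`.
-/
import Crest.Agent.Lib.IT.Law
import Crest.Agent.Lib.IT.Pair

set_option autoImplicit false

namespace Crest.Agent.Lib.IT

open MeasureTheory SimpleGraph
open Crest.Agent.Lib.Loc
open Crest.ProbabilityR.TreeIsing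

variable {V : Type*} {G : SimpleGraph V} [G.LocallyFinite]

/-- The magnetisation (spin scale). -/
noncomputable def MM (ν : Measure (V → Bool)) (F : Finset V) (x : V) (t : ℝ) (v : V → ℝ) : ℝ :=
  2 * Mfin ν F x t v - 1

/-- The covariance in spin scale. -/
noncomputable def CC (ν : Measure (V → Bool)) (F : Finset V) (a b : V) (t : ℝ) (v : V → ℝ) : ℝ :=
  4 * (Mfin2 ν F a b t v - Mfin ν F a t v * Mfin ν F b t v)

open Classical in
/-- The part of `F` on the side of `x` of the edge `x y`. -/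
noncomputable def Fside (G : SimpleGraph V) (F : Finset V) (x y : V) : Finset V :=
  F.filter (fun z => z ∈ Side G x y)

/-- Convex sets: stepping from a point towards another point of the set remains in the set. -/
def IsCvx (hT : G.IsTree) (F : Finset V) : Prop := ∀ x ∈ F, ∀ y ∈ F, nxt hT x y ∈ F


/-! ### Weighted sums over configurations -/

/-- The weighted sum of `f` over the configurations of `F`. -/
noncomputable def brk (ν : Measure (V → Bool)) (F : Finset V) (t : ℝ) (v : V → ℝ)
    (f : Finset V → ℝ) : ℝ :=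
  ∑ S ∈ F.powerset, mass ν F S * wt S t v * f S

open Classical in
/-- The spin of `x` in the configuration `S`. -/
noncomputable def sx (x : V) (S : Finset V) : ℝ := if x ∈ S then 1 else -1

lemma sg_decide (y : V) (S : Finset V) [Decidable (y ∈ S)] : sg (decide (y ∈ S)) = sx y S := by
  unfold sg sx
  by_cases hy : y ∈ S <;> simp [hy]

lemma sx_mul_self (x : V) (S : Finset V) : sx x S * sx x S = 1 := by
  unfold sx; split_ifs <;> norm_num

lemma sx_inter [DecidableEq V] {x : V} {F S : Finset V} (hx : x ∈ F) : sx x (S ∩ F) = sx x S := by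
  unfold sx; simp [Finset.mem_inter, hx]

lemma brk_congr {ν : Measure (V → Bool)} {F : Finset V} {t : ℝ} {v : V → ℝ} {f g : Finset V → ℝ}
    (h : ∀ S, f S = g S) : brk ν F t v f = brk ν F t v g := by
  unfold brk
  exact Finset.sum_congr rfl fun S _ => by rw [h]

lemma brk_one (ν : Measure (V → Bool)) (F : Finset V) (t : ℝ) (v : V → ℝ) :
    brk ν F t v (fun _ => 1) = Zfin ν F t v := by
  simp [brk, Zfin]

lemma brk_sx (ν : Measure (V → Bool)) (F : Finset V) (x : V) (t : ℝ) (v : V → ℝ) :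
    brk ν F t v (sx x) = 2 * Nfin ν F x t v - Zfin ν F t v := by
  classical
  rw [Nfin_eq_sum_ite]
  unfold brk Zfin sx
  rw [Finset.mul_sum, ← Finset.sum_sub_distrib]
  refine Finset.sum_congr rfl fun S _ => ?_
  by_cases h : x ∈ S <;> simp [h] <;> ring

lemma brk_sx_sx (ν : Measure (V → Bool)) (F : Finset V) (a b : V) (t : ℝ) (v : V → ℝ) :
    brk ν F t v (fun S => sx a S * sx b S) =
      4 * Nfin2 ν F a b t v - 2 * Nfin ν F a t v - 2 * Nfin ν F b t v + Zfin ν F t v := by
  classical
  rw [Nfin_eq_sum_ite, Nfin_eq_sum_ite]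
  unfold brk Zfin sx Nfin2
  rw [Finset.sum_filter, Finset.mul_sum, Finset.mul_sum, Finset.mul_sum, ← Finset.sum_sub_distrib,
    ← Finset.sum_sub_distrib, ← Finset.sum_add_distrib]
  refine Finset.sum_congr rfl fun S _ => ?_
  by_cases h : a ∈ S <;> by_cases h' : b ∈ S <;> simp [h, h'] <;> ring

lemma MM_eq_brk (ν : Measure (V → Bool)) {F : Finset V} (x : V) {t : ℝ} {v : V → ℝ}
    (hZ : Zfin ν F t v ≠ 0) : MM ν F x t v = brk ν F t v (sx x) / Zfin ν F t v := by
  rw [brk_sx]
  unfold MM Mfin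
  field_simp

lemma CC_eq_brk (ν : Measure (V → Bool)) {F : Finset V} (a b : V) {t : ℝ} {v : V → ℝ}
    (hZ : Zfin ν F t v ≠ 0) : CC ν F a b t v =
      brk ν F t v (fun S => sx a S * sx b S) / Zfin ν F t v -
        brk ν F t v (sx a) / Zfin ν F t v * (brk ν F t v (sx b) / Zfin ν F t v) := by
  rw [brk_sx_sx, brk_sx, brk_sx]
  unfold CC Mfin Mfin2
  field_simp
  ring

lemma CC_self (ν : Measure (V → Bool)) (F : Finset V) (z : V) (t : ℝ) (v : V → ℝ) :
    CC ν F z z t v = 1 - MM ν F z t v ^ 2 := by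
  classical
  have h : Mfin2 ν F z z t v = Mfin ν F z t v := by
    unfold Mfin2 Mfin Nfin2 Nfin
    congr 2
    ext S
    simp
  unfold CC MM
  rw [h]
  ring

/-! ### The Ising weight -/

lemma isingWeight_congr (G : SimpleGraph V) (θ : ℝ) {F : Finset V} {η η' : V → Bool}
    (h : ∀ x ∈ F, η x = η' x) : isingWeight G θ F η = isingWeight G θ F η' := by
  classical
  unfold isingWeight
  congr 1
  refine Finset.prod_congr rfl fun e he => ?_
  have he' : e ∈ F.sym2 := by
    rw [Finset.mem_filter] at he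
    exact he.1
  induction e using Sym2.ind with
  | _ a b =>
    have ha : a ∈ F := (Finset.mk_mem_sym2_iff.1 he').1
    have hb : b ∈ F := (Finset.mk_mem_sym2_iff.1 he').2
    simp only [Sym2.map_mk, Sym2.mk_isDiag_iff, h a ha, h b hb]

lemma isingWeight_pos (G : SimpleGraph V) {θ : ℝ} (h0 : 0 ≤ θ) (h1 : θ < 1) (F : Finset V)
    (η : V → Bool) : 0 < isingWeight G θ F η := by
  unfold isingWeight
  refine mul_pos (by norm_num) (Finset.prod_pos fun e _ => ?_)
  split_ifs <;> linarith

/-! ### Powersets of a disjoint union -/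

lemma sum_powerset_union [DecidableEq V] {F₁ F₂ : Finset V} (hd : Disjoint F₁ F₂)
    (g : Finset V → ℝ) :
    ∑ S ∈ (F₁ ∪ F₂).powerset, g S =
      ∑ S₁ ∈ F₁.powerset, ∑ S₂ ∈ F₂.powerset, g (S₁ ∪ S₂) := by
  rw [← Finset.sum_product']
  refine Finset.sum_nbij' (fun S => (S ∩ F₁, S ∩ F₂)) (fun q => q.1 ∪ q.2) ?_ ?_ ?_ ?_ ?_
  · intro S _
    simp [Finset.mem_product, Finset.mem_powerset, Finset.inter_subset_right]
  · rintro ⟨S₁, S₂⟩ h
    simp only [Finset.mem_product, Finset.mem_powerset] at h ⊢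
    exact Finset.union_subset_union h.1 h.2
  · intro S hS
    have hS' := Finset.mem_powerset.1 hS
    simp only
    rw [← Finset.inter_union_distrib_left]
    exact Finset.inter_eq_left.2 hS'
  · rintro ⟨S₁, S₂⟩ h
    simp only [Finset.mem_product, Finset.mem_powerset] at h
    have e1 : (S₁ ∪ S₂) ∩ F₁ = S₁ := by
      rw [Finset.union_inter_distrib_right, Finset.inter_eq_left.2 h.1,
        Finset.disjoint_iff_inter_eq_empty.1 (Finset.disjoint_of_subset_left h.2 hd.symm),
        Finset.union_empty]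
    have e2 : (S₁ ∪ S₂) ∩ F₂ = S₂ := by
      rw [Finset.union_inter_distrib_right, Finset.inter_eq_left.2 h.2,
        Finset.disjoint_iff_inter_eq_empty.1 (Finset.disjoint_of_subset_left h.1 hd),
        Finset.empty_union]
    simp [e1, e2]
  · intro S hS
    have hS' := Finset.mem_powerset.1 hS
    simp only
    rw [← Finset.inter_union_distrib_left, Finset.inter_eq_left.2 hS']

lemma wt_union [DecidableEq V] {S₁ S₂ : Finset V} (hd : Disjoint S₁ S₂) (t : ℝ) (v : V → ℝ) :
    wt (S₁ ∪ S₂) t v = wt S₁ t v * wt S₂ t v := by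
  unfold wt
  rw [Finset.sum_union hd, Real.exp_add]

/-! ### Geometry of cuts -/

/-- Stepping towards `c` from the far side of the edge `c p` is stepping towards `p`. -/
lemma nxt_across (hT : G.IsTree) {c p x : V} (hcp : G.Adj c p) (hx : x ∈ Side G p c) (hne : x ≠ p) :
    nxt hT c x = nxt hT p x := by
  symm
  refine eq_nxt hT (nxt_adj hT hne) ?_
  have h1 := nxt_dist hT hne
  have h2 := side_nbr hT hcp.symm hx hne (nxt_adj hT hne)
  simp only [mem_side] at h2 hx
  omega

lemma nxt_edge (hT : G.IsTree) {c p : V} (hcp : G.Adj c p) : nxt hT c p = c := by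
  symm
  refine eq_nxt hT hcp.symm ?_
  simp [dist_eq_one_iff_adj.2 hcp]

lemma subT_closed (hT : G.IsTree) {c p : V} (hcp : G.Adj c p) (N : ℕ) :
    ∀ x ∈ subT G N c p, nxt hT c x ∈ subT G N c p := by
  intro x hx
  by_cases hxc : x = c
  · subst hxc
    rwa [nxt_self]
  · rw [mem_subT hT hcp] at hx ⊢
    have h1 := nxt_dist hT hxc
    have hs := side_nbr hT hcp hx.2 hxc (nxt_adj hT hxc)
    exact ⟨by have := hx.1; omega, hs⟩

variable {θ : ℝ} (h0 : 0 ≤ θ) (h1 : θ < 1) (hT : G.IsTree) [Countable V]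
  {ν : Measure (V → Bool)} [IsProbabilityMeasure ν] (hν : IsIsing G θ ν) (t : ℝ) (v : V → ℝ)

omit [Countable V] [G.LocallyFinite] in
theorem abs_MM_le (ν : Measure (V → Bool)) (F : Finset V) (x : V) (t : ℝ) (v : V → ℝ) :
    |MM ν F x t v| ≤ 1 := by
  have h1 := Mfin_nonneg ν F x t v
  have h2 := Mfin_le_one ν F x t v
  unfold MM
  rw [abs_le]
  constructor <;> linarith

include h0 h1 hν in
omit hT [G.LocallyFinite] in
theorem mass_eq_weight_aux {F S : Finset V} (hF : (G.induce (F : Set V)).Connected) (hS : S ⊆ F) :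
    mass ν F S = isingWeight G θ F (fun x => open Classical in decide (x ∈ S)) := by
  classical
  have hset : {ω : V → Bool | ∀ i ∈ F, (ω i = true ↔ i ∈ S)} =
      {σ | ∀ u ∈ F, σ u = (fun x => decide (x ∈ S)) u} := by
    ext ω
    simp only [Set.mem_ofPred_eq]
    refine forall₂_congr fun i _ => ?_
    by_cases h : i ∈ S <;> simp [h]
  unfold mass
  rw [hset, hν F _ hF, ENNReal.toReal_ofReal (isingWeight_pos G h0 h1 F _).le]

include h0 h1 hT hν

theorem MM_lt (F : Finset V) (hF : (G.induce (F : Set V)).Connected) {x : V} (hx : x ∈ F) :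
    |MM ν F x t v| < 1 := by
  classical
  have hpos : ∀ S ∈ F.powerset, 0 < mass ν F S * wt S t v := by
    intro S hS
    refine mul_pos ?_ (wt_pos S t v)
    rw [mass_eq_weight_aux h0 h1 hν hF (Finset.mem_powerset.1 hS)]
    exact isingWeight_pos G h0 h1 F _
  have hZ := Zfin_pos ν F t v
  have hN : 0 < Nfin ν F x t v := by
    unfold Nfin
    refine Finset.sum_pos (fun S hS => hpos S (Finset.mem_of_mem_filter S hS)) ?_
    exact ⟨F, Finset.mem_filter.2 ⟨Finset.mem_powerset.2 subset_rfl, hx⟩⟩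
  have hNZ : Nfin ν F x t v < Zfin ν F t v := by
    unfold Nfin Zfin
    refine Finset.sum_lt_sum_of_subset (Finset.filter_subset _ _)
      (Finset.empty_mem_powerset F) ?_ (hpos _ (Finset.empty_mem_powerset F)) ?_
    · simp
    · intro S hS _
      exact (hpos S hS).le
  unfold MM Mfin
  rw [abs_lt]
  constructor
  · have : 0 < Nfin ν F x t v / Zfin ν F t v := div_pos hN hZ
    linarith
  · have : Nfin ν F x t v / Zfin ν F t v < 1 := (div_lt_one hZ).2 hNZ
    linarith

theorem mass_eq_weight {F S : Finset V} (hF : (G.induce (F : Set V)).Connected) (hS : S ⊆ F) :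
    mass ν F S = isingWeight G θ F (fun x => open Classical in decide (x ∈ S)) :=
  mass_eq_weight_aux h0 h1 hν hF hS

theorem MM_singleton (x : V) : MM ν {x} x t v = Real.tanh ((v x - t / 2) / 2) := by
  classical
  have hconn : (G.induce (({x} : Finset V) : Set V)).Connected :=
    connected_of_closed hT {x} x (by simp) (by
      intro y hy
      rw [Finset.mem_singleton] at hy
      subst hy
      simp [nxt_self])
  have hw : ∀ S : Finset V, S ⊆ {x} → mass ν {x} S = 1 / 2 := by
    intro S hS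
    rw [mass_eq_weight h0 h1 hT hν hconn hS]
    unfold isingWeight
    rw [Finset.prod_eq_one]
    · norm_num
    · intro e he
      rw [Finset.mem_filter] at he
      obtain ⟨hs, hs'⟩ := he
      exfalso
      induction e using Sym2.ind with
      | _ a b =>
        have ha := (Finset.mk_mem_sym2_iff.1 hs).1
        have hb := (Finset.mk_mem_sym2_iff.1 hs).2
        rw [Finset.mem_singleton] at ha hb
        subst ha hb
        exact G.loopless.irrefl _ hs'
  have hh : (1 : ℝ) + Real.exp (v x - t / 2) ≠ 0 := by positivity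
  have hZ : Zfin ν {x} t v = (1 / 2) * (1 + Real.exp (v x - t / 2)) := by
    unfold Zfin
    have hps : ({x} : Finset V).powerset = {∅, {x}} := by
      ext S
      simp [Finset.subset_singleton_iff]
    rw [hps, Finset.sum_insert (by simp), Finset.sum_singleton,
      hw _ (by simp), hw _ (by simp)]
    simp [wt]
    ring
  have hN : Nfin ν {x} x t v = (1 / 2) * Real.exp (v x - t / 2) := by
    unfold Nfin
    have : (({x} : Finset V).powerset.filter (fun S => x ∈ S)) = {{x}} := by
      ext S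
      simp only [Finset.mem_filter, Finset.mem_powerset, Finset.mem_singleton]
      constructor
      · rintro ⟨h1, h2⟩
        exact Finset.Subset.antisymm h1 (Finset.singleton_subset_iff.2 h2)
      · rintro rfl
        simp
    rw [this, Finset.sum_singleton, hw _ (by simp)]
    simp [wt]
  unfold MM Mfin
  rw [hZ, hN, Real.tanh_eq_sinh_div_cosh, Real.sinh_eq, Real.cosh_eq]
  have e : Real.exp (v x - t / 2) = Real.exp ((v x - t / 2) / 2) ^ 2 := by
    rw [← Real.exp_nat_mul]
    congr 1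
    push_cast
    ring
  have e2 : Real.exp (-((v x - t / 2) / 2)) = (Real.exp ((v x - t / 2) / 2))⁻¹ := Real.exp_neg _
  rw [e, e2]
  have hp := Real.exp_pos ((v x - t / 2) / 2)
  generalize Real.exp ((v x - t / 2) / 2) = u at hp
  have : (1 : ℝ) + u ^ 2 ≠ 0 := by positivity
  field_simp
  ring

/-- Hypotheses of the one-edge cut. -/
structure CutH (hT : G.IsTree) (F₁ F₂ : Finset V) (c p : V) : Prop where
  hcp : G.Adj c p
  s₁ : ∀ x ∈ F₁, x ∈ Side G c p
  s₂ : ∀ x ∈ F₂, x ∈ Side G p c
  hc : c ∈ F₁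
  hp : p ∈ F₂
  c₁ : ∀ x ∈ F₁, nxt hT c x ∈ F₁
  c₂ : ∀ x ∈ F₂, nxt hT p x ∈ F₂

omit [Countable V] [IsProbabilityMeasure ν] hν h0 h1 in
lemma cutH_disj [DecidableEq V] {F₁ F₂ : Finset V} {c p : V} (H : CutH hT F₁ F₂ c p) :
    Disjoint F₁ F₂ :=
  Finset.disjoint_left.2 fun _ h h' => side_disj (H.s₁ _ h) (H.s₂ _ h')

omit [Countable V] [IsProbabilityMeasure ν] hν h0 h1 in
lemma cutH_closed [DecidableEq V] {F₁ F₂ : Finset V} {c p : V} (H : CutH hT F₁ F₂ c p) :
    ∀ x ∈ F₁ ∪ F₂, nxt hT c x ∈ F₁ ∪ F₂ := by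
  intro x hx
  rcases Finset.mem_union.1 hx with hx | hx
  · exact Finset.mem_union_left _ (H.c₁ x hx)
  · by_cases hxp : x = p
    · subst hxp
      rw [nxt_edge hT H.hcp]
      exact Finset.mem_union_left _ H.hc
    · rw [nxt_across hT H.hcp (H.s₂ x hx) hxp]
      exact Finset.mem_union_right _ (H.c₂ x hx)

/-- The factorisation of the mass over the cut. -/
theorem mass_cut [DecidableEq V] {F₁ F₂ : Finset V} {c p : V} (H : CutH hT F₁ F₂ c p) {S : Finset V}
    (hS : S ⊆ F₁ ∪ F₂) :
    mass ν (F₁ ∪ F₂) S = mass ν F₁ (S ∩ F₁) * mass ν F₂ (S ∩ F₂) * (1 + θ * (sx c S * sx p S)) := by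
  classical
  have hc0 := connected_of_closed hT (F₁ ∪ F₂) c (Finset.mem_union_left _ H.hc) (cutH_closed hT H)
  have hc1 := connected_of_closed hT F₁ c H.hc H.c₁
  have hc2 := connected_of_closed hT F₂ p H.hp H.c₂
  rw [mass_eq_weight h0 h1 hT hν hc0 hS, mass_eq_weight h0 h1 hT hν hc1 Finset.inter_subset_right,
    mass_eq_weight h0 h1 hT hν hc2 Finset.inter_subset_right,
    isingWeight_cut hT θ H.hcp H.s₁ H.s₂ H.hc H.hp]
  refine congrArg₂ (· * ·) (congrArg₂ (· * ·) (isingWeight_congr G θ fun x hx => ?_)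
    (isingWeight_congr G θ fun x hx => ?_)) ?_
  · simp [Finset.mem_inter, hx]
  · simp [Finset.mem_inter, hx]
  · rw [sg_decide, sg_decide]

/-- The decoupling identity over the cut. -/
theorem brk_cut [DecidableEq V] {F₁ F₂ : Finset V} {c p : V} (H : CutH hT F₁ F₂ c p)
    (g f₁ f₂ : Finset V → ℝ) (hg : ∀ S, g S = f₁ (S ∩ F₁) * f₂ (S ∩ F₂)) :
    brk ν (F₁ ∪ F₂) t v g = brk ν F₁ t v f₁ * brk ν F₂ t v f₂ +
      θ * brk ν F₁ t v (fun S => f₁ S * sx c S) * brk ν F₂ t v (fun S => f₂ S * sx p S) := by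
  classical
  have hd := cutH_disj hT H
  unfold brk
  rw [sum_powerset_union hd, mul_assoc θ, Finset.sum_mul_sum, Finset.sum_mul_sum, Finset.mul_sum,
    ← Finset.sum_add_distrib]
  refine Finset.sum_congr rfl fun S₁ hS₁ => ?_
  rw [Finset.mul_sum, ← Finset.sum_add_distrib]
  refine Finset.sum_congr rfl fun S₂ hS₂ => ?_
  have h₁ := Finset.mem_powerset.1 hS₁
  have h₂ := Finset.mem_powerset.1 hS₂
  have e1 : (S₁ ∪ S₂) ∩ F₁ = S₁ := by
    rw [Finset.union_inter_distrib_right, Finset.inter_eq_left.2 h₁,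
      Finset.disjoint_iff_inter_eq_empty.1 (Finset.disjoint_of_subset_left h₂ hd.symm),
      Finset.union_empty]
  have e2 : (S₁ ∪ S₂) ∩ F₂ = S₂ := by
    rw [Finset.union_inter_distrib_right, Finset.inter_eq_left.2 h₂,
      Finset.disjoint_iff_inter_eq_empty.1 (Finset.disjoint_of_subset_left h₁ hd),
      Finset.empty_union]
  have hsub : S₁ ∪ S₂ ⊆ F₁ ∪ F₂ := Finset.union_subset_union h₁ h₂
  rw [mass_cut h0 h1 hT hν H hsub, hg, e1, e2,
    wt_union (Finset.disjoint_of_subset_left h₁ (Finset.disjoint_of_subset_right h₂ hd))]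
  have e3 : sx c (S₁ ∪ S₂) = sx c S₁ := by
    rw [← sx_inter (S := S₁ ∪ S₂) H.hc, e1]
  have e4 : sx p (S₁ ∪ S₂) = sx p S₂ := by
    rw [← sx_inter (S := S₁ ∪ S₂) H.hp, e2]
  rw [e3, e4]
  simp only
  ring

/-- The seven sums needed over a cut. -/
structure CutVals [DecidableEq V] (ν : Measure (V → Bool)) (F₁ F₂ : Finset V) (c p : V) (t : ℝ) (v : V → ℝ) (θ : ℝ) :
    Prop where
  z : Zfin ν (F₁ ∪ F₂) t v = Zfin ν F₁ t v * Zfin ν F₂ t v +
    θ * brk ν F₁ t v (sx c) * brk ν F₂ t v (sx p)
  mc : brk ν (F₁ ∪ F₂) t v (sx c) = brk ν F₁ t v (sx c) * Zfin ν F₂ t v +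
    θ * Zfin ν F₁ t v * brk ν F₂ t v (sx p)
  mp : brk ν (F₁ ∪ F₂) t v (sx p) = Zfin ν F₁ t v * brk ν F₂ t v (sx p) +
    θ * brk ν F₁ t v (sx c) * Zfin ν F₂ t v
  cp : brk ν (F₁ ∪ F₂) t v (fun S => sx c S * sx p S) =
    brk ν F₁ t v (sx c) * brk ν F₂ t v (sx p) + θ * Zfin ν F₁ t v * Zfin ν F₂ t v

theorem cutVals [DecidableEq V] {F₁ F₂ : Finset V} {c p : V} (H : CutH hT F₁ F₂ c p) :
    CutVals ν F₁ F₂ c p t v θ := by
  have one₁ : ∀ f : Finset V → ℝ, brk ν F₁ t v (fun S => f S * 1) = brk ν F₁ t v f := fun f =>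
    brk_congr fun S => mul_one _
  have hone : ∀ f : Finset V → ℝ, (∀ S, f S = 1) → ∀ F, brk ν F t v f = Zfin ν F t v := by
    intro f hf F
    rw [← brk_one]
    exact brk_congr hf
  have hid : ∀ (f : Finset V → ℝ) (u : V) (F : Finset V), brk ν F t v (fun S => 1 * f S) =
      brk ν F t v f := fun f _ F => brk_congr fun S => one_mul _
  refine ⟨?_, ?_, ?_, ?_⟩
  · have := brk_cut h0 h1 hT hν t v H (fun _ => 1) (fun _ => 1) (fun _ => 1) (by simp)
    simpa [brk_one, hid (sx c) c, hid (sx p) p] using this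
  · have := brk_cut h0 h1 hT hν t v H (sx c) (sx c) (fun _ => 1)
      (fun S => by rw [sx_inter H.hc, mul_one])
    rw [brk_one, hone _ (fun S => sx_mul_self c S), hid (sx p) p] at this
    exact this
  · have := brk_cut h0 h1 hT hν t v H (sx p) (fun _ => 1) (sx p)
      (fun S => by rw [sx_inter H.hp, one_mul])
    rw [brk_one, hone _ (fun S => sx_mul_self p S), hid (sx c) c] at this
    exact this
  · have := brk_cut h0 h1 hT hν t v H (fun S => sx c S * sx p S) (sx c) (sx p)
      (fun S => by rw [sx_inter H.hc, sx_inter H.hp])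
    rw [hone _ (fun S => sx_mul_self c S), hone _ (fun S => sx_mul_self p S)] at this
    rw [this]

theorem MM_cut_left [DecidableEq V] {F₁ F₂ : Finset V} {c p : V} (H : CutH hT F₁ F₂ c p) :
    MM ν (F₁ ∪ F₂) c t v = mob (MM ν F₁ c t v) (θ * MM ν F₂ p t v) := by
  have hZ₁ := Zfin_pos ν F₁ t v
  have hZ₂ := Zfin_pos ν F₂ t v
  have hZ := Zfin_pos ν (F₁ ∪ F₂) t v
  have hA := abs_MM_le ν F₁ c t v
  have hB := abs_MM_le ν F₂ p t v
  have hD := mob_den_pos h0 h1 hA hB
  have Vv := cutVals h0 h1 hT hν t v H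
  rw [MM_eq_brk ν c hZ.ne', Vv.mc, Vv.z]
  have eA : brk ν F₁ t v (sx c) = MM ν F₁ c t v * Zfin ν F₁ t v := by
    rw [MM_eq_brk ν c hZ₁.ne']; field_simp
  have eB : brk ν F₂ t v (sx p) = MM ν F₂ p t v * Zfin ν F₂ t v := by
    rw [MM_eq_brk ν p hZ₂.ne']; field_simp
  rw [eA, eB]
  unfold mob
  generalize MM ν F₁ c t v = A at *
  generalize MM ν F₂ p t v = B at *
  generalize Zfin ν F₁ t v = Z₁ at *
  generalize Zfin ν F₂ t v = Z₂ at *
  have h3 : 1 + A * (θ * B) ≠ 0 := by
    have : 1 + A * (θ * B) = 1 + θ * (A * B) := by ring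
    rw [this]; exact hD.ne'
  have h4 : A * Z₁ * Z₂ + θ * Z₁ * (B * Z₂) = Z₁ * Z₂ * (A + θ * B) := by ring
  have h5 : Z₁ * Z₂ + θ * (A * Z₁) * (B * Z₂) = Z₁ * Z₂ * (1 + A * (θ * B)) := by ring
  rw [h4, h5, mul_div_mul_left _ _ (mul_pos hZ₁ hZ₂).ne']

theorem MM_cut_right [DecidableEq V] {F₁ F₂ : Finset V} {c p : V} (H : CutH hT F₁ F₂ c p) :
    MM ν (F₁ ∪ F₂) p t v = mob (MM ν F₂ p t v) (θ * MM ν F₁ c t v) := by
  have hZ₁ := Zfin_pos ν F₁ t v
  have hZ₂ := Zfin_pos ν F₂ t v
  have hZ := Zfin_pos ν (F₁ ∪ F₂) t v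
  have hA := abs_MM_le ν F₁ c t v
  have hB := abs_MM_le ν F₂ p t v
  have hD := mob_den_pos h0 h1 hA hB
  have Vv := cutVals h0 h1 hT hν t v H
  rw [MM_eq_brk ν p hZ.ne', Vv.mp, Vv.z]
  have eA : brk ν F₁ t v (sx c) = MM ν F₁ c t v * Zfin ν F₁ t v := by
    rw [MM_eq_brk ν c hZ₁.ne']; field_simp
  have eB : brk ν F₂ t v (sx p) = MM ν F₂ p t v * Zfin ν F₂ t v := by
    rw [MM_eq_brk ν p hZ₂.ne']; field_simp
  rw [eA, eB]
  unfold mob
  generalize MM ν F₁ c t v = A at *
  generalize MM ν F₂ p t v = B at *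
  generalize Zfin ν F₁ t v = Z₁ at *
  generalize Zfin ν F₂ t v = Z₂ at *
  have h4 : Z₁ * (B * Z₂) + θ * (A * Z₁) * Z₂ = Z₁ * Z₂ * (B + θ * A) := by ring
  have h5 : Z₁ * Z₂ + θ * (A * Z₁) * (B * Z₂) = Z₁ * Z₂ * (1 + B * (θ * A)) := by ring
  rw [h4, h5, mul_div_mul_left _ _ (mul_pos hZ₁ hZ₂).ne']

/-- The covariance across the cut edge. -/
theorem CC_cut [DecidableEq V] {F₁ F₂ : Finset V} {c p : V} (H : CutH hT F₁ F₂ c p) :
    CC ν (F₁ ∪ F₂) c p t v =
      θ * (1 - MM ν F₁ c t v ^ 2) * (1 - MM ν F₂ p t v ^ 2) /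
        (1 + θ * (MM ν F₁ c t v * MM ν F₂ p t v)) ^ 2 := by
  have hZ₁ := Zfin_pos ν F₁ t v
  have hZ₂ := Zfin_pos ν F₂ t v
  have hZ := Zfin_pos ν (F₁ ∪ F₂) t v
  have hA := abs_MM_le ν F₁ c t v
  have hB := abs_MM_le ν F₂ p t v
  have hD := mob_den_pos h0 h1 hA hB
  have Vv := cutVals h0 h1 hT hν t v H
  rw [CC_eq_brk ν c p hZ.ne', Vv.cp, Vv.mc, Vv.mp, Vv.z]
  have eA : brk ν F₁ t v (sx c) = MM ν F₁ c t v * Zfin ν F₁ t v := by
    rw [MM_eq_brk ν c hZ₁.ne']; field_simp
  have eB : brk ν F₂ t v (sx p) = MM ν F₂ p t v * Zfin ν F₂ t v := by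
    rw [MM_eq_brk ν p hZ₂.ne']; field_simp
  rw [eA, eB]
  generalize MM ν F₁ c t v = A at *
  generalize MM ν F₂ p t v = B at *
  generalize Zfin ν F₁ t v = Z₁ at *
  generalize Zfin ν F₂ t v = Z₂ at *
  have hD' := hD.ne'
  have h5 : Z₁ * Z₂ + θ * (A * Z₁) * (B * Z₂) = Z₁ * Z₂ * (1 + θ * (A * B)) := by ring
  rw [h5]
  have hz₁ := hZ₁.ne'
  have hz₂ := hZ₂.ne'
  field_simp
  ring

/-- The chain rule across the cut edge. -/
theorem CC_chain [DecidableEq V] {F₁ F₂ : Finset V} {c p o : V} (H : CutH hT F₁ F₂ c p) (ho : o ∈ F₁) :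
    CC ν (F₁ ∪ F₂) o p t v * (1 - MM ν (F₁ ∪ F₂) c t v ^ 2) =
      CC ν (F₁ ∪ F₂) o c t v * CC ν (F₁ ∪ F₂) c p t v := by
  have hZ₁ := Zfin_pos ν F₁ t v
  have hZ₂ := Zfin_pos ν F₂ t v
  have hZ := Zfin_pos ν (F₁ ∪ F₂) t v
  have hA := abs_MM_le ν F₁ c t v
  have hB := abs_MM_le ν F₂ p t v
  have hD := mob_den_pos h0 h1 hA hB
  have Vv := cutVals h0 h1 hT hν t v H
  -- the sums involving `o`
  have hone : ∀ f : Finset V → ℝ, (∀ S, f S = 1) → ∀ F, brk ν F t v f = Zfin ν F t v := by
    intro f hf F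
    rw [← brk_one]
    exact brk_congr hf
  have hid : ∀ (f : Finset V → ℝ) (F : Finset V), brk ν F t v (fun S => 1 * f S) =
      brk ν F t v f := fun f F => brk_congr fun S => one_mul _
  have hmo : brk ν (F₁ ∪ F₂) t v (sx o) = brk ν F₁ t v (sx o) * Zfin ν F₂ t v +
      θ * brk ν F₁ t v (fun S => sx o S * sx c S) * brk ν F₂ t v (sx p) := by
    have := brk_cut h0 h1 hT hν t v H (sx o) (sx o) (fun _ => 1)
      (fun S => by rw [sx_inter ho, mul_one])
    rwa [brk_one, hid (sx p)] at this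
  have hoc : brk ν (F₁ ∪ F₂) t v (fun S => sx o S * sx c S) =
      brk ν F₁ t v (fun S => sx o S * sx c S) * Zfin ν F₂ t v +
        θ * brk ν F₁ t v (sx o) * brk ν F₂ t v (sx p) := by
    have := brk_cut h0 h1 hT hν t v H (fun S => sx o S * sx c S) (fun S => sx o S * sx c S)
      (fun _ => 1) (fun S => by rw [sx_inter ho, sx_inter H.hc, mul_one])
    have e : brk ν F₁ t v (fun S => sx o S * sx c S * sx c S) = brk ν F₁ t v (sx o) :=
      brk_congr fun S => by rw [mul_assoc, sx_mul_self, mul_one]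
    rwa [brk_one, hid (sx p), e] at this
  have hop : brk ν (F₁ ∪ F₂) t v (fun S => sx o S * sx p S) =
      brk ν F₁ t v (sx o) * brk ν F₂ t v (sx p) +
        θ * brk ν F₁ t v (fun S => sx o S * sx c S) * Zfin ν F₂ t v := by
    have := brk_cut h0 h1 hT hν t v H (fun S => sx o S * sx p S) (sx o) (sx p)
      (fun S => by rw [sx_inter ho, sx_inter H.hp])
    rwa [hone _ (fun S => sx_mul_self p S)] at this
  rw [CC_eq_brk ν o p hZ.ne', CC_eq_brk ν o c hZ.ne', CC_eq_brk ν c p hZ.ne', MM_eq_brk ν c hZ.ne',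
    hop, hmo, hoc, Vv.cp, Vv.mc, Vv.mp, Vv.z]
  have eA : brk ν F₁ t v (sx c) = MM ν F₁ c t v * Zfin ν F₁ t v := by
    rw [MM_eq_brk ν c hZ₁.ne']; field_simp
  have eB : brk ν F₂ t v (sx p) = MM ν F₂ p t v * Zfin ν F₂ t v := by
    rw [MM_eq_brk ν p hZ₂.ne']; field_simp
  obtain ⟨X, eX⟩ : ∃ X, brk ν F₁ t v (sx o) = X * Zfin ν F₁ t v :=
    ⟨brk ν F₁ t v (sx o) / Zfin ν F₁ t v, by field_simp⟩
  obtain ⟨Y, eY⟩ : ∃ Y, brk ν F₁ t v (fun S => sx o S * sx c S) = Y * Zfin ν F₁ t v :=
    ⟨brk ν F₁ t v (fun S => sx o S * sx c S) / Zfin ν F₁ t v, by field_simp⟩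
  rw [eA, eB, eX, eY]
  generalize MM ν F₁ c t v = A at *
  generalize MM ν F₂ p t v = B at *
  generalize Zfin ν F₁ t v = Z₁ at *
  generalize Zfin ν F₂ t v = Z₂ at *
  have h5 : Z₁ * Z₂ + θ * (A * Z₁) * (B * Z₂) = Z₁ * Z₂ * (1 + θ * (A * B)) := by ring
  rw [h5]
  have hz₁ := hZ₁.ne'
  have hz₂ := hZ₂.ne'
  obtain ⟨D, hDe⟩ : ∃ D, D = 1 + θ * (A * B) := ⟨_, rfl⟩
  rw [← hDe] at hD ⊢
  have hD' := hD.ne'
  field_simp
  rw [hDe]
  ring

theorem MM_subT_zero {c p : V} : MM ν (subT G 0 c p) c t v = Real.tanh ((v c - t / 2) / 2) := by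
  have : subT G 0 c p = {c} := rfl
  rw [this]
  exact MM_singleton h0 h1 hT hν t v c

/-- Belief propagation in a subtree. -/
theorem MM_subT_succ {k : ℕ} (S : ChSys G k) {c p : V} (hcp : G.Adj c p) (N : ℕ) :
    MM ν (subT G (N + 1) c p) c t v =
      mobF (Real.tanh ((v c - t / 2) / 2))
        (fun i : Fin k => θ * MM ν (subT G N (S.ch c p i) c) (S.ch c p i) t v) := by
  classical
  set a := Real.tanh ((v c - t / 2) / 2) with ha
  set w : Fin k → ℝ := fun i => θ * MM ν (subT G N (S.ch c p i) c) (S.ch c p i) t v with hw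
  have ha1 : |a| < 1 := by
    rw [abs_lt]
    exact ⟨by have := Real.neg_one_lt_tanh ((v c - t / 2) / 2); linarith [this],
      Real.tanh_lt_one _⟩
  have hw1 : ∀ i, |w i| ≤ θ := by
    intro i
    simp only [hw, abs_mul, abs_of_nonneg h0]
    exact mul_le_of_le_one_right h0 (abs_MM_le ν _ _ t v)
  have hw2 : ∀ i, |w i| < 1 := fun i => lt_of_le_of_lt (hw1 i) h1
  -- the partial unions
  let Fs : Finset (Fin k) → Finset V := fun s => {c} ∪ s.biUnion (fun i => subT G N (S.ch c p i) c)
  let Ps : Finset (Fin k) → ℝ := fun s => (1 + a) * ∏ i ∈ s, (1 + w i)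
  let Qs : Finset (Fin k) → ℝ := fun s => (1 - a) * ∏ i ∈ s, (1 - w i)
  have hP : ∀ s, 0 < Ps s := fun s => mul_pos (by linarith [(abs_lt.1 ha1).1])
    (Finset.prod_pos fun i _ => by linarith [(abs_lt.1 (hw2 i)).1])
  have hQ : ∀ s, 0 < Qs s := fun s => mul_pos (by linarith [(abs_lt.1 ha1).2])
    (Finset.prod_pos fun i _ => by linarith [(abs_lt.1 (hw2 i)).2])
  have key : ∀ s : Finset (Fin k), MM ν (Fs s) c t v = (Ps s - Qs s) / (Ps s + Qs s) := by
    intro s
    induction s using Finset.induction_on with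
    | empty =>
      have : Fs ∅ = {c} := by simp [Fs]
      rw [this, MM_singleton h0 h1 hT hν t v c]
      simp only [Ps, Qs, Finset.prod_empty, mul_one]
      rw [← ha]
      field_simp
      ring
    | insert i s hi ih =>
      have hadj : G.Adj c (S.ch c p i) := S.ch_adj hcp i
      have hF : Fs (insert i s) = Fs s ∪ subT G N (S.ch c p i) c := by
        ext x
        simp only [Fs, Finset.biUnion_insert, Finset.mem_union, Finset.mem_singleton]
        tauto
      have H : CutH hT (Fs s) (subT G N (S.ch c p i) c) c (S.ch c p i) := by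
        refine ⟨hadj, ?_, ?_, ?_, ?_, ?_, ?_⟩
        · intro x hx
          simp only [Fs, Finset.mem_union, Finset.mem_singleton, Finset.mem_biUnion] at hx
          rcases hx with rfl | ⟨j, hj, hx⟩
          · exact self_mem_side hadj
          · have hji : S.ch c p j ≠ S.ch c p i := fun he => hi (S.inj hcp he ▸ hj)
            have hk : S.ch c p j ∈ kids G c (S.ch c p i) := mem_kids.2 ⟨S.ch_adj hcp j, hji⟩
            exact (side_step hT hadj hk ((mem_subT hT (S.ch_adj hcp j).symm).1 hx).2).1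
        · intro x hx
          exact ((mem_subT hT hadj.symm).1 hx).2
        · simp [Fs]
        · exact (mem_subT hT hadj.symm).2 ⟨by simp, self_mem_side hadj.symm⟩
        · intro x hx
          simp only [Fs, Finset.mem_union, Finset.mem_singleton, Finset.mem_biUnion] at hx ⊢
          rcases hx with rfl | ⟨j, hj, hx⟩
          · left; exact nxt_self hT _
          · have hadjj := S.ch_adj hcp j
            by_cases hxj : x = S.ch c p j
            · left
              rw [hxj]
              exact nxt_edge hT hadjj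
            · right
              refine ⟨j, hj, ?_⟩
              rw [nxt_across hT hadjj ((mem_subT hT hadjj.symm).1 hx).2 hxj]
              exact subT_closed hT hadjj.symm N x hx
        · exact subT_closed hT hadj.symm N
      have hm := MM_cut_left h0 h1 hT hν t v H
      rw [hF, hm, ih]
      have hP' : Ps (insert i s) = Ps s * (1 + w i) := by
        simp only [Ps, Finset.prod_insert hi]
        ring
      have hQ' : Qs (insert i s) = Qs s * (1 - w i) := by
        simp only [Qs, Finset.prod_insert hi]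
        ring
      rw [hP', hQ']
      have h3 := hP s
      have h4 := hQ s
      have h5 : Ps s + Qs s ≠ 0 := by positivity
      have h6 : Ps s * (1 + w i) + Qs s * (1 - w i) ≠ 0 := by
        have h7 := (abs_lt.1 (hw2 i)).1
        have h8 := (abs_lt.1 (hw2 i)).2
        have : 0 < Ps s * (1 + w i) := mul_pos h3 (by linarith)
        have : 0 < Qs s * (1 - w i) := mul_pos h4 (by linarith)
        linarith
      unfold mob
      have hwi : θ * MM ν (subT G N (S.ch c p i) c) (S.ch c p i) t v = w i := rfl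
      rw [hwi]
      have e1 : (Ps s - Qs s) / (Ps s + Qs s) + w i =
          (Ps s * (1 + w i) - Qs s * (1 - w i)) / (Ps s + Qs s) := by
        field_simp
        ring
      have e2 : 1 + (Ps s - Qs s) / (Ps s + Qs s) * w i =
          (Ps s * (1 + w i) + Qs s * (1 - w i)) / (Ps s + Qs s) := by
        field_simp
        ring
      rw [e1, e2, div_div_div_cancel_right₀ h5]
  have hF : Fs Finset.univ = subT G (N + 1) c p := by
    ext x
    simp only [Fs, subT, Finset.mem_union, Finset.mem_singleton, Finset.mem_biUnion,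
      Finset.mem_univ, true_and]
    constructor
    · rintro (h | ⟨i, hi⟩)
      · exact Or.inl h
      · exact Or.inr ⟨_, S.mem hcp i, hi⟩
    · rintro (h | ⟨y, hy, hi⟩)
      · exact Or.inl h
      · obtain ⟨i, rfl⟩ := S.surj hcp hy
        exact Or.inr ⟨i, hi⟩
  rw [← hF, key Finset.univ]
  rfl

omit h0 h1 hν [Countable V] [IsProbabilityMeasure ν] in
theorem ballF_eq_union_aux [DecidableEq V] {c p : V} (hcp : G.Adj c p) (N : ℕ) :
    ballF G (N + 1) c = subT G (N + 1) c p ∪ subT G N p c := by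
  ext x
  rw [Finset.mem_union, mem_ballF hT, mem_subT hT hcp, mem_subT hT hcp.symm]
  constructor
  · intro h
    rcases side_or hT hcp x with hs | hs
    · exact Or.inl ⟨h, hs⟩
    · right
      refine ⟨?_, hs⟩
      have := mem_side.1 hs
      omega
  · rintro (h | h)
    · exact h.1
    · have := mem_side.1 h.2
      have := h.1
      omega

theorem ballF_eq_union [DecidableEq V] {c p : V} (hcp : G.Adj c p) (N : ℕ) :
    ballF G (N + 1) c = subT G (N + 1) c p ∪ subT G N p c :=
  ballF_eq_union_aux hT hcp N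

theorem cutH_ball {c p : V} (hcp : G.Adj c p) (N : ℕ) :
    CutH hT (subT G (N + 1) c p) (subT G N p c) c p := by
  refine ⟨hcp, ?_, ?_, ?_, ?_, ?_, ?_⟩
  · intro x hx
    exact ((mem_subT hT hcp).1 hx).2
  · intro x hx
    exact ((mem_subT hT hcp.symm).1 hx).2
  · exact (mem_subT hT hcp).2 ⟨by simp, self_mem_side hcp⟩
  · exact (mem_subT hT hcp.symm).2 ⟨by simp, self_mem_side hcp.symm⟩
  · exact subT_closed hT hcp _
  · exact subT_closed hT hcp.symm _

omit h0 h1 hν [Countable V] [IsProbabilityMeasure ν] [G.LocallyFinite] in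
/-- The basic estimate of convexity: a step from `y` towards `x` is not farther from `o` than
both `x` and `y`. -/
lemma dist_nxt_le (o x y : V) :
    G.dist o (nxt hT x y) ≤ G.dist o y ∨ G.dist o (nxt hT x y) ≤ G.dist o x := by
  by_cases hyx : y = x
  · subst hyx
    rw [nxt_self]
    exact Or.inl le_rfl
  · set z := nxt hT x y with hz
    have hadj : G.Adj y z := nxt_adj hT hyx
    have hd : G.dist x z + 1 = G.dist x y := nxt_dist hT hyx
    rcases adj_dist hT hadj o with h | h
    · right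
      have hs1 : o ∈ Side G y z := by
        simp only [mem_side]
        rw [dist_comm (u := z), dist_comm (u := y)]
        exact h
      have hs2 : x ∈ Side G z y := by
        simp only [mem_side]
        rw [dist_comm (u := y), dist_comm (u := z)]
        omega
      have := dist_across hT hadj hs1 hs2
      omega
    · left
      omega

/-- Convexity of balls and subtrees. -/
theorem isCvx_ball (o : V) (N : ℕ) : IsCvx hT (ballF G N o) := by
  intro x hx y hy
  rw [mem_ballF hT] at hx hy ⊢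
  rcases dist_nxt_le hT o x y with h | h <;> omega

theorem isCvx_subT {c p : V} (hcp : G.Adj c p) (N : ℕ) : IsCvx hT (subT G N c p) := by
  intro x hx y hy
  rw [mem_subT hT hcp] at hx hy ⊢
  refine ⟨?_, ?_⟩
  · rcases dist_nxt_le hT c x y with h | h
    · have := hy.1; omega
    · have := hx.1; omega
  · by_cases hyx : y = x
    · subst hyx
      rw [nxt_self]
      exact hy.2
    · rcases side_or hT hcp (nxt hT x y) with hs | hs
      · exact hs
      · exfalso
        have hadj := nxt_adj hT hyx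
        obtain ⟨rfl, h2⟩ := side_cut hT hcp hy.2 hs hadj
        have h3 := nxt_dist hT hyx
        rw [h2] at h3
        have h4 := mem_side.1 hx.2
        rw [dist_comm (u := x), dist_comm (u := x)] at h3
        omega

/-- The two sides of an edge in a convex set. -/
theorem cutH_side {F : Finset V} (hF : IsCvx hT F) {x y : V} (hxy : G.Adj x y) (hx : x ∈ F) (hy : y ∈ F) :
    CutH hT (Fside G F x y) (Fside G F y x) x y := by
  classical
  have aux : ∀ {a b : V}, G.Adj a b → a ∈ F → ∀ z ∈ Fside G F a b, nxt hT a z ∈ Fside G F a b := by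
    intro a b hab ha z hz
    have hz' := Finset.mem_filter.1 hz
    refine Finset.mem_filter.2 ⟨hF a ha z hz'.1, ?_⟩
    by_cases hza : z = a
    · subst hza
      rw [nxt_self]
      exact hz'.2
    · exact side_nbr hT hab hz'.2 hza (nxt_adj hT hza)
  refine ⟨hxy, ?_, ?_, ?_, ?_, aux hxy hx, aux hxy.symm hy⟩
  · intro z hz
    exact (Finset.mem_filter.1 hz).2
  · intro z hz
    exact (Finset.mem_filter.1 hz).2
  · exact Finset.mem_filter.2 ⟨hx, self_mem_side hxy⟩
  · exact Finset.mem_filter.2 ⟨hy, self_mem_side hxy.symm⟩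

theorem Fside_union [DecidableEq V] {F : Finset V} {x y : V} (hxy : G.Adj x y) :
    Fside G F x y ∪ Fside G F y x = F := by
  classical
  ext z
  simp only [Fside, Finset.mem_union, Finset.mem_filter]
  constructor
  · rintro (h | h) <;> exact h.1
  · intro h
    rcases side_or hT hxy z with hs | hs
    · exact Or.inl ⟨h, hs⟩
    · exact Or.inr ⟨h, hs⟩

/-- The intersection of a ball with the far side of an edge pointing away from the centre. -/
theorem Fside_ball_child {o x y : V} (hxy : G.Adj x y) (hd : G.dist o y = G.dist o x + 1) (N : ℕ)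
    (hN : G.dist o y ≤ N) : Fside G (ballF G N o) y x = subT G (N - G.dist o y) y x := by
  classical
  ext z
  simp only [Fside, Finset.mem_filter]
  rw [mem_ballF hT, mem_subT hT hxy.symm]
  have ho : o ∈ Side G x y := by
    simp only [mem_side]
    rw [dist_comm (u := y), dist_comm (u := x)]
    exact hd
  constructor
  · rintro ⟨h1, h2⟩
    have := dist_across hT hxy ho h2
    exact ⟨by omega, h2⟩
  · rintro ⟨h1, h2⟩
    have := dist_across hT hxy ho h2
    exact ⟨by omega, h2⟩

/-- The edge formulas along a convex set. -/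
theorem CC_edge {F : Finset V} (hF : IsCvx hT F) {z x y : V} (hxy : G.Adj x y) (hx : x ∈ F) (hy : y ∈ F)
    (hz : z ∈ Fside G F x y) :
    CC ν F z y t v = CC ν F z x t v * (θ * ((1 - MM ν F y t v ^ 2) * WW θ (MM ν F x t v) (MM ν F y t v))) ∧
    (1 - MM ν F y t v ^ 2) * WW θ (MM ν F x t v) (MM ν F y t v) =
      PhiF θ (MM ν (Fside G F y x) y t v) := by
  classical
  have H := cutH_side h0 h1 hT hν hF hxy hx hy
  have hA := abs_MM_le ν (Fside G F x y) x t v
  have hB := abs_MM_le ν (Fside G F y x) y t v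
  have hU := Fside_union h0 h1 hT hν (F := F) hxy
  have hl := MM_cut_left h0 h1 hT hν t v H
  have hr := MM_cut_right h0 h1 hT hν t v H
  have hcc := CC_cut h0 h1 hT hν t v H
  have hch := CC_chain h0 h1 hT hν t v H hz
  rw [hU] at hl hr hcc hch
  have hconn : (G.induce (F : Set V)).Connected :=
    connected_of_closed hT F x hx (fun w hw => hF x hx w hw)
  have hlt := MM_lt h0 h1 hT hν t v F hconn hx
  have hne : 1 - MM ν F x t v ^ 2 ≠ 0 := by
    have : MM ν F x t v ^ 2 < 1 := by
      rw [sq_lt_one_iff_abs_lt_one]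
      exact hlt
    linarith
  have hcov := cov_pair h0 h1 hA hB
  have hover := cov_over_pair h0 h1 hA hB
  rw [← hl, ← hr] at hcov hover
  refine ⟨?_, hover⟩
  have hedge : CC ν F x y t v =
      (1 - MM ν F x t v ^ 2) * (θ * ((1 - MM ν F y t v ^ 2) * WW θ (MM ν F x t v) (MM ν F y t v))) := by
    rw [hcc]
    have e : θ * (1 - MM ν (Fside G F x y) x t v ^ 2) * (1 - MM ν (Fside G F y x) y t v ^ 2) /
        (1 + θ * (MM ν (Fside G F x y) x t v * MM ν (Fside G F y x) y t v)) ^ 2 =
        θ * ((1 - MM ν (Fside G F x y) x t v ^ 2) * (1 - MM ν (Fside G F y x) y t v ^ 2) /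
        (1 + θ * (MM ν (Fside G F x y) x t v * MM ν (Fside G F y x) y t v)) ^ 2) := by ring
    rw [e, ← hcov]
    ring
  rw [hedge] at hch
  have : CC ν F z y t v * (1 - MM ν F x t v ^ 2) =
      (CC ν F z x t v * (θ * ((1 - MM ν F y t v ^ 2) * WW θ (MM ν F x t v) (MM ν F y t v)))) *
        (1 - MM ν F x t v ^ 2) := by
    rw [hch]; ring
  exact mul_right_cancel₀ hne this

omit h0 h1 hν [Countable V] [IsProbabilityMeasure ν] [G.LocallyFinite] in
/-- The initial part of a geodesic is a geodesic. -/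
lemma gp_initial {z w : V} {d : ℕ} (hd : G.dist z w = d + 1) {i : ℕ} (hi : i ≤ d) :
    gp hT z (gp hT z w d) i = gp hT z w i := by
  have hgeo : IsGeo G (gp hT z w) d := by
    have := isGeo_gp hT z w
    rw [hd] at this
    exact ⟨fun i hi => this.adj i (by omega), fun i hi => this.nb i (by omega)⟩
  exact (hgeo.eq_gp hT hi).symm

/-- The path formula for the covariance, in terms of the magnetisations on `F`. -/
theorem CC_path {F : Finset V} (hF : IsCvx hT F) {z w : V} (hz : z ∈ F) (hw : w ∈ F) :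
    CC ν F z w t v = θ ^ G.dist z w *
      (∏ i ∈ Finset.range (G.dist z w + 1), (1 - MM ν F (gp hT z w i) t v ^ 2)) *
      ∏ i ∈ Finset.range (G.dist z w),
        WW θ (MM ν F (gp hT z w i) t v) (MM ν F (gp hT z w (i + 1)) t v) := by
  classical
  induction hn : G.dist z w generalizing w with
  | zero =>
    have : z = w := (hT.connected.dist_eq_zero_iff).1 hn
    subst this
    simp [CC_self, gp_zero]
  | succ d ih =>
    set x := gp hT z w d with hx
    have hgpF : ∀ i, gp hT z w i ∈ F := by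
      intro i
      induction i with
      | zero => exact hz
      | succ i ih' => exact hF w hw _ ih'
    have hxF : x ∈ F := hgpF d
    have hlast : gp hT z w (d + 1) = w := gp_end hT z w (by omega)
    have hadj : G.Adj x w := by
      have := gp_adj hT z w (i := d) (by omega)
      rwa [hlast] at this
    have hdx : G.dist z x = d := gp_dist_start hT z w (by omega)
    have hzs : z ∈ Fside G F x w := by
      refine Finset.mem_filter.2 ⟨hz, ?_⟩
      simp only [mem_side]
      rw [dist_comm (u := w), dist_comm (u := x)]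
      omega
    have he := (CC_edge h0 h1 hT hν t v hF hadj hxF hw hzs).1
    have hih := ih hxF hdx
    have e1 : ∏ i ∈ Finset.range (d + 1), (1 - MM ν F (gp hT z x i) t v ^ 2) =
        ∏ i ∈ Finset.range (d + 1), (1 - MM ν F (gp hT z w i) t v ^ 2) := by
      refine Finset.prod_congr rfl fun i hi => ?_
      rw [gp_initial hT hn (by have := Finset.mem_range.1 hi; omega)]
    have e2 : ∏ i ∈ Finset.range d,
        WW θ (MM ν F (gp hT z x i) t v) (MM ν F (gp hT z x (i + 1)) t v) =
        ∏ i ∈ Finset.range d,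
        WW θ (MM ν F (gp hT z w i) t v) (MM ν F (gp hT z w (i + 1)) t v) := by
      refine Finset.prod_congr rfl fun i hi => ?_
      have := Finset.mem_range.1 hi
      rw [gp_initial hT hn (by omega), gp_initial hT hn (by omega)]
    rw [he, hih, e1, e2,
      Finset.prod_range_succ (fun i => 1 - MM ν F (gp hT z w i) t v ^ 2) (d + 1),
      Finset.prod_range_succ
        (fun i => WW θ (MM ν F (gp hT z w i) t v) (MM ν F (gp hT z w (i + 1)) t v)) d, hlast, ← hx]
    ring

/-- The path formula in terms of one-sided messages. -/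
theorem CC_path_msg {F : Finset V} (hF : IsCvx hT F) {z w : V} (hz : z ∈ F) (hw : w ∈ F) :
    CC ν F z w t v = θ ^ G.dist z w * (1 - MM ν F z t v ^ 2) *
      ∏ i ∈ Finset.range (G.dist z w),
        PhiF θ (MM ν (Fside G F (gp hT z w (i + 1)) (gp hT z w i)) (gp hT z w (i + 1)) t v) := by
  classical
  induction hn : G.dist z w generalizing w with
  | zero =>
    have : z = w := (hT.connected.dist_eq_zero_iff).1 hn
    subst this
    simp [CC_self]
  | succ d ih =>
    set x := gp hT z w d with hx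
    have hgpF : ∀ i, gp hT z w i ∈ F := by
      intro i
      induction i with
      | zero => exact hz
      | succ i ih' => exact hF w hw _ ih'
    have hxF : x ∈ F := hgpF d
    have hlast : gp hT z w (d + 1) = w := gp_end hT z w (by omega)
    have hadj : G.Adj x w := by
      have := gp_adj hT z w (i := d) (by omega)
      rwa [hlast] at this
    have hdx : G.dist z x = d := gp_dist_start hT z w (by omega)
    have hzs : z ∈ Fside G F x w := by
      refine Finset.mem_filter.2 ⟨hz, ?_⟩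
      simp only [mem_side]
      rw [dist_comm (u := w), dist_comm (u := x)]
      omega
    obtain ⟨he, hphi⟩ := CC_edge h0 h1 hT hν t v hF hadj hxF hw hzs
    have hih := ih hxF hdx
    have e2 : ∏ i ∈ Finset.range d,
        PhiF θ (MM ν (Fside G F (gp hT z x (i + 1)) (gp hT z x i)) (gp hT z x (i + 1)) t v) =
        ∏ i ∈ Finset.range d,
        PhiF θ (MM ν (Fside G F (gp hT z w (i + 1)) (gp hT z w i)) (gp hT z w (i + 1)) t v) := by
      refine Finset.prod_congr rfl fun i hi => ?_
      have := Finset.mem_range.1 hi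
      rw [gp_initial hT hn (by omega), gp_initial hT hn (by omega)]
    rw [he, hih, hphi, e2, Finset.prod_range_succ _ d, hlast, ← hx]
    ring

end Crest.Agent.Lib.IT
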