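/-
Nishimori symmetric laws on `(-1,1)`: base Gaussian-tanh law, channel, Moebius sums, second moments.
Helper file for `PlantedA`.
-/
import Crest.Agent.Lib.IT.PlantedDefs

set_option autoImplicit false

namespace Crest.Agent.Lib.IT

open MeasureTheory ProbabilityTheory
open scoped ENNReal NNReal

/-- Nishimori symmetric law on `(-1,1)`. -/
structure Nish (ν : Measure ℝ) : Prop where
  prob : IsProbabilityMeasure ν
  lt : ∀ᵐ x ∂ν, |x| < 1
  sym : ∀ g : ℝ → ℝ, Measurable g → (∃ C : ℝ, ∀ x, |x| < 1 → |g x| ≤ C) →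
    ∫ x, g x ∂ν = ∫ x, ((1 + x) / 2 * g x + (1 - x) / 2 * g (-x)) ∂ν

lemma mob_abs_lt {a b : ℝ} (ha : |a| < 1) (hb : |b| < 1) : |mob a b| < 1 := by
  rw [abs_lt] at ha hb
  have hpos : 0 < 1 + a * b := by nlinarith [ha.1, ha.2, hb.1, hb.2]
  rw [mob, abs_lt]
  constructor
  · rw [lt_div_iff₀ hpos]; nlinarith [ha.1, ha.2, hb.1, hb.2]
  · rw [div_lt_iff₀ hpos]; nlinarith [ha.1, ha.2, hb.1, hb.2]

lemma mob_den_pos' {a b : ℝ} (ha : |a| < 1) (hb : |b| < 1) : 0 < 1 + a * b := by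
  rw [abs_lt] at ha hb
  nlinarith [ha.1, ha.2, hb.1, hb.2]

lemma mob_neg_neg (a b : ℝ) : mob (-a) (-b) = - mob a b := by
  simp only [mob]
  have : 1 + -a * -b = 1 + a * b := by ring
  rw [this, ← neg_div]; ring

lemma mob_neg_left (a b : ℝ) : mob (-a) b = - mob a (-b) := by
  simp only [mob]
  have : 1 + -a * b = 1 + a * -b := by ring
  rw [this, ← neg_div]; ring

lemma measurable_mob : Measurable (fun p : ℝ × ℝ => mob p.1 p.2) := by
  unfold mob; fun_prop

section Prod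

variable {ν₁ ν₂ : Measure ℝ}

lemma Nish.ae_prod (h₁ : Nish ν₁) (h₂ : Nish ν₂) :
    ∀ᵐ p ∂(ν₁.prod ν₂), |p.1| < 1 ∧ |p.2| < 1 := by
  have := h₁.prob; have := h₂.prob
  have a : ∀ᵐ p ∂(ν₁.prod ν₂), |p.1| < 1 := Measure.quasiMeasurePreserving_fst.ae h₁.lt
  have b : ∀ᵐ p ∂(ν₁.prod ν₂), |p.2| < 1 := Measure.quasiMeasurePreserving_snd.ae h₂.lt
  filter_upwards [a, b] with p pa pb using ⟨pa, pb⟩

lemma Nish.integrable_prod (h₁ : Nish ν₁) (h₂ : Nish ν₂) {F : ℝ × ℝ → ℝ} (hF : Measurable F) {C : ℝ}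
    (hC : ∀ a b, |a| < 1 → |b| < 1 → |F (a, b)| ≤ C) : Integrable F (ν₁.prod ν₂) := by
  have := h₁.prob; have := h₂.prob
  refine Integrable.of_bound hF.aestronglyMeasurable C ?_
  filter_upwards [h₁.ae_prod h₂] with p hp
  simpa using hC p.1 p.2 hp.1 hp.2

/-- Double symmetrisation. -/
theorem Nish.sym2 (h₁ : Nish ν₁) (h₂ : Nish ν₂) {F : ℝ × ℝ → ℝ} (hF : Measurable F) {C : ℝ}
    (hC : ∀ a b, |a| < 1 → |b| < 1 → |F (a, b)| ≤ C) :
    ∫ p, F p ∂(ν₁.prod ν₂) =
      ∫ p, ((1 + p.1) / 2 * ((1 + p.2) / 2 * F (p.1, p.2) + (1 - p.2) / 2 * F (p.1, -p.2)) +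
        (1 - p.1) / 2 * ((1 + p.2) / 2 * F (-p.1, p.2) + (1 - p.2) / 2 * F (-p.1, -p.2))) ∂(ν₁.prod ν₂) := by
  have := h₁.prob; have := h₂.prob
  -- the one step symmetrised function
  let K : ℝ × ℝ → ℝ := fun p => (1 + p.2) / 2 * F (p.1, p.2) + (1 - p.2) / 2 * F (p.1, -p.2)
  have hK : Measurable K := by
    have h1 : Measurable fun p : ℝ × ℝ => F (p.1, -p.2) :=
      hF.comp (measurable_fst.prodMk measurable_snd.neg)
    have h2 : Measurable fun p : ℝ × ℝ => F (p.1, p.2) :=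
      hF.comp (measurable_fst.prodMk measurable_snd)
    exact ((measurable_snd.const_add 1).div_const 2 |>.mul h2).add
      (((measurable_snd.const_sub 1).div_const 2).mul h1)
  have hnegb : ∀ {b : ℝ}, |b| < 1 → |(-b)| < 1 := fun hb => by rwa [abs_neg]
  have hCK : ∀ a b, |a| < 1 → |b| < 1 → |K (a, b)| ≤ C := by
    intro a b ha hb
    have h1 := hC a b ha hb
    have h2 := hC a (-b) ha (hnegb hb)
    rw [abs_lt] at hb
    simp only [K]
    have e1 : 0 ≤ (1 + b) / 2 := by linarith [hb.1]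
    have e2 : 0 ≤ (1 - b) / 2 := by linarith [hb.2]
    calc |(1 + b) / 2 * F (a, b) + (1 - b) / 2 * F (a, -b)|
        ≤ (1 + b) / 2 * |F (a, b)| + (1 - b) / 2 * |F (a, -b)| := by
          refine (abs_add_le _ _).trans ?_
          rw [abs_mul, abs_mul, abs_of_nonneg e1, abs_of_nonneg e2]
      _ ≤ (1 + b) / 2 * C + (1 - b) / 2 * C := by gcongr
      _ = C := by ring
  have iF := h₁.integrable_prod h₂ hF hC
  have iK := h₁.integrable_prod h₂ hK hCK
  -- step 1: inner variable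
  have step1 : ∫ p, F p ∂(ν₁.prod ν₂) = ∫ p, K p ∂(ν₁.prod ν₂) := by
    rw [integral_prod _ iF, integral_prod _ iK]
    refine integral_congr_ae ?_
    filter_upwards [h₁.lt] with a ha
    refine h₂.sym (fun b => F (a, b)) (hF.comp measurable_prodMk_left) ⟨C, fun x hx => hC a x ha hx⟩
  -- step 2: outer variable
  let L : ℝ × ℝ → ℝ := fun p => (1 + p.1) / 2 * K (p.1, p.2) + (1 - p.1) / 2 * K (-p.1, p.2)
  have hL : Measurable L := by
    have h1 : Measurable fun p : ℝ × ℝ => K (-p.1, p.2) :=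
      hK.comp (measurable_fst.neg.prodMk measurable_snd)
    have h2 : Measurable fun p : ℝ × ℝ => K (p.1, p.2) :=
      hK.comp (measurable_fst.prodMk measurable_snd)
    exact ((measurable_fst.const_add 1).div_const 2 |>.mul h2).add
      (((measurable_fst.const_sub 1).div_const 2).mul h1)
  have hCL : ∀ a b, |a| < 1 → |b| < 1 → |L (a, b)| ≤ C := by
    intro a b ha hb
    have h1 := hCK a b ha hb
    have h2 := hCK (-a) b (hnegb ha) hb
    rw [abs_lt] at ha
    simp only [L]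
    have e1 : 0 ≤ (1 + a) / 2 := by linarith [ha.1]
    have e2 : 0 ≤ (1 - a) / 2 := by linarith [ha.2]
    calc |(1 + a) / 2 * K (a, b) + (1 - a) / 2 * K (-a, b)|
        ≤ (1 + a) / 2 * |K (a, b)| + (1 - a) / 2 * |K (-a, b)| := by
          refine (abs_add_le _ _).trans ?_
          rw [abs_mul, abs_mul, abs_of_nonneg e1, abs_of_nonneg e2]
      _ ≤ (1 + a) / 2 * C + (1 - a) / 2 * C := by gcongr
      _ = C := by ring
  have iL := h₁.integrable_prod h₂ hL hCL
  have step2 : ∫ p, K p ∂(ν₁.prod ν₂) = ∫ p, L p ∂(ν₁.prod ν₂) := by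
    rw [integral_prod_symm _ iK, integral_prod_symm _ iL]
    refine integral_congr_ae ?_
    filter_upwards [h₂.lt] with b hb
    refine h₁.sym (fun a => K (a, b)) (hK.comp measurable_prodMk_right)
      ⟨C, fun x hx => hCK x b hx hb⟩
  rw [step1, step2]

/-- Law of the Moebius sum. -/
noncomputable def mobTwo (ν₁ ν₂ : Measure ℝ) : Measure ℝ :=
  (ν₁.prod ν₂).map (fun p => mob p.1 p.2)

theorem Nish.nish_mobTwo (h₁ : Nish ν₁) (h₂ : Nish ν₂) : Nish (mobTwo ν₁ ν₂) := by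
  have := h₁.prob; have := h₂.prob
  have hm := measurable_mob
  refine ⟨Measure.isProbabilityMeasure_map hm.aemeasurable, ?_, ?_⟩
  · have hset : MeasurableSet {x : ℝ | |x| < 1} := measurableSet_lt (by fun_prop) (by fun_prop)
    rw [mobTwo, ae_map_iff hm.aemeasurable hset]
    filter_upwards [h₁.ae_prod h₂] with p hp using mob_abs_lt hp.1 hp.2
  · rintro g hg ⟨C, hC⟩
    have hC0 : 0 ≤ C := by simpa using (abs_nonneg _).trans (hC 0 (by simp))
    let G : ℝ → ℝ := fun x => (1 + x) / 2 * g x + (1 - x) / 2 * g (-x)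
    have hG : Measurable G := by
      have h1 : Measurable fun x : ℝ => g (-x) := hg.comp measurable_neg
      exact ((measurable_id.const_add 1).div_const 2 |>.mul hg).add
        (((measurable_id.const_sub 1).div_const 2).mul h1)
    rw [mobTwo, integral_map hm.aemeasurable hg.aestronglyMeasurable,
      integral_map hm.aemeasurable hG.aestronglyMeasurable]
    have hbound1 : ∀ a b : ℝ, |a| < 1 → |b| < 1 → |g (mob a b)| ≤ C :=
      fun a b ha hb => hC _ (mob_abs_lt ha hb)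
    have hbound2 : ∀ a b : ℝ, |a| < 1 → |b| < 1 → |G (mob a b)| ≤ C := by
      intro a b ha hb
      have hM := mob_abs_lt ha hb
      have h1 := hC _ hM
      have h2 := hC (-(mob a b)) (by rwa [abs_neg])
      rw [abs_lt] at hM
      simp only [G]
      have e1 : 0 ≤ (1 + mob a b) / 2 := by linarith [hM.1]
      have e2 : 0 ≤ (1 - mob a b) / 2 := by linarith [hM.2]
      calc |(1 + mob a b) / 2 * g (mob a b) + (1 - mob a b) / 2 * g (-mob a b)|
          ≤ (1 + mob a b) / 2 * |g (mob a b)| + (1 - mob a b) / 2 * |g (-mob a b)| := by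
            refine (abs_add_le _ _).trans ?_
            rw [abs_mul, abs_mul, abs_of_nonneg e1, abs_of_nonneg e2]
        _ ≤ (1 + mob a b) / 2 * C + (1 - mob a b) / 2 * C := by gcongr
        _ = C := by ring
    rw [h₁.sym2 h₂ (F := fun p => g (mob p.1 p.2)) (hg.comp hm) hbound1,
      h₁.sym2 h₂ (F := fun p => G (mob p.1 p.2)) (hG.comp hm) hbound2]
    refine integral_congr_ae ?_
    filter_upwards [h₁.ae_prod h₂] with p hp
    obtain ⟨a, b⟩ := p
    simp only at hp ⊢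
    have hab := mob_den_pos' hp.1 hp.2
    have hab' : 0 < 1 + a * (-b) := mob_den_pos' hp.1 (by rw [abs_neg]; exact hp.2)
    have e2 : mob (-a) (-b) = - mob a b := mob_neg_neg a b
    have e3 : mob (-a) b = - mob a (-b) := mob_neg_left a b
    rw [e2, e3]
    simp only [G, neg_neg]
    have id1 : (1 + a) * (1 + b) * (1 - mob a b) = (1 - a) * (1 - b) * (1 + mob a b) := by
      simp only [mob]; field_simp; ring
    have id2 : (1 + a) * (1 - b) * (1 - mob a (-b)) = (1 - a) * (1 + b) * (1 + mob a (-b)) := by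
      have e4 : mob a (-b) = (a - b) / (1 - a * b) := by
        simp only [mob]; congr 1 <;> ring
      have h4 : 1 - a * b ≠ 0 := by
        have : 1 - a * b = 1 + a * -b := by ring
        rw [this]; exact hab'.ne'
      rw [e4]; field_simp; ring
    generalize mob a b = M at *
    generalize mob a (-b) = N at *
    generalize g M = g1
    generalize g (-M) = g2
    generalize g N = g3
    generalize g (-N) = g4
    linear_combination (1 / 8 : ℝ) * g1 * id1 - (1 / 8 : ℝ) * g2 * id1 + (1 / 8 : ℝ) * g3 * id2 - (1 / 8 : ℝ) * g4 * id2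

/-- Second moment of a law. -/
noncomputable def mom2 (ν : Measure ℝ) : ℝ := ∫ x, x ^ 2 ∂ν

lemma Nish.mom2_nonneg (ν : Measure ℝ) : 0 ≤ mom2 ν := integral_nonneg fun x => sq_nonneg x

lemma Nish.integrable_sq (h : Nish ν₁) : Integrable (fun x : ℝ => x ^ 2) ν₁ := by
  have := h.prob
  refine Integrable.of_bound (by fun_prop) 1 ?_
  filter_upwards [h.lt] with x hx
  rw [Real.norm_eq_abs, abs_pow]
  exact pow_le_one₀ (abs_nonneg _) hx.le

lemma Nish.mom2_le_one (h : Nish ν₁) : mom2 ν₁ ≤ 1 := by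
  have := h.prob
  have : ∫ x, x ^ 2 ∂ν₁ ≤ ∫ _x, (1 : ℝ) ∂ν₁ := by
    refine integral_mono_ae h.integrable_sq (integrable_const _) ?_
    filter_upwards [h.lt] with x hx
    have := sq_lt_one_iff_abs_lt_one x |>.2 hx
    exact this.le
  simpa [mom2] using this

/-- The formula for the second moment of a Moebius sum. -/
theorem Nish.mom2_mobTwo (h₁ : Nish ν₁) (h₂ : Nish ν₂) :
    mom2 (mobTwo ν₁ ν₂) =
      ∫ p, (p.1 ^ 2 + p.2 ^ 2 - 2 * (p.1 ^ 2 * p.2 ^ 2)) / (1 - p.1 ^ 2 * p.2 ^ 2) ∂(ν₁.prod ν₂) := by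
  have := h₁.prob; have := h₂.prob
  have hm := measurable_mob
  have hF : Measurable fun p : ℝ × ℝ => mob p.1 p.2 ^ 2 := hm.pow_const 2
  have hC : ∀ a b : ℝ, |a| < 1 → |b| < 1 → |mob a b ^ 2| ≤ 1 := by
    intro a b ha hb
    rw [abs_pow]
    exact pow_le_one₀ (abs_nonneg _) (mob_abs_lt ha hb).le
  rw [mom2, mobTwo, integral_map hm.aemeasurable (by fun_prop),
    h₁.sym2 h₂ (F := fun p => mob p.1 p.2 ^ 2) hF hC]
  refine integral_congr_ae ?_
  filter_upwards [h₁.ae_prod h₂] with p hp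
  obtain ⟨a, b⟩ := p
  simp only at hp ⊢
  have hab := mob_den_pos' hp.1 hp.2
  have hab' : 0 < 1 + a * (-b) := mob_den_pos' hp.1 (by rw [abs_neg]; exact hp.2)
  have h4 : 1 - a * b ≠ 0 := by
    have : 1 - a * b = 1 + a * -b := by ring
    rw [this]; exact hab'.ne'
  have h5 : 1 - a ^ 2 * b ^ 2 ≠ 0 := by
    have : 1 - a ^ 2 * b ^ 2 = (1 + a * b) * (1 + a * -b) := by ring
    rw [this]; positivity
  have e1 : mob (-a) (-b) = - mob a b := mob_neg_neg a b
  have e2 : mob (-a) b = - mob a (-b) := mob_neg_left a b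
  have e4 : mob a (-b) = (a - b) / (1 - a * b) := by
    simp only [mob]; congr 1 <;> ring
  rw [e1, e2, e4, neg_sq, neg_sq]
  simp only [mob]
  have hab2 : 1 + a * b ≠ 0 := hab.ne'
  field_simp
  ring

/-- The three second moment inequalities. -/
theorem Nish.mom2_ge_left (h₁ : Nish ν₁) (h₂ : Nish ν₂) : mom2 ν₁ ≤ mom2 (mobTwo ν₁ ν₂) := by
  have := h₁.prob; have := h₂.prob
  rw [h₁.mom2_mobTwo h₂]
  have e : mom2 ν₁ = ∫ p : ℝ × ℝ, p.1 ^ 2 ∂(ν₁.prod ν₂) := by
    rw [integral_fun_fst (fun x : ℝ => x ^ 2)]; simp [mom2]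
  rw [e]
  have hF : Measurable fun p : ℝ × ℝ =>
      (p.1 ^ 2 + p.2 ^ 2 - 2 * (p.1 ^ 2 * p.2 ^ 2)) / (1 - p.1 ^ 2 * p.2 ^ 2) := by fun_prop
  have hI1 : Integrable (fun p : ℝ × ℝ => p.1 ^ 2) (ν₁.prod ν₂) := by
    refine h₁.integrable_prod h₂ (C := 1) (by fun_prop) ?_
    intro a b ha hb
    simp only [abs_pow]
    exact pow_le_one₀ (abs_nonneg _) ha.le
  -- the integrand is the integrable function `mob² ` symmetrised, so it is bounded by 1
  have key : ∀ a b : ℝ, |a| < 1 → |b| < 1 →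
      0 ≤ (a ^ 2 + b ^ 2 - 2 * (a ^ 2 * b ^ 2)) / (1 - a ^ 2 * b ^ 2) ∧
      (a ^ 2 + b ^ 2 - 2 * (a ^ 2 * b ^ 2)) / (1 - a ^ 2 * b ^ 2) ≤ 1 ∧
      a ^ 2 ≤ (a ^ 2 + b ^ 2 - 2 * (a ^ 2 * b ^ 2)) / (1 - a ^ 2 * b ^ 2) := by
    intro a b ha hb
    have hA := (sq_lt_one_iff_abs_lt_one a).2 ha
    have hB := (sq_lt_one_iff_abs_lt_one b).2 hb
    have hA0 := sq_nonneg a
    have hB0 := sq_nonneg b
    generalize a ^ 2 = A at *
    generalize b ^ 2 = B at *
    have hd : 0 < 1 - A * B := by nlinarith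
    refine ⟨div_nonneg (by nlinarith) hd.le, ?_, ?_⟩
    · rw [div_le_one hd]; nlinarith
    · rw [le_div_iff₀ hd]; nlinarith [mul_nonneg hB0 (sq_nonneg (1 - A))]
  have hI2 : Integrable (fun p : ℝ × ℝ =>
      (p.1 ^ 2 + p.2 ^ 2 - 2 * (p.1 ^ 2 * p.2 ^ 2)) / (1 - p.1 ^ 2 * p.2 ^ 2)) (ν₁.prod ν₂) := by
    refine h₁.integrable_prod h₂ (C := 1) hF ?_
    intro a b ha hb
    obtain ⟨k0, k1, -⟩ := key a b ha hb
    simp only
    rw [abs_of_nonneg k0]; exact k1
  refine integral_mono_ae hI1 hI2 ?_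
  filter_upwards [h₁.ae_prod h₂] with p hp
  exact (key p.1 p.2 hp.1 hp.2).2.2

end Prod

end Crest.Agent.Lib.IT
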