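/-
Nishimori symmetric laws, part 2: second moment inequalities, channel, base law.
-/
import Crest.Agent.Lib.IT.Nish

set_option autoImplicit false

namespace Crest.Agent.Lib.IT

open MeasureTheory ProbabilityTheory
open scoped ENNReal NNReal

section Ineq

lemma nish_key (a b : ℝ) (ha : |a| < 1) (hb : |b| < 1) :
    0 ≤ (a ^ 2 + b ^ 2 - 2 * (a ^ 2 * b ^ 2)) / (1 - a ^ 2 * b ^ 2) ∧
    (a ^ 2 + b ^ 2 - 2 * (a ^ 2 * b ^ 2)) / (1 - a ^ 2 * b ^ 2) ≤ 1 ∧
    (1 - a ^ 2) * (1 - b ^ 2) ≤ 1 - (a ^ 2 + b ^ 2 - 2 * (a ^ 2 * b ^ 2)) / (1 - a ^ 2 * b ^ 2) ∧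
    1 - 2 * ((a ^ 2 + b ^ 2 - 2 * (a ^ 2 * b ^ 2)) / (1 - a ^ 2 * b ^ 2)) ≤
      (1 - 2 * a ^ 2) * (1 - 2 * b ^ 2) := by
  have hA := (sq_lt_one_iff_abs_lt_one a).2 ha
  have hB := (sq_lt_one_iff_abs_lt_one b).2 hb
  have hA0 := sq_nonneg a
  have hB0 := sq_nonneg b
  generalize a ^ 2 = A at *
  generalize b ^ 2 = B at *
  have hd : 0 < 1 - A * B := by nlinarith
  have hAB : 0 ≤ A * B := mul_nonneg hA0 hB0
  have hf : A + B - 2 * (A * B) ≤ (A + B - 2 * (A * B)) / (1 - A * B) := by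
    rw [le_div_iff₀ hd]
    nlinarith [mul_nonneg hAB (by nlinarith : 0 ≤ A + B - 2 * (A * B))]
  refine ⟨div_nonneg (by nlinarith) hd.le, ?_, ?_, ?_⟩
  · rw [div_le_one hd]; nlinarith
  · have : 1 - (A + B - 2 * (A * B)) / (1 - A * B) = (1 - A) * (1 - B) / (1 - A * B) := by
      field_simp; ring
    rw [this, le_div_iff₀ hd]
    nlinarith [mul_nonneg (mul_nonneg (by linarith : 0 ≤ 1 - A) (by linarith : 0 ≤ 1 - B)) hAB]
  · nlinarith

variable {ν₁ ν₂ : Measure ℝ}

private lemma integral_one_sub_sq (h : Nish ν₁) : ∫ x, (1 - x ^ 2) ∂ν₁ = 1 - mom2 ν₁ := by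
  have := h.prob
  rw [integral_sub (integrable_const _) h.integrable_sq]
  simp [mom2]

private lemma integral_one_sub_two_sq (h : Nish ν₁) :
    ∫ x, (1 - 2 * x ^ 2) ∂ν₁ = 1 - 2 * mom2 ν₁ := by
  have := h.prob
  rw [integral_sub (integrable_const _) (h.integrable_sq.const_mul 2), integral_const_mul]
  simp [mom2]

theorem Nish.mom2_ge_prod (h₁ : Nish ν₁) (h₂ : Nish ν₂) :
    (1 - mom2 ν₁) * (1 - mom2 ν₂) ≤ 1 - mom2 (mobTwo ν₁ ν₂) := by
  have := h₁.prob; have := h₂.prob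
  rw [h₁.mom2_mobTwo h₂, ← integral_one_sub_sq h₁, ← integral_one_sub_sq h₂,
    ← integral_prod_mul (fun x : ℝ => 1 - x ^ 2) (fun x : ℝ => 1 - x ^ 2)]
  have hF : Measurable fun p : ℝ × ℝ =>
      (p.1 ^ 2 + p.2 ^ 2 - 2 * (p.1 ^ 2 * p.2 ^ 2)) / (1 - p.1 ^ 2 * p.2 ^ 2) := by fun_prop
  have hI2 : Integrable (fun p : ℝ × ℝ =>
      (p.1 ^ 2 + p.2 ^ 2 - 2 * (p.1 ^ 2 * p.2 ^ 2)) / (1 - p.1 ^ 2 * p.2 ^ 2)) (ν₁.prod ν₂) := by
    refine h₁.integrable_prod h₂ (C := 1) hF ?_
    intro a b ha hb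
    obtain ⟨k0, k1, -⟩ := nish_key a b ha hb
    simp only
    rw [abs_of_nonneg k0]; exact k1
  have hI1 : Integrable (fun p : ℝ × ℝ => (1 - p.1 ^ 2) * (1 - p.2 ^ 2)) (ν₁.prod ν₂) := by
    refine h₁.integrable_prod h₂ (C := 1) (by fun_prop) ?_
    intro a b ha hb
    have hA := (sq_lt_one_iff_abs_lt_one a).2 ha
    have hB := (sq_lt_one_iff_abs_lt_one b).2 hb
    have hA0 := sq_nonneg a
    have hB0 := sq_nonneg b
    simp only
    rw [abs_of_nonneg (mul_nonneg (by linarith) (by linarith))]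
    nlinarith
  have : ∫ p : ℝ × ℝ, (1 - (p.1 ^ 2 + p.2 ^ 2 - 2 * (p.1 ^ 2 * p.2 ^ 2)) / (1 - p.1 ^ 2 * p.2 ^ 2)) ∂(ν₁.prod ν₂)
      = 1 - ∫ p : ℝ × ℝ, (p.1 ^ 2 + p.2 ^ 2 - 2 * (p.1 ^ 2 * p.2 ^ 2)) / (1 - p.1 ^ 2 * p.2 ^ 2) ∂(ν₁.prod ν₂) := by
    rw [integral_sub (integrable_const _) hI2]; simp
  rw [← this]
  refine integral_mono_ae hI1 ((integrable_const _).sub hI2) ?_
  filter_upwards [h₁.ae_prod h₂] with p hp
  exact (nish_key p.1 p.2 hp.1 hp.2).2.2.1

theorem Nish.mom2_le_prod (h₁ : Nish ν₁) (h₂ : Nish ν₂) :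
    1 - 2 * mom2 (mobTwo ν₁ ν₂) ≤ (1 - 2 * mom2 ν₁) * (1 - 2 * mom2 ν₂) := by
  have := h₁.prob; have := h₂.prob
  rw [h₁.mom2_mobTwo h₂, ← integral_one_sub_two_sq h₁, ← integral_one_sub_two_sq h₂,
    ← integral_prod_mul (fun x : ℝ => 1 - 2 * x ^ 2) (fun x : ℝ => 1 - 2 * x ^ 2)]
  have hF : Measurable fun p : ℝ × ℝ =>
      (p.1 ^ 2 + p.2 ^ 2 - 2 * (p.1 ^ 2 * p.2 ^ 2)) / (1 - p.1 ^ 2 * p.2 ^ 2) := by fun_prop
  have hI2 : Integrable (fun p : ℝ × ℝ =>
      (p.1 ^ 2 + p.2 ^ 2 - 2 * (p.1 ^ 2 * p.2 ^ 2)) / (1 - p.1 ^ 2 * p.2 ^ 2)) (ν₁.prod ν₂) := by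
    refine h₁.integrable_prod h₂ (C := 1) hF ?_
    intro a b ha hb
    obtain ⟨k0, k1, -⟩ := nish_key a b ha hb
    simp only
    rw [abs_of_nonneg k0]; exact k1
  have hI1 : Integrable (fun p : ℝ × ℝ => (1 - 2 * p.1 ^ 2) * (1 - 2 * p.2 ^ 2)) (ν₁.prod ν₂) := by
    refine h₁.integrable_prod h₂ (C := 1) (by fun_prop) ?_
    intro a b ha hb
    have hA := (sq_lt_one_iff_abs_lt_one a).2 ha
    have hB := (sq_lt_one_iff_abs_lt_one b).2 hb
    have hA0 := sq_nonneg a
    have hB0 := sq_nonneg b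
    simp only
    rw [abs_mul]
    have e1 : |1 - 2 * a ^ 2| ≤ 1 := by rw [abs_le]; constructor <;> nlinarith
    have e2 : |1 - 2 * b ^ 2| ≤ 1 := by rw [abs_le]; constructor <;> nlinarith
    calc _ ≤ (1:ℝ) * 1 := mul_le_mul e1 e2 (abs_nonneg _) (by norm_num)
      _ = 1 := by norm_num
  have : ∫ p : ℝ × ℝ, (1 - 2 * ((p.1 ^ 2 + p.2 ^ 2 - 2 * (p.1 ^ 2 * p.2 ^ 2)) / (1 - p.1 ^ 2 * p.2 ^ 2))) ∂(ν₁.prod ν₂)
      = 1 - 2 * ∫ p : ℝ × ℝ, (p.1 ^ 2 + p.2 ^ 2 - 2 * (p.1 ^ 2 * p.2 ^ 2)) / (1 - p.1 ^ 2 * p.2 ^ 2) ∂(ν₁.prod ν₂) := by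
    rw [integral_sub (integrable_const _) (hI2.const_mul 2), integral_const_mul]; simp
  rw [← this]
  refine integral_mono_ae ((integrable_const _).sub (hI2.const_mul 2)) hI1 ?_
  filter_upwards [h₁.ae_prod h₂] with p hp
  exact (nish_key p.1 p.2 hp.1 hp.2).2.2.2

end Ineq

section Bit

variable {θ : ℝ}

lemma bitLaw_isProb (h0 : 0 ≤ θ) (h1 : θ < 1) : IsProbabilityMeasure (bitLaw θ) := by
  constructor
  have e1 : 0 ≤ (1 + θ) / 2 := by linarith
  have e2 : 0 ≤ (1 - θ) / 2 := by linarith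
  simp only [bitLaw, Measure.add_apply, Measure.smul_apply, smul_eq_mul, measure_univ, mul_one]
  rw [← ENNReal.ofReal_add e1 e2]
  have : (1 + θ) / 2 + (1 - θ) / 2 = 1 := by ring
  rw [this]; simp

lemma integral_bitLaw (h0 : 0 ≤ θ) (h1 : θ < 1) (g : Bool → ℝ) :
    ∫ b, g b ∂(bitLaw θ) = (1 + θ) / 2 * g true + (1 - θ) / 2 * g false := by
  have e1 : 0 ≤ (1 + θ) / 2 := by linarith
  have e2 : 0 ≤ (1 - θ) / 2 := by linarith
  have i1 : Integrable g (ENNReal.ofReal ((1 + θ) / 2) • Measure.dirac true) :=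
    Integrable.smul_measure Integrable.of_finite ENNReal.ofReal_ne_top
  have i2 : Integrable g (ENNReal.ofReal ((1 - θ) / 2) • Measure.dirac false) :=
    Integrable.smul_measure Integrable.of_finite ENNReal.ofReal_ne_top
  rw [bitLaw, integral_add_measure i1 i2, integral_smul_measure, integral_smul_measure,
    integral_dirac, integral_dirac, ENNReal.toReal_ofReal e1, ENNReal.toReal_ofReal e2]
  simp

/-- The law of `sg(b) θ v`, with `b` an independent bit. -/
noncomputable def chanLaw (θ : ℝ) (ν : Measure ℝ) : Measure ℝ :=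
  ((bitLaw θ).prod ν).map (fun p => sg p.1 * θ * p.2)

lemma measurable_sg : Measurable sg := measurable_of_finite _

lemma measurable_chan (θ : ℝ) : Measurable (fun p : Bool × ℝ => sg p.1 * θ * p.2) :=
  ((measurable_sg.comp measurable_fst).mul_const θ).mul measurable_snd

lemma integral_bit_prod (h0 : 0 ≤ θ) (h1 : θ < 1) {ν : Measure ℝ} [IsProbabilityMeasure ν]
    {G : Bool × ℝ → ℝ} (hG : Integrable G ((bitLaw θ).prod ν)) :
    ∫ p, G p ∂((bitLaw θ).prod ν) =
      (1 + θ) / 2 * ∫ x, G (true, x) ∂ν + (1 - θ) / 2 * ∫ x, G (false, x) ∂ν := by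
  have := bitLaw_isProb h0 h1
  rw [integral_prod _ hG, integral_bitLaw h0 h1]

lemma abs_sg_mul (b : Bool) (x : ℝ) : |sg b * x| = |x| := by
  cases b <;> simp [sg]

lemma sg_sq (b : Bool) : sg b ^ 2 = 1 := by
  cases b <;> simp [sg]

theorem Nish.chan (h0 : 0 ≤ θ) (h1 : θ < 1) {ν : Measure ℝ} (h : Nish ν) : Nish (chanLaw θ ν) := by
  have := h.prob
  have := bitLaw_isProb h0 h1
  have hm := measurable_chan θ
  have hae : ∀ᵐ p ∂((bitLaw θ).prod ν), |p.2| < 1 := Measure.quasiMeasurePreserving_snd.ae h.lt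
  have hlt : ∀ b : Bool, ∀ x : ℝ, |x| < 1 → |sg b * θ * x| < 1 := by
    intro b x hx
    rw [mul_assoc, abs_sg_mul, abs_mul, abs_of_nonneg h0]
    calc θ * |x| ≤ 1 * |x| := by gcongr
      _ = |x| := one_mul _
      _ < 1 := hx
  refine ⟨Measure.isProbabilityMeasure_map hm.aemeasurable, ?_, ?_⟩
  · have hset : MeasurableSet {x : ℝ | |x| < 1} := measurableSet_lt (by fun_prop) (by fun_prop)
    rw [chanLaw, ae_map_iff hm.aemeasurable hset]
    filter_upwards [hae] with p hp using hlt p.1 p.2 hp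
  · rintro g hg ⟨C, hC⟩
    have hnegb : ∀ {b : ℝ}, |b| < 1 → |(-b)| < 1 := fun hb => by rwa [abs_neg]
    let G : ℝ → ℝ := fun x => (1 + x) / 2 * g x + (1 - x) / 2 * g (-x)
    have hG : Measurable G := by
      have h1 : Measurable fun x : ℝ => g (-x) := hg.comp measurable_neg
      exact ((measurable_id.const_add 1).div_const 2 |>.mul hg).add
        (((measurable_id.const_sub 1).div_const 2).mul h1)
    have hCG : ∀ x, |x| < 1 → |G x| ≤ C := by
      intro x hx
      have h1 := hC x hx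
      have h2 := hC (-x) (hnegb hx)
      rw [abs_lt] at hx
      simp only [G]
      have e1 : 0 ≤ (1 + x) / 2 := by linarith [hx.1]
      have e2 : 0 ≤ (1 - x) / 2 := by linarith [hx.2]
      calc |(1 + x) / 2 * g x + (1 - x) / 2 * g (-x)|
          ≤ (1 + x) / 2 * |g x| + (1 - x) / 2 * |g (-x)| := by
            refine (abs_add_le _ _).trans ?_
            rw [abs_mul, abs_mul, abs_of_nonneg e1, abs_of_nonneg e2]
        _ ≤ (1 + x) / 2 * C + (1 - x) / 2 * C := by gcongr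
        _ = C := by ring
    have int_of : ∀ F : ℝ → ℝ, Measurable F → (∀ x, |x| < 1 → |F x| ≤ C) →
        Integrable (fun p : Bool × ℝ => F (sg p.1 * θ * p.2)) ((bitLaw θ).prod ν) := by
      intro F hF hFC
      refine Integrable.of_bound (hF.comp hm).aestronglyMeasurable C ?_
      filter_upwards [hae] with p hp
      simpa using hFC _ (hlt p.1 p.2 hp)
    rw [chanLaw, integral_map hm.aemeasurable hg.aestronglyMeasurable,
      integral_map hm.aemeasurable hG.aestronglyMeasurable,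
      integral_bit_prod h0 h1 (int_of g hg hC), integral_bit_prod h0 h1 (int_of G hG hCG)]
    simp only [sg, if_true, one_mul, Bool.false_eq_true, if_false, neg_mul]
    -- the base functions
    have hθx : ∀ x, |x| < 1 → |θ * x| < 1 := fun x hx => by
      simpa [sg] using hlt true x hx
    have meas1 : Measurable fun x : ℝ => g (θ * x) := hg.comp (measurable_const.mul measurable_id)
    have meas2 : Measurable fun x : ℝ => g (-(θ * x)) :=
      hg.comp (measurable_const.mul measurable_id).neg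
    have meas3 : Measurable fun x : ℝ => G (θ * x) := hG.comp (measurable_const.mul measurable_id)
    have meas4 : Measurable fun x : ℝ => G (-(θ * x)) :=
      hG.comp (measurable_const.mul measurable_id).neg
    have I : ∀ {F : ℝ → ℝ}, Measurable F → (∀ x, |x| < 1 → |F x| ≤ C) → Integrable F ν := by
      intro F hF hFC
      refine Integrable.of_bound hF.aestronglyMeasurable C ?_
      filter_upwards [h.lt] with x hx
      simpa using hFC x hx
    have J : ∀ {F : ℝ → ℝ}, Measurable F → (∀ x, |x| < 1 → |F x| ≤ C) →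
        Integrable (fun x => x * F x) ν := by
      intro F hF hFC
      refine Integrable.of_bound (measurable_id.mul hF).aestronglyMeasurable C ?_
      filter_upwards [h.lt] with x hx
      rw [Real.norm_eq_abs, abs_mul]
      calc |x| * |F x| ≤ 1 * C := mul_le_mul hx.le (hFC x hx) (abs_nonneg _) (by norm_num)
        _ = C := one_mul _
    -- the odd test
    have odd_test : ∫ x, (g (θ * x) - g (-(θ * x))) ∂ν = ∫ x, x * (g (θ * x) - g (-(θ * x))) ∂ν := by
      have hC0 : ∀ x, |x| < 1 → |g (θ * x) - g (-(θ * x))| ≤ 2 * C := by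
        intro x hx
        have hh := hθx x hx
        have h1 := hC _ hh
        have h2 := hC _ (hnegb hh)
        calc _ ≤ |g (θ * x)| + |g (-(θ * x))| := abs_sub _ _
          _ ≤ 2 * C := by linarith
      have := h.sym (fun x => g (θ * x) - g (-(θ * x))) (meas1.sub meas2) ⟨2 * C, hC0⟩
      rw [this]
      refine integral_congr_ae ?_
      filter_upwards with x
      simp only [mul_neg, neg_neg]
      ring
    have b1 : ∀ x, |x| < 1 → |g (θ * x)| ≤ C := fun x hx => hC _ (hθx x hx)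
    have b2 : ∀ x, |x| < 1 → |g (-(θ * x))| ≤ C := fun x hx => hC _ (hnegb (hθx x hx))
    have i1 := I meas1 b1
    have i2 := I meas2 b2
    have j1 := J meas1 b1
    have j2 := J meas2 b2
    have e1 : ∫ x, G (θ * x) ∂ν = (1 / 2) * (∫ x, g (θ * x) ∂ν) + (1 / 2) * (∫ x, g (-(θ * x)) ∂ν) +
        (θ / 2) * (∫ x, x * g (θ * x) ∂ν) - (θ / 2) * (∫ x, x * g (-(θ * x)) ∂ν) := by
      have : (fun x => G (θ * x)) = fun x => (1 / 2) * g (θ * x) + (1 / 2) * g (-(θ * x)) +
          (θ / 2) * (x * g (θ * x)) - (θ / 2) * (x * g (-(θ * x))) := by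
        funext x
        simp only [G]
        ring
      have I1 : Integrable (fun x => (1 / 2 : ℝ) * g (θ * x)) ν := i1.const_mul _
      have I2 : Integrable (fun x => (1 / 2 : ℝ) * g (-(θ * x))) ν := i2.const_mul _
      have I3 : Integrable (fun x => (θ / 2 : ℝ) * (x * g (θ * x))) ν := j1.const_mul _
      have I4 : Integrable (fun x => (θ / 2 : ℝ) * (x * g (-(θ * x)))) ν := j2.const_mul _
      have I12 : Integrable (fun x => (1 / 2 : ℝ) * g (θ * x) + (1 / 2 : ℝ) * g (-(θ * x))) ν :=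
        I1.add I2
      have I123 : Integrable (fun x => (1 / 2 : ℝ) * g (θ * x) + (1 / 2 : ℝ) * g (-(θ * x)) +
          (θ / 2 : ℝ) * (x * g (θ * x))) ν := I12.add I3
      rw [this, integral_sub I123 I4, integral_add I12 I3, integral_add I1 I2, integral_const_mul,
        integral_const_mul, integral_const_mul, integral_const_mul]
    have e2 : ∫ x, G (-(θ * x)) ∂ν = (1 / 2) * (∫ x, g (θ * x) ∂ν) + (1 / 2) * (∫ x, g (-(θ * x)) ∂ν) +
        (θ / 2) * (∫ x, x * g (θ * x) ∂ν) - (θ / 2) * (∫ x, x * g (-(θ * x)) ∂ν) := by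
      rw [← e1]
      refine integral_congr_ae ?_
      filter_upwards with x
      simp only [G, neg_neg]
      ring
    have e3 : ∫ x, (g (θ * x) - g (-(θ * x))) ∂ν = (∫ x, g (θ * x) ∂ν) - ∫ x, g (-(θ * x)) ∂ν :=
      integral_sub i1 i2
    have e4 : ∫ x, x * (g (θ * x) - g (-(θ * x))) ∂ν =
        (∫ x, x * g (θ * x) ∂ν) - ∫ x, x * g (-(θ * x)) ∂ν := by
      rw [← integral_sub j1 j2]
      refine integral_congr_ae ?_
      filter_upwards with x
      ring
    rw [e3, e4] at odd_test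
    rw [e1, e2]
    linear_combination (θ / 2) * odd_test

/-- The second moment of a channel law. -/
theorem Nish.mom2_chan (h0 : 0 ≤ θ) (h1 : θ < 1) {ν : Measure ℝ} (h : Nish ν) :
    mom2 (chanLaw θ ν) = θ ^ 2 * mom2 ν := by
  have := h.prob
  have := bitLaw_isProb h0 h1
  have hm := measurable_chan θ
  rw [mom2, chanLaw, integral_map hm.aemeasurable (by fun_prop)]
  have : ∀ p : Bool × ℝ, (sg p.1 * θ * p.2) ^ 2 = θ ^ 2 * p.2 ^ 2 := by
    intro p
    have := sg_sq p.1
    calc (sg p.1 * θ * p.2) ^ 2 = sg p.1 ^ 2 * (θ ^ 2 * p.2 ^ 2) := by ring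
      _ = θ ^ 2 * p.2 ^ 2 := by rw [this, one_mul]
  simp only [this]
  rw [integral_const_mul, integral_fun_snd (fun x : ℝ => x ^ 2), probReal_univ, one_smul, mom2]

end Bit


section Base

lemma measurable_tanh : Measurable Real.tanh := by
  have : Real.tanh = fun x => Real.sinh x / Real.cosh x := funext Real.tanh_eq_sinh_div_cosh
  rw [this]
  exact Real.measurable_sinh.div Real.measurable_cosh

variable {τ : ℝ}

lemma gaussian_pdf_neg (hτ : 0 < τ) (x : ℝ) :
    gaussianPDFReal τ τ.toNNReal (-x) = gaussianPDFReal τ τ.toNNReal x * Real.exp (-2 * x) := by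
  rw [gaussianPDFReal_def]
  simp only [Real.coe_toNNReal τ hτ.le]
  rw [mul_assoc _ (Real.exp _) (Real.exp _), ← Real.exp_add]
  congr 2
  field_simp
  ring

lemma integral_gaussian_neg (hτ : 0 < τ) (h : ℝ → ℝ) :
    ∫ x, h (-x) ∂(gaussianReal τ τ.toNNReal) = ∫ x, h x * Real.exp (-2 * x) ∂(gaussianReal τ τ.toNNReal) := by
  have hv : τ.toNNReal ≠ 0 := by simpa using hτ
  rw [integral_gaussianReal_eq_integral_smul hv, integral_gaussianReal_eq_integral_smul hv]
  rw [← integral_neg_eq_self]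
  refine integral_congr_ae ?_
  filter_upwards with x
  simp only [smul_eq_mul, neg_neg, gaussian_pdf_neg hτ x]
  ring

lemma tanh_exp_identity (z : ℝ) : (1 + Real.tanh z) * Real.exp (-2 * z) = 1 - Real.tanh z := by
  rw [Real.tanh_eq]
  have h1 : Real.exp (-2 * z) = Real.exp (-z) * Real.exp (-z) := by
    rw [← Real.exp_add]; congr 1; ring
  have h2 : Real.exp z * Real.exp (-z) = 1 := by
    rw [← Real.exp_add]; simp
  have hp : Real.exp z + Real.exp (-z) ≠ 0 := (add_pos (Real.exp_pos _) (Real.exp_pos _)).ne'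
  rw [h1]
  field_simp
  generalize Real.exp z = a at *
  generalize Real.exp (-z) = b at *
  linear_combination (2 * b) * h2

theorem nish_base (hτ : 0 < τ) : Nish ((gaussianReal τ τ.toNNReal).map Real.tanh) := by
  have ht := measurable_tanh
  refine ⟨Measure.isProbabilityMeasure_map ht.aemeasurable, ?_, ?_⟩
  · have hset : MeasurableSet {x : ℝ | |x| < 1} := measurableSet_lt (by fun_prop) (by fun_prop)
    rw [ae_map_iff ht.aemeasurable hset]
    exact Filter.Eventually.of_forall Real.abs_tanh_lt_one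
  · rintro g hg ⟨C, hC⟩
    have hnegb : ∀ {b : ℝ}, |b| < 1 → |(-b)| < 1 := fun hb => by rwa [abs_neg]
    have meas2 : Measurable fun x : ℝ => g (-x) := hg.comp measurable_neg
    have hG : Measurable fun x : ℝ => (1 + x) / 2 * g x + (1 - x) / 2 * g (-x) :=
      ((measurable_id.const_add 1).div_const 2 |>.mul hg).add
        (((measurable_id.const_sub 1).div_const 2).mul meas2)
    rw [integral_map ht.aemeasurable hg.aestronglyMeasurable,
      integral_map ht.aemeasurable hG.aestronglyMeasurable]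
    -- the basic identity
    have key : ∫ z, (1 - Real.tanh z) / 2 * g (-Real.tanh z) ∂(gaussianReal τ τ.toNNReal) =
        ∫ z, (1 - Real.tanh z) / 2 * g (Real.tanh z) ∂(gaussianReal τ τ.toNNReal) := by
      have := integral_gaussian_neg hτ (fun z => (1 + Real.tanh z) / 2 * g (Real.tanh z))
      simp only [Real.tanh_neg] at this
      have e : ∀ z, (1 + -Real.tanh z) / 2 * g (-Real.tanh z) = (1 - Real.tanh z) / 2 * g (-Real.tanh z) := by
        intro z; ring
      simp only [e] at this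
      rw [this]
      refine integral_congr_ae ?_
      filter_upwards with z
      have := tanh_exp_identity z
      linear_combination (g (Real.tanh z) / 2) * this
    have bd : ∀ {F : ℝ → ℝ}, Measurable F → (∀ x, |x| < 1 → |F x| ≤ C) → ∀ {a : ℝ → ℝ}, Measurable a →
        (∀ x, |x| < 1 → |a x| ≤ 1) →
        Integrable (fun z => a (Real.tanh z) * F (Real.tanh z)) (gaussianReal τ τ.toNNReal) := by
      intro F hF hFC a ha haC
      refine Integrable.of_bound ((ha.mul hF).comp ht).aestronglyMeasurable (1 * C) ?_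
      filter_upwards with z
      have hz := Real.abs_tanh_lt_one z
      rw [Real.norm_eq_abs, abs_mul]
      exact mul_le_mul (haC _ hz) (hFC _ hz) (abs_nonneg _) (by norm_num)
    have a1 : ∀ x : ℝ, |x| < 1 → |(1 + x) / 2| ≤ 1 := by
      intro x hx; rw [abs_lt] at hx; rw [abs_le]; constructor <;> linarith [hx.1, hx.2]
    have a2 : ∀ x : ℝ, |x| < 1 → |(1 - x) / 2| ≤ 1 := by
      intro x hx; rw [abs_lt] at hx; rw [abs_le]; constructor <;> linarith [hx.1, hx.2]
    have ma1 : Measurable fun x : ℝ => (1 + x) / 2 := (measurable_id.const_add 1).div_const 2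
    have ma2 : Measurable fun x : ℝ => (1 - x) / 2 := (measurable_id.const_sub 1).div_const 2
    have i1 := bd hg hC ma1 a1
    have i2 := bd hg hC ma2 a2
    have i3 := bd meas2 (fun x hx => hC _ (hnegb hx)) ma2 a2
    have e1 : ∫ z, g (Real.tanh z) ∂(gaussianReal τ τ.toNNReal) =
        ∫ z, (1 + Real.tanh z) / 2 * g (Real.tanh z) ∂(gaussianReal τ τ.toNNReal) +
        ∫ z, (1 - Real.tanh z) / 2 * g (Real.tanh z) ∂(gaussianReal τ τ.toNNReal) := by
      rw [← integral_add i1 i2]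
      refine integral_congr_ae ?_
      filter_upwards with z
      ring
    rw [e1, ← key, ← integral_add i1 i3]

end Base

end Crest.Agent.Lib.IT
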