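/-
Nishimori symmetric laws, part 3: finite Moebius sums.
-/
import Crest.Agent.Lib.IT.Nish2

set_option autoImplicit false

namespace Crest.Agent.Lib.IT

open MeasureTheory ProbabilityTheory
open scoped ENNReal NNReal

section MobF

variable {ι : Type*} [Fintype ι]

lemma mobF_pos {c : ℝ} {v : ι → ℝ} (hc : |c| < 1) (hv : ∀ i, |v i| < 1) :
    0 < (1 + c) * ∏ i, (1 + v i) ∧ 0 < (1 - c) * ∏ i, (1 - v i) := by
  rw [abs_lt] at hc
  constructor
  · refine mul_pos (by linarith [hc.1]) (Finset.prod_pos fun i _ => ?_)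
    have := (abs_lt.1 (hv i)).1
    linarith
  · refine mul_pos (by linarith [hc.2]) (Finset.prod_pos fun i _ => ?_)
    have := (abs_lt.1 (hv i)).2
    linarith

lemma mobF_abs_lt {c : ℝ} {v : ι → ℝ} (hc : |c| < 1) (hv : ∀ i, |v i| < 1) : |mobF c v| < 1 := by
  obtain ⟨h1, h2⟩ := mobF_pos hc hv
  rw [mobF]
  generalize (1 + c) * ∏ i, (1 + v i) = P at *
  generalize (1 - c) * ∏ i, (1 - v i) = Q at *
  rw [abs_lt]
  constructor
  · rw [lt_div_iff₀ (by linarith)]; linarith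
  · rw [div_lt_iff₀ (by linarith)]; linarith

lemma measurable_mobF : Measurable (fun p : ℝ × (ι → ℝ) => mobF p.1 p.2) := by
  unfold mobF
  have h1 : Measurable fun p : ℝ × (ι → ℝ) => ∏ i, (1 + p.2 i) :=
    Finset.measurable_prod _ fun i _ => ((measurable_pi_apply i).comp measurable_snd).const_add 1
  have h2 : Measurable fun p : ℝ × (ι → ℝ) => ∏ i, (1 - p.2 i) :=
    Finset.measurable_prod _ fun i _ => ((measurable_pi_apply i).comp measurable_snd).const_sub 1
  have h3 : Measurable fun p : ℝ × (ι → ℝ) => (1 + p.1) := measurable_fst.const_add 1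
  have h4 : Measurable fun p : ℝ × (ι → ℝ) => (1 - p.1) := measurable_fst.const_sub 1
  exact ((h3.mul h1).sub (h4.mul h2)).div ((h3.mul h1).add (h4.mul h2))

/-- `mobF` isolates a factor. -/
lemma mobF_succAbove {m : ℕ} {c : ℝ} {v : Fin (m + 1) → ℝ} (hc : |c| < 1) (hv : ∀ i, |v i| < 1)
    (j : Fin (m + 1)) : mobF c v = mob (mobF c (fun i => v (j.succAbove i))) (v j) := by
  have hv' : ∀ i, |v (j.succAbove i)| < 1 := fun i => hv _
  obtain ⟨h1, h2⟩ := mobF_pos hc hv'
  have hvj := abs_lt.1 (hv j)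
  unfold mobF mob
  rw [Fin.prod_univ_succAbove (fun i => 1 + v i) j, Fin.prod_univ_succAbove (fun i => 1 - v i) j]
  generalize (∏ i, (1 + v (j.succAbove i))) = A at *
  generalize (∏ i, (1 - v (j.succAbove i))) = B at *
  generalize v j = x at *
  have e1 : (1 + c) * ((1 + x) * A) = ((1 + c) * A) * (1 + x) := by ring
  have e2 : (1 - c) * ((1 - x) * B) = ((1 - c) * B) * (1 - x) := by ring
  rw [e1, e2]
  generalize (1 + c) * A = P at *
  generalize (1 - c) * B = Q at *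
  have hPQ : P + Q ≠ 0 := by positivity
  have hd : P * (1 + x) + Q * (1 - x) ≠ 0 := by
    have := mul_pos h1 (by linarith [hvj.1] : 0 < 1 + x)
    have := mul_pos h2 (by linarith [hvj.2] : 0 < 1 - x)
    linarith
  have hd2 : 1 + (P - Q) / (P + Q) * x ≠ 0 := by
    have : 1 + (P - Q) / (P + Q) * x = (P * (1 + x) + Q * (1 - x)) / (P + Q) := by
      field_simp; ring
    rw [this]
    exact div_ne_zero hd hPQ
  rw [div_eq_div_iff hd hd2]
  field_simp
  ring

lemma mobF_fin_zero (c : ℝ) (v : Fin 0 → ℝ) : mobF c v = c := by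
  simp only [mobF, Finset.univ_eq_empty, Finset.prod_empty, mul_one]
  ring

end MobF

section Law

/-- The law of the Moebius sum of a first variable and `m` i.i.d. variables. -/
noncomputable def mobLaw (m : ℕ) (ν₀ ω : Measure ℝ) : Measure ℝ :=
  (ν₀.prod (Measure.pi fun _ : Fin m => ω)).map (fun p => mobF p.1 p.2)

variable {ν₀ ω : Measure ℝ}

lemma mobLaw_zero [IsProbabilityMeasure ν₀] [IsProbabilityMeasure ω] : mobLaw 0 ν₀ ω = ν₀ := by
  have : (fun p : ℝ × (Fin 0 → ℝ) => mobF p.1 p.2) = Prod.fst := by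
    funext p; exact mobF_fin_zero _ _
  rw [mobLaw, this, Measure.map_fst_prod]
  simp

lemma mobLaw_succ (h₀ : Nish ν₀) (hω : Nish ω) (m : ℕ) :
    mobLaw (m + 1) ν₀ ω = mobTwo (mobLaw m ν₀ ω) ω := by
  have := h₀.prob
  have := hω.prob
  let π' := Measure.pi fun _ : Fin m => ω
  let π₁ := Measure.pi fun _ : Fin (m + 1) => ω
  -- the map which glues
  let e₁ : ℝ × (ℝ × (Fin m → ℝ)) → ℝ × (Fin (m + 1) → ℝ) :=
    fun p => (p.1, (MeasurableEquiv.piFinSuccAbove (fun _ => ℝ) 0).symm p.2)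
  have he₁ : MeasurePreserving e₁ (ν₀.prod (ω.prod π')) (ν₀.prod π₁) :=
    (MeasurePreserving.id ν₀).prod
      (measurePreserving_piFinSuccAbove (fun _ : Fin (m + 1) => ω) 0).symm
  let e₂ : ℝ × ((Fin m → ℝ) × ℝ) → ℝ × (ℝ × (Fin m → ℝ)) := fun p => (p.1, p.2.swap)
  have he₂ : MeasurePreserving e₂ (ν₀.prod (π'.prod ω)) (ν₀.prod (ω.prod π')) :=
    (MeasurePreserving.id ν₀).prod Measure.measurePreserving_swap
  have he₃ := measurePreserving_prodAssoc ν₀ π' ω
  have hmp := (he₁.comp he₂).comp he₃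
  have hmF : Measurable (fun p : ℝ × (Fin (m + 1) → ℝ) => mobF p.1 p.2) := measurable_mobF
  have hmF' : Measurable (fun p : ℝ × (Fin m → ℝ) => mobF p.1 p.2) := measurable_mobF
  have hmm := measurable_mob
  rw [mobLaw, ← hmp.map_eq, Measure.map_map hmF hmp.measurable, mobTwo, mobLaw,
    ← Measure.map_id (μ := ω), Measure.map_prod_map _ _ hmF' measurable_id, Measure.map_map hmm
    (hmF'.prodMap measurable_id), Measure.map_id]
  -- the two functions agree almost everywhere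
  refine Measure.map_congr ?_
  have a1 : ∀ᵐ p ∂((ν₀.prod π').prod ω), |p.2| < 1 := Measure.quasiMeasurePreserving_snd.ae hω.lt
  have a2 : ∀ᵐ p ∂((ν₀.prod π').prod ω), |p.1.1| < 1 :=
    (Measure.quasiMeasurePreserving_fst.comp Measure.quasiMeasurePreserving_fst).ae h₀.lt
  have a3 : ∀ᵐ p ∂((ν₀.prod π').prod ω), ∀ i, |p.1.2 i| < 1 := by
    have b : ∀ᵐ v ∂π', ∀ i, |v i| < 1 := by
      rw [ae_all_iff]
      intro i
      exact (Measure.quasiMeasurePreserving_eval (fun _ : Fin m => ω) i).ae hω.lt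
    exact (Measure.quasiMeasurePreserving_snd.comp Measure.quasiMeasurePreserving_fst).ae b
  filter_upwards [a1, a2, a3] with p p1 p2 p3
  obtain ⟨⟨c, v⟩, x⟩ := p
  simp only at p1 p2 p3
  simp only [Function.comp, e₁, e₂]
  change mobF c ((MeasurableEquiv.piFinSuccAbove (fun _ => ℝ) 0).symm (x, v)) = mob (mobF c v) x
  have hw : (MeasurableEquiv.piFinSuccAbove (fun _ : Fin (m + 1) => ℝ) 0).symm (x, v) =
      Fin.insertNth 0 x v := rfl
  rw [hw]
  have hall : ∀ i, |(Fin.insertNth 0 x v : Fin (m + 1) → ℝ) i| < 1 := by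
    intro i
    refine Fin.cases ?_ (fun i => ?_) i
    · simpa using p1
    · simpa using p3 i
  rw [mobF_succAbove p2 hall 0]
  simp

/-- Nishimori symmetry of finite sums. -/
theorem Nish.mobLaw (h₀ : Nish ν₀) (hω : Nish ω) (m : ℕ) : Nish (mobLaw m ν₀ ω) := by
  have := h₀.prob
  have := hω.prob
  induction m with
  | zero => rw [mobLaw_zero]; exact h₀
  | succ m ih => rw [mobLaw_succ h₀ hω]; exact ih.nish_mobTwo hω

/-- Iterating the second moment inequalities. -/
theorem Nish.mom2_mobLaw_ge (h₀ : Nish ν₀) (hω : Nish ω) (m : ℕ) : mom2 ν₀ ≤ mom2 (Crest.Agent.Lib.IT.mobLaw m ν₀ ω) := by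
  have := h₀.prob
  have := hω.prob
  induction m with
  | zero => rw [mobLaw_zero]
  | succ m ih =>
    rw [mobLaw_succ h₀ hω]
    exact ih.trans ((h₀.mobLaw hω m).mom2_ge_left hω)

theorem Nish.mom2_mobLaw_ge_prod (h₀ : Nish ν₀) (hω : Nish ω) (m : ℕ) :
    (1 - mom2 ν₀) * (1 - mom2 ω) ^ m ≤ 1 - mom2 (Crest.Agent.Lib.IT.mobLaw m ν₀ ω) := by
  have := h₀.prob
  have := hω.prob
  induction m with
  | zero => rw [mobLaw_zero]; simp
  | succ m ih =>
    rw [mobLaw_succ h₀ hω]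
    refine le_trans ?_ ((h₀.mobLaw hω m).mom2_ge_prod hω)
    rw [pow_succ, ← mul_assoc]
    exact mul_le_mul_of_nonneg_right ih (by linarith [hω.mom2_le_one])

theorem Nish.mom2_mobLaw_le_prod (h₀ : Nish ν₀) (hω : Nish ω) (hy : 0 ≤ 1 - 2 * mom2 ω) (m : ℕ) :
    1 - 2 * mom2 (Crest.Agent.Lib.IT.mobLaw m ν₀ ω) ≤ (1 - 2 * mom2 ν₀) * (1 - 2 * mom2 ω) ^ m := by
  have := h₀.prob
  have := hω.prob
  induction m with
  | zero => rw [mobLaw_zero]; simp
  | succ m ih =>
    rw [mobLaw_succ h₀ hω]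
    refine ((h₀.mobLaw hω m).mom2_le_prod hω).trans ?_
    rw [pow_succ, ← mul_assoc]
    exact mul_le_mul_of_nonneg_right ih hy

end Law

end Crest.Agent.Lib.IT
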