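/-
Planted recursion: self-similarity of the canonical law, and the laws of the messages.
-/
import Crest.Agent.Lib.IT.Nish3

set_option autoImplicit false

namespace Crest.Agent.Lib.IT

open MeasureTheory ProbabilityTheory
open scoped ENNReal NNReal

variable {k : ℕ} {θ τ : ℝ}

section Split

/-- Gluing the root data and the subtrees. -/
def joinD (p : XX × (Fin k → OmCan k)) : OmCan k
  | [] => p.1
  | i :: l => p.2 i l

lemma measurable_joinD : Measurable (joinD (k := k)) := by
  refine measurable_pi_iff.2 fun l => ?_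
  cases l with
  | nil => exact measurable_fst
  | cons i l => exact (measurable_pi_apply l).comp ((measurable_pi_apply i).comp measurable_snd)

lemma measurable_shiftD (i : Fin k) : Measurable (shiftD (k := k) i) :=
  measurable_pi_iff.2 fun l => measurable_pi_apply (i :: l)

lemma measurable_splitD : Measurable (fun d : OmCan k => (d [], fun i : Fin k => shiftD i d)) :=
  (measurable_pi_apply []).prodMk (measurable_pi_iff.2 fun i => measurable_shiftD i)

lemma prod_list_split {M : Type*} [CommMonoid M] (f : List (Fin k) → M) (s : Finset (List (Fin k))) :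
    ∏ l ∈ s, f l = (if [] ∈ s then f [] else 1) *
      ∏ i : Fin k, ∏ l ∈ s.preimage (List.cons i) (List.cons_injective.injOn), f (i :: l) := by
  classical
  rw [← Finset.prod_fiberwise s List.head? f, Fintype.prod_option]
  congr 1
  · split_ifs with h
    · have : s.filter (fun l => l.head? = none) = {[]} := by
        ext l
        cases l with
        | nil => simp [h]
        | cons a l => simp
      rw [this, Finset.prod_singleton]
    · refine Finset.prod_eq_one ?_
      intro l hl
      cases l with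
      | nil => exact absurd (Finset.mem_filter.1 hl).1 h
      | cons a l => simp at hl
  · refine Finset.prod_congr rfl fun i _ => ?_
    symm
    refine Finset.prod_bij (fun l _ => i :: l) ?_ ?_ ?_ ?_
    · intro l hl
      simp only [Finset.mem_preimage] at hl
      simp [hl]
    · intro a _ b _ hab
      exact (List.cons.inj hab).2
    · intro l hl
      simp only [Finset.mem_filter] at hl
      cases l with
      | nil => simp at hl
      | cons a l =>
        have h2 : a = i := by simpa using hl.2
        subst h2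
        exact ⟨l, by simpa using hl.1, rfl⟩
    · intro a _
      rfl

variable (h0 : 0 ≤ θ) (h1 : θ < 1)
include h0 h1

lemma rhoX_isProb : IsProbabilityMeasure (rhoX θ τ) := by
  have := bitLaw_isProb h0 h1
  unfold rhoX
  infer_instance

lemma Pcan_isProb : IsProbabilityMeasure (Pcan k θ τ) := by
  have := rhoX_isProb (τ := τ) h0 h1
  unfold Pcan
  infer_instance

theorem map_joinD :
    ((rhoX θ τ).prod (Measure.pi fun _ : Fin k => Pcan k θ τ)).map joinD = Pcan k θ τ := by
  classical
  have := rhoX_isProb (τ := τ) h0 h1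
  have := Pcan_isProb (k := k) (τ := τ) h0 h1
  refine Measure.eq_infinitePi (fun _ => rhoX θ τ) ?_
  intro s t ht
  have hset : MeasurableSet (Set.pi (s : Set (List (Fin k))) t) :=
    MeasurableSet.pi s.countable_toSet (fun i _ => ht i)
  rw [Measure.map_apply measurable_joinD hset]
  let A : Set XX := if [] ∈ s then t [] else Set.univ
  let B : Fin k → Set (OmCan k) := fun i =>
    Set.pi (s.preimage (List.cons i) (List.cons_injective.injOn) : Set (List (Fin k)))
      (fun l => t (i :: l))
  have hpre : joinD ⁻¹' Set.pi (s : Set (List (Fin k))) t = A ×ˢ Set.pi Set.univ B := by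
    ext ⟨x, ds⟩
    simp only [Set.mem_preimage, Set.mem_pi, Finset.mem_coe, Set.mem_prod, Set.mem_univ, true_imp_iff,
      A, B, Finset.mem_preimage]
    constructor
    · intro h
      constructor
      · split_ifs with hs
        · exact h [] hs
        · trivial
      · intro i l hl
        exact h (i :: l) hl
    · rintro ⟨h1', h2'⟩ l hl
      cases l with
      | nil =>
        rw [if_pos hl] at h1'
        exact h1'
      | cons i l => exact h2' i l hl
  rw [hpre, Measure.prod_prod, Measure.pi_pi]
  have hB : ∀ i, Pcan k θ τ (B i) =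
      ∏ l ∈ s.preimage (List.cons i) (List.cons_injective.injOn), rhoX θ τ (t (i :: l)) := by
    intro i
    exact Measure.infinitePi_pi (fun _ => rhoX θ τ) (fun l _ => ht _)
  simp only [hB]
  rw [prod_list_split (fun l => rhoX θ τ (t l)) s]
  congr 1
  simp only [A]
  split_ifs with hs
  · rfl
  · simp

theorem Pcan_map_split' :
    (Pcan k θ τ).map (fun d => (d [], fun i : Fin k => shiftD i d)) =
      (rhoX θ τ).prod (Measure.pi (fun _ : Fin k => Pcan k θ τ)) := by
  conv_lhs => rw [← map_joinD (k := k) (τ := τ) h0 h1]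
  rw [Measure.map_map measurable_splitD measurable_joinD]
  have : ((fun d : OmCan k => (d [], fun i : Fin k => shiftD i d)) ∘ joinD) = id := by
    funext p
    rfl
  rw [this, Measure.map_id]

end Split


section Msg

/-- The message seen from the parent: `sg(bit) θ msg`. -/
noncomputable def uu (θ : ℝ) (N : ℕ) (d : OmCan k) : ℝ := sg (d []).1 * θ * msg θ N d

lemma msg_succ_eq (N : ℕ) (d : OmCan k) :
    msg θ (N + 1) d = mobF (Real.tanh (d []).2) (fun i => uu θ N (shiftD i d)) := rfl

theorem measurable_msg' (θ : ℝ) (N : ℕ) : Measurable (msg (k := k) θ N) := by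
  induction N with
  | zero => exact measurable_tanh.comp (measurable_snd.comp (measurable_pi_apply []))
  | succ N ih =>
    have hu : Measurable (uu (k := k) θ N) :=
      ((measurable_sg.comp (measurable_fst.comp (measurable_pi_apply []))).mul_const θ).mul ih
    have h : Measurable fun d : OmCan k =>
        ((Real.tanh (d []).2, fun i : Fin k => uu θ N (shiftD i d)) : ℝ × (Fin k → ℝ)) :=
      (measurable_tanh.comp (measurable_snd.comp (measurable_pi_apply []))).prodMk
        (measurable_pi_iff.2 fun i => hu.comp (measurable_shiftD i))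
    exact measurable_mobF.comp h

lemma measurable_uu (θ : ℝ) (N : ℕ) : Measurable (uu (k := k) θ N) :=
  ((measurable_sg.comp (measurable_fst.comp (measurable_pi_apply []))).mul_const θ).mul
    (measurable_msg' θ N)

/-- The message as a function of the root field and the subtrees. -/
noncomputable def msgF (θ : ℝ) : ℕ → ℝ × (Fin k → OmCan k) → ℝ
  | 0, p => Real.tanh p.1
  | N + 1, p => mobF (Real.tanh p.1) (fun i => uu θ N (p.2 i))

lemma measurable_msgF (θ : ℝ) (N : ℕ) : Measurable (msgF (k := k) θ N) := by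
  cases N with
  | zero => exact measurable_tanh.comp measurable_fst
  | succ N =>
    change Measurable fun p : ℝ × (Fin k → OmCan k) => mobF (Real.tanh p.1) (fun i => uu θ N (p.2 i))
    have h : Measurable fun p : ℝ × (Fin k → OmCan k) =>
        ((Real.tanh p.1, fun i => uu θ N (p.2 i)) : ℝ × (Fin k → ℝ)) :=
      (measurable_tanh.comp measurable_fst).prodMk
        (measurable_pi_iff.2 fun i => (measurable_uu θ N).comp
          ((measurable_pi_apply i).comp measurable_snd))
    exact (measurable_mobF (ι := Fin k)).comp h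

lemma msg_eq_msgF (N : ℕ) (d : OmCan k) :
    msg θ N d = msgF θ N ((d []).2, fun i => shiftD i d) := by
  cases N <;> rfl

section
variable (h0 : 0 ≤ θ) (h1 : θ < 1)
include h0 h1

theorem abs_msg_lt' (N : ℕ) (d : OmCan k) : |msg θ N d| < 1 := by
  induction N generalizing d with
  | zero => exact Real.abs_tanh_lt_one _
  | succ N ih =>
    refine mobF_abs_lt (Real.abs_tanh_lt_one _) fun i => ?_
    have := ih (shiftD i d)
    change |sg (shiftD i d []).1 * θ * msg θ N (shiftD i d)| < 1
    rw [mul_assoc, abs_sg_mul, abs_mul, abs_of_nonneg h0]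
    calc θ * |msg θ N (shiftD i d)| ≤ 1 * |msg θ N (shiftD i d)| := by gcongr
      _ < 1 := by rw [one_mul]; exact this

theorem abs_uu_le (N : ℕ) (d : OmCan k) : |uu θ N d| ≤ θ := by
  have := abs_msg_lt' (k := k) h0 h1 N d
  rw [uu, mul_assoc, abs_sg_mul, abs_mul, abs_of_nonneg h0]
  calc θ * |msg θ N d| ≤ θ * 1 := by gcongr
    _ = θ := mul_one _

local notation "γ₀" => gaussianReal τ τ.toNNReal
local notation "β₀" => bitLaw θ
local notation "P₀" => Pcan k θ τ
local notation "π₀" => Measure.pi (fun _ : Fin k => Pcan k θ τ)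

theorem map_bit_msg_aux (N : ℕ) :
    (P₀).map (fun d => ((d []).1, msg θ N d)) = (β₀).prod (((γ₀).prod π₀).map (msgF θ N)) := by
  have := bitLaw_isProb h0 h1
  have := Pcan_isProb (k := k) (τ := τ) h0 h1
  have hF := measurable_msgF (k := k) θ N
  have hS := Pcan_map_split' (k := k) (τ := τ) h0 h1
  rw [rhoX] at hS
  have ha := (measurePreserving_prodAssoc (β₀) (γ₀) (π₀)).map_eq
  have hG : Measurable (Prod.map (id : Bool → Bool) (msgF (k := k) θ N)) := measurable_id.prodMap hF
  have e : (fun d : OmCan k => ((d []).1, msg θ N d)) =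
      ((Prod.map id (msgF θ N)) ∘ MeasurableEquiv.prodAssoc) ∘
        (fun d : OmCan k => (d [], fun i : Fin k => shiftD i d)) := by
    funext d
    simp only [Function.comp, MeasurableEquiv.prodAssoc, Prod.map]
    exact congrArg _ (msg_eq_msgF N d)
  rw [e, ← Measure.map_map (hG.comp (MeasurableEquiv.measurable _)) measurable_splitD, hS,
    ← Measure.map_map hG (MeasurableEquiv.measurable _), ha, ← Measure.map_prod_map _ _ measurable_id hF,
    Measure.map_id]

theorem map_msg_eq (N : ℕ) : (P₀).map (msg θ N) = ((γ₀).prod π₀).map (msgF θ N) := by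
  have := bitLaw_isProb h0 h1
  have := Pcan_isProb (k := k) (τ := τ) h0 h1
  have hm : Measurable (fun d : OmCan k => ((d []).1, msg θ N d)) :=
    (measurable_fst.comp (measurable_pi_apply [])).prodMk (measurable_msg' θ N)
  have e : msg (k := k) θ N = Prod.snd ∘ (fun d : OmCan k => ((d []).1, msg θ N d)) := rfl
  rw [e, ← Measure.map_map measurable_snd hm, map_bit_msg_aux h0 h1, Measure.map_snd_prod,
    measure_univ, one_smul]

theorem map_bit_msg (N : ℕ) :
    (P₀).map (fun d => ((d []).1, msg θ N d)) = (β₀).prod ((P₀).map (msg θ N)) := by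
  rw [map_bit_msg_aux h0 h1, map_msg_eq h0 h1]

theorem map_uu (N : ℕ) : (P₀).map (uu θ N) = chanLaw θ ((P₀).map (msg θ N)) := by
  have hm : Measurable (fun d : OmCan k => ((d []).1, msg θ N d)) :=
    (measurable_fst.comp (measurable_pi_apply [])).prodMk (measurable_msg' θ N)
  rw [chanLaw, ← map_bit_msg h0 h1, Measure.map_map (measurable_chan θ) hm]
  rfl

theorem map_msg_zero : (P₀).map (msg θ 0) = (γ₀).map Real.tanh := by
  have := Pcan_isProb (k := k) (τ := τ) h0 h1
  rw [map_msg_eq h0 h1]
  have : msgF (k := k) θ 0 = Real.tanh ∘ Prod.fst := rfl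
  rw [this, ← Measure.map_map measurable_tanh measurable_fst, Measure.map_fst_prod]
  simp

theorem map_msg_succ (N : ℕ) :
    (P₀).map (msg θ (N + 1)) = mobLaw k ((γ₀).map Real.tanh) ((P₀).map (uu θ N)) := by
  have := Pcan_isProb (k := k) (τ := τ) h0 h1
  have hu := measurable_uu (k := k) θ N
  have : IsProbabilityMeasure ((P₀).map (uu θ N)) := Measure.isProbabilityMeasure_map hu.aemeasurable
  have hmp : Measure.pi (fun _ : Fin k => (P₀).map (uu θ N)) =
      (π₀).map (fun ds i => uu θ N (ds i)) :=
    (Measure.pi_map_pi (fun _ => hu.aemeasurable)).symm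
  have hW : Measurable (fun (ds : Fin k → OmCan k) (i : Fin k) => uu θ N (ds i)) :=
    measurable_pi_iff.2 fun i => hu.comp (measurable_pi_apply i)
  rw [map_msg_eq h0 h1, mobLaw, hmp, Measure.map_prod_map _ _ measurable_tanh hW,
    Measure.map_map measurable_mobF (measurable_tanh.prodMap hW)]
  rfl

theorem nish_msg (hτ : 0 < τ) (N : ℕ) : Nish ((P₀).map (msg θ N)) := by
  induction N with
  | zero => rw [map_msg_zero h0 h1]; exact nish_base hτ
  | succ N ih =>
    rw [map_msg_succ h0 h1]
    refine (nish_base hτ).mobLaw ?_ k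
    rw [map_uu h0 h1]
    exact ih.chan h0 h1

theorem nish_uu (hτ : 0 < τ) (N : ℕ) : Nish ((P₀).map (uu θ N)) := by
  rw [map_uu h0 h1]
  exact (nish_msg h0 h1 hτ N).chan h0 h1

omit h0 h1 in
lemma mom2_msg (N : ℕ) : mom2 ((P₀).map (msg θ N)) = xN k θ τ N := by
  rw [mom2, integral_map (measurable_msg' θ N).aemeasurable (by fun_prop), xN]

lemma mom2_uu (hτ : 0 < τ) (N : ℕ) : mom2 ((P₀).map (uu θ N)) = θ ^ 2 * xN k θ τ N := by
  rw [map_uu h0 h1, (nish_msg h0 h1 hτ N).mom2_chan h0 h1, mom2_msg]

omit h0 h1 in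
lemma mom2_base : mom2 ((γ₀).map Real.tanh) = ttl τ := by
  rw [mom2, integral_map measurable_tanh.aemeasurable (by fun_prop), ttl]

omit h0 h1 in
theorem xN_nonneg (N : ℕ) : 0 ≤ xN k θ τ N := integral_nonneg fun _ => sq_nonneg _

theorem xN_le_one (hτ : 0 < τ) (N : ℕ) : xN k θ τ N ≤ 1 := by
  rw [← mom2_msg]
  exact (nish_msg h0 h1 hτ N).mom2_le_one

omit h0 h1 in
theorem ttl_le_one (hτ : 0 < τ) : ttl τ ≤ 1 := by
  rw [← mom2_base]
  exact (nish_base hτ).mom2_le_one

/-- (R1) -/
theorem ttl_le_xN' (hτ : 0 < τ) (N : ℕ) : ttl τ ≤ xN k θ τ N := by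
  rw [← mom2_msg, ← mom2_base]
  cases N with
  | zero => rw [map_msg_zero h0 h1]
  | succ N =>
    rw [map_msg_succ h0 h1]
    exact (nish_base hτ).mom2_mobLaw_ge (nish_uu h0 h1 hτ N) k

/-- (R2) -/
theorem xN_succ_le (hτ : 0 < τ) (N : ℕ) :
    (1 - ttl τ) * (1 - θ ^ 2 * xN k θ τ N) ^ k ≤ 1 - xN k θ τ (N + 1) := by
  rw [← mom2_msg (N := N + 1), ← mom2_base, ← mom2_uu h0 h1 hτ, map_msg_succ h0 h1]
  exact (nish_base hτ).mom2_mobLaw_ge_prod (nish_uu h0 h1 hτ N) k

/-- (R3) -/
theorem xN_succ_ge (hτ : 0 < τ) (N : ℕ) (hy : 0 ≤ 1 - 2 * (θ ^ 2 * xN k θ τ N)) :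
    1 - 2 * xN k θ τ (N + 1) ≤ (1 - 2 * ttl τ) * (1 - 2 * (θ ^ 2 * xN k θ τ N)) ^ k := by
  rw [← mom2_msg (N := N + 1), ← mom2_base, ← mom2_uu h0 h1 hτ] at *
  rw [map_msg_succ h0 h1]
  exact (nish_base hτ).mom2_mobLaw_le_prod (nish_uu h0 h1 hτ N) hy k

end

end Msg

end Crest.Agent.Lib.IT
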