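/-
`tanh` inequalities and Gaussian moments, for the planted recursion.
-/
import Crest.Agent.Lib.IT.Nish2

set_option autoImplicit false

namespace Crest.Agent.Lib.IT

open MeasureTheory ProbabilityTheory
open scoped ENNReal NNReal

section Tanh

lemma hasDerivAt_tanh (x : ℝ) : HasDerivAt Real.tanh (1 - Real.tanh x ^ 2) x := by
  have h := (Real.hasDerivAt_sinh x).div (Real.hasDerivAt_cosh x) (Real.cosh_pos x).ne'
  have e : Real.tanh = Real.sinh / Real.cosh := funext Real.tanh_eq_sinh_div_cosh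
  have hc := (Real.cosh_pos x).ne'
  have hv : (Real.cosh x * Real.cosh x - Real.sinh x * Real.sinh x) / Real.cosh x ^ 2 =
      1 - Real.tanh x ^ 2 := by
    rw [Real.tanh_eq_sinh_div_cosh]
    field_simp
  rw [← hv, e]
  exact h

lemma monotone_tanh : Monotone Real.tanh := by
  refine monotone_of_deriv_nonneg (fun x => (hasDerivAt_tanh x).differentiableAt) fun x => ?_
  rw [(hasDerivAt_tanh x).deriv]
  have := Real.tanh_sq_lt_one x
  linarith

lemma tanh_nonneg {x : ℝ} (hx : 0 ≤ x) : 0 ≤ Real.tanh x := by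
  simpa using monotone_tanh hx

lemma tanh_le_self {x : ℝ} (hx : 0 ≤ x) : Real.tanh x ≤ x := by
  have hd : ∀ y, HasDerivAt (fun y => y - Real.tanh y) (1 - (1 - Real.tanh y ^ 2)) y :=
    fun y => (hasDerivAt_id y).sub (hasDerivAt_tanh y)
  have : Monotone (fun y => y - Real.tanh y) := by
    refine monotone_of_deriv_nonneg (fun y => (hd y).differentiableAt) fun y => ?_
    rw [(hd y).deriv]
    nlinarith [sq_nonneg (Real.tanh y)]
  have := this hx
  simp only [Real.tanh_zero, sub_zero] at this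
  linarith

lemma sq_tanh_le (x : ℝ) : Real.tanh x ^ 2 ≤ x ^ 2 := by
  rcases le_total 0 x with h | h
  · have h1 := tanh_nonneg h
    have h2 := tanh_le_self h
    nlinarith
  · have h' : 0 ≤ -x := by linarith
    have h1 := tanh_nonneg h'
    have h2 := tanh_le_self h'
    rw [Real.tanh_neg] at h1 h2
    nlinarith

lemma tanh_ge_cubic {x : ℝ} (hx : 0 ≤ x) : x - x ^ 3 / 3 ≤ Real.tanh x := by
  have hd : ∀ y : ℝ, HasDerivAt (fun y => Real.tanh y - y + y ^ 3 / 3)
      ((1 - Real.tanh y ^ 2) - 1 + (3 * y ^ 2) / 3) y := by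
    intro y
    have h3 : HasDerivAt (fun y : ℝ => y ^ 3) (3 * y ^ 2) y := by
      simpa using hasDerivAt_pow 3 y
    exact ((hasDerivAt_tanh y).sub (hasDerivAt_id y)).add (h3.div_const 3)
  have : Monotone (fun y => Real.tanh y - y + y ^ 3 / 3) := by
    refine monotone_of_deriv_nonneg (fun y => (hd y).differentiableAt) fun y => ?_
    rw [(hd y).deriv]
    have := sq_tanh_le y
    linarith
  have := this hx
  simp only [Real.tanh_zero] at this
  norm_num at this
  linarith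

lemma sq_tanh_ge (x : ℝ) : x ^ 2 - (2 / 3) * x ^ 4 ≤ Real.tanh x ^ 2 := by
  wlog hx : 0 ≤ x generalizing x
  · have := this (-x) (by linarith)
    rw [Real.tanh_neg] at this
    have e1 : (-x) ^ 2 = x ^ 2 := by ring
    have e2 : (-x) ^ 4 = x ^ 4 := by ring
    have e3 : (-Real.tanh x) ^ 2 = Real.tanh x ^ 2 := by ring
    rwa [e1, e2, e3] at this
  by_cases h : 3 / 2 ≤ x ^ 2
  · have : x ^ 2 - (2 / 3) * x ^ 4 ≤ 0 := by nlinarith [sq_nonneg x]
    exact this.trans (sq_nonneg _)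
  · push Not at h
    have h1 := tanh_ge_cubic hx
    have h2 : 0 ≤ x - x ^ 3 / 3 := by
      have : x - x ^ 3 / 3 = x * (1 - x ^ 2 / 3) := by ring
      rw [this]
      exact mul_nonneg hx (by linarith)
    have h3 : (x - x ^ 3 / 3) ^ 2 ≤ Real.tanh x ^ 2 := by gcongr
    have h4 : x ^ 2 - (2 / 3) * x ^ 4 ≤ (x - x ^ 3 / 3) ^ 2 := by
      have : (x - x ^ 3 / 3) ^ 2 = x ^ 2 - (2 / 3) * x ^ 4 + (x ^ 3 / 3) ^ 2 := by ring
      rw [this]
      nlinarith [sq_nonneg (x ^ 3 / 3)]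
    exact h4.trans h3

end Tanh

section Moments

variable (μ : ℝ) (v : ℝ≥0)

lemma gaussian_integrable_pow (n : ℕ) : Integrable (fun x : ℝ => x ^ n) (gaussianReal μ v) := by
  have h : MemLp (id : ℝ → ℝ) n (gaussianReal μ v) := by
    simpa using memLp_id_gaussianReal (μ := μ) (v := v) (n : ℝ≥0)
  have := h.integrable_norm_pow'
  simp only [id, Real.norm_eq_abs] at this
  refine this.mono' (by fun_prop) ?_
  filter_upwards with x
  simp [Real.norm_eq_abs]

lemma gaussian_moment_two : ∫ x, x ^ 2 ∂(gaussianReal μ v) = μ ^ 2 + v := by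
  have h : MemLp (id : ℝ → ℝ) 2 (gaussianReal μ v) := by
    simpa using memLp_id_gaussianReal (μ := μ) (v := v) 2
  have h2 := variance_eq_sub h
  rw [variance_id_gaussianReal] at h2
  simp only [id, integral_id_gaussianReal] at h2
  have h3 : ∫ x, (id ^ 2 : ℝ → ℝ) x ∂(gaussianReal μ v) = ∫ x, x ^ 2 ∂(gaussianReal μ v) := rfl
  rw [h3] at h2
  linarith

lemma gaussian_moment_four :
    ∫ x, x ^ 4 ∂(gaussianReal μ v) = μ ^ 4 + 6 * μ ^ 2 * v + 3 * (v : ℝ) ^ 2 := by
  have h0 : (0 : ℝ) ∈ interior (integrableExpSet (id : ℝ → ℝ) (gaussianReal μ v)) := by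
    rw [integrableExpSet_id_gaussianReal]; simp
  have h := iteratedDeriv_mgf_zero h0 4
  have h3 : ∫ x, (id ^ 4 : ℝ → ℝ) x ∂(gaussianReal μ v) = ∫ x, x ^ 4 ∂(gaussianReal μ v) := rfl
  rw [h3] at h
  rw [← h, mgf_id_gaussianReal]
  set f : ℝ → ℝ := fun t => Real.exp (μ * t + v * t ^ 2 / 2) with hf
  have hf' : ∀ t, HasDerivAt f ((μ + v * t) * f t) t := by
    intro t
    have h2 : HasDerivAt (fun t : ℝ => t ^ 2) (2 * t) t := by simpa using hasDerivAt_pow 2 t
    have h1 : HasDerivAt (fun t : ℝ => μ * t + v * t ^ 2 / 2) (μ * 1 + v * (2 * t) / 2) t :=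
      ((hasDerivAt_id t).const_mul μ).add ((h2.const_mul (v : ℝ)).div_const 2)
    refine HasDerivAt.congr_deriv h1.exp ?_
    simp only [hf]
    ring
  have ha : ∀ t : ℝ, HasDerivAt (fun t : ℝ => μ + v * t) (v : ℝ) t := by
    intro t
    simpa using ((hasDerivAt_id t).const_mul (v : ℝ)).const_add μ
  have d1 : deriv f = fun t => (μ + v * t) * f t := funext fun t => (hf' t).deriv
  have d2 : deriv (fun t => (μ + v * t) * f t) = fun t => (v + (μ + v * t) ^ 2) * f t := by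
    funext t
    exact (((ha t).mul (hf' t)).congr_deriv (by ring)).deriv
  have d3 : deriv (fun t => (v + (μ + v * t) ^ 2) * f t) =
      fun t => (3 * v * (μ + v * t) + (μ + v * t) ^ 3) * f t := by
    funext t
    have h1 : HasDerivAt (fun t : ℝ => (v : ℝ) + (μ + v * t) ^ 2) (2 * (μ + v * t) * v) t := by
      have := ((ha t).fun_pow 2).const_add (v : ℝ)
      exact this.congr_deriv (by norm_num)
    exact ((h1.mul (hf' t)).congr_deriv (by ring)).deriv
  have d4 : deriv (fun t => (3 * v * (μ + v * t) + (μ + v * t) ^ 3) * f t) =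
      fun t => (3 * (v : ℝ) ^ 2 + 6 * v * (μ + v * t) ^ 2 + (μ + v * t) ^ 4) * f t := by
    funext t
    have h1 : HasDerivAt (fun t : ℝ => 3 * (v : ℝ) * (μ + v * t) + (μ + v * t) ^ 3)
        (3 * v * v + 3 * (μ + v * t) ^ 2 * v) t := by
      have := ((ha t).const_mul (3 * (v : ℝ))).add ((ha t).fun_pow 3)
      exact this.congr_deriv (by norm_num)
    exact ((h1.mul (hf' t)).congr_deriv (by ring)).deriv
  have : iteratedDeriv 4 f = fun t => (3 * (v : ℝ) ^ 2 + 6 * v * (μ + v * t) ^ 2 + (μ + v * t) ^ 4) * f t := by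
    rw [iteratedDeriv_succ, iteratedDeriv_succ, iteratedDeriv_succ, iteratedDeriv_succ,
      iteratedDeriv_zero, d1, d2, d3, d4]
  rw [this]
  simp [hf]
  ring

end Moments

section Ttl

variable {τ : ℝ}

lemma tanh_sq_integrable (μ : ℝ) (v : ℝ≥0) : Integrable (fun z : ℝ => Real.tanh z ^ 2) (gaussianReal μ v) := by
  refine Integrable.of_bound (measurable_tanh.pow_const 2).aestronglyMeasurable 1 ?_
  filter_upwards with z
  rw [Real.norm_eq_abs, abs_of_nonneg (sq_nonneg _)]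
  exact (Real.tanh_sq_lt_one z).le

theorem ttl_le' (hτ : 0 < τ) : ttl τ ≤ τ + τ ^ 2 := by
  rw [ttl]
  have := gaussian_moment_two τ τ.toNNReal
  rw [Real.coe_toNNReal τ hτ.le] at this
  have h2 : ∫ z, Real.tanh z ^ 2 ∂(gaussianReal τ τ.toNNReal) ≤ ∫ z, z ^ 2 ∂(gaussianReal τ τ.toNNReal) :=
    integral_mono (tanh_sq_integrable _ _) (gaussian_integrable_pow _ _ 2) sq_tanh_le
  linarith

theorem ttl_ge_small' (hτ : 0 < τ) (hτ' : τ ≤ 1 / 5) : τ / 2 ≤ ttl τ := by
  rw [ttl]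
  have h2 := gaussian_moment_two τ τ.toNNReal
  have h4 := gaussian_moment_four τ τ.toNNReal
  rw [Real.coe_toNNReal τ hτ.le] at h2 h4
  have i2 := gaussian_integrable_pow τ τ.toNNReal 2
  have i4 := gaussian_integrable_pow τ τ.toNNReal 4
  have h5 : ∫ z, (z ^ 2 - (2 / 3) * z ^ 4) ∂(gaussianReal τ τ.toNNReal) ≤
      ∫ z, Real.tanh z ^ 2 ∂(gaussianReal τ τ.toNNReal) :=
    integral_mono (i2.sub (i4.const_mul _)) (tanh_sq_integrable _ _) sq_tanh_ge
  rw [integral_sub i2 (i4.const_mul _), integral_const_mul, h2, h4] at h5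
  refine le_trans ?_ h5
  have h6 : τ ^ 2 ≤ τ * (1 / 5) := by nlinarith
  have h7 : τ ^ 3 ≤ τ * (1 / 25) := by
    have : τ ^ 2 ≤ 1 / 25 := by nlinarith
    nlinarith
  have h8 : τ ^ 4 ≤ τ * (1 / 125) := by
    have : τ ^ 3 ≤ 1 / 125 := by nlinarith
    nlinarith
  nlinarith

theorem ttl_ge_large' {τ₁ : ℝ} (hτ₁ : 0 < τ₁) (hτ : τ₁ ≤ τ) :
    (1 / 2) * Real.tanh (τ₁ / 2) ^ 2 ≤ ttl τ := by
  have hτ0 : 0 < τ := hτ₁.trans_le hτ
  rw [ttl]
  set γ := gaussianReal τ τ.toNNReal with hγ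
  set ε := Real.tanh (τ₁ / 2) ^ 2 with hε
  have hm := mul_meas_ge_le_integral_of_nonneg (μ := γ) (f := fun z => Real.tanh z ^ 2)
    (Filter.Eventually.of_forall fun _ => sq_nonneg _) (tanh_sq_integrable _ _) ε
  have hsub : {z : ℝ | τ ≤ z} ⊆ {z | ε ≤ Real.tanh z ^ 2} := by
    intro z hz
    simp only [Set.mem_ofPred_eq] at hz ⊢
    have h1 : τ₁ / 2 ≤ z := by linarith
    have h2 := monotone_tanh h1
    have h3 := tanh_nonneg (by linarith : 0 ≤ τ₁ / 2)
    rw [hε]
    gcongr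
  -- the half line has mass at least `1/2`
  have hhalf : (1 / 2 : ℝ) ≤ γ.real {z : ℝ | τ ≤ z} := by
    have hsym : γ.map (fun x => 2 * τ - x) = γ := by
      rw [hγ, gaussianReal_map_const_sub]
      congr 1
      ring
    have e1 : γ {z : ℝ | z ≤ τ} = γ {z : ℝ | τ ≤ z} := by
      have hmf : Measurable (fun x : ℝ => 2 * τ - x) := by fun_prop
      have hms : MeasurableSet {z : ℝ | z ≤ τ} := measurableSet_Iic
      conv_lhs => rw [← hsym]
      rw [Measure.map_apply hmf hms]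
      congr 1
      ext z
      simp only [Set.mem_preimage, Set.mem_ofPred_eq]
      constructor <;> intro h <;> linarith
    have e2 : γ.real {z : ℝ | z ≤ τ} = γ.real {z : ℝ | τ ≤ z} := by
      simp only [measureReal_def, e1]
    have e3 : (1 : ℝ) ≤ γ.real {z : ℝ | z ≤ τ} + γ.real {z : ℝ | τ ≤ z} := by
      have : (Set.univ : Set ℝ) = {z : ℝ | z ≤ τ} ∪ {z : ℝ | τ ≤ z} := by
        ext z
        simp [le_total]
      have h5 := measureReal_union_le (μ := γ) {z : ℝ | z ≤ τ} {z : ℝ | τ ≤ z}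
      rw [← this] at h5
      simpa using h5
    linarith
  have hε0 : 0 ≤ ε := sq_nonneg _
  have hle : γ.real {z : ℝ | τ ≤ z} ≤ γ.real {z | ε ≤ Real.tanh z ^ 2} :=
    measureReal_mono hsub
  calc (1 / 2) * ε ≤ ε * γ.real {z : ℝ | ε ≤ Real.tanh z ^ 2} := by nlinarith
    _ ≤ _ := hm

end Ttl

end Crest.Agent.Lib.IT
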