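/-
Planted recursion, part A: self-similarity, Nishimori symmetry, second moments, killing.
-/
import Crest.Agent.Lib.IT.PlantedSplit
import Crest.Agent.Lib.IT.TanhGauss

set_option autoImplicit false

namespace Crest.Agent.Lib.IT

open MeasureTheory ProbabilityTheory
open scoped ENNReal NNReal

variable {k : ℕ} {θ τ : ℝ}

section Scalar

/-- Bernoulli with exponent `k/2`, in an elementary form. -/
lemma pow_ge_half_sq {y : ℝ} (hy : 0 ≤ y) {k : ℕ} (hk : 2 ≤ k) (hky : (k : ℝ) * y ≤ 1) :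
    (1 - (k : ℝ) * y / 2) ^ 2 ≤ (1 - y) ^ k := by
  induction k, hk using Nat.le_induction with
  | base =>
    apply le_of_eq
    norm_num
  | succ k hk ih =>
    have hkR : (2 : ℝ) ≤ k := by exact_mod_cast hk
    push_cast at hky ih ⊢
    have hk1 : (k : ℝ) * y ≤ 1 := by nlinarith
    have hy1 : y ≤ 1 := by nlinarith
    have ih' := ih hk1
    have h1y : 0 ≤ 1 - y := by linarith
    have h2 := mul_le_mul_of_nonneg_right ih' h1y
    rw [pow_succ (1 - y)]
    refine le_trans ?_ h2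
    set a := 1 - (k : ℝ) * y / 2 with ha
    have ha1 : 1 / 2 ≤ a := by rw [ha]; linarith
    have e : 1 - ((k : ℝ) + 1) * y / 2 = a - y / 2 := by rw [ha]; ring
    rw [e]
    -- `y (a (1-a) - y/4) ≥ 0`
    have e2 : a ^ 2 * (1 - y) - (a - y / 2) ^ 2 = y * (a * (1 - a) - y / 4) := by ring
    have e3 : a * (1 - a) - y / 4 = y * (a * (k : ℝ) / 2 - 1 / 4) := by
      rw [ha]; ring
    have e4 : 0 ≤ a * (k : ℝ) / 2 - 1 / 4 := by nlinarith
    have e5 : 0 ≤ y * (y * (a * (k : ℝ) / 2 - 1 / 4)) :=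
      mul_nonneg hy (mul_nonneg hy e4)
    rw [e3] at e2
    linarith

/-- A quadratic upper bound for `(1-u)^k`. -/
lemma pow_le_quad {u : ℝ} (hu : 0 ≤ u) (hu1 : u ≤ 1) (k : ℕ) :
    (1 - u) ^ k ≤ 1 - (k : ℝ) * u + ((k : ℝ) * u) ^ 2 / 2 := by
  induction k with
  | zero => simp
  | succ k ih =>
    have h1u : 0 ≤ 1 - u := by linarith
    rw [pow_succ]
    have h2 := mul_le_mul_of_nonneg_right ih h1u
    refine h2.trans ?_
    push_cast
    have : 0 ≤ u ^ 2 / 2 + (k : ℝ) ^ 2 * u ^ 3 / 2 := by positivity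
    nlinarith

end Scalar

section
variable (h0 : 0 ≤ θ) (h1 : θ < 1)
include h0 h1

theorem isProb_bitLaw : IsProbabilityMeasure (bitLaw θ) := bitLaw_isProb h0 h1
theorem isProb_rhoX : IsProbabilityMeasure (rhoX θ τ) := rhoX_isProb h0 h1
theorem isProb_Pcan : IsProbabilityMeasure (Pcan k θ τ) := Pcan_isProb h0 h1

/-- Self-similarity of the canonical law: root data and the subtrees are independent. -/
theorem Pcan_map_split :
    (Pcan k θ τ).map (fun d => (d [], fun i : Fin k => shiftD i d)) =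
      (rhoX θ τ).prod (Measure.pi (fun _ : Fin k => Pcan k θ τ)) := Pcan_map_split' h0 h1

omit h0 h1 in
theorem measurable_msg (θ : ℝ) (N : ℕ) : Measurable (msg (k := k) θ N) := measurable_msg' θ N

theorem abs_msg_lt (N : ℕ) (d : OmCan k) : |msg θ N d| < 1 := abs_msg_lt' h0 h1 N d

theorem abs_msg_le (N : ℕ) (d : OmCan k) : |msg θ N d| ≤ 1 := (abs_msg_lt h0 h1 N d).le

/-- Second moment lower bound, general. -/
theorem ttl_le_xN (hτ : 0 < τ) (N : ℕ) : ttl τ ≤ xN k θ τ N := ttl_le_xN' h0 h1 hτ N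

/-- Second moment upper bound (uses `k θ² ≤ 1`, `k ≥ 2`). -/
theorem xN_le (hk : 2 ≤ k) (hkθ : (k : ℝ) * θ ^ 2 ≤ 1) (hτ : 0 < τ) (N : ℕ) :
    xN k θ τ N ≤ 2 * Real.sqrt (ttl τ) := by
  have ht0 : 0 ≤ ttl τ := integral_nonneg fun _ => sq_nonneg _
  have ht1 : ttl τ ≤ 1 := ttl_le_one hτ
  have hs := Real.sq_sqrt ht0
  have hs0 := Real.sqrt_nonneg (ttl τ)
  have hs1 : Real.sqrt (ttl τ) ≤ 1 := by
    exact Real.sqrt_le_one.2 ht1
  induction N with
  | zero =>
    have : xN k θ τ 0 = ttl τ := by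
      rw [← mom2_msg, map_msg_zero h0 h1, mom2_base]
    rw [this]
    nlinarith
  | succ N ih =>
    set x := xN k θ τ N with hx
    set t := ttl τ with ht
    set b := Real.sqrt t with hb
    have hx0 : 0 ≤ x := xN_nonneg N
    have hx1 : x ≤ 1 := xN_le_one h0 h1 hτ N
    have hR := xN_succ_le (k := k) h0 h1 hτ N
    rw [← hx, ← ht] at hR
    set y := θ ^ 2 * x with hy
    have hy0 : 0 ≤ y := by positivity
    have hky : (k : ℝ) * y ≤ x := by
      rw [hy, ← mul_assoc]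
      nlinarith
    have hP := pow_ge_half_sq hy0 hk (hky.trans hx1)
    have h3 : (1 - x / 2) ^ 2 ≤ (1 - (k : ℝ) * y / 2) ^ 2 := by
      apply pow_le_pow_left₀ <;> linarith
    have h4 : (1 - t) * (1 - x / 2) ^ 2 ≤ (1 - t) * (1 - y) ^ k :=
      mul_le_mul_of_nonneg_left (h3.trans hP) (by linarith)
    have h5 : xN k θ τ (N + 1) ≤ t + x - x ^ 2 / 4 := by
      nlinarith [mul_nonneg ht0 (sq_nonneg (1 - x / 2)), mul_nonneg ht0 hx0]
    refine h5.trans ?_
    -- monotonicity of the quadratic map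
    have h6 : t + x - x ^ 2 / 4 ≤ t + 2 * b - (2 * b) ^ 2 / 4 := by
      nlinarith
    have h7 : t + 2 * b - (2 * b) ^ 2 / 4 = 2 * b := by
      rw [mul_pow, hs]; ring
    linarith

/-- Second moment lower bound at criticality: the recursion `x ↦ x - x² + t/2`. -/
theorem xN_step_ge (hk : 2 ≤ k) (hkθ : (k : ℝ) * θ ^ 2 = 1) (hτ : 0 < τ) (ht : ttl τ ≤ 1 / 2) (N : ℕ) :
    xN k θ τ N - xN k θ τ N ^ 2 + ttl τ / 2 ≤ xN k θ τ (N + 1) := by
  have ht0 : 0 ≤ ttl τ := integral_nonneg fun _ => sq_nonneg _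
  set x := xN k θ τ N with hx
  set t := ttl τ with ht'
  have hx0 : 0 ≤ x := xN_nonneg N
  have hx1 : x ≤ 1 := xN_le_one h0 h1 hτ N
  have hkR : (2 : ℝ) ≤ k := by exact_mod_cast hk
  have hk0 : (0 : ℝ) < k := by linarith
  have hθ : θ ^ 2 = 1 / (k : ℝ) := by
    field_simp
    linarith
  have hy : θ ^ 2 * x = x / k := by rw [hθ]; ring
  have hu : 2 * (θ ^ 2 * x) = 2 * x / k := by rw [hy]; ring
  have hu0 : 0 ≤ 2 * x / k := by positivity
  have hu1 : 2 * x / k ≤ 1 := by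
    rw [div_le_one hk0]; linarith
  have hR := xN_succ_ge (k := k) h0 h1 hτ N (by rw [← hx, hu]; linarith)
  rw [← hx, ← ht', hu] at hR
  have hQ := pow_le_quad hu0 hu1 k
  have e : (k : ℝ) * (2 * x / k) = 2 * x := by field_simp
  rw [e] at hQ
  have hQ' : (1 - 2 * t) * (1 - 2 * x / k) ^ k ≤ (1 - 2 * t) * (1 - 2 * x + (2 * x) ^ 2 / 2) :=
    mul_le_mul_of_nonneg_left hQ (by linarith)
  have hQ2 : 1 / 2 ≤ 1 - 2 * x + (2 * x) ^ 2 / 2 := by nlinarith [sq_nonneg (2 * x - 1)]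
  have : t * (1 / 2) ≤ t * (1 - 2 * x + (2 * x) ^ 2 / 2) := mul_le_mul_of_nonneg_left hQ2 ht0
  nlinarith

/-- Consequence at criticality: eventually `x_N` is of order at least `√τ̃`. -/
theorem xN_ge_critical (hk : 2 ≤ k) (hkθ : (k : ℝ) * θ ^ 2 = 1) (hτ : 0 < τ) (ht : ttl τ ≤ 1 / 16) :
    ∃ N₀, ∀ N, N₀ ≤ N → (1 / 2) * Real.sqrt (ttl τ / 2) ≤ xN k θ τ N := by
  have ht0 : 0 ≤ ttl τ := integral_nonneg fun _ => sq_nonneg _
  set t := ttl τ with ht'
  set a := (1 / 2) * Real.sqrt (t / 2) with ha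
  have ha2 : a ^ 2 = t / 8 := by
    rw [ha, mul_pow, Real.sq_sqrt (by positivity)]; ring
  have ha0 : 0 ≤ a := by rw [ha]; positivity
  have hnn : ∀ N, 0 ≤ xN k θ τ N := fun N => xN_nonneg N
  -- upper bound
  have hub : ∀ N, xN k θ τ N ≤ 1 / 2 := by
    intro N
    have h2 := xN_le (k := k) h0 h1 hk hkθ.le hτ N
    rw [← ht'] at h2
    have : Real.sqrt t ≤ 1 / 4 := by
      rw [Real.sqrt_le_left (by norm_num)]
      norm_num
      linarith
    linarith
  have ha12 : a ≤ 1 / 2 := by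
    nlinarith
  have hstep : ∀ N, xN k θ τ N - xN k θ τ N ^ 2 + t / 2 ≤ xN k θ τ (N + 1) :=
    fun N => xN_step_ge h0 h1 hk hkθ hτ (by linarith) N
  -- invariance
  have hinv : ∀ N, a ≤ xN k θ τ N → a ≤ xN k θ τ (N + 1) := by
    intro N hN
    have h1' := hstep N
    have h2 := hub N
    have : a - a ^ 2 ≤ xN k θ τ N - xN k θ τ N ^ 2 := by nlinarith
    rw [ha2] at this
    linarith
  by_cases htp : t = 0
  · refine ⟨0, fun N _ => ?_⟩
    have : a = 0 := by rw [ha, htp]; simp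
    rw [this]
    exact hnn N
  have htpos : 0 < t := lt_of_le_of_ne ht0 (Ne.symm htp)
  -- find a first time
  have hex : ∃ N₀, a ≤ xN k θ τ N₀ := by
    by_contra hcon
    push Not at hcon
    have hgrow : ∀ N, xN k θ τ 0 + N * (3 * t / 8) ≤ xN k θ τ N := by
      intro N
      induction N with
      | zero => simp
      | succ N ih =>
        have h1' := hstep N
        have h3 := hcon N
        have h4 : xN k θ τ N ^ 2 ≤ t / 8 := by
          rw [← ha2]
          exact pow_le_pow_left₀ (hnn N) h3.le 2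
        push_cast
        nlinarith
    obtain ⟨M, hM⟩ := exists_nat_gt (1 / (3 * t / 8))
    have h5 := hgrow M
    have h6 := hcon M
    have h7 := hnn 0
    have h8 : (1 : ℝ) < M * (3 * t / 8) := by
      rw [div_lt_iff₀ (by positivity)] at hM
      exact hM
    linarith
  obtain ⟨N₀, hN₀⟩ := hex
  refine ⟨N₀, fun N hN => ?_⟩
  induction N, hN using Nat.le_induction with
  | base => exact hN₀
  | succ N _ ih => exact hinv N ih

end



section Kill

lemma measurable_sqrtPhi (θ : ℝ) : Measurable (fun n : ℝ => Real.sqrt (PhiF θ n)) := by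
  unfold PhiF
  fun_prop

/-- One sibling: the average of `√Φ(mob c w)`, for `w` Nishimori symmetric and bounded by `θ`. -/
lemma kill_one (h0 : 0 ≤ θ) (h1 : θ < 1) {ω : Measure ℝ} (hω : Nish ω) (hθw : ∀ᵐ w ∂ω, |w| ≤ θ)
    {c : ℝ} (hc : |c| < 1) :
    ∫ w, Real.sqrt (PhiF θ (mob c w)) ∂ω ≤
      1 - (1 / 2) * (1 - θ ^ 2) * ((1 - θ) / (1 + θ) ^ 2) * mom2 ω := by
  have := hω.prob
  have hm : Measurable (fun w : ℝ => mob c w) := measurable_mob.comp measurable_prodMk_left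
  have hg : Measurable (fun w : ℝ => mob c w ^ 2) := hm.pow_const 2
  have hbd : ∀ w : ℝ, |w| < 1 → |mob c w ^ 2| ≤ 1 := by
    intro w hw
    rw [abs_pow]
    exact pow_le_one₀ (abs_nonneg _) (mob_abs_lt hc hw).le
  have hsym := hω.sym (fun w => mob c w ^ 2) hg ⟨1, hbd⟩
  have hnegb : ∀ {b : ℝ}, |b| < 1 → |(-b)| < 1 := fun hb => by rwa [abs_neg]
  have i1 : Integrable (fun w : ℝ => mob c w ^ 2) ω := by
    refine Integrable.of_bound hg.aestronglyMeasurable 1 ?_
    filter_upwards [hω.lt] with w hw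
    simpa using hbd w hw
  have ihs : Integrable (fun w : ℝ => (1 + w) / 2 * mob c w ^ 2 + (1 - w) / 2 * mob c (-w) ^ 2) ω := by
    have hm2 : Measurable (fun w : ℝ => mob c (-w) ^ 2) := hg.comp measurable_neg
    have hms : Measurable (fun w : ℝ => (1 + w) / 2 * mob c w ^ 2 + (1 - w) / 2 * mob c (-w) ^ 2) :=
      (((measurable_id.const_add 1).div_const 2).mul hg).add
        (((measurable_id.const_sub 1).div_const 2).mul hm2)
    refine Integrable.of_bound hms.aestronglyMeasurable 1 ?_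
    filter_upwards [hω.lt] with w hw
    have h1' := hbd w hw
    have h2' := hbd (-w) (hnegb hw)
    rw [abs_lt] at hw
    have e1 : 0 ≤ (1 + w) / 2 := by linarith [hw.1]
    have e2 : 0 ≤ (1 - w) / 2 := by linarith [hw.2]
    rw [Real.norm_eq_abs]
    calc |(1 + w) / 2 * mob c w ^ 2 + (1 - w) / 2 * mob c (-w) ^ 2|
        ≤ (1 + w) / 2 * |mob c w ^ 2| + (1 - w) / 2 * |mob c (-w) ^ 2| := by
          refine (abs_add_le _ _).trans ?_
          rw [abs_mul, abs_mul, abs_of_nonneg e1, abs_of_nonneg e2]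
      _ ≤ (1 + w) / 2 * 1 + (1 - w) / 2 * 1 := by gcongr
      _ = 1 := by ring
  -- pointwise bound
  have hp : 0 < 1 + θ := by linarith
  have hq : 0 ≤ (1 - θ) / (1 + θ) ^ 2 := div_nonneg (by linarith) (by positivity)
  have aux : ∀ u d s : ℝ, 0 < d → d ≤ 1 + θ → 1 - θ ≤ s →
      (1 - θ) / (1 + θ) ^ 2 * u ^ 2 ≤ s * (u / d) ^ 2 := by
    intro u d s hd hd2 hs
    have h3 : u ^ 2 / (1 + θ) ^ 2 ≤ (u / d) ^ 2 := by
      rw [div_pow]
      gcongr
    have h4 : (1 - θ) / (1 + θ) ^ 2 * u ^ 2 = (1 - θ) * (u ^ 2 / (1 + θ) ^ 2) := by ring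
    rw [h4]
    exact mul_le_mul hs h3 (by positivity) (by linarith)
  have hpt : ∀ᵐ w ∂ω, ((1 - θ) / (1 + θ) ^ 2) * w ^ 2 ≤
      (1 + w) / 2 * mob c w ^ 2 + (1 - w) / 2 * mob c (-w) ^ 2 := by
    filter_upwards [hω.lt, hθw] with w hw hwθ
    have hw2 := abs_le.1 hwθ
    have hc2 := abs_lt.1 hc
    have hcw : |c * w| ≤ θ := by
      rw [abs_mul]
      calc |c| * |w| ≤ 1 * θ := mul_le_mul hc.le hwθ (abs_nonneg _) (by norm_num)
        _ = θ := one_mul _
    have hcw2 := abs_le.1 hcw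
    have d1 : 0 < 1 + c * w := by linarith [hcw2.1]
    have d2 : 0 < 1 - c * w := by linarith [hcw2.2]
    have a1 := aux (c + w) (1 + c * w) (1 + w) d1 (by linarith [hcw2.2]) (by linarith [hw2.1])
    have a2 := aux (c - w) (1 - c * w) (1 - w) d2 (by linarith [hcw2.1]) (by linarith [hw2.2])
    have e1 : mob c w = (c + w) / (1 + c * w) := rfl
    have e2 : mob c (-w) = (c - w) / (1 - c * w) := by
      simp only [mob]; congr 1 <;> ring
    rw [e1, e2]
    have e3 : (1 + w) / 2 * ((c + w) / (1 + c * w)) ^ 2 = (1 / 2) * ((1 + w) * ((c + w) / (1 + c * w)) ^ 2) := by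
      ring
    have e4 : (1 - w) / 2 * ((c - w) / (1 - c * w)) ^ 2 = (1 / 2) * ((1 - w) * ((c - w) / (1 - c * w)) ^ 2) := by
      ring
    rw [e3, e4]
    have e5 : (1 - θ) / (1 + θ) ^ 2 * w ^ 2 ≤
        (1 / 2) * ((1 - θ) / (1 + θ) ^ 2 * (c + w) ^ 2) + (1 / 2) * ((1 - θ) / (1 + θ) ^ 2 * (c - w) ^ 2) := by
      have : (1 / 2) * ((1 - θ) / (1 + θ) ^ 2 * (c + w) ^ 2) + (1 / 2) * ((1 - θ) / (1 + θ) ^ 2 * (c - w) ^ 2)
          = (1 - θ) / (1 + θ) ^ 2 * w ^ 2 + (1 - θ) / (1 + θ) ^ 2 * c ^ 2 := by ring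
      rw [this]
      have := mul_nonneg hq (sq_nonneg c)
      linarith
    linarith
  have hmom : ((1 - θ) / (1 + θ) ^ 2) * mom2 ω ≤ ∫ w, mob c w ^ 2 ∂ω := by
    rw [hsym, mom2, ← integral_const_mul]
    exact integral_mono_ae (hω.integrable_sq.const_mul _) ihs hpt
  -- integrate
  have hmS : Measurable (fun w : ℝ => Real.sqrt (PhiF θ (mob c w))) := (measurable_sqrtPhi θ).comp hm
  have i2 : Integrable (fun w : ℝ => Real.sqrt (PhiF θ (mob c w))) ω := by
    refine Integrable.of_bound hmS.aestronglyMeasurable 1 ?_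
    filter_upwards [hω.lt] with w hw
    have hM := (mob_abs_lt hc hw).le
    rw [Real.norm_eq_abs, abs_of_nonneg (Real.sqrt_nonneg _)]
    exact Real.sqrt_le_one.2 (PhiF_le_one h0 h1 hM)
  have hle : ∫ w, Real.sqrt (PhiF θ (mob c w)) ∂ω ≤
      ∫ w, (1 - (1 / 2) * (1 - θ ^ 2) * mob c w ^ 2) ∂ω := by
    refine integral_mono_ae i2 ((integrable_const _).sub (i1.const_mul _)) ?_
    filter_upwards [hω.lt] with w hw
    exact sqrt_PhiF_le h0 h1 (mob_abs_lt hc hw).le
  rw [integral_sub (integrable_const _) (i1.const_mul _), integral_const_mul] at hle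
  simp only [integral_const, probReal_univ, one_smul] at hle
  have hA : 0 ≤ (1 / 2) * (1 - θ ^ 2) := by nlinarith
  have := mul_le_mul_of_nonneg_left hmom hA
  nlinarith

variable (h0 : 0 ≤ θ) (h1 : θ < 1)
include h0 h1

/-- Killing: integrating out a sibling message. `H` is a function of the subtree of the child `j`,
the product with the sibling factor has a gain `1 - kill θ x`. -/
theorem killing (hk : 2 ≤ k) (hτ : 0 < τ) (N : ℕ) (j : Fin k) (H : OmCan k → ℝ)
    (hH : Measurable H) (hH0 : ∀ d, 0 ≤ H d) (C : ℝ) (hC : ∀ d, H d ≤ C) :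
    ∫ d, Real.sqrt (PhiF θ (msg θ (N + 1) d)) * H (shiftD j d) ∂(Pcan k θ τ) ≤
      (1 - kill θ (xN k θ τ N)) * ∫ d, H d ∂(Pcan k θ τ) := by
  classical
  obtain ⟨n, rfl⟩ : ∃ n, k = n + 2 := ⟨k - 2, by omega⟩
  have hP := Pcan_isProb (k := n + 2) (τ := τ) h0 h1
  have hρ := rhoX_isProb (τ := τ) h0 h1
  obtain ⟨j', hj'⟩ := exists_ne j
  obtain ⟨j₀, hj₀⟩ := Fin.exists_succAbove_eq (Ne.symm hj')
  set P := Pcan (n + 2) θ τ with hPdef
  have hu := measurable_uu (k := n + 2) θ N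
  have hω : Nish (P.map (uu θ N)) := nish_uu h0 h1 hτ N
  have hθw : ∀ᵐ w ∂(P.map (uu θ N)), |w| ≤ θ := by
    have hset : MeasurableSet {x : ℝ | |x| ≤ θ} := measurableSet_le (by fun_prop) (by fun_prop)
    rw [ae_map_iff hu.aemeasurable hset]
    exact Filter.Eventually.of_forall (abs_uu_le h0 h1 N)
  set K := 1 - kill θ (xN (n + 2) θ τ N) with hK
  have hone : ∀ c : ℝ, |c| < 1 → ∫ d', Real.sqrt (PhiF θ (mob c (uu θ N d'))) ∂P ≤ K := by
    intro c hc
    have h2 := kill_one h0 h1 hω hθw hc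
    rw [mom2_uu h0 h1 hτ] at h2
    have hmS : Measurable (fun w : ℝ => Real.sqrt (PhiF θ (mob c w))) :=
      (measurable_sqrtPhi θ).comp (measurable_mob.comp measurable_prodMk_left)
    rw [integral_map hu.aemeasurable hmS.aestronglyMeasurable] at h2
    rw [hK, kill]
    linarith
  have hφ : ∀ {n' : ℝ}, |n'| ≤ 1 → |Real.sqrt (PhiF θ n')| ≤ 1 := by
    intro n' hn'
    rw [abs_of_nonneg (Real.sqrt_nonneg _)]
    exact Real.sqrt_le_one.2 (PhiF_le_one h0 h1 hn')
  have hHabs : ∀ d, |H d| ≤ C := fun d => by rw [abs_of_nonneg (hH0 d)]; exact hC d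
  have hv : ∀ (ds : Fin (n + 2) → OmCan (n + 2)) i, |uu θ N (ds i)| < 1 :=
    fun ds i => (abs_uu_le h0 h1 N _).trans_lt h1
  have hmob : Measurable (fun q : ℝ × (Fin (n + 2) → OmCan (n + 2)) =>
      Real.sqrt (PhiF θ (mobF q.1 (fun i => uu θ N (q.2 i))))) := by
    have h3 : Measurable (fun q : ℝ × (Fin (n + 2) → OmCan (n + 2)) =>
        ((q.1, fun i => uu θ N (q.2 i)) : ℝ × (Fin (n + 2) → ℝ))) :=
      measurable_fst.prodMk (measurable_pi_iff.2 fun i =>
        hu.comp ((measurable_pi_apply i).comp measurable_snd))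
    exact (measurable_sqrtPhi θ).comp ((measurable_mobF (ι := Fin (n + 2))).comp h3)
  -- the inner bound
  have inner : ∀ c₀ : ℝ, |c₀| < 1 →
      ∫ ds : Fin (n + 2) → OmCan (n + 2), Real.sqrt (PhiF θ (mobF c₀ (fun i => uu θ N (ds i)))) * H (ds j)
        ∂(Measure.pi fun _ => P) ≤ K * ∫ d, H d ∂P := by
    intro c₀ hc₀
    -- the integrand on the whole family
    let Fc : (Fin (n + 2) → OmCan (n + 2)) → ℝ := fun ds =>
      Real.sqrt (PhiF θ (mobF c₀ (fun i => uu θ N (ds i)))) * H (ds j)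
    have hFc : Measurable Fc :=
      (hmob.comp (measurable_const.prodMk measurable_id)).mul (hH.comp (measurable_pi_apply j))
    have hFcB : ∀ ds, ‖Fc ds‖ ≤ 1 * C := by
      intro ds
      rw [Real.norm_eq_abs, abs_mul]
      exact mul_le_mul (hφ (mobF_abs_lt hc₀ (hv ds)).le) (hHabs _) (abs_nonneg _) (by norm_num)
    let e := (MeasurableEquiv.piFinSuccAbove (fun _ : Fin (n + 2) => OmCan (n + 2)) j').symm
    have hmp : MeasurePreserving e (P.prod (Measure.pi fun _ : Fin (n + 1) => P))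
        (Measure.pi fun _ : Fin (n + 2) => P) :=
      (measurePreserving_piFinSuccAbove (fun _ : Fin (n + 2) => P) j').symm
    have e1 := hmp.integral_comp e.measurableEmbedding Fc
    change ∫ ds, Fc ds ∂(Measure.pi fun _ : Fin (n + 2) => P) ≤ K * ∫ d, H d ∂P
    rw [← e1]
    have hint : Integrable (fun p => Fc (e p)) (P.prod (Measure.pi fun _ : Fin (n + 1) => P)) := by
      refine Integrable.of_bound (hFc.comp e.measurable).aestronglyMeasurable (1 * C) ?_
      exact Filter.Eventually.of_forall fun p => hFcB _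
    rw [integral_prod_symm _ hint]
    have hev : MeasurePreserving (Function.eval j₀) (Measure.pi fun _ : Fin (n + 1) => P) P :=
      measurePreserving_eval _ j₀
    have e2 : ∫ ds', H (ds' j₀) ∂(Measure.pi fun _ : Fin (n + 1) => P) = ∫ d, H d ∂P := by
      have := integral_map (μ := Measure.pi fun _ : Fin (n + 1) => P)
        hev.measurable.aemeasurable hH.aestronglyMeasurable
      rw [hev.map_eq] at this
      exact this.symm
    have hHi : Integrable (fun ds' : Fin (n + 1) → OmCan (n + 2) => H (ds' j₀))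
        (Measure.pi fun _ : Fin (n + 1) => P) := by
      refine Integrable.of_bound (hH.comp (measurable_pi_apply j₀)).aestronglyMeasurable C ?_
      exact Filter.Eventually.of_forall fun ds' => by
        rw [Real.norm_eq_abs]; exact hHabs _
    rw [← e2, ← integral_const_mul]
    refine integral_mono hint.integral_prod_right (hHi.const_mul K) fun ds' => ?_
    have hc' : |mobF c₀ (fun i => uu θ N (ds' i))| < 1 :=
      mobF_abs_lt hc₀ (fun i => (abs_uu_le h0 h1 N _).trans_lt h1)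
    have hform : ∀ d' : OmCan (n + 2), Fc (e (d', ds')) =
        Real.sqrt (PhiF θ (mob (mobF c₀ (fun i => uu θ N (ds' i))) (uu θ N d'))) * H (ds' j₀) := by
      intro d'
      have hw : e (d', ds') = (Fin.insertNth j' d' ds' : Fin (n + 2) → OmCan (n + 2)) := rfl
      simp only [Fc, hw]
      have := mobF_succAbove hc₀ (v := fun i => uu θ N ((Fin.insertNth j' d' ds' : Fin (n + 2) → OmCan (n + 2)) i))
        (fun i => hv _ i) j'
      rw [this]
      simp only [Fin.insertNth_apply_same, Fin.insertNth_apply_succAbove]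
      rw [← hj₀, Fin.insertNth_apply_succAbove]
    simp only [hform]
    rw [integral_mul_const]
    exact mul_le_mul_of_nonneg_right (hone _ hc') (hH0 _)
  -- the whole integral
  let F : XX × (Fin (n + 2) → OmCan (n + 2)) → ℝ := fun q =>
    Real.sqrt (PhiF θ (mobF (Real.tanh q.1.2) (fun i => uu θ N (q.2 i)))) * H (q.2 j)
  have hF : Measurable F := by
    have h3 : Measurable (fun q : XX × (Fin (n + 2) → OmCan (n + 2)) => (Real.tanh q.1.2, q.2)) :=
      (measurable_tanh.comp (measurable_snd.comp measurable_fst)).prodMk measurable_snd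
    exact (hmob.comp h3).mul (hH.comp ((measurable_pi_apply j).comp measurable_snd))
  have hFB : ∀ q, ‖F q‖ ≤ 1 * C := by
    intro q
    rw [Real.norm_eq_abs, abs_mul]
    exact mul_le_mul (hφ (mobF_abs_lt (Real.abs_tanh_lt_one _) (hv q.2)).le) (hHabs _)
      (abs_nonneg _) (by norm_num)
  have hS : P.map (fun d => (d [], fun i : Fin (n + 2) => shiftD i d)) =
      (rhoX θ τ).prod (Measure.pi fun _ : Fin (n + 2) => P) := Pcan_map_split' h0 h1
  have e0 : ∫ d, Real.sqrt (PhiF θ (msg θ (N + 1) d)) * H (shiftD j d) ∂P =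
      ∫ q, F q ∂((rhoX θ τ).prod (Measure.pi fun _ : Fin (n + 2) => P)) := by
    rw [← hS, integral_map measurable_splitD.aemeasurable hF.aestronglyMeasurable]
    rfl
  have hFi : Integrable F ((rhoX θ τ).prod (Measure.pi fun _ : Fin (n + 2) => P)) :=
    Integrable.of_bound hF.aestronglyMeasurable (1 * C) (Filter.Eventually.of_forall hFB)
  rw [e0, integral_prod _ hFi]
  calc ∫ x, ∫ ds, F (x, ds) ∂(Measure.pi fun _ : Fin (n + 2) => P) ∂(rhoX θ τ)
      ≤ ∫ _x, (K * ∫ d, H d ∂P) ∂(rhoX θ τ) :=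
        integral_mono hFi.integral_prod_left (integrable_const _)
          fun x => inner (Real.tanh x.2) (Real.abs_tanh_lt_one _)
    _ = K * ∫ d, H d ∂P := by simp

end Kill

section Rate

theorem ttl_le (hτ : 0 < τ) : ttl τ ≤ τ + τ ^ 2 := ttl_le' hτ

theorem ttl_ge_small (hτ : 0 < τ) (hτ' : τ ≤ 1 / 5) : τ / 2 ≤ ttl τ := ttl_ge_small' hτ hτ'

theorem ttl_ge_large {τ₁ : ℝ} (hτ₁ : 0 < τ₁) (hτ : τ₁ ≤ τ) :
    (1 / 2) * Real.tanh (τ₁ / 2) ^ 2 ≤ ttl τ := ttl_ge_large' hτ₁ hτ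

variable (h0 : 0 ≤ θ) (h1 : θ < 1)
include h0 h1

/-- The rate of decay of the levels of the Green function. -/
theorem exists_rate (hk : 2 ≤ k) (hkθ : (k : ℝ) * θ ^ 2 ≤ 1) :
    ∃ c₀ : ℝ, 0 < c₀ ∧ c₀ ≤ 1 ∧ ∀ τ : ℝ, 0 < τ → ∃ N₀, ∀ N, N₀ ≤ N →
      (k : ℝ) * θ ^ 2 * (1 - kill θ (xN k θ τ N)) ≤ 1 - c₀ * min 1 (Real.sqrt τ) := by
  have hsq : 0 ≤ 1 - θ ^ 2 := by nlinarith
  have hq : 0 ≤ (1 - θ) / (1 + θ) ^ 2 := div_nonneg (by linarith) (by positivity)
  have hkill : ∀ x : ℝ, 0 ≤ x → 0 ≤ kill θ x := by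
    intro x hx
    unfold kill
    have := sq_nonneg θ
    positivity
  rcases hkθ.lt_or_eq with hlt | heq
  · set δ := 1 - (k : ℝ) * θ ^ 2 with hδ
    have hδ0 : 0 < δ := by rw [hδ]; linarith
    refine ⟨min δ 1, lt_min hδ0 one_pos, min_le_right _ _, fun τ hτ => ⟨0, fun N _ => ?_⟩⟩
    have h2 := hkill _ (xN_nonneg (k := k) (θ := θ) (τ := τ) N)
    have h3 : (0 : ℝ) ≤ (k : ℝ) * θ ^ 2 := by positivity
    have h4 : min δ 1 * min 1 (Real.sqrt τ) ≤ δ * 1 :=
      mul_le_mul (min_le_left _ _) (min_le_left _ _) (le_min zero_le_one (Real.sqrt_nonneg _))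
        hδ0.le
    have h5 : (k : ℝ) * θ ^ 2 * (1 - kill θ (xN k θ τ N)) ≤ (k : ℝ) * θ ^ 2 := by
      nlinarith
    rw [hδ] at h4
    linarith
  · have hθ0 : θ ≠ 0 := by
      rintro rfl
      simp at heq
    have hθpos : 0 < θ := lt_of_le_of_ne h0 (Ne.symm hθ0)
    set K := (1 / 2) * (1 - θ ^ 2) * ((1 - θ) / (1 + θ) ^ 2) * θ ^ 2 with hK
    have hKpos : 0 < K := by
      have h2 : 0 < 1 - θ ^ 2 := by nlinarith
      have h3 : 0 < (1 - θ) / (1 + θ) ^ 2 := div_pos (by linarith) (by positivity)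
      rw [hK]
      positivity
    have hkillK : ∀ x, kill θ x = K * x := by
      intro x
      rw [kill, hK]
      ring
    have hval : ∀ x, (k : ℝ) * θ ^ 2 * (1 - kill θ x) = 1 - K * x := by
      intro x
      rw [heq, hkillK, one_mul]
    set a := (1 / 2) * Real.tanh ((1 / 32 : ℝ) / 2) ^ 2 with ha
    have hapos : 0 < a := by
      have h2 : (0 : ℝ) < Real.tanh ((1 / 32 : ℝ) / 2) := by
        have := tanh_ge_cubic (x := (1 / 32 : ℝ) / 2) (by norm_num)
        norm_num at this ⊢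
        linarith
      rw [ha]
      positivity
    set c₀ := min (min (K / 4) (K * a)) 1 with hc₀
    have hc₀pos : 0 < c₀ := lt_min (lt_min (by positivity) (by positivity)) one_pos
    have hc1 : c₀ ≤ K / 4 := (min_le_left _ _).trans (min_le_left _ _)
    have hc2 : c₀ ≤ K * a := (min_le_left _ _).trans (min_le_right _ _)
    refine ⟨c₀, hc₀pos, min_le_right _ _, fun τ hτ => ?_⟩
    by_cases hsmall : τ ≤ 1 / 32
    · have httl : ttl τ ≤ 1 / 16 := by
        have := ttl_le hτ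
        nlinarith
      obtain ⟨N₀, hN₀⟩ := xN_ge_critical (k := k) h0 h1 hk heq hτ httl
      refine ⟨N₀, fun N hN => ?_⟩
      rw [hval]
      have h2 := hN₀ N hN
      have h3 : τ / 2 ≤ ttl τ := ttl_ge_small hτ (by linarith)
      have h4 : Real.sqrt τ / 2 ≤ Real.sqrt (ttl τ / 2) := by
        apply Real.le_sqrt_of_sq_le
        rw [div_pow, Real.sq_sqrt hτ.le]
        linarith
      have h5 : Real.sqrt τ / 4 ≤ xN k θ τ N := by linarith
      have h6 : c₀ * min 1 (Real.sqrt τ) ≤ K / 4 * Real.sqrt τ :=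
        mul_le_mul hc1 (min_le_right _ _) (le_min zero_le_one (Real.sqrt_nonneg _)) (by positivity)
      nlinarith
    · push Not at hsmall
      refine ⟨0, fun N _ => ?_⟩
      rw [hval]
      have h2 : a ≤ xN k θ τ N :=
        (ttl_ge_large (τ₁ := 1 / 32) (by norm_num) hsmall.le).trans (ttl_le_xN h0 h1 hτ N)
      have h3 : c₀ * min 1 (Real.sqrt τ) ≤ K * a * 1 :=
        mul_le_mul hc2 (min_le_left _ _) (le_min zero_le_one (Real.sqrt_nonneg _)) (by positivity)
      nlinarith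

end Rate

end Crest.Agent.Lib.IT
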