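/-
Two conditionally independent copies given a sigma-algebra generated by a map (statement S0241).
-/
import Mathlib

set_option autoImplicit false

namespace Crest.Agent.Lib.IT

open MeasureTheory ProbabilityTheory

lemma indAbs_aux {Ω : Type*} (A : Set Ω) (a : Ω) : |A.indicator (fun _ => (1 : ℝ)) a| ≤ 1 := by
  by_cases h : a ∈ A <;> simp [h]

variable {Ω Y : Type*} [MeasurableSpace Ω] [StandardBorelSpace Ω] [Nonempty Ω] [MeasurableSpace Y]

/-- Two conditionally independent copies of the identity given `W`. -/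
noncomputable def copies (P : Measure Ω) [IsFiniteMeasure P] (W : Ω → Y) : Measure (Ω × Ω) :=
  (P.map W).bind (fun y => (condDistrib id W P y).prod (condDistrib id W P y))

variable (P : Measure Ω) [IsProbabilityMeasure P] (W : Ω → Y)

lemma copies_eq_comp :
    copies P W = (condDistrib id W P ×ₖ condDistrib id W P) ∘ₘ (P.map W) := by
  unfold copies
  congr 1
  funext y
  rw [Kernel.prod_apply]

local notation "mW" => MeasurableSpace.comap W (inferInstance : MeasurableSpace Y)

variable (hW : Measurable W)

include hW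

theorem isProb_copies : IsProbabilityMeasure (copies P W) := by
  rw [copies_eq_comp]
  have : IsProbabilityMeasure (P.map W) := Measure.isProbabilityMeasure_map hW.aemeasurable
  infer_instance

theorem copies_map_fst : (copies P W).map Prod.fst = P := by
  rw [copies_eq_comp, Measure.map_comp _ _ measurable_fst]
  have h1 : (condDistrib id W P ×ₖ condDistrib id W P).map Prod.fst = condDistrib id W P := by
    rw [← Kernel.fst_eq]
    exact Kernel.fst_prod (condDistrib id W P) (condDistrib id W P)
  rw [h1, condDistrib_comp_map hW.aemeasurable aemeasurable_id, Measure.map_id]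

theorem copies_map_snd : (copies P W).map Prod.snd = P := by
  rw [copies_eq_comp, Measure.map_comp _ _ measurable_snd]
  have h1 : (condDistrib id W P ×ₖ condDistrib id W P).map Prod.snd = condDistrib id W P := by
    rw [← Kernel.snd_eq]
    exact Kernel.snd_prod (condDistrib id W P) (condDistrib id W P)
  rw [h1, condDistrib_comp_map hW.aemeasurable aemeasurable_id, Measure.map_id]

lemma integral_copies_eq {F : Ω × Ω → ℝ} (hF : Integrable F (copies P W)) :
    ∫ z, F z ∂(copies P W) =
      ∫ y, ∫ z, F z ∂((condDistrib id W P y).prod (condDistrib id W P y)) ∂(P.map W) := by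
  have hF' := hF
  rw [copies_eq_comp, Measure.comp_eq_comp_const_apply] at hF'
  rw [copies_eq_comp, Measure.comp_eq_comp_const_apply, Kernel.integral_comp hF',
    Kernel.const_apply]
  simp only [Kernel.prod_apply]

/-- The bilinear formula. -/
theorem integral_copies (f g : Ω → ℝ) (hf : Measurable f) (hg : Measurable g) (Cf Cg : ℝ)
    (hCf : ∀ a, |f a| ≤ Cf) (hCg : ∀ a, |g a| ≤ Cg) :
    ∫ p, f p.1 * g p.2 ∂(copies P W) =
      ∫ a, (P[f | MeasurableSpace.comap W inferInstance]) a *
        (P[g | MeasurableSpace.comap W inferInstance]) a ∂P := by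
  have hprob : IsProbabilityMeasure (copies P W) := isProb_copies P W hW
  have hmeas : Measurable (fun p : Ω × Ω => f p.1 * g p.2) :=
    (hf.comp measurable_fst).mul (hg.comp measurable_snd)
  have hint : Integrable (fun p : Ω × Ω => f p.1 * g p.2) (copies P W) := by
    refine Integrable.of_bound hmeas.aestronglyMeasurable (Cf * Cg)
      (Filter.Eventually.of_forall fun p => ?_)
    rw [Real.norm_eq_abs, abs_mul]
    exact mul_le_mul (hCf _) (hCg _) (abs_nonneg _) ((abs_nonneg _).trans (hCf p.1))
  rw [integral_copies_eq P W hW hint]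
  simp only [integral_prod_mul]
  have hfI : Integrable f P := Integrable.of_bound hf.aestronglyMeasurable Cf
    (Filter.Eventually.of_forall fun a => by simpa using hCf a)
  have hgI : Integrable g P := Integrable.of_bound hg.aestronglyMeasurable Cg
    (Filter.Eventually.of_forall fun a => by simpa using hCg a)
  have h1 := condExp_ae_eq_integral_condDistrib_id hW hfI
  have h2 := condExp_ae_eq_integral_condDistrib_id hW hgI
  have hsm : ∀ {f : Ω → ℝ}, Measurable f →
      StronglyMeasurable (fun y => ∫ z, f z ∂(condDistrib id W P y)) := fun {f} hf =>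
    StronglyMeasurable.integral_kernel hf.stronglyMeasurable
  have hmapI := integral_map (μ := P) hW.aemeasurable
    (f := fun y => (∫ z, f z ∂(condDistrib id W P y)) * ∫ z, g z ∂(condDistrib id W P y))
    ((hsm hf).mul (hsm hg)).aestronglyMeasurable
  rw [hmapI]
  refine integral_congr_ae ?_
  filter_upwards [h1, h2] with a ha hb
  rw [ha, hb]

/-- Conditional variance as a difference of copies. -/
theorem integral_copies_sq_sub (f : Ω → ℝ) (hf : Measurable f) (C : ℝ) (hC : ∀ a, |f a| ≤ C) :
    ∫ p, (f p.1 - f p.2) ^ 2 ∂(copies P W) =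
      2 * ∫ a, (f a - (P[f | MeasurableSpace.comap W inferInstance]) a) ^ 2 ∂P := by
  have hprob : IsProbabilityMeasure (copies P W) := isProb_copies P W hW
  have hC0 : 0 ≤ C := (abs_nonneg _).trans (hC (Classical.arbitrary Ω))
  have hmle : mW ≤ ‹MeasurableSpace Ω› := hW.comap_le
  set h := P[f | mW] with hh
  have hfsq : ∀ a, |f a ^ 2| ≤ C ^ 2 := fun a => by
    rw [abs_pow]
    exact pow_le_pow_left₀ (abs_nonneg _) (hC a) 2
  have hfI : Integrable f P := Integrable.of_bound hf.aestronglyMeasurable C
    (Filter.Eventually.of_forall fun a => by simpa using hC a)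
  have hf2I : Integrable (fun a => f a ^ 2) P :=
    Integrable.of_bound (hf.pow_const 2).aestronglyMeasurable (C ^ 2)
      (Filter.Eventually.of_forall fun a => by simpa using hfsq a)
  have hsm : StronglyMeasurable[mW] h := stronglyMeasurable_condExp
  have hmeas : Measurable h := (hsm.mono hmle).measurable
  have hbd : ∀ᵐ a ∂P, |h a| ≤ C := by
    exact ae_bdd_abs_condExp_of_ae_bdd_abs (m := mW) (μ := P) (R := C) (f := f)
      (Filter.Eventually.of_forall fun a => hC a)
  have hhI : Integrable h P := integrable_condExp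
  have hh2I : Integrable (fun a => h a ^ 2) P := by
    refine Integrable.of_bound (hmeas.pow_const 2).aestronglyMeasurable (C ^ 2) ?_
    filter_upwards [hbd] with a ha
    rw [Real.norm_eq_abs, abs_pow]
    exact pow_le_pow_left₀ (abs_nonneg _) ha 2
  have hfhI : Integrable (f * h) P := by
    refine Integrable.of_bound (hf.mul hmeas).aestronglyMeasurable (C * C) ?_
    filter_upwards [hbd] with a ha
    rw [Pi.mul_apply, Real.norm_eq_abs, abs_mul]
    exact mul_le_mul (hC a) ha (abs_nonneg _) hC0
  -- orthogonality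
  have hortho : ∫ a, f a * h a ∂P = ∫ a, h a ^ 2 ∂P := by
    have h1 : P[f * h | mW] =ᵐ[P] P[f | mW] * h :=
      condExp_mul_of_stronglyMeasurable_right hsm hfhI hfI
    have h2 : ∫ a, (P[f * h | mW]) a ∂P = ∫ a, (f * h) a ∂P := integral_condExp hmle
    have h3 : ∫ a, (P[f * h | mW]) a ∂P = ∫ a, h a ^ 2 ∂P := by
      refine integral_congr_ae ?_
      filter_upwards [h1] with a ha
      rw [ha, Pi.mul_apply, sq]
    rw [← h3, h2]
    rfl
  -- the integrals over the copies
  have hI1 : Integrable (fun p : Ω × Ω => f p.1 ^ 2) (copies P W) :=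
    Integrable.of_bound ((hf.comp measurable_fst).pow_const 2).aestronglyMeasurable (C ^ 2)
      (Filter.Eventually.of_forall fun p => by simpa using hfsq p.1)
  have hI2 : Integrable (fun p : Ω × Ω => f p.2 ^ 2) (copies P W) :=
    Integrable.of_bound ((hf.comp measurable_snd).pow_const 2).aestronglyMeasurable (C ^ 2)
      (Filter.Eventually.of_forall fun p => by simpa using hfsq p.2)
  have hI3 : Integrable (fun p : Ω × Ω => f p.1 * f p.2) (copies P W) := by
    refine Integrable.of_bound ((hf.comp measurable_fst).mul (hf.comp measurable_snd)).aestronglyMeasurable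
      (C * C) (Filter.Eventually.of_forall fun p => ?_)
    rw [Real.norm_eq_abs, abs_mul]
    exact mul_le_mul (hC _) (hC _) (abs_nonneg _) hC0
  have e1 : ∫ p, f p.1 ^ 2 ∂(copies P W) = ∫ a, f a ^ 2 ∂P := by
    have := integral_map (μ := copies P W) measurable_fst.aemeasurable
      (f := fun a => f a ^ 2) (by rw [copies_map_fst P W hW]; exact (hf.pow_const 2).aestronglyMeasurable)
    rw [copies_map_fst P W hW] at this
    exact this.symm
  have e2 : ∫ p, f p.2 ^ 2 ∂(copies P W) = ∫ a, f a ^ 2 ∂P := by
    have := integral_map (μ := copies P W) measurable_snd.aemeasurable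
      (f := fun a => f a ^ 2) (by rw [copies_map_snd P W hW]; exact (hf.pow_const 2).aestronglyMeasurable)
    rw [copies_map_snd P W hW] at this
    exact this.symm
  have e3 : ∫ p, f p.1 * f p.2 ∂(copies P W) = ∫ a, h a ^ 2 ∂P := by
    rw [integral_copies P W hW f f hf hf C C hC hC]
    simp only [sq]
    rfl
  have hL : ∫ p, (f p.1 - f p.2) ^ 2 ∂(copies P W) =
      ∫ p, f p.1 ^ 2 ∂(copies P W) + ∫ p, f p.2 ^ 2 ∂(copies P W) -
        2 * ∫ p, f p.1 * f p.2 ∂(copies P W) := by
    have hI12 : Integrable (fun p : Ω × Ω => f p.1 ^ 2 + f p.2 ^ 2) (copies P W) := hI1.add hI2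
    have h0 : ∫ p, (f p.1 - f p.2) ^ 2 ∂(copies P W) =
        ∫ p, (f p.1 ^ 2 + f p.2 ^ 2) - 2 * (f p.1 * f p.2) ∂(copies P W) :=
      integral_congr_ae (Filter.Eventually.of_forall fun p => by
        show (f p.1 - f p.2) ^ 2 = (f p.1 ^ 2 + f p.2 ^ 2) - 2 * (f p.1 * f p.2)
        ring)
    rw [h0, integral_sub hI12 (hI3.const_mul 2), integral_add hI1 hI2, integral_const_mul]
  have hR : ∫ a, (f a - h a) ^ 2 ∂P =
      ∫ a, f a ^ 2 ∂P - 2 * ∫ a, f a * h a ∂P + ∫ a, h a ^ 2 ∂P := by
    have hfh' : Integrable (fun a => f a * h a) P := hfhI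
    have hI12 : Integrable (fun a => f a ^ 2 - 2 * (f a * h a)) P :=
      hf2I.sub (hfh'.const_mul 2)
    have h0 : ∫ a, (f a - h a) ^ 2 ∂P = ∫ a, (f a ^ 2 - 2 * (f a * h a)) + h a ^ 2 ∂P :=
      integral_congr_ae (Filter.Eventually.of_forall fun p => by
        show (f p - h p) ^ 2 = (f p ^ 2 - 2 * (f p * h p)) + h p ^ 2
        ring)
    rw [h0, integral_add hI12 hh2I, integral_sub hf2I (hfh'.const_mul 2), integral_const_mul]
  rw [hL, e1, e2, e3, hR, hortho]
  ring

/-- Conditional expectations and measure preserving transformations compatible with `W`. -/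
theorem condExp_comp_of_map (τ : Ω → Ω) (hτ : Measurable τ) (hτP : P.map τ = P) (T : Y ≃ᵐ Y)
    (hWτ : ∀ a, W (τ a) = T (W a)) (f : Ω → ℝ) (hf : Measurable f) (C : ℝ) (hC : ∀ a, |f a| ≤ C) :
    (fun a => (P[f | MeasurableSpace.comap W inferInstance]) (τ a)) =ᵐ[P]
      P[f ∘ τ | MeasurableSpace.comap W inferInstance] := by
  have hmle : mW ≤ ‹MeasurableSpace Ω› := hW.comap_le
  have hC0 : 0 ≤ C := (abs_nonneg _).trans (hC (Classical.arbitrary Ω))
  set h := P[f | mW] with hh
  have hsm : StronglyMeasurable[mW] h := stronglyMeasurable_condExp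
  have hmeas : Measurable h := (hsm.mono hmle).measurable
  have hbd : ∀ᵐ a ∂P, |h a| ≤ C := by
    exact ae_bdd_abs_condExp_of_ae_bdd_abs (m := mW) (μ := P) (R := C) (f := f)
      (Filter.Eventually.of_forall fun a => hC a)
  have hfI : Integrable f P := Integrable.of_bound hf.aestronglyMeasurable C
    (Filter.Eventually.of_forall fun a => by simpa using hC a)
  have hfτI : Integrable (f ∘ τ) P := Integrable.of_bound (hf.comp hτ).aestronglyMeasurable C
    (Filter.Eventually.of_forall fun a => by simpa using hC (τ a))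
  have hhI : Integrable h P := integrable_condExp
  have hpres : MeasurePreserving τ P P := ⟨hτ, hτP⟩
  have hhτI : Integrable (fun a => h (τ a)) P :=
    hpres.integrable_comp_of_integrable hhI
  have hτm : Measurable[mW, mW] τ := by
    intro s hs
    obtain ⟨B, hB, rfl⟩ := hs
    refine ⟨T ⁻¹' B, T.measurable hB, ?_⟩
    ext a
    simp [hWτ]
  refine ae_eq_condExp_of_forall_setIntegral_eq hmle hfτI (fun s _ _ => hhτI.integrableOn) ?_ ?_
  · intro s hs _
    obtain ⟨B, hB, rfl⟩ := hs
    set A := W ⁻¹' (T.symm ⁻¹' B) with hA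
    have hAm : MeasurableSet[mW] A := ⟨_, T.symm.measurable hB, rfl⟩
    have hAm' : MeasurableSet A := hmle _ hAm
    have hpre : W ⁻¹' B = τ ⁻¹' A := by
      ext a
      simp [hA, hWτ]
    rw [hpre]
    have h1 : ∫ x in τ ⁻¹' A, h (τ x) ∂P = ∫ x in A, h x ∂P := by
      have := setIntegral_map (μ := P) (g := τ) (f := h) hAm'
        (by rw [hτP]; exact hmeas.aestronglyMeasurable) hτ.aemeasurable
      rw [hτP] at this
      exact this.symm
    have h2 : ∫ x in A, h x ∂P = ∫ x in A, f x ∂P := setIntegral_condExp hmle hfI hAm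
    have h3 : ∫ x in τ ⁻¹' A, (f ∘ τ) x ∂P = ∫ x in A, f x ∂P := by
      have := setIntegral_map (μ := P) (g := τ) (f := f) hAm'
        (by rw [hτP]; exact hf.aestronglyMeasurable) hτ.aemeasurable
      rw [hτP] at this
      exact this.symm
    rw [h1, h2, h3]
  · exact (hsm.comp_measurable hτm).aestronglyMeasurable

lemma copies_rect {A B : Set Ω} (hA : MeasurableSet A) (hB : MeasurableSet B) :
    (copies P W).real (A ×ˢ B) =
      ∫ a, (P[A.indicator (fun _ => (1 : ℝ)) | MeasurableSpace.comap W inferInstance]) a *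
        (P[B.indicator (fun _ => (1 : ℝ)) | MeasurableSpace.comap W inferInstance]) a ∂P := by
  have hprob : IsProbabilityMeasure (copies P W) := isProb_copies P W hW
  rw [← integral_copies P W hW _ _ (measurable_const.indicator hA) (measurable_const.indicator hB)
    1 1 (indAbs_aux A) (indAbs_aux B)]
  have : (fun p : Ω × Ω => A.indicator (fun _ => (1 : ℝ)) p.1 * B.indicator (fun _ => (1 : ℝ)) p.2)
      = (A ×ˢ B).indicator (fun _ => (1 : ℝ)) := by
    funext p
    by_cases h1 : p.1 ∈ A <;> by_cases h2 : p.2 ∈ B <;> simp [h1, h2, Set.indicator, Set.mem_prod]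
  rw [this, integral_indicator (hA.prod hB)]
  simp

/-- Invariance of the copies under a measure preserving transformation compatible with `W`. -/
theorem copies_map_prod (τ : Ω → Ω) (hτ : Measurable τ) (hτP : P.map τ = P) (T : Y ≃ᵐ Y)
    (hWτ : ∀ a, W (τ a) = T (W a)) :
    (copies P W).map (Prod.map τ τ) = copies P W := by
  have hprob : IsProbabilityMeasure (copies P W) := isProb_copies P W hW
  have hmap : Measurable (Prod.map τ τ) := hτ.prodMap hτ
  have hfin : IsFiniteMeasure ((copies P W).map (Prod.map τ τ)) := Measure.isFiniteMeasure_map _ _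
  refine Measure.ext_prod fun {A B} hA hB => ?_
  have hpre : Prod.map τ τ ⁻¹' (A ×ˢ B) = (τ ⁻¹' A) ×ˢ (τ ⁻¹' B) := rfl
  rw [Measure.map_apply hmap (hA.prod hB), hpre,
    ← ENNReal.toReal_eq_toReal_iff' (measure_ne_top _ _) (measure_ne_top _ _)]
  show (copies P W).real _ = (copies P W).real _
  rw [copies_rect P W hW (hτ hA) (hτ hB), copies_rect P W hW hA hB]
  have hind : ∀ C : Set Ω, (τ ⁻¹' C).indicator (fun _ => (1 : ℝ)) =
      C.indicator (fun _ => (1 : ℝ)) ∘ τ := fun C => by
    funext a
    rw [Function.comp_apply]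
    by_cases h : τ a ∈ C
    · rw [Set.indicator_of_mem h, Set.indicator_of_mem (show a ∈ τ ⁻¹' C from h)]
    · rw [Set.indicator_of_notMem h, Set.indicator_of_notMem (show a ∉ τ ⁻¹' C from h)]
  rw [hind, hind]
  have h1 := condExp_comp_of_map P W hW τ hτ hτP T hWτ _ (measurable_const.indicator hA) 1
    (indAbs_aux A)
  have h2 := condExp_comp_of_map P W hW τ hτ hτP T hWτ _ (measurable_const.indicator hB) 1
    (indAbs_aux B)
  have hm1 : Measurable (P[A.indicator (fun _ => (1 : ℝ)) | MeasurableSpace.comap W inferInstance]) :=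
    (stronglyMeasurable_condExp.mono hW.comap_le).measurable
  have hm2 : Measurable (P[B.indicator (fun _ => (1 : ℝ)) | MeasurableSpace.comap W inferInstance]) :=
    (stronglyMeasurable_condExp.mono hW.comap_le).measurable
  have h3 := integral_map (μ := P) hτ.aemeasurable
    (f := fun a => (P[A.indicator (fun _ => (1 : ℝ)) | MeasurableSpace.comap W inferInstance]) a *
      (P[B.indicator (fun _ => (1 : ℝ)) | MeasurableSpace.comap W inferInstance]) a)
    (by rw [hτP]; exact (hm1.mul hm2).aestronglyMeasurable)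
  rw [hτP] at h3
  rw [h3]
  refine integral_congr_ae ?_
  filter_upwards [h1, h2] with a ha hb
  rw [← ha, ← hb]

end Crest.Agent.Lib.IT
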