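/-
Definitions for the time structure of the localization process (statement S0241): finite volume
posterior quantities, the filtrations of the observation and of the innovation, the conditional
variance `dD`, its formal derivative `VV`.
-/
import Crest.Agent.Lib.IT.Pair
import Crest.Agent.Lib.LocInnov

set_option autoImplicit false
set_option warn.classDefReducibility false

namespace Crest.Agent.Lib.IT

open MeasureTheory ProbabilityTheory Filter Topology
open scoped ENNReal NNReal
open Crest.Agent.Lib.Loc

variable {I : Type*}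

/-- The finite-volume covariance of the occupation variables of `o` and `u`. -/
noncomputable def Cfin (ν : Measure (I → Bool)) (F : Finset I) (o u : I) (t : ℝ) (v : I → ℝ) : ℝ :=
  Mfin2 ν F o u t v - Mfin ν F o t v * Mfin ν F u t v

/-! ### Finite volume quantities on the level space -/

/-- The posterior mean on `F` at the step `j` of the level with increment variance `h`. -/
noncomputable def mF (ν : Measure (I → Bool)) (h : ℝ) (F : Finset I) (e : I) (j : ℕ) (a : LevΩ I) : ℝ :=
  Mfin ν F e (j * h) (fun l => Ypos h a l j)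

/-- The pair posterior on `F` at the step `j`. -/
noncomputable def m2F (ν : Measure (I → Bool)) (h : ℝ) (F : Finset I) (o u : I) (j : ℕ)
    (a : LevΩ I) : ℝ :=
  Mfin2 ν F o u (j * h) (fun l => Ypos h a l j)

/-- The covariance on `F` at the step `j`. -/
noncomputable def cF (ν : Measure (I → Bool)) (h : ℝ) (F : Finset I) (o u : I) (j : ℕ)
    (a : LevΩ I) : ℝ :=
  Cfin ν F o u (j * h) (fun l => Ypos h a l j)

/-! ### Processes on a truth space -/

section
variable {Ω : Type*} [MeasurableSpace Ω]

open Classical in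
/-- Cut a family of skeletons at the real time `t`. -/
noncomputable def cutSk (t : ℝ) (y : I → Sk) : I → Sk :=
  fun l n k => if tm n k ≤ t then y l n k else 0

/-- The filtration of the observation. -/
noncomputable def Ft (ω : Ω → I → Bool) (B : Ω → I → Sk) (t : ℝ) : MeasurableSpace Ω :=
  MeasurableSpace.comap (fun a => cutSk t (Yobs ω B a)) inferInstance

/-- The filtration of the innovation. -/
noncomputable def Gt (ν : Measure (I → Bool)) (Fs : I → ℕ → Finset I) (ω : Ω → I → Bool) (B : Ω → I → Sk)
    (t : ℝ) : MeasurableSpace Ω :=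
  MeasurableSpace.comap (fun a => cutSk t (Wmap ν Fs (Yobs ω B a))) inferInstance

/-- The posterior mean at the dyadic time `tm n k`. -/
noncomputable def Mt (ν : Measure (I → Bool)) (Fs : I → ℕ → Finset I) (ω : Ω → I → Bool)
    (B : Ω → I → Sk) (e : I) (n k : ℕ) (a : Ω) : ℝ :=
  mlim ν Fs e (tm n k) (fun l => Yobs ω B a l n k)

/-- The pair posterior at the dyadic time `tm n k`. -/
noncomputable def M2t (ν : Measure (I → Bool)) (Fs : I → ℕ → Finset I) (ω : Ω → I → Bool)
    (B : Ω → I → Sk) (o u : I) (n k : ℕ) (a : Ω) : ℝ :=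
  limsup (fun N => Mfin2 ν (Fs o N) o u (tm n k) (fun l => Yobs ω B a l n k)) atTop

/-- The posterior covariance at the dyadic time `tm n k`. -/
noncomputable def CRt (ν : Measure (I → Bool)) (Fs : I → ℕ → Finset I) (ω : Ω → I → Bool)
    (B : Ω → I → Sk) (o u : I) (n k : ℕ) (a : Ω) : ℝ :=
  M2t ν Fs ω B o u n k a - Mt ν Fs ω B o n k a * Mt ν Fs ω B u n k a

/-- The finite-volume posterior mean on a truth space. -/
noncomputable def MtF (ν : Measure (I → Bool)) (ω : Ω → I → Bool) (B : Ω → I → Sk) (F : Finset I)
    (e : I) (n k : ℕ) (a : Ω) : ℝ :=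
  Mfin ν F e (tm n k) (fun l => Yobs ω B a l n k)

/-- The finite-volume pair posterior on a truth space. -/
noncomputable def M2tF (ν : Measure (I → Bool)) (ω : Ω → I → Bool) (B : Ω → I → Sk) (F : Finset I)
    (o u : I) (n k : ℕ) (a : Ω) : ℝ :=
  Mfin2 ν F o u (tm n k) (fun l => Yobs ω B a l n k)

/-- The finite-volume covariance on a truth space. -/
noncomputable def CRtF (ν : Measure (I → Bool)) (ω : Ω → I → Bool) (B : Ω → I → Sk) (F : Finset I)
    (o u : I) (n k : ℕ) (a : Ω) : ℝ :=
  Cfin ν F o u (tm n k) (fun l => Yobs ω B a l n k)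

variable (ν : Measure (I → Bool)) (Fs : I → ℕ → Finset I) (P : Measure Ω) (ω : Ω → I → Bool)
  (B : Ω → I → Sk)

/-- The second moment of the posterior mean. -/
noncomputable def qq (e : I) (n k : ℕ) : ℝ := ∫ a, Mt ν Fs ω B e n k a ^ 2 ∂P

/-- The mean conditional variance of the posterior mean of `o` given the innovation. -/
noncomputable def dD (o : I) (n k : ℕ) : ℝ :=
  ∫ a, (Mt ν Fs ω B o n k a - (P[Mt ν Fs ω B o n k | Gt ν Fs ω B (tm n k)]) a) ^ 2 ∂P

/-- The mean conditional variance of a posterior covariance given the innovation. -/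
noncomputable def VVu (o u : I) (n k : ℕ) : ℝ :=
  ∫ a, (CRt ν Fs ω B o u n k a - (P[CRt ν Fs ω B o u n k | Gt ν Fs ω B (tm n k)]) a) ^ 2 ∂P

/-- The sum of the `VVu` over a finite set. -/
noncomputable def VV (o : I) (U : Finset I) (n k : ℕ) : ℝ := ∑ u ∈ U, VVu ν Fs P ω B o u n k

end

end Crest.Agent.Lib.IT
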