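/-
Second order Taylor bound of the finite-volume posterior mean in the observation (statement S0241).
This file is purely algebraic.
-/
import Crest.Agent.Lib.IT.TimeDefs

set_option autoImplicit false

namespace Crest.Agent.Lib.IT

open MeasureTheory
open Crest.Agent.Lib.Loc

variable {I : Type*}

/-- The abstract second order expansion of a tilted expectation ratio. -/
lemma taylor_ratio_aux {α : Type*} (P : Finset α) (a c y : α → ℝ) (Ξ : ℝ) (ha : ∀ S ∈ P, 0 ≤ a S)
    (hsum : ∑ S ∈ P, a S = 1) (hc0 : ∀ S ∈ P, 0 ≤ c S) (hc1 : ∀ S ∈ P, c S ≤ 1)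
    (hy : ∀ S ∈ P, |y S| ≤ Ξ) (hΞ : 0 ≤ Ξ) :
    |(∑ S ∈ P, a S * c S * Real.exp (y S)) / (∑ S ∈ P, a S * Real.exp (y S)) - ∑ S ∈ P, a S * c S -
        (∑ S ∈ P, a S * c S * y S - (∑ S ∈ P, a S * c S) * ∑ S ∈ P, a S * y S)| ≤ 12 * Ξ ^ 2 := by
  set N0 := ∑ S ∈ P, a S * c S with hN0
  set N1 := ∑ S ∈ P, a S * c S * y S with hN1
  set Z1 := ∑ S ∈ P, a S * y S with hZ1
  set N := ∑ S ∈ P, a S * c S * Real.exp (y S) with hN
  set Z := ∑ S ∈ P, a S * Real.exp (y S) with hZ
  -- the bounds on N0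
  have hN00 : 0 ≤ N0 := Finset.sum_nonneg fun S hS => mul_nonneg (ha S hS) (hc0 S hS)
  have hN01 : N0 ≤ 1 := by
    rw [← hsum]
    refine Finset.sum_le_sum fun S hS => ?_
    have := mul_le_mul_of_nonneg_left (hc1 S hS) (ha S hS)
    linarith
  -- bound on the covariance
  have hN1le : |N1| ≤ Ξ * N0 := by
    rw [hN0, Finset.mul_sum]
    refine (Finset.abs_sum_le_sum_abs _ _).trans (Finset.sum_le_sum fun S hS => ?_)
    rw [abs_mul, abs_of_nonneg (mul_nonneg (ha S hS) (hc0 S hS)), mul_comm]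
    exact mul_le_mul_of_nonneg_right (hy S hS) (mul_nonneg (ha S hS) (hc0 S hS))
  have hD1le : |Z1 - N1| ≤ Ξ * (1 - N0) := by
    have h1 : Z1 - N1 = ∑ S ∈ P, a S * (1 - c S) * y S := by
      rw [hZ1, hN1, ← Finset.sum_sub_distrib]
      exact Finset.sum_congr rfl fun S _ => by ring
    have h2 : 1 - N0 = ∑ S ∈ P, a S * (1 - c S) := by
      have : ∑ S ∈ P, a S * (1 - c S) = ∑ S ∈ P, a S - ∑ S ∈ P, a S * c S := by
        rw [← Finset.sum_sub_distrib]
        exact Finset.sum_congr rfl fun S _ => by ring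
      rw [this, hsum]
    rw [h1, h2, Finset.mul_sum]
    refine (Finset.abs_sum_le_sum_abs _ _).trans (Finset.sum_le_sum fun S hS => ?_)
    have hnn : 0 ≤ a S * (1 - c S) := mul_nonneg (ha S hS) (by linarith [hc1 S hS])
    rw [abs_mul, abs_of_nonneg hnn, mul_comm]
    exact mul_le_mul_of_nonneg_right (hy S hS) hnn
  set C := N1 - N0 * Z1 with hC
  have hCle : |C| ≤ Ξ := by
    have e1 : C = (1 - N0) * N1 - N0 * (Z1 - N1) := by rw [hC]; ring
    have h1 : |(1 - N0) * N1| ≤ (1 - N0) * (Ξ * N0) := by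
      rw [abs_mul, abs_of_nonneg (by linarith : (0:ℝ) ≤ 1 - N0)]
      exact mul_le_mul_of_nonneg_left hN1le (by linarith)
    have h2 : |N0 * (Z1 - N1)| ≤ N0 * (Ξ * (1 - N0)) := by
      rw [abs_mul, abs_of_nonneg hN00]
      exact mul_le_mul_of_nonneg_left hD1le hN00
    have h3 : |C| ≤ (1 - N0) * (Ξ * N0) + N0 * (Ξ * (1 - N0)) := by
      rw [e1]
      exact (abs_sub _ _).trans (add_le_add h1 h2)
    have h4 : (1 - N0) * (Ξ * N0) + N0 * (Ξ * (1 - N0)) ≤ Ξ := by
      nlinarith [mul_nonneg hΞ (sq_nonneg (2 * N0 - 1))]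
    linarith
  -- the denominator
  have hNnn : 0 ≤ N := Finset.sum_nonneg fun S hS =>
    mul_nonneg (mul_nonneg (ha S hS) (hc0 S hS)) (Real.exp_pos _).le
  have hNleZ : N ≤ Z := by
    refine Finset.sum_le_sum fun S hS => ?_
    have h1 := mul_le_mul_of_nonneg_left (hc1 S hS) (ha S hS)
    have h2 := mul_le_mul_of_nonneg_right h1 (Real.exp_pos (y S)).le
    linarith
  have hZlow : Real.exp (-Ξ) ≤ Z := by
    have : Real.exp (-Ξ) = ∑ S ∈ P, a S * Real.exp (-Ξ) := by
      rw [← Finset.sum_mul, hsum, one_mul]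
    rw [this]
    refine Finset.sum_le_sum fun S hS => ?_
    refine mul_le_mul_of_nonneg_left (Real.exp_le_exp.2 ?_) (ha S hS)
    have := abs_le.1 (hy S hS)
    linarith [this.1]
  have hZpos : 0 < Z := lt_of_lt_of_le (Real.exp_pos _) hZlow
  rcases le_total 1 Ξ with h1Ξ | hΞ1
  · -- large deviation case
    have h1 : |N / Z - N0| ≤ 1 := by
      have h2 : 0 ≤ N / Z := div_nonneg hNnn hZpos.le
      have h3 : N / Z ≤ 1 := (div_le_one hZpos).2 hNleZ
      rw [abs_le]
      constructor <;> linarith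
    have h2 : |N / Z - N0 - C| ≤ 1 + Ξ := (abs_sub _ _).trans (add_le_add h1 hCle)
    nlinarith
  · -- small deviation case
    set r : α → ℝ := fun S => Real.exp (y S) - 1 - y S with hr
    have hrle : ∀ S ∈ P, |r S| ≤ Ξ ^ 2 := by
      intro S hS
      have h1 : |y S| ≤ 1 := (hy S hS).trans hΞ1
      refine (Real.abs_exp_sub_one_sub_id_le h1).trans ?_
      rw [← sq_abs]
      exact pow_le_pow_left₀ (abs_nonneg _) (hy S hS) 2
    set N2 := ∑ S ∈ P, a S * c S * r S with hN2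
    set Z2 := ∑ S ∈ P, a S * r S with hZ2
    have hNexp : N = N0 + N1 + N2 := by
      rw [hN, hN0, hN1, hN2, ← Finset.sum_add_distrib, ← Finset.sum_add_distrib]
      exact Finset.sum_congr rfl fun S _ => by rw [hr]; ring
    have hZexp : Z = 1 + Z1 + Z2 := by
      rw [hZ, ← hsum, hZ1, hZ2, ← Finset.sum_add_distrib, ← Finset.sum_add_distrib]
      exact Finset.sum_congr rfl fun S _ => by rw [hr]; ring
    have hN2le : |N2| ≤ Ξ ^ 2 := by
      have : |N2| ≤ Ξ ^ 2 * N0 := by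
        rw [hN2, hN0, Finset.mul_sum]
        refine (Finset.abs_sum_le_sum_abs _ _).trans (Finset.sum_le_sum fun S hS => ?_)
        rw [abs_mul, abs_of_nonneg (mul_nonneg (ha S hS) (hc0 S hS)), mul_comm]
        exact mul_le_mul_of_nonneg_right (hrle S hS) (mul_nonneg (ha S hS) (hc0 S hS))
      nlinarith [sq_nonneg Ξ]
    have hZ2le : |Z2| ≤ Ξ ^ 2 := by
      have : |Z2| ≤ Ξ ^ 2 * 1 := by
        rw [← hsum, hZ2, Finset.mul_sum]
        refine (Finset.abs_sum_le_sum_abs _ _).trans (Finset.sum_le_sum fun S hS => ?_)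
        rw [abs_mul, abs_of_nonneg (ha S hS), mul_comm]
        exact mul_le_mul_of_nonneg_right (hrle S hS) (ha S hS)
      linarith
    have hZ1le : |Z1| ≤ Ξ := by
      have : |Z1| ≤ Ξ * 1 := by
        rw [← hsum, hZ1, Finset.mul_sum]
        refine (Finset.abs_sum_le_sum_abs _ _).trans (Finset.sum_le_sum fun S hS => ?_)
        rw [abs_mul, abs_of_nonneg (ha S hS), mul_comm]
        exact mul_le_mul_of_nonneg_right (hy S hS) (ha S hS)
      linarith
    have hZ3 : 1 / 3 ≤ Z := by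
      have h1 : Real.exp (-1) ≤ Real.exp (-Ξ) := Real.exp_le_exp.2 (by linarith)
      have h2 : (1:ℝ) / 3 ≤ Real.exp (-1) := by
        rw [Real.exp_neg, one_div]
        refine inv_anti₀ (Real.exp_pos _) ?_
        exact (Real.exp_one_lt_d9.le).trans (by norm_num)
      linarith
    have hnum : N - N0 * Z - C * Z = N2 - N0 * Z2 - C * (Z1 + Z2) := by
      rw [hNexp, hZexp, hC]; ring
    have hnumle : |N - N0 * Z - C * Z| ≤ 4 * Ξ ^ 2 := by
      rw [hnum]
      have h1 : |N0 * Z2| ≤ Ξ ^ 2 := by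
        rw [abs_mul, abs_of_nonneg hN00]
        nlinarith [abs_nonneg Z2, sq_nonneg Ξ]
      have h2 : |Z1 + Z2| ≤ Ξ + Ξ ^ 2 := (abs_add_le _ _).trans (add_le_add hZ1le hZ2le)
      have h3 : |C * (Z1 + Z2)| ≤ Ξ * (Ξ + Ξ ^ 2) := by
        rw [abs_mul]
        exact mul_le_mul hCle h2 (abs_nonneg _) hΞ
      have h4 : Ξ * (Ξ + Ξ ^ 2) ≤ 2 * Ξ ^ 2 := by nlinarith [mul_nonneg hΞ hΞ, mul_nonneg (mul_nonneg hΞ hΞ) hΞ]
      have h5 : |N2 - N0 * Z2 - C * (Z1 + Z2)| ≤ |N2| + |N0 * Z2| + |C * (Z1 + Z2)| :=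
        (abs_sub _ _).trans (add_le_add_left (abs_sub _ _) _)
      linarith
    have hdiv : N / Z - N0 - C = (N - N0 * Z - C * Z) / Z := by
      field_simp
    rw [hdiv, abs_div, abs_of_pos hZpos, div_le_iff₀ hZpos]
    have hnn : 0 ≤ 12 * Ξ ^ 2 := by positivity
    have := mul_le_mul_of_nonneg_left hZ3 hnn
    linarith

lemma wt_shift (S : Finset I) (t h : ℝ) (v x : I → ℝ) :
    wt S (t + h) (fun l => v l + x l) = wt S t v * Real.exp (∑ l ∈ S, (x l - h / 2)) := by
  unfold wt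
  rw [← Real.exp_add, ← Finset.sum_add_distrib]
  congr 1
  exact Finset.sum_congr rfl fun l _ => by ring

/-- Second order expansion of the posterior mean on `F`. -/
theorem Mfin_taylor (ν : Measure (I → Bool)) [IsProbabilityMeasure ν] (F : Finset I) (o : I)
    (t h : ℝ) (v x : I → ℝ) :
    |Mfin ν F o (t + h) (fun l => v l + x l) - Mfin ν F o t v -
        ∑ l ∈ F, Cfin ν F o l t v * (x l - h / 2)| ≤
      12 * (∑ l ∈ F, |x l - h / 2|) ^ 2 := by
  classical
  set ξ : I → ℝ := fun l => x l - h / 2 with hξ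
  set Z₀ := Zfin ν F t v with hZ₀
  have hZ₀pos : 0 < Z₀ := Zfin_pos ν F t v
  set P := F.powerset with hP
  set a : Finset I → ℝ := fun S => mass ν F S * wt S t v / Z₀ with ha
  set c : Finset I → ℝ := fun S => if o ∈ S then 1 else 0 with hc
  set y : Finset I → ℝ := fun S => ∑ l ∈ S, ξ l with hy
  set Ξ := ∑ l ∈ F, |ξ l| with hΞ
  have ha0 : ∀ S ∈ P, 0 ≤ a S := fun S _ =>
    div_nonneg (mul_nonneg (mass_nonneg _ _ _) (wt_pos _ _ _).le) hZ₀pos.le
  have hasum : ∑ S ∈ P, a S = 1 := by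
    rw [ha, ← Finset.sum_div]
    exact div_self hZ₀pos.ne'
  have hc0 : ∀ S ∈ P, 0 ≤ c S := fun S _ => by
    simp only [hc]; split_ifs <;> norm_num
  have hc1 : ∀ S ∈ P, c S ≤ 1 := fun S _ => by
    simp only [hc]; split_ifs <;> norm_num
  have hyle : ∀ S ∈ P, |y S| ≤ Ξ := fun S hS => by
    refine (Finset.abs_sum_le_sum_abs _ _).trans ?_
    exact Finset.sum_le_sum_of_subset_of_nonneg (Finset.mem_powerset.1 hS)
      fun _ _ _ => abs_nonneg _
  have hΞ0 : 0 ≤ Ξ := Finset.sum_nonneg fun _ _ => abs_nonneg _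
  have key := taylor_ratio_aux P a c y Ξ ha0 hasum hc0 hc1 hyle hΞ0
  -- identification of the terms
  have hNfin_gen : ∀ (e : I) (t' : ℝ) (v' : I → ℝ), Nfin ν F e t' v' =
      ∑ S ∈ P, (if e ∈ S then 1 else 0 : ℝ) * (mass ν F S * wt S t' v') := by
    intro e t' v'
    unfold Nfin
    rw [Finset.sum_filter]
    refine Finset.sum_congr rfl fun S _ => ?_
    by_cases he : e ∈ S <;> simp [he]
  have hN0 : ∑ S ∈ P, a S * c S = Mfin ν F o t v := by
    unfold Mfin
    rw [hNfin_gen, Finset.sum_div]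
    refine Finset.sum_congr rfl fun S _ => ?_
    simp only [ha, hc]
    ring
  have hMl : ∀ l, Mfin ν F l t v = ∑ S ∈ P, a S * (if l ∈ S then 1 else 0) := by
    intro l
    unfold Mfin
    rw [hNfin_gen, Finset.sum_div]
    refine Finset.sum_congr rfl fun S _ => ?_
    simp only [ha]
    ring
  have hM2l : ∀ l, Mfin2 ν F o l t v = ∑ S ∈ P, a S * c S * (if l ∈ S then 1 else 0) := by
    intro l
    unfold Mfin2 Nfin2
    rw [Finset.sum_div]
    have : (F.powerset.filter (fun S => o ∈ S ∧ l ∈ S)) = P.filter (fun S => o ∈ S ∧ l ∈ S) := rfl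
    rw [show (Finset.filter (fun S => o ∈ S ∧ l ∈ S) F.powerset) = P.filter (fun S => o ∈ S ∧ l ∈ S) from rfl]
    rw [Finset.sum_filter]
    refine Finset.sum_congr rfl fun S _ => ?_
    simp only [ha, hc]
    by_cases h1 : o ∈ S <;> by_cases h2 : l ∈ S <;> simp [h1, h2, hZ₀]
  -- exchange of sums
  have hswap : ∀ b : Finset I → ℝ,
      ∑ l ∈ F, (∑ S ∈ P, b S * (if l ∈ S then 1 else 0)) * ξ l = ∑ S ∈ P, b S * y S := by
    intro b
    simp only [Finset.sum_mul]
    rw [Finset.sum_comm]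
    refine Finset.sum_congr rfl fun S hS => ?_
    simp only [hy]
    rw [Finset.mul_sum]
    have hSF : S ⊆ F := Finset.mem_powerset.1 hS
    rw [← Finset.sum_subset hSF]
    · refine Finset.sum_congr rfl fun l hl => ?_
      simp [hl]
    · intro l _ hl
      simp [hl]
  have hZ1 : ∑ l ∈ F, Mfin ν F l t v * ξ l = ∑ S ∈ P, a S * y S := by
    simp only [hMl]
    exact hswap a
  have hN1 : ∑ l ∈ F, Mfin2 ν F o l t v * ξ l = ∑ S ∈ P, a S * c S * y S := by
    simp only [hM2l]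
    exact hswap (fun S => a S * c S)
  have hC : ∑ l ∈ F, Cfin ν F o l t v * ξ l =
      ∑ S ∈ P, a S * c S * y S - (∑ S ∈ P, a S * c S) * ∑ S ∈ P, a S * y S := by
    rw [← hN1, ← hZ1, hN0, Finset.mul_sum, ← Finset.sum_sub_distrib]
    refine Finset.sum_congr rfl fun l _ => ?_
    unfold Cfin
    ring
  have hshift : Mfin ν F o (t + h) (fun l => v l + x l) =
      (∑ S ∈ P, a S * c S * Real.exp (y S)) / (∑ S ∈ P, a S * Real.exp (y S)) := by
    have hnum : Nfin ν F o (t + h) (fun l => v l + x l) =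
        Z₀ * ∑ S ∈ P, a S * c S * Real.exp (y S) := by
      rw [hNfin_gen, Finset.mul_sum]
      refine Finset.sum_congr rfl fun S _ => ?_
      rw [wt_shift]
      simp only [ha, hc, hy, hξ]
      generalize Real.exp (∑ l ∈ S, (x l - h / 2)) = E
      field_simp
    have hden : Zfin ν F (t + h) (fun l => v l + x l) =
        Z₀ * ∑ S ∈ P, a S * Real.exp (y S) := by
      unfold Zfin
      rw [Finset.mul_sum]
      refine Finset.sum_congr rfl fun S _ => ?_
      rw [wt_shift]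
      simp only [ha, hy, hξ]
      generalize Real.exp (∑ l ∈ S, (x l - h / 2)) = E
      field_simp
    unfold Mfin
    rw [hnum, hden]
    exact mul_div_mul_left _ _ hZ₀pos.ne'
  rw [hshift, hC, ← hN0]
  exact key

theorem Mfin2_nonneg (ν : Measure (I → Bool)) (F : Finset I) (o u : I) (t : ℝ) (v : I → ℝ) :
    0 ≤ Mfin2 ν F o u t v := by
  unfold Mfin2 Nfin2
  refine div_nonneg (Finset.sum_nonneg fun S _ => mul_nonneg (mass_nonneg _ _ _) (wt_pos _ _ _).le) ?_
  exact Finset.sum_nonneg fun S _ => mul_nonneg (mass_nonneg _ _ _) (wt_pos _ _ _).le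

theorem Mfin2_le_one (ν : Measure (I → Bool)) (F : Finset I) (o u : I) (t : ℝ) (v : I → ℝ) :
    Mfin2 ν F o u t v ≤ 1 := by
  classical
  unfold Mfin2 Nfin2
  refine div_le_one_of_le₀ ?_ ?_
  · exact Finset.sum_le_sum_of_subset_of_nonneg (Finset.filter_subset _ _)
      fun S _ _ => mul_nonneg (mass_nonneg _ _ _) (wt_pos _ _ _).le
  · exact Finset.sum_nonneg fun S _ => mul_nonneg (mass_nonneg _ _ _) (wt_pos _ _ _).le

/-- The covariances are bounded by one. -/
theorem abs_Cfin_le (ν : Measure (I → Bool)) [IsProbabilityMeasure ν] (F : Finset I) (o u : I)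
    (t : ℝ) (v : I → ℝ) : |Cfin ν F o u t v| ≤ 1 := by
  unfold Cfin
  have h1 := Mfin2_nonneg ν F o u t v
  have h2 := Mfin2_le_one ν F o u t v
  have h3 := Mfin_nonneg ν F o t v
  have h4 := Mfin_le_one ν F o t v
  have h5 := Mfin_nonneg ν F u t v
  have h6 := Mfin_le_one ν F u t v
  have h7 : 0 ≤ Mfin ν F o t v * Mfin ν F u t v := mul_nonneg h3 h5
  have h8 : Mfin ν F o t v * Mfin ν F u t v ≤ 1 := by nlinarith
  rw [abs_le]
  constructor <;> linarith

theorem measurable_Mfin2 (ν : Measure (I → Bool)) (F : Finset I) (o u : I) (t : ℝ) :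
    Measurable (fun v : I → ℝ => Mfin2 ν F o u t v) := by
  unfold Mfin2 Nfin2 Zfin
  refine Measurable.div ?_ ?_
  · exact Finset.measurable_fun_sum _ fun S _ => (measurable_wt S t).const_mul _
  · exact Finset.measurable_fun_sum _ fun S _ => (measurable_wt S t).const_mul _

theorem measurable_Cfin (ν : Measure (I → Bool)) (F : Finset I) (o u : I) (t : ℝ) :
    Measurable (fun v : I → ℝ => Cfin ν F o u t v) := by
  unfold Cfin
  exact (measurable_Mfin2 ν F o u t).sub
    ((measurable_Mfin ν F o t).mul (measurable_Mfin ν F u t))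

theorem Mfin2_congr (ν : Measure (I → Bool)) (F : Finset I) (o u : I) (t : ℝ) {v v' : I → ℝ}
    (h : ∀ l ∈ F, v l = v' l) : Mfin2 ν F o u t v = Mfin2 ν F o u t v' := by
  classical
  have hw : ∀ S ∈ F.powerset, wt S t v = wt S t v' := fun S hS =>
    wt_congr fun l hl => h l (Finset.mem_powerset.1 hS hl)
  unfold Mfin2 Nfin2 Zfin
  congr 1
  · exact Finset.sum_congr rfl fun S hS => by
      rw [hw S (Finset.mem_of_mem_filter _ hS)]
  · exact Finset.sum_congr rfl fun S hS => by rw [hw S hS]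

theorem Cfin_congr (ν : Measure (I → Bool)) (F : Finset I) (o u : I) (t : ℝ) {v v' : I → ℝ}
    (h : ∀ l ∈ F, v l = v' l) : Cfin ν F o u t v = Cfin ν F o u t v' := by
  unfold Cfin
  rw [Mfin2_congr ν F o u t h, Mfin_congr ν F o t h, Mfin_congr ν F u t h]

end Crest.Agent.Lib.IT
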