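/-
The time structure of the localization, level computations (statement S0241).
On the level space `LevΩ I`: independence of the noise at step `j` from the past, orthogonality of
the increments `Dterm` of the approximate innovation, and their second moments.
-/
import Crest.Agent.Lib.IT.Pair
import Crest.Agent.Lib.LocInnov

set_option autoImplicit false

namespace Crest.Agent.Lib.IT

open MeasureTheory ProbabilityTheory Filter Topology
open scoped ENNReal NNReal
open Crest.Agent.Lib.Loc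

variable {I : Type*}

lemma memLp_of_bound {Ω : Type*} [MeasurableSpace Ω] {μ : Measure Ω} [IsFiniteMeasure μ]
    {Z : Ω → ℝ} (hZ : Measurable Z) (C : ℝ) (hC : ∀ a, |Z a| ≤ C) : MemLp Z 2 μ :=
  MemLp.of_bound hZ.aestronglyMeasurable C (ae_of_all _ fun a => by simpa using hC a)

lemma integral_add4 {Ω : Type*} [MeasurableSpace Ω] {μ : Measure Ω} {f g k l : Ω → ℝ}
    (hf : Integrable f μ) (hg : Integrable g μ) (hk : Integrable k μ) (hl : Integrable l μ) :
    ∫ a, f a + g a + k a + l a ∂μ = ∫ a, f a ∂μ + ∫ a, g a ∂μ + ∫ a, k a ∂μ + ∫ a, l a ∂μ := by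
  rw [integral_add (by exact (hf.add hg).add hk) hl, integral_add (by exact hf.add hg) hk,
    integral_add hf hg]

lemma integral_sub_add3 {Ω : Type*} [MeasurableSpace Ω] {μ : Measure Ω} {f g k : Ω → ℝ}
    (hf : Integrable f μ) (hg : Integrable g μ) (hk : Integrable k μ) :
    ∫ a, f a - g a + k a ∂μ = ∫ a, f a ∂μ - ∫ a, g a ∂μ + ∫ a, k a ∂μ := by
  rw [integral_add (by exact hf.sub hg) hk, integral_sub hf hg]

lemma integral_sub_sub_add4 {Ω : Type*} [MeasurableSpace Ω] {μ : Measure Ω} {f g k l : Ω → ℝ}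
    (hf : Integrable f μ) (hg : Integrable g μ) (hk : Integrable k μ) (hl : Integrable l μ) :
    ∫ a, f a - g a - k a + l a ∂μ = ∫ a, f a ∂μ - ∫ a, g a ∂μ - ∫ a, k a ∂μ + ∫ a, l a ∂μ := by
  rw [integral_add (by exact (hf.sub hg).sub hk) hl, integral_sub (by exact hf.sub hg) hk,
    integral_sub hf hg]

/-- Factorisation for functions measurable with respect to a pullback. -/
lemma eq_of_measurable_comap {X Y : Type*} [mY : MeasurableSpace Y] {f : X → Y} {g : X → ℝ}
    (hg : Measurable[mY.comap f] g) {a b : X} (hab : f a = f b) : g a = g b := by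
  obtain ⟨h, -, rfl⟩ := hg.exists_eq_measurable_comp
  simp [hab]

lemma obsAll_pastBlock (h : ℝ) (j : ℕ) (ω : I → Bool) (x : I × ℕ → ℝ) :
    obsAll h j (ω, pastBlock j x) = obsAll h j (ω, x) := by
  funext q
  by_cases hq : q.2 < j
  · simp [obsAll, pastBlock, hq]
  · simp [obsAll, hq]

lemma past_pastBlock {h : ℝ} {j : ℕ} {G : LevΩ I → ℝ} (hG : Measurable[pastσ h j] G) (ω : I → Bool)
    (x : I × ℕ → ℝ) : G (ω, pastBlock j x) = G (ω, x) :=
  eq_of_measurable_comap hG (obsAll_pastBlock h j ω x)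

/-- The noise at step `j` has mean zero against functions of the configuration and the past noise. -/
lemma integral_inv_mul_noise (ν : Measure (I → Bool)) [IsProbabilityMeasure ν] (h : ℝ≥0) (j : ℕ)
    (u : I) {G : LevΩ I → ℝ} (hGm : Measurable G)
    (hinv : ∀ ω x, G (ω, pastBlock j x) = G (ω, x)) :
    ∫ a, G a * a.2 (u, j) ∂(levP ν h) = 0 := by
  classical
  by_cases hint : Integrable (fun a : LevΩ I => G a * a.2 (u, j)) (ν.prod (noiseLaw (I × ℕ) h))
  · change ∫ a : LevΩ I, G a * a.2 (u, j) ∂(ν.prod (noiseLaw (I × ℕ) h)) = 0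
    rw [integral_prod _ hint]
    have : ∀ ω : I → Bool, ∫ x, G (ω, x) * x (u, j) ∂(noiseLaw (I × ℕ) h) = 0 := by
      intro ω
      have hI := indep_pastBlock h j ({u} : Finset I) (fun _ => 1)
      have hUω : Measurable (fun y => G (ω, y)) := hGm.comp (measurable_const.prodMk measurable_id)
      have hΘm : Measurable (fun x : I × ℕ → ℝ => ∑ e ∈ ({u} : Finset I), (1 : ℝ) * x (e, j)) :=
        Finset.measurable_fun_sum _ fun e _ => (measurable_pi_apply _).const_mul _
      have h1 := hI.integral_fun_comp_mul_comp (f := fun y => G (ω, y)) (g := fun r : ℝ => r)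
        (measurable_pastBlock j).aemeasurable hΘm.aemeasurable
        hUω.aestronglyMeasurable measurable_id.aestronglyMeasurable
      simp only [Finset.sum_singleton, one_mul] at h1
      simp only [hinv] at h1
      rw [h1]
      have h2 : ∫ x : I × ℕ → ℝ, x (u, j) ∂(noiseLaw (I × ℕ) h) = 0 := by
        have h3 : (noiseLaw (I × ℕ) h).map (fun x => x (u, j)) = gaussianReal 0 h :=
          Measure.infinitePi_map_eval _ _
        have h4 := integral_map (μ := noiseLaw (I × ℕ) h) (φ := fun x : I × ℕ → ℝ => x (u, j))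
          (measurable_pi_apply _).aemeasurable (f := fun r : ℝ => r)
          measurable_id.aestronglyMeasurable
        rw [h3, integral_id_gaussianReal] at h4
        exact h4.symm
      rw [h2, mul_zero]
    simp_rw [this]
    simp
  · exact integral_undef hint

lemma integral_past_mul_noise (ν : Measure (I → Bool)) [IsProbabilityMeasure ν] (h : ℝ≥0) (j : ℕ)
    (u : I) {G : LevΩ I → ℝ} (hG : Measurable[pastσ h j] G) :
    ∫ a, G a * a.2 (u, j) ∂(levP ν h) = 0 :=
  integral_inv_mul_noise ν h j u (hG.mono (pastσ_le _ _) le_rfl) (past_pastBlock hG)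

/-- The law of a noise coordinate on the level space. -/
lemma levP_map_noise (ν : Measure (I → Bool)) [IsProbabilityMeasure ν] (h : ℝ≥0) (q : I × ℕ) :
    (levP ν h).map (fun a : LevΩ I => a.2 q) = gaussianReal 0 h := by
  have h1 : (fun a : LevΩ I => a.2 q) = (fun x : I × ℕ → ℝ => x q) ∘ Prod.snd := rfl
  rw [h1, ← Measure.map_map (measurable_pi_apply q) measurable_snd]
  unfold levP
  rw [Measure.map_snd_prod, measure_univ, one_smul]
  exact Measure.infinitePi_map_eval _ _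

lemma memLp_noise (ν : Measure (I → Bool)) [IsProbabilityMeasure ν] (h : ℝ≥0) (q : I × ℕ) (p : ℝ≥0∞)
    (hp : p ≠ ∞ := by norm_num) : MemLp (fun a : LevΩ I => a.2 q) p (levP ν h) := by
  have hm : Measurable (fun a : LevΩ I => a.2 q) := (measurable_pi_apply q).comp measurable_snd
  have := memLp_id_gaussianReal' (μ := 0) (v := h) p hp
  rw [← levP_map_noise ν h q] at this
  exact (memLp_map_measure_iff this.1 hm.aemeasurable).1 this

/-- Independence of the noise at step `j` from the past, vector form. -/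
lemma indep_pastBlock_vec (h : ℝ≥0) (j : ℕ) :
    IndepFun (pastBlock j) (fun (x : I × ℕ → ℝ) (e : I) => x (e, j)) (noiseLaw (I × ℕ) h) := by
  set m : I × ℕ → MeasurableSpace (I × ℕ → ℝ) :=
    fun q => MeasurableSpace.comap (fun x => x q) inferInstance with hm
  have h_le : ∀ q, m q ≤ MeasurableSpace.pi := fun q => (measurable_pi_apply q).comap_le
  have h_indep : iIndep m (noiseLaw (I × ℕ) h) := by
    have := iIndepFun_infinitePi (P := fun _ : I × ℕ => gaussianReal 0 h)
      (X := fun _ y => y) (fun _ => measurable_id)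
    exact this
  have hdisj : Disjoint {q : I × ℕ | q.2 < j} {q : I × ℕ | q.2 = j} := by
    rw [Set.disjoint_left]
    intro q h1 h2
    have h1' : q.2 < j := h1
    have h2' : q.2 = j := h2
    omega
  have hI := indep_iSup_of_disjoint h_le h_indep hdisj
  have hmeas1 : Measurable[⨆ q ∈ {q : I × ℕ | q.2 < j}, m q] (pastBlock (I := I) j) := by
    refine @measurable_pi_lambda _ _ _ (⨆ q ∈ {q : I × ℕ | q.2 < j}, m q) _ _ fun q => ?_
    by_cases hq : q.2 < j
    · have h1 : (fun x : I × ℕ → ℝ => pastBlock j x q) = fun x => x q := by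
        funext x; simp [pastBlock, hq]
      rw [h1]
      have h2 : Measurable[m q] (fun x : I × ℕ → ℝ => x q) := comap_measurable _
      exact h2.mono (le_iSup₂_of_le q hq le_rfl) le_rfl
    · have h1 : (fun x : I × ℕ → ℝ => pastBlock j x q) = fun _ => 0 := by
        funext x; simp [pastBlock, hq]
      rw [h1]
      exact @measurable_const _ _ _ (⨆ q ∈ {q : I × ℕ | q.2 < j}, m q) _
  have hmeas2 : Measurable[⨆ q ∈ {q : I × ℕ | q.2 = j}, m q]
      (fun (x : I × ℕ → ℝ) (e : I) => x (e, j)) := by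
    refine @measurable_pi_lambda _ _ _ (⨆ q ∈ {q : I × ℕ | q.2 = j}, m q) _ _ fun e => ?_
    have h2 : Measurable[m (e, j)] (fun x : I × ℕ → ℝ => x (e, j)) := comap_measurable _
    exact h2.mono (le_iSup₂_of_le (e, j) rfl le_rfl) le_rfl
  rw [IndepFun_iff_Indep]
  exact indep_of_indep_of_le_left (indep_of_indep_of_le_right hI hmeas2.comap_le) hmeas1.comap_le

/-- The covariance of two noise coordinates. -/
lemma integral_noise_mul_noise (h : ℝ≥0) (q q' : I × ℕ) :
    ∫ x : I × ℕ → ℝ, x q * x q' ∂(noiseLaw (I × ℕ) h) =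
      (open Classical in if q = q' then (h : ℝ) else 0) := by
  classical
  have hlaw : ∀ q : I × ℕ, (noiseLaw (I × ℕ) h).map (fun x => x q) = gaussianReal 0 h :=
    fun q => Measure.infinitePi_map_eval _ _
  have hmean : ∀ q : I × ℕ, ∫ x : I × ℕ → ℝ, x q ∂(noiseLaw (I × ℕ) h) = 0 := by
    intro q
    have h4 := integral_map (μ := noiseLaw (I × ℕ) h) (φ := fun x : I × ℕ → ℝ => x q)
      (measurable_pi_apply _).aemeasurable (f := fun r : ℝ => r)
      measurable_id.aestronglyMeasurable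
    rw [hlaw, integral_id_gaussianReal] at h4
    exact h4.symm
  by_cases hq : q = q'
  · subst hq
    simp only [if_true]
    have h4 := integral_map (μ := noiseLaw (I × ℕ) h) (φ := fun x : I × ℕ → ℝ => x q)
      (measurable_pi_apply _).aemeasurable (f := fun r : ℝ => r * r)
      (measurable_id.mul measurable_id).aestronglyMeasurable
    rw [hlaw] at h4
    rw [← h4]
    have h5 := variance_id_gaussianReal (μ := 0) (v := h)
    rw [variance_eq_integral measurable_id.aemeasurable] at h5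
    simp only [id, integral_id_gaussianReal, sub_zero] at h5
    simpa [sq] using h5
  · simp only [hq, if_false]
    have hind : iIndepFun (fun (q : I × ℕ) (x : I × ℕ → ℝ) => x q) (noiseLaw (I × ℕ) h) :=
      iIndepFun_infinitePi (P := fun _ : I × ℕ => gaussianReal 0 h) (X := fun _ y => y)
        (fun _ => measurable_id)
    have h6 := (hind.indepFun hq).integral_mul_eq_mul_integral
      (measurable_pi_apply q).aestronglyMeasurable (measurable_pi_apply q').aestronglyMeasurable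
    simp only [Pi.mul_apply] at h6
    rw [h6, hmean, zero_mul]

/-- Noise coordinates in the same time step against the past: second moment. -/
lemma integral_past_mul_noise_mul_noise (ν : Measure (I → Bool)) [IsProbabilityMeasure ν] (h : ℝ≥0)
    (j : ℕ) (u u' : I) {G : LevΩ I → ℝ} (hG : Measurable[pastσ h j] G) (C : ℝ) (hC : ∀ a, |G a| ≤ C) :
    ∫ a, G a * (a.2 (u, j) * a.2 (u', j)) ∂(levP ν h) =
      (open Classical in if u = u' then (h : ℝ) else 0) * ∫ a, G a ∂(levP ν h) := by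
  classical
  have hGm : Measurable G := hG.mono (pastσ_le _ _) le_rfl
  have hGint : Integrable G (levP ν h) := integrable_of_bdd hGm C hC
  have hint : Integrable (fun a : LevΩ I => G a * (a.2 (u, j) * a.2 (u', j)))
      (ν.prod (noiseLaw (I × ℕ) h)) := by
    have h1 : Integrable (fun a : LevΩ I => a.2 (u, j) * a.2 (u', j)) (levP ν h) := by
      have h2 := (memLp_noise ν h (u, j) 2).integrable_mul (memLp_noise ν h (u', j) 2)
      exact h2
    exact h1.bdd_mul (c := C) hGm.aestronglyMeasurable (ae_of_all _ fun a => by simpa using hC a)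
  change ∫ a : LevΩ I, G a * (a.2 (u, j) * a.2 (u', j)) ∂(ν.prod (noiseLaw (I × ℕ) h)) =
    _ * ∫ a : LevΩ I, G a ∂(ν.prod (noiseLaw (I × ℕ) h))
  rw [integral_prod _ hint, integral_prod _ hGint, ← integral_const_mul]
  refine integral_congr_ae (ae_of_all _ fun ω => ?_)
  simp only
  have hUω : Measurable (fun y => G (ω, y)) := hGm.comp (measurable_const.prodMk measurable_id)
  have hvec : Measurable (fun (x : I × ℕ → ℝ) (e : I) => x (e, j)) :=
    measurable_pi_lambda _ fun e => measurable_pi_apply _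
  have h1 := (indep_pastBlock_vec (I := I) h j).integral_fun_comp_mul_comp
    (f := fun y => G (ω, y)) (g := fun r : I → ℝ => r u * r u')
    (measurable_pastBlock j).aemeasurable hvec.aemeasurable
    hUω.aestronglyMeasurable
    ((measurable_pi_apply u).mul (measurable_pi_apply u')).aestronglyMeasurable
  simp only [past_pastBlock hG] at h1
  rw [h1, integral_noise_mul_noise h (u, j) (u', j), mul_comm]
  congr 1
  by_cases huu : u = u'
  · simp [huu]
  · have : (u, j) ≠ (u', j) := fun he => huu (Prod.ext_iff.1 he).1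
    simp [huu, this]

section bayes
variable (ν : Measure (I → Bool)) [IsProbabilityMeasure ν] (h : ℝ≥0) (hh : h ≠ 0)
  {Fs : I → ℕ → Finset I} (hFs : GoodExh Fs)
include hh hFs

/-- The posterior mean is the conditional expectation given the past. -/
theorem mC_ae_condExp (e : I) (j : ℕ) :
    mC ν Fs h e j =ᵐ[levP ν h] (levP ν h)[fun a => bv (a.1 e) | pastσ (I := I) h j] := by
  refine ae_eq_condExp_of_forall_setIntegral_eq (pastσ_le h j) ?_ ?_ ?_ ?_
  · exact integrable_of_bdd (measurable_bv_site e) 1 fun a => abs_bv_le_one _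
  · intro s _ _
    exact (integrable_of_bdd (measurable_mC ν Fs h e j) 1 (abs_mC_le_one ν Fs h e j)).integrableOn
  · intro s hs _
    classical
    have hZ : Measurable[pastσ h j] (s.indicator (1 : LevΩ I → ℝ)) :=
      (@measurable_one _ _ _ (pastσ h j) _).indicator hs
    have hb : ∀ a, |s.indicator (1 : LevΩ I → ℝ) a| ≤ 1 := fun a => by
      by_cases ha : a ∈ s <;> simp [ha]
    have := bayes_lim ν h hh hFs e j _ hZ 1 hb
    have hs' : MeasurableSet s := pastσ_le h j s hs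
    rw [← integral_indicator hs', ← integral_indicator hs']
    convert this using 2
    · funext a
      by_cases ha : a ∈ s <;> simp [ha]
    · funext a
      by_cases ha : a ∈ s <;> simp [ha]
  · exact (measurable_mC_past ν Fs h e j).stronglyMeasurable.aestronglyMeasurable

/-- Bayes formula with integrable tests. -/
theorem bayes_lim_int (e : I) (j : ℕ) {G : LevΩ I → ℝ} (hG : Measurable[pastσ h j] G)
    (hGi : Integrable G (levP ν h)) :
    ∫ a, mC ν Fs h e j a * G a ∂(levP ν h) = ∫ a, bv (a.1 e) * G a ∂(levP ν h) := by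
  have hle := pastσ_le (I := I) h j
  set g : LevΩ I → ℝ := fun a => bv (a.1 e) with hg
  have hgi : Integrable g (levP ν h) :=
    integrable_of_bdd (measurable_bv_site e) 1 fun a => abs_bv_le_one _
  have hGg : Integrable (G * g) (levP ν h) :=
    hGi.mul_bdd (c := 1) (measurable_bv_site e).aestronglyMeasurable
      (ae_of_all _ fun a => by simpa using abs_bv_le_one _)
  have h1 := condExp_mul_of_aestronglyMeasurable_left (m := pastσ (I := I) h j)
    (μ := levP ν h) hG.stronglyMeasurable.aestronglyMeasurable hGg hgi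
  have h2 : ∫ a, (G * g) a ∂(levP ν h) = ∫ a, ((levP ν h)[G * g | pastσ (I := I) h j]) a ∂(levP ν h) :=
    (integral_condExp hle).symm
  have h3 : ∫ a, bv (a.1 e) * G a ∂(levP ν h) = ∫ a, (G * g) a ∂(levP ν h) := by
    refine integral_congr_ae (ae_of_all _ fun a => ?_)
    simp only [Pi.mul_apply, hg]
    ring
  rw [h3, h2]
  refine integral_congr_ae ?_
  filter_upwards [h1, mC_ae_condExp ν h hh hFs e j] with a ha hb
  rw [ha, hb]
  simp only [Pi.mul_apply]
  ring

/-- The increments of the approximate innovation. -/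
lemma integral_past_mul_Dterm (u : I) (j : ℕ) {G : LevΩ I → ℝ} (hG : Measurable[pastσ h j] G)
    (hGi : MemLp G 2 (levP ν h)) :
    ∫ a, G a * Dterm ν Fs (h : ℝ) u j a ∂(levP ν h) = 0 := by
  have hGm : Measurable G := hG.mono (pastσ_le _ _) le_rfl
  have hGI : Integrable G (levP ν h) := hGi.integrable (by norm_num)
  have h1 : ∀ a : LevΩ I, G a * Dterm ν Fs (h : ℝ) u j a =
      G a * a.2 (u, j) + (h : ℝ) * (bv (a.1 u) * G a - mC ν Fs h u j a * G a) := by
    intro a
    unfold Dterm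
    ring
  have i1 : Integrable (fun a : LevΩ I => G a * a.2 (u, j)) (levP ν h) :=
    hGi.integrable_mul (memLp_noise ν h (u, j) 2)
  have i2 : Integrable (fun a : LevΩ I => bv (a.1 u) * G a) (levP ν h) :=
    hGI.bdd_mul (c := 1) (measurable_bv_site u).aestronglyMeasurable
      (ae_of_all _ fun a => by simpa using abs_bv_le_one _)
  have i3 : Integrable (fun a : LevΩ I => mC ν Fs h u j a * G a) (levP ν h) :=
    hGI.bdd_mul (c := 1) (measurable_mC ν Fs h u j).aestronglyMeasurable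
      (ae_of_all _ fun a => by simpa using abs_mC_le_one ν Fs h u j a)
  have i4 : Integrable (fun a : LevΩ I => (h : ℝ) * (bv (a.1 u) * G a - mC ν Fs h u j a * G a))
      (levP ν h) := (i2.sub i3).const_mul _
  simp_rw [h1]
  rw [integral_add i1 i4, integral_const_mul, integral_sub i2 i3,
    integral_past_mul_noise ν h j u hG, bayes_lim_int ν h hh hFs u j hG hGI]
  simp

/-- The approximate innovation increment over a range of steps. -/
noncomputable def SD (ν : Measure (I → Bool)) (Fs : I → ℕ → Finset I) (h : ℝ) (u : I) (J₀ J : ℕ)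
    (a : LevΩ I) : ℝ :=
  ∑ j ∈ Finset.Ico J₀ J, Dterm ν Fs h u j a

omit [IsProbabilityMeasure ν] hh hFs in
lemma measurable_Dterm_past (r : ℝ) (u : I) (j : ℕ) :
    Measurable[pastσ r (j + 1)] (Dterm ν Fs r u j) := by
  have h1 : Dterm ν Fs r u j = fun a => obsAll r (j + 1) a (u, j) - r * mC ν Fs r u j a := by
    funext a
    simp only [Dterm, obsAll, Nat.lt_succ_self, if_true]
    ring
  rw [h1]
  refine Measurable.sub ?_ (Measurable.const_mul ?_ _)
  · have h2 : Measurable[pastσ r (j + 1)] (obsAll (I := I) r (j + 1)) := comap_measurable _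
    exact (measurable_pi_apply (u, j)).comp h2
  · exact (measurable_mC_past ν Fs r u j).mono (pastσ_mono r (Nat.le_succ j)) le_rfl

omit [IsProbabilityMeasure ν] hh hFs in
lemma measurable_SD_past (r : ℝ) (u : I) (J₀ J : ℕ) :
    Measurable[pastσ r J] (SD ν Fs r u J₀ J) := by
  unfold SD
  refine @Finset.measurable_fun_sum _ _ _ _ _ _ (pastσ r J) _ _ fun j hj => ?_
  have hj' := (Finset.mem_Ico.1 hj).2
  exact (measurable_Dterm_past ν r u j).mono (pastσ_mono r hj') le_rfl

omit hh hFs in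
lemma memLp_Dterm (u : I) (j : ℕ) : MemLp (Dterm ν Fs (h : ℝ) u j) 2 (levP ν h) := by
  have h1 : Dterm ν Fs (h : ℝ) u j = fun a : LevΩ I => a.2 (u, j) + (h : ℝ) * (bv (a.1 u) - mC ν Fs h u j a) :=
    rfl
  rw [h1]
  refine (memLp_noise ν h (u, j) 2).add ?_
  refine MemLp.of_bound (Measurable.aestronglyMeasurable (Measurable.const_mul
    ((measurable_bv_site u).sub (measurable_mC ν Fs h u j)) _)) (h : ℝ) (ae_of_all _ fun a => ?_)
  rw [Real.norm_eq_abs, abs_mul, NNReal.abs_eq]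
  have := abs_bv_sub_mC_le ν Fs (h : ℝ) u j a
  have h0 : (0 : ℝ) ≤ h := h.2
  nlinarith

omit hh hFs in
lemma memLp_SD (u : I) (J₀ J : ℕ) : MemLp (SD ν Fs (h : ℝ) u J₀ J) 2 (levP ν h) := by
  have : SD ν Fs (h : ℝ) u J₀ J = fun a => ∑ j ∈ Finset.Ico J₀ J, Dterm ν Fs (h : ℝ) u j a := rfl
  rw [this]
  exact memLp_finsetSum _ fun j _ => memLp_Dterm ν h u j

omit hh hFs in
lemma memLp_bdd_mul {G Z : LevΩ I → ℝ} (hG : MemLp G 2 (levP ν h)) (hZ : Measurable Z) (C : ℝ)
    (hC : ∀ a, |Z a| ≤ C) : MemLp (fun a => Z a * G a) 2 (levP ν h) := by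
  have h1 : MemLp Z ⊤ (levP ν h) := memLp_top_of_bound hZ.aestronglyMeasurable C
    (ae_of_all _ fun a => by simpa using hC a)
  exact hG.mul (r := 2) h1

/-- First moment of the approximate innovation increment against the past. -/
theorem integral_past_mul_SD (u : I) {J₀ J : ℕ} (hJ : J₀ ≤ J) {Z : LevΩ I → ℝ}
    (hZ : Measurable[pastσ h J₀] Z) (C : ℝ) (hC : ∀ a, |Z a| ≤ C) :
    ∫ a, Z a * SD ν Fs (h : ℝ) u J₀ J a ∂(levP ν h) = 0 := by
  have hZm : Measurable Z := hZ.mono (pastσ_le _ _) le_rfl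
  have hZL : MemLp Z 2 (levP ν h) := memLp_of_bound hZm C hC
  unfold SD
  simp_rw [Finset.mul_sum]
  rw [integral_finsetSum]
  · refine Finset.sum_eq_zero fun j hj => ?_
    have hj' := (Finset.mem_Ico.1 hj).1
    exact integral_past_mul_Dterm ν h hh hFs u j (hZ.mono (pastσ_mono _ hj') le_rfl) hZL
  · intro j _
    exact hZL.integrable_mul (memLp_Dterm ν h u j)

/-- One step of the second moment. -/
theorem integral_past_mul_D_D (u u' : I) {J : ℕ} {Z : LevΩ I → ℝ}
    (hZ : Measurable[pastσ h J] Z) (C : ℝ) (hC : ∀ a, |Z a| ≤ C) :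
    |∫ a, Z a * (Dterm ν Fs (h : ℝ) u J a * Dterm ν Fs (h : ℝ) u' J a) ∂(levP ν h) -
      (open Classical in if u = u' then (h : ℝ) else 0) * ∫ a, Z a ∂(levP ν h)| ≤
      C * (h : ℝ) ^ 2 := by
  classical
  have hZm : Measurable Z := hZ.mono (pastσ_le _ _) le_rfl
  have hC0 : 0 ≤ C := (abs_nonneg _).trans (hC default)
  set r : LevΩ I → ℝ := fun a => bv (a.1 u) - mC ν Fs h u J a with hr
  set r' : LevΩ I → ℝ := fun a => bv (a.1 u') - mC ν Fs h u' J a with hr'
  have hrm : Measurable r := (measurable_bv_site u).sub (measurable_mC ν Fs h u J)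
  have hrm' : Measurable r' := (measurable_bv_site u').sub (measurable_mC ν Fs h u' J)
  have hrb : ∀ a, |r a| ≤ 1 := abs_bv_sub_mC_le ν Fs h u J
  have hrb' : ∀ a, |r' a| ≤ 1 := abs_bv_sub_mC_le ν Fs h u' J
  have hinv : ∀ (v : I) ω x, Z (ω, pastBlock J x) * (bv (ω v) - mC ν Fs h v J (ω, pastBlock J x)) =
      Z (ω, x) * (bv (ω v) - mC ν Fs h v J (ω, x)) := by
    intro v ω x
    rw [past_pastBlock hZ, mC_pastBlock ν Fs (h : ℝ) v ω x le_rfl]
  have e1 : ∫ a, (Z a * r a) * a.2 (u', J) ∂(levP ν h) = 0 :=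
    integral_inv_mul_noise ν h J u' (hZm.mul hrm) (hinv u)
  have e2 : ∫ a, (Z a * r' a) * a.2 (u, J) ∂(levP ν h) = 0 :=
    integral_inv_mul_noise ν h J u (hZm.mul hrm') (hinv u')
  have e3 := integral_past_mul_noise_mul_noise ν h J u u' hZ C hC
  have hx := memLp_noise ν h (u, J) 2
  have hx' := memLp_noise ν h (u', J) 2
  have i0 : Integrable (fun a : LevΩ I => Z a * (a.2 (u, J) * a.2 (u', J))) (levP ν h) := by
    have : Integrable (fun a : LevΩ I => a.2 (u, J) * a.2 (u', J)) (levP ν h) := hx.integrable_mul hx'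
    exact this.bdd_mul (c := C) hZm.aestronglyMeasurable (ae_of_all _ fun a => by simpa using hC a)
  have i1 : Integrable (fun a : LevΩ I => (Z a * r a) * a.2 (u', J)) (levP ν h) :=
    (memLp_of_bound (hZm.mul hrm) C (fun a => by
      simp only [Pi.mul_apply]; rw [abs_mul]; exact (mul_le_of_le_one_right (abs_nonneg _) (hrb a)).trans (hC a))).integrable_mul hx'
  have i2 : Integrable (fun a : LevΩ I => (Z a * r' a) * a.2 (u, J)) (levP ν h) :=
    (memLp_of_bound (hZm.mul hrm') C (fun a => by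
      simp only [Pi.mul_apply]; rw [abs_mul]; exact (mul_le_of_le_one_right (abs_nonneg _) (hrb' a)).trans (hC a))).integrable_mul hx
  have hb3 : ∀ a, |Z a * (r a * r' a)| ≤ C := fun a => by
    rw [abs_mul, abs_mul]
    have : |r a| * |r' a| ≤ 1 := mul_le_one₀ (hrb a) (abs_nonneg _) (hrb' a)
    exact (mul_le_of_le_one_right (abs_nonneg _) this).trans (hC a)
  have i3 : Integrable (fun a : LevΩ I => Z a * (r a * r' a)) (levP ν h) :=
    integrable_of_bdd (hZm.mul (hrm.mul hrm')) C hb3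
  have hexp : ∀ a : LevΩ I, Z a * (Dterm ν Fs (h : ℝ) u J a * Dterm ν Fs (h : ℝ) u' J a) =
      Z a * (a.2 (u, J) * a.2 (u', J)) + (h : ℝ) * ((Z a * r' a) * a.2 (u, J)) +
        (h : ℝ) * ((Z a * r a) * a.2 (u', J)) + (h : ℝ) ^ 2 * (Z a * (r a * r' a)) := by
    intro a
    simp only [Dterm, hr, hr']
    ring
  simp_rw [hexp]
  rw [integral_add4 i0 (i2.const_mul _) (i1.const_mul _) (i3.const_mul _),
    integral_const_mul, integral_const_mul, integral_const_mul,
    e1, e2, e3]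
  simp only [mul_zero, add_zero, add_sub_cancel_left]
  rw [abs_mul, abs_of_nonneg (sq_nonneg (h : ℝ)), mul_comm]
  refine mul_le_mul_of_nonneg_right ?_ (sq_nonneg _)
  refine (abs_integral_le_integral_abs).trans ?_
  have := integral_mono_of_nonneg (μ := levP ν h) (f := fun a => |Z a * (r a * r' a)|)
    (g := fun _ => C) (ae_of_all _ fun a => abs_nonneg _) (integrable_const _)
    (ae_of_all _ hb3)
  simpa using this

/-- Second moments of the approximate innovation increment against the past. -/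
theorem integral_past_mul_SD_SD (u u' : I) {J₀ J : ℕ} (hJ : J₀ ≤ J) {Z : LevΩ I → ℝ}
    (hZ : Measurable[pastσ h J₀] Z) (C : ℝ) (hC : ∀ a, |Z a| ≤ C) :
    |∫ a, Z a * (SD ν Fs (h : ℝ) u J₀ J a * SD ν Fs (h : ℝ) u' J₀ J a) ∂(levP ν h) -
      ((J : ℝ) - J₀) * (open Classical in if u = u' then (h : ℝ) else 0) * ∫ a, Z a ∂(levP ν h)| ≤
      ((J : ℝ) - J₀) * (C * (h : ℝ) ^ 2) := by
  classical
  have hZm : Measurable Z := hZ.mono (pastσ_le _ _) le_rfl
  induction J, hJ using Nat.le_induction with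
  | base =>
    simp [SD]
  | succ J hJ ih =>
    have hZJ : Measurable[pastσ h J] Z := hZ.mono (pastσ_mono _ hJ) le_rfl
    have hS : ∀ v a, SD ν Fs (h : ℝ) v J₀ (J + 1) a =
        SD ν Fs (h : ℝ) v J₀ J a + Dterm ν Fs (h : ℝ) v J a := by
      intro v a
      simp only [SD]
      rw [Finset.sum_Ico_succ_top hJ]
    have hmS : ∀ v, MemLp (fun a => Z a * SD ν Fs (h : ℝ) v J₀ J a) 2 (levP ν h) := fun v =>
      memLp_bdd_mul ν h (memLp_SD ν h v J₀ J) hZm C hC
    have hpS : ∀ v, Measurable[pastσ h J] (fun a => Z a * SD ν Fs (h : ℝ) v J₀ J a) := fun v =>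
      hZJ.mul (measurable_SD_past ν (h : ℝ) v J₀ J)
    have e1 := integral_past_mul_Dterm ν h hh hFs u' J (hpS u) (hmS u)
    have e2 := integral_past_mul_Dterm ν h hh hFs u J (hpS u') (hmS u')
    have e3 := integral_past_mul_D_D ν h hh hFs u u' hZJ C hC
    have i0 : Integrable (fun a => Z a * (SD ν Fs (h : ℝ) u J₀ J a * SD ν Fs (h : ℝ) u' J₀ J a))
        (levP ν h) := by
      have : Integrable (fun a => SD ν Fs (h : ℝ) u J₀ J a * SD ν Fs (h : ℝ) u' J₀ J a) (levP ν h) :=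
        (memLp_SD ν h u J₀ J).integrable_mul (memLp_SD ν h u' J₀ J)
      exact this.bdd_mul (c := C) hZm.aestronglyMeasurable (ae_of_all _ fun a => by simpa using hC a)
    have i1 : Integrable (fun a => (Z a * SD ν Fs (h : ℝ) u J₀ J a) * Dterm ν Fs (h : ℝ) u' J a)
        (levP ν h) := (hmS u).integrable_mul (memLp_Dterm ν h u' J)
    have i2 : Integrable (fun a => (Z a * SD ν Fs (h : ℝ) u' J₀ J a) * Dterm ν Fs (h : ℝ) u J a)
        (levP ν h) := (hmS u').integrable_mul (memLp_Dterm ν h u J)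
    have i3 : Integrable (fun a => Z a * (Dterm ν Fs (h : ℝ) u J a * Dterm ν Fs (h : ℝ) u' J a))
        (levP ν h) := by
      have : Integrable (fun a => Dterm ν Fs (h : ℝ) u J a * Dterm ν Fs (h : ℝ) u' J a) (levP ν h) :=
        (memLp_Dterm ν h u J).integrable_mul (memLp_Dterm ν h u' J)
      exact this.bdd_mul (c := C) hZm.aestronglyMeasurable (ae_of_all _ fun a => by simpa using hC a)
    have hexp : ∀ a, Z a * (SD ν Fs (h : ℝ) u J₀ (J + 1) a * SD ν Fs (h : ℝ) u' J₀ (J + 1) a) =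
        Z a * (SD ν Fs (h : ℝ) u J₀ J a * SD ν Fs (h : ℝ) u' J₀ J a) +
          (Z a * SD ν Fs (h : ℝ) u J₀ J a) * Dterm ν Fs (h : ℝ) u' J a +
          (Z a * SD ν Fs (h : ℝ) u' J₀ J a) * Dterm ν Fs (h : ℝ) u J a +
          Z a * (Dterm ν Fs (h : ℝ) u J a * Dterm ν Fs (h : ℝ) u' J a) := by
      intro a
      rw [hS, hS]
      ring
    simp_rw [hexp]
    rw [integral_add4 i0 i1 i2 i3, e1, e2]
    simp only [add_zero]
    push_cast
    rw [abs_le] at ih e3 ⊢
    constructor <;> nlinarith [ih.1, ih.2, e3.1, e3.2]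

/-- The cross moment with a configuration variable. -/
theorem integral_bv_mul_SD (o u : I) {J₀ J : ℕ} (hJ : J₀ ≤ J) {Z : LevΩ I → ℝ}
    (hZ : Measurable[pastσ h J₀] Z) (C : ℝ) (hC : ∀ a, |Z a| ≤ C) :
    ∫ a, bv (a.1 o) * SD ν Fs (h : ℝ) u J₀ J a * Z a ∂(levP ν h) =
      ∑ j ∈ Finset.Ico J₀ J, (h : ℝ) * (∫ a, bv (a.1 o) * bv (a.1 u) * Z a ∂(levP ν h) -
        ∫ a, mC ν Fs h o j a * mC ν Fs h u j a * Z a ∂(levP ν h)) := by
  have hZm : Measurable Z := hZ.mono (pastσ_le _ _) le_rfl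
  have hexp : ∀ a, bv (a.1 o) * SD ν Fs (h : ℝ) u J₀ J a * Z a =
      ∑ j ∈ Finset.Ico J₀ J, (Z a * bv (a.1 o)) * Dterm ν Fs (h : ℝ) u j a := by
    intro a
    simp only [SD]
    rw [Finset.mul_sum, Finset.sum_mul]
    refine Finset.sum_congr rfl fun j _ => ?_
    ring
  simp_rw [hexp]
  have hmZ : MemLp (fun a : LevΩ I => Z a * bv (a.1 o)) 2 (levP ν h) :=
    memLp_of_bound (hZm.mul (measurable_bv_site o)) C fun a => by
      rw [abs_mul]
      exact (mul_le_of_le_one_right (abs_nonneg _) (abs_bv_le_one _)).trans (hC a)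
  have hii : ∀ j ∈ Finset.Ico J₀ J, Integrable (fun a : LevΩ I =>
      (Z a * bv (a.1 o)) * Dterm ν Fs (h : ℝ) u j a) (levP ν h) :=
    fun j _ => hmZ.integrable_mul (memLp_Dterm ν h u j)
  rw [integral_finsetSum _ hii]
  refine Finset.sum_congr rfl fun j hj => ?_
  have hj' := (Finset.mem_Ico.1 hj).1
  have hZj : Measurable[pastσ h j] Z := hZ.mono (pastσ_mono _ hj') le_rfl
  -- split the increment
  have hm : Measurable (fun a : LevΩ I => Z a * bv (a.1 o)) := hZm.mul (measurable_bv_site o)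
  have e0 : ∫ a, (Z a * bv (a.1 o)) * a.2 (u, j) ∂(levP ν h) = 0 :=
    integral_inv_mul_noise ν h j u hm (fun ω x => by
      simp only
      rw [past_pastBlock hZj])
  have i0 : Integrable (fun a : LevΩ I => (Z a * bv (a.1 o)) * a.2 (u, j)) (levP ν h) :=
    hmZ.integrable_mul (memLp_noise ν h (u, j) 2)
  have b1 : ∀ a : LevΩ I, |bv (a.1 o) * bv (a.1 u) * Z a| ≤ C := fun a => by
    rw [abs_mul, abs_mul]
    have : |bv (a.1 o)| * |bv (a.1 u)| ≤ 1 :=
      mul_le_one₀ (abs_bv_le_one _) (abs_nonneg _) (abs_bv_le_one _)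
    exact (mul_le_of_le_one_left (abs_nonneg _) this).trans (hC a)
  have i1 : Integrable (fun a : LevΩ I => bv (a.1 o) * bv (a.1 u) * Z a) (levP ν h) :=
    integrable_of_bdd (((measurable_bv_site o).mul (measurable_bv_site u)).mul hZm) C b1
  have hmu : Measurable[pastσ h j] (fun a => mC ν Fs h u j a * Z a) :=
    (measurable_mC_past ν Fs h u j).mul hZj
  have bmu : ∀ a, |mC ν Fs h u j a * Z a| ≤ C := fun a => by
    rw [abs_mul]
    exact (mul_le_of_le_one_left (abs_nonneg _) (abs_mC_le_one ν Fs h u j a)).trans (hC a)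
  have i2 : Integrable (fun a : LevΩ I => bv (a.1 o) * (mC ν Fs h u j a * Z a)) (levP ν h) :=
    integrable_of_bdd ((measurable_bv_site o).mul ((measurable_mC ν Fs h u j).mul hZm)) C fun a => by
      rw [abs_mul]
      exact (mul_le_of_le_one_left (abs_nonneg _) (abs_bv_le_one _)).trans (bmu a)
  have e1 := bayes_lim ν h hh hFs o j _ hmu C bmu
  have hexp2 : ∀ a : LevΩ I, (Z a * bv (a.1 o)) * Dterm ν Fs (h : ℝ) u j a =
      (Z a * bv (a.1 o)) * a.2 (u, j) + (h : ℝ) * (bv (a.1 o) * bv (a.1 u) * Z a -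
        bv (a.1 o) * (mC ν Fs h u j a * Z a)) := by
    intro a
    simp only [Dterm]
    ring
  simp_rw [hexp2]
  have i3 : Integrable (fun a : LevΩ I => (h : ℝ) * (bv (a.1 o) * bv (a.1 u) * Z a -
        bv (a.1 o) * (mC ν Fs h u j a * Z a))) (levP ν h) := (i1.sub i2).const_mul _
  rw [integral_add i0 i3, e0, integral_const_mul, integral_sub i1 i2, zero_add, ← e1]
  congr 2
  refine integral_congr_ae (ae_of_all _ fun a => ?_)
  simp only
  ring

/-- Martingale orthogonality of the posterior means. -/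
theorem integral_sq_mC_sub (e : I) {j j' : ℕ} (hj : j ≤ j') :
    ∫ a, (mC ν Fs h e j' a - mC ν Fs h e j a) ^ 2 ∂(levP ν h) =
      ∫ a, mC ν Fs h e j' a ^ 2 ∂(levP ν h) - ∫ a, mC ν Fs h e j a ^ 2 ∂(levP ν h) := by
  have hm : ∀ j, Measurable (mC ν Fs (h : ℝ) e j) := fun j => measurable_mC ν Fs _ e j
  have hb : ∀ j, BddF (mC ν Fs (h : ℝ) e j) := fun j => ⟨1, abs_mC_le_one ν Fs _ e j⟩
  have hprod : ∫ a, mC ν Fs h e j' a * mC ν Fs h e j a ∂(levP ν h) =
      ∫ a, mC ν Fs h e j a ^ 2 ∂(levP ν h) := by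
    have := mC_martingale ν h hh hFs e hj (mC ν Fs h e j) (measurable_mC_past ν Fs h e j) (hb j)
    simp only [sq]
    exact this
  have h1 : ∀ a, (mC ν Fs h e j' a - mC ν Fs h e j a) ^ 2 =
      mC ν Fs h e j' a ^ 2 - 2 * (mC ν Fs h e j' a * mC ν Fs h e j a) + mC ν Fs h e j a ^ 2 :=
    fun a => by ring
  simp_rw [h1]
  have i1 : Integrable (fun a => mC ν Fs h e j' a ^ 2) (levP ν h) := by
    simp only [sq]
    exact integrable_of_bddF ((hm _).mul (hm _)) ((hb _).mul (hb _))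
  have i2 : Integrable (fun a => mC ν Fs h e j a ^ 2) (levP ν h) := by
    simp only [sq]
    exact integrable_of_bddF ((hm _).mul (hm _)) ((hb _).mul (hb _))
  have i3 : Integrable (fun a => mC ν Fs h e j' a * mC ν Fs h e j a) (levP ν h) :=
    integrable_of_bddF ((hm _).mul (hm _)) ((hb _).mul (hb _))
  rw [integral_sub_add3 i1 (i3.const_mul 2) i2, integral_const_mul, hprod]
  ring

theorem sq_mC_mono (e : I) {j j' : ℕ} (hj : j ≤ j') :
    ∫ a, mC ν Fs h e j a ^ 2 ∂(levP ν h) ≤ ∫ a, mC ν Fs h e j' a ^ 2 ∂(levP ν h) := by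
  have h1 := integral_sq_mC_sub ν h hh hFs e hj
  have h2 : 0 ≤ ∫ a, (mC ν Fs h e j' a - mC ν Fs h e j a) ^ 2 ∂(levP ν h) :=
    integral_nonneg fun a => sq_nonneg _
  linarith

/-- The product of two posterior means against the past. -/
theorem integral_mC_mul_mC_sub (o u : I) {j₀ j : ℕ} (hj : j₀ ≤ j) {Z : LevΩ I → ℝ}
    (hZ : Measurable[pastσ h j₀] Z) (hb : ∀ a, |Z a| ≤ 1) :
    ∫ a, mC ν Fs h o j a * mC ν Fs h u j a * Z a ∂(levP ν h) -
        ∫ a, mC ν Fs h o j₀ a * mC ν Fs h u j₀ a * Z a ∂(levP ν h) =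
      ∫ a, (mC ν Fs h o j a - mC ν Fs h o j₀ a) * (mC ν Fs h u j a - mC ν Fs h u j₀ a) * Z a
        ∂(levP ν h) := by
  have hZm : Measurable Z := hZ.mono (pastσ_le _ _) le_rfl
  have hm : ∀ e j, Measurable (mC ν Fs (h : ℝ) e j) := fun e j => measurable_mC ν Fs _ e j
  have hbb : ∀ e j, BddF (mC ν Fs (h : ℝ) e j) := fun e j => ⟨1, abs_mC_le_one ν Fs _ e j⟩
  have hZb : BddF Z := ⟨1, hb⟩
  have e1 := mC_martingale ν h hh hFs u hj (fun a => mC ν Fs h o j₀ a * Z a)
    ((measurable_mC_past ν Fs h o j₀).mul hZ) ((hbb o j₀).mul hZb)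
  have e2 := mC_martingale ν h hh hFs o hj (fun a => mC ν Fs h u j₀ a * Z a)
    ((measurable_mC_past ν Fs h u j₀).mul hZ) ((hbb u j₀).mul hZb)
  have hint : ∀ {f g k : LevΩ I → ℝ}, Measurable f → Measurable g → Measurable k → BddF f → BddF g →
      BddF k → Integrable (fun a => f a * g a * k a) (levP ν h) := fun hf hg hk bf bg bk =>
    integrable_of_bddF ((hf.mul hg).mul hk) ((bf.mul bg).mul bk)
  have i1 := hint (hm o j) (hm u j) hZm (hbb o j) (hbb u j) hZb
  have i2 := hint (hm o j₀) (hm u j₀) hZm (hbb o j₀) (hbb u j₀) hZb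
  have i3 := hint (hm u j) (hm o j₀) hZm (hbb u j) (hbb o j₀) hZb
  have i4 := hint (hm o j) (hm u j₀) hZm (hbb o j) (hbb u j₀) hZb
  have hexp : ∀ a, (mC ν Fs h o j a - mC ν Fs h o j₀ a) * (mC ν Fs h u j a - mC ν Fs h u j₀ a) * Z a =
      mC ν Fs h o j a * mC ν Fs h u j a * Z a - mC ν Fs h u j a * mC ν Fs h o j₀ a * Z a -
        mC ν Fs h o j a * mC ν Fs h u j₀ a * Z a + mC ν Fs h o j₀ a * mC ν Fs h u j₀ a * Z a :=
    fun a => by ring
  simp_rw [hexp]
  rw [integral_sub_sub_add4 i1 i3 i4 i2]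
  simp only [mul_assoc] at e1 e2 ⊢
  rw [e1, e2]
  have e5 : ∫ a, mC ν Fs h u j₀ a * (mC ν Fs h o j₀ a * Z a) ∂(levP ν h) =
      ∫ a, mC ν Fs h o j₀ a * (mC ν Fs h u j₀ a * Z a) ∂(levP ν h) := by
    refine integral_congr_ae (ae_of_all _ fun a => ?_)
    simp only
    ring
  rw [e5]
  ring

/-- Bound of the product of two increments of posterior means against the past. -/
theorem abs_integral_mC_mul_mC_sub_le (o u : I) {j₀ j J : ℕ} (hj : j₀ ≤ j) (hjJ : j ≤ J)
    {Z : LevΩ I → ℝ} (hZ : Measurable[pastσ h j₀] Z) (hb : ∀ a, |Z a| ≤ 1) :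
    |∫ a, mC ν Fs h o j a * mC ν Fs h u j a * Z a ∂(levP ν h) -
        ∫ a, mC ν Fs h o j₀ a * mC ν Fs h u j₀ a * Z a ∂(levP ν h)| ≤
      ((∫ a, mC ν Fs h o J a ^ 2 ∂(levP ν h) - ∫ a, mC ν Fs h o j₀ a ^ 2 ∂(levP ν h)) +
        (∫ a, mC ν Fs h u J a ^ 2 ∂(levP ν h) - ∫ a, mC ν Fs h u j₀ a ^ 2 ∂(levP ν h))) / 2 := by
  have hZm : Measurable Z := hZ.mono (pastσ_le _ _) le_rfl
  rw [integral_mC_mul_mC_sub ν h hh hFs o u hj hZ hb]
  have hm : ∀ e j, Measurable (mC ν Fs (h : ℝ) e j) := fun e j => measurable_mC ν Fs _ e j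
  have hbb : ∀ e j, BddF (mC ν Fs (h : ℝ) e j) := fun e j => ⟨1, abs_mC_le_one ν Fs _ e j⟩
  have i1 : ∀ e : I, Integrable (fun a => (mC ν Fs h e j a - mC ν Fs h e j₀ a) ^ 2) (levP ν h) := by
    intro e
    simp only [sq]
    exact integrable_of_bddF (((hm _ _).sub (hm _ _)).mul ((hm _ _).sub (hm _ _)))
      (((hbb _ _).sub (hbb _ _)).mul ((hbb _ _).sub (hbb _ _)))
  have hle : ∫ a, (mC ν Fs h o j a - mC ν Fs h o j₀ a) * (mC ν Fs h u j a - mC ν Fs h u j₀ a) * Z a
        ∂(levP ν h) ≤ ∫ a, ((mC ν Fs h o j a - mC ν Fs h o j₀ a) ^ 2 +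
          (mC ν Fs h u j a - mC ν Fs h u j₀ a) ^ 2) / 2 ∂(levP ν h) ∧
      -∫ a, (mC ν Fs h o j a - mC ν Fs h o j₀ a) * (mC ν Fs h u j a - mC ν Fs h u j₀ a) * Z a
        ∂(levP ν h) ≤ ∫ a, ((mC ν Fs h o j a - mC ν Fs h o j₀ a) ^ 2 +
          (mC ν Fs h u j a - mC ν Fs h u j₀ a) ^ 2) / 2 ∂(levP ν h) := by
    have ib : Integrable (fun a => (mC ν Fs h o j a - mC ν Fs h o j₀ a) *
        (mC ν Fs h u j a - mC ν Fs h u j₀ a) * Z a) (levP ν h) :=
      integrable_of_bddF ((((hm _ _).sub (hm _ _)).mul ((hm _ _).sub (hm _ _))).mul hZm)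
        ((((hbb _ _).sub (hbb _ _)).mul ((hbb _ _).sub (hbb _ _))).mul ⟨1, hb⟩)
    have ir : Integrable (fun a => ((mC ν Fs h o j a - mC ν Fs h o j₀ a) ^ 2 +
          (mC ν Fs h u j a - mC ν Fs h u j₀ a) ^ 2) / 2) (levP ν h) :=
      ((i1 o).add (i1 u)).div_const 2
    have hpt : ∀ a, |(mC ν Fs h o j a - mC ν Fs h o j₀ a) *
        (mC ν Fs h u j a - mC ν Fs h u j₀ a) * Z a| ≤
        ((mC ν Fs h o j a - mC ν Fs h o j₀ a) ^ 2 +
          (mC ν Fs h u j a - mC ν Fs h u j₀ a) ^ 2) / 2 := by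
      intro a
      have hz := hb a
      set x := mC ν Fs h o j a - mC ν Fs h o j₀ a
      set y := mC ν Fs h u j a - mC ν Fs h u j₀ a
      rw [abs_mul, abs_mul]
      have h1 : |x| * |y| * |Z a| ≤ |x| * |y| * 1 :=
        mul_le_mul_of_nonneg_left hz (mul_nonneg (abs_nonneg _) (abs_nonneg _))
      have h2 : |x| * |y| ≤ (x ^ 2 + y ^ 2) / 2 := by
        have := sq_nonneg (|x| - |y|)
        rw [sub_sq, sq_abs, sq_abs] at this
        linarith
      linarith
    constructor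
    · exact integral_mono ib ir fun a => (le_abs_self _).trans (hpt a)
    · rw [← integral_neg]
      exact integral_mono ib.neg ir fun a => by
        simp only [Pi.neg_apply]
        exact (neg_le_abs _).trans (hpt a)
  rw [abs_le]
  have heq : ∫ a, ((mC ν Fs h o j a - mC ν Fs h o j₀ a) ^ 2 +
          (mC ν Fs h u j a - mC ν Fs h u j₀ a) ^ 2) / 2 ∂(levP ν h) =
      ((∫ a, mC ν Fs h o j a ^ 2 ∂(levP ν h) - ∫ a, mC ν Fs h o j₀ a ^ 2 ∂(levP ν h)) +
        (∫ a, mC ν Fs h u j a ^ 2 ∂(levP ν h) - ∫ a, mC ν Fs h u j₀ a ^ 2 ∂(levP ν h))) / 2 := by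
    rw [integral_div, integral_add (i1 o) (i1 u), integral_sq_mC_sub ν h hh hFs o hj,
      integral_sq_mC_sub ν h hh hFs u hj]
  rw [heq] at hle
  have m1 := sq_mC_mono ν h hh hFs o hjJ
  have m2 := sq_mC_mono ν h hh hFs u hjJ
  constructor <;> linarith [hle.1, hle.2]

/-- The cross moment of the configuration with the approximate innovation, compared to the covariance
at the initial time. -/
theorem abs_integral_bv_mul_SD_sub (o u : I) {J₀ J : ℕ} (hJ : J₀ ≤ J) {Z : LevΩ I → ℝ}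
    (hZ : Measurable[pastσ h J₀] Z) (hb : ∀ a, |Z a| ≤ 1) :
    |∫ a, bv (a.1 o) * SD ν Fs (h : ℝ) u J₀ J a * Z a ∂(levP ν h) -
        ((J : ℝ) - J₀) * (h : ℝ) * (∫ a, bv (a.1 o) * bv (a.1 u) * Z a ∂(levP ν h) -
          ∫ a, mC ν Fs h o J₀ a * mC ν Fs h u J₀ a * Z a ∂(levP ν h))| ≤
      ((J : ℝ) - J₀) * (h : ℝ) *
      (((∫ a, mC ν Fs h o J a ^ 2 ∂(levP ν h) - ∫ a, mC ν Fs h o J₀ a ^ 2 ∂(levP ν h)) +
        (∫ a, mC ν Fs h u J a ^ 2 ∂(levP ν h) - ∫ a, mC ν Fs h u J₀ a ^ 2 ∂(levP ν h))) / 2) := by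
  rw [integral_bv_mul_SD ν h hh hFs o u hJ hZ 1 hb]
  set A := ∫ a, bv (a.1 o) * bv (a.1 u) * Z a ∂(levP ν h)
  set B₀ := ∫ a, mC ν Fs h o J₀ a * mC ν Fs h u J₀ a * Z a ∂(levP ν h)
  set κ := ((∫ a, mC ν Fs h o J a ^ 2 ∂(levP ν h) - ∫ a, mC ν Fs h o J₀ a ^ 2 ∂(levP ν h)) +
        (∫ a, mC ν Fs h u J a ^ 2 ∂(levP ν h) - ∫ a, mC ν Fs h u J₀ a ^ 2 ∂(levP ν h))) / 2
  have hcard : ((J : ℝ) - J₀) = ((Finset.Ico J₀ J).card : ℝ) := by
    rw [Nat.card_Ico, Nat.cast_sub hJ]
  have h1 : ∑ j ∈ Finset.Ico J₀ J, (h : ℝ) * (A - ∫ a, mC ν Fs h o j a * mC ν Fs h u j a * Z a ∂(levP ν h)) -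
      ((J : ℝ) - J₀) * (h : ℝ) * (A - B₀) =
      ∑ j ∈ Finset.Ico J₀ J, (h : ℝ) * (B₀ - ∫ a, mC ν Fs h o j a * mC ν Fs h u j a * Z a ∂(levP ν h)) := by
    rw [hcard]
    have : ((Finset.Ico J₀ J).card : ℝ) * (h : ℝ) * (A - B₀) =
        ∑ j ∈ Finset.Ico J₀ J, (h : ℝ) * (A - B₀) := by
      rw [Finset.sum_const, nsmul_eq_mul]
      ring
    rw [this, ← Finset.sum_sub_distrib]
    refine Finset.sum_congr rfl fun j _ => ?_
    ring
  rw [h1]
  refine (Finset.abs_sum_le_sum_abs _ _).trans ?_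
  have h2 : ∀ j ∈ Finset.Ico J₀ J, |(h : ℝ) * (B₀ - ∫ a, mC ν Fs h o j a * mC ν Fs h u j a * Z a ∂(levP ν h))| ≤
      (h : ℝ) * κ := by
    intro j hj
    have hj' := Finset.mem_Ico.1 hj
    rw [abs_mul, NNReal.abs_eq]
    refine mul_le_mul_of_nonneg_left ?_ h.2
    rw [abs_sub_comm]
    exact abs_integral_mC_mul_mC_sub_le ν h hh hFs o u hj'.1 hj'.2.le hZ hb
  refine (Finset.sum_le_sum h2).trans ?_
  rw [Finset.sum_const, nsmul_eq_mul, hcard]
  exact le_of_eq (by ring)

end bayes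


end Crest.Agent.Lib.IT
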