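/-
The finite-volume posterior on the canonical space of one level (statement S0241): Bayes formula
for pairs, martingale orthogonality, one step second moment bound.
-/
import Crest.Agent.Lib.IT.Taylor
import Crest.Agent.Lib.IT.TimeA
import Crest.Agent.Lib.LocLevy

set_option autoImplicit false

namespace Crest.Agent.Lib.IT

open MeasureTheory ProbabilityTheory Filter Topology
open scoped ENNReal NNReal
open Crest.Agent.Lib.Loc

variable {I : Type*}

/-! ### Preliminaries -/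

lemma Nfin2_eq_sum_ite (ν : Measure (I → Bool)) (F : Finset I) (o u : I) (t : ℝ) (v : I → ℝ) :
    Nfin2 ν F o u t v = ∑ S ∈ F.powerset,
      (open Classical in if o ∈ S ∧ u ∈ S then 1 else 0 : ℝ) * (mass ν F S * wt S t v) := by
  classical
  unfold Nfin2
  rw [Finset.sum_filter]
  refine Finset.sum_congr rfl fun S _ => ?_
  by_cases h : o ∈ S ∧ u ∈ S <;> simp [h]

lemma Mfin2_mul_Zfin (ν : Measure (I → Bool)) [IsProbabilityMeasure ν] (F : Finset I) (o u : I)
    (t : ℝ) (v : I → ℝ) : Mfin2 ν F o u t v * Zfin ν F t v = Nfin2 ν F o u t v :=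
  div_mul_cancel₀ _ (Zfin_pos ν F t v).ne'

/-- Partial sums of the observed increments recover the observation. -/
lemma Vsum_obsF_of_le (h : ℝ) (F : Finset I) {j j' : ℕ} (hj : j ≤ j') (a : LevΩ I) {l : I}
    (hl : l ∈ F) : Vsum j (obsF h F j' a) l = Ypos h a l j := by
  classical
  unfold Vsum Ypos obsF blockP
  have h1 : ∀ i ∈ Finset.range j, (if (l, i).1 ∈ F ∧ (l, i).2 < j' then
      h * bv (a.1 (l, i).1) + a.2 (l, i) else 0) = h * bv (a.1 l) + a.2 (l, i) := by
    intro i hi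
    have hi' : i < j' := lt_of_lt_of_le (Finset.mem_range.1 hi) hj
    simp [hl, hi']
  rw [Finset.sum_congr rfl h1, Finset.sum_add_distrib]
  simp only [Finset.sum_const, Finset.card_range, nsmul_eq_mul]
  ring

lemma abs_Mfin_le (ν : Measure (I → Bool)) (F : Finset I) (e : I) (t : ℝ) (v : I → ℝ) :
    |Mfin ν F e t v| ≤ 1 := by
  rw [abs_le]
  exact ⟨by linarith [Mfin_nonneg ν F e t v], Mfin_le_one _ _ _ _ _⟩

lemma abs_Mfin2_le (ν : Measure (I → Bool)) (F : Finset I) (o u : I) (t : ℝ) (v : I → ℝ) :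
    |Mfin2 ν F o u t v| ≤ 1 := by
  rw [abs_le]
  exact ⟨by linarith [Mfin2_nonneg ν F o u t v], Mfin2_le_one _ _ _ _ _ _⟩

lemma measurable_mF (ν : Measure (I → Bool)) (h : ℝ) (F : Finset I) (e : I) (j : ℕ) :
    Measurable (mF ν h F e j) := by
  have h1 : mF ν h F e j = (fun g => Mfin ν F e (j * h) (Vsum j g)) ∘ obsAll h j := by
    funext a
    simp only [mF, Function.comp]
    congr 1
    funext l
    exact (Vsum_obsAll h j a l).symm
  rw [h1]
  exact ((measurable_Mfin ν F e _).comp (measurable_Vsum j)).comp (measurable_obsAll h j)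

lemma measurable_m2F (ν : Measure (I → Bool)) (h : ℝ) (F : Finset I) (o u : I) (j : ℕ) :
    Measurable (m2F ν h F o u j) := by
  have h1 : m2F ν h F o u j = (fun g => Mfin2 ν F o u (j * h) (Vsum j g)) ∘ obsAll h j := by
    funext a
    simp only [m2F, Function.comp]
    congr 1
    funext l
    exact (Vsum_obsAll h j a l).symm
  rw [h1]
  exact ((measurable_Mfin2 ν F o u _).comp (measurable_Vsum j)).comp (measurable_obsAll h j)

/-- The covariance on the block at step `j` is a function of the observed past. -/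
lemma measurable_cF_past (ν : Measure (I → Bool)) (h : ℝ) (F : Finset I) (o u : I) (j : ℕ) :
    Measurable[pastσ h j] (cF ν h F o u j) := by
  have h1 : cF ν h F o u j = (fun g => Cfin ν F o u (j * h) (Vsum j g)) ∘ obsAll h j := by
    funext a
    simp only [cF, Function.comp]
    congr 1
    funext l
    exact (Vsum_obsAll h j a l).symm
  rw [h1]
  exact ((measurable_Cfin ν F o u _).comp (measurable_Vsum j)).comp (comap_measurable _)

lemma abs_cF_le (ν : Measure (I → Bool)) [IsProbabilityMeasure ν] (h : ℝ) (F : Finset I) (o u : I)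
    (j : ℕ) (a : LevΩ I) : |cF ν h F o u j a| ≤ 1 := abs_Cfin_le _ _ _ _ _ _

/-- An abstract orthogonality computation. -/
lemma integral_sq_sub_of_orth {Ω : Type*} [MeasurableSpace Ω] {μ : Measure Ω}
    [IsProbabilityMeasure μ] {m m' b : Ω → ℝ} (hm : Measurable m) (hm' : Measurable m')
    (hb : Measurable b) (hmb : ∀ a, |m a| ≤ 1) (hmb' : ∀ a, |m' a| ≤ 1) (hbb : ∀ a, |b a| ≤ 1)
    (h1 : ∫ a, b a * m a ∂μ = ∫ a, m' a * m a ∂μ) (h2 : ∫ a, b a * m a ∂μ = ∫ a, m a * m a ∂μ) :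
    ∫ a, (m' a - m a) ^ 2 ∂μ = ∫ a, m' a ^ 2 ∂μ - ∫ a, m a ^ 2 ∂μ := by
  have hint : ∀ {f g : Ω → ℝ}, Measurable f → Measurable g → (∀ a, |f a| ≤ 1) → (∀ a, |g a| ≤ 1) →
      Integrable (fun a => f a * g a) μ := by
    intro f g hf hg hfb hgb
    refine Integrable.of_bound (hf.mul hg).aestronglyMeasurable 1 (ae_of_all _ fun a => ?_)
    rw [Real.norm_eq_abs, abs_mul]
    exact mul_le_one₀ (hfb a) (abs_nonneg _) (hgb a)
  have i1 := hint hm' hm' hmb' hmb'
  have i2 := hint hm' hm hmb' hmb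
  have i3 := hint hm hm hmb hmb
  have e1 : ∀ a, (m' a - m a) ^ 2 = m' a * m' a - 2 * (m' a * m a) + m a * m a := fun a => by ring
  simp_rw [e1, sq]
  have i4 : Integrable (fun a => m' a * m' a - 2 * (m' a * m a)) μ := i1.sub (i2.const_mul 2)
  rw [integral_add i4 i3, integral_sub i1 (i2.const_mul 2), integral_const_mul, ← h1, h2]
  ring

section
variable (ν : Measure (I → Bool)) [IsProbabilityMeasure ν] (h : ℝ≥0) (hh : h ≠ 0)
include hh

/-- Bayes formula for pairs on a finite block. -/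
theorem bayes_fin2 {F : Finset I} {o u : I} (ho : o ∈ F) (hu : u ∈ F) (j : ℕ)
    (Z : (I × ℕ → ℝ) → ℝ) (hZ : Measurable Z) (C : ℝ) (hC : ∀ x, |Z x| ≤ C) :
    ∫ a, bv (a.1 o) * bv (a.1 u) * Z (obsF h F j a) ∂(levP ν h) =
      ∫ a, m2F ν h F o u j a * Z (obsF h F j a) ∂(levP ν h) := by
  classical
  set f₁ : Finset I → ℝ := fun S => if o ∈ S ∧ u ∈ S then 1 else 0 with hf₁
  have hbv : ∀ a : LevΩ I, bv (a.1 o) * bv (a.1 u) = f₁ (occ F a.1) := by
    intro a
    by_cases hω : a.1 o = true <;> by_cases hω' : a.1 u = true <;>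
      simp [bv, hω, hω', hf₁, mem_occ, ho, hu]
  simp_rw [hbv]
  rw [master_sum ν h hh F j f₁ Z hZ C hC]
  set Mt : (I × ℕ → ℝ) → ℝ := fun g => Mfin2 ν F o u (j * h) (Vsum j g) with hMt
  have hMtm : Measurable Mt := (measurable_Mfin2 ν F o u _).comp (measurable_Vsum j)
  have hMtb : ∀ g, |Mt g| ≤ 1 := fun g => abs_Mfin2_le ν F o u _ _
  have hR : ∀ a : LevΩ I, m2F ν h F o u j a = Mt (obsF h F j a) := by
    intro a
    exact Mfin2_congr ν F o u _ fun l hl => (Vsum_obsF h F j a hl).symm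
  simp_rw [hR]
  have := master_sum ν h hh F j (fun _ => 1) (fun g => Mt g * Z g) (hMtm.mul hZ) C (fun g => by
    rw [abs_mul]
    calc |Mt g| * |Z g| ≤ 1 * C := mul_le_mul (hMtb g) (hC g) (abs_nonneg _) zero_le_one
      _ = C := one_mul C)
  simp only [one_mul] at this
  rw [this]
  refine integral_congr_ae (ae_of_all _ fun x => ?_)
  simp only
  rw [← mul_assoc]
  congr 1
  have hZf : ∑ S ∈ F.powerset, mass ν F S * wt S (j * h) (Vsum j (blockP F j x)) =
      Zfin ν F (j * h) (Vsum j (blockP F j x)) := rfl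
  rw [hZf, mul_comm (Zfin _ _ _ _), hMt]
  simp only
  rw [Mfin2_mul_Zfin, Nfin2_eq_sum_ite]

/-- The pair posterior as a conditional expectation given the block. -/
theorem m2F_ae_condExp {F : Finset I} {o u : I} (ho : o ∈ F) (hu : u ∈ F) (j : ℕ) :
    m2F ν h F o u j =ᵐ[levP ν h]
      (levP ν h)[fun a => bv (a.1 o) * bv (a.1 u) | MeasurableSpace.comap (obsF h F j) inferInstance] := by
  classical
  have hm : MeasurableSpace.comap (obsF (I := I) h F j) inferInstance ≤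
      (inferInstance : MeasurableSpace (LevΩ I)) := (measurable_obsF h F j).comap_le
  set Mt : (I × ℕ → ℝ) → ℝ := fun g => Mfin2 ν F o u (j * h) (Vsum j g) with hMt
  have hMtm : Measurable Mt := (measurable_Mfin2 ν F o u _).comp (measurable_Vsum j)
  have hR : m2F ν h F o u j = Mt ∘ obsF h F j := by
    funext a
    exact Mfin2_congr ν F o u _ fun l hl => (Vsum_obsF h F j a hl).symm
  have hgm : Measurable (m2F ν h F o u j) := by
    rw [hR]; exact hMtm.comp (measurable_obsF _ _ _)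
  have hgb : ∀ a : LevΩ I, |m2F ν h F o u j a| ≤ 1 := fun a => abs_Mfin2_le ν F o u _ _
  have hbvm : Measurable (fun a : LevΩ I => bv (a.1 o) * bv (a.1 u)) :=
    (measurable_bv_site o).mul (measurable_bv_site u)
  have hbvb : ∀ a : LevΩ I, |bv (a.1 o) * bv (a.1 u)| ≤ 1 := fun a => by
    rw [abs_mul]
    exact mul_le_one₀ (abs_bv_le_one _) (abs_nonneg _) (abs_bv_le_one _)
  refine ae_eq_condExp_of_forall_setIntegral_eq hm ?_ ?_ ?_ ?_
  · exact integrable_of_bdd hbvm 1 hbvb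
  · intro s _ _
    exact (integrable_of_bdd hgm 1 hgb).integrableOn
  · rintro s ⟨T, hT, rfl⟩ _
    have hZm : Measurable (T.indicator (1 : (I × ℕ → ℝ) → ℝ)) := measurable_one.indicator hT
    have hZb : ∀ x, |T.indicator (1 : (I × ℕ → ℝ) → ℝ) x| ≤ 1 := fun x => by
      by_cases hx : x ∈ T <;> simp [hx]
    have := bayes_fin2 ν h hh ho hu j _ hZm 1 hZb
    have hs : MeasurableSet (obsF (I := I) h F j ⁻¹' T) := measurable_obsF _ _ _ hT
    rw [← integral_indicator hs, ← integral_indicator hs]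
    convert this.symm using 2
    · funext a
      by_cases ha : a ∈ obsF h F j ⁻¹' T
      · have ha' : obsF h F j a ∈ T := ha
        simp [Set.indicator_of_mem ha, ha']
      · have ha' : obsF h F j a ∉ T := ha
        simp [Set.indicator_of_notMem ha, ha']
    · funext a
      by_cases ha : a ∈ obsF h F j ⁻¹' T
      · have ha' : obsF h F j a ∈ T := ha
        simp [Set.indicator_of_mem ha, ha']
      · have ha' : obsF h F j a ∉ T := ha
        simp [Set.indicator_of_notMem ha, ha']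
  · rw [hR]
    exact (hMtm.comp (comap_measurable _)).stronglyMeasurable.aestronglyMeasurable

/-- Martingale orthogonality of the finite-volume posterior means. -/
theorem integral_sq_mF_sub {F : Finset I} {e : I} (he : e ∈ F) {j j' : ℕ} (hj : j ≤ j') :
    ∫ a, (mF ν h F e j' a - mF ν h F e j a) ^ 2 ∂(levP ν h) =
      ∫ a, mF ν h F e j' a ^ 2 ∂(levP ν h) - ∫ a, mF ν h F e j a ^ 2 ∂(levP ν h) := by
  set Z : (I × ℕ → ℝ) → ℝ := fun g => Mfin ν F e (j * h) (Vsum j g) with hZdef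
  have hZm : Measurable Z := (measurable_Mfin ν F e _).comp (measurable_Vsum j)
  have hZb : ∀ x, |Z x| ≤ 1 := fun x => abs_Mfin_le ν F e _ _
  have hZo : ∀ {k : ℕ}, j ≤ k → ∀ a : LevΩ I, Z (obsF h F k a) = mF ν h F e j a := by
    intro k hk a
    exact Mfin_congr ν F e _ fun l hl => Vsum_obsF_of_le h F hk a hl
  refine integral_sq_sub_of_orth (b := fun a : LevΩ I => bv (a.1 e))
    (measurable_mF ν h F e j) (measurable_mF ν h F e j') (measurable_bv_site e)
    (fun a => abs_Mfin_le ν F e _ _) (fun a => abs_Mfin_le ν F e _ _)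
    (fun a => abs_bv_le_one _) ?_ ?_
  · have := bayes_fin ν h hh he j' Z hZm 1 hZb
    simp_rw [hZo hj] at this
    exact this
  · have := bayes_fin ν h hh he j Z hZm 1 hZb
    simp_rw [hZo le_rfl] at this
    exact this

/-- Martingale orthogonality of the finite-volume pair posteriors. -/
theorem integral_sq_m2F_sub {F : Finset I} {o u : I} (ho : o ∈ F) (hu : u ∈ F) {j j' : ℕ}
    (hj : j ≤ j') :
    ∫ a, (m2F ν h F o u j' a - m2F ν h F o u j a) ^ 2 ∂(levP ν h) =
      ∫ a, m2F ν h F o u j' a ^ 2 ∂(levP ν h) - ∫ a, m2F ν h F o u j a ^ 2 ∂(levP ν h) := by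
  set Z : (I × ℕ → ℝ) → ℝ := fun g => Mfin2 ν F o u (j * h) (Vsum j g) with hZdef
  have hZm : Measurable Z := (measurable_Mfin2 ν F o u _).comp (measurable_Vsum j)
  have hZb : ∀ x, |Z x| ≤ 1 := fun x => abs_Mfin2_le ν F o u _ _
  have hZo : ∀ {k : ℕ}, j ≤ k → ∀ a : LevΩ I, Z (obsF h F k a) = m2F ν h F o u j a := by
    intro k hk a
    exact Mfin2_congr ν F o u _ fun l hl => Vsum_obsF_of_le h F hk a hl
  refine integral_sq_sub_of_orth (b := fun a : LevΩ I => bv (a.1 o) * bv (a.1 u))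
    (measurable_m2F ν h F o u j) (measurable_m2F ν h F o u j')
    ((measurable_bv_site o).mul (measurable_bv_site u))
    (fun a => abs_Mfin2_le ν F o u _ _) (fun a => abs_Mfin2_le ν F o u _ _)
    (fun a => by
      rw [abs_mul]
      exact mul_le_one₀ (abs_bv_le_one _) (abs_nonneg _) (abs_bv_le_one _)) ?_ ?_
  · have := bayes_fin2 ν h hh ho hu j' Z hZm 1 hZb
    simp_rw [hZo hj] at this
    exact this
  · have := bayes_fin2 ν h hh ho hu j Z hZm 1 hZb
    simp_rw [hZo le_rfl] at this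
    exact this

end

/-! ### The one step bound -/

/-- The pointwise algebra of the one step bound. -/
lemma step_alg (A E X K h : ℝ) (hh0 : 0 < h) (hh1 : h ≤ 1) (hK : 0 ≤ K) (hX : 0 ≤ X)
    (hA : |A| ≤ X) (hE : |E| ≤ h * K + 24 * X ^ 2) :
    2 * |A| * |E| + E ^ 2 ≤ (2 * K + 48 + 2 * K ^ 2 + 1152) * (h * Real.sqrt h) * (1 + X ^ 4 / h ^ 2) := by
  set s := Real.sqrt h with hs
  have hs0 : 0 < s := Real.sqrt_pos.2 hh0
  have hs2 : s ^ 2 = h := Real.sq_sqrt hh0.le
  have hs1 : s ≤ 1 := by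
    rw [hs]; exact Real.sqrt_le_one.2 hh1
  set y := X / s with hy
  have hy0 : 0 ≤ y := div_nonneg hX hs0.le
  have hXy : X = s * y := by rw [hy]; field_simp
  have hX4 : X ^ 4 / h ^ 2 = y ^ 4 := by
    rw [hXy, ← hs2]; field_simp
  have hy1 : y ≤ 1 + y ^ 4 := by
    rcases le_total y 1 with h1 | h1
    · have : 0 ≤ y ^ 4 := by positivity
      linarith
    · have : y ^ 1 ≤ y ^ 4 := pow_le_pow_right₀ h1 (by norm_num)
      have h0 : (0 : ℝ) ≤ 1 := zero_le_one
      simp only [pow_one] at this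
      linarith
  have hy3 : y ^ 3 ≤ 1 + y ^ 4 := by
    rcases le_total y 1 with h1 | h1
    · have : y ^ 3 ≤ 1 := pow_le_one₀ hy0 h1
      have : 0 ≤ y ^ 4 := by positivity
      linarith
    · have : y ^ 3 ≤ y ^ 4 := pow_le_pow_right₀ h1 (by norm_num)
      linarith
  have hs43 : s ^ 4 ≤ s ^ 3 := pow_le_pow_of_le_one hs0.le hs1 (by norm_num)
  have hs3 : 0 ≤ s ^ 3 := by positivity
  have hB : 0 ≤ h * K + 24 * X ^ 2 := by positivity
  have h1 : 2 * |A| * |E| ≤ 2 * X * (h * K + 24 * X ^ 2) := by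
    have := mul_le_mul hA hE (abs_nonneg _) hX
    nlinarith
  have h2 : E ^ 2 ≤ (h * K + 24 * X ^ 2) ^ 2 := by
    rw [← sq_abs E]
    exact pow_le_pow_left₀ (abs_nonneg _) hE 2
  have h3 : (h * K + 24 * X ^ 2) ^ 2 ≤ 2 * (h * K) ^ 2 + 2 * (24 * X ^ 2) ^ 2 := by
    nlinarith [sq_nonneg (h * K - 24 * X ^ 2)]
  have hh' : h * s = s ^ 3 := by rw [← hs2]; ring
  rw [hX4, hh']
  have e1 : 2 * X * (h * K + 24 * X ^ 2) = 2 * K * (s ^ 3 * y) + 48 * (s ^ 3 * y ^ 3) := by
    rw [hXy, ← hs2]; ring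
  have e2 : 2 * (h * K) ^ 2 + 2 * (24 * X ^ 2) ^ 2 = 2 * K ^ 2 * s ^ 4 + 1152 * (s ^ 4 * y ^ 4) := by
    rw [hXy, ← hs2]; ring
  have t1 : s ^ 3 * y ≤ s ^ 3 * (1 + y ^ 4) := mul_le_mul_of_nonneg_left hy1 hs3
  have t2 : s ^ 3 * y ^ 3 ≤ s ^ 3 * (1 + y ^ 4) := mul_le_mul_of_nonneg_left hy3 hs3
  have hy4 : 0 ≤ y ^ 4 := by positivity
  have t3 : s ^ 4 ≤ s ^ 3 * (1 + y ^ 4) := by nlinarith
  have t4 : s ^ 4 * y ^ 4 ≤ s ^ 3 * (1 + y ^ 4) := by nlinarith [mul_nonneg hs3 hy4]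
  have t1' := mul_le_mul_of_nonneg_left t1 (by positivity : 0 ≤ 2 * K)
  have t3' := mul_le_mul_of_nonneg_left t3 (by positivity : 0 ≤ 2 * K ^ 2)
  have : (2 * K + 48 + 2 * K ^ 2 + 1152) * s ^ 3 * (1 + y ^ 4) =
      2 * K * (s ^ 3 * (1 + y ^ 4)) + 48 * (s ^ 3 * (1 + y ^ 4)) +
        2 * K ^ 2 * (s ^ 3 * (1 + y ^ 4)) + 1152 * (s ^ 3 * (1 + y ^ 4)) := by ring
  rw [this]
  linarith

/-- The fourth moment of a centred Gaussian, up to the constant. -/
lemma integral_pow_four_gaussianReal (h : ℝ≥0) :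
    ∫ x, x ^ 4 ∂(gaussianReal 0 h) = (h : ℝ) ^ 2 * ∫ z, z ^ 4 ∂(gaussianReal 0 1) := by
  set c : ℝ := Real.sqrt h with hc
  have hc2 : c ^ 2 = h := Real.sq_sqrt h.coe_nonneg
  have hmap : (gaussianReal 0 1).map (c * ·) = gaussianReal 0 h := by
    rw [gaussianReal_map_const_mul]
    congr 1
    · simp
    · ext
      simp [hc2]
  rw [← hmap, integral_map (measurable_const_mul c).aemeasurable (by fun_prop)]
  rw [← integral_const_mul]
  refine integral_congr_ae (ae_of_all _ fun z => ?_)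
  simp only
  rw [mul_pow, ← hc2]
  ring

lemma integrable_pow_four_gaussianReal (h : ℝ≥0) :
    Integrable (fun x : ℝ => x ^ 4) (gaussianReal 0 h) := by
  have h1 := (memLp_id_gaussianReal' (μ := 0) (v := h) 4 (by norm_num)).integrable_norm_pow
    (p := 4) (by norm_num)
  refine h1.congr (ae_of_all _ fun x => ?_)
  simp only [id, Real.norm_eq_abs]
  exact Even.pow_abs (by decide) x

/-- Fourth moment of a noise coordinate. -/
lemma integral_noise_pow_four (ν : Measure (I → Bool)) [IsProbabilityMeasure ν] (h : ℝ≥0)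
    (q : I × ℕ) :
    ∫ a : LevΩ I, a.2 q ^ 4 ∂(levP ν h) = (h : ℝ) ^ 2 * ∫ z, z ^ 4 ∂(gaussianReal 0 1) := by
  have hm : Measurable (fun a : LevΩ I => a.2 q) := (measurable_pi_apply q).comp measurable_snd
  rw [← integral_pow_four_gaussianReal, ← levP_map_noise ν h q,
    integral_map hm.aemeasurable (by fun_prop)]

lemma integrable_noise_pow_four (ν : Measure (I → Bool)) [IsProbabilityMeasure ν] (h : ℝ≥0)
    (q : I × ℕ) : Integrable (fun a : LevΩ I => a.2 q ^ 4) (levP ν h) := by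
  have hm : Measurable (fun a : LevΩ I => a.2 q) := (measurable_pi_apply q).comp measurable_snd
  have := integrable_pow_four_gaussianReal h
  rw [← levP_map_noise ν h q] at this
  exact (integrable_map_measure (by fun_prop) hm.aemeasurable).1 this

/-- The power mean inequality for four powers. -/
lemma sum_abs_pow_four_le (F : Finset I) (g : I → ℝ) :
    (∑ l ∈ F, |g l|) ^ 4 ≤ (F.card : ℝ) ^ 3 * ∑ l ∈ F, g l ^ 4 := by
  have h1 : (∑ l ∈ F, |g l|) ^ 2 ≤ (F.card : ℝ) * ∑ l ∈ F, |g l| ^ 2 := sq_sum_le_card_mul_sum_sq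
  have h2 : (∑ l ∈ F, g l ^ 2) ^ 2 ≤ (F.card : ℝ) * ∑ l ∈ F, (g l ^ 2) ^ 2 := sq_sum_le_card_mul_sum_sq
  simp only [sq_abs] at h1
  have e : ∀ l, (g l ^ 2) ^ 2 = g l ^ 4 := fun l => by ring
  simp only [e] at h2
  have h3 : 0 ≤ ∑ l ∈ F, |g l| := Finset.sum_nonneg fun _ _ => abs_nonneg _
  have h4 : (∑ l ∈ F, |g l|) ^ 4 = ((∑ l ∈ F, |g l|) ^ 2) ^ 2 := by ring
  rw [h4]
  calc ((∑ l ∈ F, |g l|) ^ 2) ^ 2 ≤ ((F.card : ℝ) * ∑ l ∈ F, g l ^ 2) ^ 2 :=
        pow_le_pow_left₀ (by positivity) h1 2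
    _ = (F.card : ℝ) ^ 2 * (∑ l ∈ F, g l ^ 2) ^ 2 := by ring
    _ ≤ (F.card : ℝ) ^ 2 * ((F.card : ℝ) * ∑ l ∈ F, g l ^ 4) :=
        mul_le_mul_of_nonneg_left h2 (by positivity)
    _ = _ := by ring

/-- The second moment of the main term. -/
lemma integral_main_term (ν : Measure (I → Bool)) [IsProbabilityMeasure ν] (h : ℝ≥0) (F : Finset I)
    (o : I) (j : ℕ) :
    Integrable (fun a : LevΩ I => (∑ l ∈ F, cF ν h F o l j a * a.2 (l, j)) ^ 2) (levP ν h) ∧
    ∫ a : LevΩ I, (∑ l ∈ F, cF ν h F o l j a * a.2 (l, j)) ^ 2 ∂(levP ν h) =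
      (h : ℝ) * ∑ l ∈ F, ∫ a, cF ν h F o l j a ^ 2 ∂(levP ν h) := by
  classical
  have hG : ∀ l l', Measurable[pastσ (h : ℝ) j]
      (fun a : LevΩ I => cF ν h F o l j a * cF ν h F o l' j a) := fun l l' =>
    (measurable_cF_past ν h F o l j).mul (measurable_cF_past ν h F o l' j)
  have hGb : ∀ l l' (a : LevΩ I), |cF ν h F o l j a * cF ν h F o l' j a| ≤ 1 := fun l l' a => by
    rw [abs_mul]
    exact mul_le_one₀ (abs_cF_le _ _ _ _ _ _ _) (abs_nonneg _) (abs_cF_le _ _ _ _ _ _ _)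
  have hi : ∀ l l', Integrable (fun a : LevΩ I => cF ν h F o l j a * cF ν h F o l' j a *
      (a.2 (l, j) * a.2 (l', j))) (levP ν h) := fun l l' => by
    have h2 : Integrable (fun a : LevΩ I => a.2 (l, j) * a.2 (l', j)) (levP ν h) :=
      (memLp_noise ν h (l, j) 2).integrable_mul (memLp_noise ν h (l', j) 2)
    exact h2.bdd_mul (c := 1) ((hG l l').mono (pastσ_le _ _) le_rfl).aestronglyMeasurable
      (ae_of_all _ fun a => by simpa using hGb l l' a)
  have hexp : ∀ a : LevΩ I, (∑ l ∈ F, cF ν h F o l j a * a.2 (l, j)) ^ 2 =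
      ∑ l ∈ F, ∑ l' ∈ F, cF ν h F o l j a * cF ν h F o l' j a * (a.2 (l, j) * a.2 (l', j)) := by
    intro a
    rw [sq, Finset.sum_mul_sum]
    refine Finset.sum_congr rfl fun l _ => Finset.sum_congr rfl fun l' _ => ?_
    ring
  simp_rw [hexp]
  constructor
  · exact integrable_finset_sum _ fun l _ => integrable_finset_sum _ fun l' _ => hi l l'
  · rw [integral_finset_sum _ fun l _ => integrable_finset_sum _ fun l' _ => hi l l', Finset.mul_sum]
    refine Finset.sum_congr rfl fun l hl => ?_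
    rw [integral_finset_sum _ fun l' _ => hi l l']
    have : ∀ l' ∈ F, ∫ a : LevΩ I, cF ν h F o l j a * cF ν h F o l' j a *
        (a.2 (l, j) * a.2 (l', j)) ∂(levP ν h) =
        (if l = l' then (h : ℝ) * ∫ a, cF ν h F o l j a ^ 2 ∂(levP ν h) else 0) := by
      intro l' _
      have h3 := integral_past_mul_noise_mul_noise ν h j l l' (hG l l') 1 (hGb l l')
      rw [h3]
      by_cases hll : l = l'
      · subst hll
        simp [sq]
      · simp [hll]
    rw [Finset.sum_congr rfl this, Finset.sum_ite_eq F l]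
    simp [hl]

variable (ν : Measure (I → Bool)) [IsProbabilityMeasure ν]

/-- The one step second moment bound in finite volume: the "Itô formula". The constant depends on
`F` only. -/
theorem exists_step_bound (F : Finset I) (o : I) (ho : o ∈ F) :
    ∃ C : ℝ, ∀ h : ℝ≥0, h ≠ 0 → (h : ℝ) ≤ 1 → ∀ j : ℕ,
      ∫ a, (mF ν h F o (j + 1) a - mF ν h F o j a) ^ 2 ∂(levP ν h) ≤
        (h : ℝ) * ∑ l ∈ F, ∫ a, cF ν h F o l j a ^ 2 ∂(levP ν h) + C * ((h : ℝ) * Real.sqrt h) := by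
  classical
  set n : ℝ := (F.card : ℝ) with hn
  have hn0 : 0 ≤ n := Nat.cast_nonneg _
  set K : ℝ := n / 2 + 6 * n ^ 2 with hK
  have hK0 : 0 ≤ K := by positivity
  set C1 : ℝ := 2 * K + 48 + 2 * K ^ 2 + 1152 with hC1
  have hC10 : 0 ≤ C1 := by positivity
  set M4 : ℝ := ∫ z, z ^ 4 ∂(gaussianReal 0 1) with hM4
  refine ⟨C1 * (1 + n ^ 4 * M4), fun h hh hh1 j => ?_⟩
  have hh0 : (0 : ℝ) < h := by
    rcases h.coe_nonneg.lt_or_eq with h1 | h1
    · exact h1
    · exact absurd (NNReal.coe_eq_zero.1 h1.symm) hh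
  set D : LevΩ I → ℝ := fun a => mF ν h F o (j + 1) a - mF ν h F o j a with hD
  set A : LevΩ I → ℝ := fun a => ∑ l ∈ F, cF ν h F o l j a * a.2 (l, j) with hA
  set X : LevΩ I → ℝ := fun a => ∑ l ∈ F, |a.2 (l, j)| with hX
  obtain ⟨hAi, hAe⟩ := integral_main_term ν h F o j
  have hX0 : ∀ a, 0 ≤ X a := fun a => Finset.sum_nonneg fun _ _ => abs_nonneg _
  have hAX : ∀ a, |A a| ≤ X a := by
    intro a
    refine (Finset.abs_sum_le_sum_abs _ _).trans (Finset.sum_le_sum fun l _ => ?_)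
    rw [abs_mul]
    exact mul_le_of_le_one_left (abs_nonneg _) (abs_cF_le _ _ _ _ _ _ _)
  have hEb : ∀ a, |D a - A a| ≤ (h : ℝ) * K + 24 * X a ^ 2 := by
    intro a
    set ξ : I → ℝ := fun l => (h : ℝ) * (bv (a.1 l) - 1 / 2) + a.2 (l, j) with hξ
    have hT := Mfin_taylor ν F o ((j : ℝ) * h) h (fun l => Ypos h a l j)
      (fun l => (h : ℝ) * bv (a.1 l) + a.2 (l, j))
    have e1 : (fun l => Ypos h a l j + ((h : ℝ) * bv (a.1 l) + a.2 (l, j))) =
        fun l => Ypos h a l (j + 1) := by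
      funext l
      simp only [Ypos, Finset.sum_range_succ]
      push_cast
      ring
    have e2 : (j : ℝ) * h + h = ((j + 1 : ℕ) : ℝ) * h := by push_cast; ring
    rw [e1, e2] at hT
    have e3 : ∀ l, (h : ℝ) * bv (a.1 l) + a.2 (l, j) - h / 2 = ξ l := fun l => by
      simp only [hξ]; ring
    simp only [e3] at hT
    have hbv : ∀ l, |bv (a.1 l) - 1 / 2| ≤ 1 / 2 := fun l => by
      cases a.1 l <;> simp [bv] <;> norm_num [abs_of_pos, abs_of_neg]
    have hξb : ∀ l, |ξ l| ≤ (h : ℝ) / 2 + |a.2 (l, j)| := fun l => by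
      refine (abs_add_le _ _).trans ?_
      rw [abs_mul, abs_of_pos hh0]
      have := mul_le_mul_of_nonneg_left (hbv l) hh0.le
      linarith
    have hΞ : ∑ l ∈ F, |ξ l| ≤ (h : ℝ) * n / 2 + X a := by
      refine (Finset.sum_le_sum fun l _ => hξb l).trans ?_
      rw [Finset.sum_add_distrib, Finset.sum_const, nsmul_eq_mul]
      simp only [hX]
      apply le_of_eq
      ring
    have hΞ0 : 0 ≤ ∑ l ∈ F, |ξ l| := Finset.sum_nonneg fun _ _ => abs_nonneg _
    have hΞ2 : (∑ l ∈ F, |ξ l|) ^ 2 ≤ (h : ℝ) ^ 2 * n ^ 2 / 2 + 2 * X a ^ 2 := by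
      have h1 := pow_le_pow_left₀ hΞ0 hΞ 2
      nlinarith [sq_nonneg ((h : ℝ) * n / 2 - X a)]
    have hsplit : D a - A a = (mF ν h F o (j + 1) a - mF ν h F o j a -
        ∑ l ∈ F, cF ν h F o l j a * ξ l) +
        ∑ l ∈ F, cF ν h F o l j a * ((h : ℝ) * (bv (a.1 l) - 1 / 2)) := by
      simp only [hD, hA, hξ, mul_add, Finset.sum_add_distrib]
      ring
    have hsec : |∑ l ∈ F, cF ν h F o l j a * ((h : ℝ) * (bv (a.1 l) - 1 / 2))| ≤ (h : ℝ) * n / 2 := by
      refine (Finset.abs_sum_le_sum_abs _ _).trans ?_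
      have : ∀ l ∈ F, |cF ν h F o l j a * ((h : ℝ) * (bv (a.1 l) - 1 / 2))| ≤ (h : ℝ) / 2 := by
        intro l _
        rw [abs_mul, abs_mul, abs_of_pos hh0]
        have h1 := abs_cF_le ν h F o l j a
        have h2 := hbv l
        have h3 : |bv (a.1 l) - 1 / 2| * (h : ℝ) ≤ 1 / 2 * h :=
          mul_le_mul_of_nonneg_right h2 hh0.le
        calc |cF ν h F o l j a| * ((h : ℝ) * |bv (a.1 l) - 1 / 2|)
            ≤ 1 * ((h : ℝ) * |bv (a.1 l) - 1 / 2|) :=
              mul_le_mul_of_nonneg_right h1 (by positivity)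
          _ ≤ (h : ℝ) / 2 := by linarith
      refine (Finset.sum_le_sum this).trans ?_
      rw [Finset.sum_const, nsmul_eq_mul]
      apply le_of_eq
      ring
    have hT' : |mF ν h F o (j + 1) a - mF ν h F o j a - ∑ l ∈ F, cF ν h F o l j a * ξ l| ≤
        12 * (∑ l ∈ F, |ξ l|) ^ 2 := hT
    rw [hsplit]
    refine (abs_add_le _ _).trans ?_
    have hh2 : (h : ℝ) ^ 2 ≤ h := by nlinarith
    have hn2 : 0 ≤ n ^ 2 := sq_nonneg n
    have : (h : ℝ) ^ 2 * n ^ 2 ≤ h * n ^ 2 := mul_le_mul_of_nonneg_right hh2 hn2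
    simp only [hK]
    nlinarith
  have hDb : ∀ a, |D a| ≤ 2 := fun a => by
    refine (abs_sub _ _).trans ?_
    have h1 := abs_Mfin_le ν F o (((j + 1 : ℕ) : ℝ) * h) (fun l => Ypos h a l (j + 1))
    have h2 := abs_Mfin_le ν F o ((j : ℝ) * h) (fun l => Ypos h a l j)
    simp only [mF]
    linarith
  have hDm : Measurable D := (measurable_mF ν h F o (j + 1)).sub (measurable_mF ν h F o j)
  have hDi : Integrable (fun a => D a ^ 2) (levP ν h) := by
    refine Integrable.of_bound (hDm.pow_const 2).aestronglyMeasurable 4 (ae_of_all _ fun a => ?_)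
    rw [Real.norm_eq_abs, abs_pow]
    have := pow_le_pow_left₀ (abs_nonneg _) (hDb a) 2
    linarith
  set Bd : LevΩ I → ℝ := fun a => C1 * ((h : ℝ) * Real.sqrt h) *
    (1 + n ^ 3 * ∑ l ∈ F, a.2 (l, j) ^ 4 / (h : ℝ) ^ 2) with hBd
  have hsum4 : Integrable (fun a : LevΩ I => ∑ l ∈ F, a.2 (l, j) ^ 4 / (h : ℝ) ^ 2) (levP ν h) :=
    integrable_finset_sum _ fun l _ => (integrable_noise_pow_four ν h (l, j)).div_const _
  have hBdi : Integrable Bd (levP ν h) :=
    ((integrable_const _).add (hsum4.const_mul _)).const_mul _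
  have hptw : ∀ a, D a ^ 2 ≤ A a ^ 2 + Bd a := by
    intro a
    have h1 := step_alg (A a) (D a - A a) (X a) K h hh0 hh1 hK0 (hX0 a) (hAX a) (hEb a)
    have h2 : X a ^ 4 / (h : ℝ) ^ 2 ≤ n ^ 3 * ∑ l ∈ F, a.2 (l, j) ^ 4 / (h : ℝ) ^ 2 := by
      have h3 := sum_abs_pow_four_le F (fun l => a.2 (l, j))
      rw [← Finset.sum_div, ← mul_div_assoc]
      exact div_le_div_of_nonneg_right h3 (by positivity)
    have h4 : D a ^ 2 = A a ^ 2 + 2 * A a * (D a - A a) + (D a - A a) ^ 2 := by ring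
    have h5 : 2 * A a * (D a - A a) ≤ 2 * |A a| * |D a - A a| := by
      have := le_abs_self (A a * (D a - A a))
      rw [abs_mul] at this
      linarith
    have hS : 0 ≤ (h : ℝ) * Real.sqrt h := mul_nonneg hh0.le (Real.sqrt_nonneg _)
    have h6 : C1 * ((h : ℝ) * Real.sqrt h) * (1 + X a ^ 4 / (h : ℝ) ^ 2) ≤ Bd a :=
      mul_le_mul_of_nonneg_left (by linarith) (mul_nonneg hC10 hS)
    linarith
  have hmono := integral_mono hDi (hAi.add hBdi) hptw
  have hBdint : ∫ a, Bd a ∂(levP ν h) = C1 * (1 + n ^ 4 * M4) * ((h : ℝ) * Real.sqrt h) := by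
    simp only [hBd]
    rw [integral_const_mul, integral_add (integrable_const _) (hsum4.const_mul _),
      integral_const_mul, integral_finset_sum _ fun l _ =>
        (integrable_noise_pow_four ν h (l, j)).div_const _]
    have : ∀ l ∈ F, ∫ a : LevΩ I, a.2 (l, j) ^ 4 / (h : ℝ) ^ 2 ∂(levP ν h) = M4 := by
      intro l _
      rw [integral_div, integral_noise_pow_four ν h (l, j), ← hM4]
      field_simp
    rw [Finset.sum_congr rfl this, Finset.sum_const, nsmul_eq_mul]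
    simp only [integral_const, probReal_univ, smul_eq_mul, one_mul]
    rw [← hn]
    ring
  calc ∫ a, D a ^ 2 ∂(levP ν h) ≤ ∫ a, (A a ^ 2 + Bd a) ∂(levP ν h) := hmono
    _ = ∫ a, A a ^ 2 ∂(levP ν h) + ∫ a, Bd a ∂(levP ν h) := integral_add hAi hBdi
    _ = _ := by rw [hAe, hBdint]

end Crest.Agent.Lib.IT
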