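/-
The time structure of the localization on a truth space (statement S0241): the filtration of the
observation as the union of the level filtrations, the posterior means as conditional expectations,
the first and second moments of the innovation increments.
-/
import Crest.Agent.Lib.IT.TimeA
import Crest.Agent.Lib.IT.FinLevel

set_option autoImplicit false
set_option warn.classDefReducibility false

namespace Crest.Agent.Lib.IT

open MeasureTheory ProbabilityTheory Filter Topology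
open scoped ENNReal NNReal
open Crest.Agent.Lib.Loc

variable {I : Type*}

/-! ### Elementary facts on dyadic times and cuts -/

lemma tm_lift (n k r : ℕ) : tm (n + r) (k * 2 ^ r) = tm n k := by
  unfold tm
  push_cast
  rw [pow_add]
  field_simp

lemma tm_mono_right (L : ℕ) {j J : ℕ} (h : j ≤ J) : tm L j ≤ tm L J := by
  unfold tm
  gcongr

lemma tm_le_tm_iff {n n' k k' : ℕ} : tm n' k' ≤ tm n k ↔ k' * 2 ^ n ≤ k * 2 ^ n' := by
  unfold tm
  rw [div_le_div_iff₀ (by positivity) (by positivity)]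
  norm_cast

lemma tm_succ_sub (L j : ℕ) : tm L (j + 1) - tm L j = (hLev L : ℝ) := by
  rw [tm_eq_mul, tm_eq_mul]
  push_cast
  ring

lemma cutSk_of_le {t : ℝ} {n k : ℕ} (h : tm n k ≤ t) (y : I → Sk) (l : I) :
    cutSk t y l n k = y l n k := if_pos h

lemma cutSk_of_not_le {t : ℝ} {n k : ℕ} (h : ¬ tm n k ≤ t) (y : I → Sk) (l : I) :
    cutSk t y l n k = 0 := if_neg h

lemma measurable_sk_coord (l : I) (n k : ℕ) : Measurable (fun y : I → Sk => y l n k) :=
  (measurable_pi_apply k).comp ((measurable_pi_apply n).comp (measurable_pi_apply l))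

lemma measurable_cutSk (t : ℝ) : Measurable (cutSk (I := I) t) := by
  refine measurable_pi_lambda _ fun l => measurable_pi_lambda _ fun n =>
    measurable_pi_lambda _ fun k => ?_
  by_cases h : tm n k ≤ t
  · simp only [cutSk_of_le h]
    exact measurable_sk_coord l n k
  · simp only [cutSk_of_not_le h]
    exact measurable_const

lemma cutSk_cutSk {s t : ℝ} (h : s ≤ t) (y : I → Sk) : cutSk s (cutSk t y) = cutSk s y := by
  funext l n k
  by_cases hs : tm n k ≤ s
  · rw [cutSk_of_le hs, cutSk_of_le hs, cutSk_of_le (hs.trans h)]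
  · rw [cutSk_of_not_le hs, cutSk_of_not_le hs]

section cut
variable (ν : Measure (I → Bool)) (Fs : I → ℕ → Finset I)

lemma Rsum_cutSk {t : ℝ} {n k : ℕ} (h : tm n k ≤ t) (y : I → Sk) (e : I) (r : ℕ) :
    Rsum ν Fs (cutSk t y) e n k r = Rsum ν Fs y e n k r := by
  unfold Rsum
  refine Finset.sum_congr rfl fun j hj => ?_
  have hj' : j ≤ k * 2 ^ r := (Finset.mem_range.1 hj).le
  have h1 : tm (n + r) j ≤ t :=
    (tm_mono_right _ hj').trans (by rw [tm_lift]; exact h)
  congr 2
  funext l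
  exact cutSk_of_le h1 y l

lemma Wmap_cutSk {t : ℝ} {n k : ℕ} (h : tm n k ≤ t) (y : I → Sk) (e : I) :
    Wmap ν Fs (cutSk t y) e n k = Wmap ν Fs y e n k := by
  unfold Wmap Rlim
  rw [cutSk_of_le h]
  simp_rw [Rsum_cutSk ν Fs h y e]

lemma cutSk_Wmap_cutSk (t : ℝ) (y : I → Sk) :
    cutSk t (Wmap ν Fs (cutSk t y)) = cutSk t (Wmap ν Fs y) := by
  funext l n k
  by_cases hs : tm n k ≤ t
  · rw [cutSk_of_le hs, cutSk_of_le hs, Wmap_cutSk ν Fs hs]
  · rw [cutSk_of_not_le hs, cutSk_of_not_le hs]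

end cut

/-! ### Extension of bounds from a filtration to its union -/

/-- Clipping to `[-1, 1]`. -/
noncomputable def clip1 (x : ℝ) : ℝ := max (-1) (min 1 x)

lemma abs_clip1_le (x : ℝ) : |clip1 x| ≤ 1 := by
  unfold clip1
  rw [abs_le]
  constructor
  · exact le_max_left _ _
  · exact max_le (by norm_num) (min_le_left _ _)

lemma clip1_of_abs_le {x : ℝ} (h : |x| ≤ 1) : clip1 x = x := by
  unfold clip1
  rw [abs_le] at h
  rw [min_eq_right h.2, max_eq_right h.1]

lemma continuous_clip1 : Continuous clip1 := by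
  unfold clip1
  fun_prop

lemma measurable_clip1 : Measurable clip1 := continuous_clip1.measurable

/-- A bound on integrals against bounded functions extends from a filtration to its union. -/
theorem ext_bound {Ω : Type*} {m : MeasurableSpace Ω} {μ : Measure Ω} [IsProbabilityMeasure μ]
    (𝓕 : Filtration ℕ m) {f : Ω → ℝ} (hf : Integrable f μ) (κ : ℝ)
    (H : ∀ r (Z : Ω → ℝ), Measurable[𝓕 r] Z → (∀ a, |Z a| ≤ 1) → |∫ a, f a * Z a ∂μ| ≤ κ)
    {Z : Ω → ℝ} (hZ : Measurable[⨆ r, 𝓕 r] Z) (hb : ∀ a, |Z a| ≤ 1) :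
    |∫ a, f a * Z a ∂μ| ≤ κ := by
  have hle : (⨆ r, 𝓕 r) ≤ m := iSup_le fun r => 𝓕.le r
  have hZm : Measurable Z := hZ.mono hle le_rfl
  have hZi : Integrable Z μ := integrable_of_bdd hZm 1 hb
  set Zr : ℕ → Ω → ℝ := fun r a => clip1 ((μ[Z | 𝓕 r]) a) with hZr
  have hZrm : ∀ r, Measurable[𝓕 r] (Zr r) := fun r =>
    measurable_clip1.comp (stronglyMeasurable_condExp (m := 𝓕 r)).measurable
  have hlim : ∀ᵐ a ∂μ, Tendsto (fun r => Zr r a) atTop (𝓝 (Z a)) := by
    have h1 := tendsto_ae_condExp (μ := μ) (ℱ := 𝓕) Z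
    have h2 : μ[Z | ⨆ r, 𝓕 r] = Z :=
      condExp_of_stronglyMeasurable hle hZ.stronglyMeasurable hZi
    filter_upwards [h1] with a ha
    rw [h2] at ha
    have := (continuous_clip1.tendsto (Z a)).comp ha
    rwa [clip1_of_abs_le (hb a)] at this
  have htend : Tendsto (fun r => ∫ a, f a * Zr r a ∂μ) atTop (𝓝 (∫ a, f a * Z a ∂μ)) := by
    refine tendsto_integral_of_dominated_convergence (fun a => |f a|) ?_ hf.abs ?_ ?_
    · intro r
      exact hf.aestronglyMeasurable.mul
        (((hZrm r).mono (𝓕.le r) le_rfl).aestronglyMeasurable)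
    · intro r
      refine ae_of_all _ fun a => ?_
      rw [Real.norm_eq_abs, abs_mul]
      exact mul_le_of_le_one_right (abs_nonneg _) (abs_clip1_le _)
    · filter_upwards [hlim] with a ha
      exact ha.const_mul _
  refine le_of_tendsto htend.abs (Eventually.of_forall fun r => ?_)
  exact H r (Zr r) (hZrm r) (fun a => abs_clip1_le _)

/-- Identification of a conditional expectation by testing against bounded functions. -/
theorem ae_eq_condExp_of_bdd_test {Ω : Type*} {m m₀ : MeasurableSpace Ω} {μ : Measure Ω}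
    [IsProbabilityMeasure μ] (hm : m ≤ m₀) {f g : Ω → ℝ} (hf : Integrable f μ)
    (hgm : Measurable[m] g) (C : ℝ) (hgb : ∀ a, |g a| ≤ C)
    (H : ∀ Z : Ω → ℝ, Measurable[m] Z → (∀ a, |Z a| ≤ 1) → ∫ a, g a * Z a ∂μ = ∫ a, f a * Z a ∂μ) :
    g =ᵐ[μ] μ[f | m] := by
  have hgm' : Measurable g := hgm.mono hm le_rfl
  have hgi : Integrable g μ := integrable_of_bdd hgm' C hgb
  refine ae_eq_condExp_of_forall_setIntegral_eq hm hf (fun s _ _ => hgi.integrableOn) ?_
    hgm.stronglyMeasurable.aestronglyMeasurable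
  intro s hs _
  have hZm : Measurable[m] (s.indicator (fun _ : Ω => (1 : ℝ))) :=
    measurable_const.indicator hs
  have hZb : ∀ a, |s.indicator (fun _ : Ω => (1 : ℝ)) a| ≤ 1 := fun a => by
    by_cases ha : a ∈ s <;> simp [ha]
  have := H _ hZm hZb
  have e1 : ∀ k : Ω → ℝ, ∫ a, k a * s.indicator (fun _ : Ω => (1 : ℝ)) a ∂μ = ∫ a in s, k a ∂μ := by
    intro k
    rw [← integral_indicator (hm s hs)]
    refine integral_congr_ae (ae_of_all _ fun a => ?_)
    by_cases ha : a ∈ s <;> simp [ha]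
  rw [e1, e1] at this
  exact this

/-- Pull-out for a bounded measurable test function. -/
theorem integral_condExp_mul {Ω : Type*} {m m₀ : MeasurableSpace Ω} {μ : Measure Ω}
    [IsProbabilityMeasure μ] (hm : m ≤ m₀) {f Z : Ω → ℝ} (hfZ : Integrable (fun a => Z a * f a) μ)
    (hf : Integrable f μ) (hZ : Measurable[m] Z) :
    ∫ a, (μ[f | m]) a * Z a ∂μ = ∫ a, f a * Z a ∂μ := by
  have hZs : StronglyMeasurable[m] Z := hZ.stronglyMeasurable
  have h1 := condExp_mul_of_stronglyMeasurable_left hZs hfZ hf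
  have h2 : ∫ a, (μ[fun a => Z a * f a | m]) a ∂μ = ∫ a, Z a * f a ∂μ := integral_condExp hm
  calc ∫ a, (μ[f | m]) a * Z a ∂μ = ∫ a, (μ[fun a => Z a * f a | m]) a ∂μ := by
        refine integral_congr_ae ?_
        have h1' : μ[fun a => Z a * f a | m] =ᵐ[μ] fun a => Z a * (μ[f | m]) a := h1
        filter_upwards [h1'] with a ha
        rw [ha]
        ring
    _ = ∫ a, f a * Z a ∂μ := by
        rw [h2]
        refine integral_congr_ae (ae_of_all _ fun a => ?_)
        simp only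
        ring

/-! ### The level filtration on a truth space -/

section truth
variable {Ω : Type*} [mΩ : MeasurableSpace Ω] {ν : Measure (I → Bool)}
  {P : Measure Ω} {ω : Ω → I → Bool} {B : Ω → I → Sk} {Fs : I → ℕ → Finset I}

/-- The observed past at a level. -/
noncomputable def levPast (ω : Ω → I → Bool) (B : Ω → I → Sk) (L J : ℕ) : MeasurableSpace Ω :=
  MeasurableSpace.comap (fun a => obsAll (hLev L : ℝ) J (levMap ω B L a)) inferInstance

omit mΩ in
lemma obsAll_levMap (L J : ℕ) (a : Ω) (l : I) (i : ℕ) :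
    obsAll (hLev L : ℝ) J (levMap ω B L a) (l, i) =
      if i < J then Yobs ω B a l L (i + 1) - Yobs ω B a l L i else 0 := by
  simp only [obsAll]
  by_cases hi : i < J
  · simp only [hi, if_true, Yobs, levMap]
    rw [← tm_succ_sub L i]
    ring
  · simp [hi]

lemma measurable_obsAll_levMap_coord (L J : ℕ) (q : I × ℕ) :
    Measurable[levPast ω B L J] (fun a => obsAll (hLev L : ℝ) J (levMap ω B L a) q) := by
  have h : Measurable[levPast ω B L J] (fun a => obsAll (hLev L : ℝ) J (levMap ω B L a)) :=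
    comap_measurable _
  exact (measurable_pi_apply q).comp h

section
variable (T : Truth ν P ω B)
include T

lemma yobs_eq_sum_obs (L J j : ℕ) (hj : j ≤ J) (a : Ω) (l : I) :
    Yobs ω B a l L j = ∑ i ∈ Finset.range j, obsAll (hLev L : ℝ) J (levMap ω B L a) (l, i) := by
  have h1 : ∀ i ∈ Finset.range j, obsAll (hLev L : ℝ) J (levMap ω B L a) (l, i) =
      Yobs ω B a l L (i + 1) - Yobs ω B a l L i := by
    intro i hi
    rw [obsAll_levMap, if_pos (lt_of_lt_of_le (Finset.mem_range.1 hi) hj)]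
  rw [Finset.sum_congr rfl h1, Finset.sum_range_sub]
  have h0 : Yobs ω B a l L 0 = 0 := by
    unfold Yobs tm
    rw [T.zero]
    simp
  rw [h0, sub_zero]

lemma measurable_Yobs_levPast (n' e k' J : ℕ) (hJ : k' * 2 ^ e ≤ J) (l : I) :
    Measurable[levPast ω B (n' + e) J] (fun a => Yobs ω B a l n' k') := by
  have h1 : (fun a => Yobs ω B a l n' k') =
      fun a => ∑ i ∈ Finset.range (k' * 2 ^ e), obsAll (hLev (n' + e) : ℝ) J
        (levMap ω B (n' + e) a) (l, i) := by
    funext a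
    rw [T.Yobs_lift a l n' k' e]
    exact yobs_eq_sum_obs T _ _ _ hJ a l
  rw [h1]
  exact @Finset.measurable_fun_sum _ _ _ _ _ _ (levPast ω B (n' + e) J) _ _ fun i _ =>
    measurable_obsAll_levMap_coord _ _ _

lemma levPast_succ_le (L J : ℕ) : levPast ω B L J ≤ levPast ω B (L + 1) (J * 2) := by
  have hm : Measurable[levPast ω B (L + 1) (J * 2)]
      (fun a => obsAll (hLev L : ℝ) J (levMap ω B L a)) := by
    refine @measurable_pi_lambda _ _ _ (levPast ω B (L + 1) (J * 2)) _ _ fun q => ?_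
    obtain ⟨l, i⟩ := q
    simp only [obsAll_levMap]
    by_cases hi : i < J
    · simp only [hi, if_true]
      refine Measurable.sub ?_ ?_
      · exact measurable_Yobs_levPast T L 1 (i + 1) (J * 2) (by omega) l
      · exact measurable_Yobs_levPast T L 1 i (J * 2) (by omega) l
    · simp only [hi, if_false]
      exact @measurable_const _ _ _ (levPast ω B (L + 1) (J * 2)) _
  exact hm.comap_le

variable [IsProbabilityMeasure ν] [IsProbabilityMeasure P]

lemma measurable_obsLev (L J : ℕ) :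
    Measurable (fun a => obsAll (hLev L : ℝ) J (levMap ω B L a)) :=
  (measurable_obsAll _ J).comp (T.measurable_levMap L)

lemma levPast_le (L J : ℕ) : levPast ω B L J ≤ mΩ := (measurable_obsLev T L J).comap_le

/-- The filtration of the observations at the levels `n + r`. -/
noncomputable def levFilt (T : Truth ν P ω B) (n k : ℕ) : Filtration ℕ mΩ where
  seq r := levPast ω B (n + r) (k * 2 ^ r)
  mono' := by
    refine monotone_nat_of_le_succ fun r => ?_
    have := levPast_succ_le T (n + r) (k * 2 ^ r)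
    rw [show k * 2 ^ (r + 1) = k * 2 ^ r * 2 by ring]
    exact this
  le' r := levPast_le T _ _

lemma levFilt_apply (n k r : ℕ) : (levFilt T n k) r = levPast ω B (n + r) (k * 2 ^ r) := rfl

lemma measurable_Yobs_cut (t : ℝ) : Measurable (fun a => cutSk t (Yobs ω B a)) :=
  (measurable_cutSk t).comp T.measurable_Yobs

lemma measurable_Wmap_cut (t : ℝ) :
    Measurable (fun a => cutSk t (Wmap ν Fs (Yobs ω B a))) :=
  (measurable_cutSk t).comp ((measurable_Wmap ν Fs).comp T.measurable_Yobs)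

lemma Ft_le (t : ℝ) : Ft ω B t ≤ mΩ := (measurable_Yobs_cut T t).comap_le

lemma Gt_le (t : ℝ) : Gt ν Fs ω B t ≤ mΩ := (measurable_Wmap_cut T t).comap_le

omit T [IsProbabilityMeasure ν] [IsProbabilityMeasure P] in
lemma Gt_le_Ft (t : ℝ) : Gt ν Fs ω B t ≤ Ft ω B t := by
  have h1 : (fun a => cutSk t (Wmap ν Fs (Yobs ω B a))) =
      (fun y => cutSk t (Wmap ν Fs y)) ∘ (fun a => cutSk t (Yobs ω B a)) := by
    funext a
    simp only [Function.comp]
    rw [cutSk_Wmap_cutSk]
  unfold Gt Ft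
  rw [h1, ← MeasurableSpace.comap_comp]
  exact MeasurableSpace.comap_mono ((measurable_cutSk t).comp (measurable_Wmap ν Fs)).comap_le

omit T [IsProbabilityMeasure ν] [IsProbabilityMeasure P] in
lemma Ft_mono {s t : ℝ} (h : s ≤ t) : Ft ω B s ≤ Ft ω B t := by
  have h1 : (fun a => cutSk s (Yobs ω B a)) = cutSk s ∘ (fun a => cutSk t (Yobs ω B a)) := by
    funext a
    simp only [Function.comp]
    rw [cutSk_cutSk h]
  unfold Ft
  rw [h1, ← MeasurableSpace.comap_comp]
  exact MeasurableSpace.comap_mono (measurable_cutSk s).comap_le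

omit T [IsProbabilityMeasure ν] [IsProbabilityMeasure P] in
lemma Gt_mono {s t : ℝ} (h : s ≤ t) : Gt ν Fs ω B s ≤ Gt ν Fs ω B t := by
  have h1 : (fun a => cutSk s (Wmap ν Fs (Yobs ω B a))) =
      cutSk s ∘ (fun a => cutSk t (Wmap ν Fs (Yobs ω B a))) := by
    funext a
    simp only [Function.comp]
    rw [cutSk_cutSk h]
  unfold Gt
  rw [h1, ← MeasurableSpace.comap_comp]
  exact MeasurableSpace.comap_mono (measurable_cutSk s).comap_le

omit T [IsProbabilityMeasure ν] [IsProbabilityMeasure P] in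
lemma measurable_Yobs_Ft {t : ℝ} {n k : ℕ} (h : tm n k ≤ t) (l : I) :
    Measurable[Ft ω B t] (fun a => Yobs ω B a l n k) := by
  have h1 : (fun a => Yobs ω B a l n k) =
      (fun y : I → Sk => y l n k) ∘ (fun a => cutSk t (Yobs ω B a)) := by
    funext a
    simp only [Function.comp]
    rw [cutSk_of_le h]
  rw [h1]
  exact (measurable_sk_coord l n k).comp (comap_measurable _)

omit T [IsProbabilityMeasure ν] [IsProbabilityMeasure P] in
lemma measurable_Wmap_Gt' {t : ℝ} {n k : ℕ} (h : tm n k ≤ t) (l : I) :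
    Measurable[Gt ν Fs ω B t] (fun a => Wmap ν Fs (Yobs ω B a) l n k) := by
  have h1 : (fun a => Wmap ν Fs (Yobs ω B a) l n k) =
      (fun y : I → Sk => y l n k) ∘ (fun a => cutSk t (Wmap ν Fs (Yobs ω B a))) := by
    funext a
    simp only [Function.comp]
    rw [cutSk_of_le h]
  rw [h1]
  exact (measurable_sk_coord l n k).comp (comap_measurable _)

omit T [IsProbabilityMeasure ν] [IsProbabilityMeasure P] in
lemma measurable_Yfun_Ft {t : ℝ} {n k : ℕ} (h : tm n k ≤ t) :
    Measurable[Ft ω B t] (fun a (l : I) => Yobs ω B a l n k) :=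
  @measurable_pi_lambda _ _ _ (Ft ω B t) _ _ fun l => measurable_Yobs_Ft h l

omit T [IsProbabilityMeasure ν] [IsProbabilityMeasure P] in
lemma measurable_Mt_Ft (e : I) (n k : ℕ) :
    Measurable[Ft ω B (tm n k)] (Mt ν Fs ω B e n k) :=
  (measurable_mlim ν Fs e (tm n k)).comp (measurable_Yfun_Ft le_rfl)

omit T [IsProbabilityMeasure ν] [IsProbabilityMeasure P] in
lemma measurable_M2t_Ft (o u : I) (n k : ℕ) :
    Measurable[Ft ω B (tm n k)] (M2t ν Fs ω B o u n k) := by
  unfold M2t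
  exact Measurable.limsup fun N =>
    (measurable_Mfin2 ν (Fs o N) o u (tm n k)).comp (measurable_Yfun_Ft le_rfl)

omit T [IsProbabilityMeasure ν] [IsProbabilityMeasure P] in
lemma measurable_CRt_Ft (o u : I) (n k : ℕ) :
    Measurable[Ft ω B (tm n k)] (CRt ν Fs ω B o u n k) := by
  unfold CRt
  exact Measurable.sub (measurable_M2t_Ft o u n k)
    (Measurable.mul (measurable_Mt_Ft o n k) (measurable_Mt_Ft u n k))

omit T [IsProbabilityMeasure ν] [IsProbabilityMeasure P] in
lemma Mt_nonneg (e : I) (n k : ℕ) (a : Ω) : 0 ≤ Mt ν Fs ω B e n k a := mlim_nonneg _ _ _ _ _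

omit T [IsProbabilityMeasure ν] [IsProbabilityMeasure P] in
lemma Mt_le_one (e : I) (n k : ℕ) (a : Ω) : Mt ν Fs ω B e n k a ≤ 1 := mlim_le_one _ _ _ _ _

omit T [IsProbabilityMeasure ν] [IsProbabilityMeasure P] in
lemma abs_Mt_le (e : I) (n k : ℕ) (a : Ω) : |Mt ν Fs ω B e n k a| ≤ 1 := abs_mlim_le_one _ _ _ _ _

omit T [IsProbabilityMeasure ν] [IsProbabilityMeasure P] in
lemma M2t_nonneg (o u : I) (n k : ℕ) (a : Ω) : 0 ≤ M2t ν Fs ω B o u n k a :=
  le_limsup_of_frequently_le (Frequently.of_forall fun N => Mfin2_nonneg _ _ _ _ _ _)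
    (isBoundedUnder_of ⟨1, fun N => Mfin2_le_one _ _ _ _ _ _⟩)

omit T [IsProbabilityMeasure ν] [IsProbabilityMeasure P] in
lemma M2t_le_one (o u : I) (n k : ℕ) (a : Ω) : M2t ν Fs ω B o u n k a ≤ 1 :=
  limsup_le_of_le
    (isBoundedUnder_of (f := atTop) ⟨0, fun N => Mfin2_nonneg _ _ _ _ _ _⟩ :
      IsBoundedUnder (· ≥ ·) atTop _).isCoboundedUnder_le
    (Eventually.of_forall fun N => Mfin2_le_one _ _ _ _ _ _)

omit T [IsProbabilityMeasure ν] [IsProbabilityMeasure P] in
lemma abs_M2t_le (o u : I) (n k : ℕ) (a : Ω) : |M2t ν Fs ω B o u n k a| ≤ 1 := by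
  rw [abs_le]
  exact ⟨by linarith [M2t_nonneg (ν := ν) (Fs := Fs) (ω := ω) (B := B) o u n k a],
    M2t_le_one o u n k a⟩

omit T [IsProbabilityMeasure ν] [IsProbabilityMeasure P] in
lemma abs_CRt_le (o u : I) (n k : ℕ) (a : Ω) : |CRt ν Fs ω B o u n k a| ≤ 1 := by
  unfold CRt
  have h1 := M2t_nonneg (ν := ν) (Fs := Fs) (ω := ω) (B := B) o u n k a
  have h2 := M2t_le_one (ν := ν) (Fs := Fs) (ω := ω) (B := B) o u n k a
  have h3 := Mt_nonneg (ν := ν) (Fs := Fs) (ω := ω) (B := B) o n k a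
  have h4 := Mt_le_one (ν := ν) (Fs := Fs) (ω := ω) (B := B) o n k a
  have h5 := Mt_nonneg (ν := ν) (Fs := Fs) (ω := ω) (B := B) u n k a
  have h6 := Mt_le_one (ν := ν) (Fs := Fs) (ω := ω) (B := B) u n k a
  rw [abs_le]
  constructor <;> nlinarith

lemma measurable_Mt (e : I) (n k : ℕ) : Measurable (Mt ν Fs ω B e n k) :=
  (measurable_Mt_Ft e n k).mono (Ft_le T _) le_rfl

lemma measurable_M2t (o u : I) (n k : ℕ) : Measurable (M2t ν Fs ω B o u n k) :=
  (measurable_M2t_Ft o u n k).mono (Ft_le T _) le_rfl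

lemma measurable_CRt (o u : I) (n k : ℕ) : Measurable (CRt ν Fs ω B o u n k) :=
  (measurable_CRt_Ft o u n k).mono (Ft_le T _) le_rfl

/-- The level filtration and the observation filtration. -/
lemma levFilt_le_Ft (n k r : ℕ) : (levFilt T n k) r ≤ Ft ω B (tm n k) := by
  have hm : Measurable[Ft ω B (tm n k)]
      (fun a => obsAll (hLev (n + r) : ℝ) (k * 2 ^ r) (levMap ω B (n + r) a)) := by
    refine @measurable_pi_lambda _ _ _ (Ft ω B (tm n k)) _ _ fun q => ?_
    obtain ⟨l, i⟩ := q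
    simp only [obsAll_levMap]
    by_cases hi : i < k * 2 ^ r
    · simp only [hi, if_true]
      refine Measurable.sub ?_ ?_
      · refine measurable_Yobs_Ft ?_ l
        rw [← tm_lift n k r]
        exact tm_mono_right _ hi
      · refine measurable_Yobs_Ft ?_ l
        rw [← tm_lift n k r]
        exact tm_mono_right _ hi.le
    · simp only [hi, if_false]
      exact @measurable_const _ _ _ (Ft ω B (tm n k)) _
  exact hm.comap_le

lemma Ft_le_iSup (n k : ℕ) : Ft ω B (tm n k) ≤ ⨆ r, (levFilt T n k) r := by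
  have hm : Measurable[⨆ r, (levFilt T n k) r] (fun a => cutSk (tm n k) (Yobs ω B a)) := by
    refine @measurable_pi_lambda _ _ _ (⨆ r, (levFilt T n k) r) _ _ fun l => ?_
    refine @measurable_pi_lambda _ _ _ (⨆ r, (levFilt T n k) r) _ _ fun n' => ?_
    refine @measurable_pi_lambda _ _ _ (⨆ r, (levFilt T n k) r) _ _ fun k' => ?_
    by_cases h : tm n' k' ≤ tm n k
    · simp only [cutSk_of_le h]
      have h1 : k' * 2 ^ n ≤ k * 2 ^ n' := tm_le_tm_iff.1 h
      have h2 : Measurable[levPast ω B (n' + n) (k * 2 ^ n')] (fun a => Yobs ω B a l n' k') :=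
        measurable_Yobs_levPast T n' n k' _ h1 l
      rw [add_comm n' n] at h2
      exact h2.mono (le_iSup (fun r => (levFilt T n k) r) n') le_rfl
    · simp only [cutSk_of_not_le h]
      exact @measurable_const _ _ _ (⨆ r, (levFilt T n k) r) _
  exact hm.comap_le

/-- A bound on integrals against bounded functions measurable with respect to the levels extends to
the observation filtration. -/
theorem ext_bound_Ft {n k : ℕ} {f : Ω → ℝ} (hf : Integrable f P) (κ : ℝ)
    (H : ∀ r (Z : Ω → ℝ), Measurable[(levFilt T n k) r] Z → (∀ a, |Z a| ≤ 1) →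
      |∫ a, f a * Z a ∂P| ≤ κ)
    {Z : Ω → ℝ} (hZ : Measurable[Ft ω B (tm n k)] Z) (hb : ∀ a, |Z a| ≤ 1) :
    |∫ a, f a * Z a ∂P| ≤ κ :=
  ext_bound (levFilt T n k) hf κ H (hZ.mono (Ft_le_iSup T n k) le_rfl) hb

/-- Passage to the limit along the levels. -/
theorem limit_level {n k : ℕ} {f : Ω → ℝ} (fd : ℕ → Ω → ℝ) (g : Ω → ℝ) (hg : Integrable g P)
    (hfm : Measurable f) (hfd : ∀ d, Measurable (fd d)) (hdom : ∀ d a, |fd d a| ≤ g a)
    (hlim : ∀ᵐ a ∂P, Tendsto (fun d => fd d a) atTop (𝓝 (f a))) (κ : ℝ) (ε : ℕ → ℝ)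
    (hε : Tendsto ε atTop (𝓝 0))
    (H : ∀ d (Z : Ω → ℝ), Measurable[(levFilt T n k) d] Z → (∀ a, |Z a| ≤ 1) →
      |∫ a, fd d a * Z a ∂P| ≤ κ + ε d)
    {Z : Ω → ℝ} (hZ : Measurable[Ft ω B (tm n k)] Z) (hb : ∀ a, |Z a| ≤ 1) :
    |∫ a, f a * Z a ∂P| ≤ κ := by
  have hfi : Integrable f P := by
    have hfb : ∀ᵐ a ∂P, ‖f a‖ ≤ g a := by
      filter_upwards [hlim] with a ha
      exact le_of_tendsto ha.abs (Eventually.of_forall fun d => hdom d a)
    exact Integrable.mono' hg hfm.aestronglyMeasurable hfb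
  refine ext_bound_Ft T hfi κ ?_ hZ hb
  intro r Z hZ hb
  have hZm : Measurable Z := hZ.mono ((levFilt T n k).le r) le_rfl
  have htend : Tendsto (fun d => ∫ a, fd d a * Z a ∂P) atTop (𝓝 (∫ a, f a * Z a ∂P)) := by
    refine tendsto_integral_of_dominated_convergence g ?_ hg ?_ ?_
    · intro d
      exact ((hfd d).mul hZm).aestronglyMeasurable
    · intro d
      refine ae_of_all _ fun a => ?_
      rw [Real.norm_eq_abs, abs_mul]
      exact (mul_le_of_le_one_right (abs_nonneg _) (hb a)).trans (hdom d a)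
    · filter_upwards [hlim] with a ha
      exact ha.mul_const _
  have hub : Tendsto (fun d => κ + ε d) atTop (𝓝 (κ + 0)) := tendsto_const_nhds.add hε
  rw [add_zero] at hub
  refine le_of_tendsto_of_tendsto htend.abs hub ?_
  filter_upwards [eventually_ge_atTop r] with d hd
  exact H d Z (hZ.mono ((levFilt T n k).mono hd) le_rfl) hb

end

end truth

/-! ### Level-space limits along an exhaustion -/

section levlim
variable (ν : Measure (I → Bool)) [IsProbabilityMeasure ν] (h : ℝ≥0) (hh : h ≠ 0)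
include hh

lemma iSup_obsFilt_eq {E : ℕ → Finset I} (hE : Monotone E) (hEx : ∀ l, ∃ N, l ∈ E N) (j : ℕ) :
    (⨆ N, (obsFilt (I := I) h E hE j) N) = pastσ h j := by
  classical
  refine le_antisymm (iSup_le fun N => ?_) ?_
  · have h5 : obsF (I := I) h (E N) j = (fun g q => if q.1 ∈ E N then g q else 0) ∘ obsAll h j := by
      funext a q
      simp only [obsF, blockP, obsAll, Function.comp]
      by_cases h1 : q.1 ∈ E N <;> by_cases h2 : q.2 < j <;> simp [h1, h2]
    have hm : Measurable (fun (g : I × ℕ → ℝ) (q : I × ℕ) => if q.1 ∈ E N then g q else (0 : ℝ)) := by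
      refine measurable_pi_lambda _ fun q => ?_
      by_cases h1 : q.1 ∈ E N
      · simp only [h1, if_true]
        exact measurable_pi_apply q
      · simp only [h1, if_false]
        exact measurable_const
    change MeasurableSpace.comap (obsF (I := I) h (E N) j) inferInstance ≤ pastσ h j
    rw [h5, ← MeasurableSpace.comap_comp]
    exact MeasurableSpace.comap_mono hm.comap_le
  · have hmeas : Measurable[⨆ N, (obsFilt (I := I) h E hE j) N] (obsAll (I := I) h j) := by
      refine @measurable_pi_lambda _ _ _ (⨆ N, (obsFilt (I := I) h E hE j) N) _ _ fun q => ?_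
      by_cases hq : q.2 < j
      · obtain ⟨N, hN⟩ := hEx q.1
        have h5 : (fun a : LevΩ I => obsAll h j a q) = (fun g => g q) ∘ obsF h (E N) j := by
          funext a
          simp [obsAll, obsF, blockP, hq, hN]
        rw [h5]
        have h6 : Measurable[(obsFilt (I := I) h E hE j) N] (obsF (I := I) h (E N) j) :=
          comap_measurable _
        exact ((measurable_pi_apply q).comp h6).mono
          (le_iSup (fun N => ((obsFilt (I := I) h E hE j) N)) N) le_rfl
      · have h5 : (fun a : LevΩ I => obsAll h j a q) = fun _ => 0 := by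
          funext a
          simp [obsAll, hq]
        rw [h5]
        exact @measurable_const _ _ _ (⨆ N, (obsFilt (I := I) h E hE j) N) _
    exact hmeas.comap_le

/-- The limit along any exhaustion of the posterior mean. -/
theorem ae_tendsto_mF {E : ℕ → Finset I} (hE : Monotone E) (hEx : ∀ l, ∃ N, l ∈ E N) (e : I)
    (j : ℕ) : ∀ᵐ a ∂(levP ν h), Tendsto (fun N => mF ν h (E N) e j a) atTop
      (𝓝 (((levP ν h)[fun a => bv (a.1 e) | pastσ h j]) a)) := by
  obtain ⟨N₀, hN₀⟩ := hEx e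
  have h1 : ∀ N, N₀ ≤ N → mF ν h (E N) e j =ᵐ[levP ν h]
      (levP ν h)[fun a => bv (a.1 e) | (obsFilt (I := I) h E hE j) N] := fun N hN =>
    Mfin_ae_condExp ν h hh (hE hN hN₀) j
  have h2 := tendsto_ae_condExp (μ := levP ν h) (ℱ := obsFilt (I := I) h E hE j)
    (fun a => bv (a.1 e))
  rw [iSup_obsFilt_eq h hh hE hEx j] at h2
  have h3 : ∀ᵐ a ∂(levP ν h), ∀ N, N₀ ≤ N → mF ν h (E N) e j a =
      ((levP ν h)[fun a => bv (a.1 e) | (obsFilt (I := I) h E hE j) N]) a :=
    ae_all_iff.2 fun N => by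
      by_cases hN : N₀ ≤ N
      · filter_upwards [h1 N hN] with a ha _ using ha
      · exact ae_of_all _ fun a hN' => absurd hN' hN
  filter_upwards [h3, h2] with a ha3 ha2
  refine ha2.congr' ?_
  filter_upwards [eventually_ge_atTop N₀] with N hN
  exact (ha3 N hN).symm

/-- The limit along any exhaustion of the pair posterior. -/
theorem ae_tendsto_m2F {E : ℕ → Finset I} (hE : Monotone E) (hEx : ∀ l, ∃ N, l ∈ E N) (o u : I)
    (j : ℕ) : ∀ᵐ a ∂(levP ν h), Tendsto (fun N => m2F ν h (E N) o u j a) atTop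
      (𝓝 (((levP ν h)[fun a => bv (a.1 o) * bv (a.1 u) | pastσ h j]) a)) := by
  obtain ⟨N₁, hN₁⟩ := hEx o
  obtain ⟨N₂, hN₂⟩ := hEx u
  set N₀ := max N₁ N₂
  have h1 : ∀ N, N₀ ≤ N → m2F ν h (E N) o u j =ᵐ[levP ν h]
      (levP ν h)[fun a => bv (a.1 o) * bv (a.1 u) | (obsFilt (I := I) h E hE j) N] := fun N hN =>
    m2F_ae_condExp ν h hh (hE ((le_max_left _ _).trans hN) hN₁)
      (hE ((le_max_right _ _).trans hN) hN₂) j
  have h2 := tendsto_ae_condExp (μ := levP ν h) (ℱ := obsFilt (I := I) h E hE j)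
    (fun a => bv (a.1 o) * bv (a.1 u))
  rw [iSup_obsFilt_eq h hh hE hEx j] at h2
  have h3 : ∀ᵐ a ∂(levP ν h), ∀ N, N₀ ≤ N → m2F ν h (E N) o u j a =
      ((levP ν h)[fun a => bv (a.1 o) * bv (a.1 u) | (obsFilt (I := I) h E hE j) N]) a :=
    ae_all_iff.2 fun N => by
      by_cases hN : N₀ ≤ N
      · filter_upwards [h1 N hN] with a ha _ using ha
      · exact ae_of_all _ fun a hN' => absurd hN' hN
  filter_upwards [h3, h2] with a ha3 ha2
  refine ha2.congr' ?_
  filter_upwards [eventually_ge_atTop N₀] with N hN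
  exact (ha3 N hN).symm

theorem mC_ae_eq_condExp {Fs : I → ℕ → Finset I} (hFs : GoodExh Fs) (e : I) (j : ℕ) :
    mC ν Fs h e j =ᵐ[levP ν h] (levP ν h)[fun a => bv (a.1 e) | pastσ h j] := by
  filter_upwards [ae_tendsto_mF ν h hh (hFs.mono e) (hFs.exh e) e j] with a ha
  exact ha.limsup_eq

end levlim

/-! ### Posterior means and representation of level functions on a truth space -/

section truth2
variable {Ω : Type*} [mΩ : MeasurableSpace Ω] {ν : Measure (I → Bool)}
  {P : Measure Ω} {ω : Ω → I → Bool} {B : Ω → I → Sk} {Fs : I → ℕ → Finset I}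
  (T : Truth ν P ω B) [IsProbabilityMeasure ν] [IsProbabilityMeasure P]
include T

omit [IsProbabilityMeasure ν] [IsProbabilityMeasure P] in
lemma Mt_eq_mC (e : I) (n k r : ℕ) (a : Ω) :
    Mt ν Fs ω B e n k a = mC ν Fs (hLev (n + r) : ℝ) e (k * 2 ^ r) (levMap ω B (n + r) a) := by
  rw [T.mC_levMap, tm_lift]
  unfold Mt
  simp_rw [T.Yobs_lift a _ n k r]

omit [IsProbabilityMeasure ν] [IsProbabilityMeasure P] in
lemma MtF_eq_mF (F : Finset I) (e : I) (n k : ℕ) (a : Ω) :
    MtF ν ω B F e n k a = mF ν (hLev n : ℝ) F e k (levMap ω B n a) := by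
  unfold MtF mF
  rw [tm_eq_mul]
  simp_rw [T.Ypos_levMap a _ n k]

omit [IsProbabilityMeasure ν] [IsProbabilityMeasure P] in
lemma M2tF_eq_m2F (F : Finset I) (o u : I) (n k : ℕ) (a : Ω) :
    M2tF ν ω B F o u n k a = m2F ν (hLev n : ℝ) F o u k (levMap ω B n a) := by
  unfold M2tF m2F
  rw [tm_eq_mul]
  simp_rw [T.Ypos_levMap a _ n k]

omit [IsProbabilityMeasure ν] [IsProbabilityMeasure P] in
lemma CRtF_eq_cF (F : Finset I) (o u : I) (n k : ℕ) (a : Ω) :
    CRtF ν ω B F o u n k a = cF ν (hLev n : ℝ) F o u k (levMap ω B n a) := by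
  unfold CRtF cF
  rw [tm_eq_mul]
  simp_rw [T.Ypos_levMap a _ n k]

omit [IsProbabilityMeasure ν] [IsProbabilityMeasure P] in
lemma MtF_lift (F : Finset I) (e : I) (n k r : ℕ) (a : Ω) :
    MtF ν ω B F e (n + r) (k * 2 ^ r) a = MtF ν ω B F e n k a := by
  unfold MtF
  rw [tm_lift]
  simp_rw [T.Yobs_lift a _ n k r]

omit [IsProbabilityMeasure ν] [IsProbabilityMeasure P] in
lemma M2tF_lift (F : Finset I) (o u : I) (n k r : ℕ) (a : Ω) :
    M2tF ν ω B F o u (n + r) (k * 2 ^ r) a = M2tF ν ω B F o u n k a := by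
  unfold M2tF
  rw [tm_lift]
  simp_rw [T.Yobs_lift a _ n k r]

omit [IsProbabilityMeasure ν] [IsProbabilityMeasure P] in
lemma CRtF_lift (F : Finset I) (o u : I) (n k r : ℕ) (a : Ω) :
    CRtF ν ω B F o u (n + r) (k * 2 ^ r) a = CRtF ν ω B F o u n k a := by
  unfold CRtF
  rw [tm_lift]
  simp_rw [T.Yobs_lift a _ n k r]

omit [IsProbabilityMeasure ν] [IsProbabilityMeasure P] in
lemma Mt_lift (e : I) (n k r : ℕ) (a : Ω) :
    Mt ν Fs ω B e (n + r) (k * 2 ^ r) a = Mt ν Fs ω B e n k a := by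
  unfold Mt
  rw [tm_lift]
  simp_rw [T.Yobs_lift a _ n k r]

omit [IsProbabilityMeasure ν] [IsProbabilityMeasure P] in
lemma M2t_lift (o u : I) (n k r : ℕ) (a : Ω) :
    M2t ν Fs ω B o u (n + r) (k * 2 ^ r) a = M2t ν Fs ω B o u n k a := by
  unfold M2t
  rw [tm_lift]
  simp_rw [T.Yobs_lift a _ n k r]

omit [IsProbabilityMeasure ν] [IsProbabilityMeasure P] in
lemma CRt_lift (o u : I) (n k r : ℕ) (a : Ω) :
    CRt ν Fs ω B o u (n + r) (k * 2 ^ r) a = CRt ν Fs ω B o u n k a := by
  unfold CRt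
  rw [M2t_lift T, Mt_lift T, Mt_lift T]

/-- A bounded function measurable for the level past comes from the canonical space of the level. -/
lemma exists_level_rep {L J : ℕ} {Z : Ω → ℝ} (hZ : Measurable[levPast ω B L J] Z)
    (hb : ∀ a, |Z a| ≤ 1) : ∃ Z' : LevΩ I → ℝ, Measurable[pastσ (hLev L : ℝ) J] Z' ∧
      (∀ x, |Z' x| ≤ 1) ∧ ∀ a, Z a = Z' (levMap ω B L a) := by
  obtain ⟨g, hg, rfl⟩ := hZ.exists_eq_measurable_comp
  refine ⟨fun x => clip1 (g (obsAll (hLev L : ℝ) J x)), ?_, fun x => abs_clip1_le _, ?_⟩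
  · exact measurable_clip1.comp (hg.comp (comap_measurable _))
  · intro a
    simp only [Function.comp]
    exact (clip1_of_abs_le (hb a)).symm

/-- Integrals of functions of the level coordinates. -/
lemma integral_levMap (L : ℕ) {f : LevΩ I → ℝ} (hf : Measurable f) :
    ∫ a, f (levMap ω B L a) ∂P = ∫ x, f x ∂(levP ν (hLev L)) := T.integral_comp_levMap L f hf

lemma ae_of_levP (L : ℕ) {p : LevΩ I → Prop} (h : ∀ᵐ x ∂(levP ν (hLev L)), p x) :
    ∀ᵐ a ∂P, p (levMap ω B L a) := by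
  rw [← T.law L] at h
  exact ae_of_ae_map (T.measurable_levMap L).aemeasurable h

/-- Posterior means are conditional expectations. -/
theorem integral_Mt_mul (hFs : GoodExh Fs) (e : I) (n k : ℕ) {Z : Ω → ℝ}
    (hZ : Measurable[Ft ω B (tm n k)] Z) (hb : ∀ a, |Z a| ≤ 1) :
    ∫ a, Mt ν Fs ω B e n k a * Z a ∂P = ∫ a, bv (ω a e) * Z a ∂P := by
  have hbm : Measurable (fun a => bv (ω a e)) :=
    (measurable_from_top (f := bv)).comp ((measurable_pi_apply e).comp T.mω)
  have hMm := measurable_Mt (ν := ν) (Fs := Fs) T e n k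
  have hZm : Measurable Z := hZ.mono (Ft_le T _) le_rfl
  have hfi : Integrable (fun a => Mt ν Fs ω B e n k a - bv (ω a e)) P :=
    (integrable_of_bdd hMm 1 (abs_Mt_le e n k)).sub
      (integrable_of_bdd hbm 1 fun a => abs_bv_le_one _)
  have key : |∫ a, (Mt ν Fs ω B e n k a - bv (ω a e)) * Z a ∂P| ≤ 0 := by
    refine ext_bound_Ft T hfi 0 ?_ hZ hb
    intro r Z hZ hb
    obtain ⟨Z', hZ', hb', hrep⟩ := exists_level_rep T hZ hb
    have hZ'm : Measurable Z' := hZ'.mono (pastσ_le _ _) le_rfl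
    have h1 := bayes_lim ν (hLev (n + r)) (hLev_ne _) hFs e (k * 2 ^ r) Z' hZ' 1 hb'
    have h2 : ∫ a, (Mt ν Fs ω B e n k a - bv (ω a e)) * Z a ∂P =
        ∫ x, (mC ν Fs (hLev (n + r) : ℝ) e (k * 2 ^ r) x - bv (x.1 e)) * Z' x
          ∂(levP ν (hLev (n + r))) := by
      have hfm : Measurable (fun x : LevΩ I =>
          (mC ν Fs (hLev (n + r) : ℝ) e (k * 2 ^ r) x - bv (x.1 e)) * Z' x) :=
        ((measurable_mC ν Fs _ e _).sub (measurable_bv_site e)).mul hZ'm
      rw [← integral_levMap T (n + r) hfm]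
      refine integral_congr_ae (ae_of_all _ fun a => ?_)
      simp only
      rw [hrep a, Mt_eq_mC T e n k r a]
      rfl
    rw [h2]
    have i1 : Integrable (fun x : LevΩ I => mC ν Fs (hLev (n + r) : ℝ) e (k * 2 ^ r) x * Z' x)
        (levP ν (hLev (n + r))) :=
      integrable_of_bdd ((measurable_mC ν Fs _ e _).mul hZ'm) 1 fun x => by
        rw [abs_mul]
        exact mul_le_one₀ (abs_mC_le_one _ _ _ _ _ _) (abs_nonneg _) (hb' x)
    have i2 : Integrable (fun x : LevΩ I => bv (x.1 e) * Z' x) (levP ν (hLev (n + r))) :=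
      integrable_of_bdd ((measurable_bv_site e).mul hZ'm) 1 fun x => by
        rw [abs_mul]
        exact mul_le_one₀ (abs_bv_le_one _) (abs_nonneg _) (hb' x)
    simp_rw [sub_mul]
    rw [integral_sub i1 i2, h1]
    simp
  have h0 : ∫ a, (Mt ν Fs ω B e n k a - bv (ω a e)) * Z a ∂P = 0 := abs_nonpos_iff.1 key
  have i1 : Integrable (fun a => Mt ν Fs ω B e n k a * Z a) P :=
    integrable_of_bdd (hMm.mul hZm) 1 fun a => by
      rw [abs_mul]
      exact mul_le_one₀ (abs_Mt_le e n k a) (abs_nonneg _) (hb a)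
  have i2 : Integrable (fun a => bv (ω a e) * Z a) P :=
    integrable_of_bdd (hbm.mul hZm) 1 fun a => by
      rw [abs_mul]
      exact mul_le_one₀ (abs_bv_le_one _) (abs_nonneg _) (hb a)
  simp_rw [sub_mul] at h0
  rw [integral_sub i1 i2] at h0
  linarith

theorem integral_M2t_mul (hFs : GoodExh Fs) (o u : I) (n k : ℕ) {Z : Ω → ℝ}
    (hZ : Measurable[Ft ω B (tm n k)] Z) (hb : ∀ a, |Z a| ≤ 1) :
    ∫ a, M2t ν Fs ω B o u n k a * Z a ∂P = ∫ a, bv (ω a o) * bv (ω a u) * Z a ∂P := by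
  have hbm : ∀ e, Measurable (fun a => bv (ω a e)) := fun e =>
    (measurable_from_top (f := bv)).comp ((measurable_pi_apply e).comp T.mω)
  have hbb : ∀ a, |bv (ω a o) * bv (ω a u)| ≤ 1 := fun a => by
    rw [abs_mul]
    exact mul_le_one₀ (abs_bv_le_one _) (abs_nonneg _) (abs_bv_le_one _)
  have hMm := measurable_M2t (ν := ν) (Fs := Fs) T o u n k
  have hZm : Measurable Z := hZ.mono (Ft_le T _) le_rfl
  have hfi : Integrable (fun a => M2t ν Fs ω B o u n k a - bv (ω a o) * bv (ω a u)) P :=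
    (integrable_of_bdd hMm 1 (abs_M2t_le o u n k)).sub
      (integrable_of_bdd ((hbm o).mul (hbm u)) 1 hbb)
  have key : |∫ a, (M2t ν Fs ω B o u n k a - bv (ω a o) * bv (ω a u)) * Z a ∂P| ≤ 0 := by
    refine ext_bound_Ft T hfi 0 ?_ hZ hb
    intro r Z hZ hb
    obtain ⟨Z', hZ', hb', hrep⟩ := exists_level_rep T hZ hb
    have hZ'm : Measurable Z' := hZ'.mono (pastσ_le _ _) le_rfl
    set L := n + r
    set J := k * 2 ^ r
    set g : LevΩ I → ℝ := fun a => bv (a.1 o) * bv (a.1 u) with hg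
    have hgm : Measurable g := (measurable_bv_site o).mul (measurable_bv_site u)
    have hgb : ∀ x, |g x| ≤ 1 := fun x => by
      simp only [hg]
      rw [abs_mul]
      exact mul_le_one₀ (abs_bv_le_one _) (abs_nonneg _) (abs_bv_le_one _)
    set cg := (levP ν (hLev L))[g | pastσ (hLev L : ℝ) J] with hcg
    have hle := pastσ_le (I := I) (hLev L : ℝ) J
    have hcgm : Measurable cg := (stronglyMeasurable_condExp (m := pastσ (hLev L : ℝ) J)).measurable.mono hle le_rfl
    have hM2 : ∀ᵐ a ∂P, M2t ν Fs ω B o u n k a = cg (levMap ω B L a) := by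
      have h1 := ae_tendsto_m2F ν (hLev L) (hLev_ne L) (hFs.mono o) (hFs.exh o) o u J
      filter_upwards [ae_of_levP T L h1] with a ha
      have h2 : M2t ν Fs ω B o u n k a =
          limsup (fun N => m2F ν (hLev L : ℝ) (Fs o N) o u J (levMap ω B L a)) atTop := by
        rw [← M2t_lift T o u n k r a]
        have h3 : (fun N => m2F ν (hLev L : ℝ) (Fs o N) o u J (levMap ω B L a)) =
            fun N => M2tF ν ω B (Fs o N) o u L J a := by
          funext N
          exact (M2tF_eq_m2F T _ _ _ _ _ _).symm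
        rw [h3]
        rfl
      rw [h2]
      exact ha.limsup_eq
    have hgi : Integrable g (levP ν (hLev L)) := integrable_of_bdd hgm 1 hgb
    have h1 : ∫ x, cg x * Z' x ∂(levP ν (hLev L)) = ∫ x, g x * Z' x ∂(levP ν (hLev L)) :=
      integral_condExp_mul hle
        (integrable_of_bdd (hZ'm.mul hgm) 1 fun x => by
          show |Z' x * g x| ≤ 1
          rw [abs_mul]
          exact mul_le_one₀ (hb' x) (abs_nonneg _) (hgb x)) hgi hZ'
    have h2 : ∫ a, (M2t ν Fs ω B o u n k a - bv (ω a o) * bv (ω a u)) * Z a ∂P =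
        ∫ x, (cg x - g x) * Z' x ∂(levP ν (hLev L)) := by
      have hfm : Measurable (fun x : LevΩ I => (cg x - g x) * Z' x) := (hcgm.sub hgm).mul hZ'm
      rw [← integral_levMap T L hfm]
      refine integral_congr_ae ?_
      filter_upwards [hM2] with a ha
      simp only [hg]
      rw [hrep a, ha]
      rfl
    rw [h2]
    have hcgi : Integrable (fun x => cg x * Z' x) (levP ν (hLev L)) :=
      (integrable_condExp (m := pastσ (hLev L : ℝ) J)).mul_bdd (c := 1)
        hZ'm.aestronglyMeasurable (ae_of_all _ fun x => by simpa using hb' x)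
    have i2 : Integrable (fun x : LevΩ I => g x * Z' x) (levP ν (hLev L)) :=
      integrable_of_bdd (hgm.mul hZ'm) 1 fun x => by
        rw [abs_mul]
        exact mul_le_one₀ (hgb x) (abs_nonneg _) (hb' x)
    simp_rw [sub_mul]
    rw [integral_sub hcgi i2, h1]
    simp
  have h0 : ∫ a, (M2t ν Fs ω B o u n k a - bv (ω a o) * bv (ω a u)) * Z a ∂P = 0 :=
    abs_nonpos_iff.1 key
  have i1 : Integrable (fun a => M2t ν Fs ω B o u n k a * Z a) P :=
    integrable_of_bdd (hMm.mul hZm) 1 fun a => by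
      rw [abs_mul]
      exact mul_le_one₀ (abs_M2t_le o u n k a) (abs_nonneg _) (hb a)
  have i2 : Integrable (fun a => bv (ω a o) * bv (ω a u) * Z a) P :=
    integrable_of_bdd (((hbm o).mul (hbm u)).mul hZm) 1 fun a => by
      rw [abs_mul]
      exact mul_le_one₀ (hbb a) (abs_nonneg _) (hb a)
  simp_rw [sub_mul] at h0
  rw [integral_sub i1 i2] at h0
  linarith

theorem Mt_ae_condExp (hFs : GoodExh Fs) (e : I) (n k : ℕ) :
    Mt ν Fs ω B e n k =ᵐ[P] P[fun a => bv (ω a e) | Ft ω B (tm n k)] := by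
  have hbm : Measurable (fun a => bv (ω a e)) :=
    (measurable_from_top (f := bv)).comp ((measurable_pi_apply e).comp T.mω)
  exact ae_eq_condExp_of_bdd_test (Ft_le T _) (integrable_of_bdd hbm 1 fun a => abs_bv_le_one _)
    (measurable_Mt_Ft e n k) 1 (abs_Mt_le e n k) fun Z hZ hb => integral_Mt_mul T hFs e n k hZ hb

theorem M2t_ae_condExp (hFs : GoodExh Fs) (o u : I) (n k : ℕ) :
    M2t ν Fs ω B o u n k =ᵐ[P] P[fun a => bv (ω a o) * bv (ω a u) | Ft ω B (tm n k)] := by
  have hbm : ∀ e, Measurable (fun a => bv (ω a e)) := fun e =>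
    (measurable_from_top (f := bv)).comp ((measurable_pi_apply e).comp T.mω)
  exact ae_eq_condExp_of_bdd_test (Ft_le T _)
    (integrable_of_bdd ((hbm o).mul (hbm u)) 1 fun a => by
      show |bv (ω a o) * bv (ω a u)| ≤ 1
      rw [abs_mul]
      exact mul_le_one₀ (abs_bv_le_one _) (abs_nonneg _) (abs_bv_le_one _))
    (measurable_M2t_Ft o u n k) 1 (abs_M2t_le o u n k) fun Z hZ hb => integral_M2t_mul T hFs o u n k hZ hb

/-- Finite volume posterior means converge to the posterior mean, along any exhaustion of the family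
`Fs`: here the exhaustion `Fs o` of `o` also computes the posterior mean of `e`. -/
theorem ae_tendsto_MtF (hFs : GoodExh Fs) (o e : I) (n k : ℕ) :
    ∀ᵐ a ∂P, Tendsto (fun N => MtF ν ω B (Fs o N) e n k a) atTop (𝓝 (Mt ν Fs ω B e n k a)) := by
  have h1 := ae_tendsto_mF ν (hLev n) (hLev_ne n) (hFs.mono o) (hFs.exh o) e k
  have h2 := mC_ae_eq_condExp ν (hLev n) (hLev_ne n) hFs e k
  filter_upwards [ae_of_levP T n h1, ae_of_levP T n h2] with a ha1 ha2
  rw [← ha2] at ha1
  have h3 : Mt ν Fs ω B e n k a = mC ν Fs (hLev n : ℝ) e k (levMap ω B n a) := by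
    have := Mt_eq_mC T (Fs := Fs) e n k 0 a
    simpa using this
  rw [h3]
  have h4 : (fun N => MtF ν ω B (Fs o N) e n k a) =
      fun N => mF ν (hLev n : ℝ) (Fs o N) e k (levMap ω B n a) := by
    funext N
    exact MtF_eq_mF T _ _ _ _ _
  rw [h4]
  exact ha1

theorem ae_tendsto_M2tF (hFs : GoodExh Fs) (o u : I) (n k : ℕ) :
    ∀ᵐ a ∂P, Tendsto (fun N => M2tF ν ω B (Fs o N) o u n k a) atTop (𝓝 (M2t ν Fs ω B o u n k a)) := by
  have h1 := ae_tendsto_m2F ν (hLev n) (hLev_ne n) (hFs.mono o) (hFs.exh o) o u k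
  filter_upwards [ae_of_levP T n h1] with a ha1
  have h4 : (fun N => M2tF ν ω B (Fs o N) o u n k a) =
      fun N => m2F ν (hLev n : ℝ) (Fs o N) o u k (levMap ω B n a) := by
    funext N
    exact M2tF_eq_m2F T _ _ _ _ _ _
  have h2 : M2t ν Fs ω B o u n k a = limsup (fun N => M2tF ν ω B (Fs o N) o u n k a) atTop := rfl
  rw [h2, h4, ha1.limsup_eq]
  rw [← h4]
  rw [h4]
  exact ha1

theorem ae_tendsto_CRtF (hFs : GoodExh Fs) (o u : I) (n k : ℕ) :
    ∀ᵐ a ∂P, Tendsto (fun N => CRtF ν ω B (Fs o N) o u n k a) atTop (𝓝 (CRt ν Fs ω B o u n k a)) := by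
  filter_upwards [ae_tendsto_M2tF T hFs o u n k, ae_tendsto_MtF T hFs o o n k,
    ae_tendsto_MtF T hFs o u n k] with a h1 h2 h3
  exact h1.sub (h2.mul h3)

end truth2

/-! ### The innovation increments -/

section innov
variable {Ω : Type*} [mΩ : MeasurableSpace Ω] {ν : Measure (I → Bool)}
  {P : Measure Ω} {ω : Ω → I → Bool} {B : Ω → I → Sk} {Fs : I → ℕ → Finset I}

/-- The innovation increment. -/
noncomputable def dW (ν : Measure (I → Bool)) (Fs : I → ℕ → Finset I) (ω : Ω → I → Bool)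
    (B : Ω → I → Sk) (u : I) (n k : ℕ) (a : Ω) : ℝ :=
  Wmap ν Fs (Yobs ω B a) u n (k + 1) - Wmap ν Fs (Yobs ω B a) u n k

/-- The approximate innovation increment at the level `n + d`. -/
noncomputable def dWd (ν : Measure (I → Bool)) (Fs : I → ℕ → Finset I) (ω : Ω → I → Bool)
    (B : Ω → I → Sk) (u : I) (n k d : ℕ) (a : Ω) : ℝ :=
  SD ν Fs (hLev (n + d) : ℝ) u (k * 2 ^ d) ((k + 1) * 2 ^ d) (levMap ω B (n + d) a)

lemma card_Ico_lift (k d : ℕ) : (((k + 1) * 2 ^ d : ℕ) : ℝ) - ((k * 2 ^ d : ℕ) : ℝ) = 2 ^ d := by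
  push_cast
  ring

lemma two_pow_mul_hLev (n d : ℕ) : (2 : ℝ) ^ d * (hLev (n + d) : ℝ) = 1 / 2 ^ n := by
  rw [hLev_coe, pow_add]
  field_simp

lemma hLev_add_tendsto (n : ℕ) : Tendsto (fun d => (hLev (n + d) : ℝ)) atTop (𝓝 0) := by
  have h1 : (fun d => (hLev (n + d) : ℝ)) = fun d => (1 / 2 ^ n : ℝ) * (1 / 2) ^ d := by
    funext d
    rw [hLev_coe, pow_add]
    simp only [one_div, inv_pow, mul_inv]
  rw [h1]
  have := (tendsto_pow_atTop_nhds_zero_of_lt_one (r := (1 / 2 : ℝ)) (by norm_num)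
    (by norm_num)).const_mul (1 / 2 ^ n : ℝ)
  simpa using this

section
variable (T : Truth ν P ω B)
include T

lemma dWd_eq (u : I) (n k d : ℕ) (a : Ω) :
    dWd ν Fs ω B u n k d a =
      (Yobs ω B a u n (k + 1) - Rsum ν Fs (Yobs ω B a) u n (k + 1) d) -
        (Yobs ω B a u n k - Rsum ν Fs (Yobs ω B a) u n k d) := by
  rw [T.Yobs_sub_Rsum a u n (k + 1) d, T.Yobs_sub_Rsum a u n k d]
  unfold dWd SD
  exact Finset.sum_Ico_eq_sub _ (Nat.mul_le_mul_right _ (Nat.le_succ k))

end

variable (T : Truth ν P ω B) [IsProbabilityMeasure ν] [IsProbabilityMeasure P]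
include T

lemma measurable_dW (u : I) (n k : ℕ) : Measurable (dW ν Fs ω B u n k) := by
  have h1 : Measurable (fun a => Wmap ν Fs (Yobs ω B a)) :=
    (measurable_Wmap ν Fs).comp T.measurable_Yobs
  exact ((measurable_sk_coord u n (k + 1)).comp h1).sub ((measurable_sk_coord u n k).comp h1)

omit [IsProbabilityMeasure ν] [IsProbabilityMeasure P] T in
lemma measurable_dW_Gt (u : I) (n k : ℕ) :
    Measurable[Gt ν Fs ω B (tm n (k + 1))] (dW ν Fs ω B u n k) :=
  Measurable.sub (measurable_Wmap_Gt' le_rfl u)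
    (measurable_Wmap_Gt' (tm_mono_right n (Nat.le_succ k)) u)

lemma measurable_dWd (u : I) (n k d : ℕ) : Measurable (dWd ν Fs ω B u n k d) :=
  ((measurable_SD_past ν (Fs := Fs) _ u _ _).mono (pastσ_le _ _) le_rfl).comp
    (T.measurable_levMap (n + d))

theorem ae_tendsto_dWd (hFs : GoodExh Fs) (u : I) (n k : ℕ) :
    ∀ᵐ a ∂P, Tendsto (fun d => dWd ν Fs ω B u n k d a) atTop (𝓝 (dW ν Fs ω B u n k a)) := by
  filter_upwards [T.ae_tendsto_Rsum hFs u n k, T.ae_tendsto_Rsum hFs u n (k + 1)] with a h1 h2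
  obtain ⟨L1, hL1⟩ := h1
  obtain ⟨L2, hL2⟩ := h2
  have e : (fun d => dWd ν Fs ω B u n k d a) = fun d =>
      (Yobs ω B a u n (k + 1) - Rsum ν Fs (Yobs ω B a) u n (k + 1) d) -
        (Yobs ω B a u n k - Rsum ν Fs (Yobs ω B a) u n k d) := by
    funext d
    exact dWd_eq T u n k d a
  rw [e]
  have h3 : dW ν Fs ω B u n k a = (Yobs ω B a u n (k + 1) - L2) - (Yobs ω B a u n k - L1) := by
    unfold dW Wmap Rlim
    rw [hL1.limsup_eq, hL2.limsup_eq]
  rw [h3]
  exact (tendsto_const_nhds.sub hL2).sub (tendsto_const_nhds.sub hL1)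

/-- The dominating function of the approximate innovation increments. -/
noncomputable def gW (ω : Ω → I → Bool) (B : Ω → I → Sk) (u : I) (n k : ℕ) (a : Ω) : ℝ :=
  |(levMap ω B n a).2 (u, k)| + 1 / 2 ^ n

omit [IsProbabilityMeasure ν] [IsProbabilityMeasure P] in
lemma abs_dWd_le (u : I) (n k d : ℕ) (a : Ω) : |dWd ν Fs ω B u n k d a| ≤ gW ω B u n k a := by
  set L := n + d
  set h : ℝ := (hLev L : ℝ)
  have hpos : 0 ≤ h := (hLev L).2
  have h1 : dWd ν Fs ω B u n k d a =
      ∑ i ∈ Finset.Ico (k * 2 ^ d) ((k + 1) * 2 ^ d), (levMap ω B L a).2 (u, i) +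
      ∑ i ∈ Finset.Ico (k * 2 ^ d) ((k + 1) * 2 ^ d), h * (bv ((levMap ω B L a).1 u) -
        mC ν Fs h u i (levMap ω B L a)) := by
    unfold dWd SD
    rw [← Finset.sum_add_distrib]
    rfl
  have h2 : ∑ i ∈ Finset.Ico (k * 2 ^ d) ((k + 1) * 2 ^ d), (levMap ω B L a).2 (u, i) =
      (levMap ω B n a).2 (u, k) := by
    rw [Finset.sum_Ico_eq_sub _ (Nat.mul_le_mul_right _ (Nat.le_succ k)),
      ← T.B_eq_sum a u n (k + 1) d, ← T.B_eq_sum a u n k d]
    rfl
  have h3 : |∑ i ∈ Finset.Ico (k * 2 ^ d) ((k + 1) * 2 ^ d), h * (bv ((levMap ω B L a).1 u) -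
        mC ν Fs h u i (levMap ω B L a))| ≤ 1 / 2 ^ n := by
    refine (Finset.abs_sum_le_sum_abs _ _).trans ?_
    have h4 : ∀ i ∈ Finset.Ico (k * 2 ^ d) ((k + 1) * 2 ^ d), |h * (bv ((levMap ω B L a).1 u) -
        mC ν Fs h u i (levMap ω B L a))| ≤ h := by
      intro i _
      rw [abs_mul, abs_of_nonneg hpos]
      exact mul_le_of_le_one_right hpos (abs_bv_sub_mC_le ν Fs h u i _)
    refine (Finset.sum_le_sum h4).trans ?_
    rw [Finset.sum_const, Nat.card_Ico, nsmul_eq_mul,
      Nat.cast_sub (Nat.mul_le_mul_right _ (Nat.le_succ k)), card_Ico_lift]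
    exact (two_pow_mul_hLev n d).le
  rw [h1, h2]
  unfold gW
  exact (abs_add_le _ _).trans (add_le_add le_rfl h3)

lemma memLp_levNoise (u : I) (n k : ℕ) : MemLp (fun a => (levMap ω B n a).2 (u, k)) 2 P := by
  have h1 := memLp_noise ν (hLev n) (u, k) 2
  rw [← T.law n] at h1
  exact (memLp_map_measure_iff h1.aestronglyMeasurable (T.measurable_levMap n).aemeasurable).1 h1

lemma memLp_gW (u : I) (n k : ℕ) : MemLp (gW ω B u n k) 2 P :=
  (memLp_levNoise T u n k).abs.add (memLp_const _)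

lemma integrable_gW (u : I) (n k : ℕ) : Integrable (gW ω B u n k) P :=
  (memLp_gW T u n k).integrable one_le_two

lemma measurable_gW (u : I) (n k : ℕ) : Measurable (gW ω B u n k) := by
  unfold gW
  refine Measurable.add ?_ measurable_const
  exact ((measurable_pi_apply (u, k)).comp (measurable_snd.comp (T.measurable_levMap n))).abs

lemma gW_nonneg (u : I) (n k : ℕ) (a : Ω) : 0 ≤ gW ω B u n k a := by
  unfold gW
  positivity

theorem ae_abs_dW_le (hFs : GoodExh Fs) (u : I) (n k : ℕ) :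
    ∀ᵐ a ∂P, |dW ν Fs ω B u n k a| ≤ gW ω B u n k a := by
  filter_upwards [ae_tendsto_dWd T hFs u n k] with a ha
  exact le_of_tendsto ha.abs (Eventually.of_forall fun d => abs_dWd_le T u n k d a)

theorem memLp_dW (hFs : GoodExh Fs) (u : I) (n k : ℕ) : MemLp (dW ν Fs ω B u n k) 2 P := by
  refine (memLp_gW T u n k).mono (measurable_dW T u n k).aestronglyMeasurable ?_
  filter_upwards [ae_abs_dW_le T hFs u n k] with a ha
  rw [Real.norm_eq_abs, Real.norm_eq_abs, abs_of_nonneg (gW_nonneg T u n k a)]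
  exact ha

/-- The innovation increments have mean zero against the past of the observation. -/
theorem integral_past_mul_dW (hFs : GoodExh Fs) (u : I) (n k : ℕ)
    {Z : Ω → ℝ} (hZ : Measurable[Ft ω B (tm n k)] Z) (hb : ∀ a, |Z a| ≤ 1) :
    ∫ a, dW ν Fs ω B u n k a * Z a ∂P = 0 := by
  have key := limit_level T (f := dW ν Fs ω B u n k) (dWd ν Fs ω B u n k) (gW ω B u n k)
    (integrable_gW T u n k) (measurable_dW T u n k) (measurable_dWd T u n k)
    (abs_dWd_le T u n k) (ae_tendsto_dWd T hFs u n k) 0 (fun _ => 0) tendsto_const_nhds ?_ hZ hb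
  · exact abs_nonpos_iff.1 key
  intro d Z hZ hb
  obtain ⟨Z', hZ', hb', hrep⟩ := exists_level_rep T hZ hb
  have hZ'm : Measurable Z' := hZ'.mono (pastσ_le _ _) le_rfl
  have hSm : Measurable (SD ν Fs (hLev (n + d) : ℝ) u (k * 2 ^ d) ((k + 1) * 2 ^ d)) :=
    (measurable_SD_past ν (Fs := Fs) _ u _ _).mono (pastσ_le _ _) le_rfl
  have h2 : ∫ a, dWd ν Fs ω B u n k d a * Z a ∂P =
      ∫ x, Z' x * SD ν Fs (hLev (n + d) : ℝ) u (k * 2 ^ d) ((k + 1) * 2 ^ d) x
        ∂(levP ν (hLev (n + d))) := by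
    have hfm : Measurable (fun x : LevΩ I =>
        Z' x * SD ν Fs (hLev (n + d) : ℝ) u (k * 2 ^ d) ((k + 1) * 2 ^ d) x) := hZ'm.mul hSm
    rw [← integral_levMap T (n + d) hfm]
    refine integral_congr_ae (ae_of_all _ fun a => ?_)
    simp only
    rw [hrep a, mul_comm]
    rfl
  rw [h2, integral_past_mul_SD ν (hLev (n + d)) (hLev_ne _) hFs u
    (Nat.mul_le_mul_right _ (Nat.le_succ k)) hZ' 1 hb']
  simp

/-- Second moments of the innovation increments against the past of the observation. -/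
theorem integral_past_mul_dW_dW (hFs : GoodExh Fs) (u u' : I) (n k : ℕ)
    {Z : Ω → ℝ} (hZ : Measurable[Ft ω B (tm n k)] Z) (hb : ∀ a, |Z a| ≤ 1) :
    ∫ a, dW ν Fs ω B u n k a * dW ν Fs ω B u' n k a * Z a ∂P =
      (open Classical in if u = u' then (1 / 2 ^ n : ℝ) else 0) * ∫ a, Z a ∂P := by
  classical
  set δ : ℝ := if u = u' then (1 / 2 ^ n : ℝ) else 0 with hδ
  have hδb : |δ| ≤ 1 / 2 ^ n := by
    rw [hδ]
    split_ifs
    · rw [abs_of_nonneg (by positivity)]
    · simp only [abs_zero]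
      positivity
  have hZm : Measurable Z := hZ.mono (Ft_le T _) le_rfl
  have hg : Integrable (fun a => gW ω B u n k a * gW ω B u' n k a + 1 / 2 ^ n) P :=
    ((memLp_gW T u n k).integrable_mul (memLp_gW T u' n k)).add (integrable_const _)
  have key := limit_level T (f := fun a => dW ν Fs ω B u n k a * dW ν Fs ω B u' n k a - δ)
    (fun d a => dWd ν Fs ω B u n k d a * dWd ν Fs ω B u' n k d a - δ)
    (fun a => gW ω B u n k a * gW ω B u' n k a + 1 / 2 ^ n) hg
    (((measurable_dW T u n k).mul (measurable_dW T u' n k)).sub_const _)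
    (fun d => ((measurable_dWd T u n k d).mul (measurable_dWd T u' n k d)).sub_const _)
    (fun d a => ?_) ?_ 0 (fun d => (1 / 2 ^ n : ℝ) * (hLev (n + d) : ℝ))
    (by simpa using (hLev_add_tendsto n).const_mul (1 / 2 ^ n : ℝ)) ?_ hZ hb
  · have h0 : ∫ a, (dW ν Fs ω B u n k a * dW ν Fs ω B u' n k a - δ) * Z a ∂P = 0 :=
      abs_nonpos_iff.1 key
    have i1 : Integrable (fun a => dW ν Fs ω B u n k a * dW ν Fs ω B u' n k a * Z a) P :=
      ((memLp_dW T hFs u n k).integrable_mul (memLp_dW T hFs u' n k)).mul_bdd (c := 1)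
        hZm.aestronglyMeasurable (ae_of_all _ fun a => by simpa using hb a)
    have i2 : Integrable (fun a => δ * Z a) P :=
      (integrable_of_bdd hZm 1 hb).const_mul _
    simp_rw [sub_mul] at h0
    rw [integral_sub i1 i2, integral_const_mul] at h0
    linarith
  · refine (abs_sub _ _).trans (add_le_add ?_ hδb)
    rw [abs_mul]
    exact mul_le_mul (abs_dWd_le T u n k d a) (abs_dWd_le T u' n k d a) (abs_nonneg _)
      (gW_nonneg T u n k a)
  · filter_upwards [ae_tendsto_dWd T hFs u n k, ae_tendsto_dWd T hFs u' n k] with a h1 h2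
    exact (h1.mul h2).sub_const _
  · intro d Z hZ hb
    obtain ⟨Z', hZ', hb', hrep⟩ := exists_level_rep T hZ hb
    have hZ'm : Measurable Z' := hZ'.mono (pastσ_le _ _) le_rfl
    set L := n + d with hL
    set J₀ := k * 2 ^ d with hJ₀
    set J := (k + 1) * 2 ^ d with hJ
    have hJJ : J₀ ≤ J := Nat.mul_le_mul_right _ (Nat.le_succ k)
    have hSm : ∀ v, Measurable (SD ν Fs (hLev L : ℝ) v J₀ J) := fun v =>
      (measurable_SD_past ν (Fs := Fs) _ v _ _).mono (pastσ_le _ _) le_rfl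
    have h2 : ∫ a, (dWd ν Fs ω B u n k d a * dWd ν Fs ω B u' n k d a - δ) * Z a ∂P =
        ∫ x, Z' x * (SD ν Fs (hLev L : ℝ) u J₀ J x * SD ν Fs (hLev L : ℝ) u' J₀ J x) -
          δ * Z' x ∂(levP ν (hLev L)) := by
      have hfm : Measurable (fun x : LevΩ I =>
          Z' x * (SD ν Fs (hLev L : ℝ) u J₀ J x * SD ν Fs (hLev L : ℝ) u' J₀ J x) - δ * Z' x) :=
        (hZ'm.mul ((hSm u).mul (hSm u'))).sub (hZ'm.const_mul _)
      rw [← integral_levMap T L hfm]
      refine integral_congr_ae (ae_of_all _ fun a => ?_)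
      simp only
      rw [hrep a, sub_mul]
      simp only [dWd]
      ring
    have h3 := integral_past_mul_SD_SD ν (hLev L) (hLev_ne _) hFs u u' hJJ hZ' 1 hb'
    have hcard : ((J : ℝ) - J₀) * (if u = u' then (hLev L : ℝ) else 0) = δ := by
      rw [hJ, hJ₀, card_Ico_lift, hδ]
      split_ifs
      · exact two_pow_mul_hLev n d
      · simp
    have hcard2 : ((J : ℝ) - J₀) * (1 * (hLev L : ℝ) ^ 2) = 1 / 2 ^ n * (hLev L : ℝ) := by
      rw [hJ, hJ₀, card_Ico_lift, one_mul, sq, ← mul_assoc, two_pow_mul_hLev]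
    rw [hcard, hcard2] at h3
    have i1 : Integrable (fun x => Z' x * (SD ν Fs (hLev L : ℝ) u J₀ J x *
        SD ν Fs (hLev L : ℝ) u' J₀ J x)) (levP ν (hLev L)) :=
      ((memLp_SD ν (hLev L) u J₀ J).integrable_mul (memLp_SD ν (hLev L) u' J₀ J)).bdd_mul (c := 1)
        hZ'm.aestronglyMeasurable (ae_of_all _ fun a => by simpa using hb' a)
    have i2 : Integrable (fun x => δ * Z' x) (levP ν (hLev L)) :=
      (integrable_of_bdd hZ'm 1 hb').const_mul _
    rw [h2, integral_sub i1 i2, integral_const_mul, zero_add]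
    exact h3

/-- The covariation of the configuration with the innovation increments. -/
theorem abs_integral_bv_mul_dW_sub (hFs : GoodExh Fs) (o u : I) (n k : ℕ)
    {Z : Ω → ℝ} (hZ : Measurable[Ft ω B (tm n k)] Z) (hb : ∀ a, |Z a| ≤ 1) :
    |∫ a, bv (ω a o) * dW ν Fs ω B u n k a * Z a ∂P -
        (1 / 2 ^ n : ℝ) * ∫ a, CRt ν Fs ω B o u n k a * Z a ∂P| ≤
      (1 / 2 ^ n : ℝ) * ((qq ν Fs P ω B o n (k + 1) - qq ν Fs P ω B o n k) +
        (qq ν Fs P ω B u n (k + 1) - qq ν Fs P ω B u n k)) / 2 := by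
  have hbm : ∀ e, Measurable (fun a => bv (ω a e)) := fun e =>
    (measurable_from_top (f := bv)).comp ((measurable_pi_apply e).comp T.mω)
  have hZm : Measurable Z := hZ.mono (Ft_le T _) le_rfl
  set h₀ : ℝ := 1 / 2 ^ n with hh₀
  have hh₀pos : 0 ≤ h₀ := by positivity
  -- the bounded part
  set Bd : Ω → ℝ := fun a => h₀ * (bv (ω a o) * bv (ω a u) -
    Mt ν Fs ω B o n k a * Mt ν Fs ω B u n k a) with hBd
  have hBdm : Measurable Bd :=
    (((hbm o).mul (hbm u)).sub ((measurable_Mt T o n k).mul (measurable_Mt T u n k))).const_mul _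
  have hBdb : ∀ a, |Bd a| ≤ h₀ := by
    intro a
    simp only [hBd]
    rw [abs_mul, abs_of_nonneg hh₀pos]
    refine mul_le_of_le_one_right hh₀pos ?_
    have h1 := Mt_nonneg (ν := ν) (Fs := Fs) (ω := ω) (B := B) o n k a
    have h2 := Mt_le_one (ν := ν) (Fs := Fs) (ω := ω) (B := B) o n k a
    have h3 := Mt_nonneg (ν := ν) (Fs := Fs) (ω := ω) (B := B) u n k a
    have h4 := Mt_le_one (ν := ν) (Fs := Fs) (ω := ω) (B := B) u n k a
    have h5 : ∀ b : Bool, 0 ≤ bv b ∧ bv b ≤ 1 := fun b => by cases b <;> simp [bv]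
    obtain ⟨h6, h7⟩ := h5 (ω a o)
    obtain ⟨h8, h9⟩ := h5 (ω a u)
    rw [abs_le]
    constructor <;> nlinarith [mul_nonneg h1 h3, mul_nonneg h6 h8, mul_le_one₀ h2 h3 h4,
      mul_le_one₀ h7 h8 h9]
  set κ : ℝ := h₀ * ((qq ν Fs P ω B o n (k + 1) - qq ν Fs P ω B o n k) +
        (qq ν Fs P ω B u n (k + 1) - qq ν Fs P ω B u n k)) / 2 with hκ
  have hg : Integrable (fun a => gW ω B u n k a + h₀) P :=
    (integrable_gW T u n k).add (integrable_const _)
  have key := limit_level T (f := fun a => bv (ω a o) * dW ν Fs ω B u n k a - Bd a)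
    (fun d a => bv (ω a o) * dWd ν Fs ω B u n k d a - Bd a)
    (fun a => gW ω B u n k a + h₀) hg
    (((hbm o).mul (measurable_dW T u n k)).sub hBdm)
    (fun d => ((hbm o).mul (measurable_dWd T u n k d)).sub hBdm)
    (fun d a => ?_) ?_ κ (fun _ => 0) tendsto_const_nhds ?_ hZ hb
  · -- conclude
    have i0 : Integrable (fun a => bv (ω a o) * dW ν Fs ω B u n k a * Z a) P := by
      have h1 : Integrable (dW ν Fs ω B u n k) P := (memLp_dW T hFs u n k).integrable one_le_two
      have h2 : Integrable (fun a => bv (ω a o) * (Z a * dW ν Fs ω B u n k a)) P :=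
        Integrable.bdd_mul (c := 1) (h1.bdd_mul (c := 1) hZm.aestronglyMeasurable
          (ae_of_all _ fun a => by simpa using hb a)) (hbm o).aestronglyMeasurable
          (ae_of_all _ fun a => by simpa using abs_bv_le_one _)
      refine h2.congr (ae_of_all _ fun a => ?_)
      simp only
      ring
    have i1 : Integrable (fun a => Bd a * Z a) P :=
      integrable_of_bdd (hBdm.mul hZm) h₀ fun a => by
        rw [abs_mul]
        exact (mul_le_of_le_one_right (abs_nonneg _) (hb a)).trans (hBdb a)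
    have e1 : ∫ a, (bv (ω a o) * dW ν Fs ω B u n k a - Bd a) * Z a ∂P =
        ∫ a, bv (ω a o) * dW ν Fs ω B u n k a * Z a ∂P - ∫ a, Bd a * Z a ∂P := by
      simp_rw [sub_mul]
      rw [integral_sub i0 i1]
    have e2 : ∫ a, Bd a * Z a ∂P = h₀ * ∫ a, CRt ν Fs ω B o u n k a * Z a ∂P := by
      have hM2 := integral_M2t_mul T hFs o u n k hZ hb
      have i2 : Integrable (fun a => bv (ω a o) * bv (ω a u) * Z a) P :=
        integrable_of_bdd (((hbm o).mul (hbm u)).mul hZm) 1 fun a => by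
          rw [abs_mul, abs_mul]
          exact mul_le_one₀ (mul_le_one₀ (abs_bv_le_one _) (abs_nonneg _) (abs_bv_le_one _))
            (abs_nonneg _) (hb a)
      have i3 : Integrable (fun a => Mt ν Fs ω B o n k a * Mt ν Fs ω B u n k a * Z a) P :=
        integrable_of_bdd (((measurable_Mt T o n k).mul (measurable_Mt T u n k)).mul hZm) 1 fun a => by
          rw [abs_mul, abs_mul]
          exact mul_le_one₀ (mul_le_one₀ (abs_Mt_le _ _ _ _) (abs_nonneg _) (abs_Mt_le _ _ _ _))
            (abs_nonneg _) (hb a)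
      have i4 : Integrable (fun a => M2t ν Fs ω B o u n k a * Z a) P :=
        integrable_of_bdd ((measurable_M2t T o u n k).mul hZm) 1 fun a => by
          rw [abs_mul]
          exact mul_le_one₀ (abs_M2t_le _ _ _ _ _) (abs_nonneg _) (hb a)
      have e3 : ∀ a, Bd a * Z a = h₀ * (bv (ω a o) * bv (ω a u) * Z a -
          Mt ν Fs ω B o n k a * Mt ν Fs ω B u n k a * Z a) := fun a => by
        simp only [hBd]
        ring
      have e4 : ∀ a, CRt ν Fs ω B o u n k a * Z a = M2t ν Fs ω B o u n k a * Z a -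
          Mt ν Fs ω B o n k a * Mt ν Fs ω B u n k a * Z a := fun a => by
        unfold CRt
        ring
      simp_rw [e3, e4]
      rw [integral_const_mul, integral_sub i2 i3, integral_sub i4 i3, hM2]
    rw [← e2, ← e1]
    exact key
  · refine (abs_sub _ _).trans (add_le_add ?_ (hBdb a))
    rw [abs_mul]
    exact (mul_le_of_le_one_left (abs_nonneg _) (abs_bv_le_one _)).trans (abs_dWd_le T u n k d a)
  · filter_upwards [ae_tendsto_dWd T hFs u n k] with a h1
    exact (h1.const_mul _).sub_const _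
  · intro d Z hZ hb
    obtain ⟨Z', hZ', hb', hrep⟩ := exists_level_rep T hZ hb
    have hZ'm : Measurable Z' := hZ'.mono (pastσ_le _ _) le_rfl
    set L := n + d with hL
    set J₀ := k * 2 ^ d with hJ₀
    set J := (k + 1) * 2 ^ d with hJ
    have hJJ : J₀ ≤ J := Nat.mul_le_mul_right _ (Nat.le_succ k)
    have hSm : ∀ v, Measurable (SD ν Fs (hLev L : ℝ) v J₀ J) := fun v =>
      (measurable_SD_past ν (Fs := Fs) _ v _ _).mono (pastσ_le _ _) le_rfl
    have hmm : ∀ e j, Measurable (mC ν Fs (hLev L : ℝ) e j) := fun e j => measurable_mC ν Fs _ e j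
    have hbv := measurable_bv_site (I := I)
    -- the level form
    have h2 : ∫ a, (bv (ω a o) * dWd ν Fs ω B u n k d a - Bd a) * Z a ∂P =
        ∫ x, bv (x.1 o) * SD ν Fs (hLev L : ℝ) u J₀ J x * Z' x -
          h₀ * (bv (x.1 o) * bv (x.1 u) * Z' x -
            mC ν Fs (hLev L : ℝ) o J₀ x * mC ν Fs (hLev L : ℝ) u J₀ x * Z' x) ∂(levP ν (hLev L)) := by
      have hfm : Measurable (fun x : LevΩ I => bv (x.1 o) * SD ν Fs (hLev L : ℝ) u J₀ J x * Z' x -
          h₀ * (bv (x.1 o) * bv (x.1 u) * Z' x -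
            mC ν Fs (hLev L : ℝ) o J₀ x * mC ν Fs (hLev L : ℝ) u J₀ x * Z' x)) :=
        (((hbv o).mul (hSm u)).mul hZ'm).sub (Measurable.const_mul
          ((((hbv o).mul (hbv u)).mul hZ'm).sub (((hmm o J₀).mul (hmm u J₀)).mul hZ'm)) _)
      rw [← integral_levMap T L hfm]
      refine integral_congr_ae (ae_of_all _ fun a => ?_)
      simp only
      rw [hrep a, sub_mul, ← Mt_eq_mC T o n k d a, ← Mt_eq_mC T u n k d a]
      simp only [dWd, hBd]
      show _ = bv (ω a o) * _ * _ - h₀ * (bv (ω a o) * bv (ω a u) * _ - _)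
      ring
    have h3 := abs_integral_bv_mul_SD_sub ν (hLev L) (hLev_ne _) hFs o u hJJ hZ' hb'
    have hcard : ((J : ℝ) - J₀) * (hLev L : ℝ) = h₀ := by
      rw [hJ, hJ₀, card_Ico_lift]
      exact two_pow_mul_hLev n d
    rw [hcard] at h3
    have hq : ∀ e j, ∫ x, mC ν Fs (hLev L : ℝ) e (j * 2 ^ d) x ^ 2 ∂(levP ν (hLev L)) =
        qq ν Fs P ω B e n j := by
      intro e j
      unfold qq
      have hfm : Measurable (fun x : LevΩ I => mC ν Fs (hLev L : ℝ) e (j * 2 ^ d) x ^ 2) :=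
        (hmm e _).pow_const 2
      rw [← integral_levMap T L hfm]
      refine integral_congr_ae (ae_of_all _ fun a => ?_)
      simp only
      rw [Mt_eq_mC T e n j d a]
    rw [hJ, hJ₀, hq o k, hq o (k + 1), hq u k, hq u (k + 1)] at h3
    rw [← hJ, ← hJ₀] at h3
    have i1 : Integrable (fun x => bv (x.1 o) * SD ν Fs (hLev L : ℝ) u J₀ J x * Z' x)
        (levP ν (hLev L)) := by
      have h1 : Integrable (SD ν Fs (hLev L : ℝ) u J₀ J) (levP ν (hLev L)) :=
        (memLp_SD ν (hLev L) u J₀ J).integrable one_le_two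
      have h2 : Integrable (fun x => bv (x.1 o) * (Z' x * SD ν Fs (hLev L : ℝ) u J₀ J x))
          (levP ν (hLev L)) :=
        Integrable.bdd_mul (c := 1) (h1.bdd_mul (c := 1) hZ'm.aestronglyMeasurable
          (ae_of_all _ fun a => by simpa using hb' a)) (hbv o).aestronglyMeasurable
          (ae_of_all _ fun a => by simpa using abs_bv_le_one _)
      refine h2.congr (ae_of_all _ fun a => ?_)
      simp only
      ring
    have i2 : Integrable (fun x : LevΩ I => bv (x.1 o) * bv (x.1 u) * Z' x) (levP ν (hLev L)) :=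
      integrable_of_bdd (((hbv o).mul (hbv u)).mul hZ'm) 1 fun a => by
        rw [abs_mul, abs_mul]
        exact mul_le_one₀ (mul_le_one₀ (abs_bv_le_one _) (abs_nonneg _) (abs_bv_le_one _))
          (abs_nonneg _) (hb' a)
    have i3 : Integrable (fun x : LevΩ I => mC ν Fs (hLev L : ℝ) o J₀ x *
        mC ν Fs (hLev L : ℝ) u J₀ x * Z' x) (levP ν (hLev L)) :=
      integrable_of_bdd (((hmm o J₀).mul (hmm u J₀)).mul hZ'm) 1 fun a => by
        rw [abs_mul, abs_mul]
        exact mul_le_one₀ (mul_le_one₀ (abs_mC_le_one _ _ _ _ _ _) (abs_nonneg _)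
          (abs_mC_le_one _ _ _ _ _ _)) (abs_nonneg _) (hb' a)
    have i23 : Integrable (fun x : LevΩ I => h₀ * (bv (x.1 o) * bv (x.1 u) * Z' x -
        mC ν Fs (hLev L : ℝ) o J₀ x * mC ν Fs (hLev L : ℝ) u J₀ x * Z' x)) (levP ν (hLev L)) :=
      (i2.sub i3).const_mul _
    rw [h2, integral_sub i1 i23, integral_const_mul, integral_sub i2 i3, add_zero, hκ]
    refine h3.trans (le_of_eq ?_)
    ring

theorem qq_nonneg (e : I) (n k : ℕ) : 0 ≤ qq ν Fs P ω B e n k :=
  integral_nonneg fun a => sq_nonneg _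

theorem qq_le_one (e : I) (n k : ℕ) : qq ν Fs P ω B e n k ≤ 1 := by
  unfold qq
  have h1 : ∫ a, Mt ν Fs ω B e n k a ^ 2 ∂P ≤ ∫ _a, (1 : ℝ) ∂P := by
    refine integral_mono_of_nonneg (ae_of_all _ fun a => sq_nonneg _) (integrable_const _)
      (ae_of_all _ fun a => ?_)
    simp only
    rw [sq_le_one_iff_abs_le_one]
    exact abs_Mt_le e n k a
  simpa using h1

lemma qq_eq_level (e : I) (n k : ℕ) :
    qq ν Fs P ω B e n k = ∫ x, mC ν Fs (hLev n : ℝ) e k x ^ 2 ∂(levP ν (hLev n)) := by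
  unfold qq
  have hfm : Measurable (fun x : LevΩ I => mC ν Fs (hLev n : ℝ) e k x ^ 2) :=
    (measurable_mC ν Fs _ e _).pow_const 2
  rw [← integral_levMap T n hfm]
  refine integral_congr_ae (ae_of_all _ fun a => ?_)
  simp only
  have := Mt_eq_mC T (Fs := Fs) e n k 0 a
  simp only [add_zero, pow_zero, mul_one] at this
  rw [this]

/-- The second moment of the posterior mean increases along the dyadic times, and the increments of
the posterior mean are orthogonal. -/
theorem integral_sq_Mt_sub (hFs : GoodExh Fs) (e : I) (n : ℕ) {k k' : ℕ} (hk : k ≤ k') :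
    ∫ a, (Mt ν Fs ω B e n k' a - Mt ν Fs ω B e n k a) ^ 2 ∂P =
      qq ν Fs P ω B e n k' - qq ν Fs P ω B e n k := by
  have h1 := integral_sq_mC_sub ν (hLev n) (hLev_ne n) hFs e hk
  rw [qq_eq_level T, qq_eq_level T, ← h1]
  have hfm : Measurable (fun x : LevΩ I =>
      (mC ν Fs (hLev n : ℝ) e k' x - mC ν Fs (hLev n : ℝ) e k x) ^ 2) :=
    ((measurable_mC ν Fs _ e _).sub (measurable_mC ν Fs _ e _)).pow_const 2
  rw [← integral_levMap T n hfm]
  refine integral_congr_ae (ae_of_all _ fun a => ?_)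
  simp only
  have h2 := fun j => Mt_eq_mC T (Fs := Fs) e n j 0 a
  simp only [add_zero, pow_zero, mul_one] at h2
  rw [h2, h2]

theorem qq_mono (hFs : GoodExh Fs) (e : I) (n : ℕ) {k k' : ℕ} (hk : k ≤ k') :
    qq ν Fs P ω B e n k ≤ qq ν Fs P ω B e n k' := by
  have h1 := integral_sq_Mt_sub T hFs e n hk
  have h2 : 0 ≤ ∫ a, (Mt ν Fs ω B e n k' a - Mt ν Fs ω B e n k a) ^ 2 ∂P :=
    integral_nonneg fun a => sq_nonneg _
  linarith

end innov

end Crest.Agent.Lib.IT
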