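/-
The truth space over a tree (statement S0241): the exhaustion by balls, the action of the
automorphisms, equivariance of the posterior means and of the innovation, the two conditionally
independent copies given the innovation.
-/
import Crest.Agent.Lib.IT.TimeC
import Crest.Agent.Lib.IT.Law
import Crest.Agent.Lib.IT.Copies
import Crest.Agent.Lib.LocBM
import Crest.Agent.Lib.LocTransport

set_option autoImplicit false
set_option linter.unusedSectionVars false

namespace Crest.Agent.Lib.IT

open MeasureTheory ProbabilityTheory SimpleGraph Filter Topology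
open scoped ENNReal NNReal
open Crest.Agent.Lib.Loc

variable {V : Type*} {G : SimpleGraph V} [G.LocallyFinite]

/-- The truth space. -/
abbrev TΩ (V : Type*) := (V → Bool) × (V → ℕ × ℕ → ℝ)

/-- The exhaustion by balls. -/
noncomputable def ballFs (G : SimpleGraph V) [G.LocallyFinite] : V → ℕ → Finset V :=
  fun x N => ballF G N x

theorem goodExh_ballFs (hT : G.IsTree) : GoodExh (ballFs G) where
  mem := fun e N => self_mem_ballF hT N e
  mono := fun e _ _ h => ballF_mono hT e h
  exh := fun e l => exists_mem_ballF hT e l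

/-- The action of a map of the sites on the truth space. -/
def hatg (g : V → V) (a : TΩ V) : TΩ V := (a.1 ∘ g, a.2 ∘ g)

lemma measurable_hatg (g : V → V) : Measurable (hatg g) :=
  Measurable.prodMk
    (measurable_pi_lambda _ fun x => (measurable_pi_apply (g x)).comp measurable_fst)
    (measurable_pi_lambda _ fun x => (measurable_pi_apply (g x)).comp measurable_snd)

/-- The posterior mean in spin scale. -/
noncomputable def mg (ν : Measure (V → Bool)) (G : SimpleGraph V) [G.LocallyFinite] (x : V)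
    (n k : ℕ) (a : TΩ V) : ℝ :=
  2 * Mt ν (ballFs G) Prod.fst truthB x n k a - 1

/-- The cut innovation field. -/
noncomputable def WtT (ν : Measure (V → Bool)) (G : SimpleGraph V) [G.LocallyFinite] (t : ℝ)
    (a : TΩ V) : V → Sk :=
  cutSk t (Wmap ν (ballFs G) (Yobs Prod.fst truthB a))

/-- The conditional variance on the tree. -/
noncomputable abbrev dDt (ν : Measure (V → Bool)) (G : SimpleGraph V) [G.LocallyFinite] (o : V)
    (n k : ℕ) : ℝ :=
  dD ν (ballFs G) (truthP ν) Prod.fst truthB o n k

/-- The formal derivative on the tree. -/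
noncomputable abbrev VVt (ν : Measure (V → Bool)) (G : SimpleGraph V) [G.LocallyFinite] (o : V)
    (U : Finset V) (n k : ℕ) : ℝ :=
  VV ν (ballFs G) (truthP ν) Prod.fst truthB o U n k

/-- The covariance on the tree. -/
noncomputable abbrev CRT (ν : Measure (V → Bool)) (G : SimpleGraph V) [G.LocallyFinite] (o u : V)
    (n k : ℕ) (a : TΩ V) : ℝ :=
  CRt ν (ballFs G) Prod.fst truthB o u n k a

/-- The action of a bijection on the fields of skeletons. -/
def skAct (g : V ≃ V) : (V → Sk) ≃ᵐ (V → Sk) where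
  toFun y x := y (g x)
  invFun y x := y (g.symm x)
  left_inv y := by funext x; simp
  right_inv y := by funext x; simp
  measurable_toFun := measurable_pi_lambda _ fun x => measurable_pi_apply (g x)
  measurable_invFun := measurable_pi_lambda _ fun x => measurable_pi_apply (g.symm x)

/-- The noise is invariant under a bijection of the sites. -/
lemma allNoise_map_comp [Countable V] (g : V ≃ V) :
    (allNoise V).map (fun x : V → ℕ × ℕ → ℝ => x ∘ g) = allNoise V := by
  classical
  have hm : Measurable (fun x : V → ℕ × ℕ → ℝ => x ∘ g) :=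
    measurable_pi_iff.2 fun v => measurable_pi_apply (g v)
  unfold allNoise
  refine Measure.eq_infinitePi (fun _ => stdG) fun s t ht => ?_
  have hs : MeasurableSet (Set.pi (s : Set V) t) :=
    MeasurableSet.pi s.countable_toSet fun i _ => ht i
  rw [Measure.map_apply hm hs]
  have hset : (fun x : V → ℕ × ℕ → ℝ => x ∘ g) ⁻¹' Set.pi (s : Set V) t =
      Set.pi ((s.map g.toEmbedding : Finset V) : Set V) (fun j => t (g.symm j)) := by
    ext x
    simp only [Set.mem_preimage, Set.mem_pi, Finset.mem_coe, Finset.mem_map,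
      Equiv.coe_toEmbedding, forall_exists_index, and_imp, forall_apply_eq_imp_iff₂,
      Function.comp, Equiv.symm_apply_apply]
  rw [hset, Measure.infinitePi_pi _ (fun j _ => ht _), Finset.prod_map]
  simp

/-- Conditional variance of an affine function. -/
lemma integral_sq_sub_affine {Ω : Type*} {mΩ : MeasurableSpace Ω} (P : Measure Ω)
    [IsProbabilityMeasure P] (m : MeasurableSpace Ω) (hm : m ≤ mΩ) (M : Ω → ℝ)
    (hM : Integrable M P) :
    ∫ a, ((2 * M a - 1) - (P[fun a => 2 * M a - 1 | m]) a) ^ 2 ∂P =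
      4 * ∫ a, (M a - (P[M | m]) a) ^ 2 ∂P := by
  have hce : P[fun a => 2 * M a - 1 | m] =ᵐ[P] fun a => 2 * (P[M | m]) a - 1 := by
    have e : (fun a => 2 * M a - 1) = (2 : ℝ) • M - fun _ => (1 : ℝ) := by
      funext a
      simp
    rw [e]
    have hI : Integrable ((2 : ℝ) • M) P := hM.smul (2 : ℝ)
    have h1 := condExp_sub hI (integrable_const (1 : ℝ)) m
    have h2 := condExp_smul (2 : ℝ) M m (μ := P)
    have h3 : P[fun _ : Ω => (1 : ℝ) | m] = fun _ => (1 : ℝ) := condExp_const hm 1
    filter_upwards [h1, h2] with a ha hb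
    rw [ha, Pi.sub_apply, hb, h3]
    simp
  rw [← integral_const_mul]
  refine integral_congr_ae ?_
  filter_upwards [hce] with a ha
  rw [ha]
  ring

/-- The action on the truth space is a product map. -/
lemma hatg_eq_prod_map (g : V → V) :
    (hatg g : TΩ V → TΩ V) = Prod.map (fun σ : V → Bool => σ ∘ g)
      (fun x : V → ℕ × ℕ → ℝ => x ∘ g) := rfl

/-- The observation of the transformed point. -/
lemma Yobs_hatg (g : V → V) (a : TΩ V) (l : V) :
    Yobs Prod.fst truthB (hatg g a) l = Yobs Prod.fst truthB a (g l) := rfl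

lemma ballF_map_iso (hT : G.IsTree) (g : G ≃g G) (e : V) (N : ℕ) :
    (ballF G N e).map g.toEquiv.toEmbedding = ballF G N (g e) := by
  classical
  ext x
  simp only [Finset.mem_map, Equiv.coe_toEmbedding]
  constructor
  · rintro ⟨y, hy, rfl⟩
    rw [mem_ballF hT] at hy ⊢
    show G.dist (g e) (g y) ≤ N
    rwa [iso_dist g hT.connected]
  · intro hx
    refine ⟨g.symm x, ?_, by simp⟩
    rw [mem_ballF hT] at hx ⊢
    have := iso_dist g hT.connected e (g.symm x)
    rw [← this]
    simpa using hx

variable {θ : ℝ} [Countable V] {ν : Measure (V → Bool)} [IsProbabilityMeasure ν]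

section
variable (hT : G.IsTree) (h0 : 0 ≤ θ) (h1 : θ < 1) (hν : IsIsing G θ ν) (g : G ≃g G)
include hT h0 h1 hν

/-- The truth law is invariant. -/
theorem truthP_map_hatg : (truthP ν).map (hatg g) = truthP ν := by
  have hm1 : Measurable (fun σ : V → Bool => σ ∘ g) :=
    measurable_pi_iff.2 fun v => measurable_pi_apply (g v)
  have hm2 : Measurable (fun x : V → ℕ × ℕ → ℝ => x ∘ g) :=
    measurable_pi_iff.2 fun v => measurable_pi_apply (g v)
  rw [hatg_eq_prod_map]
  unfold truthP
  rw [← Measure.map_prod_map _ _ hm1 hm2, IsIsing.map_aut h0 h1 hT hν g]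
  congr 1
  exact allNoise_map_comp g.toEquiv

/-- The Ising state is invariant on cylinders. -/
theorem mass_map_aut (F S : Finset V) :
    mass ν F S = mass ν (F.map g.toEquiv.toEmbedding) (S.map g.toEquiv.toEmbedding) := by
  classical
  have hm : Measurable (fun σ : V → Bool => σ ∘ g) :=
    measurable_pi_iff.2 fun v => measurable_pi_apply (g v)
  have hA : MeasurableSet {ω : V → Bool | ∀ i ∈ F, (ω i = true ↔ i ∈ S)} := by
    have : {ω : V → Bool | ∀ i ∈ F, (ω i = true ↔ i ∈ S)} =
        ⋂ i ∈ F, {ω : V → Bool | (ω i = true ↔ i ∈ S)} := by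
      ext ω; simp
    rw [this]
    refine Finset.measurableSet_biInter _ fun i _ => ?_
    by_cases hi : i ∈ S
    · have : {ω : V → Bool | (ω i = true ↔ i ∈ S)} = (fun ω : V → Bool => ω i) ⁻¹' {true} := by
        ext ω; simp [hi]
      rw [this]
      exact (measurable_pi_apply i) (measurableSet_singleton true)
    · have : {ω : V → Bool | (ω i = true ↔ i ∈ S)} = (fun ω : V → Bool => ω i) ⁻¹' {false} := by
        ext ω; simp [hi]
      rw [this]
      exact (measurable_pi_apply i) (measurableSet_singleton false)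
  unfold mass
  congr 1
  conv_lhs => rw [← IsIsing.map_aut h0 h1 hT hν g]
  rw [Measure.map_apply hm hA]
  congr 1
  ext ω
  simp only [Set.mem_preimage, Set.mem_ofPred_eq, Finset.mem_map, Equiv.coe_toEmbedding,
    Function.comp, forall_exists_index, and_imp, forall_apply_eq_imp_iff₂]
  refine forall₂_congr fun i _ => ?_
  refine iff_congr Iff.rfl ?_
  constructor
  · intro h; exact ⟨i, h, rfl⟩
  · rintro ⟨j, hj, hij⟩
    have : j = i := g.injective hij
    exact this ▸ hj

/-- Equivariance of the posterior means. -/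
theorem Mt_hatg (x : V) (n k : ℕ) (a : TΩ V) :
    Mt ν (ballFs G) Prod.fst truthB x n k (hatg g a) =
      Mt ν (ballFs G) Prod.fst truthB (g x) n k a := by
  unfold Mt
  exact mlim_map (ν := ν) (ν' := ν) (Fs := ballFs G) (Fs' := ballFs G) g.toEquiv
    (mass_map_aut hT h0 h1 hν g) (fun e N => ballF_map_iso hT g e N) x (tm n k)
    (fun l => Yobs Prod.fst truthB a l n k)

theorem mg_hatg (x : V) (n k : ℕ) (a : TΩ V) : mg ν G x n k (hatg g a) = mg ν G (g x) n k a := by
  unfold mg
  rw [Mt_hatg hT h0 h1 hν g]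

/-- Equivariance of the cut innovation field. -/
theorem WtT_hatg (t : ℝ) (a : TΩ V) : WtT ν G t (hatg g a) = skAct g.toEquiv (WtT ν G t a) := by
  funext x n k
  have h := Wmap_map (ν := ν) (ν' := ν) (Fs := ballFs G) (Fs' := ballFs G) g.toEquiv
    (mass_map_aut hT h0 h1 hν g) (fun e N => ballF_map_iso hT g e N)
    (Yobs Prod.fst truthB a) x
  have h' : Wmap ν (ballFs G) (Yobs Prod.fst truthB (hatg g a)) x =
      Wmap ν (ballFs G) (Yobs Prod.fst truthB a) (g x) := h
  show (if tm n k ≤ t then Wmap ν (ballFs G) (Yobs Prod.fst truthB (hatg g a)) x n k else 0) =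
    (if tm n k ≤ t then Wmap ν (ballFs G) (Yobs Prod.fst truthB a) (g x) n k else 0)
  rw [h']

end

lemma Gt_eq_comap (t : ℝ) :
    Gt ν (ballFs G) Prod.fst truthB t = MeasurableSpace.comap (WtT ν G t) inferInstance := rfl

lemma measurable_WtT (t : ℝ) : Measurable (WtT ν G t) :=
  (measurable_cutSk t).comp ((measurable_Wmap ν (ballFs G)).comp (truth_spec ν).measurable_Yobs)

lemma measurable_mg (x : V) (n k : ℕ) : Measurable (mg ν G x n k) :=
  ((measurable_Mt (Fs := ballFs G) (truth_spec ν) x n k).const_mul 2).sub_const 1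

omit [Countable V] [IsProbabilityMeasure ν] in
lemma abs_mg_le (x : V) (n k : ℕ) (a : TΩ V) : |mg ν G x n k a| ≤ 1 := by
  have h1 := Mt_nonneg (ν := ν) (Fs := ballFs G) (ω := Prod.fst) (B := truthB) x n k a
  have h2 := Mt_le_one (ν := ν) (Fs := ballFs G) (ω := Prod.fst) (B := truthB) x n k a
  unfold mg
  rw [abs_le]
  constructor <;> linarith

/-- The two conditionally independent copies given the innovation up to the time `tm n k`. -/
noncomputable def P2 (ν : Measure (V → Bool)) [IsProbabilityMeasure ν] (G : SimpleGraph V)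
    [G.LocallyFinite] (n k : ℕ) : Measure (TΩ V × TΩ V) :=
  copies (truthP ν) (WtT ν G (tm n k))

instance (n k : ℕ) : IsProbabilityMeasure (P2 ν G n k) := isProb_copies _ _ (measurable_WtT _)

theorem P2_map_fst (n k : ℕ) : (P2 ν G n k).map Prod.fst = truthP ν :=
  copies_map_fst _ _ (measurable_WtT _)

theorem P2_map_snd (n k : ℕ) : (P2 ν G n k).map Prod.snd = truthP ν :=
  copies_map_snd _ _ (measurable_WtT _)

/-- Conditional variances are computed by the copies. -/
theorem integral_P2_sq_sub (n k : ℕ) (f : TΩ V → ℝ) (hf : Measurable f) (C : ℝ)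
    (hC : ∀ a, |f a| ≤ C) :
    ∫ p, (f p.1 - f p.2) ^ 2 ∂(P2 ν G n k) =
      2 * ∫ a, (f a - ((truthP ν)[f | Gt ν (ballFs G) Prod.fst truthB (tm n k)]) a) ^ 2 ∂(truthP ν) :=
  integral_copies_sq_sub _ _ (measurable_WtT _) f hf C hC

/-- A statement almost sure under the truth law holds almost surely in both coordinates. -/
theorem ae_P2_of_ae {p : TΩ V → Prop} (n k : ℕ) (h : ∀ᵐ a ∂(truthP ν), p a) :
    ∀ᵐ q ∂(P2 ν G n k), p q.1 ∧ p q.2 := by
  have h1 : ∀ᵐ q ∂(P2 ν G n k), p q.1 := by
    refine ae_of_ae_map measurable_fst.aemeasurable ?_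
    rw [P2_map_fst]
    exact h
  have h2 : ∀ᵐ q ∂(P2 ν G n k), p q.2 := by
    refine ae_of_ae_map measurable_snd.aemeasurable ?_
    rw [P2_map_snd]
    exact h
  filter_upwards [h1, h2] with q h1 h2 using ⟨h1, h2⟩

/-- The conditional variance of the spin-scale posterior mean. -/
theorem dDt_eq_P2 (n k : ℕ) (o : V) :
    dDt ν G o n k = (1 / 8) * ∫ p, (mg ν G o n k p.1 - mg ν G o n k p.2) ^ 2 ∂(P2 ν G n k) := by
  rw [integral_P2_sq_sub n k _ (measurable_mg o n k) 1 (abs_mg_le o n k)]
  have hMm : Measurable (Mt ν (ballFs G) Prod.fst truthB o n k) :=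
    measurable_Mt (Fs := ballFs G) (truth_spec ν) o n k
  have hMb : ∀ a, |Mt ν (ballFs G) Prod.fst truthB o n k a| ≤ 1 := fun a =>
    abs_Mt_le (ν := ν) (Fs := ballFs G) (ω := Prod.fst) (B := truthB) o n k a
  have hMI : Integrable (Mt ν (ballFs G) Prod.fst truthB o n k) (truthP ν) :=
    Integrable.of_bound hMm.aestronglyMeasurable 1
      (Filter.Eventually.of_forall fun a => by simpa using hMb a)
  have hle : Gt ν (ballFs G) Prod.fst truthB (tm n k) ≤
      (inferInstance : MeasurableSpace (TΩ V)) :=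
    (measurable_WtT (ν := ν) (G := G) (tm n k)).comap_le
  have := integral_sq_sub_affine (truthP ν) _ hle _ hMI
  have e : mg ν G o n k = fun a => 2 * Mt ν (ballFs G) Prod.fst truthB o n k a - 1 := rfl
  rw [e, this]
  show ∫ a, (Mt ν (ballFs G) Prod.fst truthB o n k a - ((truthP ν)[Mt ν (ballFs G) Prod.fst truthB o n k | Gt ν (ballFs G) Prod.fst truthB (tm n k)]) a) ^ 2 ∂(truthP ν) = _
  ring

/-- The conditional variance of the covariance. -/
theorem VVu_eq_P2 (n k : ℕ) (o u : V) :
    VVu ν (ballFs G) (truthP ν) Prod.fst truthB o u n k =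
      (1 / 2) * ∫ p, (CRT ν G o u n k p.1 - CRT ν G o u n k p.2) ^ 2 ∂(P2 ν G n k) := by
  rw [integral_P2_sq_sub n k _ (measurable_CRt (Fs := ballFs G) (truth_spec ν) o u n k) 1
    (abs_CRt_le (ν := ν) (Fs := ballFs G) (ω := Prod.fst) (B := truthB) o u n k)]
  unfold VVu
  ring

section
variable (hT : G.IsTree) (h0 : 0 ≤ θ) (h1 : θ < 1) (hν : IsIsing G θ ν) (g : G ≃g G)
include hT h0 h1 hν

/-- The copies are invariant. -/
theorem P2_map_hatg (n k : ℕ) :
    (P2 ν G n k).map (Prod.map (hatg g) (hatg g)) = P2 ν G n k :=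
  copies_map_prod _ _ (measurable_WtT _) (hatg g) (measurable_hatg g)
    (truthP_map_hatg hT h0 h1 hν g) (skAct g.toEquiv) (WtT_hatg hT h0 h1 hν g (tm n k))

/-- Conditional expectations given the innovation are equivariant. -/
theorem condExp_Gt_hatg (t : ℝ) (f : TΩ V → ℝ) (hf : Measurable f) (C : ℝ) (hC : ∀ a, |f a| ≤ C) :
    (fun a => ((truthP ν)[f | Gt ν (ballFs G) Prod.fst truthB t]) (hatg g a)) =ᵐ[truthP ν]
      (truthP ν)[f ∘ hatg g | Gt ν (ballFs G) Prod.fst truthB t] :=
  condExp_comp_of_map _ _ (measurable_WtT t) (hatg g) (measurable_hatg g)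
    (truthP_map_hatg hT h0 h1 hν g) (skAct g.toEquiv) (WtT_hatg hT h0 h1 hν g t) f hf C hC

/-- The conditional variance does not depend on the site. -/
theorem dDt_aut (n k : ℕ) (x : V) : dDt ν G (g x) n k = dDt ν G x n k := by
  rw [dDt_eq_P2, dDt_eq_P2]
  congr 1
  have hmeas : Measurable (fun p : TΩ V × TΩ V =>
      (mg ν G x n k p.1 - mg ν G x n k p.2) ^ 2) :=
    (((measurable_mg x n k).comp measurable_fst).sub
      ((measurable_mg x n k).comp measurable_snd)).pow_const 2
  have hmap : Measurable (Prod.map (hatg g) (hatg g) : TΩ V × TΩ V → TΩ V × TΩ V) :=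
    (measurable_hatg g).prodMap (measurable_hatg g)
  have h := integral_map (μ := P2 ν G n k) hmap.aemeasurable
    (f := fun p : TΩ V × TΩ V => (mg ν G x n k p.1 - mg ν G x n k p.2) ^ 2)
    hmeas.aestronglyMeasurable
  rw [P2_map_hatg hT h0 h1 hν g] at h
  rw [h]
  refine integral_congr_ae (Filter.Eventually.of_forall fun p => ?_)
  show (mg ν G (g x) n k p.1 - mg ν G (g x) n k p.2) ^ 2 =
    (mg ν G x n k (hatg g p.1) - mg ν G x n k (hatg g p.2)) ^ 2
  rw [mg_hatg hT h0 h1 hν g, mg_hatg hT h0 h1 hν g]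

end

end Crest.Agent.Lib.IT
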