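/-
The law of the gauged data of a subtree under the truth law (statement S0241).
-/
import Crest.Agent.Lib.IT.TreeTruth
import Crest.Agent.Lib.IT.PlantedA

set_option autoImplicit false

namespace Crest.Agent.Lib.IT

open MeasureTheory ProbabilityTheory SimpleGraph Filter Topology
open scoped ENNReal NNReal
open Crest.Agent.Lib.Loc

variable {V : Type*} {G : SimpleGraph V} [G.LocallyFinite] {k : ℕ}

/-- The gauged field at the dyadic time `tm n j`: `z_x = sg σ_x * (Y_x - t / 2) / 2`. -/
noncomputable def zOf (n j : ℕ) (a : TΩ V) (x : V) : ℝ :=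
  sg (a.1 x) * ((Yobs Prod.fst truthB a x n j - tm n j / 2) / 2)

/-- Agreement of two spins. -/
def agr (σ : V → Bool) (x y : V) : Bool := σ x == σ y

/-- The data of the subtree below the directed edge `(c, p)`, in the coordinates of the child system
`S`. At the root of the subtree the bit is the agreement of `c` and `p`. -/
def Dmap (S : ChSys G k) (σ : V → Bool) (ζ : V → ℝ) : V → V → OmCan k
  | c, p, [] => (agr σ c p, ζ c)
  | c, p, i :: l => Dmap S σ ζ (S.ch c p i) c l

@[simp] lemma Dmap_nil (S : ChSys G k) (σ : V → Bool) (ζ : V → ℝ) (c p : V) :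
    Dmap S σ ζ c p [] = (agr σ c p, ζ c) := by
  simp [Dmap]

lemma shiftD_Dmap (S : ChSys G k) (σ : V → Bool) (ζ : V → ℝ) (c p : V) (i : Fin k) :
    shiftD i (Dmap S σ ζ c p) = Dmap S σ ζ (S.ch c p i) c := by
  funext l
  simp [shiftD, Dmap]

/-! ### Generalities on infinite products -/

section products

/-- Restriction of an i.i.d. family through an injective map of the indices. -/
lemma linkLaw_map_inj {A L X : Type*} [MeasurableSpace X] (β : Measure X)
    [IsProbabilityMeasure β] {ψ : L → A} (hψ : Function.Injective ψ) :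
    (Measure.infinitePi (fun _ : A => β)).map (fun w (l : L) => w (ψ l)) =
      Measure.infinitePi (fun _ : L => β) := by
  classical
  refine Measure.eq_infinitePi _ fun s t ht => ?_
  have hm : Measurable (fun (w : A → X) (l : L) => w (ψ l)) :=
    measurable_pi_lambda _ fun l => measurable_pi_apply _
  rw [Measure.map_apply hm (MeasurableSet.pi s.countable_toSet fun i _ => ht i)]
  let t' : A → Set X := Function.extend ψ t (fun _ => Set.univ)
  have ht' : ∀ i, MeasurableSet (t' i) := by
    intro i
    by_cases hi : ∃ l, ψ l = i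
    · obtain ⟨l, rfl⟩ := hi
      simp only [t', hψ.extend_apply]
      exact ht l
    · simp only [t', Function.extend_apply' _ _ _ hi]
      exact MeasurableSet.univ
  have hset : (fun (w : A → X) (l : L) => w (ψ l)) ⁻¹' ((s : Set L).pi t) =
      (((s.map ⟨ψ, hψ⟩ : Finset A)) : Set A).pi t' := by
    ext w
    simp [t', hψ.extend_apply, Set.mem_pi]
  rw [hset, Measure.infinitePi_pi _ (fun i _ => ht' i), Finset.prod_map]
  refine Finset.prod_congr rfl fun l _ => ?_
  simp [t', hψ.extend_apply]

/-- Zipping two independent i.i.d. families. -/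
lemma linkLaw_zip {L X Y : Type*} [MeasurableSpace X] [MeasurableSpace Y] (α : Measure X)
    (β : Measure Y) [IsProbabilityMeasure α] [IsProbabilityMeasure β] :
    ((Measure.infinitePi (fun _ : L => α)).prod (Measure.infinitePi (fun _ : L => β))).map
        (fun (q : (L → X) × (L → Y)) l => (q.1 l, q.2 l)) =
      Measure.infinitePi (fun _ : L => α.prod β) := by
  classical
  refine Measure.eq_infinitePi _ fun s t ht => ?_
  have hm : Measurable (fun (q : (L → X) × (L → Y)) l => (q.1 l, q.2 l)) :=
    measurable_pi_lambda _ fun l => ((measurable_pi_apply l).comp measurable_fst).prodMk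
      ((measurable_pi_apply l).comp measurable_snd)
  have hS : MeasurableSet ((s : Set L).pi t) := MeasurableSet.pi s.countable_toSet fun i _ => ht i
  rw [Measure.map_apply hm hS, Measure.prod_apply (hm hS)]
  have hsec : ∀ x : L → X, Prod.mk x ⁻¹' ((fun (q : (L → X) × (L → Y)) l => (q.1 l, q.2 l)) ⁻¹'
      ((s : Set L).pi t)) = (s : Set L).pi (fun l => Prod.mk (x l) ⁻¹' t l) := by
    intro x
    ext y
    simp [Set.mem_pi]
  simp_rw [hsec]
  have hbox : ∀ x : L → X, Measure.infinitePi (fun _ : L => β)
      ((s : Set L).pi (fun l => Prod.mk (x l) ⁻¹' t l)) =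
        ∏ l ∈ s, β (Prod.mk (x l) ⁻¹' t l) := fun x =>
    Measure.infinitePi_pi _ (fun l _ => measurable_prodMk_left (ht l))
  simp_rw [hbox]
  have hf : ∀ l, Measurable (fun u : X => β (Prod.mk u ⁻¹' t l)) := fun l =>
    measurable_measure_prodMk_left (ht l)
  have hind := iIndepFun_infinitePi (P := fun _ : L => α)
    (X := fun l u => β (Prod.mk u ⁻¹' t l)) hf
  rw [lintegral_prod_eq_prod_lintegral_of_indepFun s _ hind
    (fun l => (hf l).comp (measurable_pi_apply l))]
  refine Finset.prod_congr rfl fun l _ => ?_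
  rw [Measure.prod_apply (ht l)]
  have hev : (Measure.infinitePi (fun _ : L => α)).map (fun x => x l) = α :=
    Measure.infinitePi_map_eval _ l
  calc ∫⁻ ω, β (Prod.mk (ω l) ⁻¹' t l) ∂(Measure.infinitePi (fun _ : L => α))
      = ∫⁻ u, β (Prod.mk u ⁻¹' t l) ∂((Measure.infinitePi (fun _ : L => α)).map (fun x => x l)) :=
        (lintegral_map (hf l) (measurable_pi_apply l)).symm
    _ = _ := by rw [hev]

end products

/-! ### The Gaussian field -/

lemma linkLaw_site (n j : ℕ) {s : ℝ} (hs : s ^ 2 = 1) :
    stdG.map (fun ξ => tm n j / 4 + s / 2 * skOf ξ n j) =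
      gaussianReal (tm n j / 4) (tm n j / 4).toNNReal := by
  have hm : Measurable (fun ξ : ℕ × ℕ → ℝ => tm n j / 4 + s / 2 * skOf ξ n j) := by
    refine measurable_const.add (Measurable.const_mul ?_ _)
    exact (measurable_pi_apply j).comp ((measurable_pi_apply n).comp measurable_skOf)
  have : IsProbabilityMeasure (stdG.map (fun ξ => tm n j / 4 + s / 2 * skOf ξ n j)) :=
    Measure.isProbabilityMeasure_map hm.aemeasurable
  refine Measure.ext_of_charFun ?_
  funext u
  rw [charFun_gaussianReal, charFun_apply_real, integral_map hm.aemeasurable (by fun_prop)]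
  have h1 := levX_char n j (fun _ => u * (s / 2)) ∅ (fun _ => 0) (by simp)
  simp only [Finset.sum_empty, add_zero, mul_zero, sub_zero, Finset.sum_const, Finset.card_range,
    nsmul_eq_mul] at h1
  have h2 : ∀ ξ : ℕ × ℕ → ℝ, Complex.exp ((u : ℂ) * ((tm n j / 4 + s / 2 * skOf ξ n j : ℝ) : ℂ) * Complex.I) =
      Complex.exp ((u : ℂ) * ((tm n j / 4 : ℝ) : ℂ) * Complex.I) *
        cexpI (∑ k ∈ Finset.range j, u * (s / 2) * levX ξ n k) := by
    intro ξ
    rw [cexpI, ← Complex.exp_add]
    congr 1
    have : ∑ k ∈ Finset.range j, u * (s / 2) * levX ξ n k = u * (s / 2) * skOf ξ n j := by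
      rw [← Finset.mul_sum]
      rfl
    rw [this]
    push_cast
    ring
  simp_rw [h2]
  rw [integral_const_mul, h1, Complex.ofReal_exp, ← Complex.exp_add]
  congr 1
  have hnn : (((tm n j / 4).toNNReal : ℝ≥0) : ℝ) = tm n j / 4 :=
    Real.coe_toNNReal _ (by unfold tm; positivity)
  have h3 : ((((tm n j / 4).toNNReal : ℝ≥0) : ℝ) : ℂ) = ((tm n j / 4 : ℝ) : ℂ) := by rw [hnn]
  have hs' : (s : ℂ) ^ 2 = 1 := by exact_mod_cast hs
  have htm : ((tm n j : ℝ) : ℂ) = (j : ℂ) * (1 / 2 ^ n) := by
    unfold tm
    push_cast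
    ring
  push_cast at h3 ⊢
  rw [h3]
  simp only [htm]
  have : ((u : ℂ) * ((s : ℂ) / 2)) ^ 2 = (u : ℂ) ^ 2 / 4 := by
    rw [mul_pow, div_pow, hs']
    ring
  rw [this]
  ring

lemma linkLaw_noise (σ : V → Bool) (n j : ℕ) :
    (allNoise V).map (fun ξ x => tm n j / 4 + sg (σ x) / 2 * skOf (ξ x) n j) =
      Measure.infinitePi (fun _ : V => gaussianReal (tm n j / 4) (tm n j / 4).toNNReal) := by
  have hf : ∀ x : V, Measurable (fun ξ : ℕ × ℕ → ℝ => tm n j / 4 + sg (σ x) / 2 * skOf ξ n j) := by
    intro x
    refine measurable_const.add (Measurable.const_mul ?_ _)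
    exact (measurable_pi_apply j).comp ((measurable_pi_apply n).comp measurable_skOf)
  unfold allNoise
  rw [Measure.infinitePi_map_pi _ hf]
  congr 1
  funext x
  refine linkLaw_site n j ?_
  cases σ x <;> simp [sg]

lemma zOf_eq (n j : ℕ) (a : TΩ V) (x : V) :
    zOf n j a x = tm n j / 4 + sg (a.1 x) / 2 * skOf (a.2 x) n j := by
  unfold zOf Yobs truthB
  cases a.1 x <;> simp [sg, bv] <;> ring

omit [G.LocallyFinite] in
lemma measurable_zOf (n j : ℕ) (x : V) : Measurable (fun a : TΩ V => zOf n j a x) := by
  simp_rw [zOf_eq]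
  refine measurable_const.add (Measurable.mul ?_ ?_)
  · exact (measurable_sg.comp ((measurable_pi_apply x).comp measurable_fst)).div_const _
  · exact (measurable_pi_apply j).comp ((measurable_pi_apply n).comp
      (measurable_skOf.comp ((measurable_pi_apply x).comp measurable_snd)))

/-! ### Unfolding the data -/

/-- The parent of the vertex reached by a list. -/
def linkPar (S : ChSys G k) : V → V → List (Fin k) → V
  | _, p, [] => p
  | c, p, i :: l => linkPar S (S.ch c p i) c l

lemma Dmap_eq (S : ChSys G k) (σ : V → Bool) (ζ : V → ℝ) (c p : V) (l : List (Fin k)) :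
    Dmap S σ ζ c p l = (agr σ (S.iota c p l) (linkPar S c p l), ζ (S.iota c p l)) := by
  induction l generalizing c p with
  | nil => simp [linkPar]
  | cons i l ih => simp [Dmap, linkPar, ih]

lemma linkPar_snoc (S : ChSys G k) (c p : V) (l : List (Fin k)) (i : Fin k) :
    linkPar S c p (l ++ [i]) = S.iota c p l := by
  induction l generalizing c p with
  | nil => simp [linkPar]
  | cons j l ih => simp [linkPar, ih]

lemma measurable_Dmap_gen (S : ChSys G k) (c p : V) :
    Measurable (fun q : (V → Bool) × (V → ℝ) => Dmap S q.1 q.2 c p) := by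
  refine measurable_pi_lambda _ fun l => ?_
  simp_rw [Dmap_eq]
  refine Measurable.prodMk ?_ ((measurable_pi_apply _).comp measurable_snd)
  have h1 : Measurable (fun q : (V → Bool) × (V → ℝ) => q.1 (S.iota c p l)) :=
    (measurable_pi_apply _).comp measurable_fst
  have h2 : Measurable (fun q : (V → Bool) × (V → ℝ) => q.1 (linkPar S c p l)) :=
    (measurable_pi_apply _).comp measurable_fst
  exact (measurable_of_finite (fun q : Bool × Bool => q.1 == q.2)).comp (h1.prodMk h2)

lemma measurable_Dmap (S : ChSys G k) (n j : ℕ) (c p : V) :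
    Measurable (fun a : TΩ V => Dmap S a.1 (zOf n j a) c p) :=
  (measurable_Dmap_gen S c p).comp
    (measurable_fst.prodMk (measurable_pi_lambda _ fun x => measurable_zOf n j x))

open Classical in
/-- The site carrying the bit of a list. -/
noncomputable def linkBit (S : ChSys G k) (c p : V) (l : List (Fin k)) : V :=
  if l = [] then p else S.iota c p l

lemma linkBit_inj (hT : G.IsTree) (S : ChSys G k) {c p : V} (hcp : G.Adj c p) :
    Function.Injective (linkBit S c p) := by
  intro l l' h
  unfold linkBit at h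
  have hp : ∀ m : List (Fin k), p = S.iota c p m → False := by
    intro m hm
    have h1 := (S.iota_side hT hcp m).1
    rw [← hm] at h1
    exact side_disj h1 (self_mem_side hcp.symm)
  by_cases hl : l = [] <;> by_cases hl' : l' = []
  · rw [hl, hl']
  · rw [if_pos hl, if_neg hl'] at h
    exact (hp _ h).elim
  · rw [if_neg hl, if_pos hl'] at h
    exact (hp _ h.symm).elim
  · rw [if_neg hl, if_neg hl'] at h
    exact S.iota_inj hT hcp h

lemma agr_spinOf (hT : G.IsTree) (S : ChSys G k) {c p : V} (hcp : G.Adj c p) (b : Bool)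
    (w : V → Bool) (l : List (Fin k)) :
    agr (spinOf hT c b w) (S.iota c p l) (linkPar S c p l) = w (linkBit S c p l) := by
  have key : ∀ x y : V, x ≠ c → G.Adj x y → G.dist c y + 1 = G.dist c x →
      agr (spinOf hT c b w) x y = w x := by
    intro x y hx ha hd
    have hy := eq_nxt hT ha hd
    unfold agr
    rw [spinOf_step hT c b w hx, ← hy]
    cases spinOf hT c b w y <;> cases w x <;> rfl
  rcases List.eq_nil_or_concat' l with rfl | ⟨l', i, rfl⟩
  · simp only [S.iota_nil, linkPar, linkBit, if_true]
    have h1 : G.dist c c + 1 = G.dist c p := by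
      rw [SimpleGraph.dist_self, dist_eq_one_iff_adj.2 hcp]
    have := key p c hcp.ne' hcp.symm h1
    unfold agr at this ⊢
    rw [← this]
    cases spinOf hT c b w c <;> cases spinOf hT c b w p <;> rfl
  · have h1 := (S.iota_side hT hcp (l' ++ [i])).2
    have h2 := (S.iota_side hT hcp l').2
    simp only [List.length_append, List.length_cons, List.length_nil] at h1
    have hx : S.iota c p (l' ++ [i]) ≠ c := by
      intro h
      rw [h, SimpleGraph.dist_self] at h1
      omega
    have hne : l' ++ [i] ≠ [] := by simp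
    rw [linkPar_snoc]
    simp only [linkBit, if_neg hne]
    exact key _ _ hx (S.iota_adj_snoc hT hcp l' i).symm (by omega)

variable {θ : ℝ} [Countable V] {ν : Measure (V → Bool)} [IsProbabilityMeasure ν]

/-- The law of the gauged data of a subtree. -/
theorem map_Dmap (hT : G.IsTree) (h0 : 0 ≤ θ) (h1 : θ < 1) (hν : IsIsing G θ ν) (S : ChSys G k)
    {c p : V} (hcp : G.Adj c p) (n j : ℕ) :
    (truthP ν).map (fun a : TΩ V => Dmap S a.1 (zOf n j a) c p) = Pcan k θ (tm n j / 4) := by
  classical
  have hb1 : IsProbabilityMeasure (bitLaw θ) := bitLaw_isProb h0 h1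
  have hb0 : IsProbabilityMeasure (bitLaw 0) := bitLaw_isProb le_rfl (by norm_num)
  set τ : ℝ := tm n j / 4 with hτ
  set Γ : Measure (V → ℝ) := Measure.infinitePi (fun _ : V => gaussianReal τ τ.toNNReal) with hΓ
  -- the spins and the gauged field
  have hzm : Measurable (fun a : TΩ V => (a.1, zOf n j a)) :=
    measurable_fst.prodMk (measurable_pi_lambda _ fun x => measurable_zOf n j x)
  have hg : Measurable (Function.uncurry (fun (σ : V → Bool) (ξ : V → ℕ × ℕ → ℝ) (x : V) =>
      τ + sg (σ x) / 2 * skOf (ξ x) n j)) := by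
    refine measurable_pi_lambda _ fun x => ?_
    refine measurable_const.add (Measurable.mul ?_ ?_)
    · exact (measurable_sg.comp ((measurable_pi_apply x).comp measurable_fst)).div_const _
    · exact (measurable_pi_apply j).comp ((measurable_pi_apply n).comp
        (measurable_skOf.comp ((measurable_pi_apply x).comp measurable_snd)))
  have hskew := (MeasurePreserving.id ν).skew_product (μc := allNoise V) (μd := Γ) hg
    (Eventually.of_forall fun σ => linkLaw_noise σ n j)
  have hstep1 : (truthP ν).map (fun a : TΩ V => (a.1, zOf n j a)) = ν.prod Γ := by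
    have : (fun a : TΩ V => (a.1, zOf n j a)) = fun a : TΩ V => (id a.1,
        (fun (σ : V → Bool) (ξ : V → ℕ × ℕ → ℝ) (x : V) => τ + sg (σ x) / 2 * skOf (ξ x) n j) a.1 a.2) := by
      funext a
      simp only [id]
      congr 1
      funext x
      exact zOf_eq n j a x
    rw [this]
    exact hskew.map_eq
  -- the broadcast description
  have hQ : IsProbabilityMeasure (broadLaw V θ) := isProb_broad h0 h1
  have hspm := measurable_spinOf (G := G) hT c
  have : IsProbabilityMeasure ((broadLaw V θ).map (fun q => spinOf hT c q.1 q.2)) :=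
    Measure.isProbabilityMeasure_map hspm.aemeasurable
  have hνQ : ν = (broadLaw V θ).map (fun q => spinOf hT c q.1 q.2) :=
    IsIsing.unique h0 h1 hT hν (isIsing_broad h0 h1 hT c)
  have hfac : (fun a : TΩ V => Dmap S a.1 (zOf n j a) c p) =
      (fun q : (V → Bool) × (V → ℝ) => Dmap S q.1 q.2 c p) ∘ (fun a : TΩ V => (a.1, zOf n j a)) := rfl
  rw [hfac, ← Measure.map_map (measurable_Dmap_gen S c p) hzm, hstep1]
  have hprod : ν.prod Γ = ((broadLaw V θ).prod Γ).map
      (Prod.map (fun q : Bool × (V → Bool) => spinOf hT c q.1 q.2) id) := by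
    rw [← Measure.map_prod_map _ _ hspm measurable_id, Measure.map_id, ← hνQ]
  rw [hprod, Measure.map_map (measurable_Dmap_gen S c p) (hspm.prodMap measurable_id)]
  -- restriction to the subtree
  let f₁ : Bool × (V → Bool) → (List (Fin k) → Bool) := fun q l => q.2 (linkBit S c p l)
  let f₂ : (V → ℝ) → (List (Fin k) → ℝ) := fun z l => z (S.iota c p l)
  have hf₁ : Measurable f₁ := measurable_pi_lambda _ fun l =>
    (measurable_pi_apply _).comp measurable_snd
  have hf₂ : Measurable f₂ := measurable_pi_lambda _ fun l => measurable_pi_apply _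
  have hcomp : (fun q : (V → Bool) × (V → ℝ) => Dmap S q.1 q.2 c p) ∘
      Prod.map (fun q : Bool × (V → Bool) => spinOf hT c q.1 q.2) id =
      (fun (q : (List (Fin k) → Bool) × (List (Fin k) → ℝ)) l => (q.1 l, q.2 l)) ∘
        Prod.map f₁ f₂ := by
    funext q
    funext l
    simp only [Function.comp, Prod.map, Dmap_eq, id, f₁, f₂]
    rw [agr_spinOf hT S hcp]
  have hzipm : Measurable (fun (q : (List (Fin k) → Bool) × (List (Fin k) → ℝ)) l => (q.1 l, q.2 l)) :=
    measurable_pi_lambda _ fun l => ((measurable_pi_apply l).comp measurable_fst).prodMk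
      ((measurable_pi_apply l).comp measurable_snd)
  rw [hcomp, ← Measure.map_map hzipm (hf₁.prodMap hf₂),
    ← Measure.map_prod_map _ _ hf₁ hf₂]
  have hlaw1 : (broadLaw V θ).map f₁ = Measure.infinitePi (fun _ : List (Fin k) => bitLaw θ) := by
    have : f₁ = (fun (w : V → Bool) (l : List (Fin k)) => w (linkBit S c p l)) ∘ Prod.snd := rfl
    rw [this, ← Measure.map_map (measurable_pi_lambda _ fun l => measurable_pi_apply _)
      measurable_snd]
    unfold broadLaw
    rw [Measure.map_snd_prod, measure_univ, one_smul]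
    exact linkLaw_map_inj _ (linkBit_inj hT S hcp)
  have hlaw2 : Γ.map f₂ = Measure.infinitePi (fun _ : List (Fin k) => gaussianReal τ τ.toNNReal) :=
    linkLaw_map_inj _ (fun l l' h => S.iota_inj hT hcp h)
  rw [hlaw1, hlaw2, linkLaw_zip]
  rfl

end Crest.Agent.Lib.IT
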