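/-
Planted recursion, part B: moments of the message (doubling).
-/
import Crest.Agent.Lib.IT.PlantedA

set_option autoImplicit false

namespace Crest.Agent.Lib.IT

open MeasureTheory ProbabilityTheory

variable {k : ℕ} {θ : ℝ}

/-! ### Elementary inequalities -/

lemma pb_one_add_pow_le (m : ℕ) (hm : 1 ≤ m) : (1 + 1 / (3 * (m : ℝ))) ^ m ≤ 3 / 2 := by
  have hm' : (0 : ℝ) < m := by exact_mod_cast hm
  set δ : ℝ := 1 / (3 * m) with hδ
  have hδ0 : 0 < δ := by positivity
  have hmδ : (m : ℝ) * δ = 1 / 3 := by rw [hδ]; field_simp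
  have hb := one_add_mul_le_pow (a := -(δ / (1 + δ))) (by
    have : δ / (1 + δ) ≤ 1 := by rw [div_le_one (by positivity)]; linarith
    linarith) m
  have h1 : 1 + -(δ / (1 + δ)) = (1 + δ)⁻¹ := by field_simp; ring
  rw [h1, inv_pow] at hb
  have h2 : (2 : ℝ) / 3 ≤ 1 + (m : ℝ) * -(δ / (1 + δ)) := by
    have : (m : ℝ) * (δ / (1 + δ)) ≤ (m : ℝ) * δ := by
      apply mul_le_mul_of_nonneg_left _ hm'.le
      rw [div_le_iff₀ (by positivity)]; nlinarith
    linarith
  have h3 : (2 : ℝ) / 3 ≤ ((1 + δ) ^ m)⁻¹ := h2.trans hb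
  have hpos : 0 < (1 + δ) ^ m := by positivity
  have h4 := mul_le_mul_of_nonneg_right h3 hpos.le
  rw [inv_mul_cancel₀ hpos.ne'] at h4
  linarith

lemma pb_elem {ι : Type*} [Fintype ι] [DecidableEq ι] [Nonempty ι] (p : ℕ) (hp : 1 ≤ p) :
    ∃ C : ℝ, 0 ≤ C ∧ ∀ x : ι → ℝ, (∀ i, 0 ≤ x i) →
      (∑ i, x i) ^ (2 * p) ≤ (3 / 2) * ∑ i, x i ^ (2 * p) +
        C * ∑ i, ∑ j ∈ Finset.univ.erase i, x i ^ p * x j ^ p := by
  set n : ℝ := (Fintype.card ι : ℝ) with hn
  have hn1 : (1 : ℝ) ≤ n := by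
    have : 0 < Fintype.card ι := Fintype.card_pos
    rw [hn]; exact_mod_cast this
  set δ : ℝ := 1 / (3 * ((2 * p : ℕ) : ℝ)) with hδdef
  have hp' : (0 : ℝ) < p := by exact_mod_cast hp
  have hδ : 0 < δ := by rw [hδdef]; push_cast; positivity
  have hpow : (1 + δ) ^ (2 * p) ≤ 3 / 2 := pb_one_add_pow_le (2 * p) (by omega)
  have hn0 : 0 < n := by linarith
  refine ⟨(n ^ 3 / δ) ^ p, by positivity, fun x hx => ?_⟩
  obtain ⟨a, -, ha⟩ := Finset.exists_max_image Finset.univ x Finset.univ_nonempty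
  have hsum : ∑ i, x i = x a + ∑ i ∈ Finset.univ.erase a, x i :=
    (Finset.add_sum_erase _ _ (Finset.mem_univ a)).symm
  set r := ∑ i ∈ Finset.univ.erase a, x i with hr
  have hr0 : 0 ≤ r := Finset.sum_nonneg fun i _ => hx i
  have hdouble : 0 ≤ ∑ i, ∑ j ∈ Finset.univ.erase i, x i ^ p * x j ^ p :=
    Finset.sum_nonneg fun i _ => Finset.sum_nonneg fun j _ =>
      mul_nonneg (pow_nonneg (hx i) _) (pow_nonneg (hx j) _)
  have hsingle : 0 ≤ ∑ i, x i ^ (2 * p) := Finset.sum_nonneg fun i _ => pow_nonneg (hx i) _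
  have hC0 : 0 ≤ (n ^ 3 / δ) ^ p := by positivity
  have hs0 : 0 ≤ ∑ i, x i := Finset.sum_nonneg fun i _ => hx i
  by_cases hcase : r ≤ δ * x a
  · have hle : (∑ i, x i) ≤ (1 + δ) * x a := by rw [hsum]; linarith
    have h1 : (∑ i, x i) ^ (2 * p) ≤ ((1 + δ) * x a) ^ (2 * p) := pow_le_pow_left₀ hs0 hle _
    have h2 : ((1 + δ) * x a) ^ (2 * p) = (1 + δ) ^ (2 * p) * x a ^ (2 * p) := mul_pow _ _ _
    have h3 : (1 + δ) ^ (2 * p) * x a ^ (2 * p) ≤ 3 / 2 * x a ^ (2 * p) :=
      mul_le_mul_of_nonneg_right hpow (pow_nonneg (hx a) _)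
    have h4 : x a ^ (2 * p) ≤ ∑ i, x i ^ (2 * p) :=
      Finset.single_le_sum (f := fun i => x i ^ (2 * p)) (fun i _ => pow_nonneg (hx i) _)
        (Finset.mem_univ a)
    have h5 := mul_nonneg hC0 hdouble
    linarith
  · push Not at hcase
    have hne : (Finset.univ.erase a).Nonempty := by
      by_contra h
      rw [Finset.not_nonempty_iff_eq_empty] at h
      rw [hr, h, Finset.sum_empty] at hcase
      have := mul_nonneg hδ.le (hx a)
      linarith
    obtain ⟨b, hb, hbmax⟩ := Finset.exists_max_image _ x hne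
    have hrb : r ≤ n * x b := by
      have h1 : r ≤ (Finset.univ.erase a).card • x b := Finset.sum_le_card_nsmul _ _ _ hbmax
      have h2 : ((Finset.univ.erase a).card : ℝ) ≤ n := by
        rw [hn]; exact_mod_cast (Finset.card_le_univ _)
      rw [nsmul_eq_mul] at h1
      exact h1.trans (mul_le_mul_of_nonneg_right h2 (hx b))
    have hsa : ∑ i, x i ≤ n * x a := by
      have h1 : ∑ i, x i ≤ (Finset.univ : Finset ι).card • x a :=
        Finset.sum_le_card_nsmul _ _ _ fun i _ => ha i (Finset.mem_univ i)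
      rwa [nsmul_eq_mul] at h1
    have hab : x a ≤ n * x b / δ := by
      rw [le_div_iff₀ hδ]; linarith
    have hs2 : (∑ i, x i) ^ 2 ≤ n ^ 3 / δ * (x a * x b) := by
      have h1 : (∑ i, x i) ^ 2 ≤ (n * x a) ^ 2 := pow_le_pow_left₀ hs0 hsa _
      have h2 : (n * x a) ^ 2 = n ^ 2 * x a * x a := by ring
      have h3 : n ^ 2 * x a * x a ≤ n ^ 2 * x a * (n * x b / δ) :=
        mul_le_mul_of_nonneg_left hab (mul_nonneg (by positivity) (hx a))
      have h4 : n ^ 2 * x a * (n * x b / δ) = n ^ 3 / δ * (x a * x b) := by field_simp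
      linarith
    have hterm : (∑ i, x i) ^ (2 * p) ≤ (n ^ 3 / δ) ^ p * (x a ^ p * x b ^ p) := by
      rw [pow_mul]
      calc ((∑ i, x i) ^ 2) ^ p ≤ (n ^ 3 / δ * (x a * x b)) ^ p :=
            pow_le_pow_left₀ (by positivity) hs2 _
        _ = _ := by rw [mul_pow, mul_pow]
    have h1 : x a ^ p * x b ^ p ≤ ∑ j ∈ Finset.univ.erase a, x a ^ p * x j ^ p :=
      Finset.single_le_sum (f := fun j => x a ^ p * x j ^ p)
        (fun j _ => mul_nonneg (pow_nonneg (hx a) _) (pow_nonneg (hx j) _)) hb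
    have h2 : ∑ j ∈ Finset.univ.erase a, x a ^ p * x j ^ p ≤
        ∑ i, ∑ j ∈ Finset.univ.erase i, x i ^ p * x j ^ p :=
      Finset.single_le_sum (f := fun i => ∑ j ∈ Finset.univ.erase i, x i ^ p * x j ^ p)
        (fun i _ => Finset.sum_nonneg fun j _ =>
          mul_nonneg (pow_nonneg (hx i) _) (pow_nonneg (hx j) _)) (Finset.mem_univ a)
    have h3 := mul_le_mul_of_nonneg_left (h1.trans h2) hC0
    have h4 : 0 ≤ (3 : ℝ) / 2 * ∑ i, x i ^ (2 * p) := by positivity
    linarith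

/-! ### `tanh` -/

lemma pb_abs_tanh_le (z : ℝ) : |Real.tanh z| ≤ 2 * |z| := by
  have key : ∀ z : ℝ, 0 ≤ z → Real.tanh z ≤ 2 * z := by
    intro z hz
    rw [Real.tanh_eq]
    have hpos : 0 < Real.exp z + Real.exp (-z) := by positivity
    rw [div_le_iff₀ hpos]
    have h1 : Real.exp (-z) * Real.exp z = 1 := by rw [← Real.exp_add]; simp
    have h2 : 1 - 2 * z ≤ Real.exp (-(2 * z)) := by
      have := Real.add_one_le_exp (-(2 * z))
      linarith
    have h3 : Real.exp (-(2 * z)) = Real.exp (-z) * Real.exp (-z) := by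
      rw [← Real.exp_add]; congr 1; ring
    have hez : 0 < Real.exp z := Real.exp_pos z
    have hemz : 0 < Real.exp (-z) := Real.exp_pos _
    -- `e^z - e^{-z} = e^z (1 - e^{-2z}) ≤ e^z 2z`
    have h4 : Real.exp z - Real.exp (-z) = Real.exp z * (1 - Real.exp (-(2 * z))) := by
      rw [h3]
      have : Real.exp z * (Real.exp (-z) * Real.exp (-z)) = Real.exp (-z) := by
        calc _ = (Real.exp (-z) * Real.exp z) * Real.exp (-z) := by ring
          _ = _ := by rw [h1, one_mul]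
      rw [mul_sub, mul_one, this]
    rw [h4]
    have h5 : Real.exp z * (1 - Real.exp (-(2 * z))) ≤ Real.exp z * (2 * z) :=
      mul_le_mul_of_nonneg_left (by linarith) hez.le
    have h6 : 0 ≤ Real.exp (-z) * (2 * z) := by positivity
    nlinarith
  have htanh0 : ∀ z : ℝ, 0 ≤ z → 0 ≤ Real.tanh z := by
    intro z hz
    rw [Real.tanh_eq_sinh_div_cosh]
    exact div_nonneg (Real.sinh_nonneg_iff.mpr hz) (Real.cosh_pos z).le
  rcases le_total 0 z with hz | hz
  · rw [abs_of_nonneg hz, abs_of_nonneg (htanh0 z hz)]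
    exact key z hz
  · have h := key (-z) (by linarith)
    have h' := htanh0 (-z) (by linarith)
    rw [Real.tanh_neg] at h h'
    rw [abs_of_nonpos hz, abs_of_nonpos (by linarith)]
    linarith

lemma pb_abs_tanh_le_one (z : ℝ) : |Real.tanh z| ≤ 1 := by
  rw [abs_le]
  exact ⟨(Real.neg_one_lt_tanh z).le, (Real.tanh_lt_one z).le⟩

lemma pb_abs_tanh_lt_one (z : ℝ) : |Real.tanh z| < 1 := by
  rw [abs_lt]
  exact ⟨Real.neg_one_lt_tanh z, Real.tanh_lt_one z⟩

lemma pb_measurable_tanh : Measurable Real.tanh := by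
  have : Real.tanh = fun x => Real.sinh x / Real.cosh x := by
    funext x; exact Real.tanh_eq_sinh_div_cosh x
  rw [this]
  exact Real.measurable_sinh.div Real.measurable_cosh

lemma pb_gauss_map {τ : ℝ} (hτ : 0 < τ) :
    gaussianReal τ τ.toNNReal = (gaussianReal 0 1).map (fun x => τ + Real.sqrt τ * x) := by
  have h1 := gaussianReal_map_const_mul (μ := 0) (v := 1) (Real.sqrt τ)
  have h2 := gaussianReal_map_const_add (μ := Real.sqrt τ * 0)
    (v := (.mk (Real.sqrt τ ^ 2) (sq_nonneg _) * 1)) τ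
  have h3 : (gaussianReal 0 1).map (fun x => τ + Real.sqrt τ * x) =
      ((gaussianReal 0 1).map (Real.sqrt τ * ·)).map (τ + ·) := by
    rw [Measure.map_map (by fun_prop) (by fun_prop)]
    rfl
  rw [h3, h1, h2]
  congr 1
  · simp
  · ext
    simp [Real.sq_sqrt hτ.le, hτ.le]

/-- Moments of `tanh z`. -/
theorem moment_tanh (j : ℕ) : ∃ C : ℝ, 0 < C ∧ ∀ τ : ℝ, 0 < τ → τ ≤ 1 →
      ∫ z, Real.tanh z ^ (2 * 2 ^ j) ∂(gaussianReal τ τ.toNNReal) ≤ C * τ ^ (2 ^ j) := by
  set p : ℕ := 2 ^ j with hp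
  have hp1 : p ≠ 0 := by positivity
  set g : ℝ → ℝ := fun x => (2 * (1 + |x|)) ^ (2 * p) with hg
  have hgi : Integrable g (gaussianReal 0 1) := by
    have hm : MemLp (fun x : ℝ => 2 * (1 + ‖x‖)) ((2 * p : ℕ) : NNReal) (gaussianReal 0 1) := by
      have h1 : MemLp id ((2 * p : ℕ) : NNReal) (gaussianReal (0 : ℝ) 1) := memLp_id_gaussianReal _
      exact ((memLp_const (1 : ℝ)).add h1.norm).const_mul 2
    have h2 := hm.integrable_norm_pow (by positivity)
    refine h2.congr (ae_of_all _ fun x => ?_)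
    simp only [hg, Real.norm_eq_abs, norm_mul]
    have : abs (1 + |x|) = 1 + |x| := abs_of_nonneg (by positivity)
    rw [this, abs_of_pos (by norm_num : (0 : ℝ) < 2)]
  have hg0 : ∀ x, 0 ≤ g x := fun x => by positivity
  have hint0 : 0 ≤ ∫ x, g x ∂(gaussianReal 0 1) := integral_nonneg hg0
  refine ⟨∫ x, g x ∂(gaussianReal 0 1) + 1, by linarith, fun τ hτ0 hτ1 => ?_⟩
  rw [pb_gauss_map hτ0, integral_map (by fun_prop)
    ((pb_measurable_tanh.pow_const _).aestronglyMeasurable)]
  have hsq : Real.sqrt τ * Real.sqrt τ = τ := Real.mul_self_sqrt hτ0.le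
  have hs0 : 0 < Real.sqrt τ := Real.sqrt_pos.mpr hτ0
  have hs1 : Real.sqrt τ ≤ 1 := Real.sqrt_le_one.mpr hτ1
  have hpt : ∀ x : ℝ, Real.tanh (τ + Real.sqrt τ * x) ^ (2 * p) ≤ τ ^ p * g x := by
    intro x
    have h1 : |τ + Real.sqrt τ * x| ≤ Real.sqrt τ * (1 + |x|) := by
      calc |τ + Real.sqrt τ * x| ≤ |τ| + |Real.sqrt τ * x| := abs_add_le _ _
        _ = τ + Real.sqrt τ * |x| := by rw [abs_of_pos hτ0, abs_mul, abs_of_pos hs0]
        _ ≤ Real.sqrt τ * (1 + |x|) := by
          have : τ ≤ Real.sqrt τ := by nlinarith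
          nlinarith
    have h2 := pb_abs_tanh_le (τ + Real.sqrt τ * x)
    have h3 : |Real.tanh (τ + Real.sqrt τ * x)| ≤ Real.sqrt τ * (2 * (1 + |x|)) := by nlinarith
    have h4 : Real.tanh (τ + Real.sqrt τ * x) ^ (2 * p) =
        |Real.tanh (τ + Real.sqrt τ * x)| ^ (2 * p) := by
      rw [pow_mul, pow_mul, sq_abs]
    rw [h4]
    calc |Real.tanh (τ + Real.sqrt τ * x)| ^ (2 * p)
        ≤ (Real.sqrt τ * (2 * (1 + |x|))) ^ (2 * p) := pow_le_pow_left₀ (abs_nonneg _) h3 _
      _ = (Real.sqrt τ * Real.sqrt τ) ^ p * g x := by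
        rw [mul_pow, hg, pow_mul (Real.sqrt τ), sq]
      _ = τ ^ p * g x := by rw [hsq]
  have hle : ∫ x, Real.tanh (τ + Real.sqrt τ * x) ^ (2 * p) ∂(gaussianReal 0 1) ≤
      ∫ x, τ ^ p * g x ∂(gaussianReal 0 1) :=
    integral_mono_of_nonneg
      (ae_of_all _ fun x => by
        show 0 ≤ Real.tanh (τ + Real.sqrt τ * x) ^ (2 * p)
        rw [pow_mul]; positivity)
      (hgi.const_mul _) (ae_of_all _ hpt)
  rw [integral_const_mul] at hle
  have hτp : 0 < τ ^ p := by positivity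
  nlinarith

/-! ### The recursion for `mobF` -/

lemma pb_abs_mobF_le {ι : Type*} [Fintype ι] (h0 : 0 ≤ θ) (h1 : θ < 1) (c : ℝ) (v : ι → ℝ)
    (hc : |c| < 1) (hv : ∀ i, |v i| < 1) : |mobF c v| ≤ |c| + ∑ i, |v i| := by
  classical
  have key : ∀ s : Finset ι,
      0 < (1 + c) * ∏ i ∈ s, (1 + v i) ∧ 0 < (1 - c) * ∏ i ∈ s, (1 - v i) ∧
      |((1 + c) * ∏ i ∈ s, (1 + v i) - (1 - c) * ∏ i ∈ s, (1 - v i)) /
        ((1 + c) * ∏ i ∈ s, (1 + v i) + (1 - c) * ∏ i ∈ s, (1 - v i))| ≤ |c| + ∑ i ∈ s, |v i| := by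
    intro s
    induction s using Finset.induction_on with
    | empty =>
      have hc' := abs_lt.mp hc
      refine ⟨by simp; linarith, by simp; linarith, ?_⟩
      simp only [Finset.prod_empty, mul_one, Finset.sum_empty, add_zero]
      have : (1 + c - (1 - c)) / (1 + c + (1 - c)) = c := by
        have : (1 + c + (1 - c)) = 2 := by ring
        rw [this]; ring
      rw [this]
    | insert a s ha ih =>
      obtain ⟨hN, hM, hb⟩ := ih
      have hva := abs_lt.mp (hv a)
      rw [Finset.prod_insert ha, Finset.prod_insert ha, Finset.sum_insert ha]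
      set N := (1 + c) * ∏ i ∈ s, (1 + v i) with hNdef
      set M := (1 - c) * ∏ i ∈ s, (1 - v i) with hMdef
      have e1 : (1 + c) * ((1 + v a) * ∏ i ∈ s, (1 + v i)) = (1 + v a) * N := by rw [hNdef]; ring
      have e2 : (1 - c) * ((1 - v a) * ∏ i ∈ s, (1 - v i)) = (1 - v a) * M := by rw [hMdef]; ring
      rw [e1, e2]
      have hp1 : 0 < 1 + v a := by linarith [hva.1]
      have hp2 : 0 < 1 - v a := by linarith [hva.2]
      refine ⟨mul_pos hp1 hN, mul_pos hp2 hM, ?_⟩
      set m := (N - M) / (N + M) with hm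
      have hNM : 0 < N + M := by linarith
      have hm1 : |m| ≤ 1 := by
        rw [hm, abs_div, abs_of_pos hNM, div_le_one hNM, abs_le]
        constructor <;> linarith
      have hden : 0 < 1 + m * v a := by
        have : m = (N - M) / (N + M) := hm
        have h1 : 1 + m * v a = ((1 + v a) * N + (1 - v a) * M) / (N + M) := by
          rw [this]; field_simp; ring
        rw [h1]
        exact div_pos (by positivity) hNM
      have hstep : ((1 + v a) * N - (1 - v a) * M) / ((1 + v a) * N + (1 - v a) * M) =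
          mob m (v a) := by
        rw [mob, hm]
        have h2 : 0 < (1 + v a) * N + (1 - v a) * M := by positivity
        have h3 : 1 + (N - M) / (N + M) * v a ≠ 0 := by
          rw [← hm]; exact hden.ne'
        rw [div_eq_div_iff h2.ne' h3]
        field_simp
        ring
      rw [hstep]
      have := abs_mob_le h0 h1 hm1 (hv a).le
      have hs : |v a| + ∑ i ∈ s, |v i| = |v a| + ∑ i ∈ s, |v i| := rfl
      linarith
  exact (key Finset.univ).2.2

/-! ### Integrals over the tree -/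

lemma pb_measurable_split :
    Measurable (fun d : OmCan k => (d [], fun i : Fin k => shiftD i d)) := by
  refine (measurable_pi_apply _).prodMk (measurable_pi_lambda _ fun i => ?_)
  exact measurable_pi_lambda _ fun _ => measurable_pi_apply _

lemma pb_measurable_shift (i : Fin k) : Measurable (shiftD i : OmCan k → OmCan k) :=
  measurable_pi_lambda _ fun _ => measurable_pi_apply _

section
variable {τ : ℝ} (h0 : 0 ≤ θ) (h1 : θ < 1)
include h0 h1

lemma pb_split (F : XX × (Fin k → OmCan k) → ℝ) (hF : Measurable F) :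
    ∫ d, F (d [], fun i => shiftD i d) ∂(Pcan k θ τ) =
      ∫ q, F q ∂((rhoX θ τ).prod (Measure.pi (fun _ : Fin k => Pcan k θ τ))) := by
  rw [← Pcan_map_split h0 h1, integral_map pb_measurable_split.aemeasurable
    hF.aestronglyMeasurable]

lemma pb_int_shift (i : Fin k) (H : OmCan k → ℝ) (hH : Measurable H) :
    ∫ d, H (shiftD i d) ∂(Pcan k θ τ) = ∫ d, H d ∂(Pcan k θ τ) := by
  have := isProb_Pcan (k := k) (τ := τ) h0 h1
  have := isProb_rhoX (τ := τ) h0 h1
  have h := pb_split (τ := τ) (k := k) h0 h1 (fun q => (1 : ℝ) * H (q.2 i))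
    (measurable_const.mul (hH.comp ((measurable_pi_apply i).comp measurable_snd)))
  simp only [one_mul] at h
  rw [h]
  have h2 := integral_prod_mul (μ := rhoX θ τ) (ν := Measure.pi (fun _ : Fin k => Pcan k θ τ))
    (fun _ => (1 : ℝ)) (fun s => H (s i))
  simp only [one_mul, integral_const, probReal_univ, smul_eq_mul, mul_one] at h2
  rw [h2]
  have h3 := (measurePreserving_eval (fun _ : Fin k => Pcan k θ τ) i).map_eq
  conv_rhs => rw [← h3]
  rw [integral_map (measurable_pi_apply i).aemeasurable hH.aestronglyMeasurable]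

lemma pb_int_root (G : ℝ → ℝ) (hG : Measurable G) :
    ∫ d, G (d []).2 ∂(Pcan k θ τ) = ∫ z, G z ∂(gaussianReal τ τ.toNNReal) := by
  have := isProb_Pcan (k := k) (τ := τ) h0 h1
  have := isProb_rhoX (τ := τ) h0 h1
  have := isProb_bitLaw h0 h1
  have h := pb_split (τ := τ) (k := k) h0 h1 (fun q => G q.1.2 * (1 : ℝ))
    ((hG.comp (measurable_snd.comp measurable_fst)).mul measurable_const)
  simp only [mul_one] at h
  rw [h]
  have h2 := integral_prod_mul (μ := rhoX θ τ) (ν := Measure.pi (fun _ : Fin k => Pcan k θ τ))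
    (fun a => G a.2) (fun _ => (1 : ℝ))
  simp only [mul_one, integral_const, probReal_univ, smul_eq_mul] at h2
  rw [h2]
  have h3 := integral_prod_mul (μ := bitLaw θ) (ν := gaussianReal τ τ.toNNReal)
    (fun _ => (1 : ℝ)) (fun z => G z)
  simp only [one_mul, integral_const, probReal_univ, smul_eq_mul, mul_one] at h3
  exact h3

lemma pb_int_root_shift (i : Fin k) (G : ℝ → ℝ) (hG : Measurable G) (H : OmCan k → ℝ)
    (hH : Measurable H) :
    ∫ d, G (d []).2 * H (shiftD i d) ∂(Pcan k θ τ) =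
      (∫ d, G (d []).2 ∂(Pcan k θ τ)) * ∫ d, H d ∂(Pcan k θ τ) := by
  have := isProb_Pcan (k := k) (τ := τ) h0 h1
  have := isProb_rhoX (τ := τ) h0 h1
  have := isProb_bitLaw h0 h1
  have h := pb_split (τ := τ) (k := k) h0 h1 (fun q => G q.1.2 * H (q.2 i))
    ((hG.comp (measurable_snd.comp measurable_fst)).mul
      (hH.comp ((measurable_pi_apply i).comp measurable_snd)))
  rw [h, integral_prod_mul (f := fun a : XX => G a.2) (g := fun s : Fin k → OmCan k => H (s i))]
  have h1' := pb_int_root (k := k) (τ := τ) h0 h1 G hG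
  rw [h1']
  have h3 := integral_prod_mul (μ := bitLaw θ) (ν := gaussianReal τ τ.toNNReal)
    (fun _ => (1 : ℝ)) (fun z => G z)
  simp only [one_mul, integral_const, probReal_univ, smul_eq_mul, mul_one] at h3
  have h4 : ∫ a, G a.2 ∂(rhoX θ τ) = ∫ z, G z ∂(gaussianReal τ τ.toNNReal) := h3
  rw [h4]
  congr 1
  have h5 := (measurePreserving_eval (fun _ : Fin k => Pcan k θ τ) i).map_eq
  conv_rhs => rw [← h5]
  rw [integral_map (measurable_pi_apply i).aemeasurable hH.aestronglyMeasurable]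

lemma pb_int_shift_shift {i j : Fin k} (hij : i ≠ j) (H H' : OmCan k → ℝ)
    (hH : Measurable H) (hH' : Measurable H') :
    ∫ d, H (shiftD i d) * H' (shiftD j d) ∂(Pcan k θ τ) =
      (∫ d, H d ∂(Pcan k θ τ)) * ∫ d, H' d ∂(Pcan k θ τ) := by
  have := isProb_Pcan (k := k) (τ := τ) h0 h1
  have := isProb_rhoX (τ := τ) h0 h1
  have h := pb_split (τ := τ) (k := k) h0 h1 (fun q => (1 : ℝ) * (H (q.2 i) * H' (q.2 j)))
    (measurable_const.mul ((hH.comp ((measurable_pi_apply i).comp measurable_snd)).mul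
      (hH'.comp ((measurable_pi_apply j).comp measurable_snd))))
  simp only [one_mul] at h
  rw [h]
  have h2 := integral_prod_mul (μ := rhoX θ τ) (ν := Measure.pi (fun _ : Fin k => Pcan k θ τ))
    (fun _ => (1 : ℝ)) (fun s => H (s i) * H' (s j))
  simp only [one_mul, integral_const, probReal_univ, smul_eq_mul, mul_one] at h2
  rw [h2]
  have hind : iIndepFun (fun (l : Fin k) (s : Fin k → OmCan k) => s l)
      (Measure.pi (fun _ : Fin k => Pcan k θ τ)) :=
    iIndepFun_pi (X := fun _ x => x) (fun _ => aemeasurable_id)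
  have hind2 := (hind.indepFun hij).comp hH hH'
  have h3 := hind2.integral_fun_mul_eq_mul_integral
    (hH.comp (measurable_pi_apply i)).aestronglyMeasurable
    (hH'.comp (measurable_pi_apply j)).aestronglyMeasurable
  simp only [Function.comp_apply] at h3
  rw [h3]
  have h5 := (measurePreserving_eval (fun _ : Fin k => Pcan k θ τ) i).map_eq
  have h6 := (measurePreserving_eval (fun _ : Fin k => Pcan k θ τ) j).map_eq
  congr 1
  · conv_rhs => rw [← h5]
    rw [integral_map (measurable_pi_apply i).aemeasurable hH.aestronglyMeasurable]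
  · conv_rhs => rw [← h6]
    rw [integral_map (measurable_pi_apply j).aemeasurable hH'.aestronglyMeasurable]

/-! ### The doubling step -/

/-- The family of nonnegative quantities dominating the message of depth `N + 1`. -/
noncomputable def pbX (k : ℕ) (θ : ℝ) (N : ℕ) : Option (Fin k) → OmCan k → ℝ
  | none, d => |Real.tanh (d []).2|
  | some i, d => θ * |msg θ N (shiftD i d)|

omit h0 h1 in
lemma pb_sg_abs (b : Bool) : |sg b| = 1 := by
  cases b <;> simp [sg]

omit h1 in
lemma pbX_nonneg (N : ℕ) (o : Option (Fin k)) (d : OmCan k) : 0 ≤ pbX k θ N o d := by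
  cases o with
  | none => exact abs_nonneg _
  | some i => exact mul_nonneg h0 (abs_nonneg _)

lemma pbX_le_one (N : ℕ) (o : Option (Fin k)) (d : OmCan k) : pbX k θ N o d ≤ 1 := by
  cases o with
  | none => exact pb_abs_tanh_le_one _
  | some i =>
    have := abs_msg_le h0 h1 N (shiftD i d)
    show θ * |msg θ N (shiftD i d)| ≤ 1
    nlinarith [abs_nonneg (msg θ N (shiftD i d))]

omit h0 h1 in
lemma pbX_measurable (N : ℕ) (o : Option (Fin k)) : Measurable (pbX k θ N o) := by
  cases o with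
  | none =>
    have : Measurable (fun d : OmCan k => |Real.tanh (d []).2|) :=
      (pb_measurable_tanh.comp (measurable_snd.comp (measurable_pi_apply _))).abs
    exact this
  | some i =>
    have : Measurable (fun d : OmCan k => θ * |msg θ N (shiftD i d)|) :=
      (((measurable_msg θ N).comp (pb_measurable_shift i)).abs).const_mul θ
    exact this

lemma pb_msg_succ_le (N : ℕ) (d : OmCan k) :
    |msg θ (N + 1) d| ≤ ∑ o, pbX k θ N o d := by
  rw [Fintype.sum_option]
  have hv : ∀ i : Fin k, |sg (d [i]).1 * θ * msg θ N (shiftD i d)| = θ * |msg θ N (shiftD i d)| := by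
    intro i
    rw [abs_mul, abs_mul, pb_sg_abs, one_mul, abs_of_nonneg h0]
  have hlt : ∀ i : Fin k, |sg (d [i]).1 * θ * msg θ N (shiftD i d)| < 1 := by
    intro i
    rw [hv]
    have := abs_msg_le h0 h1 N (shiftD i d)
    nlinarith [abs_nonneg (msg θ N (shiftD i d))]
  have := pb_abs_mobF_le h0 h1 (Real.tanh (d []).2)
    (fun i : Fin k => sg (d [i]).1 * θ * msg θ N (shiftD i d)) (pb_abs_tanh_lt_one _) hlt
  simp only [hv] at this
  exact this

lemma pb_integrable (f : OmCan k → ℝ) (hf : Measurable f) (hb : ∀ d, |f d| ≤ 1) :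
    Integrable f (Pcan k θ τ) := by
  have := isProb_Pcan (k := k) (τ := τ) h0 h1
  exact Integrable.of_bound hf.aestronglyMeasurable 1 (ae_of_all _ hb)

lemma pb_cross (N q : ℕ) {o o' : Option (Fin k)} (hoo : o ≠ o') :
    ∫ d, pbX k θ N o d ^ q * pbX k θ N o' d ^ q ∂(Pcan k θ τ) =
      (∫ d, pbX k θ N o d ^ q ∂(Pcan k θ τ)) * ∫ d, pbX k θ N o' d ^ q ∂(Pcan k θ τ) := by
  have hm : ∀ i : Fin k, Measurable (fun d : OmCan k => (θ * |msg θ N d|) ^ q) := fun i =>
    (((measurable_msg θ N).abs).const_mul θ).pow_const q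
  have hG : Measurable (fun z : ℝ => |Real.tanh z| ^ q) := pb_measurable_tanh.abs.pow_const q
  cases o with
  | none =>
    cases o' with
    | none => exact absurd rfl hoo
    | some j =>
      have h1' := pb_int_root_shift (k := k) (τ := τ) h0 h1 j (fun z => |Real.tanh z| ^ q) hG
        (fun d => (θ * |msg θ N d|) ^ q) (hm j)
      have h2 := pb_int_shift (k := k) (τ := τ) h0 h1 j (fun d => (θ * |msg θ N d|) ^ q) (hm j)
      show ∫ d, |Real.tanh (d []).2| ^ q * (θ * |msg θ N (shiftD j d)|) ^ q ∂(Pcan k θ τ) =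
        (∫ d, |Real.tanh (d []).2| ^ q ∂(Pcan k θ τ)) *
          ∫ d, (θ * |msg θ N (shiftD j d)|) ^ q ∂(Pcan k θ τ)
      rw [h1', h2]
  | some i =>
    cases o' with
    | none =>
      have h1' := pb_int_root_shift (k := k) (τ := τ) h0 h1 i (fun z => |Real.tanh z| ^ q) hG
        (fun d => (θ * |msg θ N d|) ^ q) (hm i)
      have h2 := pb_int_shift (k := k) (τ := τ) h0 h1 i (fun d => (θ * |msg θ N d|) ^ q) (hm i)
      show ∫ d, (θ * |msg θ N (shiftD i d)|) ^ q * |Real.tanh (d []).2| ^ q ∂(Pcan k θ τ) =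
        (∫ d, (θ * |msg θ N (shiftD i d)|) ^ q ∂(Pcan k θ τ)) *
          ∫ d, |Real.tanh (d []).2| ^ q ∂(Pcan k θ τ)
      simp only [mul_comm ((θ * |msg θ N (shiftD i _)|) ^ q)]
      rw [h1', h2, mul_comm]
    | some j =>
      have hij : i ≠ j := fun h => hoo (by rw [h])
      have h3 := pb_int_shift_shift (k := k) (τ := τ) h0 h1 hij
        (fun d => (θ * |msg θ N d|) ^ q) (fun d => (θ * |msg θ N d|) ^ q) (hm i) (hm j)
      have h4 := pb_int_shift (k := k) (τ := τ) h0 h1 i (fun d => (θ * |msg θ N d|) ^ q) (hm i)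
      have h5 := pb_int_shift (k := k) (τ := τ) h0 h1 j (fun d => (θ * |msg θ N d|) ^ q) (hm j)
      show ∫ d, (θ * |msg θ N (shiftD i d)|) ^ q * (θ * |msg θ N (shiftD j d)|) ^ q ∂(Pcan k θ τ) =
        (∫ d, (θ * |msg θ N (shiftD i d)|) ^ q ∂(Pcan k θ τ)) *
          ∫ d, (θ * |msg θ N (shiftD j d)|) ^ q ∂(Pcan k θ τ)
      rw [h3, h4, h5]

end

/-- High moments of the messages. `p = 2 ^ j`: `E n^{2p} ≤ C τ^{p/2}` for `τ ≤ 1`, all depths. -/
theorem moment_msg (h0 : 0 ≤ θ) (h1 : θ < 1) (hk : 2 ≤ k) (hkθ : (k : ℝ) * θ ^ 2 ≤ 1) (j : ℕ) :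
    ∃ C : ℝ, 0 < C ∧ ∀ τ : ℝ, 0 < τ → τ ≤ 1 → ∀ N : ℕ,
      ∫ d, msg θ N d ^ (2 * 2 ^ j) ∂(Pcan k θ τ) ≤ C * Real.sqrt τ ^ (2 ^ j) := by
  induction j with
  | zero =>
    refine ⟨2 * Real.sqrt 2, by positivity, fun τ hτ0 hτ1 N => ?_⟩
    have h2 := xN_le (k := k) h0 h1 hk hkθ hτ0 N
    have h3 := ttl_le hτ0
    have h4 : Real.sqrt (ttl τ) ≤ Real.sqrt 2 * Real.sqrt τ := by
      rw [← Real.sqrt_mul (by norm_num)]
      apply Real.sqrt_le_sqrt
      nlinarith
    simp only [pow_zero, mul_one, pow_one]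
    have h5 : ∫ d, msg θ N d ^ 2 ∂(Pcan k θ τ) = xN k θ τ N := rfl
    rw [h5]
    nlinarith
  | succ j ih =>
    obtain ⟨C', hC', hih⟩ := ih
    obtain ⟨q, hq⟩ : ∃ q, q = 2 ^ j := ⟨_, rfl⟩
    have hq1 : 1 ≤ q := by rw [hq]; exact Nat.one_le_two_pow
    obtain ⟨p, hp⟩ : ∃ p, p = 2 * q := ⟨_, rfl⟩
    have hpow : 2 ^ (j + 1) = p := by rw [hp, hq, pow_succ]; ring
    rw [hpow]
    rw [← hq, ← hp] at hih
    obtain ⟨CT, hCT, hT⟩ := moment_tanh j
    obtain ⟨CT2, hCT2, hT2⟩ := moment_tanh (j + 1)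
    rw [hpow] at hT2
    rw [← hq, ← hp] at hT
    obtain ⟨E, hE0, hE⟩ := pb_elem (ι := Option (Fin k)) p (by omega)
    have hcard : ((Fintype.card (Option (Fin k)) : ℕ) : ℝ) = (k : ℝ) + 1 := by simp
    set B : ℝ := max CT C' with hB
    have hBpos : 0 < B := lt_max_of_lt_left hCT
    set C₁ : ℝ := (3 / 2) * CT2 + E * (((k : ℝ) + 1) * (((k : ℝ) + 1) * B ^ 2)) with hC₁
    have hC₁pos : 0 < C₁ := by positivity
    refine ⟨CT2 + 4 * C₁, by positivity, fun τ hτ0 hτ1 => ?_⟩
    have hs0 : 0 < Real.sqrt τ := Real.sqrt_pos.mpr hτ0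
    have hs1 : Real.sqrt τ ≤ 1 := Real.sqrt_le_one.mpr hτ1
    have hsq : Real.sqrt τ * Real.sqrt τ = τ := Real.mul_self_sqrt hτ0.le
    have hτs : τ ≤ Real.sqrt τ := by nlinarith
    have hprob := isProb_Pcan (k := k) (τ := τ) h0 h1
    -- the tanh moments
    have hroot : ∫ d, Real.tanh (d []).2 ^ (2 * p) ∂(Pcan k θ τ) ≤ CT2 * Real.sqrt τ ^ p := by
      rw [pb_int_root h0 h1 (fun z => Real.tanh z ^ (2 * p)) (pb_measurable_tanh.pow_const _)]
      refine (hT2 τ hτ0 hτ1).trans ?_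
      exact mul_le_mul_of_nonneg_left (pow_le_pow_left₀ hτ0.le hτs _) hCT2.le
    have hpeven : ∀ x : ℝ, |x| ^ p = x ^ p := by
      intro x; rw [hp, pow_mul, pow_mul, sq_abs]
    have h2peven : ∀ x : ℝ, |x| ^ (2 * p) = x ^ (2 * p) := by
      intro x; rw [pow_mul, pow_mul, sq_abs]
    -- base
    have hbase : ∫ d, msg θ 0 d ^ (2 * p) ∂(Pcan k θ τ) ≤ (CT2 + 4 * C₁) * Real.sqrt τ ^ p := by
      have : ∫ d, msg θ 0 d ^ (2 * p) ∂(Pcan k θ τ) =
          ∫ d, Real.tanh (d []).2 ^ (2 * p) ∂(Pcan k θ τ) := rfl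
      rw [this]
      refine hroot.trans (mul_le_mul_of_nonneg_right (by linarith) (by positivity))
    -- first moments of the family
    have hBnd : ∀ (N : ℕ) (o : Option (Fin k)),
        ∫ d, pbX k θ N o d ^ p ∂(Pcan k θ τ) ≤ B * Real.sqrt τ ^ q := by
      intro N o
      cases o with
      | none =>
        have h2 : ∫ d, pbX k θ N none d ^ p ∂(Pcan k θ τ) =
            ∫ d, Real.tanh (d []).2 ^ p ∂(Pcan k θ τ) := by
          apply integral_congr_ae
          exact ae_of_all _ fun d => hpeven _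
        rw [h2, pb_int_root h0 h1 (fun z => Real.tanh z ^ p) (pb_measurable_tanh.pow_const _)]
        refine (hT τ hτ0 hτ1).trans ?_
        calc CT * τ ^ q ≤ B * Real.sqrt τ ^ q :=
          mul_le_mul (le_max_left _ _) (pow_le_pow_left₀ hτ0.le hτs _) (by positivity) hBpos.le
      | some i =>
        have h2 : ∫ d, pbX k θ N (some i) d ^ p ∂(Pcan k θ τ) =
            θ ^ p * ∫ d, msg θ N d ^ p ∂(Pcan k θ τ) := by
          rw [← integral_const_mul,
            ← pb_int_shift h0 h1 i (fun d => θ ^ p * msg θ N d ^ p)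
              (((measurable_msg θ N).pow_const _).const_mul _)]
          apply integral_congr_ae
          refine ae_of_all _ fun d => ?_
          show (θ * |msg θ N (shiftD i d)|) ^ p = θ ^ p * msg θ N (shiftD i d) ^ p
          rw [mul_pow, hpeven]
        rw [h2]
        have hθp : θ ^ p ≤ 1 := pow_le_one₀ h0 h1.le
        have hθp0 : 0 ≤ θ ^ p := pow_nonneg h0 _
        have hM0 : 0 ≤ ∫ d, msg θ N d ^ p ∂(Pcan k θ τ) :=
          integral_nonneg fun d => by
            show 0 ≤ msg θ N d ^ p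
            rw [hp, pow_mul]; positivity
        have hih' := hih τ hτ0 hτ1 N
        calc θ ^ p * ∫ d, msg θ N d ^ p ∂(Pcan k θ τ)
            ≤ 1 * ∫ d, msg θ N d ^ p ∂(Pcan k θ τ) :=
              mul_le_mul_of_nonneg_right hθp hM0
          _ ≤ C' * Real.sqrt τ ^ q := by rw [one_mul]; exact hih'
          _ ≤ B * Real.sqrt τ ^ q :=
              mul_le_mul_of_nonneg_right (le_max_right _ _) (by positivity)
    -- one step
    have hstep : ∀ N : ℕ, ∫ d, msg θ (N + 1) d ^ (2 * p) ∂(Pcan k θ τ) ≤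
        (3 / 4) * (∫ d, msg θ N d ^ (2 * p) ∂(Pcan k θ τ)) + C₁ * Real.sqrt τ ^ p := by
      intro N
      have hx0 := pbX_nonneg (k := k) h0 N
      have hx1 := pbX_le_one (k := k) h0 h1 N
      have hxm := pbX_measurable (k := k) (θ := θ) N
      have hpt : ∀ d, msg θ (N + 1) d ^ (2 * p) ≤
          (3 / 2) * ∑ o, pbX k θ N o d ^ (2 * p) +
            E * ∑ o, ∑ o' ∈ Finset.univ.erase o, pbX k θ N o d ^ p * pbX k θ N o' d ^ p := by
        intro d
        rw [← h2peven]
        exact (pow_le_pow_left₀ (abs_nonneg _) (pb_msg_succ_le h0 h1 N d) _).trans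
          (hE _ fun o => hx0 o d)
      have hint1 : ∀ o, Integrable (fun d => pbX k θ N o d ^ (2 * p)) (Pcan k θ τ) := fun o =>
        pb_integrable h0 h1 _ ((hxm o).pow_const _) fun d => by
          rw [abs_of_nonneg (pow_nonneg (hx0 o d) _)]
          exact pow_le_one₀ (hx0 o d) (hx1 o d)
      have hint2 : ∀ o o', Integrable (fun d => pbX k θ N o d ^ p * pbX k θ N o' d ^ p)
          (Pcan k θ τ) := fun o o' =>
        pb_integrable h0 h1 _ (((hxm o).pow_const _).mul ((hxm o').pow_const _)) fun d => by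
          rw [abs_of_nonneg (mul_nonneg (pow_nonneg (hx0 o d) _) (pow_nonneg (hx0 o' d) _))]
          exact mul_le_one₀ (pow_le_one₀ (hx0 o d) (hx1 o d)) (pow_nonneg (hx0 o' d) _)
            (pow_le_one₀ (hx0 o' d) (hx1 o' d))
      have hint1s : Integrable (fun d => ∑ o, pbX k θ N o d ^ (2 * p)) (Pcan k θ τ) :=
        integrable_finsetSum _ fun o _ => hint1 o
      have hint2s : Integrable
          (fun d => ∑ o, ∑ o' ∈ Finset.univ.erase o, pbX k θ N o d ^ p * pbX k θ N o' d ^ p)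
          (Pcan k θ τ) :=
        integrable_finsetSum _ fun o _ => integrable_finsetSum _ fun o' _ => hint2 o o'
      have hle : ∫ d, msg θ (N + 1) d ^ (2 * p) ∂(Pcan k θ τ) ≤
          ∫ d, ((3 / 2) * ∑ o, pbX k θ N o d ^ (2 * p) +
            E * ∑ o, ∑ o' ∈ Finset.univ.erase o, pbX k θ N o d ^ p * pbX k θ N o' d ^ p)
              ∂(Pcan k θ τ) := integral_mono_of_nonneg
        (ae_of_all (Pcan k θ τ) fun d => by
          show 0 ≤ msg θ (N + 1) d ^ (2 * p)
          rw [pow_mul]; positivity)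
        ((hint1s.const_mul (3 / 2)).add (hint2s.const_mul E)) (ae_of_all _ hpt)
      have hsplit : ∫ d, ((3 / 2) * ∑ o, pbX k θ N o d ^ (2 * p) +
            E * ∑ o, ∑ o' ∈ Finset.univ.erase o, pbX k θ N o d ^ p * pbX k θ N o' d ^ p)
              ∂(Pcan k θ τ) =
          (3 / 2) * ∑ o, ∫ d, pbX k θ N o d ^ (2 * p) ∂(Pcan k θ τ) +
            E * ∑ o, ∑ o' ∈ Finset.univ.erase o,
              ∫ d, pbX k θ N o d ^ p * pbX k θ N o' d ^ p ∂(Pcan k θ τ) := by
        rw [integral_add (hint1s.const_mul _) (hint2s.const_mul _), integral_const_mul,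
          integral_const_mul, integral_finsetSum _ fun o _ => hint1 o,
          integral_finsetSum _ fun o _ => integrable_finsetSum _ fun o' _ => hint2 o o']
        congr 2
        refine Finset.sum_congr rfl fun o _ => ?_
        exact integral_finsetSum _ fun o' _ => hint2 o o'
      -- the single sum
      set aN := ∫ d, msg θ N d ^ (2 * p) ∂(Pcan k θ τ) with haN
      have haN0 : 0 ≤ aN := integral_nonneg fun d => by rw [pow_mul]; positivity
      have hsome : ∀ i : Fin k, ∫ d, pbX k θ N (some i) d ^ (2 * p) ∂(Pcan k θ τ) =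
          θ ^ (2 * p) * aN := by
        intro i
        rw [haN, ← integral_const_mul,
          ← pb_int_shift h0 h1 i (fun d => θ ^ (2 * p) * msg θ N d ^ (2 * p))
            (((measurable_msg θ N).pow_const _).const_mul _)]
        apply integral_congr_ae
        refine ae_of_all _ fun d => ?_
        show (θ * |msg θ N (shiftD i d)|) ^ (2 * p) = θ ^ (2 * p) * msg θ N (shiftD i d) ^ (2 * p)
        rw [mul_pow, h2peven]
      have hnone : ∫ d, pbX k θ N none d ^ (2 * p) ∂(Pcan k θ τ) ≤ CT2 * Real.sqrt τ ^ p := by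
        have : ∫ d, pbX k θ N none d ^ (2 * p) ∂(Pcan k θ τ) =
            ∫ d, Real.tanh (d []).2 ^ (2 * p) ∂(Pcan k θ τ) := by
          apply integral_congr_ae
          exact ae_of_all _ fun d => h2peven _
        rw [this]; exact hroot
      have hkθp : (k : ℝ) * θ ^ (2 * p) ≤ 1 / 2 := by
        have hk2 : (2 : ℝ) ≤ k := by exact_mod_cast hk
        have hθ2 : θ ^ 2 ≤ 1 / 2 := by nlinarith [sq_nonneg θ]
        have h2 : θ ^ (2 * p) ≤ (θ ^ 2) ^ 2 := by
          rw [pow_mul]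
          exact pow_le_pow_of_le_one (by positivity) (by nlinarith) (by omega)
        have h3 : (k : ℝ) * (θ ^ 2) ^ 2 = ((k : ℝ) * θ ^ 2) * θ ^ 2 := by ring
        have h4 : ((k : ℝ) * θ ^ 2) * θ ^ 2 ≤ 1 * θ ^ 2 :=
          mul_le_mul_of_nonneg_right hkθ (sq_nonneg θ)
        have h5 : (k : ℝ) * θ ^ (2 * p) ≤ (k : ℝ) * (θ ^ 2) ^ 2 :=
          mul_le_mul_of_nonneg_left h2 (by positivity)
        linarith
      have hS1 : ∑ o, ∫ d, pbX k θ N o d ^ (2 * p) ∂(Pcan k θ τ) ≤
          CT2 * Real.sqrt τ ^ p + (1 / 2) * aN := by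
        rw [Fintype.sum_option, Finset.sum_congr rfl fun i _ => hsome i, Finset.sum_const,
          Finset.card_univ, Fintype.card_fin, nsmul_eq_mul, ← mul_assoc]
        have := mul_le_mul_of_nonneg_right hkθp haN0
        linarith
      -- the double sum
      have hI0 : ∀ o, 0 ≤ ∫ d, pbX k θ N o d ^ p ∂(Pcan k θ τ) := fun o =>
        integral_nonneg fun d => pow_nonneg (hx0 o d) _
      have hsqq : Real.sqrt τ ^ p = Real.sqrt τ ^ q * Real.sqrt τ ^ q := by
        rw [hp, two_mul, pow_add]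
      have hterm : ∀ o o', o ≠ o' →
          ∫ d, pbX k θ N o d ^ p * pbX k θ N o' d ^ p ∂(Pcan k θ τ) ≤
            B ^ 2 * Real.sqrt τ ^ p := by
        intro o o' hoo
        rw [pb_cross h0 h1 N p hoo]
        calc _ ≤ (B * Real.sqrt τ ^ q) * (B * Real.sqrt τ ^ q) :=
              mul_le_mul (hBnd N o) (hBnd N o') (hI0 o') (by positivity)
          _ = B ^ 2 * Real.sqrt τ ^ p := by rw [hsqq]; ring
      have hS2 : ∑ o, ∑ o' ∈ Finset.univ.erase o,
          ∫ d, pbX k θ N o d ^ p * pbX k θ N o' d ^ p ∂(Pcan k θ τ) ≤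
          ((k : ℝ) + 1) * (((k : ℝ) + 1) * B ^ 2) * Real.sqrt τ ^ p := by
        have hinner : ∀ o : Option (Fin k), ∑ o' ∈ Finset.univ.erase o,
            ∫ d, pbX k θ N o d ^ p * pbX k θ N o' d ^ p ∂(Pcan k θ τ) ≤
            ((k : ℝ) + 1) * (B ^ 2 * Real.sqrt τ ^ p) := by
          intro o
          have h1 := Finset.sum_le_card_nsmul (Finset.univ.erase o)
            (fun o' => ∫ d, pbX k θ N o d ^ p * pbX k θ N o' d ^ p ∂(Pcan k θ τ))
            (B ^ 2 * Real.sqrt τ ^ p) (fun o' ho' => hterm o o' (Finset.ne_of_mem_erase ho').symm)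
          rw [nsmul_eq_mul] at h1
          refine h1.trans (mul_le_mul_of_nonneg_right ?_ (by positivity))
          rw [← hcard]
          exact_mod_cast Finset.card_le_univ _
        have h2 := Finset.sum_le_card_nsmul (Finset.univ : Finset (Option (Fin k)))
          (fun o => ∑ o' ∈ Finset.univ.erase o,
            ∫ d, pbX k θ N o d ^ p * pbX k θ N o' d ^ p ∂(Pcan k θ τ))
          (((k : ℝ) + 1) * (B ^ 2 * Real.sqrt τ ^ p)) (fun o _ => hinner o)
        rw [nsmul_eq_mul, Finset.card_univ, hcard] at h2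
        refine h2.trans (le_of_eq ?_)
        ring
      rw [hsplit] at hle
      have hmulE := mul_le_mul_of_nonneg_left hS2 hE0
      have hsp : 0 < Real.sqrt τ ^ p := by positivity
      rw [hC₁]
      nlinarith
    intro N
    induction N with
    | zero => exact hbase
    | succ N ihN =>
      refine (hstep N).trans ?_
      have hsp : 0 < Real.sqrt τ ^ p := by positivity
      nlinarith

end Crest.Agent.Lib.IT
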