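/-
Identification of the finite-volume magnetisations with the planted messages, moments of the
posterior mean (statement S0241).
-/
import Crest.Agent.Lib.IT.LinkLaw
import Crest.Agent.Lib.IT.PlantedB
import Crest.Agent.Lib.IT.BP

set_option autoImplicit false

namespace Crest.Agent.Lib.IT

open MeasureTheory ProbabilityTheory SimpleGraph Filter Topology
open scoped ENNReal NNReal
open Crest.Agent.Lib.Loc

variable {V : Type*} {G : SimpleGraph V} [G.LocallyFinite] {k : ℕ} {θ : ℝ} [Countable V]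
  {ν : Measure (V → Bool)} [IsProbabilityMeasure ν]

/-- The observation at a dyadic time. -/
noncomputable abbrev Yt (n j : ℕ) (a : TΩ V) : V → ℝ := fun x => Yobs Prod.fst truthB a x n j

omit [Countable V] in
lemma sg_sq_eq_one (b : Bool) : sg b * sg b = 1 := by
  cases b <;> simp [sg]

omit [Countable V] in
lemma abs_sg_eq_one (b : Bool) : |sg b| = 1 := by
  cases b <;> simp [sg]

omit [Countable V] in
/-- The sign of an agreement bit. -/
lemma sg_agr (σ : V → Bool) (x y : V) : sg (agr σ x y) = sg (σ x) * sg (σ y) := by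
  unfold agr
  cases σ x <;> cases σ y <;> simp [sg]

/-- Moebius sums are odd in the joint sign. -/
lemma mobF_neg {ι : Type*} [Fintype ι] (c : ℝ) (v : ι → ℝ) :
    mobF (-c) (fun i => - v i) = - mobF c v := by
  unfold mobF
  have h1 : ∀ i, 1 + - v i = 1 - v i := fun i => by ring
  have h2 : ∀ i, 1 - - v i = 1 + v i := fun i => by ring
  simp only [h1, h2]
  rw [show 1 + -c = 1 - c by ring, show 1 - -c = 1 + c by ring]
  rw [add_comm ((1 - c) * _), ← neg_div]
  congr 1
  ring

lemma mobF_sg {ι : Type*} [Fintype ι] (b : Bool) (c : ℝ) (v : ι → ℝ) :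
    mobF (sg b * c) (fun i => sg b * v i) = sg b * mobF c v := by
  cases b
  · simp only [sg, Bool.false_eq_true, if_false, neg_mul, one_mul]
    exact mobF_neg c v
  · simp [sg]

section
variable (hT : G.IsTree) (h0 : 0 ≤ θ) (h1 : θ < 1) (hν : IsIsing G θ ν)
include hT h0 h1 hν

/-- The magnetisation on a subtree is the gauged message. -/
theorem MM_subT_eq_msg (S : ChSys G k) {c p : V} (hcp : G.Adj c p) (N n j : ℕ) (a : TΩ V) :
    MM ν (subT G N c p) c (tm n j) (Yt n j a) =
      sg (a.1 c) * msg θ N (Dmap S a.1 (zOf n j a) c p) := by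
  have htanh : ∀ c : V, Real.tanh ((Yt n j a c - tm n j / 2) / 2) =
      sg (a.1 c) * Real.tanh (zOf n j a c) := by
    intro c
    unfold zOf
    cases a.1 c <;> simp [sg, Real.tanh_neg]
  induction N generalizing c p with
  | zero =>
    rw [MM_subT_zero h0 h1 hT hν, htanh c]
    simp [msg]
  | succ N ih =>
    rw [MM_subT_succ h0 h1 hT hν _ _ S hcp N]
    have hkid : ∀ i : Fin k, G.Adj (S.ch c p i) c := fun i => (mem_kids.1 (S.mem hcp i)).1.symm
    have hd : Dmap S a.1 (zOf n j a) c p [] = (agr a.1 c p, zOf n j a c) := by simp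
    have hdi : ∀ i : Fin k, Dmap S a.1 (zOf n j a) c p [i] =
        (agr a.1 (S.ch c p i) c, zOf n j a (S.ch c p i)) := by
      intro i
      simp [Dmap]
    simp only [msg, hd, hdi, shiftD_Dmap]
    rw [htanh c, ← mobF_sg]
    congr 1
    funext i
    rw [ih (hkid i), sg_agr]
    have := sg_sq_eq_one (a.1 c)
    linear_combination (-(θ * sg (a.1 (S.ch c p i)) * msg θ N (Dmap S a.1 (zOf n j a) (S.ch c p i) c))) * this

/-- The magnetisation on a ball is bounded by the magnetisation on the two sides of an edge. -/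
theorem abs_MM_ball_le [DecidableEq V] {c p : V} (hcp : G.Adj c p) (N n j : ℕ) (a : TΩ V) :
    |MM ν (ballF G (N + 1) c) c (tm n j) (Yt n j a)| ≤
      |MM ν (subT G (N + 1) c p) c (tm n j) (Yt n j a)| +
        θ * |MM ν (subT G N p c) p (tm n j) (Yt n j a)| := by
  rw [ballF_eq_union h0 h1 hT hν hcp N, MM_cut_left h0 h1 hT hν _ _ (cutH_ball h0 h1 hT hν hcp N)]
  have hA := abs_MM_le ν (subT G (N + 1) c p) c (tm n j) (Yt n j a)
  have hB := abs_MM_le ν (subT G N p c) p (tm n j) (Yt n j a)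
  have hθB : |θ * MM ν (subT G N p c) p (tm n j) (Yt n j a)| ≤ 1 := by
    rw [abs_mul, abs_of_nonneg h0]
    exact mul_le_one₀ h1.le (abs_nonneg _) hB
  have := abs_mob_le h0 h1 (a := MM ν (subT G (N + 1) c p) c (tm n j) (Yt n j a))
    (b := θ * MM ν (subT G N p c) p (tm n j) (Yt n j a)) hA hθB
  rwa [abs_mul, abs_of_nonneg h0] at this

/-- The spin-scale posterior mean is the limit of the magnetisations on balls. -/
theorem ae_tendsto_MM_ball (z x : V) (n j : ℕ) :
    ∀ᵐ a ∂(truthP ν), Tendsto (fun N => MM ν (ballF G N z) x (tm n j) (Yt n j a)) atTop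
      (𝓝 (mg ν G x n j a)) := by
  have h := ae_tendsto_MtF (truth_spec ν) (goodExh_ballFs (G := G) hT) z x n j
  filter_upwards [h] with a ha
  unfold mg MM
  exact (ha.const_mul 2).sub_const 1

/-- High moments of the posterior mean. -/
theorem moment_mg (hk : 2 ≤ k) (hreg : G.IsRegularOfDegree (k + 1)) (hkθ : (k : ℝ) * θ ^ 2 ≤ 1)
    (i : ℕ) : ∃ C : ℝ, 0 < C ∧ ∀ (x : V) (n j : ℕ), 0 < tm n j → tm n j ≤ 4 →
      ∫ a, mg ν G x n j a ^ (2 * 2 ^ i) ∂(truthP ν) ≤ C * Real.sqrt (tm n j) ^ (2 ^ i) := by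
  classical
  obtain ⟨C, hC, hmom⟩ := moment_msg (k := k) h0 h1 hk hkθ i
  set P : ℕ := 2 * 2 ^ i with hP
  have hP0 : 0 < P := by positivity
  have hPeven : Even P := ⟨2 ^ i, by rw [hP]; ring⟩
  refine ⟨2 ^ P * C, by positivity, fun x n j ht0 ht4 => ?_⟩
  -- a child system and a neighbour
  obtain ⟨k', rfl⟩ : ∃ k', k = k' + 1 := ⟨k - 1, by omega⟩
  obtain ⟨S, -⟩ := exists_chSys (γ := fun _ => x) (r := 0) hT hreg ⟨fun i hi => by omega, fun i hi => by omega⟩
  obtain ⟨q, hq⟩ : ∃ q, G.Adj x q := by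
    have hd : 0 < G.degree x := by rw [hreg x]; omega
    obtain ⟨q, hq⟩ := (G.degree_pos_iff_exists_adj x).1 hd
    exact ⟨q, hq⟩
  set τ := tm n j / 4 with hτ
  have hτ0 : 0 < τ := by positivity
  have hτ1 : τ ≤ 1 := by rw [hτ]; linarith
  have hsq : Real.sqrt τ ≤ Real.sqrt (tm n j) := Real.sqrt_le_sqrt (by rw [hτ]; linarith)
  -- the finite volume integrands
  set f : ℕ → TΩ V → ℝ := fun N a => MM ν (ballF G (N + 1) x) x (tm n j) (Yt n j a) ^ P with hf
  have hYm : Measurable (fun a : TΩ V => Yt n j a) :=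
    measurable_pi_lambda _ fun l => (measurable_pi_apply j).comp ((measurable_pi_apply n).comp
      ((measurable_pi_apply l).comp (truth_spec ν).measurable_Yobs))
  have hMMm : ∀ (F : Finset V) (y : V), Measurable fun a : TΩ V => MM ν F y (tm n j) (Yt n j a) := by
    intro F y
    unfold MM
    exact (((measurable_Mfin ν F y (tm n j)).comp hYm).const_mul 2).sub_const 1
  have hfm : ∀ N, Measurable (f N) := fun N => (hMMm _ _).pow_const P
  have hfb : ∀ N a, |f N a| ≤ 1 := by
    intro N a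
    rw [hf]
    simp only [abs_pow]
    exact pow_le_one₀ (abs_nonneg _) (abs_MM_le ν _ _ _ _)
  have hlim : ∀ᵐ a ∂(truthP ν), Tendsto (fun N => f N a) atTop (𝓝 (mg ν G x n j a ^ P)) := by
    filter_upwards [ae_tendsto_MM_ball hT h0 h1 hν x x n j] with a ha
    exact ((ha.comp (tendsto_add_atTop_nat 1)).pow P)
  have hint : Tendsto (fun N => ∫ a, f N a ∂(truthP ν)) atTop
      (𝓝 (∫ a, mg ν G x n j a ^ P ∂(truthP ν))) := by
    refine tendsto_integral_of_dominated_convergence (fun _ => (1 : ℝ))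
      (fun N => (hfm N).aestronglyMeasurable) (integrable_const _) ?_ hlim
    intro N
    exact Eventually.of_forall fun a => by simpa using hfb N a
  refine le_of_tendsto hint (Eventually.of_forall fun N => ?_)
  -- the bound at fixed depth
  have hmsgm : ∀ N, Measurable (fun d : OmCan (k' + 1) => msg θ N d ^ P) :=
    fun N => (measurable_msg θ N).pow_const P
  have hmap : ∀ (N : ℕ) {c p : V}, G.Adj c p →
      ∫ a, msg θ N (Dmap S a.1 (zOf n j a) c p) ^ P ∂(truthP ν) ≤ C * Real.sqrt τ ^ (2 ^ i) := by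
    intro N c p hcp
    have := hmom τ hτ0 hτ1 N
    rwa [← map_Dmap hT h0 h1 hν S hcp n j,
      integral_map (measurable_Dmap S n j c p).aemeasurable (hmsgm N).aestronglyMeasurable] at this
  have hbdd : ∀ (N : ℕ) (c p : V), Integrable
      (fun a : TΩ V => msg θ N (Dmap S a.1 (zOf n j a) c p) ^ P) (truthP ν) := by
    intro N c p
    have hm : Measurable (fun a : TΩ V => msg θ N (Dmap S a.1 (zOf n j a) c p) ^ P) :=
      (hmsgm N).comp (measurable_Dmap S n j c p)
    refine Integrable.of_bound hm.aestronglyMeasurable 1 (Eventually.of_forall fun a => ?_)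
    rw [Real.norm_eq_abs, abs_pow]
    refine pow_le_one₀ (abs_nonneg _) ?_
    -- |msg| ≤ 1
    exact abs_msg_le h0 h1 N _
  have hpt : ∀ a : TΩ V, f N a ≤ 2 ^ (P - 1) *
      (msg θ (N + 1) (Dmap S a.1 (zOf n j a) x q) ^ P +
        msg θ N (Dmap S a.1 (zOf n j a) q x) ^ P) := by
    intro a
    have hb := abs_MM_ball_le hT h0 h1 hν hq N n j a
    rw [MM_subT_eq_msg hT h0 h1 hν S hq (N + 1) n j a,
      MM_subT_eq_msg hT h0 h1 hν S hq.symm N n j a, abs_mul, abs_mul, abs_sg_eq_one, abs_sg_eq_one,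
      one_mul, one_mul] at hb
    set A := |msg θ (N + 1) (Dmap S a.1 (zOf n j a) x q)| with hA
    set B := |msg θ N (Dmap S a.1 (zOf n j a) q x)| with hB
    have hB0 : 0 ≤ B := abs_nonneg _
    have hA0 : 0 ≤ A := abs_nonneg _
    have hb2 : |MM ν (ballF G (N + 1) x) x (tm n j) (Yt n j a)| ≤ A + B := by
      nlinarith
    have h3 : f N a = |MM ν (ballF G (N + 1) x) x (tm n j) (Yt n j a)| ^ P := by
      rw [hf]; exact (hPeven.pow_abs _).symm
    rw [h3]
    calc _ ≤ (A + B) ^ P := pow_le_pow_left₀ (abs_nonneg _) hb2 P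
      _ ≤ 2 ^ (P - 1) * (A ^ P + B ^ P) := add_pow_le hA0 hB0 P
      _ = _ := by rw [hA, hB, hPeven.pow_abs, hPeven.pow_abs]
  calc ∫ a, f N a ∂(truthP ν)
      ≤ ∫ a, 2 ^ (P - 1) * (msg θ (N + 1) (Dmap S a.1 (zOf n j a) x q) ^ P +
        msg θ N (Dmap S a.1 (zOf n j a) q x) ^ P) ∂(truthP ν) := by
        refine integral_mono ?_ (((hbdd _ _ _).add (hbdd _ _ _)).const_mul _) hpt
        exact Integrable.of_bound (hfm N).aestronglyMeasurable 1
          (Eventually.of_forall fun a => by simpa using hfb N a)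
    _ = 2 ^ (P - 1) * (∫ a, msg θ (N + 1) (Dmap S a.1 (zOf n j a) x q) ^ P ∂(truthP ν) +
        ∫ a, msg θ N (Dmap S a.1 (zOf n j a) q x) ^ P ∂(truthP ν)) := by
        rw [integral_const_mul, integral_add (hbdd _ _ _) (hbdd _ _ _)]
    _ ≤ 2 ^ (P - 1) * (C * Real.sqrt τ ^ (2 ^ i) + C * Real.sqrt τ ^ (2 ^ i)) := by
        gcongr
        · exact hmap _ hq
        · exact hmap _ hq.symm
    _ = 2 ^ P * C * Real.sqrt τ ^ (2 ^ i) := by
        obtain ⟨P', hP'⟩ : ∃ P', P = P' + 1 := ⟨P - 1, by omega⟩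
        rw [hP']
        simp only [Nat.add_sub_cancel, pow_succ]
        ring
    _ ≤ 2 ^ P * C * Real.sqrt (tm n j) ^ (2 ^ i) := by
        gcongr

end

end Crest.Agent.Lib.IT
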