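/-
The path formula for the infinite-volume covariances, bounds on the edge weights (statement S0241).
-/
import Crest.Agent.Lib.IT.LinkMsg

set_option autoImplicit false

namespace Crest.Agent.Lib.IT

open MeasureTheory ProbabilityTheory SimpleGraph Filter Topology
open scoped ENNReal NNReal
open Crest.Agent.Lib.Loc

variable {V : Type*} {G : SimpleGraph V} [G.LocallyFinite] {k : ℕ} {θ : ℝ} [Countable V]
  {ν : Measure (V → Bool)} [IsProbabilityMeasure ν]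

/-- The value of the covariance along a path of length `r` given the magnetisations. -/
noncomputable def pathC (θ : ℝ) (m : ℕ → ℝ) (r : ℕ) : ℝ :=
  θ ^ r * (∏ i ∈ Finset.range (r + 1), (1 - m i ^ 2)) *
    ∏ i ∈ Finset.range r, WW θ (m i) (m (i + 1))

omit [Countable V] in
lemma linkPath_tendsto_WW (h0 : 0 ≤ θ) (h1 : θ < 1) {X Y : ℕ → ℝ} {x y : ℝ}
    (hX : Tendsto X atTop (𝓝 x)) (hY : Tendsto Y atTop (𝓝 y)) (hXb : ∀ N, |X N| ≤ 1)
    (hYb : ∀ N, |Y N| ≤ 1) (hx : |x| ≤ 1) (hy : |y| ≤ 1) :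
    Tendsto (fun N => WW θ (X N) (Y N)) atTop (𝓝 (WW θ x y)) := by
  have hc := (continuousOn_WW h0 h1) (x, y) ⟨hx, hy⟩
  exact hc.tendsto.comp (tendsto_nhdsWithin_iff.2 ⟨hX.prodMk_nhds hY,
    Eventually.of_forall fun N => ⟨hXb N, hYb N⟩⟩)

lemma linkPath_tendsto_gE (h0 : 0 ≤ θ) (h1 : θ < 1) {X Y : ℕ → ℝ} {x y : ℝ}
    (hX : Tendsto X atTop (𝓝 x)) (hY : Tendsto Y atTop (𝓝 y)) (hXb : ∀ N, |X N| ≤ 1)
    (hYb : ∀ N, |Y N| ≤ 1) (hx : |x| ≤ 1) (hy : |y| ≤ 1) :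
    Tendsto (fun N => gE θ (X N) (Y N)) atTop (𝓝 (gE θ x y)) := by
  have hc : Tendsto (fun p : ℝ × ℝ => gE θ p.1 p.2) (𝓝[{p : ℝ × ℝ | |p.1| ≤ 1 ∧ |p.2| ≤ 1}] (x, y))
      (𝓝 (gE θ x y)) := (continuousOn_gE h0 h1) (x, y) ⟨hx, hy⟩
  have h2 : Tendsto (fun N => (X N, Y N)) atTop (𝓝[{p : ℝ × ℝ | |p.1| ≤ 1 ∧ |p.2| ≤ 1}] (x, y)) :=
    tendsto_nhdsWithin_iff.2 ⟨hX.prodMk_nhds hY, Eventually.of_forall fun N => ⟨hXb N, hYb N⟩⟩
  have h3 := hc.comp h2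
  exact h3

/-- The limit of the path formula, deterministic. -/
lemma linkPath_tendsto_pathC (h0 : 0 ≤ θ) (h1 : θ < 1) {m : ℕ → ℕ → ℝ} {m' : ℕ → ℝ}
    (hm : ∀ i, Tendsto (fun N => m N i) atTop (𝓝 (m' i))) (hb : ∀ N i, |m N i| ≤ 1)
    (hb' : ∀ i, |m' i| ≤ 1) (r : ℕ) :
    Tendsto (fun N => pathC θ (m N) r) atTop (𝓝 (pathC θ m' r)) := by
  unfold pathC
  refine Tendsto.mul (Tendsto.mul tendsto_const_nhds ?_) ?_
  · exact tendsto_finsetProd _ fun i _ => tendsto_const_nhds.sub ((hm i).pow 2)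
  · exact tendsto_finsetProd _ fun i _ => linkPath_tendsto_WW h0 h1 (hm i) (hm (i + 1))
      (fun N => hb N i) (fun N => hb N (i + 1)) (hb' i) (hb' (i + 1))

/-- The limit of the bounds for the edge weights, deterministic. -/
lemma linkPath_gE_limit (h0 : 0 ≤ θ) (h1 : θ < 1) {X Y : ℕ → ℝ} {x y : ℝ}
    (hX : Tendsto X atTop (𝓝 x)) (hY : Tendsto Y atTop (𝓝 y)) (hXb : ∀ N, |X N| ≤ 1)
    (hYb : ∀ N, |Y N| ≤ 1) (hx : |x| ≤ 1) (hy : |y| ≤ 1)
    (hpair : ∀ N, gE θ (X N) (Y N) ^ 2 ≤ 1 ∧ gE θ (X N) (Y N) ^ 2 ≤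
      Real.exp (-((1 - θ ^ 2) / 4) * (X N ^ 2 + Y N ^ 2))) :
    gE θ x y ≤ 1 ∧ gE θ x y ^ 2 ≤ Real.exp (-((1 - θ ^ 2) / 4) * (x ^ 2 + y ^ 2)) := by
  have hgE := linkPath_tendsto_gE h0 h1 hX hY hXb hYb hx hy
  have hlim1 : gE θ x y ^ 2 ≤ 1 := le_of_tendsto' (hgE.pow 2) fun N => (hpair N).1
  refine ⟨?_, ?_⟩
  · by_contra hc
    push Not at hc
    nlinarith
  · refine le_of_tendsto_of_tendsto' (hgE.pow 2) ?_ fun N => (hpair N).2
    refine Real.continuous_exp.continuousAt.tendsto.comp ?_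
    exact ((hX.pow 2).add (hY.pow 2)).const_mul _

/-- The cut bounds for the edge weights on a ball. -/
lemma linkPath_pair (hT : G.IsTree) (h0 : 0 ≤ θ) (h1 : θ < 1) (hν : IsIsing G θ ν) {x y : V}
    (hxy : G.Adj x y) (N : ℕ) (t : ℝ) (v : V → ℝ) :
    gE θ (MM ν (ballF G (N + 1) x) x t v) (MM ν (ballF G (N + 1) x) y t v) ^ 2 ≤ 1 ∧
    gE θ (MM ν (ballF G (N + 1) x) x t v) (MM ν (ballF G (N + 1) x) y t v) ^ 2 ≤
      Real.exp (-((1 - θ ^ 2) / 4) * (MM ν (ballF G (N + 1) x) x t v ^ 2 +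
        MM ν (ballF G (N + 1) x) y t v ^ 2)) := by
  classical
  have hAb : |MM ν (subT G (N + 1) x y) x t v| ≤ 1 := abs_MM_le _ _ _ _ _
  have hBb : |MM ν (subT G N y x) y t v| ≤ 1 := abs_MM_le _ _ _ _ _
  have H := cutH_ball h0 h1 hT hν hxy N
  have h3 : MM ν (ballF G (N + 1) x) x t v =
      mob (MM ν (subT G (N + 1) x y) x t v) (θ * MM ν (subT G N y x) y t v) := by
    rw [ballF_eq_union h0 h1 hT hν hxy N]
    exact MM_cut_left h0 h1 hT hν _ _ H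
  have h4 : MM ν (ballF G (N + 1) x) y t v =
      mob (MM ν (subT G N y x) y t v) (θ * MM ν (subT G (N + 1) x y) x t v) := by
    rw [ballF_eq_union h0 h1 hT hν hxy N]
    exact MM_cut_right h0 h1 hT hν _ _ H
  rw [h3, h4]
  refine ⟨?_, gE_decay_pair h0 h1 hAb hBb⟩
  rw [gE_sq_pair h0 h1 hAb hBb]
  exact mul_le_one₀ (PhiF_le_one h0 h1 hAb) (PhiF_nonneg h0 h1 hBb) (PhiF_le_one h0 h1 hBb)

section
variable (hT : G.IsTree) (h0 : 0 ≤ θ) (h1 : θ < 1) (hν : IsIsing G θ ν)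
include hT h0 h1 hν

/-- The path formula in infinite volume. -/
theorem ae_CRT_path (z w : V) (n j : ℕ) :
    ∀ᵐ a ∂(truthP ν), 4 * CRT ν G z w n j a =
      pathC θ (fun i => mg ν G (gp hT z w i) n j a) (G.dist z w) := by
  classical
  have hCR := ae_tendsto_CRtF (truth_spec ν) (goodExh_ballFs hT) z w n j
  have hMM : ∀ᵐ a ∂(truthP ν), ∀ i : ℕ, Tendsto
      (fun N => MM ν (ballF G N z) (gp hT z w i) (tm n j) (Yt n j a)) atTop
      (𝓝 (mg ν G (gp hT z w i) n j a)) :=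
    ae_all_iff.2 fun i => ae_tendsto_MM_ball hT h0 h1 hν z (gp hT z w i) n j
  filter_upwards [hCR, hMM] with a ha hb
  have hlim1 : Tendsto (fun N => 4 * CRtF ν Prod.fst truthB (ballFs G z N) z w n j a) atTop
      (𝓝 (4 * CRT ν G z w n j a)) := ha.const_mul 4
  have hlim2 := linkPath_tendsto_pathC h0 h1
      (m := fun N i => MM ν (ballF G N z) (gp hT z w i) (tm n j) (Yt n j a))
      (m' := fun i => mg ν G (gp hT z w i) n j a) hb
      (fun N i => abs_MM_le _ _ _ _ _) (fun i => abs_mg_le _ _ _ _) (G.dist z w)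
  refine tendsto_nhds_unique (hlim1.congr' ?_) hlim2
  filter_upwards [eventually_ge_atTop (G.dist z w)] with N hN
  have hz : z ∈ ballF G N z := self_mem_ballF hT N z
  have hw : w ∈ ballF G N z := (mem_ballF hT).2 hN
  have := CC_path h0 h1 hT hν (tm n j) (Yt n j a) (isCvx_ball h0 h1 hT hν z N) hz hw
  unfold pathC
  rw [← this]
  rfl

/-- The edge weights are bounded by one, with an exponential decay in the magnetisations. -/
theorem ae_gE_bounds (n j : ℕ) :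
    ∀ᵐ a ∂(truthP ν), ∀ x y : V, G.Adj x y →
      gE θ (mg ν G x n j a) (mg ν G y n j a) ≤ 1 ∧
      gE θ (mg ν G x n j a) (mg ν G y n j a) ^ 2 ≤
        Real.exp (-((1 - θ ^ 2) / 4) * (mg ν G x n j a ^ 2 + mg ν G y n j a ^ 2)) := by
  classical
  rw [ae_all_iff]
  intro x
  rw [ae_all_iff]
  intro y
  by_cases hxy : G.Adj x y
  swap
  · exact Eventually.of_forall fun a h => (hxy h).elim
  filter_upwards [ae_tendsto_MM_ball hT h0 h1 hν x x n j, ae_tendsto_MM_ball hT h0 h1 hν x y n j]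
    with a hx hy _
  exact linkPath_gE_limit h0 h1 ((tendsto_add_atTop_iff_nat 1).2 hx)
    ((tendsto_add_atTop_iff_nat 1).2 hy) (fun N => abs_MM_le _ _ _ _ _)
    (fun N => abs_MM_le _ _ _ _ _) (abs_mg_le _ _ _ _) (abs_mg_le _ _ _ _)
    (fun N => linkPath_pair hT h0 h1 hν hxy N _ _)

end

end Crest.Agent.Lib.IT
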