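/-
Planted recursion, part C: first moments and exponential moments of the Green function.
-/
import Crest.Agent.Lib.IT.PlantedA

set_option autoImplicit false

namespace Crest.Agent.Lib.IT

open MeasureTheory ProbabilityTheory

variable {k : ℕ} {θ τ : ℝ}

/-- The error function of the exponential moment bound. -/
noncomputable def errE (x : ℝ) : ℝ := 16 * Real.sqrt (Real.sqrt x)

/-! ### Elementary lemma on `errE` -/

theorem pc_errE_nonneg (x : ℝ) : 0 ≤ errE x := by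
  unfold errE; positivity

/-- The elementary inequality behind the induction for exponential moments. -/
theorem pc_errE_step {y K : ℝ} (hy : 0 ≤ y) (hK : 2 ≤ K) :
    min 1 (y / K * (1 + errE (y / K))) ≤ errE y - errE (y / K) := by
  have hK0 : 0 < K := by linarith
  have hyK : 0 ≤ y / K := div_nonneg hy hK0.le
  set r := Real.sqrt (Real.sqrt y) with hr
  set s := Real.sqrt (Real.sqrt (y / K)) with hs
  have hr0 : 0 ≤ r := Real.sqrt_nonneg _
  have hs0 : 0 ≤ s := Real.sqrt_nonneg _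
  have hr4 : r ^ 4 = y := by
    have h2 : r ^ 2 = Real.sqrt y := Real.sq_sqrt (Real.sqrt_nonneg _)
    calc r ^ 4 = (r ^ 2) ^ 2 := by ring
      _ = Real.sqrt y ^ 2 := by rw [h2]
      _ = y := Real.sq_sqrt hy
  have hs4 : s ^ 4 = y / K := by
    have h2 : s ^ 2 = Real.sqrt (y / K) := Real.sq_sqrt (Real.sqrt_nonneg _)
    calc s ^ 4 = (s ^ 2) ^ 2 := by ring
      _ = Real.sqrt (y / K) ^ 2 := by rw [h2]
      _ = y / K := Real.sq_sqrt hyK
  have hss : s ^ 4 * 2 ≤ r ^ 4 := by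
    rw [hr4, hs4]
    rw [div_mul_eq_mul_div, div_le_iff₀ hK0]
    nlinarith
  have hs_le : s ≤ 6 / 7 * r := by
    apply le_of_pow_le_pow_left₀ (n := 4) (by norm_num) (by positivity)
    have hr4' : 0 ≤ r ^ 4 := by positivity
    have : (6 / 7 * r) ^ 4 = (1296 / 2401) * r ^ 4 := by ring
    rw [this]
    nlinarith
  have e1 : errE y = 16 * r := rfl
  have e2 : errE (y / K) = 16 * s := rfl
  rw [e1, e2]
  by_cases hr' : 7 / 16 ≤ r
  · apply (min_le_left _ _).trans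
    nlinarith
  · push Not at hr'
    apply (min_le_right _ _).trans
    rw [← hs4]
    have hs1 : s ≤ 1 := by nlinarith
    have h17 : 1 + 16 * s ≤ 17 := by nlinarith
    have hr3 : r ^ 3 ≤ (7 / 16) ^ 3 := pow_le_pow_left₀ hr0 hr'.le 3
    calc s ^ 4 * (1 + 16 * s) ≤ s ^ 4 * 17 := by
          apply mul_le_mul_of_nonneg_left h17; positivity
      _ ≤ (r ^ 4 / 2) * 17 := by nlinarith
      _ = (17 / 2) * (r ^ 3 * r) := by ring
      _ ≤ (17 / 2) * ((7 / 16) ^ 3 * r) := by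
          apply mul_le_mul_of_nonneg_left _ (by norm_num)
          exact mul_le_mul_of_nonneg_right hr3 hr0
      _ ≤ 16 * r - 16 * s := by
          norm_num
          nlinarith

/-- The real-variable step of the exponential moment bound. -/
theorem pc_mgf_real_step {K : ℕ} (hK : 2 ≤ K) {lam τb τl ζ M : ℝ} (hlam : 0 ≤ lam) (hτb1 : 1 ≤ τb)
    (hτl1 : 1 ≤ τl) (hτl : τl ≤ τb) (hζ1 : ζ ≤ 1) (hM0 : 0 ≤ M)
    (hM : M ≤ Real.exp (lam / K * (τl + errE (lam / K * τb))) - lam / K * ζ) :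
    Real.exp lam * M ^ K ≤ Real.exp (lam * (τl + 1 - ζ + errE (lam * τb))) := by
  have hK' : (2 : ℝ) ≤ K := by exact_mod_cast hK
  have hK0 : (0 : ℝ) < K := by linarith
  set μ := lam / K with hμ
  have hμ0 : 0 ≤ μ := div_nonneg hlam hK0.le
  have hμK : (K : ℝ) * μ = lam := by rw [hμ]; field_simp
  set e₁ := errE (μ * τb) with he₁
  have he₁0 : 0 ≤ e₁ := pc_errE_nonneg _
  set A := μ * (τl + e₁) with hA
  have hA0 : 0 ≤ A := mul_nonneg hμ0 (by linarith)
  -- `M ≤ exp (A - μ ζ exp (-A))`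
  have h1 : M ≤ Real.exp (A - μ * ζ * Real.exp (-A)) := by
    have h2 : 1 - μ * ζ * Real.exp (-A) ≤ Real.exp (-(μ * ζ * Real.exp (-A))) := by
      have := Real.add_one_le_exp (-(μ * ζ * Real.exp (-A)))
      linarith
    have h3 : Real.exp A * (1 - μ * ζ * Real.exp (-A)) = Real.exp A - μ * ζ := by
      have : Real.exp A * Real.exp (-A) = 1 := by rw [← Real.exp_add]; simp
      calc Real.exp A * (1 - μ * ζ * Real.exp (-A))
          = Real.exp A - μ * ζ * (Real.exp A * Real.exp (-A)) := by ring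
        _ = Real.exp A - μ * ζ := by rw [this]; ring
    calc M ≤ Real.exp A - μ * ζ := hM
      _ = Real.exp A * (1 - μ * ζ * Real.exp (-A)) := h3.symm
      _ ≤ Real.exp A * Real.exp (-(μ * ζ * Real.exp (-A))) :=
          mul_le_mul_of_nonneg_left h2 (Real.exp_pos _).le
      _ = Real.exp (A - μ * ζ * Real.exp (-A)) := by rw [← Real.exp_add]; ring_nf
  -- `k`-th power
  have h4 : M ^ K ≤ Real.exp (K * (A - μ * ζ * Real.exp (-A))) := by
    rw [Real.exp_nat_mul]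
    exact pow_le_pow_left₀ hM0 h1 K
  have h5 : Real.exp lam * M ^ K ≤ Real.exp (lam + K * (A - μ * ζ * Real.exp (-A))) := by
    rw [Real.exp_add]
    exact mul_le_mul_of_nonneg_left h4 (Real.exp_pos _).le
  refine h5.trans (Real.exp_le_exp.mpr ?_)
  -- the numerical inequality
  have h6 : (K : ℝ) * (A - μ * ζ * Real.exp (-A)) = lam * (τl + e₁) - lam * ζ * Real.exp (-A) := by
    rw [hA]
    calc (K : ℝ) * (μ * (τl + e₁) - μ * ζ * Real.exp (-A))
        = ((K : ℝ) * μ) * (τl + e₁) - ((K : ℝ) * μ) * ζ * Real.exp (-A) := by ring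
      _ = _ := by rw [hμK]
  rw [h6]
  -- `ζ (1 - exp (-A)) ≤ errE (lam τb) - errE (μ τb)`
  have hy : 0 ≤ lam * τb := mul_nonneg hlam (by linarith)
  have hey : μ * τb = lam * τb / K := by rw [hμ]; ring
  have hmain := pc_errE_step hy hK'
  rw [← hey, ← he₁] at hmain
  have h7 : 1 - Real.exp (-A) ≤ min 1 (μ * τb * (1 + e₁)) := by
    apply le_min
    · have := Real.exp_pos (-A); linarith
    · have h8 := Real.add_one_le_exp (-A)
      have h9 : A ≤ μ * τb * (1 + e₁) := by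
        rw [hA]
        have : τl + e₁ ≤ τb * (1 + e₁) := by nlinarith
        calc μ * (τl + e₁) ≤ μ * (τb * (1 + e₁)) := mul_le_mul_of_nonneg_left this hμ0
          _ = μ * τb * (1 + e₁) := by ring
      linarith
  have h10 : 0 ≤ 1 - Real.exp (-A) := by
    have : Real.exp (-A) ≤ 1 := Real.exp_le_one_iff.mpr (by linarith)
    linarith
  have h11 : ζ * (1 - Real.exp (-A)) ≤ errE (lam * τb) - e₁ :=
    calc ζ * (1 - Real.exp (-A)) ≤ 1 * (1 - Real.exp (-A)) :=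
          mul_le_mul_of_nonneg_right hζ1 h10
      _ = 1 - Real.exp (-A) := one_mul _
      _ ≤ _ := h7.trans hmain
  have h12 := mul_le_mul_of_nonneg_left h11 hlam
  nlinarith

/-! ### Measure-theoretic helpers -/

theorem pc_measurable_shiftD' (i : Fin k) : Measurable (shiftD (k := k) i) :=
  measurable_pi_lambda _ (fun _ => measurable_pi_apply _)

theorem pc_measurable_PhiF' (θ : ℝ) : Measurable (PhiF θ) := by
  unfold PhiF; fun_prop

theorem pc_measurable_sqrtPhi (θ : ℝ) (N : ℕ) :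
    Measurable (fun d : OmCan k => Real.sqrt (PhiF θ (msg θ N d))) :=
  ((pc_measurable_PhiF' θ).comp (measurable_msg θ N)).sqrt

theorem pc_Tg_zero' (N : ℕ) (d : OmCan k) : Tg θ N 0 d = 1 := rfl

theorem pc_Tg_succ' (N ℓ : ℕ) (d : OmCan k) : Tg θ N (ℓ + 1) d = 1 + θ ^ 2 * ∑ i : Fin k,
    Real.sqrt (PhiF θ (msg θ N (shiftD i d))) * Tg θ N ℓ (shiftD i d) := rfl

theorem pc_LvF_zero' (N : ℕ) (d : OmCan k) : LvF θ 0 N d = 1 := rfl

theorem pc_LvF_succ' (N ℓ : ℕ) (d : OmCan k) : LvF θ (ℓ + 1) N d = θ ^ 2 * ∑ i : Fin k,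
    Real.sqrt (PhiF θ (msg θ (N - 1) (shiftD i d))) * LvF θ ℓ (N - 1) (shiftD i d) := rfl

theorem pc_measurable_Tg (θ : ℝ) (N ℓ : ℕ) : Measurable (Tg (k := k) θ N ℓ) := by
  induction ℓ with
  | zero => exact measurable_const
  | succ ℓ ih =>
    have : Tg (k := k) θ N (ℓ + 1) = fun d => 1 + θ ^ 2 * ∑ i : Fin k,
      Real.sqrt (PhiF θ (msg θ N (shiftD i d))) * Tg θ N ℓ (shiftD i d) := rfl
    rw [this]
    refine measurable_const.add (measurable_const.mul (Finset.measurable_sum _ fun i _ => ?_))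
    exact ((pc_measurable_sqrtPhi θ N).comp (pc_measurable_shiftD' i)).mul (ih.comp (pc_measurable_shiftD' i))

theorem pc_measurable_LvF (θ : ℝ) (ℓ N : ℕ) : Measurable (LvF (k := k) θ ℓ N) := by
  induction ℓ generalizing N with
  | zero => exact measurable_const
  | succ ℓ ih =>
    have : LvF (k := k) θ (ℓ + 1) N = fun d => θ ^ 2 * ∑ i : Fin k,
      Real.sqrt (PhiF θ (msg θ (N - 1) (shiftD i d))) * LvF θ ℓ (N - 1) (shiftD i d) := rfl
    rw [this]
    refine measurable_const.mul (Finset.measurable_sum _ fun i _ => ?_)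
    exact ((pc_measurable_sqrtPhi θ (N - 1)).comp (pc_measurable_shiftD' i)).mul
      ((ih (N - 1)).comp (pc_measurable_shiftD' i))

section
variable (h0 : 0 ≤ θ) (h1 : θ < 1)
include h0 h1

theorem pc_sqrtPhi_le_one (N : ℕ) (d : OmCan k) : Real.sqrt (PhiF θ (msg θ N d)) ≤ 1 :=
  Real.sqrt_le_one.mpr (PhiF_le_one h0 h1 (abs_msg_le h0 h1 N d))

/-- The law of the subtrees. -/
theorem pc_Pcan_map_children :
    (Pcan k θ τ).map (fun d => fun i : Fin k => shiftD i d) =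
      Measure.pi (fun _ : Fin k => Pcan k θ τ) := by
  have := isProb_rhoX (τ := τ) h0 h1
  have := isProb_Pcan (k := k) (τ := τ) h0 h1
  have hm : Measurable (fun d : OmCan k => (d [], fun i : Fin k => shiftD i d)) :=
    (measurable_pi_apply _).prodMk (measurable_pi_lambda _ fun i => pc_measurable_shiftD' i)
  have h2 := Pcan_map_split (k := k) (τ := τ) h0 h1
  have h3 := congrArg (Measure.map Prod.snd) h2
  rw [Measure.map_map measurable_snd hm, Measure.map_snd_prod] at h3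
  simpa [Function.comp_def] using h3

theorem pc_Pcan_map_shiftD (i : Fin k) : (Pcan k θ τ).map (shiftD i) = Pcan k θ τ := by
  have := isProb_Pcan (k := k) (τ := τ) h0 h1
  have hm : Measurable (fun d : OmCan k => fun i : Fin k => shiftD i d) :=
    measurable_pi_lambda _ fun i => pc_measurable_shiftD' i
  have h3 := congrArg (Measure.map (Function.eval i)) (pc_Pcan_map_children (k := k) (τ := τ) h0 h1)
  rw [Measure.map_map (measurable_pi_apply i) hm,
    (measurePreserving_eval (fun _ : Fin k => Pcan k θ τ) i).map_eq] at h3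
  exact h3

theorem pc_integral_shiftD (i : Fin k) {f : OmCan k → ℝ} (hf : Measurable f) :
    ∫ d, f (shiftD i d) ∂(Pcan k θ τ) = ∫ d, f d ∂(Pcan k θ τ) := by
  conv_rhs => rw [← pc_Pcan_map_shiftD (k := k) (τ := τ) h0 h1 i]
  rw [integral_map (pc_measurable_shiftD' i).aemeasurable hf.aestronglyMeasurable]

theorem pc_integral_prod_shiftD {g : OmCan k → ℝ} (hg : Measurable g) :
    ∫ d, ∏ i : Fin k, g (shiftD i d) ∂(Pcan k θ τ) = (∫ d, g d ∂(Pcan k θ τ)) ^ k := by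
  have := isProb_Pcan (k := k) (τ := τ) h0 h1
  have hm : Measurable (fun d : OmCan k => fun i : Fin k => shiftD i d) :=
    measurable_pi_lambda _ fun i => pc_measurable_shiftD' i
  have h := integral_fintype_prod_eq_pow (ι := Fin k) (μ := Pcan k θ τ) g
  rw [← pc_Pcan_map_children (k := k) (τ := τ) h0 h1, integral_map hm.aemeasurable] at h
  · simpa using h
  · exact (Finset.measurable_prod _ fun i _ => hg.comp (measurable_pi_apply i)).aestronglyMeasurable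

theorem pc_integrable_of_abs_le {f : OmCan k → ℝ} (hf : Measurable f) (C : ℝ) (hC : ∀ d, |f d| ≤ C) :
    Integrable f (Pcan k θ τ) := by
  have := isProb_Pcan (k := k) (τ := τ) h0 h1
  exact Integrable.of_bound hf.aestronglyMeasurable C (Filter.Eventually.of_forall hC)

theorem pc_integrable_of_bdd {f : OmCan k → ℝ} (hf : Measurable f) (C : ℝ) (hf0 : ∀ d, 0 ≤ f d)
    (hC : ∀ d, f d ≤ C) : Integrable f (Pcan k θ τ) :=
  pc_integrable_of_abs_le h0 h1 hf C (fun d => by rw [abs_of_nonneg (hf0 d)]; exact hC d)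

/-- Integral of a sum over children. -/
theorem pc_integral_sum_shiftD (c : ℝ) {H : OmCan k → ℝ} (hH : Measurable H) (C : ℝ)
    (hC : ∀ d, |H d| ≤ C) :
    ∫ d, c * ∑ j : Fin k, H (shiftD j d) ∂(Pcan k θ τ) = k * c * ∫ d, H d ∂(Pcan k θ τ) := by
  rw [integral_const_mul, integral_finsetSum]
  · simp_rw [pc_integral_shiftD (k := k) (τ := τ) h0 h1 _ hH]
    simp
    ring
  · intro j _
    exact pc_integrable_of_abs_le h0 h1 (hH.comp (pc_measurable_shiftD' j)) C (fun d => hC _)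

theorem pc_xN_le_one (N : ℕ) : xN k θ τ N ≤ 1 := by
  have := isProb_Pcan (k := k) (τ := τ) h0 h1
  unfold xN
  have hm : Measurable (fun d : OmCan k => msg θ N d ^ 2) := (measurable_msg θ N).pow_const 2
  have hb : ∀ d : OmCan k, msg θ N d ^ 2 ≤ 1 := fun d => by
    have := abs_msg_le h0 h1 N d
    rw [← sq_abs]
    exact pow_le_one₀ (abs_nonneg _) this
  calc ∫ d, msg θ N d ^ 2 ∂(Pcan k θ τ) ≤ ∫ _, (1 : ℝ) ∂(Pcan k θ τ) :=
        integral_mono (pc_integrable_of_bdd h0 h1 hm 1 (fun _ => by positivity) hb)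
          (integrable_const _) hb
    _ = 1 := by simp

theorem pc_kill_le_half {x : ℝ} (hx : x ≤ 1) : kill θ x ≤ 1 / 2 := by
  unfold kill
  have h2 : 0 ≤ 1 - θ ^ 2 := by nlinarith
  have h3 : (1 - θ) / (1 + θ) ^ 2 ≤ 1 := by
    rw [div_le_one (by positivity)]
    nlinarith
  have h4 : 0 ≤ (1 - θ) / (1 + θ) ^ 2 := by
    apply div_nonneg (by linarith) (by positivity)
  have h5 : θ ^ 2 ≤ 1 := by nlinarith
  have h6 : 1 - θ ^ 2 ≤ 1 := by nlinarith
  have h7 : (1 - θ ^ 2) * ((1 - θ) / (1 + θ) ^ 2) ≤ 1 := by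
    calc _ ≤ 1 * 1 := mul_le_mul h6 h3 h4 (by norm_num)
      _ = 1 := by norm_num
  have h8 : 0 ≤ (1 - θ ^ 2) * ((1 - θ) / (1 + θ) ^ 2) := mul_nonneg h2 h4
  have h9 : θ ^ 2 * x ≤ 1 := by
    by_cases hx0 : 0 ≤ x
    · nlinarith
    · push Not at hx0
      nlinarith [sq_nonneg θ]
  have h10 : (1 - θ ^ 2) * ((1 - θ) / (1 + θ) ^ 2) * (θ ^ 2 * x) ≤ 1 := by
    by_cases hx0 : 0 ≤ θ ^ 2 * x
    · calc _ ≤ 1 * 1 := mul_le_mul h7 h9 hx0 (by norm_num)
        _ = 1 := by norm_num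
    · push Not at hx0
      have : (1 - θ ^ 2) * ((1 - θ) / (1 + θ) ^ 2) * (θ ^ 2 * x) ≤ 0 :=
        mul_nonpos_of_nonneg_of_nonpos h8 hx0.le
      linarith
  calc 1 / 2 * (1 - θ ^ 2) * ((1 - θ) / (1 + θ) ^ 2) * (θ ^ 2 * x)
      = 1 / 2 * ((1 - θ ^ 2) * ((1 - θ) / (1 + θ) ^ 2) * (θ ^ 2 * x)) := by ring
    _ ≤ 1 / 2 := by linarith

theorem pc_kill_mono {x y : ℝ} (hxy : x ≤ y) : kill θ x ≤ kill θ y := by
  unfold kill
  have h2 : 0 ≤ 1 - θ ^ 2 := by nlinarith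
  have h4 : 0 ≤ (1 - θ) / (1 + θ) ^ 2 := by
    apply div_nonneg (by linarith) (by positivity)
  apply mul_le_mul_of_nonneg_left
  · exact mul_le_mul_of_nonneg_left hxy (by positivity)
  · positivity

end

section
variable (h0 : 0 ≤ θ) (h1 : θ < 1) (hk : 2 ≤ k) (hkθ : (k : ℝ) * θ ^ 2 ≤ 1) (hτ : 0 < τ)

section
include h0 h1 hkθ

theorem pc_sum_sqrtPhi_le {H : OmCan k → ℝ} {C : ℝ} (hC0 : 0 ≤ C) (hH0 : ∀ d, 0 ≤ H d)
    (hC : ∀ d, H d ≤ C) (N : ℕ) (d : OmCan k) :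
    θ ^ 2 * ∑ i : Fin k, Real.sqrt (PhiF θ (msg θ N (shiftD i d))) * H (shiftD i d) ≤ C := by
  have h2 : ∑ i : Fin k, Real.sqrt (PhiF θ (msg θ N (shiftD i d))) * H (shiftD i d) ≤ k * C := by
    calc _ ≤ ∑ i : Fin k, C := by
          apply Finset.sum_le_sum
          intro i _
          calc _ ≤ 1 * C := mul_le_mul (pc_sqrtPhi_le_one h0 h1 N _) (hC _) (hH0 _) (by norm_num)
            _ = C := one_mul _
      _ = k * C := by simp
  calc θ ^ 2 * _ ≤ θ ^ 2 * (k * C) := mul_le_mul_of_nonneg_left h2 (by positivity)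
    _ = ((k : ℝ) * θ ^ 2) * C := by ring
    _ ≤ 1 * C := mul_le_mul_of_nonneg_right hkθ hC0
    _ = C := one_mul _

theorem pc_one_le_Tg (N ℓ : ℕ) (d : OmCan k) : 1 ≤ Tg θ N ℓ d := by
  induction ℓ generalizing d with
  | zero => exact le_refl _
  | succ ℓ ih =>
    rw [pc_Tg_succ']
    have : 0 ≤ θ ^ 2 * ∑ i : Fin k, Real.sqrt (PhiF θ (msg θ N (shiftD i d))) * Tg θ N ℓ (shiftD i d) := by
      apply mul_nonneg (by positivity)
      apply Finset.sum_nonneg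
      intro i _
      exact mul_nonneg (Real.sqrt_nonneg _) (by linarith [ih (shiftD i d)])
    linarith

theorem pc_Tg_le (N ℓ : ℕ) (d : OmCan k) : Tg θ N ℓ d ≤ ℓ + 1 := by
  induction ℓ generalizing d with
  | zero => rw [pc_Tg_zero']; norm_num
  | succ ℓ ih =>
    rw [pc_Tg_succ']
    have := pc_sum_sqrtPhi_le h0 h1 hkθ (H := Tg θ N ℓ) (C := (ℓ : ℝ) + 1) (by positivity)
      (fun d => by linarith [pc_one_le_Tg h0 h1 hkθ N ℓ d]) ih N d
    push_cast
    linarith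

theorem pc_Tg_mono (N ℓ : ℕ) (d : OmCan k) : Tg θ N ℓ d ≤ Tg θ N (ℓ + 1) d := by
  induction ℓ generalizing d with
  | zero =>
    rw [pc_Tg_succ', pc_Tg_zero']
    have : 0 ≤ θ ^ 2 * ∑ i : Fin k, Real.sqrt (PhiF θ (msg θ N (shiftD i d))) * Tg θ N 0 (shiftD i d) := by
      apply mul_nonneg (by positivity)
      apply Finset.sum_nonneg
      intro i _
      exact mul_nonneg (Real.sqrt_nonneg _) (by linarith [pc_one_le_Tg h0 h1 hkθ N 0 (shiftD i d)])
    linarith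
  | succ ℓ ih =>
    rw [pc_Tg_succ' N ℓ d, pc_Tg_succ' N (ℓ + 1) d]
    have : ∑ i : Fin k, Real.sqrt (PhiF θ (msg θ N (shiftD i d))) * Tg θ N ℓ (shiftD i d) ≤
        ∑ i : Fin k, Real.sqrt (PhiF θ (msg θ N (shiftD i d))) * Tg θ N (ℓ + 1) (shiftD i d) :=
      Finset.sum_le_sum fun i _ => mul_le_mul_of_nonneg_left (ih _) (Real.sqrt_nonneg _)
    have := mul_le_mul_of_nonneg_left this (sq_nonneg θ)
    linarith

theorem pc_integrable_Tg (N ℓ : ℕ) : Integrable (Tg (k := k) θ N ℓ) (Pcan k θ τ) :=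
  pc_integrable_of_bdd h0 h1 (pc_measurable_Tg θ N ℓ) ((ℓ : ℝ) + 1)
    (fun d => by linarith [pc_one_le_Tg h0 h1 hkθ N ℓ d]) (pc_Tg_le h0 h1 hkθ N ℓ)

theorem pc_one_le_integral_Tg (N ℓ : ℕ) : 1 ≤ ∫ d, Tg θ N ℓ d ∂(Pcan k θ τ) := by
  have := isProb_Pcan (k := k) (τ := τ) h0 h1
  calc (1 : ℝ) = ∫ _, (1 : ℝ) ∂(Pcan k θ τ) := by simp
    _ ≤ _ := integral_mono (integrable_const _) (pc_integrable_Tg h0 h1 hkθ N ℓ)
        (pc_one_le_Tg h0 h1 hkθ N ℓ)

end

/-! ### The levels -/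

/-- The level of the Green function. -/
noncomputable def pc_levP (θ : ℝ) (N : ℕ) : ℕ → OmCan k → ℝ
  | 0, _ => 1
  | ℓ + 1, d => θ ^ 2 * ∑ i : Fin k,
      Real.sqrt (PhiF θ (msg θ N (shiftD i d))) * pc_levP θ N ℓ (shiftD i d)

theorem pc_levP_succ (N ℓ : ℕ) (d : OmCan k) : pc_levP θ N (ℓ + 1) d = θ ^ 2 * ∑ i : Fin k,
      Real.sqrt (PhiF θ (msg θ N (shiftD i d))) * pc_levP θ N ℓ (shiftD i d) := rfl

theorem pc_Tg_sub_eq (N ℓ : ℕ) (d : OmCan k) : Tg θ N (ℓ + 1) d - Tg θ N ℓ d = pc_levP θ N (ℓ + 1) d := by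
  induction ℓ generalizing d with
  | zero =>
    rw [pc_Tg_succ', pc_levP_succ, pc_Tg_zero']
    simp only [pc_Tg_zero', pc_levP]
    ring
  | succ ℓ ih =>
    rw [pc_Tg_succ' N (ℓ + 1) d, pc_Tg_succ' N ℓ d, pc_levP_succ]
    simp_rw [← ih]
    rw [add_sub_add_left_eq_sub, ← mul_sub, ← Finset.sum_sub_distrib]
    congr 1
    apply Finset.sum_congr rfl
    intro i _
    ring

theorem pc_measurable_levP (θ : ℝ) (N ℓ : ℕ) : Measurable (pc_levP (k := k) θ N ℓ) := by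
  induction ℓ with
  | zero => exact measurable_const
  | succ ℓ ih =>
    have : pc_levP (k := k) θ N (ℓ + 1) = fun d => θ ^ 2 * ∑ i : Fin k,
      Real.sqrt (PhiF θ (msg θ N (shiftD i d))) * pc_levP θ N ℓ (shiftD i d) := rfl
    rw [this]
    refine measurable_const.mul (Finset.measurable_sum _ fun i _ => ?_)
    exact ((pc_measurable_sqrtPhi θ N).comp (pc_measurable_shiftD' i)).mul (ih.comp (pc_measurable_shiftD' i))

section
include h0 h1 hkθ

theorem pc_levP_nonneg (N ℓ : ℕ) (d : OmCan k) : 0 ≤ pc_levP θ N ℓ d := by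
  induction ℓ generalizing d with
  | zero => exact zero_le_one
  | succ ℓ ih =>
    rw [pc_levP_succ]
    apply mul_nonneg (by positivity)
    exact Finset.sum_nonneg fun i _ => mul_nonneg (Real.sqrt_nonneg _) (ih _)

theorem pc_levP_le_one (N ℓ : ℕ) (d : OmCan k) : pc_levP θ N ℓ d ≤ 1 := by
  induction ℓ generalizing d with
  | zero => exact le_refl _
  | succ ℓ ih =>
    rw [pc_levP_succ]
    exact pc_sum_sqrtPhi_le h0 h1 hkθ zero_le_one (pc_levP_nonneg h0 h1 hkθ N ℓ) ih N d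

/-- Bounds for `LvF`. -/
theorem pc_LvF_nonneg (ℓ N : ℕ) (d : OmCan k) : 0 ≤ LvF θ ℓ N d := by
  induction ℓ generalizing d N with
  | zero => exact zero_le_one
  | succ ℓ ih =>
    rw [pc_LvF_succ']
    apply mul_nonneg (by positivity)
    exact Finset.sum_nonneg fun i _ => mul_nonneg (Real.sqrt_nonneg _) (ih _ _)

theorem pc_LvF_le_one (ℓ N : ℕ) (d : OmCan k) : LvF θ ℓ N d ≤ 1 := by
  induction ℓ generalizing d N with
  | zero => exact le_refl _
  | succ ℓ ih =>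
    rw [pc_LvF_succ']
    exact pc_sum_sqrtPhi_le h0 h1 hkθ zero_le_one (pc_LvF_nonneg h0 h1 hkθ ℓ (N - 1)) (ih (N - 1)) (N - 1) d

end

section
include h0 h1 hk hτ

/-- The killing step, with a sum over children. -/
theorem pc_step_killing (N : ℕ) {H : OmCan k → ℝ} (hH : Measurable H) (hH0 : ∀ d, 0 ≤ H d) (C : ℝ)
    (hC : ∀ d, H d ≤ C) :
    ∫ d, Real.sqrt (PhiF θ (msg θ (N + 1) d)) * (θ ^ 2 * ∑ j : Fin k, H (shiftD j d)) ∂(Pcan k θ τ) ≤
      (k : ℝ) * θ ^ 2 * (1 - kill θ (xN k θ τ N)) * ∫ d, H d ∂(Pcan k θ τ) := by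
  have e : ∀ d : OmCan k, Real.sqrt (PhiF θ (msg θ (N + 1) d)) * (θ ^ 2 * ∑ j : Fin k, H (shiftD j d)) =
      θ ^ 2 * ∑ j : Fin k, (Real.sqrt (PhiF θ (msg θ (N + 1) d)) * H (shiftD j d)) := by
    intro d
    rw [← Finset.mul_sum]
    ring
  simp_rw [e]
  rw [integral_const_mul, integral_finsetSum]
  · calc θ ^ 2 * ∑ j : Fin k, ∫ d, Real.sqrt (PhiF θ (msg θ (N + 1) d)) * H (shiftD j d) ∂(Pcan k θ τ)
        ≤ θ ^ 2 * ∑ j : Fin k, ((1 - kill θ (xN k θ τ N)) * ∫ d, H d ∂(Pcan k θ τ)) := by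
          apply mul_le_mul_of_nonneg_left _ (sq_nonneg θ)
          apply Finset.sum_le_sum
          intro j _
          exact killing h0 h1 hk hτ N j H hH hH0 C hC
      _ = _ := by
          simp only [Finset.sum_const, Finset.card_univ, Fintype.card_fin, nsmul_eq_mul]
          ring
  · intro j _
    refine pc_integrable_of_bdd h0 h1 ?_ C ?_ ?_
    · exact (pc_measurable_sqrtPhi θ (N + 1)).mul (hH.comp (pc_measurable_shiftD' j))
    · exact fun d => mul_nonneg (Real.sqrt_nonneg _) (hH0 _)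
    · intro d
      calc _ ≤ 1 * C := mul_le_mul (pc_sqrtPhi_le_one h0 h1 _ _) (hC _) (hH0 _) (by norm_num)
        _ = C := one_mul _

end

section
include h0 h1 hk hkθ hτ

/-- `Λ_ℓ ≤ β^ℓ`. -/
theorem pc_Lam_le {N : ℕ} (ℓ : ℕ) :
    ∫ d, Real.sqrt (PhiF θ (msg θ (N + 1) d)) * pc_levP θ (N + 1) ℓ d ∂(Pcan k θ τ) ≤
      ((k : ℝ) * θ ^ 2 * (1 - kill θ (xN k θ τ N))) ^ ℓ := by
  have := isProb_Pcan (k := k) (τ := τ) h0 h1
  have hβ0 : 0 ≤ (k : ℝ) * θ ^ 2 * (1 - kill θ (xN k θ τ N)) := by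
    have := pc_kill_le_half h0 h1 (pc_xN_le_one (k := k) (τ := τ) h0 h1 N)
    apply mul_nonneg (by positivity) (by linarith)
  induction ℓ with
  | zero =>
    have hb : ∀ d : OmCan k, Real.sqrt (PhiF θ (msg θ (N + 1) d)) * pc_levP θ (N + 1) 0 d ≤ 1 := by
      intro d
      simp only [pc_levP, mul_one]
      exact pc_sqrtPhi_le_one h0 h1 _ _
    calc _ ≤ ∫ _, (1 : ℝ) ∂(Pcan k θ τ) := by
          apply integral_mono _ (integrable_const _) hb
          refine pc_integrable_of_bdd h0 h1 ?_ 1 ?_ hb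
          · exact (pc_measurable_sqrtPhi θ (N + 1)).mul (pc_measurable_levP θ (N + 1) 0)
          · exact fun d => mul_nonneg (Real.sqrt_nonneg _) (pc_levP_nonneg h0 h1 hkθ _ _ _)
      _ = _ := by simp
  | succ ℓ ih =>
    set H : OmCan k → ℝ := fun d => Real.sqrt (PhiF θ (msg θ (N + 1) d)) * pc_levP θ (N + 1) ℓ d with hHdef
    have hHm : Measurable H := (pc_measurable_sqrtPhi θ (N + 1)).mul (pc_measurable_levP θ (N + 1) ℓ)
    have hH0 : ∀ d, 0 ≤ H d := fun d => mul_nonneg (Real.sqrt_nonneg _) (pc_levP_nonneg h0 h1 hkθ _ _ _)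
    have hH1 : ∀ d, H d ≤ 1 := fun d => by
      calc H d ≤ 1 * 1 := mul_le_mul (pc_sqrtPhi_le_one h0 h1 _ _) (pc_levP_le_one h0 h1 hkθ _ _ _)
            (pc_levP_nonneg h0 h1 hkθ _ _ _) (by norm_num)
        _ = 1 := one_mul _
    have e : ∀ d : OmCan k, pc_levP θ (N + 1) (ℓ + 1) d = θ ^ 2 * ∑ j : Fin k, H (shiftD j d) := fun d => rfl
    simp_rw [e]
    refine (pc_step_killing h0 h1 hk hτ N hHm hH0 1 hH1).trans ?_
    rw [pow_succ' _ ℓ]
    exact mul_le_mul_of_nonneg_left ih hβ0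

/-- First moment of the levels of the Green function; `β = k θ² (1 - kill θ x)`, when all the
messages of depth `N` have second moment at least `x` at depth `N - 1`. -/
theorem Tg_level_le {N : ℕ} (ℓ : ℕ) :
    ∫ d, (Tg θ (N + 1) (ℓ + 1) d - Tg θ (N + 1) ℓ d) ∂(Pcan k θ τ) ≤
      ((k : ℝ) * θ ^ 2 * (1 - kill θ (xN k θ τ N))) ^ ℓ := by
  have hβ0 : 0 ≤ (k : ℝ) * θ ^ 2 * (1 - kill θ (xN k θ τ N)) := by
    have := pc_kill_le_half h0 h1 (pc_xN_le_one (k := k) (τ := τ) h0 h1 N)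
    apply mul_nonneg (by positivity) (by linarith)
  set H : OmCan k → ℝ := fun d => Real.sqrt (PhiF θ (msg θ (N + 1) d)) * pc_levP θ (N + 1) ℓ d with hHdef
  have hHm : Measurable H := (pc_measurable_sqrtPhi θ (N + 1)).mul (pc_measurable_levP θ (N + 1) ℓ)
  have hH0 : ∀ d, 0 ≤ H d := fun d => mul_nonneg (Real.sqrt_nonneg _) (pc_levP_nonneg h0 h1 hkθ _ _ _)
  have hH1 : ∀ d, H d ≤ 1 := fun d => by
    calc H d ≤ 1 * 1 := mul_le_mul (pc_sqrtPhi_le_one h0 h1 _ _) (pc_levP_le_one h0 h1 hkθ _ _ _)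
          (pc_levP_nonneg h0 h1 hkθ _ _ _) (by norm_num)
      _ = 1 := one_mul _
  have e : ∀ d : OmCan k, Tg θ (N + 1) (ℓ + 1) d - Tg θ (N + 1) ℓ d = θ ^ 2 * ∑ j : Fin k, H (shiftD j d) :=
    fun d => by rw [pc_Tg_sub_eq]; rfl
  simp_rw [e]
  rw [pc_integral_sum_shiftD h0 h1 _ hHm 1 (fun d => by rw [abs_of_nonneg (hH0 d)]; exact hH1 d)]
  have hI : 0 ≤ ∫ d, H d ∂(Pcan k θ τ) := integral_nonneg hH0
  have hL : ∫ d, H d ∂(Pcan k θ τ) ≤ _ := pc_Lam_le h0 h1 hk hkθ hτ ℓ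
  calc _ ≤ 1 * ∫ d, H d ∂(Pcan k θ τ) := mul_le_mul_of_nonneg_right hkθ hI
    _ = _ := one_mul _
    _ ≤ _ := hL

/-- First moment of the truncated Green function, for `β < 1`. -/
theorem Tg_mean_le {N : ℕ} (hβ : (k : ℝ) * θ ^ 2 * (1 - kill θ (xN k θ τ N)) < 1) (ℓ : ℕ) :
    ∫ d, Tg θ (N + 1) ℓ d ∂(Pcan k θ τ) ≤
      1 + 1 / (1 - (k : ℝ) * θ ^ 2 * (1 - kill θ (xN k θ τ N))) := by
  have := isProb_Pcan (k := k) (τ := τ) h0 h1
  have hβ0 : 0 ≤ (k : ℝ) * θ ^ 2 * (1 - kill θ (xN k θ τ N)) := by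
    have := pc_kill_le_half h0 h1 (pc_xN_le_one (k := k) (τ := τ) h0 h1 N)
    apply mul_nonneg (by positivity) (by linarith)
  set β := (k : ℝ) * θ ^ 2 * (1 - kill θ (xN k θ τ N)) with hβdef
  have hsum : ∀ ℓ : ℕ, ∫ d, Tg θ (N + 1) ℓ d ∂(Pcan k θ τ) ≤ 1 + ∑ i ∈ Finset.range ℓ, β ^ i := by
    intro ℓ
    induction ℓ with
    | zero => simp [pc_Tg_zero']
    | succ ℓ ih =>
      rw [Finset.sum_range_succ]
      have h3 := Tg_level_le h0 h1 hk hkθ hτ (N := N) ℓ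
      rw [integral_sub (pc_integrable_Tg h0 h1 hkθ _ _) (pc_integrable_Tg h0 h1 hkθ _ _)] at h3
      linarith
  refine (hsum ℓ).trans ?_
  have h4 : 0 < 1 - β := by linarith
  have h5 : ∑ i ∈ Finset.range ℓ, β ^ i ≤ 1 / (1 - β) := by
    rw [le_div_iff₀ h4, mul_comm, mul_neg_geom_sum]
    have : 0 ≤ β ^ ℓ := pow_nonneg hβ0 ℓ
    linarith
  linarith

end

section
include h0 h1 hk hkθ

/-- Exponential moments of the truncated Green function: if all the means are at most `τb`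
(with `1 ≤ τb`), then `log E exp(λ T) ≤ λ (E T + errE (λ τb))`. -/
theorem pc_Tg_mgf_le_aux {N : ℕ} {τb : ℝ} (hτb1 : 1 ≤ τb)
    (hτb : ∀ ℓ, ∫ d, Tg θ N ℓ d ∂(Pcan k θ τ) ≤ τb) (lam : ℝ) (hlam : 0 ≤ lam) (ℓ : ℕ) :
    ∫ d, Real.exp (lam * Tg θ N ℓ d) ∂(Pcan k θ τ) ≤
      Real.exp (lam * (∫ d, Tg θ N ℓ d ∂(Pcan k θ τ) + errE (lam * τb))) := by
  have := isProb_Pcan (k := k) (τ := τ) h0 h1
  induction ℓ generalizing lam with
  | zero =>
    simp only [pc_Tg_zero', integral_const, probReal_univ, one_smul, mul_one]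
    apply Real.exp_le_exp.mpr
    have := pc_errE_nonneg (lam * τb)
    nlinarith
  | succ ℓ ih =>
    have hK' : (2 : ℝ) ≤ k := by exact_mod_cast hk
    have hK0 : (0 : ℝ) < k := by linarith
    set μ := lam / k with hμ
    have hμ0 : 0 ≤ μ := div_nonneg hlam hK0.le
    have hμK : (k : ℝ) * μ = lam := by rw [hμ]; field_simp
    set T := Tg (k := k) θ N ℓ with hTdef
    set X : OmCan k → ℝ := fun d => (k : ℝ) * θ ^ 2 * (Real.sqrt (PhiF θ (msg θ N d)) * T d) with hXdef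
    have hT1 : ∀ d, 1 ≤ T d := pc_one_le_Tg h0 h1 hkθ N ℓ
    have hTb : ∀ d, T d ≤ (ℓ : ℝ) + 1 := pc_Tg_le h0 h1 hkθ N ℓ
    have hTm : Measurable T := pc_measurable_Tg θ N ℓ
    have hXm : Measurable X := measurable_const.mul ((pc_measurable_sqrtPhi θ N).mul hTm)
    have hX0 : ∀ d, 0 ≤ X d := fun d => by
      have : 0 ≤ T d := by linarith [hT1 d]
      exact mul_nonneg (by positivity) (mul_nonneg (Real.sqrt_nonneg _) this)
    have hXT : ∀ d, X d ≤ T d := fun d => by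
      have hT0 : 0 ≤ T d := by linarith [hT1 d]
      have h2 : Real.sqrt (PhiF θ (msg θ N d)) * T d ≤ T d := by
        calc _ ≤ 1 * T d := mul_le_mul_of_nonneg_right (pc_sqrtPhi_le_one h0 h1 _ _) hT0
          _ = T d := one_mul _
      calc X d ≤ 1 * (Real.sqrt (PhiF θ (msg θ N d)) * T d) :=
            mul_le_mul_of_nonneg_right hkθ (mul_nonneg (Real.sqrt_nonneg _) hT0)
        _ ≤ T d := by rw [one_mul]; exact h2
    have hXI : Integrable X (Pcan k θ τ) :=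
      pc_integrable_of_bdd h0 h1 hXm ((ℓ : ℝ) + 1) hX0 (fun d => (hXT d).trans (hTb d))
    have hTI : Integrable T (Pcan k θ τ) := pc_integrable_Tg h0 h1 hkθ N ℓ
    -- `E exp(λ Tg(ℓ+1)) = e^λ (E exp(μ X))^k`
    have key : ∀ d, Real.exp (lam * Tg θ N (ℓ + 1) d) =
        Real.exp lam * ∏ i : Fin k, Real.exp (μ * X (shiftD i d)) := by
      intro d
      rw [← Real.exp_sum, ← Real.exp_add]
      congr 1
      rw [pc_Tg_succ', mul_add, mul_one]
      congr 1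
      have hsum : ∑ i : Fin k, μ * X (shiftD i d) = μ * ((k : ℝ) * θ ^ 2 * ∑ i : Fin k,
          Real.sqrt (PhiF θ (msg θ N (shiftD i d))) * Tg θ N ℓ (shiftD i d)) := by
        rw [Finset.mul_sum, Finset.mul_sum]
      rw [hsum, ← hμK]
      ring
    have hgm : Measurable (fun d : OmCan k => Real.exp (μ * X d)) :=
      Real.measurable_exp.comp (measurable_const.mul hXm)
    have hE : ∫ d, Real.exp (lam * Tg θ N (ℓ + 1) d) ∂(Pcan k θ τ) =
        Real.exp lam * (∫ d, Real.exp (μ * X d) ∂(Pcan k θ τ)) ^ k := by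
      simp_rw [key]
      rw [integral_const_mul,
        pc_integral_prod_shiftD h0 h1 (g := fun d => Real.exp (μ * X d)) hgm]
    -- `τ_{ℓ+1} = 1 + E X`
    have hτs : ∫ d, Tg θ N (ℓ + 1) d ∂(Pcan k θ τ) = 1 + ∫ d, X d ∂(Pcan k θ τ) := by
      set H : OmCan k → ℝ := fun d => Real.sqrt (PhiF θ (msg θ N d)) * T d with hHdef
      have hHm : Measurable H := (pc_measurable_sqrtPhi θ N).mul hTm
      have hHb : ∀ d, |H d| ≤ (ℓ : ℝ) + 1 := fun d => by
        have hT0 : 0 ≤ T d := by linarith [hT1 d]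
        rw [abs_of_nonneg (mul_nonneg (Real.sqrt_nonneg _) hT0)]
        calc H d ≤ 1 * T d := mul_le_mul_of_nonneg_right (pc_sqrtPhi_le_one h0 h1 _ _) hT0
          _ = T d := one_mul _
          _ ≤ _ := hTb d
      have e : ∀ d, Tg θ N (ℓ + 1) d = 1 + θ ^ 2 * ∑ j : Fin k, H (shiftD j d) := fun d => rfl
      simp_rw [e]
      rw [integral_add (integrable_const _)]
      · rw [pc_integral_sum_shiftD h0 h1 _ hHm _ hHb]
        simp only [integral_const, probReal_univ, one_smul]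
        congr 1
        simp only [hXdef, hHdef]
        rw [integral_const_mul]
      · refine (integrable_finset_sum _ fun j _ => ?_).const_mul _
        exact pc_integrable_of_abs_le h0 h1 (hHm.comp (pc_measurable_shiftD' j)) _ (fun d => hHb _)
    -- pointwise comparison
    have hp : ∀ d, Real.exp (μ * X d) ≤ Real.exp (μ * T d) - μ * (T d - X d) := by
      intro d
      have h2 : 1 ≤ Real.exp (μ * X d) := Real.one_le_exp (mul_nonneg hμ0 (hX0 d))
      have h3 : μ * (T d - X d) + 1 ≤ Real.exp (μ * (T d - X d)) := Real.add_one_le_exp _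
      have h4 : Real.exp (μ * T d) = Real.exp (μ * X d) * Real.exp (μ * (T d - X d)) := by
        rw [← Real.exp_add]; ring_nf
      have h5 : 0 ≤ μ * (T d - X d) := mul_nonneg hμ0 (by linarith [hXT d])
      rw [h4]
      nlinarith
    have hexpX : Integrable (fun d => Real.exp (μ * X d)) (Pcan k θ τ) :=
      pc_integrable_of_bdd h0 h1 hgm (Real.exp (μ * ((ℓ : ℝ) + 1))) (fun d => (Real.exp_pos _).le)
        (fun d => Real.exp_le_exp.mpr (mul_le_mul_of_nonneg_left ((hXT d).trans (hTb d)) hμ0))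
    have hexpT : Integrable (fun d => Real.exp (μ * T d)) (Pcan k θ τ) :=
      pc_integrable_of_bdd h0 h1 (Real.measurable_exp.comp (measurable_const.mul hTm))
        (Real.exp (μ * ((ℓ : ℝ) + 1))) (fun d => (Real.exp_pos _).le)
        (fun d => Real.exp_le_exp.mpr (mul_le_mul_of_nonneg_left (hTb d) hμ0))
    have hTX : Integrable (fun d => μ * (T d - X d)) (Pcan k θ τ) := (hTI.sub hXI).const_mul _
    have hX : ∫ d, Real.exp (μ * X d) ∂(Pcan k θ τ) ≤
        ∫ d, Real.exp (μ * T d) ∂(Pcan k θ τ) -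
          μ * (∫ d, T d ∂(Pcan k θ τ) - ∫ d, X d ∂(Pcan k θ τ)) := by
      calc ∫ d, Real.exp (μ * X d) ∂(Pcan k θ τ)
          ≤ ∫ d, (Real.exp (μ * T d) - μ * (T d - X d)) ∂(Pcan k θ τ) :=
            integral_mono hexpX (hexpT.sub hTX) hp
        _ = _ := by
            rw [integral_sub hexpT hTX, integral_const_mul, integral_sub hTI hXI]
    have hih := ih μ hμ0
    have hζ1 : ∫ d, T d ∂(Pcan k θ τ) - ∫ d, X d ∂(Pcan k θ τ) ≤ 1 := by
      have := integral_mono hTI (pc_integrable_Tg h0 h1 hkθ N (ℓ + 1)) (pc_Tg_mono h0 h1 hkθ N ℓ)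
      rw [hτs] at this
      linarith
    have hM0 : 0 ≤ ∫ d, Real.exp (μ * X d) ∂(Pcan k θ τ) :=
      integral_nonneg (fun d => (Real.exp_pos _).le)
    have hfin := pc_mgf_real_step hk (lam := lam) (τb := τb) (τl := ∫ d, T d ∂(Pcan k θ τ))
      (ζ := ∫ d, T d ∂(Pcan k θ τ) - ∫ d, X d ∂(Pcan k θ τ))
      (M := ∫ d, Real.exp (μ * X d) ∂(Pcan k θ τ)) hlam hτb1
      (pc_one_le_integral_Tg h0 h1 hkθ N ℓ) (hτb ℓ) hζ1 hM0 (by linarith)
    rw [hE, hτs]
    refine hfin.trans_eq ?_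
    congr 2
    ring

end

end

/-- Exponential moments of the truncated Green function: if all the means are at most `τb`
(with `1 ≤ τb`), then `log E exp(λ T) ≤ λ (E T + errE (λ τb))`. -/
theorem Tg_mgf_le (h0 : 0 ≤ θ) (h1 : θ < 1) (hk : 2 ≤ k) (hkθ : (k : ℝ) * θ ^ 2 ≤ 1) (hτ : 0 < τ)
    {N : ℕ} {τb : ℝ} (hτb1 : 1 ≤ τb)
    (hτb : ∀ ℓ, ∫ d, Tg θ N ℓ d ∂(Pcan k θ τ) ≤ τb) (lam : ℝ) (hlam : 0 ≤ lam) (ℓ : ℕ) :
    ∫ d, Real.exp (lam * Tg θ N ℓ d) ∂(Pcan k θ τ) ≤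
      Real.exp (lam * (∫ d, Tg θ N ℓ d ∂(Pcan k θ τ) + errE (lam * τb))) :=
  pc_Tg_mgf_le_aux h0 h1 hk hkθ hτb1 hτb lam hlam ℓ

/-- The paths with decreasing depth (finite volume): uniform geometric bound. -/
theorem LvF_le (h0 : 0 ≤ θ) (h1 : θ < 1) (hk : 2 ≤ k) (hkθ : (k : ℝ) * θ ^ 2 ≤ 1) (hτ : 0 < τ)
    {x : ℝ} (hx : ∀ N, x ≤ xN k θ τ N) (ℓ N : ℕ) (hN : ℓ ≤ N) :
    ∫ d, Real.sqrt (PhiF θ (msg θ N d)) * LvF θ ℓ N d ∂(Pcan k θ τ) ≤
      ((k : ℝ) * θ ^ 2 * (1 - kill θ x)) ^ ℓ := by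
  have := isProb_Pcan (k := k) (τ := τ) h0 h1
  have hx1 : x ≤ 1 := (hx 0).trans (pc_xN_le_one h0 h1 0)
  have hk1 : 0 ≤ 1 - kill θ x := by
    have := pc_kill_le_half h0 h1 hx1
    linarith
  have hβ0 : 0 ≤ (k : ℝ) * θ ^ 2 * (1 - kill θ x) := mul_nonneg (by positivity) hk1
  induction ℓ generalizing N with
  | zero =>
    have hb : ∀ d : OmCan k, Real.sqrt (PhiF θ (msg θ N d)) * LvF θ 0 N d ≤ 1 := by
      intro d
      simp only [LvF, mul_one]
      exact pc_sqrtPhi_le_one h0 h1 _ _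
    calc _ ≤ ∫ _, (1 : ℝ) ∂(Pcan k θ τ) := by
          apply integral_mono _ (integrable_const _) hb
          refine pc_integrable_of_bdd h0 h1 ?_ 1 ?_ hb
          · exact (pc_measurable_sqrtPhi θ N).mul (pc_measurable_LvF θ 0 N)
          · exact fun d => mul_nonneg (Real.sqrt_nonneg _) (pc_LvF_nonneg h0 h1 hkθ _ _ _)
      _ = _ := by simp
  | succ ℓ ih =>
    obtain ⟨M, rfl⟩ : ∃ M, N = M + 1 := ⟨N - 1, by omega⟩
    set H : OmCan k → ℝ := fun d => Real.sqrt (PhiF θ (msg θ M d)) * LvF θ ℓ M d with hHdef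
    have hHm : Measurable H := (pc_measurable_sqrtPhi θ M).mul (pc_measurable_LvF θ ℓ M)
    have hH0 : ∀ d, 0 ≤ H d := fun d => mul_nonneg (Real.sqrt_nonneg _) (pc_LvF_nonneg h0 h1 hkθ _ _ _)
    have hH1 : ∀ d, H d ≤ 1 := fun d => by
      calc H d ≤ 1 * 1 := mul_le_mul (pc_sqrtPhi_le_one h0 h1 _ _) (pc_LvF_le_one h0 h1 hkθ _ _ _)
            (pc_LvF_nonneg h0 h1 hkθ _ _ _) (by norm_num)
        _ = 1 := one_mul _
    have e : ∀ d : OmCan k, LvF θ (ℓ + 1) (M + 1) d = θ ^ 2 * ∑ j : Fin k, H (shiftD j d) := fun d => rfl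
    simp_rw [e]
    refine (pc_step_killing h0 h1 hk hτ M hHm hH0 1 hH1).trans ?_
    have hI : 0 ≤ ∫ d, H d ∂(Pcan k θ τ) := integral_nonneg hH0
    have hL : ∫ d, H d ∂(Pcan k θ τ) ≤ _ := ih M (by omega)
    rw [pow_succ' _ ℓ]
    have h5 : kill θ x ≤ kill θ (xN k θ τ M) := pc_kill_mono h0 h1 (hx M)
    calc (k : ℝ) * θ ^ 2 * (1 - kill θ (xN k θ τ M)) * ∫ d, H d ∂(Pcan k θ τ)
        ≤ (k : ℝ) * θ ^ 2 * (1 - kill θ x) * ∫ d, H d ∂(Pcan k θ τ) := by
          apply mul_le_mul_of_nonneg_right _ hI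
          apply mul_le_mul_of_nonneg_left _ (by positivity)
          linarith
      _ ≤ _ := mul_le_mul_of_nonneg_left hL hβ0

end Crest.Agent.Lib.IT
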