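/-
The "Itô formula" for the second moment of the posterior mean, with a uniform tail hypothesis
on the finite volume covariances (statement S0241).
-/
import Crest.Agent.Lib.IT.TimeC

set_option autoImplicit false

namespace Crest.Agent.Lib.IT

open MeasureTheory ProbabilityTheory Filter Topology
open scoped ENNReal NNReal
open Crest.Agent.Lib.Loc

variable {I : Type*} {Ω : Type*} [mΩ : MeasurableSpace Ω] {ν : Measure (I → Bool)}
  {P : Measure Ω} {ω : Ω → I → Bool} {B : Ω → I → Sk} {Fs : I → ℕ → Finset I}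
  [Countable I] [IsProbabilityMeasure ν] [IsProbabilityMeasure P]

open Classical in
/-- The finite-volume form of the tail hypothesis on the time interval `[j₁, j₂] / 2 ^ L`. -/
def TailHyp (ν : Measure (I → Bool)) (Fs : I → ℕ → Finset I) (P : Measure Ω) (ω : Ω → I → Bool)
    (B : Ω → I → Sk) (o : I) (U : Finset I) (ε : ℝ) (L j₁ j₂ : ℕ) : Prop :=
  ∀ᶠ N in atTop, ∀ s j', j' ∈ Finset.Ico (j₁ * 2 ^ s) (j₂ * 2 ^ s) →
    ∑ l ∈ Fs o N \ U, ∫ a, CRtF ν ω B (Fs o N) o l (L + s) j' a ^ 2 ∂P ≤ ε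

namespace TimeE

lemma measurable_Ypos' (h : ℝ) (l : I) (j : ℕ) : Measurable (fun a : LevΩ I => Ypos h a l j) := by
  unfold Ypos
  refine Measurable.add (Measurable.const_mul ?_ _) ?_
  · exact (measurable_from_top (f := bv)).comp ((measurable_pi_apply l).comp measurable_fst)
  · exact Finset.measurable_fun_sum _ fun i _ => (measurable_pi_apply _).comp measurable_snd

lemma measurable_mF' (h : ℝ) (F : Finset I) (e : I) (j : ℕ) : Measurable (mF ν h F e j) :=
  (measurable_Mfin ν F e _).comp (measurable_pi_lambda _ fun l => measurable_Ypos' h l j)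

lemma measurable_m2F' (h : ℝ) (F : Finset I) (o u : I) (j : ℕ) : Measurable (m2F ν h F o u j) :=
  (measurable_Mfin2 ν F o u _).comp (measurable_pi_lambda _ fun l => measurable_Ypos' h l j)

lemma measurable_cF' (h : ℝ) (F : Finset I) (o u : I) (j : ℕ) : Measurable (cF ν h F o u j) :=
  (measurable_Cfin ν F o u _).comp (measurable_pi_lambda _ fun l => measurable_Ypos' h l j)

lemma tm_lift' (n k d : ℕ) : tm (n + d) (k * 2 ^ d) = tm n k := by
  unfold tm
  push_cast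
  rw [pow_add]
  field_simp

/-- The integrand is bounded and measurable. -/
lemma integrable_bdd {Z : Ω → ℝ} (hm : Measurable Z) (C : ℝ) (hb : ∀ a, |Z a| ≤ C) :
    Integrable Z P :=
  (integrable_const C).mono' hm.aestronglyMeasurable (ae_of_all _ fun a => by simpa using hb a)

/-- Jensen's inequality for the absolute value. -/
lemma integral_abs_le_sqrt {X : Ω → ℝ} (hX : Measurable X) (C : ℝ) (hC : ∀ a, |X a| ≤ C) :
    ∫ a, |X a| ∂P ≤ Real.sqrt (∫ a, X a ^ 2 ∂P) := by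
  set m := ∫ a, |X a| ∂P with hm
  have hi1 : Integrable (fun a => |X a|) P :=
    integrable_bdd hX.abs C fun a => by simpa using hC a
  have hi2 : Integrable (fun a => X a ^ 2) P := by
    refine integrable_bdd (hX.pow_const 2) (C ^ 2) fun a => ?_
    rw [abs_pow]
    exact pow_le_pow_left₀ (abs_nonneg _) (hC a) 2
  have h0 : 0 ≤ ∫ a, (|X a| - m) ^ 2 ∂P := integral_nonneg fun a => sq_nonneg _
  have h1 : ∫ a, (|X a| - m) ^ 2 ∂P = ∫ a, X a ^ 2 ∂P - m ^ 2 := by
    have e1 : ∀ a, (|X a| - m) ^ 2 = X a ^ 2 - 2 * m * |X a| + m ^ 2 := by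
      intro a
      have : |X a| ^ 2 = X a ^ 2 := sq_abs _
      nlinarith
    simp_rw [e1]
    have i3 : Integrable (fun a => X a ^ 2 - 2 * m * |X a|) P := hi2.sub (hi1.const_mul _)
    rw [integral_add i3 (integrable_const _),
      integral_sub hi2 (hi1.const_mul _), integral_const_mul, integral_const]
    simp only [probReal_univ, one_smul, smul_eq_mul]
    rw [← hm]
    ring
  have h2 : m ^ 2 ≤ ∫ a, X a ^ 2 ∂P := by linarith
  exact (le_abs_self m).trans (Real.abs_le_sqrt h2)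

/-- Telescoping. -/
lemma sum_Ico_telescope (f : ℕ → ℝ) {a b : ℕ} (hab : a ≤ b) :
    ∑ j ∈ Finset.Ico a b, (f (j + 1) - f j) = f b - f a := by
  induction b, hab using Nat.le_induction with
  | base => simp
  | succ b hb ih =>
    rw [Finset.sum_Ico_succ_top hb, ih]
    ring

/-- Decomposition into blocks. -/
lemma sum_Ico_blocks (f : ℕ → ℝ) (M : ℕ) {j₁ j₂ : ℕ} (hj : j₁ ≤ j₂) :
    ∑ j' ∈ Finset.Ico (j₁ * M) (j₂ * M), f j' =
      ∑ j ∈ Finset.Ico j₁ j₂, ∑ j' ∈ Finset.Ico (j * M) ((j + 1) * M), f j' := by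
  induction j₂, hj using Nat.le_induction with
  | base => simp
  | succ b hb ih =>
    rw [Finset.sum_Ico_succ_top hb, ← ih]
    exact (Finset.sum_Ico_consecutive f (Nat.mul_le_mul_right M hb)
      (Nat.mul_le_mul_right M (Nat.le_succ b))).symm

/-- Cauchy-Schwarz for a telescoping sum of square roots. -/
lemma sum_sqrt_incr_le (Q : ℕ → ℝ) (hm : ∀ j, Q j ≤ Q (j + 1)) (h0 : ∀ j, 0 ≤ Q j)
    (h1 : ∀ j, Q j ≤ 1) {j₁ j₂ : ℕ} (hj : j₁ ≤ j₂) :
    ∑ j ∈ Finset.Ico j₁ j₂, Real.sqrt (Q (j + 1) - Q j) ≤ Real.sqrt ((j₂ : ℝ) - j₁) := by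
  have hCS := Real.sum_mul_le_sqrt_mul_sqrt (Finset.Ico j₁ j₂) (fun _ => (1 : ℝ))
    (fun j => Real.sqrt (Q (j + 1) - Q j))
  have hc : ∑ _j ∈ Finset.Ico j₁ j₂, (1 : ℝ) ^ 2 = (j₂ : ℝ) - j₁ := by
    simp [Nat.card_Ico, Nat.cast_sub hj]
  have hs : ∑ j ∈ Finset.Ico j₁ j₂, Real.sqrt (Q (j + 1) - Q j) ^ 2 = Q j₂ - Q j₁ := by
    rw [← sum_Ico_telescope Q hj]
    exact Finset.sum_congr rfl fun j _ => Real.sq_sqrt (by linarith [hm j])
  simp only [one_mul] at hCS
  rw [hc, hs] at hCS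
  refine hCS.trans ?_
  have h3 : Real.sqrt (Q j₂ - Q j₁) ≤ 1 := by
    rw [← Real.sqrt_one]
    exact Real.sqrt_le_sqrt (by linarith [h1 j₂, h0 j₁])
  have h4 := Real.sqrt_nonneg ((j₂ : ℝ) - j₁)
  nlinarith

section
variable (T : Truth ν P ω B)
include T

lemma mF_levMap (F : Finset I) (e : I) (r j : ℕ) (a : Ω) :
    mF ν (hLev r : ℝ) F e j (levMap ω B r a) = MtF ν ω B F e r j a := by
  unfold mF MtF
  rw [tm_eq_mul]
  simp_rw [T.Ypos_levMap a _ r j]

lemma m2F_levMap (F : Finset I) (o u : I) (r j : ℕ) (a : Ω) :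
    m2F ν (hLev r : ℝ) F o u j (levMap ω B r a) = M2tF ν ω B F o u r j a := by
  unfold m2F M2tF
  rw [tm_eq_mul]
  simp_rw [T.Ypos_levMap a _ r j]

lemma cF_levMap (F : Finset I) (o u : I) (r j : ℕ) (a : Ω) :
    cF ν (hLev r : ℝ) F o u j (levMap ω B r a) = CRtF ν ω B F o u r j a := by
  unfold cF CRtF
  rw [tm_eq_mul]
  simp_rw [T.Ypos_levMap a _ r j]

lemma MtF_lift (F : Finset I) (e : I) (L s j : ℕ) (a : Ω) :
    MtF ν ω B F e (L + s) (j * 2 ^ s) a = MtF ν ω B F e L j a := by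
  unfold MtF
  rw [tm_lift']
  simp_rw [← T.Yobs_lift]

lemma M2tF_lift (F : Finset I) (o u : I) (L s j : ℕ) (a : Ω) :
    M2tF ν ω B F o u (L + s) (j * 2 ^ s) a = M2tF ν ω B F o u L j a := by
  unfold M2tF
  rw [tm_lift']
  simp_rw [← T.Yobs_lift]

lemma CRtF_lift (F : Finset I) (o u : I) (L s j : ℕ) (a : Ω) :
    CRtF ν ω B F o u (L + s) (j * 2 ^ s) a = CRtF ν ω B F o u L j a := by
  unfold CRtF
  rw [tm_lift']
  simp_rw [← T.Yobs_lift]

lemma measurable_MtF (F : Finset I) (e : I) (r j : ℕ) : Measurable (MtF ν ω B F e r j) := by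
  have : MtF ν ω B F e r j = mF ν (hLev r : ℝ) F e j ∘ levMap ω B r := by
    funext a
    exact (mF_levMap T F e r j a).symm
  rw [this]
  exact (measurable_mF' _ F e j).comp (T.measurable_levMap r)

lemma measurable_M2tF (F : Finset I) (o u : I) (r j : ℕ) :
    Measurable (M2tF ν ω B F o u r j) := by
  have : M2tF ν ω B F o u r j = m2F ν (hLev r : ℝ) F o u j ∘ levMap ω B r := by
    funext a
    exact (m2F_levMap T F o u r j a).symm
  rw [this]
  exact (measurable_m2F' _ F o u j).comp (T.measurable_levMap r)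

lemma measurable_CRtF (F : Finset I) (o u : I) (r j : ℕ) :
    Measurable (CRtF ν ω B F o u r j) := by
  have : CRtF ν ω B F o u r j = cF ν (hLev r : ℝ) F o u j ∘ levMap ω B r := by
    funext a
    exact (cF_levMap T F o u r j a).symm
  rw [this]
  exact (measurable_cF' _ F o u j).comp (T.measurable_levMap r)

end

lemma MtF_mem (F : Finset I) (e : I) (n k : ℕ) (a : Ω) :
    0 ≤ MtF ν ω B F e n k a ∧ MtF ν ω B F e n k a ≤ 1 :=
  ⟨Mfin_nonneg _ _ _ _ _, Mfin_le_one _ _ _ _ _⟩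

lemma M2tF_mem (F : Finset I) (o u : I) (n k : ℕ) (a : Ω) :
    0 ≤ M2tF ν ω B F o u n k a ∧ M2tF ν ω B F o u n k a ≤ 1 :=
  ⟨Mfin2_nonneg _ _ _ _ _ _, Mfin2_le_one _ _ _ _ _ _⟩

lemma abs_CRtF_le (F : Finset I) (o u : I) (n k : ℕ) (a : Ω) :
    |CRtF ν ω B F o u n k a| ≤ 1 := abs_Cfin_le _ _ _ _ _ _

/-- The second moment of the finite-volume posterior mean. -/
noncomputable def QM (ν : Measure (I → Bool)) (P : Measure Ω) (ω : Ω → I → Bool) (B : Ω → I → Sk)
    (F : Finset I) (e : I) (n k : ℕ) : ℝ := ∫ a, MtF ν ω B F e n k a ^ 2 ∂P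

/-- The second moment of the finite-volume pair posterior. -/
noncomputable def QP (ν : Measure (I → Bool)) (P : Measure Ω) (ω : Ω → I → Bool) (B : Ω → I → Sk)
    (F : Finset I) (o u : I) (n k : ℕ) : ℝ := ∫ a, M2tF ν ω B F o u n k a ^ 2 ∂P

/-- The second moment of the finite-volume covariance. -/
noncomputable def CC (ν : Measure (I → Bool)) (P : Measure Ω) (ω : Ω → I → Bool) (B : Ω → I → Sk)
    (F : Finset I) (o u : I) (n k : ℕ) : ℝ := ∫ a, CRtF ν ω B F o u n k a ^ 2 ∂P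

section
variable (T : Truth ν P ω B)
include T

lemma integral_sq_MtF_sub {F : Finset I} {e : I} (he : e ∈ F) (r : ℕ) {j j' : ℕ} (hj : j ≤ j') :
    ∫ a, (MtF ν ω B F e r j' a - MtF ν ω B F e r j a) ^ 2 ∂P =
      QM ν P ω B F e r j' - QM ν P ω B F e r j := by
  have h1 := integral_sq_mF_sub ν (hLev r) (hLev_ne r) he hj
  have e1 := T.integral_comp_levMap r
    (fun x => (mF ν (hLev r : ℝ) F e j' x - mF ν (hLev r : ℝ) F e j x) ^ 2)
    (((measurable_mF' _ F e j').sub (measurable_mF' _ F e j)).pow_const 2)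
  have e2 := T.integral_comp_levMap r (fun x => mF ν (hLev r : ℝ) F e j' x ^ 2)
    ((measurable_mF' _ F e j').pow_const 2)
  have e3 := T.integral_comp_levMap r (fun x => mF ν (hLev r : ℝ) F e j x ^ 2)
    ((measurable_mF' _ F e j).pow_const 2)
  simp only [mF_levMap T] at e1 e2 e3
  unfold QM
  rw [e1, e2, e3, h1]

lemma integral_sq_M2tF_sub {F : Finset I} {o u : I} (ho : o ∈ F) (hu : u ∈ F) (r : ℕ) {j j' : ℕ}
    (hj : j ≤ j') :
    ∫ a, (M2tF ν ω B F o u r j' a - M2tF ν ω B F o u r j a) ^ 2 ∂P =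
      QP ν P ω B F o u r j' - QP ν P ω B F o u r j := by
  have h1 := integral_sq_m2F_sub ν (hLev r) (hLev_ne r) ho hu hj
  have e1 := T.integral_comp_levMap r
    (fun x => (m2F ν (hLev r : ℝ) F o u j' x - m2F ν (hLev r : ℝ) F o u j x) ^ 2)
    (((measurable_m2F' _ F o u j').sub (measurable_m2F' _ F o u j)).pow_const 2)
  have e2 := T.integral_comp_levMap r (fun x => m2F ν (hLev r : ℝ) F o u j' x ^ 2)
    ((measurable_m2F' _ F o u j').pow_const 2)
  have e3 := T.integral_comp_levMap r (fun x => m2F ν (hLev r : ℝ) F o u j x ^ 2)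
    ((measurable_m2F' _ F o u j).pow_const 2)
  simp only [m2F_levMap T] at e1 e2 e3
  unfold QP
  rw [e1, e2, e3, h1]

lemma QM_mono {F : Finset I} {e : I} (he : e ∈ F) (r : ℕ) {j j' : ℕ} (hj : j ≤ j') :
    QM ν P ω B F e r j ≤ QM ν P ω B F e r j' := by
  have h := integral_sq_MtF_sub T he r hj
  have h0 : 0 ≤ ∫ a, (MtF ν ω B F e r j' a - MtF ν ω B F e r j a) ^ 2 ∂P :=
    integral_nonneg fun a => sq_nonneg _
  linarith

lemma QP_mono {F : Finset I} {o u : I} (ho : o ∈ F) (hu : u ∈ F) (r : ℕ) {j j' : ℕ} (hj : j ≤ j') :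
    QP ν P ω B F o u r j ≤ QP ν P ω B F o u r j' := by
  have h := integral_sq_M2tF_sub T ho hu r hj
  have h0 : 0 ≤ ∫ a, (M2tF ν ω B F o u r j' a - M2tF ν ω B F o u r j a) ^ 2 ∂P :=
    integral_nonneg fun a => sq_nonneg _
  linarith

lemma QM_lift (F : Finset I) (e : I) (L s j : ℕ) :
    QM ν P ω B F e (L + s) (j * 2 ^ s) = QM ν P ω B F e L j := by
  unfold QM
  simp_rw [MtF_lift T]

lemma QP_lift (F : Finset I) (o u : I) (L s j : ℕ) :
    QP ν P ω B F o u (L + s) (j * 2 ^ s) = QP ν P ω B F o u L j := by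
  unfold QP
  simp_rw [M2tF_lift T]

lemma QM_nonneg (F : Finset I) (e : I) (r j : ℕ) : 0 ≤ QM ν P ω B F e r j :=
  integral_nonneg fun a => sq_nonneg _

lemma QP_nonneg (F : Finset I) (o u : I) (r j : ℕ) : 0 ≤ QP ν P ω B F o u r j :=
  integral_nonneg fun a => sq_nonneg _

lemma QM_le_one (F : Finset I) (e : I) (r j : ℕ) : QM ν P ω B F e r j ≤ 1 := by
  unfold QM
  have h := integral_mono_of_nonneg (μ := P)
    (f := fun a => MtF ν ω B F e r j a ^ 2) (g := fun _ => (1 : ℝ))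
    (ae_of_all _ fun a => sq_nonneg _) (integrable_const _)
    (ae_of_all _ fun a => by
      have := MtF_mem (ν := ν) (ω := ω) (B := B) F e r j a
      nlinarith [this.1, this.2])
  simpa using h

lemma QP_le_one (F : Finset I) (o u : I) (r j : ℕ) : QP ν P ω B F o u r j ≤ 1 := by
  unfold QP
  have h := integral_mono_of_nonneg (μ := P)
    (f := fun a => M2tF ν ω B F o u r j a ^ 2) (g := fun _ => (1 : ℝ))
    (ae_of_all _ fun a => sq_nonneg _) (integrable_const _)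
    (ae_of_all _ fun a => by
      have := M2tF_mem (ν := ν) (ω := ω) (B := B) F o u r j a
      nlinarith [this.1, this.2])
  simpa using h

lemma integral_abs_MtF_fine {F : Finset I} {e : I} (he : e ∈ F) (L s j j' : ℕ)
    (hj' : j' ∈ Finset.Ico (j * 2 ^ s) ((j + 1) * 2 ^ s)) :
    ∫ a, |MtF ν ω B F e (L + s) j' a - MtF ν ω B F e L j a| ∂P ≤
      Real.sqrt (QM ν P ω B F e L (j + 1) - QM ν P ω B F e L j) := by
  obtain ⟨h1, h2⟩ := Finset.mem_Ico.1 hj'
  have hm : Measurable (fun a => MtF ν ω B F e (L + s) j' a - MtF ν ω B F e L j a) :=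
    (measurable_MtF T F e _ _).sub (measurable_MtF T F e _ _)
  have hb : ∀ a, |MtF ν ω B F e (L + s) j' a - MtF ν ω B F e L j a| ≤ 1 := fun a => by
    have h3 := MtF_mem (ν := ν) (ω := ω) (B := B) F e (L + s) j' a
    have h4 := MtF_mem (ν := ν) (ω := ω) (B := B) F e L j a
    rw [abs_le]
    constructor <;> linarith [h3.1, h3.2, h4.1, h4.2]
  refine (integral_abs_le_sqrt hm 1 hb).trans (Real.sqrt_le_sqrt ?_)
  have e1 : ∫ a, (MtF ν ω B F e (L + s) j' a - MtF ν ω B F e L j a) ^ 2 ∂P =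
      QM ν P ω B F e (L + s) j' - QM ν P ω B F e L j := by
    rw [← QM_lift T F e L s j, ← integral_sq_MtF_sub T he (L + s) h1]
    simp_rw [MtF_lift T]
  rw [e1]
  have h3 : QM ν P ω B F e (L + s) j' ≤ QM ν P ω B F e L (j + 1) := by
    rw [← QM_lift T F e L s (j + 1)]
    exact QM_mono T he _ h2.le
  linarith

lemma integral_abs_M2tF_fine {F : Finset I} {o u : I} (ho : o ∈ F) (hu : u ∈ F) (L s j j' : ℕ)
    (hj' : j' ∈ Finset.Ico (j * 2 ^ s) ((j + 1) * 2 ^ s)) :
    ∫ a, |M2tF ν ω B F o u (L + s) j' a - M2tF ν ω B F o u L j a| ∂P ≤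
      Real.sqrt (QP ν P ω B F o u L (j + 1) - QP ν P ω B F o u L j) := by
  obtain ⟨h1, h2⟩ := Finset.mem_Ico.1 hj'
  have hm : Measurable (fun a => M2tF ν ω B F o u (L + s) j' a - M2tF ν ω B F o u L j a) :=
    (measurable_M2tF T F o u _ _).sub (measurable_M2tF T F o u _ _)
  have hb : ∀ a, |M2tF ν ω B F o u (L + s) j' a - M2tF ν ω B F o u L j a| ≤ 1 := fun a => by
    have h3 := M2tF_mem (ν := ν) (ω := ω) (B := B) F o u (L + s) j' a
    have h4 := M2tF_mem (ν := ν) (ω := ω) (B := B) F o u L j a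
    rw [abs_le]
    constructor <;> linarith [h3.1, h3.2, h4.1, h4.2]
  refine (integral_abs_le_sqrt hm 1 hb).trans (Real.sqrt_le_sqrt ?_)
  have e1 : ∫ a, (M2tF ν ω B F o u (L + s) j' a - M2tF ν ω B F o u L j a) ^ 2 ∂P =
      QP ν P ω B F o u (L + s) j' - QP ν P ω B F o u L j := by
    rw [← QP_lift T F o u L s j, ← integral_sq_M2tF_sub T ho hu (L + s) h1]
    simp_rw [M2tF_lift T]
  rw [e1]
  have h3 : QP ν P ω B F o u (L + s) j' ≤ QP ν P ω B F o u L (j + 1) := by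
    rw [← QP_lift T F o u L s (j + 1)]
    exact QP_mono T ho hu _ h2.le
  linarith

/-- Step 1: comparison of the covariances of a fine time with those of the coarse time. -/
lemma CC_fine_le {F : Finset I} {o l : I} (ho : o ∈ F) (hl : l ∈ F) (L s j j' : ℕ)
    (hj' : j' ∈ Finset.Ico (j * 2 ^ s) ((j + 1) * 2 ^ s)) :
    CC ν P ω B F o l (L + s) j' ≤ CC ν P ω B F o l L j +
      2 * (Real.sqrt (QP ν P ω B F o l L (j + 1) - QP ν P ω B F o l L j) +
        Real.sqrt (QM ν P ω B F o L (j + 1) - QM ν P ω B F o L j) +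
        Real.sqrt (QM ν P ω B F l L (j + 1) - QM ν P ω B F l L j)) := by
  set D2 : Ω → ℝ := fun a => |M2tF ν ω B F o l (L + s) j' a - M2tF ν ω B F o l L j a| with hD2
  set Do : Ω → ℝ := fun a => |MtF ν ω B F o (L + s) j' a - MtF ν ω B F o L j a| with hDo
  set Dl : Ω → ℝ := fun a => |MtF ν ω B F l (L + s) j' a - MtF ν ω B F l L j a| with hDl
  have hpt : ∀ a, CRtF ν ω B F o l (L + s) j' a ^ 2 ≤ CRtF ν ω B F o l L j a ^ 2 +
      2 * (D2 a + Do a + Dl a) := by
    intro a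
    have c1 := abs_le.1 (abs_CRtF_le (ν := ν) (ω := ω) (B := B) F o l (L + s) j' a)
    have c2 := abs_le.1 (abs_CRtF_le (ν := ν) (ω := ω) (B := B) F o l L j a)
    have mo' := MtF_mem (ν := ν) (ω := ω) (B := B) F o (L + s) j' a
    have mo := MtF_mem (ν := ν) (ω := ω) (B := B) F o L j a
    have ml' := MtF_mem (ν := ν) (ω := ω) (B := B) F l (L + s) j' a
    have ml := MtF_mem (ν := ν) (ω := ω) (B := B) F l L j a
    have e1 : CRtF ν ω B F o l (L + s) j' a = M2tF ν ω B F o l (L + s) j' a -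
        MtF ν ω B F o (L + s) j' a * MtF ν ω B F l (L + s) j' a := rfl
    have e2 : CRtF ν ω B F o l L j a = M2tF ν ω B F o l L j a -
        MtF ν ω B F o L j a * MtF ν ω B F l L j a := rfl
    set A := CRtF ν ω B F o l (L + s) j' a
    set A0 := CRtF ν ω B F o l L j a
    set mo1 := MtF ν ω B F o (L + s) j' a
    set mo0 := MtF ν ω B F o L j a
    set ml1 := MtF ν ω B F l (L + s) j' a
    set ml0 := MtF ν ω B F l L j a
    set m21 := M2tF ν ω B F o l (L + s) j' a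
    set m20 := M2tF ν ω B F o l L j a
    have h1 : |mo1 * ml1 - mo0 * ml0| ≤ |mo1 - mo0| + |ml1 - ml0| := by
      have e3 : mo1 * ml1 - mo0 * ml0 = (mo1 - mo0) * ml1 + mo0 * (ml1 - ml0) := by ring
      rw [e3]
      refine (abs_add_le _ _).trans (add_le_add ?_ ?_)
      · rw [abs_mul, abs_of_nonneg ml'.1]
        exact mul_le_of_le_one_right (abs_nonneg _) ml'.2
      · rw [abs_mul, abs_of_nonneg mo.1]
        exact mul_le_of_le_one_left (abs_nonneg _) mo.2
    have h2 : |A - A0| ≤ |m21 - m20| + (|mo1 - mo0| + |ml1 - ml0|) := by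
      have e3 : A - A0 = (m21 - m20) - (mo1 * ml1 - mo0 * ml0) := by rw [e1, e2]; ring
      rw [e3]
      exact (abs_sub _ _).trans (add_le_add le_rfl h1)
    have h3 : A ^ 2 - A0 ^ 2 ≤ 2 * |A - A0| := by
      have e3 : A ^ 2 - A0 ^ 2 = (A - A0) * (A + A0) := by ring
      rw [e3]
      have h4 : |A + A0| ≤ 2 := by rw [abs_le]; constructor <;> linarith [c1.1, c1.2, c2.1, c2.2]
      calc (A - A0) * (A + A0) ≤ |(A - A0) * (A + A0)| := le_abs_self _
        _ = |A - A0| * |A + A0| := abs_mul _ _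
        _ ≤ |A - A0| * 2 := mul_le_mul_of_nonneg_left h4 (abs_nonneg _)
        _ = 2 * |A - A0| := mul_comm _ _
    simp only [hD2, hDo, hDl]
    linarith
  have hiD2 : Integrable D2 P := integrable_bdd
    ((measurable_M2tF T F o l _ _).sub (measurable_M2tF T F o l _ _)).abs 2 fun a => by
      have h3 := M2tF_mem (ν := ν) (ω := ω) (B := B) F o l (L + s) j' a
      have h4 := M2tF_mem (ν := ν) (ω := ω) (B := B) F o l L j a
      simp only [hD2, abs_abs]
      rw [abs_le]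
      constructor <;> linarith [h3.1, h3.2, h4.1, h4.2]
  have hiDo : Integrable Do P := integrable_bdd
    ((measurable_MtF T F o _ _).sub (measurable_MtF T F o _ _)).abs 2 fun a => by
      have h3 := MtF_mem (ν := ν) (ω := ω) (B := B) F o (L + s) j' a
      have h4 := MtF_mem (ν := ν) (ω := ω) (B := B) F o L j a
      simp only [hDo, abs_abs]
      rw [abs_le]
      constructor <;> linarith [h3.1, h3.2, h4.1, h4.2]
  have hiDl : Integrable Dl P := integrable_bdd
    ((measurable_MtF T F l _ _).sub (measurable_MtF T F l _ _)).abs 2 fun a => by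
      have h3 := MtF_mem (ν := ν) (ω := ω) (B := B) F l (L + s) j' a
      have h4 := MtF_mem (ν := ν) (ω := ω) (B := B) F l L j a
      simp only [hDl, abs_abs]
      rw [abs_le]
      constructor <;> linarith [h3.1, h3.2, h4.1, h4.2]
  have hiC : ∀ r k, Integrable (fun a => CRtF ν ω B F o l r k a ^ 2) P := fun r k =>
    integrable_bdd ((measurable_CRtF T F o l r k).pow_const 2) 1 fun a => by
      rw [abs_pow]
      have := abs_CRtF_le (ν := ν) (ω := ω) (B := B) F o l r k a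
      exact pow_le_one₀ (abs_nonneg _) this
  have hint : ∫ a, CRtF ν ω B F o l (L + s) j' a ^ 2 ∂P ≤
      ∫ a, (CRtF ν ω B F o l L j a ^ 2 + 2 * (D2 a + Do a + Dl a)) ∂P :=
    integral_mono (hiC _ _) ((hiC _ _).add (((hiD2.add hiDo).add hiDl).const_mul _)) hpt
  have hsplit : ∫ a, (CRtF ν ω B F o l L j a ^ 2 + 2 * (D2 a + Do a + Dl a)) ∂P =
      CC ν P ω B F o l L j + 2 * (∫ a, D2 a ∂P + ∫ a, Do a ∂P + ∫ a, Dl a ∂P) := by
    have i1 : Integrable (fun a => D2 a + Do a) P := hiD2.add hiDo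
    have i2 : Integrable (fun a => D2 a + Do a + Dl a) P := i1.add hiDl
    have i3 : Integrable (fun a => 2 * (D2 a + Do a + Dl a)) P := i2.const_mul _
    rw [integral_add (hiC _ _) i3, integral_const_mul, integral_add i1 hiDl, integral_add hiD2 hiDo]
    rfl
  have b1 := integral_abs_M2tF_fine T ho hl L s j j' hj'
  have b2 := integral_abs_MtF_fine T ho L s j j' hj'
  have b3 := integral_abs_MtF_fine T hl L s j j' hj'
  unfold CC at hsplit ⊢
  linarith

/-- The one step bound on a truth space. -/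
lemma step_bound_T {F : Finset I} {o : I} (ho : o ∈ F) (C : ℝ)
    (hC : ∀ h : ℝ≥0, h ≠ 0 → (h : ℝ) ≤ 1 → ∀ j : ℕ,
      ∫ a, (mF ν h F o (j + 1) a - mF ν h F o j a) ^ 2 ∂(levP ν h) ≤
        (h : ℝ) * ∑ l ∈ F, ∫ a, cF ν h F o l j a ^ 2 ∂(levP ν h) + C * ((h : ℝ) * Real.sqrt h))
    (r j : ℕ) :
    QM ν P ω B F o r (j + 1) - QM ν P ω B F o r j ≤
      (1 / 2 ^ r : ℝ) * ∑ l ∈ F, CC ν P ω B F o l r j +
        C * ((1 / 2 ^ r : ℝ) * Real.sqrt (1 / 2 ^ r)) := by
  have hle : ((hLev r : ℝ≥0) : ℝ) ≤ 1 := by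
    rw [hLev_coe]
    exact div_le_one_of_le₀ (one_le_pow₀ (by norm_num)) (by positivity)
  have h1 := hC (hLev r) (hLev_ne r) hle j
  rw [← integral_sq_MtF_sub T ho r (Nat.le_succ j)]
  have e1 := T.integral_comp_levMap r
    (fun x => (mF ν (hLev r : ℝ) F o (j + 1) x - mF ν (hLev r : ℝ) F o j x) ^ 2)
    (((measurable_mF' _ F o _).sub (measurable_mF' _ F o _)).pow_const 2)
  simp only [mF_levMap T] at e1
  rw [e1]
  have e2 : ∀ l, CC ν P ω B F o l r j = ∫ a, cF ν (hLev r : ℝ) F o l j a ^ 2 ∂(levP ν (hLev r)) := by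
    intro l
    have e3 := T.integral_comp_levMap r (fun x => cF ν (hLev r : ℝ) F o l j x ^ 2)
      ((measurable_cF' _ F o l j).pow_const 2)
    simp only [cF_levMap T] at e3
    exact e3
  simp_rw [e2]
  rw [← hLev_coe]
  exact h1

end

end TimeE

open TimeE in
open Classical in
/-- Steps 2 and 3: the bound at finite volume. -/
lemma qq_incr_le_fin (T : Truth ν P ω B) {F : Finset I} {o : I} (ho : o ∈ F) {U : Finset I}
    (hU : U ⊆ F) (ε : ℝ) (L j₁ j₂ : ℕ) (hj : j₁ ≤ j₂)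
    (htail : ∀ s j', j' ∈ Finset.Ico (j₁ * 2 ^ s) (j₂ * 2 ^ s) →
      ∑ l ∈ F \ U, CC ν P ω B F o l (L + s) j' ≤ ε) :
    QM ν P ω B F o L j₂ - QM ν P ω B F o L j₁ ≤
      ∑ j ∈ Finset.Ico j₁ j₂, (1 / 2 ^ L : ℝ) * ∑ u ∈ U, CC ν P ω B F o u L j +
      (U.card : ℝ) * (6 * Real.sqrt (j₂ - j₁) * (1 / 2 ^ L)) + ε * ((j₂ - j₁) * (1 / 2 ^ L)) := by
  obtain ⟨C, hC⟩ := exists_step_bound ν F o ho
  set X := ∑ j ∈ Finset.Ico j₁ j₂, (1 / 2 ^ L : ℝ) * ∑ u ∈ U, CC ν P ω B F o u L j with hX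
  set R := (U.card : ℝ) * (6 * Real.sqrt (j₂ - j₁) * (1 / 2 ^ L)) with hR
  set D : ℝ := ((j₂ : ℝ) - j₁) * (1 / 2 ^ L) with hD
  have hj' : (j₁ : ℝ) ≤ j₂ := by exact_mod_cast hj
  have hD0 : 0 ≤ D := mul_nonneg (by linarith) (by positivity)
  -- the bound for each `s`
  have hs : ∀ s : ℕ, QM ν P ω B F o L j₂ - QM ν P ω B F o L j₁ ≤
      X + R + ε * D + D * (C * Real.sqrt (1 / 2 ^ (L + s))) := by
    intro s
    set h : ℝ := 1 / 2 ^ (L + s) with hh
    have hh2 : (2 ^ s : ℝ) * h = 1 / 2 ^ L := by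
      rw [hh, pow_add]
      field_simp
    have hcard : ∀ j, ((Finset.Ico (j * 2 ^ s) ((j + 1) * 2 ^ s)).card : ℝ) = 2 ^ s := by
      intro j
      rw [Nat.card_Ico, Nat.cast_sub (Nat.mul_le_mul_right _ (Nat.le_succ j))]
      push_cast
      ring
    have hcard2 : ((Finset.Ico (j₁ * 2 ^ s) (j₂ * 2 ^ s)).card : ℝ) = ((j₂ : ℝ) - j₁) * 2 ^ s := by
      rw [Nat.card_Ico, Nat.cast_sub (Nat.mul_le_mul_right _ hj)]
      push_cast
      ring
    have hNh : ((Finset.Ico (j₁ * 2 ^ s) (j₂ * 2 ^ s)).card : ℝ) * h = D := by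
      rw [hcard2, hD, mul_assoc, hh2]
    have hh0 : 0 ≤ h := by rw [hh]; positivity
    -- telescoping at the fine level
    have e0 : QM ν P ω B F o L j₂ - QM ν P ω B F o L j₁ =
        ∑ j' ∈ Finset.Ico (j₁ * 2 ^ s) (j₂ * 2 ^ s),
          (QM ν P ω B F o (L + s) (j' + 1) - QM ν P ω B F o (L + s) j') := by
      rw [sum_Ico_telescope _ (Nat.mul_le_mul_right _ hj), QM_lift T, QM_lift T]
    -- the bound for each fine step
    have e1 : ∀ j' ∈ Finset.Ico (j₁ * 2 ^ s) (j₂ * 2 ^ s),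
        QM ν P ω B F o (L + s) (j' + 1) - QM ν P ω B F o (L + s) j' ≤
          h * ∑ u ∈ U, CC ν P ω B F o u (L + s) j' + (h * ε + C * (h * Real.sqrt h)) := by
      intro j' hj''
      have h1 := step_bound_T T ho C hC (L + s) j'
      have h2 := htail s j' hj''
      have h3 : ∑ l ∈ F, CC ν P ω B F o l (L + s) j' =
          ∑ l ∈ F \ U, CC ν P ω B F o l (L + s) j' + ∑ u ∈ U, CC ν P ω B F o u (L + s) j' :=
        (Finset.sum_sdiff hU).symm
      rw [h3] at h1
      have h4 := mul_le_mul_of_nonneg_left h2 hh0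
      have h5 : (1 / 2 ^ (L + s) : ℝ) = h := rfl
      rw [h5] at h1
      nlinarith
    -- blocks
    set E : I → ℕ → ℝ := fun u j =>
      2 * (Real.sqrt (QP ν P ω B F o u L (j + 1) - QP ν P ω B F o u L j) +
              Real.sqrt (QM ν P ω B F o L (j + 1) - QM ν P ω B F o L j) +
              Real.sqrt (QM ν P ω B F u L (j + 1) - QM ν P ω B F u L j)) with hE
    have e2 : ∀ j ∈ Finset.Ico j₁ j₂, ∀ j' ∈ Finset.Ico (j * 2 ^ s) ((j + 1) * 2 ^ s),
        h * ∑ u ∈ U, CC ν P ω B F o u (L + s) j' ≤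
          h * ∑ u ∈ U, (CC ν P ω B F o u L j + E u j) := by
      intro j _ j' hj''
      exact mul_le_mul_of_nonneg_left
        (Finset.sum_le_sum fun u hu => CC_fine_le T ho (hU hu) L s j j' hj'') hh0
    -- the main term
    have e3 : ∑ j' ∈ Finset.Ico (j₁ * 2 ^ s) (j₂ * 2 ^ s),
        h * ∑ u ∈ U, CC ν P ω B F o u (L + s) j' ≤ X + R := by
      rw [sum_Ico_blocks _ _ hj]
      have h1 : ∀ j ∈ Finset.Ico j₁ j₂, ∑ j' ∈ Finset.Ico (j * 2 ^ s) ((j + 1) * 2 ^ s),
          h * ∑ u ∈ U, CC ν P ω B F o u (L + s) j' ≤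
          (1 / 2 ^ L : ℝ) * ∑ u ∈ U, CC ν P ω B F o u L j + (1 / 2 ^ L : ℝ) * ∑ u ∈ U, E u j := by
        intro j hj2
        refine (Finset.sum_le_sum (e2 j hj2)).trans ?_
        rw [Finset.sum_const, nsmul_eq_mul, hcard, ← mul_assoc, hh2, Finset.sum_add_distrib, mul_add]
      refine (Finset.sum_le_sum h1).trans ?_
      rw [Finset.sum_add_distrib]
      refine add_le_add le_rfl ?_
      -- the error term
      have h2 : ∑ j ∈ Finset.Ico j₁ j₂, (1 / 2 ^ L : ℝ) * ∑ u ∈ U, E u j =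
          (1 / 2 ^ L : ℝ) * ∑ u ∈ U, ∑ j ∈ Finset.Ico j₁ j₂, E u j := by
        rw [← Finset.mul_sum, Finset.sum_comm]
      rw [h2, hR]
      have h3 : ∀ u ∈ U, ∑ j ∈ Finset.Ico j₁ j₂, E u j ≤ 6 * Real.sqrt ((j₂ : ℝ) - j₁) := by
        intro u hu
        have b1 := sum_sqrt_incr_le (fun j => QP ν P ω B F o u L j)
          (fun j => QP_mono T ho (hU hu) L (Nat.le_succ j)) (fun j => QP_nonneg T _ _ _ _ _)
          (fun j => QP_le_one T _ _ _ _ _) hj
        have b2 := sum_sqrt_incr_le (fun j => QM ν P ω B F o L j)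
          (fun j => QM_mono T ho L (Nat.le_succ j)) (fun j => QM_nonneg T _ _ _ _)
          (fun j => QM_le_one T _ _ _ _) hj
        have b3 := sum_sqrt_incr_le (fun j => QM ν P ω B F u L j)
          (fun j => QM_mono T (hU hu) L (Nat.le_succ j)) (fun j => QM_nonneg T _ _ _ _)
          (fun j => QM_le_one T _ _ _ _) hj
        simp only [hE]
        rw [← Finset.mul_sum, Finset.sum_add_distrib, Finset.sum_add_distrib]
        linarith
      have h4 := Finset.sum_le_sum h3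
      rw [Finset.sum_const, nsmul_eq_mul] at h4
      have h5 : (0 : ℝ) ≤ 1 / 2 ^ L := by positivity
      have h6 := mul_le_mul_of_nonneg_left h4 h5
      calc _ ≤ _ := h6
        _ = _ := by ring
    rw [e0]
    refine (Finset.sum_le_sum e1).trans ?_
    rw [Finset.sum_add_distrib, Finset.sum_const, nsmul_eq_mul]
    have e4 : ((Finset.Ico (j₁ * 2 ^ s) (j₂ * 2 ^ s)).card : ℝ) * (h * ε + C * (h * Real.sqrt h)) =
        ε * D + D * (C * Real.sqrt h) := by
      rw [← hNh]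
      ring
    rw [e4]
    linarith
  -- the limit `s → ∞`
  have hlim : Tendsto (fun s : ℕ => X + R + ε * D + D * (C * Real.sqrt (1 / 2 ^ (L + s)))) atTop
      (𝓝 (X + R + ε * D + D * (C * Real.sqrt 0))) := by
    refine Tendsto.add tendsto_const_nhds (Tendsto.const_mul _ (Tendsto.const_mul _ ?_))
    refine Real.continuous_sqrt.continuousAt.tendsto.comp ?_
    have h1 : Tendsto (fun s : ℕ => (1 / 2 : ℝ) ^ s) atTop (𝓝 0) :=
      tendsto_pow_atTop_nhds_zero_of_lt_one (by norm_num) (by norm_num)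
    have h2 : Tendsto (fun s : ℕ => (1 / 2 ^ L : ℝ) * (1 / 2 : ℝ) ^ s) atTop (𝓝 ((1 / 2 ^ L : ℝ) * 0)) :=
      h1.const_mul _
    rw [mul_zero] at h2
    refine h2.congr fun s => ?_
    rw [pow_add, one_div_pow]
    field_simp
  have hfin := ge_of_tendsto' hlim hs
  simp only [Real.sqrt_zero, mul_zero, add_zero] at hfin
  exact hfin

/-- The bound on the increment of the second moment of the posterior mean. -/
theorem qq_incr_le (T : Truth ν P ω B) (hFs : GoodExh Fs) (o : I) (U : Finset I) (ε : ℝ)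
    (L j₁ j₂ : ℕ) (hj : j₁ ≤ j₂) (htail : TailHyp ν Fs P ω B o U ε L j₁ j₂) :
    qq ν Fs P ω B o L j₂ - qq ν Fs P ω B o L j₁ ≤
      ∑ j ∈ Finset.Ico j₁ j₂, (1 / 2 ^ L : ℝ) * ∑ u ∈ U, ∫ a, CRt ν Fs ω B o u L j a ^ 2 ∂P +
      (U.card : ℝ) * (6 * Real.sqrt (j₂ - j₁) * (1 / 2 ^ L)) + ε * ((j₂ - j₁) * (1 / 2 ^ L)) := by
  classical
  -- eventually `U` is in the exhaustion
  have hUev : ∀ᶠ N in atTop, U ⊆ Fs o N := by
    have : ∀ᶠ N in atTop, ∀ u ∈ U, u ∈ Fs o N := by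
      rw [Filter.eventually_all_finset]
      intro u _
      obtain ⟨N₀, hN₀⟩ := hFs.exh o u
      filter_upwards [eventually_ge_atTop N₀] with N hN
      exact hFs.mono o hN hN₀
    exact this
  have hev : ∀ᶠ N in atTop,
      TimeE.QM ν P ω B (Fs o N) o L j₂ - TimeE.QM ν P ω B (Fs o N) o L j₁ ≤
      ∑ j ∈ Finset.Ico j₁ j₂, (1 / 2 ^ L : ℝ) * ∑ u ∈ U, TimeE.CC ν P ω B (Fs o N) o u L j +
      (U.card : ℝ) * (6 * Real.sqrt (j₂ - j₁) * (1 / 2 ^ L)) + ε * ((j₂ - j₁) * (1 / 2 ^ L)) := by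
    filter_upwards [hUev, htail] with N hN hN2
    refine qq_incr_le_fin T (hFs.mem o N) hN ε L j₁ j₂ hj ?_
    intro s j' hj'
    exact hN2 s j' hj'
  -- limits
  have hQ : ∀ j, Tendsto (fun N => TimeE.QM ν P ω B (Fs o N) o L j) atTop
      (𝓝 (qq ν Fs P ω B o L j)) := by
    intro j
    refine tendsto_integral_of_dominated_convergence (fun _ => (1 : ℝ))
      (fun N => ((TimeE.measurable_MtF T _ o L j).pow_const 2).aestronglyMeasurable)
      (integrable_const _) (fun N => ae_of_all _ fun a => ?_) ?_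
    · have := TimeE.MtF_mem (ν := ν) (ω := ω) (B := B) (Fs o N) o L j a
      rw [Real.norm_eq_abs, abs_pow]
      exact pow_le_one₀ (abs_nonneg _) (by rw [abs_le]; constructor <;> linarith [this.1, this.2])
    · filter_upwards [ae_tendsto_MtF T hFs o o L j] with a ha
      exact ha.pow 2
  have hCC : ∀ u j, Tendsto (fun N => TimeE.CC ν P ω B (Fs o N) o u L j) atTop
      (𝓝 (∫ a, CRt ν Fs ω B o u L j a ^ 2 ∂P)) := by
    intro u j
    refine tendsto_integral_of_dominated_convergence (fun _ => (1 : ℝ))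
      (fun N => ((TimeE.measurable_CRtF T _ o u L j).pow_const 2).aestronglyMeasurable)
      (integrable_const _) (fun N => ae_of_all _ fun a => ?_) ?_
    · have := TimeE.abs_CRtF_le (ν := ν) (ω := ω) (B := B) (Fs o N) o u L j a
      rw [Real.norm_eq_abs, abs_pow]
      exact pow_le_one₀ (abs_nonneg _) this
    · filter_upwards [ae_tendsto_CRtF T hFs o u L j] with a ha
      exact ha.pow 2
  refine le_of_tendsto_of_tendsto ((hQ j₂).sub (hQ j₁)) ?_ hev
  refine Tendsto.add (Tendsto.add ?_ tendsto_const_nhds) tendsto_const_nhds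
  refine tendsto_finset_sum _ fun j _ => Tendsto.const_mul _ ?_
  exact tendsto_finset_sum _ fun u _ => hCC u j

end Crest.Agent.Lib.IT
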