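/-
The decay of the levels of the covariances in finite and infinite volume (statement S0241).
-/
import Crest.Agent.Lib.IT.LinkPath
import Crest.Agent.Lib.IT.PlantedC
import Crest.Agent.Lib.IT.TimeE

set_option autoImplicit false
set_option linter.unusedSectionVars false

namespace Crest.Agent.Lib.IT

open MeasureTheory ProbabilityTheory SimpleGraph Filter Topology
open scoped ENNReal NNReal
open Crest.Agent.Lib.Loc

variable {V : Type*} {G : SimpleGraph V} [G.LocallyFinite] {k : ℕ} {θ : ℝ} [Countable V]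
  {ν : Measure (V → Bool)} [IsProbabilityMeasure ν]

/-- The variant of `LvF_le` with a rate valid for all large depths. -/
theorem LvF_le' {τ : ℝ} (h0 : 0 ≤ θ) (h1 : θ < 1) (hk : 2 ≤ k) (hkθ : (k : ℝ) * θ ^ 2 ≤ 1) (hτ : 0 < τ)
    {β : ℝ} {N₁ : ℕ} (hβ0 : 0 ≤ β) (hβ : ∀ N, N₁ ≤ N → (k : ℝ) * θ ^ 2 * (1 - kill θ (xN k θ τ N)) ≤ β)
    (ℓ N : ℕ) (hN : N₁ + ℓ ≤ N) :
    ∫ d, Real.sqrt (PhiF θ (msg θ N d)) * LvF θ ℓ N d ∂(Pcan k θ τ) ≤ β ^ ℓ := by
  have := isProb_Pcan (k := k) (τ := τ) h0 h1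
  induction ℓ generalizing N with
  | zero =>
    have hb : ∀ d : OmCan k, Real.sqrt (PhiF θ (msg θ N d)) * LvF θ 0 N d ≤ 1 := by
      intro d
      simp only [LvF, mul_one]
      exact pc_sqrtPhi_le_one h0 h1 _ _
    calc _ ≤ ∫ _, (1 : ℝ) ∂(Pcan k θ τ) := by
          apply integral_mono _ (integrable_const _) hb
          refine pc_integrable_of_bdd h0 h1 ?_ 1 ?_ hb
          · exact (pc_measurable_sqrtPhi θ N).mul (pc_measurable_LvF θ 0 N)
          · exact fun d => mul_nonneg (Real.sqrt_nonneg _) (pc_LvF_nonneg h0 h1 hkθ _ _ _)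
      _ = _ := by simp
  | succ ℓ ih =>
    obtain ⟨M, rfl⟩ : ∃ M, N = M + 1 := ⟨N - 1, by omega⟩
    set H : OmCan k → ℝ := fun d => Real.sqrt (PhiF θ (msg θ M d)) * LvF θ ℓ M d with hHdef
    have hHm : Measurable H := (pc_measurable_sqrtPhi θ M).mul (pc_measurable_LvF θ ℓ M)
    have hH0 : ∀ d, 0 ≤ H d := fun d => mul_nonneg (Real.sqrt_nonneg _) (pc_LvF_nonneg h0 h1 hkθ _ _ _)
    have hH1 : ∀ d, H d ≤ 1 := fun d => by
      calc H d ≤ 1 * 1 := mul_le_mul (pc_sqrtPhi_le_one h0 h1 _ _) (pc_LvF_le_one h0 h1 hkθ _ _ _)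
            (pc_LvF_nonneg h0 h1 hkθ _ _ _) (by norm_num)
        _ = 1 := one_mul _
    have e : ∀ d : OmCan k, LvF θ (ℓ + 1) (M + 1) d = θ ^ 2 * ∑ j : Fin k, H (shiftD j d) := fun d => rfl
    simp_rw [e]
    refine (pc_step_killing h0 h1 hk hτ M hHm hH0 1 hH1).trans ?_
    have hI : 0 ≤ ∫ d, H d ∂(Pcan k θ τ) := integral_nonneg hH0
    have hL : ∫ d, H d ∂(Pcan k θ τ) ≤ β ^ ℓ := ih M (by omega)
    rw [pow_succ' _ ℓ]
    calc (k : ℝ) * θ ^ 2 * (1 - kill θ (xN k θ τ M)) * ∫ d, H d ∂(Pcan k θ τ)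
        ≤ β * ∫ d, H d ∂(Pcan k θ τ) := mul_le_mul_of_nonneg_right (hβ M (by omega)) hI
      _ ≤ β * β ^ ℓ := mul_le_mul_of_nonneg_left hL hβ0

/-! ### Geodesics through the first step -/

omit [G.LocallyFinite] [Countable V] [IsProbabilityMeasure ν] in
/-- A geodesic from `c` through the neighbour `c'` continues as the geodesic from `c'`. -/
lemma lt_gp_shift (hT : G.IsTree) {c c' x : V} (hadj : G.Adj c c')
    (hd : G.dist c x = G.dist c' x + 1) (i : ℕ) : gp hT c x (i + 1) = gp hT c' x i := by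
  induction i with
  | zero =>
    rw [gp_succ, gp_zero, gp_zero]
    refine (eq_nxt hT hadj ?_).symm
    rw [dist_comm (u := x), dist_comm (u := x)]
    omega
  | succ i ih =>
    rw [gp_succ, ih, gp_succ]

section ring
variable (S : ChSys G k) (σ : V → Bool) (ζ : V → ℝ)

/-- The weight of a path. -/
noncomputable def ltPW (hT : G.IsTree) (θ : ℝ) (S : ChSys G k) (σ : V → Bool) (ζ : V → ℝ)
    (N : ℕ) (c x : V) (ℓ : ℕ) : ℝ :=
  ∏ i ∈ Finset.range ℓ, Real.sqrt (PhiF θ (msg θ (N - i - 1)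
    (Dmap S σ ζ (gp hT c x (i + 1)) (gp hT c x i))))

omit [Countable V] [IsProbabilityMeasure ν] in
lemma ltPW_succ (hT : G.IsTree) (N : ℕ) {c c' x : V} (hadj : G.Adj c c')
    (hd : G.dist c x = G.dist c' x + 1) (ℓ : ℕ) :
    ltPW hT θ S σ ζ N c x (ℓ + 1) =
      Real.sqrt (PhiF θ (msg θ (N - 1) (Dmap S σ ζ c' c))) * ltPW hT θ S σ ζ (N - 1) c' x ℓ := by
  unfold ltPW
  rw [Finset.prod_range_succ', mul_comm]
  congr 1
  · rw [lt_gp_shift hT hadj hd 0, gp_zero, gp_zero]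
    rfl
  · refine Finset.prod_congr rfl fun i _ => ?_
    rw [lt_gp_shift hT hadj hd (i + 1), lt_gp_shift hT hadj hd i]
    have : N - (i + 1) - 1 = N - 1 - i - 1 := by omega
    rw [this]

open Classical in
omit [Countable V] [IsProbabilityMeasure ν] in
/-- The sum of the weights over a ring. -/
lemma sum_ring_ltPW (hT : G.IsTree) (ℓ N : ℕ) {c p : V} (hcp : G.Adj c p) :
    ∑ x ∈ ringF G ℓ c p, θ ^ (2 * ℓ) * ltPW hT θ S σ ζ N c x ℓ = LvF θ ℓ N (Dmap S σ ζ c p) := by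
  induction ℓ generalizing N c p with
  | zero =>
    simp [ringF, ltPW, LvF]
  | succ ℓ ih =>
    have hdisj : Set.PairwiseDisjoint (↑(kids G c p)) (fun c' => ringF G ℓ c' c) := by
      intro c1 h1 c2 h2 hne
      simp only [Function.onFun]
      rw [Finset.disjoint_left]
      intro x hx1 hx2
      have a1 := mem_kids.1 h1
      have a2 := mem_kids.1 h2
      have s1 := ((mem_ringF hT a1.1.symm).1 hx1).2
      have s2 := ((mem_ringF hT a2.1.symm).1 hx2).2
      simp only [mem_side] at s1 s2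
      refine hne (closer_unique hT (z := x) a1.1 a2.1 ?_ ?_)
      · rw [dist_comm (u := x), dist_comm (u := x)]; omega
      · rw [dist_comm (u := x), dist_comm (u := x)]; omega
    have e0 : ringF G (ℓ + 1) c p = (kids G c p).biUnion (fun c' => ringF G ℓ c' c) := by
      simp only [ringF]
    rw [e0, Finset.sum_biUnion hdisj]
    have e1 : ∀ c' ∈ kids G c p, ∑ x ∈ ringF G ℓ c' c, θ ^ (2 * (ℓ + 1)) * ltPW hT θ S σ ζ N c x (ℓ + 1) =
        θ ^ 2 * (Real.sqrt (PhiF θ (msg θ (N - 1) (Dmap S σ ζ c' c))) *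
          LvF θ ℓ (N - 1) (Dmap S σ ζ c' c)) := by
      intro c' hc'
      have a1 := mem_kids.1 hc'
      rw [← ih (N - 1) a1.1.symm, Finset.mul_sum, Finset.mul_sum]
      refine Finset.sum_congr rfl fun x hx => ?_
      have s1 := ((mem_ringF hT a1.1.symm).1 hx).2
      simp only [mem_side] at s1
      rw [ltPW_succ S σ ζ hT N a1.1 s1 ℓ]
      ring
    rw [Finset.sum_congr rfl e1, pc_LvF_succ', ← Finset.mul_sum]
    congr 1
    symm
    refine Finset.sum_bij (fun i _ => S.ch c p i) (fun i _ => S.mem hcp i)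
      (fun i _ j _ h => S.inj hcp h) (fun x hx => ?_) (fun i _ => ?_)
    · obtain ⟨i, hi⟩ := S.surj hcp hx
      exact ⟨i, Finset.mem_univ _, hi⟩
    · rw [shiftD_Dmap]

end ring

/-- The elementary bound for the product of the `PhiF` along a path. -/
lemma lt_prod_sq_le {ι : Type*} (s : Finset ι) (f : ι → ℝ) (h0 : ∀ i ∈ s, 0 ≤ f i) (h1 : ∀ i ∈ s, f i ≤ 1) :
    (∏ i ∈ s, f i) ^ 2 ≤ ∏ i ∈ s, Real.sqrt (f i) := by
  rw [← Finset.prod_pow]
  refine Finset.prod_le_prod (fun i hi => sq_nonneg _) fun i hi => ?_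
  have h2 : f i ≤ Real.sqrt (f i) := by
    apply Real.le_sqrt_of_sq_le
    have := h0 i hi
    have := h1 i hi
    nlinarith
  have h3 : f i ^ 2 ≤ f i := by
    have := h0 i hi
    have := h1 i hi
    nlinarith
  linarith

section
variable (hT : G.IsTree) (hk : 2 ≤ k) (hreg : G.IsRegularOfDegree (k + 1)) (h0 : 0 ≤ θ) (h1 : θ < 1)
  (hkθ : (k : ℝ) * θ ^ 2 ≤ 1) (hν : IsIsing G θ ν)

include hT h0 h1 hν in
/-- The square of the finite-volume covariance is bounded by the weight of the path. -/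
lemma lt_CRtF_sq_le (S : ChSys G k) (o l : V) (n j N : ℕ) (hN : G.dist o l ≤ N) (a : TΩ V) :
    CRtF ν Prod.fst truthB (ballF G N o) o l n j a ^ 2 ≤
      (1 / 16) * (θ ^ (2 * G.dist o l) *
        ltPW hT θ S a.1 (zOf n j a) N o l (G.dist o l)) := by
  classical
  set F := ballF G N o with hF
  have hoF : o ∈ F := self_mem_ballF hT N o
  have hlF : l ∈ F := (mem_ballF hT).2 hN
  have hpath := CC_path_msg h0 h1 hT hν (tm n j) (Yt n j a) (isCvx_ball h0 h1 hT hν o N) hoF hlF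
  have hCC : CRtF ν Prod.fst truthB F o l n j a = (1 / 4) * CC ν F o l (tm n j) (Yt n j a) := by
    unfold CRtF Cfin CC
    ring
  have hphi : ∀ i ∈ Finset.range (G.dist o l),
      PhiF θ (MM ν (Fside G F (gp hT o l (i + 1)) (gp hT o l i)) (gp hT o l (i + 1)) (tm n j) (Yt n j a)) =
        PhiF θ (msg θ (N - i - 1) (Dmap S a.1 (zOf n j a) (gp hT o l (i + 1)) (gp hT o l i))) := by
    intro i hi
    have hi' := Finset.mem_range.1 hi
    have hadj := gp_adj hT o l hi'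
    have hd1 : G.dist o (gp hT o l (i + 1)) = i + 1 := gp_dist_start hT o l (by omega)
    have hd0 : G.dist o (gp hT o l i) = i := gp_dist_start hT o l (by omega)
    have hside := Fside_ball_child h0 h1 hT hν (o := o) hadj (by omega) N (by omega)
    rw [hF, hside, hd1]
    have e : N - (i + 1) = N - i - 1 := by omega
    rw [e, MM_subT_eq_msg hT h0 h1 hν S hadj.symm (N - i - 1) n j a]
    unfold PhiF
    have hs : sg (a.1 (gp hT o l (i + 1))) ^ 2 = 1 := by
      unfold sg; split_ifs <;> norm_num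
    have : (sg (a.1 (gp hT o l (i + 1))) *
        msg θ (N - i - 1) (Dmap S a.1 (zOf n j a) (gp hT o l (i + 1)) (gp hT o l i))) ^ 2 =
        msg θ (N - i - 1) (Dmap S a.1 (zOf n j a) (gp hT o l (i + 1)) (gp hT o l i)) ^ 2 := by
      rw [mul_pow, hs, one_mul]
    rw [this]
  rw [Finset.prod_congr rfl hphi] at hpath
  rw [hCC, hpath]
  set P := ∏ i ∈ Finset.range (G.dist o l),
    PhiF θ (msg θ (N - i - 1) (Dmap S a.1 (zOf n j a) (gp hT o l (i + 1)) (gp hT o l i))) with hP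
  have hPle : P ^ 2 ≤ ltPW hT θ S a.1 (zOf n j a) N o l (G.dist o l) := by
    refine lt_prod_sq_le _ _ (fun i _ => PhiF_nonneg h0 h1 (abs_msg_le h0 h1 _ _))
      (fun i _ => PhiF_le_one h0 h1 (abs_msg_le h0 h1 _ _))
  have hM := abs_MM_le ν F o (tm n j) (Yt n j a)
  set m := MM ν F o (tm n j) (Yt n j a) with hm
  have hm2 : (1 - m ^ 2) ^ 2 ≤ 1 := by
    have h3 : m ^ 2 ≤ 1 := by
      rw [← sq_abs]
      exact pow_le_one₀ (abs_nonneg _) hM
    nlinarith [sq_nonneg m]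
  have hP0 : 0 ≤ P ^ 2 := sq_nonneg _
  have hpw0 : 0 ≤ θ ^ (2 * G.dist o l) := pow_nonneg h0 _
  calc ((1 / 4) * (θ ^ G.dist o l * (1 - m ^ 2) * P)) ^ 2
      = (1 / 16) * (θ ^ (2 * G.dist o l) * ((1 - m ^ 2) ^ 2 * P ^ 2)) := by
        rw [pow_mul']
        ring
    _ ≤ (1 / 16) * (θ ^ (2 * G.dist o l) * (1 * P ^ 2)) := by
        gcongr
    _ ≤ (1 / 16) * (θ ^ (2 * G.dist o l) * ltPW hT θ S a.1 (zOf n j a) N o l (G.dist o l)) := by
        rw [one_mul]
        gcongr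

include hT hk hreg h0 h1 hkθ hν

/-- The sum over a sphere of the squares of the finite-volume covariances with the centre. -/
theorem sum_sphere_CRtF_le (o : V) {β : ℝ} {N₁ : ℕ} (hβ0 : 0 ≤ β) (n j : ℕ) (ht : 0 < tm n j)
    (hβ : ∀ N, N₁ ≤ N → (k : ℝ) * θ ^ 2 * (1 - kill θ (xN k θ (tm n j / 4) N)) ≤ β)
    (r N : ℕ) (hN : N₁ + r ≤ N) (hr : 1 ≤ r) :
    ∑ l ∈ sphereF G r o, ∫ a, CRtF ν Prod.fst truthB (ballF G N o) o l n j a ^ 2 ∂(truthP ν) ≤
      (1 / 16) * ((k : ℝ) + 1) * θ ^ 2 * β ^ (r - 1) := by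
  classical
  obtain ⟨r', rfl⟩ : ∃ r', r = r' + 1 := ⟨r - 1, by omega⟩
  obtain ⟨k', rfl⟩ : ∃ k', k = k' + 1 := ⟨k - 1, by omega⟩
  obtain ⟨S, -⟩ := exists_chSys (k := k') hT hreg (fun _ => o) 0 ⟨fun i hi => absurd hi (by omega),
    fun i hi => absurd hi (by omega)⟩
  simp only [Nat.add_sub_cancel]
  have hτ : 0 < tm n j / 4 := by positivity
  have := isProb_Pcan (k := k' + 1) (τ := tm n j / 4) h0 h1
  -- the function integrated
  set g : OmCan (k' + 1) → ℝ := fun d => Real.sqrt (PhiF θ (msg θ (N - 1) d)) * LvF θ r' (N - 1) d with hg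
  have hgm : Measurable g := (pc_measurable_sqrtPhi θ (N - 1)).mul (pc_measurable_LvF θ r' (N - 1))
  have hg0 : ∀ d, 0 ≤ g d := fun d => mul_nonneg (Real.sqrt_nonneg _) (pc_LvF_nonneg h0 h1 hkθ _ _ _)
  have hg1 : ∀ d, g d ≤ 1 := fun d => by
    calc g d ≤ 1 * 1 := mul_le_mul (pc_sqrtPhi_le_one h0 h1 _ _) (pc_LvF_le_one h0 h1 hkθ _ _ _)
          (pc_LvF_nonneg h0 h1 hkθ _ _ _) (by norm_num)
      _ = 1 := one_mul _
  have hgb : ∀ d, ‖g d‖ ≤ 1 := fun d => by
    rw [Real.norm_eq_abs, abs_of_nonneg (hg0 d)]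
    exact hg1 d
  -- pointwise bound
  have hpt : ∀ a : TΩ V, ∑ l ∈ sphereF G (r' + 1) o, CRtF ν Prod.fst truthB (ballF G N o) o l n j a ^ 2 ≤
      (1 / 16) * θ ^ 2 * ∑ c ∈ G.neighborFinset o, g (Dmap S a.1 (zOf n j a) c o) := by
    intro a
    have hdisj : Set.PairwiseDisjoint (↑(G.neighborFinset o)) (fun c => ringF G r' c o) := by
      intro c1 h1 c2 h2 hne
      simp only [Function.onFun]
      rw [Finset.disjoint_left]
      intro x hx1 hx2
      have a1 := (mem_neighborFinset _ _ _).1 (Finset.mem_coe.1 h1)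
      have a2 := (mem_neighborFinset _ _ _).1 (Finset.mem_coe.1 h2)
      have s1 := ((mem_ringF hT a1.symm).1 hx1).2
      have s2 := ((mem_ringF hT a2.symm).1 hx2).2
      simp only [mem_side] at s1 s2
      refine hne (closer_unique hT (z := x) a1 a2 ?_ ?_)
      · rw [dist_comm (u := x), dist_comm (u := x)]; omega
      · rw [dist_comm (u := x), dist_comm (u := x)]; omega
    have e0 : sphereF G (r' + 1) o = (G.neighborFinset o).biUnion (fun c => ringF G r' c o) := by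
      simp only [sphereF]
    rw [e0, Finset.sum_biUnion hdisj, Finset.mul_sum]
    refine Finset.sum_le_sum fun c hc => ?_
    have hco := (mem_neighborFinset _ _ _).1 hc
    have e2 : g (Dmap S a.1 (zOf n j a) c o) = Real.sqrt (PhiF θ (msg θ (N - 1) (Dmap S a.1 (zOf n j a) c o))) *
        ∑ x ∈ ringF G r' c o, θ ^ (2 * r') * ltPW hT θ S a.1 (zOf n j a) (N - 1) c x r' := by
      rw [sum_ring_ltPW S a.1 (zOf n j a) hT r' (N - 1) hco.symm]
    rw [e2, Finset.mul_sum, Finset.mul_sum]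
    refine Finset.sum_le_sum fun x hx => ?_
    obtain ⟨hd1, hs⟩ := (mem_ringF hT hco.symm).1 hx
    simp only [mem_side] at hs
    have hdo : G.dist o x = r' + 1 := by omega
    have hb := lt_CRtF_sq_le hT h0 h1 hν S o x n j N (by omega) a
    rw [hdo] at hb
    refine hb.trans (le_of_eq ?_)
    rw [ltPW_succ S a.1 (zOf n j a) hT N hco hs r']
    rw [show 2 * (r' + 1) = 2 * r' + 2 by ring, pow_add]
    ring
  -- integrate
  have hIg : ∀ c, G.Adj c o → ∫ a, g (Dmap S a.1 (zOf n j a) c o) ∂(truthP ν) ≤ β ^ r' := by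
    intro c hco
    have hm := measurable_Dmap S n j c o
    have hmap := map_Dmap (ν := ν) hT h0 h1 hν S hco n j
    have h3 := integral_map (μ := truthP ν) hm.aemeasurable (f := g) hgm.aestronglyMeasurable
    rw [hmap] at h3
    rw [← h3]
    exact LvF_le' h0 h1 hk hkθ hτ hβ0 hβ r' (N - 1) (by omega)
  have hintg : ∀ c, Integrable (fun a : TΩ V => g (Dmap S a.1 (zOf n j a) c o)) (truthP ν) := by
    intro c
    refine Integrable.of_bound (hgm.comp (measurable_Dmap S n j c o)).aestronglyMeasurable 1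
      (Filter.Eventually.of_forall fun a => hgb _)
  have hC : ∀ l, Integrable (fun a => CRtF ν Prod.fst truthB (ballF G N o) o l n j a ^ 2) (truthP ν) := by
    intro l
    refine Integrable.of_bound
      ((TimeE.measurable_CRtF (truth_spec ν) _ o l n j).pow_const 2).aestronglyMeasurable 1
      (Filter.Eventually.of_forall fun a => ?_)
    have := TimeE.abs_CRtF_le (ν := ν) (ω := Prod.fst) (B := truthB) (ballF G N o) o l n j a
    rw [Real.norm_eq_abs, abs_pow]
    exact pow_le_one₀ (abs_nonneg _) this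
  rw [← integral_finsetSum _ fun l _ => hC l]
  have hcard : ((G.neighborFinset o).card : ℝ) = (k' + 1 : ℕ) + 1 := by
    rw [G.card_neighborFinset_eq_degree, hreg o]
    push_cast
    ring
  calc ∫ a, ∑ l ∈ sphereF G (r' + 1) o, CRtF ν Prod.fst truthB (ballF G N o) o l n j a ^ 2 ∂(truthP ν)
      ≤ ∫ a, (1 / 16) * θ ^ 2 * ∑ c ∈ G.neighborFinset o, g (Dmap S a.1 (zOf n j a) c o) ∂(truthP ν) := by
        refine integral_mono ?_ ?_ hpt
        · exact integrable_finsetSum _ fun l _ => hC l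
        · exact (integrable_finsetSum _ fun c _ => hintg c).const_mul _
    _ = (1 / 16) * θ ^ 2 * ∑ c ∈ G.neighborFinset o, ∫ a, g (Dmap S a.1 (zOf n j a) c o) ∂(truthP ν) := by
        rw [integral_const_mul, integral_finsetSum _ fun c _ => hintg c]
    _ ≤ (1 / 16) * θ ^ 2 * ∑ c ∈ G.neighborFinset o, β ^ r' := by
        refine mul_le_mul_of_nonneg_left ?_ (by positivity)
        exact Finset.sum_le_sum fun c hc => hIg c ((mem_neighborFinset _ _ _).1 hc).symm
    _ = (1 / 16) * (((k' + 1 : ℕ) : ℝ) + 1) * θ ^ 2 * β ^ r' := by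
        rw [Finset.sum_const, nsmul_eq_mul, hcard]
        ring

/-- The sum over a sphere of the squares of the covariances with the centre. -/
theorem sum_sphere_CRT_le (o : V) {β : ℝ} {N₁ : ℕ} (hβ0 : 0 ≤ β) (n j : ℕ) (ht : 0 < tm n j)
    (hβ : ∀ N, N₁ ≤ N → (k : ℝ) * θ ^ 2 * (1 - kill θ (xN k θ (tm n j / 4) N)) ≤ β)
    (r : ℕ) (hr : 1 ≤ r) :
    ∑ l ∈ sphereF G r o, ∫ a, CRT ν G o l n j a ^ 2 ∂(truthP ν) ≤
      (1 / 16) * ((k : ℝ) + 1) * θ ^ 2 * β ^ (r - 1) := by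
  have hCC : ∀ l, Tendsto (fun N => ∫ a, CRtF ν Prod.fst truthB (ballF G N o) o l n j a ^ 2 ∂(truthP ν)) atTop
      (𝓝 (∫ a, CRT ν G o l n j a ^ 2 ∂(truthP ν))) := by
    intro l
    refine tendsto_integral_of_dominated_convergence (fun _ => (1 : ℝ))
      (fun N => ((TimeE.measurable_CRtF (truth_spec ν) _ o l n j).pow_const 2).aestronglyMeasurable)
      (integrable_const _) (fun N => ae_of_all _ fun a => ?_) ?_
    · have := TimeE.abs_CRtF_le (ν := ν) (ω := Prod.fst) (B := truthB) (ballF G N o) o l n j a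
      rw [Real.norm_eq_abs, abs_pow]
      exact pow_le_one₀ (abs_nonneg _) this
    · filter_upwards [ae_tendsto_CRtF (truth_spec ν) (goodExh_ballFs hT) o l n j] with a ha
      exact ha.pow 2
  refine le_of_tendsto (tendsto_finsetSum _ fun l _ => hCC l) ?_
  filter_upwards [eventually_ge_atTop (N₁ + r)] with N hN
  exact sum_sphere_CRtF_le hT hk hreg h0 h1 hkθ hν o hβ0 n j ht hβ r N hN hr

/-- The tail hypothesis on a time interval away from zero. -/
theorem exists_tailHyp (o : V) {s₀ : ℝ} (hs₀ : 0 < s₀) {ε : ℝ} (hε : 0 < ε) :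
    ∃ R : ℕ, ∀ L j₁ j₂ : ℕ, s₀ ≤ tm L j₁ →
      TailHyp ν (ballFs G) (truthP ν) Prod.fst truthB o (ballF G R o) ε L j₁ j₂ := by
  classical
  set τ₁ := s₀ / 4 with hτ₁
  have hτ₁0 : 0 < τ₁ := by positivity
  set x₁ := (1 / 2) * Real.tanh (τ₁ / 2) ^ 2 with hx₁
  have htanh : 0 < Real.tanh (τ₁ / 2) := by
    rw [Real.tanh_eq_sinh_div_cosh]
    exact div_pos (Real.sinh_pos_iff.2 (by positivity)) (Real.cosh_pos _)
  have hx₁0 : 0 < x₁ := by positivity
  have hx₁N : ∀ t : ℝ, s₀ ≤ t → ∀ N, x₁ ≤ xN k θ (t / 4) N := by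
    intro t ht N
    have hτ : 0 < t / 4 := by
      have : 0 < t := lt_of_lt_of_le hs₀ ht
      positivity
    exact (ttl_ge_large hτ₁0 (by rw [hτ₁]; linarith)).trans (ttl_le_xN h0 h1 hτ N)
  have hx₁1 : x₁ ≤ 1 := by
    have := hx₁N s₀ le_rfl 0
    have h3 := isProb_Pcan (k := k) (τ := s₀ / 4) h0 h1
    exact this.trans (pc_xN_le_one h0 h1 0)
  set β := (k : ℝ) * θ ^ 2 * (1 - kill θ x₁) with hβdef
  have hkill := pc_kill_le_half h0 h1 hx₁1
  have hβ0 : 0 ≤ β := mul_nonneg (by positivity) (by linarith)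
  have hβ1 : β < 1 := by
    rcases h0.eq_or_lt with rfl | hθ
    · simp [hβdef]
    · have hk0 : 0 < kill θ x₁ := by
        unfold kill
        have h2 : 0 < 1 - θ ^ 2 := by nlinarith
        have h3 : 0 < 1 - θ := by linarith
        have h5 : 0 < (1 - θ) / (1 + θ) ^ 2 := by positivity
        positivity
      have h4 : 0 ≤ 1 - kill θ x₁ := by linarith
      calc β ≤ 1 * (1 - kill θ x₁) := mul_le_mul_of_nonneg_right hkθ h4
        _ < 1 := by linarith
  set C : ℝ := (1 / 16) * ((k : ℝ) + 1) * θ ^ 2 with hC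
  have hC0 : 0 ≤ C := by positivity
  have h1β : 0 < 1 - β := by linarith
  obtain ⟨R, hR⟩ := exists_pow_lt_of_lt_one (show 0 < ε * (1 - β) / (C + 1) by positivity) hβ1
  refine ⟨R, fun L j₁ j₂ hj₁ => Filter.Eventually.of_forall fun N s j' hj' => ?_⟩
  obtain ⟨hj1, hj2⟩ := Finset.mem_Ico.1 hj'
  have ht : s₀ ≤ tm (L + s) j' := by
    refine hj₁.trans ?_
    rw [← tm_lift L j₁ s]
    exact tm_mono_right _ hj1
  have ht0 : 0 < tm (L + s) j' := lt_of_lt_of_le hs₀ ht
  have hβN : ∀ N', 0 ≤ N' → (k : ℝ) * θ ^ 2 * (1 - kill θ (xN k θ (tm (L + s) j' / 4) N')) ≤ β := by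
    intro N' _
    refine mul_le_mul_of_nonneg_left ?_ (by positivity)
    have := pc_kill_mono h0 h1 (hx₁N _ ht N')
    linarith
  have hsph : ∀ r ∈ Finset.Ioc R N, ∑ l ∈ sphereF G r o,
      ∫ a, CRtF ν Prod.fst truthB (ballF G N o) o l (L + s) j' a ^ 2 ∂(truthP ν) ≤ C * β ^ (r - 1) := by
    intro r hr
    obtain ⟨hr1, hr2⟩ := Finset.mem_Ioc.1 hr
    exact sum_sphere_CRtF_le hT hk hreg h0 h1 hkθ hν o hβ0 (L + s) j' ht0 hβN r N
      (by omega) (by omega)
  -- split according to the distance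
  have hmaps : ∀ l ∈ ballF G N o \ ballF G R o, G.dist o l ∈ Finset.Ioc R N := by
    intro l hl
    obtain ⟨h2, h3⟩ := Finset.mem_sdiff.1 hl
    rw [mem_ballF hT] at h2 h3
    exact Finset.mem_Ioc.2 ⟨by omega, h2⟩
  have hnn : ∀ l, 0 ≤ ∫ a, CRtF ν Prod.fst truthB (ballF G N o) o l (L + s) j' a ^ 2 ∂(truthP ν) :=
    fun l => integral_nonneg fun a => sq_nonneg _
  show ∑ l ∈ ballF G N o \ ballF G R o,
      ∫ a, CRtF ν Prod.fst truthB (ballF G N o) o l (L + s) j' a ^ 2 ∂(truthP ν) ≤ ε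
  rw [← Finset.sum_fiberwise_of_maps_to hmaps]
  have hgeom : ∑ r ∈ Finset.Ioc R N, β ^ (r - 1) ≤ β ^ R / (1 - β) := by
    rw [le_div_iff₀ h1β]
    by_cases hRN : R ≤ N
    · have e1 : Finset.Ioc R N = Finset.Ico (R + 1) (N + 1) := by
        ext x; simp only [Finset.mem_Ioc, Finset.mem_Ico]; omega
      rw [e1, Finset.sum_Ico_eq_sum_range]
      have e2 : ∀ i ∈ Finset.range (N + 1 - (R + 1)), β ^ (R + 1 + i - 1) = β ^ R * β ^ i := by
        intro i _
        rw [← pow_add]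
        congr 1
        omega
      rw [Finset.sum_congr rfl e2, ← Finset.mul_sum, mul_assoc, mul_comm (∑ i ∈ _, β ^ i) (1 - β),
        mul_neg_geom_sum]
      have : 0 ≤ β ^ (N + 1 - (R + 1)) := pow_nonneg hβ0 _
      have h5 : 0 ≤ β ^ R := pow_nonneg hβ0 _
      nlinarith
    · have e1 : Finset.Ioc R N = ∅ := Finset.Ioc_eq_empty (by omega)
      rw [e1]
      simp only [Finset.sum_empty, zero_mul]
      exact pow_nonneg hβ0 _
  calc ∑ r ∈ Finset.Ioc R N, ∑ l ∈ (ballF G N o \ ballF G R o).filter (fun l => G.dist o l = r),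
        ∫ a, CRtF ν Prod.fst truthB (ballF G N o) o l (L + s) j' a ^ 2 ∂(truthP ν)
      ≤ ∑ r ∈ Finset.Ioc R N, C * β ^ (r - 1) := by
        refine Finset.sum_le_sum fun r hr => ?_
        refine le_trans (Finset.sum_le_sum_of_subset_of_nonneg ?_ fun l _ _ => hnn l) (hsph r hr)
        intro l hl
        exact (mem_sphereF hT).2 (Finset.mem_filter.1 hl).2
    _ = C * ∑ r ∈ Finset.Ioc R N, β ^ (r - 1) := by rw [Finset.mul_sum]
    _ ≤ C * (β ^ R / (1 - β)) := mul_le_mul_of_nonneg_left hgeom hC0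
    _ ≤ C * ((ε * (1 - β) / (C + 1)) / (1 - β)) := by
        refine mul_le_mul_of_nonneg_left ?_ hC0
        exact div_le_div_of_nonneg_right hR.le h1β.le
    _ = C / (C + 1) * ε := by
        field_simp
    _ ≤ 1 * ε := by
        refine mul_le_mul_of_nonneg_right ?_ hε.le
        rw [div_le_one (by positivity)]
        linarith
    _ = ε := one_mul _

end

end Crest.Agent.Lib.IT
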