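/-
Non-coherence on the regular tree, Hilbert space part (statement S0241).
-/
import Crest.Agent.Lib.IT.Code

set_option autoImplicit false
set_option linter.unusedSectionVars false

namespace Crest.Agent.Lib.IT

open SimpleGraph
open scoped RealInnerProductSpace

variable {V : Type*} {G : SimpleGraph V} [G.LocallyFinite]
variable {H : Type*} [NormedAddCommGroup H] [InnerProductSpace ℝ H]

/-- The directed edges `(a,b)` and `(x,y)` lie in this order on a geodesic, at index distance `m`: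
`a, b, ..., x, y` (`m = 0`: the same directed edge; `m = 1`: `b = x`). -/
structure Aligned (G : SimpleGraph V) (m : ℕ) (a b x y : V) : Prop where
  adj1 : G.Adj a b
  adj2 : G.Adj x y
  d1 : G.dist a y = m + 1
  d2 : G.dist b y = m
  d3 : G.dist a x = m

/-! ### Extending aligned pairs -/

lemma Aligned.step_right (hT : G.IsTree) {n : ℕ} {a b x y z : V} (h : Aligned G n a b x y)
    (hz : z ∈ kids G y x) : Aligned G (n + 1) a b y z := by
  obtain ⟨hzy, hzx⟩ := mem_kids.1 hz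
  have h1 : G.dist a z = G.dist a y + 1 :=
    farther_of_ne hT h.adj2.symm hzy (by rw [h.d1, h.d3]) hzx
  refine ⟨h.adj1, hzy, by rw [h1, h.d1], ?_, h.d1⟩
  rcases adj_dist hT hzy b with h2 | h2
  · rw [h2, h.d2]
  · exfalso
    have t := hT.connected.dist_triangle (u := a) (v := b) (w := z)
    rw [dist_eq_one_iff_adj.2 h.adj1] at t
    have := h.d1
    have := h.d2
    omega

lemma Aligned.step_left (hT : G.IsTree) {n : ℕ} {a b x y c : V} (h : Aligned G n a b x y)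
    (hc : c ∈ kids G a b) : Aligned G (n + 1) c a x y := by
  obtain ⟨hca, hcb⟩ := mem_kids.1 hc
  have h1 : G.dist y c = G.dist y a + 1 := by
    refine farther_of_ne hT h.adj1 hca ?_ hcb
    rw [dist_comm (u := y) (v := b), dist_comm (u := y) (v := a), h.d1, h.d2]
  have h1' : G.dist c y = G.dist a y + 1 := by
    rw [dist_comm (u := c), dist_comm (u := a), h1]
  refine ⟨hca.symm, h.adj2, by rw [h1', h.d1], h.d1, ?_⟩
  rcases adj_dist hT hca x with h2 | h2
  · rw [dist_comm (u := c), h2, dist_comm (u := x), h.d3]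
  · exfalso
    have t := hT.connected.dist_triangle (u := c) (v := x) (w := y)
    rw [dist_eq_one_iff_adj.2 h.adj2] at t
    rw [dist_comm (u := c) (v := x)] at t
    rw [dist_comm (u := x) (v := a), h.d3] at h2
    have := h.d1
    omega

lemma Aligned.self (_hT : G.IsTree) {x y : V} (h : G.Adj x y) : Aligned G 0 x y x y :=
  ⟨h, h, by simpa using dist_eq_one_iff_adj.2 h, by simp, by simp⟩

lemma Aligned.of_kids (hT : G.IsTree) {y z z' : V} (h : G.Adj y z) (h' : G.Adj y z')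
    (hne : z ≠ z') : Aligned G 1 z y y z' := by
  refine ⟨h.symm, h', ?_, dist_eq_one_iff_adj.2 h', dist_eq_one_iff_adj.2 h.symm⟩
  rcases adj_dist hT h' z with h2 | h2
  · rw [h2, dist_eq_one_iff_adj.2 h.symm]
  · exfalso
    rw [dist_eq_one_iff_adj.2 h.symm] at h2
    have h0 : G.dist z z' = 0 := by omega
    exact hne ((hT.connected.dist_eq_zero_iff).1 h0)

/-! ### Sums over non-backtracking continuations -/

/-- The sum of the field over the last edges of the continuations of `(x,y)` by `ℓ+1` edges. -/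
noncomputable def ncY (G : SimpleGraph V) [G.LocallyFinite] (w : V → V → H) : ℕ → V → V → H
  | 0, x, y => ∑ z ∈ kids G y x, w y z
  | ℓ + 1, x, y => ∑ z ∈ kids G y x, ncY G w ℓ y z

lemma inner_w_ncY (hT : G.IsTree) (k : ℕ) (hreg : G.IsRegularOfDegree (k + 1)) (w : V → V → H)
    (κ : ℕ → ℝ) (hκ : ∀ m a b x y, Aligned G m a b x y → ⟪w a b, w x y⟫ = κ m) (ℓ : ℕ) :
    ∀ {n : ℕ} {a b x y : V}, Aligned G n a b x y →
      ⟪w a b, ncY G w ℓ x y⟫ = (k : ℝ) ^ (ℓ + 1) * κ (n + ℓ + 1) := by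
  induction ℓ with
  | zero =>
    intro n a b x y h
    simp only [ncY, inner_sum]
    rw [Finset.sum_congr rfl fun z hz => hκ _ _ _ _ _ (h.step_right hT hz)]
    rw [Finset.sum_const, kids_card k hreg h.adj2.symm]
    simp
  | succ ℓ ih =>
    intro n a b x y h
    simp only [ncY, inner_sum]
    rw [Finset.sum_congr rfl fun z hz => ih (h.step_right hT hz)]
    rw [Finset.sum_const, kids_card k hreg h.adj2.symm, nsmul_eq_mul]
    rw [show n + 1 + ℓ + 1 = n + (ℓ + 1) + 1 by omega, pow_succ (k : ℝ) (ℓ + 1)]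
    ring

lemma inner_ncY_ncY (hT : G.IsTree) (k : ℕ) (hreg : G.IsRegularOfDegree (k + 1)) (w : V → V → H)
    (hsymm : ∀ x y, G.Adj x y → w x y = w y x) (κ : ℕ → ℝ)
    (hκ : ∀ m a b x y, Aligned G m a b x y → ⟪w a b, w x y⟫ = κ m) (i j : ℕ) :
    ∀ {n : ℕ} {a b x y : V}, Aligned G n a b x y →
      ⟪ncY G w i b a, ncY G w j x y⟫ = (k : ℝ) ^ (i + 1) * (k : ℝ) ^ (j + 1) * κ (n + i + j + 2) := by
  induction i with
  | zero =>
    intro n a b x y h
    simp only [ncY, sum_inner]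
    have : ∀ c ∈ kids G a b, ⟪w a c, ncY G w j x y⟫ = (k : ℝ) ^ (j + 1) * κ (n + 1 + j + 1) := by
      intro c hc
      rw [hsymm a c (mem_kids.1 hc).1]
      exact inner_w_ncY hT k hreg w κ hκ j (h.step_left hT hc)
    rw [Finset.sum_congr rfl this, Finset.sum_const, kids_card k hreg h.adj1, nsmul_eq_mul]
    rw [show n + 1 + j + 1 = n + 0 + j + 2 by omega]
    ring
  | succ i ih =>
    intro n a b x y h
    simp only [ncY, sum_inner]
    rw [Finset.sum_congr rfl fun c hc => ih (h.step_left hT hc)]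
    rw [Finset.sum_const, kids_card k hreg h.adj1, nsmul_eq_mul]
    rw [show n + 1 + i + j + 2 = n + (i + 1) + j + 2 by omega, pow_succ (k : ℝ) (i + 1)]
    ring

/-- The square norm of a sum with constant diagonal and off-diagonal inner products. -/
lemma norm_sq_sum_of_const {ι : Type*} (s : Finset ι) (f : ι → H) (A B : ℝ)
    (hA : ∀ z ∈ s, ⟪f z, f z⟫ = A) (hB : ∀ z ∈ s, ∀ z' ∈ s, z ≠ z' → ⟪f z, f z'⟫ = B) :
    ‖∑ z ∈ s, f z‖ ^ 2 = s.card * A + s.card * ((s.card : ℝ) - 1) * B := by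
  classical
  rw [← real_inner_self_eq_norm_sq, sum_inner]
  have : ∀ z ∈ s, ⟪f z, ∑ z' ∈ s, f z'⟫ = A + ((s.card : ℝ) - 1) * B := by
    intro z hz
    rw [inner_sum, ← Finset.add_sum_erase s _ hz, hA z hz]
    rw [Finset.sum_congr rfl fun z' hz' => hB z hz z' (Finset.mem_of_mem_erase hz')
      (Finset.ne_of_mem_erase hz').symm]
    rw [Finset.sum_const, Finset.card_erase_of_mem hz, nsmul_eq_mul]
    have hpos : 1 ≤ s.card := Finset.card_pos.2 ⟨z, hz⟩
    rw [Nat.cast_sub hpos]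
    simp
  rw [Finset.sum_congr rfl this, Finset.sum_const, nsmul_eq_mul]
  ring

/-- The common square norm of the sums. -/
noncomputable def ncV (k : ℕ) (κ : ℕ → ℝ) : ℕ → ℝ
  | 0 => k * κ 0 + k * ((k : ℝ) - 1) * κ 1
  | ℓ + 1 => k * ncV k κ ℓ + k * ((k : ℝ) - 1) * ((k : ℝ) ^ (2 * ℓ + 2) * κ (2 * ℓ + 3))

lemma norm_sq_ncY (hT : G.IsTree) (k : ℕ) (hreg : G.IsRegularOfDegree (k + 1)) (w : V → V → H)
    (hsymm : ∀ x y, G.Adj x y → w x y = w y x) (κ : ℕ → ℝ)
    (hκ : ∀ m a b x y, Aligned G m a b x y → ⟪w a b, w x y⟫ = κ m) (ℓ : ℕ) :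
    ∀ {x y : V}, G.Adj y x → ‖ncY G w ℓ x y‖ ^ 2 = ncV k κ ℓ := by
  induction ℓ with
  | zero =>
    intro x y h
    simp only [ncY, ncV]
    have := norm_sq_sum_of_const (kids G y x) (fun z => w y z) (κ 0) (κ 1)
      (fun z hz => hκ _ _ _ _ _ (Aligned.self hT (mem_kids.1 hz).1))
      (fun z hz z' hz' hne => by
        rw [hsymm y z (mem_kids.1 hz).1]
        exact hκ _ _ _ _ _ (Aligned.of_kids hT (mem_kids.1 hz).1 (mem_kids.1 hz').1 hne))
    rw [this, kids_card k hreg h]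
  | succ ℓ ih =>
    intro x y h
    simp only [ncY, ncV]
    have := norm_sq_sum_of_const (kids G y x) (fun z => ncY G w ℓ y z) (ncV k κ ℓ)
      ((k : ℝ) ^ (2 * ℓ + 2) * κ (2 * ℓ + 3))
      (fun z hz => by
        rw [real_inner_self_eq_norm_sq]
        exact ih (mem_kids.1 hz).1.symm)
      (fun z hz z' hz' hne => by
        have := inner_ncY_ncY hT k hreg w hsymm κ hκ ℓ ℓ
          (Aligned.of_kids hT (mem_kids.1 hz).1 (mem_kids.1 hz').1 hne)
        rw [this, show 1 + ℓ + ℓ + 2 = 2 * ℓ + 3 by omega, ← pow_add,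
          show ℓ + 1 + (ℓ + 1) = 2 * ℓ + 2 by omega])
    rw [this, kids_card k hreg h]

lemma ncV_eq (k : ℕ) (κ : ℕ → ℝ) (ℓ : ℕ) :
    ncV k κ ℓ = (k : ℝ) ^ (ℓ + 1) *
      (κ 0 + ((k : ℝ) - 1) * ∑ i ∈ Finset.range (ℓ + 1), (k : ℝ) ^ i * κ (2 * i + 1)) := by
  induction ℓ with
  | zero => simp [ncV]; ring
  | succ ℓ ih =>
    simp only [ncV]
    rw [ih, Finset.sum_range_succ _ (ℓ + 1)]
    rw [show 2 * (ℓ + 1) + 1 = 2 * ℓ + 3 by omega, show 2 * ℓ + 2 = 2 * (ℓ + 1) by omega]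
    ring

/-! ### The bootstrap -/

lemma exists_edge (hT : G.IsTree) (k : ℕ) (hreg : G.IsRegularOfDegree (k + 1)) :
    ∃ x y, G.Adj x y := by
  classical
  obtain ⟨x⟩ := hT.connected.nonempty
  have : (G.neighborFinset x).Nonempty := by
    rw [← Finset.card_pos, card_neighborFinset_eq_degree, hreg x]
    omega
  obtain ⟨y, hy⟩ := this
  exact ⟨x, y, (mem_neighborFinset _ _ _).1 hy⟩

lemma kappa_zero_nonneg (hT : G.IsTree) (k : ℕ) (hreg : G.IsRegularOfDegree (k + 1))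
    (w : V → V → H) (κ : ℕ → ℝ)
    (hκ : ∀ m a b x y, Aligned G m a b x y → ⟪w a b, w x y⟫ = κ m) : 0 ≤ κ 0 := by
  obtain ⟨x, y, h⟩ := exists_edge hT k hreg
  rw [← hκ _ _ _ _ _ (Aligned.self hT h), real_inner_self_eq_norm_sq]
  positivity

/-- The Cauchy-Schwarz step. -/
lemma cs_step (hT : G.IsTree) (k : ℕ) (hk : 2 ≤ k) (hreg : G.IsRegularOfDegree (k + 1))
    (w : V → V → H) (hsymm : ∀ x y, G.Adj x y → w x y = w y x) (κ : ℕ → ℝ)
    (hκ : ∀ m a b x y, Aligned G m a b x y → ⟪w a b, w x y⟫ = κ m) (ℓ : ℕ) :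
    (|κ (ℓ + 1)| * Real.sqrt k ^ (ℓ + 1)) ^ 2 ≤
      κ 0 * (κ 0 + (((k : ℝ) - 1) / Real.sqrt k) *
        ∑ i ∈ Finset.range (ℓ + 1), (|κ (2 * i + 1)| * Real.sqrt k ^ (2 * i + 1))) := by
  obtain ⟨x, y, h⟩ := exists_edge hT k hreg
  have h0 := kappa_zero_nonneg hT k hreg w κ hκ
  have hk0 : (0 : ℝ) < k := by exact_mod_cast (by omega : 0 < k)
  have hk1 : (0 : ℝ) ≤ (k : ℝ) - 1 := by
    have : (2 : ℝ) ≤ k := by exact_mod_cast hk
    linarith
  have hs0 : 0 < Real.sqrt k := Real.sqrt_pos.2 hk0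
  have hss : Real.sqrt k * Real.sqrt k = k := Real.mul_self_sqrt hk0.le
  have hin := inner_w_ncY hT k hreg w κ hκ ℓ (Aligned.self hT h)
  have hcs := real_inner_mul_inner_self_le (w x y) (ncY G w ℓ x y)
  have hn1 : ⟪w x y, w x y⟫ = κ 0 := hκ _ _ _ _ _ (Aligned.self hT h)
  have hn2 : ⟪ncY G w ℓ x y, ncY G w ℓ x y⟫ = ncV k κ ℓ := by
    rw [real_inner_self_eq_norm_sq]
    exact norm_sq_ncY hT k hreg w hsymm κ hκ ℓ h.symm
  rw [hin, hn1, hn2, ncV_eq, show 0 + ℓ + 1 = ℓ + 1 by omega] at hcs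
  have hpow : ((k : ℝ) ^ (ℓ + 1)) = Real.sqrt k ^ (ℓ + 1) * Real.sqrt k ^ (ℓ + 1) := by
    rw [← mul_pow, hss]
  have hkp : (0 : ℝ) < (k : ℝ) ^ (ℓ + 1) := by positivity
  -- divide by `k^(ℓ+1)`
  have h1 : (k : ℝ) ^ (ℓ + 1) * κ (ℓ + 1) ^ 2 ≤ κ 0 * (κ 0 + ((k : ℝ) - 1) *
      ∑ i ∈ Finset.range (ℓ + 1), (k : ℝ) ^ i * κ (2 * i + 1)) := by
    refine le_of_mul_le_mul_left ?_ hkp
    calc (k : ℝ) ^ (ℓ + 1) * ((k : ℝ) ^ (ℓ + 1) * κ (ℓ + 1) ^ 2)
        = (k : ℝ) ^ (ℓ + 1) * κ (ℓ + 1) * ((k : ℝ) ^ (ℓ + 1) * κ (ℓ + 1)) := by ring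
      _ ≤ _ := hcs
      _ = _ := by ring
  have h2 : ((k : ℝ) - 1) * ∑ i ∈ Finset.range (ℓ + 1), (k : ℝ) ^ i * κ (2 * i + 1) ≤
      (((k : ℝ) - 1) / Real.sqrt k) *
        ∑ i ∈ Finset.range (ℓ + 1), (|κ (2 * i + 1)| * Real.sqrt k ^ (2 * i + 1)) := by
    have : ∀ i ∈ Finset.range (ℓ + 1), (k : ℝ) ^ i * κ (2 * i + 1) ≤
        (|κ (2 * i + 1)| * Real.sqrt k ^ (2 * i + 1)) / Real.sqrt k := by
      intro i _
      have e : Real.sqrt k ^ (2 * i + 1) = (k : ℝ) ^ i * Real.sqrt k := by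
        rw [pow_succ, pow_mul, sq, hss]
      rw [e, ← mul_assoc, mul_div_assoc, div_self hs0.ne', mul_one, mul_comm]
      exact mul_le_mul_of_nonneg_right (le_abs_self _) (by positivity)
    calc _ ≤ ((k : ℝ) - 1) * ∑ i ∈ Finset.range (ℓ + 1),
          (|κ (2 * i + 1)| * Real.sqrt k ^ (2 * i + 1)) / Real.sqrt k :=
          mul_le_mul_of_nonneg_left (Finset.sum_le_sum this) hk1
      _ = _ := by
          rw [← Finset.sum_div]
          ring
  calc (|κ (ℓ + 1)| * Real.sqrt k ^ (ℓ + 1)) ^ 2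
      = (k : ℝ) ^ (ℓ + 1) * κ (ℓ + 1) ^ 2 := by
        rw [mul_pow, sq_abs, hpow]; ring
    _ ≤ _ := h1
    _ ≤ _ := by
        refine mul_le_mul_of_nonneg_left ?_ h0
        linarith

/-- A priori growth implies the sharp growth, for a symmetric edge field with invariant covariance. -/
theorem coherence_bound (hT : G.IsTree) (k : ℕ) (hk : 2 ≤ k) (hreg : G.IsRegularOfDegree (k + 1))
    (w : V → V → H) (hsymm : ∀ x y, G.Adj x y → w x y = w y x) (κ : ℕ → ℝ)
    (hκ : ∀ m a b x y, Aligned G m a b x y → ⟪w a b, w x y⟫ = κ m)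
    (hapriori : ∃ C : ℝ, ∀ m : ℕ, |κ (m + 1)| * Real.sqrt k ^ (m + 1) ≤ C * (m + 1)) (m : ℕ) :
    |κ (m + 1)| * Real.sqrt k ^ (m + 1) ≤ (((k : ℝ) - 1) / Real.sqrt k + 1) * (m + 1) * κ 0 := by
  have h0 := kappa_zero_nonneg hT k hreg w κ hκ
  have hk0 : (0 : ℝ) < k := by exact_mod_cast (by omega : 0 < k)
  have hk1 : (0 : ℝ) ≤ (k : ℝ) - 1 := by
    have : (2 : ℝ) ≤ k := by exact_mod_cast hk
    linarith
  have hs0 : 0 < Real.sqrt k := Real.sqrt_pos.2 hk0
  set γ : ℝ := ((k : ℝ) - 1) / Real.sqrt k with hγ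
  have hγ0 : 0 ≤ γ := div_nonneg hk1 hs0.le
  set β : ℕ → ℝ := fun m => |κ (m + 1)| * Real.sqrt k ^ (m + 1) with hβ
  have hβ0 : ∀ m, 0 ≤ β m := fun m => by positivity
  set ρ : ℕ → ℝ := fun m => β m / ((m : ℝ) + 1) with hρ
  have hm1 : ∀ m : ℕ, (0 : ℝ) < (m : ℝ) + 1 := fun m => by positivity
  have hρ0 : ∀ m, 0 ≤ ρ m := fun m => div_nonneg (hβ0 m) (hm1 m).le
  have hbdd : BddAbove (Set.range ρ) := by
    obtain ⟨C, hC⟩ := hapriori
    refine ⟨C, ?_⟩
    rintro _ ⟨m, rfl⟩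
    exact (div_le_iff₀ (hm1 m)).2 (hC m)
  set S : ℝ := ⨆ m, ρ m with hS
  have hρS : ∀ m, ρ m ≤ S := fun m => le_ciSup hbdd m
  have hS0 : 0 ≤ S := (hρ0 0).trans (hρS 0)
  have hβS : ∀ m, β m ≤ S * ((m : ℝ) + 1) := fun m =>
    (div_le_iff₀ (hm1 m)).1 (hρS m)
  -- the quadratic inequality for each ratio
  have hsum : ∀ ℓ : ℕ, ∑ i ∈ Finset.range (ℓ + 1), (β (2 * i)) ≤ S * ((ℓ : ℝ) + 1) ^ 2 := by
    intro ℓ
    have h1 : ∀ i ∈ Finset.range (ℓ + 1), β (2 * i) ≤ S * (2 * (i : ℝ) + 1) := by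
      intro i _
      have := hβS (2 * i)
      push_cast at this
      exact this
    refine (Finset.sum_le_sum h1).trans ?_
    rw [← Finset.mul_sum]
    refine mul_le_mul_of_nonneg_left (le_of_eq ?_) hS0
    clear h1
    induction ℓ with
    | zero => simp
    | succ ℓ ih =>
      rw [Finset.sum_range_succ, ih]
      push_cast
      ring
  have hq : ∀ ℓ : ℕ, ρ ℓ ^ 2 ≤ κ 0 ^ 2 + κ 0 * γ * S := by
    intro ℓ
    have hcs := cs_step hT k hk hreg w hsymm κ hκ ℓ
    have h2 : (∑ i ∈ Finset.range (ℓ + 1), (|κ (2 * i + 1)| * Real.sqrt k ^ (2 * i + 1))) =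
        ∑ i ∈ Finset.range (ℓ + 1), β (2 * i) := rfl
    rw [h2] at hcs
    have h3 : β ℓ ^ 2 ≤ κ 0 * (κ 0 + γ * (S * ((ℓ : ℝ) + 1) ^ 2)) := by
      refine hcs.trans (mul_le_mul_of_nonneg_left ?_ h0)
      have := mul_le_mul_of_nonneg_left (hsum ℓ) hγ0
      linarith
    have h4 : (1 : ℝ) ≤ ((ℓ : ℝ) + 1) ^ 2 := by
      have : (1 : ℝ) ≤ (ℓ : ℝ) + 1 := by
        have : (0 : ℝ) ≤ ℓ := Nat.cast_nonneg ℓ
        linarith
      nlinarith
    have h5 : ρ ℓ ^ 2 = β ℓ ^ 2 / ((ℓ : ℝ) + 1) ^ 2 := by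
      simp only [hρ, div_pow]
    rw [h5, div_le_iff₀ (by positivity)]
    have h6 : 0 ≤ κ 0 * γ * S := by positivity
    nlinarith [sq_nonneg (κ 0)]
  have hSq : S ^ 2 ≤ κ 0 ^ 2 + κ 0 * γ * S := by
    have hT0 : 0 ≤ κ 0 ^ 2 + κ 0 * γ * S := by positivity
    have hle : S ≤ Real.sqrt (κ 0 ^ 2 + κ 0 * γ * S) := by
      refine ciSup_le fun m => ?_
      exact Real.le_sqrt_of_sq_le (hq m)
    have := pow_le_pow_left₀ hS0 hle 2
    rwa [Real.sq_sqrt hT0] at this
  have hSle : S ≤ (γ + 1) * κ 0 := by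
    by_contra hcon
    rw [not_le] at hcon
    rcases h0.eq_or_lt with h00 | h00
    · rw [← h00] at hcon hSq
      have : 0 < S := by simpa using hcon
      nlinarith
    · have e1 : (γ + 1) * κ 0 * S < S * S := mul_lt_mul_of_pos_right hcon (by linarith [mul_nonneg (by linarith : 0 ≤ γ + 1) h0])
      have e2 : κ 0 * ((γ + 1) * κ 0) < κ 0 * S := mul_lt_mul_of_pos_left hcon h00
      nlinarith
  have := hβS m
  calc |κ (m + 1)| * Real.sqrt k ^ (m + 1) = β m := rfl
    _ ≤ S * ((m : ℝ) + 1) := this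
    _ ≤ (γ + 1) * κ 0 * ((m : ℝ) + 1) := mul_le_mul_of_nonneg_right hSle (hm1 m).le
    _ = _ := by ring

/-- The sum of an edge field along a geodesic has diffusive variance. The constant depends only on
`k`. -/
theorem exists_geodesic_sum_le (k : ℕ) (hk : 2 ≤ k) : ∃ C : ℝ, 0 < C ∧
    ∀ (hT : G.IsTree) (_ : G.IsRegularOfDegree (k + 1)) (w : V → V → H)
      (_ : ∀ x y, G.Adj x y → w x y = w y x) (κ : ℕ → ℝ)
      (_ : ∀ m a b x y, Aligned G m a b x y → ⟪w a b, w x y⟫ = κ m)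
      (_ : ∃ C : ℝ, ∀ m : ℕ, |κ (m + 1)| * Real.sqrt k ^ (m + 1) ≤ C * (m + 1))
      (γ : ℕ → V) (r : ℕ) (_ : IsGeo G γ r),
      ‖∑ i ∈ Finset.range r, w (γ i) (γ (i + 1))‖ ^ 2 ≤ C * r * κ 0 := by
  have hk0 : (0 : ℝ) < k := by exact_mod_cast (by omega : 0 < k)
  have hk1 : (0 : ℝ) ≤ (k : ℝ) - 1 := by
    have : (2 : ℝ) ≤ k := by exact_mod_cast hk
    linarith
  have hs1 : 1 < Real.sqrt k := by
    rw [show (1 : ℝ) = Real.sqrt 1 by simp]
    refine Real.sqrt_lt_sqrt (by norm_num) ?_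
    have : (2 : ℝ) ≤ k := by exact_mod_cast hk
    linarith
  have hs0 : 0 < Real.sqrt k := by linarith
  set q : ℝ := (Real.sqrt k)⁻¹ with hq
  have hq0 : 0 ≤ q := by positivity
  have hq1 : q < 1 := inv_lt_one_of_one_lt₀ hs1
  set g : ℝ := ((k : ℝ) - 1) / Real.sqrt k + 1 with hg
  have hg0 : 0 ≤ g := by
    have : 0 ≤ ((k : ℝ) - 1) / Real.sqrt k := div_nonneg hk1 hs0.le
    linarith
  have hsummable : Summable (fun n : ℕ => (n : ℝ) * q ^ n) := by
    have := summable_pow_mul_geometric_of_norm_lt_one (R := ℝ) 1 (r := q)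
      (by rw [Real.norm_eq_abs, abs_of_nonneg hq0]; exact hq1)
    simpa using this
  set A : ℝ := ∑' n : ℕ, (n : ℝ) * q ^ n with hA
  have hA0 : 0 ≤ A := tsum_nonneg fun n => by positivity
  refine ⟨2 * (1 + g * A), by positivity, ?_⟩
  intro hT hreg w hsymm κ hκ hap γ r hγ
  have h0 := kappa_zero_nonneg hT k hreg w κ hκ
  have hcoh := coherence_bound hT k hk hreg w hsymm κ hκ hap
  -- pointwise decay
  have hdec : ∀ m : ℕ, |κ (m + 1)| ≤ g * κ 0 * (((m + 1 : ℕ) : ℝ) * q ^ (m + 1)) := by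
    intro m
    have h1 := hcoh m
    have hp : 0 < Real.sqrt k ^ (m + 1) := by positivity
    have e : q ^ (m + 1) = (Real.sqrt k ^ (m + 1))⁻¹ := by rw [hq, inv_pow]
    rw [e]
    push_cast
    have h2 : |κ (m + 1)| = |κ (m + 1)| * Real.sqrt k ^ (m + 1) * (Real.sqrt k ^ (m + 1))⁻¹ := by
      field_simp
    rw [h2]
    calc |κ (m + 1)| * Real.sqrt k ^ (m + 1) * (Real.sqrt k ^ (m + 1))⁻¹
        ≤ g * ((m : ℝ) + 1) * κ 0 * (Real.sqrt k ^ (m + 1))⁻¹ :=
          mul_le_mul_of_nonneg_right h1 (by positivity)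
      _ = _ := by ring
  -- partial sums of the decay
  have hpart : ∀ n : ℕ, ∑ m ∈ Finset.range n, |κ m| ≤ κ 0 * (1 + g * A) := by
    intro n
    cases n with
    | zero =>
      simp only [Finset.range_zero, Finset.sum_empty]
      positivity
    | succ n =>
      rw [Finset.sum_range_succ']
      have h1 : ∑ m ∈ Finset.range n, |κ (m + 1)| ≤
          g * κ 0 * ∑ m ∈ Finset.range n, (((m + 1 : ℕ) : ℝ) * q ^ (m + 1)) := by
        rw [Finset.mul_sum]
        exact Finset.sum_le_sum fun m _ => hdec m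
      have h2 : ∑ m ∈ Finset.range n, (((m + 1 : ℕ) : ℝ) * q ^ (m + 1)) ≤ A := by
        have h3 : ∑ m ∈ Finset.range n, (((m + 1 : ℕ) : ℝ) * q ^ (m + 1)) =
            ∑ m ∈ (Finset.range n).image (· + 1), ((m : ℕ) : ℝ) * q ^ m := by
          rw [Finset.sum_image (fun a _ b _ h => by simpa using h)]
        rw [h3]
        exact hsummable.sum_le_tsum _ (fun i _ => by positivity)
      have h4 : g * κ 0 * ∑ m ∈ Finset.range n, (((m + 1 : ℕ) : ℝ) * q ^ (m + 1)) ≤
          g * κ 0 * A := mul_le_mul_of_nonneg_left h2 (by positivity)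
      rw [abs_of_nonneg h0]
      nlinarith
  -- inner products along the path
  have hal : ∀ i j : ℕ, i ≤ j → j < r →
      Aligned G (j - i) (γ i) (γ (i + 1)) (γ j) (γ (j + 1)) := by
    intro i j hij hj
    refine ⟨hγ.adj i (by omega), hγ.adj j hj, ?_, ?_, ?_⟩
    · rw [hγ.dist_eq hT (by omega) (by omega)]; omega
    · rw [hγ.dist_eq hT (by omega) (by omega)]; omega
    · rw [hγ.dist_eq hT hij (by omega)]
  set f : ℕ → H := fun i => w (γ i) (γ (i + 1)) with hf
  have hinner : ∀ i j : ℕ, i < r → j < r → |⟪f i, f j⟫| ≤ |κ (max i j - min i j)| := by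
    intro i j hi hj
    rcases le_total i j with hij | hij
    · rw [max_eq_right hij, min_eq_left hij, hκ _ _ _ _ _ (hal i j hij hj)]
    · rw [max_eq_left hij, min_eq_right hij, real_inner_comm, hκ _ _ _ _ _ (hal j i hij hi)]
  have hrow : ∀ i, i < r → ∑ j ∈ Finset.range r, ⟪f i, f j⟫ ≤ 2 * (κ 0 * (1 + g * A)) := by
    intro i hi
    have hsplit : (Finset.range r : Finset ℕ) =
        (Finset.range r).filter (· ≤ i) ∪ (Finset.range r).filter (fun j => ¬ j ≤ i) :=
      (Finset.filter_union_filter_not_eq _ _).symm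
    have h1 : ∑ j ∈ (Finset.range r).filter (· ≤ i), |κ (max i j - min i j)| ≤
        ∑ m ∈ Finset.range r, |κ m| := by
      calc _ = ∑ m ∈ ((Finset.range r).filter (· ≤ i)).image (fun j => i - j), |κ m| := by
            rw [Finset.sum_image]
            · refine Finset.sum_congr rfl fun j hj => ?_
              have hji := (Finset.mem_filter.1 hj).2
              rw [max_eq_left hji, min_eq_right hji]
            · intro a ha b hb hab
              have ha' := (Finset.mem_filter.1 ha).2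
              have hb' := (Finset.mem_filter.1 hb).2
              simp only at hab
              omega
        _ ≤ _ := by
            refine Finset.sum_le_sum_of_subset_of_nonneg ?_ fun _ _ _ => abs_nonneg _
            intro m hm
            obtain ⟨j, hj, rfl⟩ := Finset.mem_image.1 hm
            rw [Finset.mem_range]
            omega
    have h2 : ∑ j ∈ (Finset.range r).filter (fun j => ¬ j ≤ i), |κ (max i j - min i j)| ≤
        ∑ m ∈ Finset.range r, |κ m| := by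
      calc _ = ∑ m ∈ ((Finset.range r).filter (fun j => ¬ j ≤ i)).image (fun j => j - i), |κ m| := by
            rw [Finset.sum_image]
            · refine Finset.sum_congr rfl fun j hj => ?_
              have hji := (Finset.mem_filter.1 hj).2
              have hji' : i ≤ j := by omega
              rw [max_eq_right hji', min_eq_left hji']
            · intro a ha b hb hab
              have ha' := (Finset.mem_filter.1 ha).2
              have hb' := (Finset.mem_filter.1 hb).2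
              simp only at hab
              omega
        _ ≤ _ := by
            refine Finset.sum_le_sum_of_subset_of_nonneg ?_ fun _ _ _ => abs_nonneg _
            intro m hm
            obtain ⟨j, hj, rfl⟩ := Finset.mem_image.1 hm
            have := Finset.mem_range.1 (Finset.mem_filter.1 hj).1
            rw [Finset.mem_range]
            omega
    calc ∑ j ∈ Finset.range r, ⟪f i, f j⟫
        ≤ ∑ j ∈ Finset.range r, |κ (max i j - min i j)| := by
          refine Finset.sum_le_sum fun j hj => ?_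
          exact (le_abs_self _).trans (hinner i j hi (Finset.mem_range.1 hj))
      _ = ∑ j ∈ (Finset.range r).filter (· ≤ i), |κ (max i j - min i j)| +
            ∑ j ∈ (Finset.range r).filter (fun j => ¬ j ≤ i), |κ (max i j - min i j)| :=
          (Finset.sum_filter_add_sum_filter_not _ _ _).symm
      _ ≤ 2 * (κ 0 * (1 + g * A)) := by
          have := hpart r
          linarith
  rw [← real_inner_self_eq_norm_sq, sum_inner]
  have hin2 : ∀ i ∈ Finset.range r, ⟪f i, ∑ j ∈ Finset.range r, f j⟫ ≤ 2 * (κ 0 * (1 + g * A)) := by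
    intro i hi
    rw [inner_sum]
    exact hrow i (Finset.mem_range.1 hi)
  refine (Finset.sum_le_sum hin2).trans ?_
  rw [Finset.sum_const, Finset.card_range, nsmul_eq_mul]
  ring_nf
  rfl

end Crest.Agent.Lib.IT
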