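/-
Non-coherence of equivariant bounded fields on the edges of the regular tree for the Ising state
with independent noise (statement S0241).
-/
import Crest.Agent.Lib.IT.TreeTruth
import Crest.Agent.Lib.IT.NCHilbert

set_option autoImplicit false
set_option linter.unusedSectionVars false
set_option warn.classDefReducibility false

namespace Crest.Agent.Lib.IT

open MeasureTheory ProbabilityTheory SimpleGraph Filter Topology
open scoped ENNReal NNReal
open Crest.Agent.Lib.Loc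

variable {V : Type*} {G : SimpleGraph V} [G.LocallyFinite] {k : ℕ} {θ : ℝ} [Countable V]
  {ν : Measure (V → Bool)} [IsProbabilityMeasure ν]

/-- The restriction of the truth space to a set of sites. -/
def restrA (A : Set V) (a : TΩ V) : (A → Bool) × (A → ℕ × ℕ → ℝ) :=
  (fun x => a.1 x, fun x => a.2 x)

/-- The sigma-algebra of the configuration and of the noise on a set of sites. -/
def HA (A : Set V) : MeasurableSpace (TΩ V) := MeasurableSpace.comap (restrA A) inferInstance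

namespace NCApply

lemma measurable_restrA (A : Set V) : Measurable (restrA A) :=
  Measurable.prodMk
    (measurable_pi_lambda _ fun x => (measurable_pi_apply (x : V)).comp measurable_fst)
    (measurable_pi_lambda _ fun x => (measurable_pi_apply (x : V)).comp measurable_snd)

lemma HA_le (A : Set V) : HA A ≤ (Prod.instMeasurableSpace : MeasurableSpace (TΩ V)) :=
  (measurable_restrA A).comap_le

lemma HA_mono {A B : Set V} (h : A ⊆ B) : HA A ≤ HA B := by
  have hΘ : Measurable (fun q : (B → Bool) × (B → ℕ × ℕ → ℝ) =>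
      ((fun x : A => q.1 ⟨x, h x.2⟩, fun x : A => q.2 ⟨x, h x.2⟩) :
        (A → Bool) × (A → ℕ × ℕ → ℝ))) :=
    Measurable.prodMk
      (measurable_pi_lambda _ fun x => (measurable_pi_apply (⟨x, h x.2⟩ : B)).comp measurable_fst)
      (measurable_pi_lambda _ fun x => (measurable_pi_apply (⟨x, h x.2⟩ : B)).comp measurable_snd)
  have : restrA A = (fun q : (B → Bool) × (B → ℕ × ℕ → ℝ) =>
      ((fun x : A => q.1 ⟨x, h x.2⟩, fun x : A => q.2 ⟨x, h x.2⟩) :
        (A → Bool) × (A → ℕ × ℕ → ℝ))) ∘ restrA B := rfl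
  unfold HA
  rw [this, ← MeasurableSpace.comap_comp]
  exact MeasurableSpace.comap_mono hΘ.comap_le

/-- A function measurable for `HA A` depends only on the coordinates in `A`. -/
lemma dep_of_HA {A : Set V} {f : TΩ V → ℝ} (hf : Measurable[HA A] f) {a a' : TΩ V}
    (h1 : ∀ x ∈ A, a.1 x = a'.1 x) (h2 : ∀ x ∈ A, a.2 x = a'.2 x) : f a = f a' := by
  have hs : MeasurableSet[HA A] (f ⁻¹' {f a}) := hf (measurableSet_singleton _)
  obtain ⟨T, -, hT⟩ := hs
  have hr : restrA A a = restrA A a' := by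
    refine Prod.ext ?_ ?_
    · funext x
      exact h1 x x.2
    · funext x
      exact h2 x x.2
  have ha : a ∈ restrA A ⁻¹' T := by
    rw [hT]
    rfl
  have ha' : a' ∈ restrA A ⁻¹' T := by
    simp only [Set.mem_preimage] at ha ⊢
    rwa [← hr]
  rw [hT] at ha'
  exact ha'.symm

/-- Merging two noises. -/
noncomputable def mergeN (A : Set V) (q : (V → ℕ × ℕ → ℝ) × (V → ℕ × ℕ → ℝ)) : V → ℕ × ℕ → ℝ :=
  open Classical in fun x => if x ∈ A then q.1 x else q.2 x

lemma measurable_mergeN (A : Set V) : Measurable (mergeN A) := by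
  classical
  refine measurable_pi_lambda _ fun x => ?_
  by_cases hx : x ∈ A
  · have : (fun q : (V → ℕ × ℕ → ℝ) × (V → ℕ × ℕ → ℝ) => mergeN A q x) = fun q => q.1 x := by
      funext q
      simp [mergeN, hx]
    rw [this]
    exact (measurable_pi_apply x).comp measurable_fst
  · have : (fun q : (V → ℕ × ℕ → ℝ) × (V → ℕ × ℕ → ℝ) => mergeN A q x) = fun q => q.2 x := by
      funext q
      simp [mergeN, hx]
    rw [this]
    exact (measurable_pi_apply x).comp measurable_snd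

lemma map_mergeN (A : Set V) :
    ((allNoise V).prod (allNoise V)).map (mergeN A) = allNoise V := by
  classical
  unfold allNoise
  refine Measure.eq_infinitePi _ fun s t ht => ?_
  rw [Measure.map_apply (measurable_mergeN A) (MeasurableSet.pi s.countable_toSet fun i _ => ht i)]
  have hset : mergeN A ⁻¹' (Set.pi s t) =
      (Set.pi (s.filter (· ∈ A) : Finset V) t) ×ˢ (Set.pi (s.filter (· ∉ A) : Finset V) t) := by
    ext ⟨ξ, ξ'⟩
    simp only [Set.mem_preimage, Set.mem_pi, Set.mem_prod, Finset.mem_coe, Finset.mem_filter, mergeN]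
    constructor
    · intro h
      refine ⟨fun i hi => ?_, fun i hi => ?_⟩
      · have := h i hi.1
        rwa [if_pos hi.2] at this
      · have := h i hi.1
        rwa [if_neg hi.2] at this
    · rintro ⟨h1, h2⟩ i hi
      by_cases hiA : i ∈ A
      · rw [if_pos hiA]
        exact h1 i ⟨hi, hiA⟩
      · rw [if_neg hiA]
        exact h2 i ⟨hi, hiA⟩
  rw [hset, Measure.prod_prod, Measure.infinitePi_pi _ fun i _ => ht i,
    Measure.infinitePi_pi _ fun i _ => ht i]
  exact Finset.prod_filter_mul_prod_filter_not s (· ∈ A) _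

/-- Functions of the noise on disjoint sets are uncorrelated. -/
lemma integral_noise_mul {A A' : Set V} (hd : Disjoint A A') (g g' : (V → ℕ × ℕ → ℝ) → ℝ)
    (hg : Measurable g) (hg' : Measurable g') (C : ℝ) (hC : ∀ ξ, |g ξ| ≤ C) (hC' : ∀ ξ, |g' ξ| ≤ C)
    (hdep : ∀ ξ ξ', (∀ x ∈ A, ξ x = ξ' x) → g ξ = g ξ')
    (hdep' : ∀ ξ ξ', (∀ x ∈ A', ξ x = ξ' x) → g' ξ = g' ξ') :
    ∫ ξ, g ξ * g' ξ ∂(allNoise V) = (∫ ξ, g ξ ∂(allNoise V)) * ∫ ξ, g' ξ ∂(allNoise V) := by
  classical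
  have hm := measurable_mergeN (V := V) A
  have h1 : ∫ ξ, g ξ * g' ξ ∂(allNoise V) =
      ∫ q, g (mergeN A q) * g' (mergeN A q) ∂((allNoise V).prod (allNoise V)) := by
    conv_lhs => rw [← map_mergeN A]
    exact integral_map hm.aemeasurable (f := fun ξ => g ξ * g' ξ)
      (hg.mul hg').aestronglyMeasurable
  rw [h1, ← integral_prod_mul g g']
  refine integral_congr_ae (ae_of_all _ fun q => ?_)
  simp only
  rw [hdep (mergeN A q) q.1 (fun x hx => by simp [mergeN, hx]),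
    hdep' (mergeN A q) q.2 (fun x hx => by
      have : x ∉ A := fun h => (Set.disjoint_left.1 hd h) hx
      simp [mergeN, this])]

lemma abs_sg (b : Bool) : |sg b| = 1 := by
  cases b <;> simp [sg]

lemma sg_mul_self (b : Bool) : sg b * sg b = 1 := by
  cases b <;> simp [sg]

lemma measurable_sg_coord (x : V) : Measurable (fun σ : V → Bool => sg (σ x)) := by
  have : Measurable (sg : Bool → ℝ) := measurable_of_countable _
  exact this.comp (measurable_pi_apply x)

private lemma isingWeight_singleton' (θ : ℝ) (x : V) (η : V → Bool) :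
    Crest.ProbabilityR.TreeIsing.isingWeight G θ {x} η = 1 / 2 := by
  classical
  unfold Crest.ProbabilityR.TreeIsing.isingWeight
  rw [Finset.sym2_singleton, Finset.filter_singleton]
  simp [Sym2.diag]

/-- The single site marginal is uniform. -/
lemma integral_sg (hT : G.IsTree) (hν : IsIsing G θ ν) (x : V) :
    ∫ σ, sg (σ x) ∂ν = 0 := by
  classical
  have hconn : (G.induce (({x} : Finset V) : Set V)).Connected :=
    connected_of_closed hT {x} x (by simp) (fun y hy => by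
      rw [Finset.mem_singleton] at hy
      subst hy
      simp [nxt_self])
  have hm : ∀ b : Bool, ν {σ | σ x = b} = ENNReal.ofReal (1 / 2) := by
    intro b
    have := hν {x} (fun _ => b) hconn
    rw [isingWeight_singleton'] at this
    simpa using this
  have hmeas : ∀ b : Bool, MeasurableSet {σ : V → Bool | σ x = b} := fun b =>
    measurableSet_eq_fun (measurable_pi_apply x) measurable_const
  have hsg : (fun σ : V → Bool => sg (σ x)) =
      fun σ => Set.indicator {σ : V → Bool | σ x = true} (fun _ => (1 : ℝ)) σ +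
        Set.indicator {σ : V → Bool | σ x = false} (fun _ => (-1 : ℝ)) σ := by
    funext σ
    cases h : σ x <;> simp [sg, Set.indicator, h]
  rw [hsg, integral_add ((integrable_const _).indicator (hmeas _))
    ((integrable_const _).indicator (hmeas _)), integral_indicator (hmeas _),
    integral_indicator (hmeas _)]
  simp only [integral_const, smul_eq_mul, mul_one, mul_neg, MeasurableSet.univ,
    measureReal_restrict_apply, Set.univ_inter]
  simp only [Measure.real, hm]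
  ring

/-- The sides are nested along a non-backtracking path. -/
lemma side_chain (hT : G.IsTree) {γ : ℕ → V} {r : ℕ} (hγ : IsGeo G γ r) {i : ℕ} (hi : i + 1 < r)
    {x : V} (hx : x ∈ Side G (γ i) (γ (i + 1))) : x ∈ Side G (γ (i + 1)) (γ (i + 2)) := by
  have h1 := hγ.adj i (by omega)
  have h2 := hγ.adj (i + 1) (by omega)
  exact (side_step hT h2 (mem_kids.2 ⟨h1.symm, (hγ.nb i hi).symm⟩) hx).1

lemma side_chain' (hT : G.IsTree) {γ : ℕ → V} {r : ℕ} (hγ : IsGeo G γ r) (D : ℕ) (hD : D < r)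
    {x : V} (hx : x ∈ Side G (γ 0) (γ 1)) : x ∈ Side G (γ D) (γ (D + 1)) := by
  induction D with
  | zero => exact hx
  | succ D ih => exact side_chain hT hγ hD (ih (by omega))

/-- Iterating the one-edge decoupling along a path. -/
theorem ising_chain (hT : G.IsTree) (h0 : 0 ≤ θ) (h1 : θ < 1) (hν : IsIsing G θ ν)
    (γ : ℕ → V) (F : (V → Bool) → ℝ) (hF : Measurable F) (D : ℕ) (hD : 1 ≤ D) :
    IsGeo G γ D → (∀ σ τ, (∀ x ∈ Side G (γ 0) (γ 1), σ x = τ x) → F σ = F τ) →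
    ∀ (F' : (V → Bool) → ℝ) (_ : Measurable F') (C : ℝ)
    (_ : ∀ σ, |F σ| ≤ C) (_ : ∀ σ, |F' σ| ≤ C)
    (_ : ∀ σ τ, (∀ x ∈ Side G (γ D) (γ (D - 1)), σ x = τ x) → F' σ = F' τ),
    ∫ σ, F σ * F' σ ∂ν = (∫ σ, F σ ∂ν) * (∫ σ, F' σ ∂ν) +
      θ ^ D * (∫ σ, F σ * sg (σ (γ 0)) ∂ν) * (∫ σ, F' σ * sg (σ (γ D)) ∂ν) := by
  induction D, hD using Nat.le_induction with
  | base =>
    intro hγ hdep F' hF' C hC hC' hdep'
    have := IsIsing.decouple h0 h1 hT hν (hγ.adj 0 (by omega)) F F' hF hF' C hC hC' hdep hdep'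
    simpa using this
  | succ D hD ih =>
    intro hγ hdep F' hF' C hC hC' hdep'
    have hγ' : IsGeo G γ D :=
      ⟨fun i hi => hγ.adj i (by omega), fun i hi => hγ.nb i (by omega)⟩
    have hdec := IsIsing.decouple h0 h1 hT hν (hγ.adj D (by omega)) F F' hF hF' C hC hC'
      (fun σ τ h => hdep σ τ fun x hx => h x (side_chain' hT hγ D (by omega) hx))
      (fun σ τ h => hdep' σ τ fun x hx => h x hx)
    have hsg1 : ∀ σ : V → Bool, |sg (σ (γ D))| ≤ max C 1 := fun σ => by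
      rw [abs_sg]
      exact le_max_right _ _
    have hi := ih hγ' hdep (fun σ => sg (σ (γ D))) (measurable_sg_coord _) (max C 1)
      (fun σ => (hC σ).trans (le_max_left _ _)) hsg1
      (fun σ τ h => by
        have hmem : γ D ∈ Side G (γ D) (γ (D - 1)) := by
          refine self_mem_side ?_
          have := hγ.adj (D - 1) (by omega)
          rw [show D - 1 + 1 = D by omega] at this
          exact this.symm
        rw [h _ hmem])
    have hsgo : ∫ σ, sg (σ (γ D)) ∂ν = 0 := integral_sg hT hν _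
    have hsgs : ∫ σ, sg (σ (γ D)) * sg (σ (γ D)) ∂ν = 1 := by
      simp [sg_mul_self]
    rw [hsgo, hsgs] at hi
    rw [hdec, hi, pow_succ]
    ring

end NCApply

open NCApply in
/-- Decoupling along a geodesic, for functions of the two sides: the covariance decays as `θ ^ D`. -/
theorem integral_mul_decouple (hT : G.IsTree) (h0 : 0 ≤ θ) (h1 : θ < 1) (hν : IsIsing G θ ν)
    (γ : ℕ → V) (D : ℕ) (hD : 1 ≤ D) (hγ : IsGeo G γ D) (f f' : TΩ V → ℝ)
    (hf : Measurable[HA (Side G (γ 0) (γ 1))] f)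
    (hf' : Measurable[HA (Side G (γ D) (γ (D - 1)))] f') (C : ℝ)
    (hC : ∀ a, |f a| ≤ C) (hC' : ∀ a, |f' a| ≤ C) :
    ∫ a, f a * f' a ∂(truthP ν) = (∫ a, f a ∂(truthP ν)) * (∫ a, f' a ∂(truthP ν)) +
      θ ^ D * (∫ a, f a * sg (a.1 (γ 0)) ∂(truthP ν)) * (∫ a, f' a * sg (a.1 (γ D)) ∂(truthP ν)) := by
  classical
  have hfm : Measurable f := hf.mono (HA_le _) le_rfl
  have hfm' : Measurable f' := hf'.mono (HA_le _) le_rfl
  have hC0 : 0 ≤ C := (abs_nonneg _).trans (hC ((fun _ => true), (fun _ _ => 0)))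
  -- the two sides are disjoint
  have hdisj : Disjoint (Side G (γ 0) (γ 1)) (Side G (γ D) (γ (D - 1))) := by
    rw [Set.disjoint_left]
    intro x hx hx'
    have h2 := side_chain' hT hγ (D - 1) (by omega) hx
    rw [show D - 1 + 1 = D by omega] at h2
    exact side_disj h2 hx'
  set F : (V → Bool) → ℝ := fun σ => ∫ ξ, f (σ, ξ) ∂(allNoise V) with hFd
  set F' : (V → Bool) → ℝ := fun σ => ∫ ξ, f' (σ, ξ) ∂(allNoise V) with hFd'
  have hFm : Measurable F := hfm.stronglyMeasurable.integral_prod_right'.measurable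
  have hFm' : Measurable F' := hfm'.stronglyMeasurable.integral_prod_right'.measurable
  have hbd : ∀ (g : TΩ V → ℝ), (∀ a, |g a| ≤ C) → ∀ σ, |∫ ξ, g (σ, ξ) ∂(allNoise V)| ≤ C := by
    intro g hg σ
    have := norm_integral_le_of_norm_le_const (μ := allNoise V) (f := fun ξ => g (σ, ξ)) (C := C)
      (ae_of_all _ fun ξ => by simpa using hg (σ, ξ))
    simpa using this
  have hFC : ∀ σ, |F σ| ≤ C := hbd f hC
  have hFC' : ∀ σ, |F' σ| ≤ C := hbd f' hC'
  have hdepF : ∀ σ τ, (∀ x ∈ Side G (γ 0) (γ 1), σ x = τ x) → F σ = F τ := by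
    intro σ τ h
    simp only [hFd]
    congr 1
    funext ξ
    exact dep_of_HA hf h (fun _ _ => rfl)
  have hdepF' : ∀ σ τ, (∀ x ∈ Side G (γ D) (γ (D - 1)), σ x = τ x) → F' σ = F' τ := by
    intro σ τ h
    simp only [hFd']
    congr 1
    funext ξ
    exact dep_of_HA hf' h (fun _ _ => rfl)
  have hint : ∀ (g : TΩ V → ℝ), Measurable g → (∀ a, |g a| ≤ C * C) → Integrable g (truthP ν) :=
    fun g hg hgC => Integrable.of_bound hg.aestronglyMeasurable (C * C) (ae_of_all _ fun a => by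
      simpa using hgC a)
  have hint1 : ∀ (g : TΩ V → ℝ), Measurable g → (∀ a, |g a| ≤ C) → Integrable g (truthP ν) :=
    fun g hg hgC => Integrable.of_bound hg.aestronglyMeasurable C (ae_of_all _ fun a => by
      simpa using hgC a)
  have e1 : ∫ a, f a * f' a ∂(truthP ν) = ∫ σ, F σ * F' σ ∂ν := by
    unfold truthP
    have hmm : Measurable (fun a : TΩ V => f a * f' a) := hfm.mul hfm'
    rw [integral_prod (fun a : TΩ V => f a * f' a) (hint _ hmm fun a => by
      rw [abs_mul]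
      exact mul_le_mul (hC a) (hC' a) (abs_nonneg _) hC0)]
    refine integral_congr_ae (ae_of_all _ fun σ => ?_)
    exact integral_noise_mul hdisj (fun ξ => f (σ, ξ)) (fun ξ => f' (σ, ξ))
      (hfm.comp measurable_prodMk_left) (hfm'.comp measurable_prodMk_left) C
      (fun ξ => hC _) (fun ξ => hC' _)
      (fun ξ ξ' h => dep_of_HA hf (fun _ _ => rfl) h)
      (fun ξ ξ' h => dep_of_HA hf' (fun _ _ => rfl) h)
  have e2 : ∫ a, f a ∂(truthP ν) = ∫ σ, F σ ∂ν := by
    unfold truthP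
    exact integral_prod _ (hint1 _ hfm hC)
  have e3 : ∫ a, f' a ∂(truthP ν) = ∫ σ, F' σ ∂ν := by
    unfold truthP
    exact integral_prod _ (hint1 _ hfm' hC')
  have hsgm : ∀ x : V, Measurable (fun a : TΩ V => sg (a.1 x)) := fun x =>
    (measurable_sg_coord x).comp measurable_fst
  have e4 : ∀ (g : TΩ V → ℝ), Measurable g → (∀ a, |g a| ≤ C) → ∀ x : V,
      ∫ a, g a * sg (a.1 x) ∂(truthP ν) =
        ∫ σ, (∫ ξ, g (σ, ξ) ∂(allNoise V)) * sg (σ x) ∂ν := by
    intro g hg hgC x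
    unfold truthP
    have hmm : Measurable (fun a : TΩ V => g a * sg (a.1 x)) := hg.mul (hsgm x)
    rw [integral_prod (fun a : TΩ V => g a * sg (a.1 x)) (hint1 _ hmm fun a => by
      rw [abs_mul, abs_sg, mul_one]
      exact hgC a)]
    refine integral_congr_ae (ae_of_all _ fun σ => ?_)
    simp only
    rw [integral_mul_const]
  rw [e1, e2, e3, e4 f hfm hC, e4 f' hfm' hC']
  exact ising_chain hT h0 h1 hν γ F hFm D hD hγ hdepF F' hFm' C hFC hFC' hdepF'

namespace NCApply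

section clipping
variable {Ω : Type*}

/-- Clipping. -/
noncomputable def clipB (B x : ℝ) : ℝ := max (-B) (min B x)

lemma measurable_clipB (B : ℝ) : Measurable (clipB B) :=
  measurable_const.max (measurable_const.min measurable_id)

lemma abs_clipB_le {B : ℝ} (hB : 0 ≤ B) (x : ℝ) : |clipB B x| ≤ B := by
  unfold clipB
  rw [abs_le]
  exact ⟨le_max_left _ _, max_le (by linarith) (min_le_left _ _)⟩

lemma clipB_of_abs_le {B x : ℝ} (h : |x| ≤ B) : clipB B x = x := by
  unfold clipB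
  rw [min_eq_right (abs_le.1 h).2, max_eq_right (abs_le.1 h).1]

/-- The clipped conditional expectation. -/
noncomputable def ceB {m₀ : MeasurableSpace Ω} (μ : Measure Ω) (m : MeasurableSpace Ω) (B : ℝ)
    (f : Ω → ℝ) : Ω → ℝ :=
  fun a => clipB B ((μ[f | m]) a)

lemma measurable_ceB {m₀ : MeasurableSpace Ω} {μ : Measure Ω} (m : MeasurableSpace Ω) (B : ℝ)
    (f : Ω → ℝ) : Measurable[m] (ceB μ m B f) :=
  (measurable_clipB B).comp stronglyMeasurable_condExp.measurable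

lemma abs_ceB_le {m₀ : MeasurableSpace Ω} {μ : Measure Ω} (m : MeasurableSpace Ω) {B : ℝ}
    (hB : 0 ≤ B) (f : Ω → ℝ) (a : Ω) :
    |ceB μ m B f a| ≤ B := abs_clipB_le hB _

lemma ae_abs_condExp_le {m₀ : MeasurableSpace Ω} {μ : Measure Ω} (m : MeasurableSpace Ω) {B : ℝ}
    {f : Ω → ℝ} (hf : ∀ a, |f a| ≤ B) : ∀ᵐ a ∂μ, |(μ[f | m]) a| ≤ B :=
  ae_bdd_abs_condExp_of_ae_bdd_abs (Eventually.of_forall hf)

lemma ceB_ae_eq {m₀ : MeasurableSpace Ω} {μ : Measure Ω} (m : MeasurableSpace Ω) {B : ℝ}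
    {f : Ω → ℝ} (hf : ∀ a, |f a| ≤ B) :
    ceB μ m B f =ᵐ[μ] μ[f | m] := by
  filter_upwards [ae_abs_condExp_le m hf] with a ha
  exact clipB_of_abs_le ha

/-- Conditional expectations under a measure preserving map. -/
lemma condExp_comp_mp {m m₀ : MeasurableSpace Ω} {μ : Measure Ω} [IsProbabilityMeasure μ]
    (hm : m ≤ m₀) {τ : Ω → Ω} (hτ : Measurable τ)
    (hP : μ.map τ = μ) {h : Ω → ℝ} (hh : Integrable h μ) :
    (fun a => (μ[h | m]) (τ a)) =ᵐ[μ] μ[h ∘ τ | MeasurableSpace.comap τ m] := by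
  have hm' : MeasurableSpace.comap τ m ≤ m₀ := (MeasurableSpace.comap_mono hm).trans hτ.comap_le
  have hi : Integrable (h ∘ τ) μ := by
    refine Integrable.comp_measurable ?_ hτ
    rw [hP]
    exact hh
  have hc : Integrable (fun a => (μ[h | m]) (τ a)) μ := by
    have : Integrable (μ[h | m]) (μ.map τ) := by
      rw [hP]
      exact integrable_condExp
    exact this.comp_measurable hτ
  refine ae_eq_condExp_of_forall_setIntegral_eq hm' hi (fun s _ _ => hc.integrableOn) ?_ ?_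
  · rintro s ⟨S, hS, rfl⟩ -
    have hS₀ : MeasurableSet S := hm _ hS
    have h1 : ∫ a in τ ⁻¹' S, (μ[h | m]) (τ a) ∂μ = ∫ a in S, (μ[h | m]) a ∂(μ.map τ) := by
      rw [setIntegral_map hS₀ (stronglyMeasurable_condExp.mono hm).aestronglyMeasurable
        hτ.aemeasurable]
    have h2 : ∫ a in τ ⁻¹' S, (h ∘ τ) a ∂μ = ∫ a in S, h a ∂(μ.map τ) := by
      rw [setIntegral_map hS₀ (by rw [hP]; exact hh.aestronglyMeasurable) hτ.aemeasurable]
      rfl
    rw [h1, h2, hP]
    exact setIntegral_condExp hm hh hS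
  · have : StronglyMeasurable[MeasurableSpace.comap τ m] (fun a => (μ[h | m]) (τ a)) :=
      (stronglyMeasurable_condExp (f := h) (μ := μ) (m := m)).comp_measurable
        (comap_measurable τ)
    exact this.aestronglyMeasurable

/-- The `L²` contraction of conditional expectations. -/
lemma integral_sq_condExp_le {m m₀ : MeasurableSpace Ω} {μ : Measure Ω} [IsProbabilityMeasure μ]
    (hm : m ≤ m₀) {f : Ω → ℝ} (hf : Measurable f)
    {B : ℝ} (hfb : ∀ a, |f a| ≤ B) :
    ∫ a, ((μ[f | m]) a) ^ 2 ∂μ ≤ ∫ a, f a ^ 2 ∂μ := by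
  have hf2 : MemLp f 2 μ := MemLp.of_bound hf.aestronglyMeasurable B
    (Eventually.of_forall fun a => by simpa using hfb a)
  have hfi : Integrable f μ := hf2.integrable (by norm_num)
  have hpb : ∀ᵐ a ∂μ, |(μ[f | m]) a| ≤ B := ae_abs_condExp_le m hfb
  have hpm : Measurable[m] (μ[f | m]) := stronglyMeasurable_condExp.measurable
  have hp2 : MemLp (μ[f | m]) 2 μ := MemLp.of_bound (hpm.mono hm le_rfl).aestronglyMeasurable B
    (by filter_upwards [hpb] with a ha; simpa using ha)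
  have key := integral_condExp_mul hm (hp2.integrable_mul hf2) hfi hpm
  have s1 : Integrable (fun a => ((μ[f | m]) a) ^ 2) μ := hp2.integrable_sq
  have s2 : Integrable (fun a => f a ^ 2) μ := hf2.integrable_sq
  have s3 : Integrable (fun a => f a * (μ[f | m]) a) μ := hf2.integrable_mul hp2
  have hnn : 0 ≤ ∫ a, (f a - (μ[f | m]) a) ^ 2 ∂μ := integral_nonneg fun a => sq_nonneg _
  have e : ∫ a, (f a - (μ[f | m]) a) ^ 2 ∂μ =
      ∫ a, f a ^ 2 ∂μ - 2 * ∫ a, f a * (μ[f | m]) a ∂μ + ∫ a, ((μ[f | m]) a) ^ 2 ∂μ := by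
    have e0 : (fun a => (f a - (μ[f | m]) a) ^ 2) =
        fun a => f a ^ 2 - 2 * (f a * (μ[f | m]) a) + ((μ[f | m]) a) ^ 2 := by
      funext a
      ring
    have s5 : Integrable (fun a => f a ^ 2 - 2 * (f a * (μ[f | m]) a)) μ := s2.sub (s3.const_mul 2)
    rw [e0, integral_add s5 s1, integral_sub s2 (s3.const_mul 2), integral_const_mul]
  have e2 : ∫ a, ((μ[f | m]) a) ^ 2 ∂μ = ∫ a, f a * (μ[f | m]) a ∂μ := by
    rw [← key]
    refine integral_congr_ae (ae_of_all _ fun a => ?_)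
    simp only
    ring
  rw [e, ← e2] at hnn
  linarith

end clipping

/-- Comparing two pullbacks. -/
lemma comap_eq_of_factor {Ω X Y : Type*} [mX : MeasurableSpace X] [mY : MeasurableSpace Y]
    {φ : Ω → X} {ψ : Ω → Y} {Θ : Y → X} {Θ' : X → Y} (hΘ : Measurable Θ) (hΘ' : Measurable Θ')
    (h1 : φ = Θ ∘ ψ) (h2 : ψ = Θ' ∘ φ) :
    MeasurableSpace.comap φ mX = MeasurableSpace.comap ψ mY := by
  apply le_antisymm
  · conv_lhs => rw [h1, ← MeasurableSpace.comap_comp]
    exact MeasurableSpace.comap_mono hΘ.comap_le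
  · conv_lhs => rw [h2, ← MeasurableSpace.comap_comp]
    exact MeasurableSpace.comap_mono hΘ'.comap_le

/-- The action of an automorphism on the local sigma-algebras. -/
lemma comap_hatg_HA (g : V ≃ V) (A : Set V) :
    MeasurableSpace.comap (hatg g) (HA A) = HA (g '' A) := by
  unfold HA
  rw [MeasurableSpace.comap_comp]
  have hmem : ∀ x : A, g x ∈ g '' A := fun x => ⟨x, x.2, rfl⟩
  have hmem' : ∀ y : (g '' A : Set V), g.symm y ∈ A := by
    rintro ⟨y, z, hz, rfl⟩
    simpa using hz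
  refine comap_eq_of_factor
    (Θ := fun q : ((g '' A : Set V) → Bool) × ((g '' A : Set V) → ℕ × ℕ → ℝ) =>
      ((fun x : A => q.1 ⟨g x, hmem x⟩, fun x : A => q.2 ⟨g x, hmem x⟩) :
        (A → Bool) × (A → ℕ × ℕ → ℝ)))
    (Θ' := fun q : (A → Bool) × (A → ℕ × ℕ → ℝ) =>
      ((fun y : (g '' A : Set V) => q.1 ⟨g.symm y, hmem' y⟩,
        fun y : (g '' A : Set V) => q.2 ⟨g.symm y, hmem' y⟩) :
        ((g '' A : Set V) → Bool) × ((g '' A : Set V) → ℕ × ℕ → ℝ)))
    ?_ ?_ ?_ ?_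
  · exact Measurable.prodMk
      (measurable_pi_lambda _ fun x => (measurable_pi_apply _).comp measurable_fst)
      (measurable_pi_lambda _ fun x => (measurable_pi_apply _).comp measurable_snd)
  · exact Measurable.prodMk
      (measurable_pi_lambda _ fun x => (measurable_pi_apply _).comp measurable_fst)
      (measurable_pi_lambda _ fun x => (measurable_pi_apply _).comp measurable_snd)
  · rfl
  · funext a
    refine Prod.ext ?_ ?_
    · funext y
      simp [restrA, hatg]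
    · funext y
      simp [restrA, hatg]

/-- An aligned tuple lies on a geodesic. -/
lemma aligned_path (hT : G.IsTree) {m : ℕ} {a b x y : V} (h : Aligned G m a b x y) :
    IsGeo G (gp hT a y) (m + 1) ∧ gp hT a y 0 = a ∧ gp hT a y 1 = b ∧ gp hT a y m = x ∧
      gp hT a y (m + 1) = y := by
  have hgeo : IsGeo G (gp hT a y) (m + 1) := by
    have := isGeo_gp hT a y
    rwa [h.d1] at this
  refine ⟨hgeo, rfl, ?_, ?_, gp_end hT a y (by rw [h.d1])⟩
  · rw [show (1 : ℕ) = 0 + 1 from rfl, gp_succ, gp_zero]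
    refine (eq_nxt hT h.adj1 ?_).symm
    rw [dist_comm (u := y), dist_comm (u := y), h.d1, h.d2]
  · have hd := gp_dist hT a y m
    rw [dist_comm (u := y) (v := a), h.d1] at hd
    have hadj : G.Adj y (gp hT a y m) := by
      refine dist_eq_one_iff_adj.1 ?_
      rw [hd]
      omega
    have hst := gp_dist_start hT a y (i := m) (by rw [h.d1]; omega)
    exact closer_unique hT hadj h.adj2.symm (by rw [hst, h.d1]) (by rw [h.d3, h.d1])

/-- Two aligned tuples with the same index are related by an automorphism. -/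
lemma exists_aut_aligned {k' : ℕ} (hT : G.IsTree) (hreg : G.IsRegularOfDegree (k' + 1 + 1)) {m : ℕ}
    {a b x y a' b' x' y' : V} (h : Aligned G m a b x y) (h' : Aligned G m a' b' x' y') :
    ∃ g : G ≃g G, g a = a' ∧ g b = b' ∧ g x = x' ∧ g y = y' := by
  obtain ⟨g1, g2, g3, g4, g5⟩ := aligned_path hT h
  obtain ⟨g1', g2', g3', g4', g5'⟩ := aligned_path hT h'
  obtain ⟨g, hg⟩ := exists_aut_geo hT hreg _ _ (m + 1) (by omega) g1 g1'
  refine ⟨g, ?_, ?_, ?_, ?_⟩
  · have := hg 0 (by omega)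
    rwa [g2, g2'] at this
  · have := hg 1 (by omega)
    rwa [g3, g3'] at this
  · have := hg m (by omega)
    rwa [g4, g4'] at this
  · have := hg (m + 1) (by omega)
    rwa [g5, g5'] at this

/-- The local window of an edge. -/
def Aρ (G : SimpleGraph V) [G.LocallyFinite] (ρ : ℕ) (x y : V) : Set V :=
  (ballF G ρ x : Set V) ∪ (ballF G ρ y : Set V)

lemma image_Aρ (hT : G.IsTree) (g : G ≃g G) (ρ : ℕ) (x y : V) :
    g.toEquiv '' (Aρ G ρ x y) = Aρ G ρ (g x) (g y) := by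
  ext z
  simp only [Aρ, Set.mem_image, Set.mem_union, Finset.mem_coe, mem_ballF hT]
  constructor
  · rintro ⟨w, hw, rfl⟩
    have e : ∀ u : V, G.dist (g u) (g.toEquiv w) = G.dist u w := fun u => iso_dist g hT.connected u w
    rw [e, e]
    exact hw
  · intro hz
    refine ⟨g.toEquiv.symm z, ?_, by simp⟩
    have e : ∀ u : V, G.dist (g u) z = G.dist u (g.toEquiv.symm z) := fun u => by
      have := iso_dist g hT.connected u (g.toEquiv.symm z)
      rw [← this]
      congr 1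
      exact (g.toEquiv.apply_symm_apply z).symm
    rw [e, e] at hz
    exact hz

section abstract

variable {W : V → V → TΩ V → ℝ} {B : ℝ}

/-- The approximants. -/
noncomputable def Vρ (ν : Measure (V → Bool)) (G : SimpleGraph V) [G.LocallyFinite]
    (W : V → V → TΩ V → ℝ) (B : ℝ) (ρ : ℕ) (x y : V) : TΩ V → ℝ :=
  ceB (truthP ν) (HA (Aρ G ρ x y)) B (W x y)

lemma measurable_Vρ (ρ : ℕ) (x y : V) : Measurable[HA (Aρ G ρ x y)] (Vρ ν G W B ρ x y) :=
  measurable_ceB _ _ _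

lemma measurable_Vρ' (ρ : ℕ) (x y : V) : Measurable (Vρ ν G W B ρ x y) :=
  (measurable_Vρ ρ x y).mono (HA_le _) le_rfl

lemma abs_Vρ_le (hB : 0 ≤ B) (ρ : ℕ) (x y : V) (a : TΩ V) : |Vρ ν G W B ρ x y a| ≤ B :=
  abs_ceB_le _ hB _ _

lemma Vρ_ae (hWB : ∀ x y a, |W x y a| ≤ B) (ρ : ℕ) (x y : V) :
    Vρ ν G W B ρ x y =ᵐ[truthP ν] (truthP ν)[W x y | HA (Aρ G ρ x y)] :=
  ceB_ae_eq _ (hWB x y)

lemma Vρ_symm (hsymm : ∀ x y a, G.Adj x y → W x y a = W y x a) (ρ : ℕ) {x y : V} (h : G.Adj x y) :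
    Vρ ν G W B ρ x y = Vρ ν G W B ρ y x := by
  have h1 : W x y = W y x := funext fun a => hsymm x y a h
  have h2 : Aρ G ρ x y = Aρ G ρ y x := Set.union_comm _ _
  unfold Vρ
  rw [h1, h2]

lemma integrable_W (hW : ∀ x y, Measurable (W x y)) (hWB : ∀ x y a, |W x y a| ≤ B) (x y : V) :
    Integrable (W x y) (truthP ν) :=
  Integrable.of_bound (hW x y).aestronglyMeasurable B (ae_of_all _ fun a => by simpa using hWB x y a)

lemma integral_Vρ (hWB : ∀ x y a, |W x y a| ≤ B)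
    (hmean : ∀ x y, ∫ a, W x y a ∂(truthP ν) = 0) (ρ : ℕ) (x y : V) :
    ∫ a, Vρ ν G W B ρ x y a ∂(truthP ν) = 0 := by
  rw [integral_congr_ae (Vρ_ae hWB ρ x y), integral_condExp (HA_le _)]
  exact hmean x y

/-- Equivariance of the approximants. -/
lemma Vρ_equiv (hT : G.IsTree) (h0 : 0 ≤ θ) (h1 : θ < 1) (hν : IsIsing G θ ν)
    (hW : ∀ x y, Measurable (W x y)) (hWB : ∀ x y a, |W x y a| ≤ B)
    (hequiv : ∀ (g : G ≃g G) (x y : V),
      (fun a => W x y (hatg g a)) =ᵐ[truthP ν] W (g x) (g y))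
    (g : G ≃g G) (ρ : ℕ) (x y : V) :
    (fun a => Vρ ν G W B ρ x y (hatg g a)) =ᵐ[truthP ν] Vρ ν G W B ρ (g x) (g y) := by
  have hP := truthP_map_hatg hT h0 h1 hν g
  have h2 := condExp_comp_mp (μ := truthP ν) (HA_le (Aρ G ρ x y)) (measurable_hatg (g : V → V)) hP
    (integrable_W hW hWB x y)
  have h3 : MeasurableSpace.comap (hatg (g : V → V)) (HA (Aρ G ρ x y)) = HA (Aρ G ρ (g x) (g y)) := by
    have := comap_hatg_HA (V := V) g.toEquiv (Aρ G ρ x y)
    rw [image_Aρ hT g] at this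
    exact this
  rw [h3] at h2
  have h4 : (truthP ν)[W x y ∘ hatg (g : V → V) | HA (Aρ G ρ (g x) (g y))] =ᵐ[truthP ν]
      (truthP ν)[W (g x) (g y) | HA (Aρ G ρ (g x) (g y))] :=
    condExp_congr_ae (hequiv g x y)
  filter_upwards [h2, h4] with a h5 h6
  simp only [Vρ, ceB]
  rw [h5, h6]

/-- Invariance of the inner products. -/
lemma integral_Vρ_aut (hT : G.IsTree) (h0 : 0 ≤ θ) (h1 : θ < 1) (hν : IsIsing G θ ν)
    (hW : ∀ x y, Measurable (W x y)) (hWB : ∀ x y a, |W x y a| ≤ B)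
    (hequiv : ∀ (g : G ≃g G) (x y : V),
      (fun a => W x y (hatg g a)) =ᵐ[truthP ν] W (g x) (g y))
    (g : G ≃g G) (ρ : ℕ) (a b x y : V) :
    ∫ q, Vρ ν G W B ρ (g a) (g b) q * Vρ ν G W B ρ (g x) (g y) q ∂(truthP ν) =
      ∫ q, Vρ ν G W B ρ a b q * Vρ ν G W B ρ x y q ∂(truthP ν) := by
  have hP := truthP_map_hatg hT h0 h1 hν g
  have e1 := Vρ_equiv (B := B) hT h0 h1 hν hW hWB hequiv g ρ a b
  have e2 := Vρ_equiv (B := B) hT h0 h1 hν hW hWB hequiv g ρ x y
  have hm : Measurable (fun q => Vρ ν G W B ρ a b q * Vρ ν G W B ρ x y q) :=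
    (measurable_Vρ' ρ a b).mul (measurable_Vρ' ρ x y)
  conv_rhs => rw [← hP]
  rw [integral_map (measurable_hatg (g : V → V)).aemeasurable hm.aestronglyMeasurable]
  refine integral_congr_ae ?_
  filter_upwards [e1, e2] with q h2 h3
  rw [h2, h3]

/-- Points of a ball around a vertex of the path lie on the near side of an edge further away. -/
lemma ball_subset_side (hT : G.IsTree) {c q u z : V} (ρ : ℕ) (hcq : G.Adj c q)
    (hu : u ∈ Side G c q) (hd : ρ ≤ G.dist u c) (hz : G.dist u z ≤ ρ) : z ∈ Side G c q := by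
  rcases side_or hT hcq z with h | h
  · exact h
  · have := dist_across hT hcq hu h
    omega

/-- Vertices of a path lie on the expected side of an edge of this path (first direction). -/
lemma path_mem_side_left (hT : G.IsTree) {p : ℕ → V} {r : ℕ} (hp : IsGeo G p r) {j c : ℕ}
    (hj : j ≤ c) (hc : c + 1 ≤ r) : p j ∈ Side G (p c) (p (c + 1)) := by
  simp only [mem_side]
  rw [dist_comm (u := p (c + 1)), dist_comm (u := p c), hp.dist_eq hT (by omega) hc,
    hp.dist_eq hT hj (by omega)]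
  omega

lemma path_mem_side_right (hT : G.IsTree) {p : ℕ → V} {r : ℕ} (hp : IsGeo G p r) {j c : ℕ}
    (hj : c + 1 ≤ j) (hjr : j ≤ r) : p j ∈ Side G (p (c + 1)) (p c) := by
  simp only [mem_side]
  rw [hp.dist_eq hT (by omega) hjr, hp.dist_eq hT hj hjr]
  omega

lemma Aρ_left (hT : G.IsTree) {p : ℕ → V} {r : ℕ} (hp : IsGeo G p r) (ρ : ℕ) (hr : ρ + 2 ≤ r) :
    Aρ G ρ (p 0) (p 1) ⊆ Side G (p (ρ + 1)) (p (ρ + 2)) := by
  have hadj : G.Adj (p (ρ + 1)) (p (ρ + 2)) := hp.adj (ρ + 1) (by omega)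
  rintro z (hz | hz)
  · rw [Finset.mem_coe, mem_ballF hT] at hz
    refine ball_subset_side hT ρ hadj (path_mem_side_left hT hp (by omega) (by omega)) ?_ hz
    rw [hp.dist_eq hT (by omega) (by omega)]
    omega
  · rw [Finset.mem_coe, mem_ballF hT] at hz
    refine ball_subset_side hT ρ hadj (path_mem_side_left hT hp (by omega) (by omega)) ?_ hz
    rw [hp.dist_eq hT (by omega) (by omega)]
    omega

lemma Aρ_right (hT : G.IsTree) {p : ℕ → V} {m : ℕ} (hp : IsGeo G p (m + 1)) (ρ : ℕ)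
    (hr : ρ + 1 ≤ m) :
    Aρ G ρ (p m) (p (m + 1)) ⊆ Side G (p (m - ρ)) (p (m - ρ - 1)) := by
  have hadj : G.Adj (p (m - ρ)) (p (m - ρ - 1)) := by
    have := hp.adj (m - ρ - 1) (by omega)
    rw [show m - ρ - 1 + 1 = m - ρ by omega] at this
    exact this.symm
  have hs : ∀ j, m - ρ ≤ j → j ≤ m + 1 → p j ∈ Side G (p (m - ρ)) (p (m - ρ - 1)) := by
    intro j h1 h2
    have := path_mem_side_right hT hp (j := j) (c := m - ρ - 1) (by omega) h2
    rwa [show m - ρ - 1 + 1 = m - ρ by omega] at this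
  rintro z (hz | hz)
  · rw [Finset.mem_coe, mem_ballF hT] at hz
    refine ball_subset_side hT ρ hadj (hs m (by omega) (by omega)) ?_ hz
    rw [dist_comm, hp.dist_eq hT (by omega) (by omega)]
    omega
  · rw [Finset.mem_coe, mem_ballF hT] at hz
    refine ball_subset_side hT ρ hadj (hs (m + 1) (by omega) (by omega)) ?_ hz
    rw [dist_comm, hp.dist_eq hT (by omega) (by omega)]
    omega

/-- Decay of the correlations of the approximants, at distance beyond the windows. -/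
lemma corr_decay (hT : G.IsTree) (h0 : 0 ≤ θ) (h1 : θ < 1) (hν : IsIsing G θ ν)
    (hB : 0 ≤ B) (hWB : ∀ x y a, |W x y a| ≤ B) (hmean : ∀ x y, ∫ a, W x y a ∂(truthP ν) = 0)
    (ρ : ℕ) {m : ℕ} (hm : 2 * ρ + 2 ≤ m) {a b x y : V} (h : Aligned G m a b x y) :
    |∫ q, Vρ ν G W B ρ a b q * Vρ ν G W B ρ x y q ∂(truthP ν)| ≤ θ ^ (m - 1 - 2 * ρ) * (B * B) := by
  obtain ⟨g1, g2, g3, g4, g5⟩ := aligned_path hT h
  set p := gp hT a y with hp
  set D := m - 1 - 2 * ρ with hD
  have hD1 : 1 ≤ D := by omega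
  set γ' : ℕ → V := fun i => p (ρ + 1 + i) with hγ'
  have hgeo : IsGeo G γ' D :=
    ⟨fun i hi => g1.adj (ρ + 1 + i) (by omega), fun i hi => g1.nb (ρ + 1 + i) (by omega)⟩
  have e0 : γ' 0 = p (ρ + 1) := rfl
  have e1 : γ' 1 = p (ρ + 2) := rfl
  have eD : γ' D = p (m - ρ) := by
    simp only [hγ']
    congr 1
    omega
  have eD' : γ' (D - 1) = p (m - ρ - 1) := by
    simp only [hγ']
    congr 1
    omega
  have hf : Measurable[HA (Side G (γ' 0) (γ' 1))] (Vρ ν G W B ρ a b) := by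
    refine (measurable_Vρ ρ a b).mono (HA_mono ?_) le_rfl
    rw [e0, e1, ← g2, ← g3]
    exact Aρ_left hT g1 ρ (by omega)
  have hf' : Measurable[HA (Side G (γ' D) (γ' (D - 1)))] (Vρ ν G W B ρ x y) := by
    refine (measurable_Vρ ρ x y).mono (HA_mono ?_) le_rfl
    rw [eD, eD', ← g4, ← g5]
    exact Aρ_right hT g1 ρ (by omega)
  have hdec := integral_mul_decouple hT h0 h1 hν γ' D hD1 hgeo _ _ hf hf' B
    (abs_Vρ_le hB ρ a b) (abs_Vρ_le hB ρ x y)
  rw [integral_Vρ hWB hmean, integral_Vρ hWB hmean, zero_mul, zero_add] at hdec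
  rw [hdec, abs_mul, abs_mul, abs_of_nonneg (pow_nonneg h0 D), mul_assoc]
  have hb : ∀ (u v z : V), |∫ q, Vρ ν G W B ρ u v q * sg (q.1 z) ∂(truthP ν)| ≤ B := by
    intro u v z
    have := norm_integral_le_of_norm_le_const (μ := truthP ν)
      (f := fun q : TΩ V => Vρ ν G W B ρ u v q * sg (q.1 z)) (C := B)
      (ae_of_all _ fun q => by
        rw [Real.norm_eq_abs, abs_mul, abs_sg, mul_one]
        exact abs_Vρ_le hB ρ u v q)
    simpa using this
  refine mul_le_mul_of_nonneg_left ?_ (pow_nonneg h0 D)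
  exact mul_le_mul (hb _ _ _) (hb _ _ _) (abs_nonneg _) hB

/-- The chosen value of the inner product. -/
noncomputable def κρ (ν : Measure (V → Bool)) (G : SimpleGraph V) [G.LocallyFinite]
    (W : V → V → TΩ V → ℝ) (B : ℝ) (ρ m : ℕ) : ℝ :=
  open Classical in
  if h : ∃ q : V × V × V × V, Aligned G m q.1 q.2.1 q.2.2.1 q.2.2.2 then
    ∫ a, Vρ ν G W B ρ (Classical.choose h).1 (Classical.choose h).2.1 a *
      Vρ ν G W B ρ (Classical.choose h).2.2.1 (Classical.choose h).2.2.2 a ∂(truthP ν)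
  else 0

lemma κρ_eq {k' : ℕ} (hT : G.IsTree) (hreg : G.IsRegularOfDegree (k' + 1 + 1)) (h0 : 0 ≤ θ)
    (h1 : θ < 1) (hν : IsIsing G θ ν)
    (hW : ∀ x y, Measurable (W x y)) (hWB : ∀ x y a, |W x y a| ≤ B)
    (hequiv : ∀ (g : G ≃g G) (x y : V),
      (fun a => W x y (hatg g a)) =ᵐ[truthP ν] W (g x) (g y))
    (ρ m : ℕ) {a b x y : V} (h : Aligned G m a b x y) :
    ∫ q, Vρ ν G W B ρ a b q * Vρ ν G W B ρ x y q ∂(truthP ν) = κρ ν G W B ρ m := by
  classical
  have hex : ∃ q : V × V × V × V, Aligned G m q.1 q.2.1 q.2.2.1 q.2.2.2 := ⟨(a, b, x, y), h⟩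
  unfold κρ
  rw [dif_pos hex]
  have hs := Classical.choose_spec hex
  obtain ⟨g, e1, e2, e3, e4⟩ := exists_aut_aligned hT hreg hs h
  rw [← e1, ← e2, ← e3, ← e4]
  exact integral_Vρ_aut hT h0 h1 hν hW hWB hequiv g ρ _ _ _ _

lemma abs_κρ_le (hB : 0 ≤ B) (ρ m : ℕ) : |κρ ν G W B ρ m| ≤ B * B := by
  classical
  unfold κρ
  split_ifs with h
  · have := norm_integral_le_of_norm_le_const (μ := truthP ν)
      (f := fun q : TΩ V => Vρ ν G W B ρ (Classical.choose h).1 (Classical.choose h).2.1 q *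
        Vρ ν G W B ρ (Classical.choose h).2.2.1 (Classical.choose h).2.2.2 q) (C := B * B)
      (ae_of_all _ fun q => by
        rw [Real.norm_eq_abs, abs_mul]
        exact mul_le_mul (abs_Vρ_le hB ρ _ _ q) (abs_Vρ_le hB ρ _ _ q) (abs_nonneg _) hB)
    simpa using this
  · simpa using mul_nonneg hB hB

/-- The a priori bound. -/
lemma κρ_apriori (hk : 2 ≤ k) (hT : G.IsTree) (h0 : 0 ≤ θ) (h1 : θ < 1) (hkθ : (k : ℝ) * θ ^ 2 ≤ 1)
    (hν : IsIsing G θ ν) {k' : ℕ} (hreg : G.IsRegularOfDegree (k' + 1 + 1))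
    (hW : ∀ x y, Measurable (W x y))
    (hB : 0 ≤ B) (hWB : ∀ x y a, |W x y a| ≤ B) (hmean : ∀ x y, ∫ a, W x y a ∂(truthP ν) = 0)
    (hequiv : ∀ (g : G ≃g G) (x y : V),
      (fun a => W x y (hatg g a)) =ᵐ[truthP ν] W (g x) (g y))
    (ρ : ℕ) : ∃ C : ℝ, ∀ m : ℕ, |κρ ν G W B ρ (m + 1)| * Real.sqrt k ^ (m + 1) ≤ C * (m + 1) := by
  classical
  have hs1 : 1 ≤ Real.sqrt k := by
    rw [show (1 : ℝ) = Real.sqrt 1 by simp]
    refine Real.sqrt_le_sqrt ?_
    have : (2 : ℝ) ≤ k := by exact_mod_cast hk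
    linarith
  have hs0 : 0 ≤ Real.sqrt k := Real.sqrt_nonneg _
  have hθs : θ * Real.sqrt k ≤ 1 := by
    have hsq : (θ * Real.sqrt k) ^ 2 ≤ 1 := by
      rw [mul_pow, Real.sq_sqrt (by positivity)]
      linarith
    have hnn : 0 ≤ θ * Real.sqrt k := mul_nonneg h0 hs0
    nlinarith
  refine ⟨B * B * Real.sqrt k ^ (2 * ρ + 2), fun m => ?_⟩
  have hK : 0 ≤ B * B * Real.sqrt k ^ (2 * ρ + 2) := by positivity
  have hbound : |κρ ν G W B ρ (m + 1)| * Real.sqrt k ^ (m + 1) ≤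
      B * B * Real.sqrt k ^ (2 * ρ + 2) := by
    by_cases hm : m + 1 < 2 * ρ + 2
    · exact mul_le_mul (abs_κρ_le hB ρ _) (pow_le_pow_right₀ hs1 (by omega)) (by positivity)
        (by positivity)
    · push_neg at hm
      by_cases hex : ∃ q : V × V × V × V, Aligned G (m + 1) q.1 q.2.1 q.2.2.1 q.2.2.2
      · obtain ⟨⟨a, b, x, y⟩, hal⟩ := hex
        have hd := corr_decay hT h0 h1 hν hB hWB hmean ρ hm hal
        rw [κρ_eq hT hreg h0 h1 hν hW hWB hequiv ρ (m + 1) hal] at hd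
        set D := m + 1 - 1 - 2 * ρ with hD
        have hpow : Real.sqrt k ^ (m + 1) = Real.sqrt k ^ D * Real.sqrt k ^ (2 * ρ + 1) := by
          rw [← pow_add]
          congr 1
          omega
        calc |κρ ν G W B ρ (m + 1)| * Real.sqrt k ^ (m + 1)
            ≤ (θ ^ D * (B * B)) * (Real.sqrt k ^ D * Real.sqrt k ^ (2 * ρ + 1)) := by
              rw [hpow]
              exact mul_le_mul_of_nonneg_right hd (by positivity)
          _ = (θ * Real.sqrt k) ^ D * (B * B * Real.sqrt k ^ (2 * ρ + 1)) := by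
              rw [mul_pow]
              ring
          _ ≤ 1 * (B * B * Real.sqrt k ^ (2 * ρ + 1)) := by
              refine mul_le_mul_of_nonneg_right ?_ (by positivity)
              exact pow_le_one₀ (mul_nonneg h0 hs0) hθs
          _ ≤ B * B * Real.sqrt k ^ (2 * ρ + 2) := by
              rw [one_mul]
              refine mul_le_mul_of_nonneg_left (pow_le_pow_right₀ hs1 (by omega)) (by positivity)
      · have : κρ ν G W B ρ (m + 1) = 0 := by
          unfold κρ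
          rw [dif_neg hex]
        rw [this, abs_zero, zero_mul]
        exact hK
  calc |κρ ν G W B ρ (m + 1)| * Real.sqrt k ^ (m + 1) ≤ B * B * Real.sqrt k ^ (2 * ρ + 2) := hbound
    _ = B * B * Real.sqrt k ^ (2 * ρ + 2) * 1 := (mul_one _).symm
    _ ≤ B * B * Real.sqrt k ^ (2 * ρ + 2) * ((m : ℝ) + 1) :=
        mul_le_mul_of_nonneg_left (by
          have : (0 : ℝ) ≤ m := Nat.cast_nonneg m
          linarith) hK

/-- The square integral of a sum expressed in `L²`. -/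
lemma memLp_Vρ (hB : 0 ≤ B) (ρ : ℕ) (x y : V) : MemLp (Vρ ν G W B ρ x y) 2 (truthP ν) :=
  MemLp.of_bound (measurable_Vρ' ρ x y).aestronglyMeasurable B
    (ae_of_all _ fun a => by simpa using abs_Vρ_le hB ρ x y a)

lemma inner_toLp {Ω : Type*} {m₀ : MeasurableSpace Ω} {μ : Measure Ω} {F F' : Ω → ℝ}
    (hF : MemLp F 2 μ) (hF' : MemLp F' 2 μ) :
    inner ℝ (hF.toLp F) (hF'.toLp F') = ∫ a, F a * F' a ∂μ := by
  rw [L2.inner_def]
  refine integral_congr_ae ?_
  filter_upwards [hF.coeFn_toLp, hF'.coeFn_toLp] with a h1 h2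
  rw [h1, h2]
  simp [mul_comm]

lemma norm_sq_sum_toLp {Ω : Type*} {m₀ : MeasurableSpace Ω} {μ : Measure Ω} [IsProbabilityMeasure μ]
    {r : ℕ} {F : ℕ → Ω → ℝ} (hF : ∀ i, MemLp (F i) 2 μ) :
    ‖∑ i ∈ Finset.range r, (hF i).toLp (F i)‖ ^ 2 = ∫ a, (∑ i ∈ Finset.range r, F i a) ^ 2 ∂μ := by
  rw [← real_inner_self_eq_norm_sq, sum_inner]
  simp_rw [inner_sum, inner_toLp]
  have hint : ∀ i j, Integrable (fun a => F i a * F j a) μ := fun i j =>
    (hF i).integrable_mul (hF j)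
  have e : ∀ a, (∑ i ∈ Finset.range r, F i a) ^ 2 =
      ∑ i ∈ Finset.range r, ∑ j ∈ Finset.range r, F i a * F j a := by
    intro a
    rw [sq, Finset.sum_mul_sum]
  simp_rw [e]
  rw [integral_finset_sum _ fun i _ => integrable_finset_sum _ fun j _ => hint i j]
  refine Finset.sum_congr rfl fun i _ => ?_
  rw [integral_finset_sum _ fun j _ => hint i j]


lemma HA_coord_fst {A : Set V} {v : V} (hv : v ∈ A) : Measurable[HA A] (fun a : TΩ V => a.1 v) := by
  have h1 : Measurable[HA A] (restrA A) := comap_measurable _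
  have h2 : Measurable (fun q : (A → Bool) × (A → ℕ × ℕ → ℝ) => q.1 ⟨v, hv⟩) :=
    (measurable_pi_apply _).comp measurable_fst
  exact h2.comp h1

lemma HA_coord_snd {A : Set V} {v : V} (hv : v ∈ A) : Measurable[HA A] (fun a : TΩ V => a.2 v) := by
  have h1 : Measurable[HA A] (restrA A) := comap_measurable _
  have h2 : Measurable (fun q : (A → Bool) × (A → ℕ × ℕ → ℝ) => q.2 ⟨v, hv⟩) :=
    (measurable_pi_apply _).comp measurable_snd
  exact h2.comp h1

lemma prodmk_aux {Ω : Type*} (m' : MeasurableSpace Ω) {u : Ω → V → Bool} {v : Ω → V → ℕ × ℕ → ℝ}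
    (h1 : ∀ x, Measurable (fun a => u a x)) (h2 : ∀ x, Measurable (fun a => v a x)) :
    Measurable (fun a => (u a, v a)) :=
  (measurable_pi_iff.2 h1).prodMk (measurable_pi_iff.2 h2)

/-- A sigma-algebra for which all coordinates are measurable contains the product sigma-algebra. -/
lemma inst_le_of_coord (m' : MeasurableSpace (TΩ V))
    (h1 : ∀ v, Measurable[m'] (fun a : TΩ V => a.1 v))
    (h2 : ∀ v, Measurable[m'] (fun a : TΩ V => a.2 v)) :
    (Prod.instMeasurableSpace : MeasurableSpace (TΩ V)) ≤ m' := by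
  have h := prodmk_aux (Ω := TΩ V) m' h1 h2
  have h3 := h.comap_le
  have h4 : (fun a : TΩ V => (a.1, a.2)) = id := rfl
  rwa [h4, MeasurableSpace.comap_id] at h3

/-- The approximants converge to the field. -/
lemma tendsto_Vρ (hT : G.IsTree) (hW : ∀ x y, Measurable (W x y)) (hWB : ∀ x y a, |W x y a| ≤ B)
    (x y : V) :
    ∀ᵐ a ∂(truthP ν), Tendsto (fun ρ => Vρ ν G W B ρ x y a) atTop (𝓝 (W x y a)) := by
  have hmono : ∀ {ρ ρ' : ℕ}, ρ ≤ ρ' → Aρ G ρ x y ⊆ Aρ G ρ' x y := by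
    intro ρ ρ' h
    apply Set.union_subset_union
    · exact_mod_cast ballF_mono hT x h
    · exact_mod_cast ballF_mono hT y h
  let ℱ : Filtration ℕ (Prod.instMeasurableSpace : MeasurableSpace (TΩ V)) :=
    { seq := fun ρ => HA (Aρ G ρ x y)
      mono' := fun ρ ρ' h => HA_mono (hmono h)
      le' := fun ρ => HA_le _ }
  have hmem : ∀ v, v ∈ Aρ G (G.dist x v) x y := fun v =>
    Or.inl (by
      rw [Finset.mem_coe, mem_ballF hT])
  have hsup : (⨆ ρ, ℱ ρ) ≤ (Prod.instMeasurableSpace : MeasurableSpace (TΩ V)) := iSup_le fun ρ => HA_le _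
  have hsup' : (Prod.instMeasurableSpace : MeasurableSpace (TΩ V)) ≤ ⨆ ρ, ℱ ρ := by
    refine inst_le_of_coord (V := V) _ (fun v => ?_) (fun v => ?_)
    · exact (HA_coord_fst (hmem v)).mono (le_iSup (fun ρ => ℱ ρ) (G.dist x v)) le_rfl
    · exact (HA_coord_snd (hmem v)).mono (le_iSup (fun ρ => ℱ ρ) (G.dist x v)) le_rfl
  have hm' : Measurable[⨆ ρ, ℱ ρ] (W x y) := (hW x y).mono hsup' le_rfl
  have heq : (truthP ν)[W x y | ⨆ ρ, ℱ ρ] = W x y :=
    condExp_of_stronglyMeasurable hsup hm'.stronglyMeasurable (integrable_W hW hWB x y)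
  have hconv := tendsto_ae_condExp (μ := truthP ν) (ℱ := ℱ) (W x y)
  rw [heq] at hconv
  have hall : ∀ᵐ a ∂(truthP ν), ∀ ρ, Vρ ν G W B ρ x y a =
      ((truthP ν)[W x y | HA (Aρ G ρ x y)]) a :=
    ae_all_iff.2 fun ρ => Vρ_ae hWB ρ x y
  filter_upwards [hconv, hall] with a h1 h2
  simp_rw [h2]
  exact h1

/-- The abstract non-coherence bound. -/
theorem nc_abstract (hk : 2 ≤ k) {C : ℝ} (hC : 0 < C)
    (hmain : ∀ (_ : G.IsTree) (_ : G.IsRegularOfDegree (k + 1))
      (w : V → V → Lp ℝ 2 (truthP ν))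
      (_ : ∀ x y, G.Adj x y → w x y = w y x) (κ : ℕ → ℝ)
      (_ : ∀ m a b x y, Aligned G m a b x y → inner ℝ (w a b) (w x y) = κ m)
      (_ : ∃ C : ℝ, ∀ m : ℕ, |κ (m + 1)| * Real.sqrt k ^ (m + 1) ≤ C * (m + 1))
      (γ : ℕ → V) (r : ℕ) (_ : IsGeo G γ r),
      ‖∑ i ∈ Finset.range r, w (γ i) (γ (i + 1))‖ ^ 2 ≤ C * r * κ 0)
    (hT : G.IsTree) (hreg : G.IsRegularOfDegree (k + 1)) (h0 : 0 ≤ θ) (h1 : θ < 1)
    (hkθ : (k : ℝ) * θ ^ 2 ≤ 1) (hν : IsIsing G θ ν)
    (hW : ∀ x y, Measurable (W x y)) (hB : 0 ≤ B) (hWB : ∀ x y a, |W x y a| ≤ B)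
    (hsymm : ∀ x y a, G.Adj x y → W x y a = W y x a)
    (hmean : ∀ x y, ∫ a, W x y a ∂(truthP ν) = 0)
    (hequiv : ∀ (g : G ≃g G) (x y : V),
      (fun a => W x y (hatg g a)) =ᵐ[truthP ν] W (g x) (g y))
    (γ : ℕ → V) (r : ℕ) (hγ : IsGeo G γ r) (e₁ e₂ : V) (he : G.Adj e₁ e₂) :
    ∫ a, (∑ i ∈ Finset.range r, W (γ i) (γ (i + 1)) a) ^ 2 ∂(truthP ν) ≤
      C * r * ∫ a, W e₁ e₂ a ^ 2 ∂(truthP ν) := by
  obtain ⟨k', rfl⟩ : ∃ k', k = k' + 1 := ⟨k - 1, by omega⟩
  have step : ∀ ρ : ℕ, ∫ a, (∑ i ∈ Finset.range r, Vρ ν G W B ρ (γ i) (γ (i + 1)) a) ^ 2 ∂(truthP ν) ≤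
      C * r * ∫ a, W e₁ e₂ a ^ 2 ∂(truthP ν) := by
    intro ρ
    have hmem := fun x y => memLp_Vρ (ν := ν) (G := G) (W := W) hB ρ x y
    have := hmain hT hreg (fun x y => (hmem x y).toLp _)
      (fun x y hxy => by
        refine MemLp.toLp_congr _ _ ?_
        rw [Vρ_symm hsymm ρ hxy])
      (κρ ν G W B ρ)
      (fun m a b x y hal => by
        rw [inner_toLp]
        exact κρ_eq hT hreg h0 h1 hν hW hWB hequiv ρ m hal)
      (κρ_apriori hk hT h0 h1 hkθ hν hreg hW hB hWB hmean hequiv ρ)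
      γ r hγ
    have hnorm := norm_sq_sum_toLp (μ := truthP ν) (r := r)
      (F := fun i => Vρ ν G W B ρ (γ i) (γ (i + 1))) (fun i => hmem _ _)
    have this2 : ‖∑ i ∈ Finset.range r, (hmem (γ i) (γ (i + 1))).toLp _‖ ^ 2 ≤
        C * r * κρ ν G W B ρ 0 := this
    rw [hnorm] at this2
    refine this2.trans ?_
    refine mul_le_mul_of_nonneg_left ?_ (by positivity)
    rw [← κρ_eq (a := e₁) (b := e₂) (x := e₁) (y := e₂) hT hreg h0 h1 hν hW hWB hequiv ρ 0
      (Aligned.self hT he)]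
    have hae := Vρ_ae (ν := ν) (G := G) hWB ρ e₁ e₂
    calc ∫ q, Vρ ν G W B ρ e₁ e₂ q * Vρ ν G W B ρ e₁ e₂ q ∂(truthP ν)
        = ∫ q, (((truthP ν)[W e₁ e₂ | HA (Aρ G ρ e₁ e₂)]) q) ^ 2 ∂(truthP ν) := by
          refine integral_congr_ae ?_
          filter_upwards [hae] with q hq
          rw [hq]
          ring
      _ ≤ _ := integral_sq_condExp_le (HA_le _) (hW e₁ e₂) (hWB e₁ e₂)
  -- the limit
  have hall : ∀ᵐ a ∂(truthP ν), ∀ i : ℕ,
      Tendsto (fun ρ => Vρ ν G W B ρ (γ i) (γ (i + 1)) a) atTop (𝓝 (W (γ i) (γ (i + 1)) a)) :=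
    ae_all_iff.2 fun i => tendsto_Vρ hT hW hWB _ _
  have hlim : Tendsto (fun ρ : ℕ => ∫ a, (∑ i ∈ Finset.range r,
      Vρ ν G W B ρ (γ i) (γ (i + 1)) a) ^ 2 ∂(truthP ν)) atTop
      (𝓝 (∫ a, (∑ i ∈ Finset.range r, W (γ i) (γ (i + 1)) a) ^ 2 ∂(truthP ν))) := by
    refine tendsto_integral_of_dominated_convergence (fun _ => ((r : ℝ) * B) ^ 2) ?_
      (integrable_const _) ?_ ?_
    · intro ρ
      have : Measurable (fun a => (∑ i ∈ Finset.range r, Vρ ν G W B ρ (γ i) (γ (i + 1)) a) ^ 2) :=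
        (Finset.measurable_fun_sum _ fun i _ => measurable_Vρ' ρ _ _).pow_const 2
      exact this.aestronglyMeasurable
    · intro ρ
      refine ae_of_all _ fun a => ?_
      rw [Real.norm_eq_abs, abs_pow, sq_abs]
      have hs : |∑ i ∈ Finset.range r, Vρ ν G W B ρ (γ i) (γ (i + 1)) a| ≤ (r : ℝ) * B := by
        calc _ ≤ ∑ i ∈ Finset.range r, |Vρ ν G W B ρ (γ i) (γ (i + 1)) a| :=
              Finset.abs_sum_le_sum_abs _ _
          _ ≤ ∑ _i ∈ Finset.range r, B := Finset.sum_le_sum fun i _ => abs_Vρ_le hB ρ _ _ a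
          _ = (r : ℝ) * B := by simp
      calc (∑ i ∈ Finset.range r, Vρ ν G W B ρ (γ i) (γ (i + 1)) a) ^ 2
          = |∑ i ∈ Finset.range r, Vρ ν G W B ρ (γ i) (γ (i + 1)) a| ^ 2 := (sq_abs _).symm
        _ ≤ ((r : ℝ) * B) ^ 2 := pow_le_pow_left₀ (abs_nonneg _) hs 2
    · filter_upwards [hall] with a ha
      exact (tendsto_finset_sum _ fun i _ => ha i).pow 2
  exact le_of_tendsto' hlim step


end abstract

end NCApply

open NCApply in
/-- Non-coherence: the sum of the fluctuations given the innovation of an equivariant bounded field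
on the edges along a geodesic of length `r` has a variance of order `r`. The constant depends on `k`
only. -/
theorem exists_nc_sum_le (hk : 2 ≤ k) : ∃ C : ℝ, 0 < C ∧
    ∀ (hT : G.IsTree) (_ : G.IsRegularOfDegree (k + 1)) (_ : 0 ≤ θ) (_ : θ < 1)
      (_ : (k : ℝ) * θ ^ 2 ≤ 1) (_ : IsIsing G θ ν)
      (f : V → V → TΩ V → ℝ) (M : ℝ) (_ : ∀ x y, Measurable (f x y))
      (_ : ∀ x y a, |f x y a| ≤ M) (_ : ∀ x y a, G.Adj x y → f x y a = f y x a)
      (_ : ∀ (g : G ≃g G) (x y : V) (a : TΩ V), f (g x) (g y) a = f x y (hatg g a))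
      (t : ℝ) (γ : ℕ → V) (r : ℕ) (_ : IsGeo G γ r) (e₁ e₂ : V) (_ : G.Adj e₁ e₂),
      ∫ a, (∑ i ∈ Finset.range r, (f (γ i) (γ (i + 1)) a -
          ((truthP ν)[f (γ i) (γ (i + 1)) | Gt ν (ballFs G) Prod.fst truthB t]) a)) ^ 2 ∂(truthP ν) ≤
        C * r * ∫ a, (f e₁ e₂ a -
          ((truthP ν)[f e₁ e₂ | Gt ν (ballFs G) Prod.fst truthB t]) a) ^ 2 ∂(truthP ν) := by
  obtain ⟨C, hC, hmain⟩ := exists_geodesic_sum_le (V := V) (G := G) (H := Lp ℝ 2 (truthP ν)) k hk
  refine ⟨C, hC, ?_⟩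
  intro hT hreg h0 h1 hkθ hν f M hf hfM hfs hfg t γ r hγ e₁ e₂ he
  have hM : 0 ≤ M := (abs_nonneg _).trans (hfM e₁ e₂ ((fun _ => true), (fun _ _ => 0)))
  set 𝒢 := Gt ν (ballFs G) Prod.fst truthB t with h𝒢d
  have h𝒢 : 𝒢 ≤ (Prod.instMeasurableSpace : MeasurableSpace (TΩ V)) := by
    rw [h𝒢d, Gt_eq_comap]
    exact (measurable_WtT (ν := ν) (G := G) t).comap_le
  set W : V → V → TΩ V → ℝ := fun x y a => f x y a - clipB M (((truthP ν)[f x y | 𝒢]) a) with hWd
  have hclip : ∀ x y, ∀ᵐ a ∂(truthP ν), clipB M (((truthP ν)[f x y | 𝒢]) a) = ((truthP ν)[f x y | 𝒢]) a :=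
    fun x y => ceB_ae_eq 𝒢 (hfM x y)
  have hW : ∀ x y, @Measurable _ _ Prod.instMeasurableSpace _ (W x y) := fun x y =>
    (hf x y).sub ((measurable_clipB M).comp
      ((stronglyMeasurable_condExp (f := f x y) (μ := truthP ν) (m := 𝒢)).measurable.mono h𝒢 le_rfl))
  have hWB : ∀ x y a, |W x y a| ≤ 2 * M := fun x y a => by
    have h2 := hfM x y a
    have h3 := abs_clipB_le hM (((truthP ν)[f x y | 𝒢]) a)
    calc |W x y a| ≤ |f x y a| + |clipB M (((truthP ν)[f x y | 𝒢]) a)| := abs_sub _ _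
      _ ≤ 2 * M := by linarith
  have hsymm : ∀ x y a, G.Adj x y → W x y a = W y x a := fun x y a hxy => by
    have e : f x y = f y x := funext fun b => hfs x y b hxy
    simp only [hWd]
    rw [e]
  have hmean : ∀ x y, ∫ a, W x y a ∂(truthP ν) = 0 := fun x y => by
    have hfi : Integrable (f x y) (truthP ν) :=
      Integrable.of_bound (hf x y).aestronglyMeasurable M (ae_of_all _ fun a => by simpa using hfM x y a)
    have e : ∫ a, W x y a ∂(truthP ν) =
        ∫ a, (f x y a - ((truthP ν)[f x y | 𝒢]) a) ∂(truthP ν) := by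
      refine integral_congr_ae ?_
      filter_upwards [hclip x y] with a ha
      simp only [hWd]
      rw [ha]
    rw [e, integral_sub hfi integrable_condExp, integral_condExp h𝒢, sub_self]
  have hequiv : ∀ (g : G ≃g G) (x y : V),
      (fun a => W x y (hatg g a)) =ᵐ[truthP ν] W (g x) (g y) := by
    intro g x y
    have h2 := condExp_Gt_hatg hT h0 h1 hν g t (f x y) (hf x y) M (hfM x y)
    have e : f x y ∘ hatg (g : V → V) = f (g x) (g y) := by
      funext a
      exact (hfg g x y a).symm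
    rw [e] at h2
    filter_upwards [h2] with a ha
    simp only [hWd]
    rw [ha, hfg g x y a]
  have key := nc_abstract hk hC hmain hT hreg h0 h1 hkθ hν hW (by positivity) hWB hsymm hmean hequiv
    γ r hγ e₁ e₂ he
  have hl : ∫ a, (∑ i ∈ Finset.range r, (f (γ i) (γ (i + 1)) a -
      ((truthP ν)[f (γ i) (γ (i + 1)) | 𝒢]) a)) ^ 2 ∂(truthP ν) =
      ∫ a, (∑ i ∈ Finset.range r, W (γ i) (γ (i + 1)) a) ^ 2 ∂(truthP ν) := by
    refine integral_congr_ae ?_
    have hall : ∀ᵐ a ∂(truthP ν), ∀ i : ℕ, clipB M (((truthP ν)[f (γ i) (γ (i + 1)) | 𝒢]) a) =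
        ((truthP ν)[f (γ i) (γ (i + 1)) | 𝒢]) a := ae_all_iff.2 fun i => hclip _ _
    filter_upwards [hall] with a ha
    simp only [hWd]
    simp_rw [ha]
  have hr : ∫ a, (f e₁ e₂ a - ((truthP ν)[f e₁ e₂ | 𝒢]) a) ^ 2 ∂(truthP ν) =
      ∫ a, W e₁ e₂ a ^ 2 ∂(truthP ν) := by
    refine integral_congr_ae ?_
    filter_upwards [hclip e₁ e₂] with a ha
    simp only [hWd]
    rw [ha]
  rw [hl, hr]
  exact key

end Crest.Agent.Lib.IT
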