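/-
The hybrid telescoping bound for the path product (statement S0241). Purely deterministic.
-/
import Crest.Agent.Lib.IT.LinkPath

set_option autoImplicit false

namespace Crest.Agent.Lib.IT

/-- The product of the edge weights of a segment of a path. -/
noncomputable def PP (θ : ℝ) (a : ℕ → ℝ) (s e : ℕ) : ℝ :=
  ∏ i ∈ Finset.Ico s e, gE θ (a i) (a (i + 1))

/-- The bounds satisfied by the edge weights along a path of length `r`. -/
def PathOK (θ : ℝ) (a : ℕ → ℝ) (r : ℕ) : Prop :=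
  (∀ i, |a i| ≤ 1) ∧ ∀ i, i < r → gE θ (a i) (a (i + 1)) ≤ 1 ∧
    gE θ (a i) (a (i + 1)) ^ 2 ≤ Real.exp (-((1 - θ ^ 2) / 4) * (a i ^ 2 + a (i + 1) ^ 2))

theorem pathalg_exp_aux {c x : ℝ} (hx0 : 0 ≤ x) (hx1 : x ≤ 1) :
    Real.exp (-c * x) ≤ 1 - x * (1 - Real.exp (-c)) := by
  have h := convexOn_exp.2 (Set.mem_univ (0 : ℝ)) (Set.mem_univ (-c)) (sub_nonneg.mpr hx1) hx0
    (by ring : (1 - x) + x = 1)
  simp only [smul_eq_mul, mul_zero, zero_add, Real.exp_zero, mul_one] at h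
  have e : x * -c = -c * x := by ring
  rw [e] at h
  linarith

theorem pathalg_D_pos {c : ℝ} (hc : 0 < c) : 0 < 1 - Real.exp (-c) := by
  have : Real.exp (-c) < 1 := by
    rw [← Real.exp_zero]; exact Real.exp_lt_exp.mpr (by linarith)
  linarith

/-- A summation lemma: `∑ exp (-c X_j) x_j` is bounded, for `x_j ∈ [0, 1]`, `X_j = ∑_{i<j} x_i`. -/
theorem sum_exp_neg_partial_le {c : ℝ} (hc : 0 < c) (x : ℕ → ℝ) (hx0 : ∀ i, 0 ≤ x i) (hx1 : ∀ i, x i ≤ 1)
    (r : ℕ) :
    ∑ j ∈ Finset.range r, Real.exp (-c * ∑ i ∈ Finset.range j, x i) * x j ≤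
      1 / (1 - Real.exp (-c)) := by
  have hD := pathalg_D_pos hc
  rw [le_div_iff₀ hD]
  have key : ∀ r, (∑ j ∈ Finset.range r, Real.exp (-c * ∑ i ∈ Finset.range j, x i) * x j) *
      (1 - Real.exp (-c)) ≤ 1 - Real.exp (-c * ∑ i ∈ Finset.range r, x i) := by
    intro r
    induction r with
    | zero => simp
    | succ n ih =>
      rw [Finset.sum_range_succ, add_mul, Finset.sum_range_succ x n]
      set X := ∑ i ∈ Finset.range n, x i
      have e : Real.exp (-c * (X + x n)) = Real.exp (-c * X) * Real.exp (-c * x n) := by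
        rw [← Real.exp_add]; ring_nf
      rw [e]
      have h := pathalg_exp_aux (c := c) (hx0 n) (hx1 n)
      have hp := (Real.exp_pos (-c * X)).le
      have h2 := mul_le_mul_of_nonneg_left h hp
      nlinarith
  have h1 := key r
  have h2 := Real.exp_pos (-c * ∑ i ∈ Finset.range r, x i)
  linarith

theorem pathalg_back_aux {c : ℝ} (x : ℕ → ℝ) (hx0 : ∀ i, 0 ≤ x i) (hx1 : ∀ i, x i ≤ 1) (r : ℕ) :
    ∀ s : ℝ, (∑ j ∈ Finset.range r,
        Real.exp (-c * (s + ∑ i ∈ Finset.Ico (j + 1) r, x i)) * x j) * (1 - Real.exp (-c)) ≤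
      Real.exp (-c * s) - Real.exp (-c * (s + ∑ i ∈ Finset.range r, x i)) := by
  induction r with
  | zero => intro s; simp
  | succ n ih =>
    intro s
    have h0 : ∑ j ∈ Finset.range n,
        Real.exp (-c * (s + ∑ i ∈ Finset.Ico (j + 1) (n + 1), x i)) * x j =
        ∑ j ∈ Finset.range n,
        Real.exp (-c * ((s + x n) + ∑ i ∈ Finset.Ico (j + 1) n, x i)) * x j := by
      apply Finset.sum_congr rfl
      intro j hj
      have hj' : j + 1 ≤ n := Finset.mem_range.mp hj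
      rw [Finset.sum_Ico_succ_top hj']
      congr 3
      ring
    rw [Finset.sum_range_succ, h0, add_mul, Finset.sum_range_succ x n]
    have h1 := ih (s + x n)
    simp only [Finset.Ico_self, Finset.sum_empty, add_zero]
    have h2 : Real.exp (-c * (s + x n)) = Real.exp (-c * s) * Real.exp (-c * x n) := by
      rw [← Real.exp_add]; ring_nf
    have h3 : s + x n + ∑ i ∈ Finset.range n, x i = s + (∑ i ∈ Finset.range n, x i + x n) := by ring
    rw [h3] at h1
    have h := pathalg_exp_aux (c := c) (hx0 n) (hx1 n)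
    have hp := (Real.exp_pos (-c * s)).le
    have h4 := mul_le_mul_of_nonneg_left h hp
    rw [← h2] at h4
    nlinarith

/-- The backward form of the summation lemma. -/
theorem pathalg_back_le {c : ℝ} (hc : 0 < c) (x : ℕ → ℝ) (hx0 : ∀ i, 0 ≤ x i) (hx1 : ∀ i, x i ≤ 1)
    (r : ℕ) :
    ∑ j ∈ Finset.range r, Real.exp (-c * ∑ i ∈ Finset.Ico (j + 1) r, x i) * x j ≤
      1 / (1 - Real.exp (-c)) := by
  have hD := pathalg_D_pos hc
  rw [le_div_iff₀ hD]
  have h1 := pathalg_back_aux (c := c) x hx0 hx1 r 0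
  simp only [zero_add, mul_zero, Real.exp_zero] at h1
  have h2 := Real.exp_pos (-c * ∑ i ∈ Finset.range r, x i)
  linarith

/-- The path product without the factor `θ ^ r`. -/
noncomputable def pathG (θ : ℝ) (a : ℕ → ℝ) (r : ℕ) : ℝ :=
  (∏ i ∈ Finset.range (r + 1), (1 - a i ^ 2)) * ∏ i ∈ Finset.range r, WW θ (a i) (a (i + 1))

theorem pathC_eq_pathG (θ : ℝ) (a : ℕ → ℝ) (r : ℕ) : pathC θ a r = θ ^ r * pathG θ a r := by
  unfold pathC pathG; ring

theorem pathalg_WW_comm (θ x y : ℝ) : WW θ x y = WW θ y x := by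
  unfold WW RR
  rw [mul_comm x y, add_comm (x ^ 2) (y ^ 2)]

/-- The product over a segment in terms of the edge weights. -/
theorem pathalg_seg_eq (θ : ℝ) (a : ℕ → ℝ) (ha : ∀ i, |a i| ≤ 1) (s e : ℕ) (hse : s ≤ e) :
    (∏ i ∈ Finset.Ico s (e + 1), (1 - a i ^ 2)) * ∏ i ∈ Finset.Ico s e, WW θ (a i) (a (i + 1)) =
      Real.sqrt (1 - a s ^ 2) * Real.sqrt (1 - a e ^ 2) * PP θ a s e := by
  have hS : ∀ i, 1 - a i ^ 2 = Real.sqrt (1 - a i ^ 2) * Real.sqrt (1 - a i ^ 2) := by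
    intro i
    have h := abs_le.mp (ha i)
    exact (Real.mul_self_sqrt (by nlinarith)).symm
  induction e, hse using Nat.le_induction with
  | base =>
    rw [Finset.prod_Ico_succ_top le_rfl]
    simp only [Finset.Ico_self, Finset.prod_empty, mul_one, one_mul, PP]
    exact hS s
  | succ e hse ih =>
    have p1 : ∏ i ∈ Finset.Ico s (e + 1 + 1), (1 - a i ^ 2) =
        (∏ i ∈ Finset.Ico s (e + 1), (1 - a i ^ 2)) * (1 - a (e + 1) ^ 2) :=
      Finset.prod_Ico_succ_top (by omega) _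
    have p2 : ∏ i ∈ Finset.Ico s (e + 1), WW θ (a i) (a (i + 1)) =
        (∏ i ∈ Finset.Ico s e, WW θ (a i) (a (i + 1))) * WW θ (a e) (a (e + 1)) :=
      Finset.prod_Ico_succ_top hse _
    rw [p1, p2]
    have hP : PP θ a s (e + 1) = PP θ a s e * gE θ (a e) (a (e + 1)) := by
      unfold PP; rw [Finset.prod_Ico_succ_top hse]
    rw [hP]
    unfold gE
    have e1 : (∏ i ∈ Finset.Ico s (e + 1), (1 - a i ^ 2)) * (1 - a (e + 1) ^ 2) *
        ((∏ i ∈ Finset.Ico s e, WW θ (a i) (a (i + 1))) * WW θ (a e) (a (e + 1))) =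
        ((∏ i ∈ Finset.Ico s (e + 1), (1 - a i ^ 2)) *
          ∏ i ∈ Finset.Ico s e, WW θ (a i) (a (i + 1))) *
        (1 - a (e + 1) ^ 2) * WW θ (a e) (a (e + 1)) := by ring
    rw [e1, ih]
    nth_rewrite 1 [hS (e + 1)]
    ring

/-- The left part of the path product. -/
noncomputable def pathL (θ : ℝ) (a : ℕ → ℝ) (j : ℕ) : ℝ :=
  (∏ i ∈ Finset.range j, (1 - a i ^ 2)) * ∏ i ∈ Finset.range (j - 1), WW θ (a i) (a (i + 1))

/-- The right part of the path product. -/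
noncomputable def pathR (θ : ℝ) (a : ℕ → ℝ) (j r : ℕ) : ℝ :=
  (∏ i ∈ Finset.Ico (j + 1) (r + 1), (1 - a i ^ 2)) *
    ∏ i ∈ Finset.Ico (j + 1) r, WW θ (a i) (a (i + 1))

/-- The middle part of the path product. -/
noncomputable def pathM (θ : ℝ) (a : ℕ → ℝ) (j r : ℕ) : ℝ :=
  (if j = 0 then 1 else WW θ (a (j - 1)) (a j)) * (1 - a j ^ 2) *
    (if j < r then WW θ (a j) (a (j + 1)) else 1)

theorem pathG_split (θ : ℝ) (a : ℕ → ℝ) {j r : ℕ} (hj : j ≤ r) :
    pathG θ a r = pathL θ a j * pathM θ a j r * pathR θ a j r := by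
  unfold pathG pathL pathM pathR
  have e1 : ∏ i ∈ Finset.range (r + 1), (1 - a i ^ 2) =
      (∏ i ∈ Finset.range j, (1 - a i ^ 2)) * (1 - a j ^ 2) *
        ∏ i ∈ Finset.Ico (j + 1) (r + 1), (1 - a i ^ 2) := by
    rw [← Finset.prod_range_mul_prod_Ico (fun i => 1 - a i ^ 2) (by omega : j + 1 ≤ r + 1),
      Finset.prod_range_succ]
  have e2 : ∏ i ∈ Finset.range r, WW θ (a i) (a (i + 1)) =
      (∏ i ∈ Finset.range (j - 1), WW θ (a i) (a (i + 1))) *
        (if j = 0 then 1 else WW θ (a (j - 1)) (a j)) *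
        (if j < r then WW θ (a j) (a (j + 1)) else 1) *
        ∏ i ∈ Finset.Ico (j + 1) r, WW θ (a i) (a (i + 1)) := by
    rcases Nat.lt_or_ge j r with hlt | hge
    · rw [if_pos hlt, ← Finset.prod_range_mul_prod_Ico (fun i => WW θ (a i) (a (i + 1)))
        (by omega : j + 1 ≤ r), Finset.prod_range_succ]
      congr 2
      rcases j with _ | j
      · simp
      · simp [Finset.prod_range_succ]
    · have hjr : j = r := le_antisymm hj hge
      subst hjr
      rw [if_neg (lt_irrefl _), Finset.Ico_eq_empty (by omega)]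
      simp only [Finset.prod_empty, mul_one]
      rcases j with _ | j
      · simp
      · simp [Finset.prod_range_succ]
  rw [e1, e2]
  ring

theorem pathG_congr (θ : ℝ) {a b : ℕ → ℝ} {r : ℕ} (h : ∀ i, i ≤ r → a i = b i) :
    pathG θ a r = pathG θ b r := by
  unfold pathG
  congr 1
  · apply Finset.prod_congr rfl
    intro i hi
    rw [h i (by have := Finset.mem_range.mp hi; omega)]
  · apply Finset.prod_congr rfl
    intro i hi
    have := Finset.mem_range.mp hi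
    rw [h i (by omega), h (i + 1) (by omega)]

theorem pathL_congr (θ : ℝ) {a b : ℕ → ℝ} {j : ℕ} (h : ∀ i, i < j → a i = b i) :
    pathL θ a j = pathL θ b j := by
  unfold pathL
  congr 1
  · apply Finset.prod_congr rfl
    intro i hi
    rw [h i (Finset.mem_range.mp hi)]
  · apply Finset.prod_congr rfl
    intro i hi
    have := Finset.mem_range.mp hi
    rw [h i (by omega), h (i + 1) (by omega)]

theorem pathR_congr (θ : ℝ) {a b : ℕ → ℝ} {j r : ℕ} (h : ∀ i, j < i → a i = b i) :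
    pathR θ a j r = pathR θ b j r := by
  unfold pathR
  congr 1
  · apply Finset.prod_congr rfl
    intro i hi
    have := Finset.mem_Ico.mp hi
    rw [h i (by omega)]
  · apply Finset.prod_congr rfl
    intro i hi
    have := Finset.mem_Ico.mp hi
    rw [h i (by omega), h (i + 1) (by omega)]

section
variable {θ : ℝ} (h0 : 0 ≤ θ) (h1 : θ < 1)
include h0 h1

theorem PP_nonneg {a : ℕ → ℝ} (ha : ∀ i, |a i| ≤ 1) (s e : ℕ) : 0 ≤ PP θ a s e :=
  Finset.prod_nonneg fun _ _ => gE_nonneg h0 h1 (ha _) (ha _)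

theorem PP_le_one {a : ℕ → ℝ} {r : ℕ} (ha : PathOK θ a r) {s e : ℕ} (he : e ≤ r) :
    PP θ a s e ≤ 1 := by
  apply Finset.prod_le_one
  · intro i _
    exact gE_nonneg h0 h1 (ha.1 _) (ha.1 _)
  · intro i hi
    have := Finset.mem_Ico.mp hi
    exact (ha.2 i (by omega)).1

/-- The edge weight along a good path decays. -/
theorem pathalg_gE_le {a : ℕ → ℝ} {r : ℕ} (ha : PathOK θ a r) {i : ℕ} (hi : i < r) :
    gE θ (a i) (a (i + 1)) ≤
      Real.exp (-((1 - θ ^ 2) / 8) * (a i ^ 2 + a (i + 1) ^ 2)) := by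
  have h2 := (ha.2 i hi).2
  have hnn := gE_nonneg h0 h1 (ha.1 i) (ha.1 (i + 1))
  have e : Real.exp (-((1 - θ ^ 2) / 4) * (a i ^ 2 + a (i + 1) ^ 2)) =
      Real.exp (-((1 - θ ^ 2) / 8) * (a i ^ 2 + a (i + 1) ^ 2)) ^ 2 := by
    rw [← Real.exp_nat_mul]
    congr 1
    push_cast
    ring
  rw [e] at h2
  exact abs_le_of_sq_le_sq' h2 (Real.exp_pos _).le |>.2

theorem pathalg_c_pos : 0 < (1 - θ ^ 2) / 8 := by
  have : θ ^ 2 < 1 := by nlinarith
  linarith

theorem pathalg_PP_left {a : ℕ → ℝ} {r : ℕ} (ha : PathOK θ a r) {l : ℕ} (hl : l ≤ r) :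
    PP θ a 0 l ≤ Real.exp (-((1 - θ ^ 2) / 8) * ∑ i ∈ Finset.range l, a i ^ 2) := by
  have hc := pathalg_c_pos h0 h1
  induction l with
  | zero => simp [PP]
  | succ l ih =>
    have hP : PP θ a 0 (l + 1) = PP θ a 0 l * gE θ (a l) (a (l + 1)) := by
      unfold PP; rw [Finset.prod_Ico_succ_top (Nat.zero_le l)]
    rw [hP, Finset.sum_range_succ]
    have h3 := ih (by omega)
    have h4 := pathalg_gE_le h0 h1 ha (i := l) (by omega)
    have h5 := mul_le_mul h3 h4 (gE_nonneg h0 h1 (ha.1 _) (ha.1 _)) (Real.exp_pos _).le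
    refine h5.trans ?_
    rw [← Real.exp_add]
    apply Real.exp_le_exp.mpr
    have : 0 ≤ (1 - θ ^ 2) / 8 * a (l + 1) ^ 2 := by positivity
    nlinarith

theorem pathalg_PP_right {a : ℕ → ℝ} {r : ℕ} (ha : PathOK θ a r) (s : ℕ) :
    PP θ a s r ≤ Real.exp (-((1 - θ ^ 2) / 8) * ∑ i ∈ Finset.Ico (s + 1) (r + 1), a i ^ 2) := by
  have hc := pathalg_c_pos h0 h1
  rcases Nat.lt_or_ge r s with hlt | hge
  · unfold PP
    rw [Finset.Ico_eq_empty (by omega), Finset.Ico_eq_empty (by omega)]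
    simp
  · have key : ∀ e, s ≤ e → e ≤ r →
        PP θ a s e ≤ Real.exp (-((1 - θ ^ 2) / 8) * ∑ i ∈ Finset.Ico (s + 1) (e + 1), a i ^ 2) := by
      intro e hse
      induction e, hse using Nat.le_induction with
      | base => intro _; simp [PP]
      | succ e hse ih =>
        intro her
        have hP : PP θ a s (e + 1) = PP θ a s e * gE θ (a e) (a (e + 1)) := by
          unfold PP; rw [Finset.prod_Ico_succ_top hse]
        rw [hP, Finset.sum_Ico_succ_top (by omega : s + 1 ≤ e + 1)]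
        have h3 := ih (by omega)
        have h4 := pathalg_gE_le h0 h1 ha (i := e) (by omega)
        have h5 := mul_le_mul h3 h4 (gE_nonneg h0 h1 (ha.1 _) (ha.1 _)) (Real.exp_pos _).le
        refine h5.trans ?_
        rw [← Real.exp_add]
        apply Real.exp_le_exp.mpr
        have : 0 ≤ (1 - θ ^ 2) / 8 * a e ^ 2 := by positivity
        nlinarith
    exact key r hge le_rfl

theorem pathL_le {a : ℕ → ℝ} (ha : ∀ i, |a i| ≤ 1) (j : ℕ) :
    0 ≤ pathL θ a j ∧ pathL θ a j ≤ PP θ a 0 (j - 1) := by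
  have hS : ∀ i, 0 ≤ 1 - a i ^ 2 := by
    intro i; have h := abs_le.mp (ha i); nlinarith
  have hnn : 0 ≤ pathL θ a j := by
    unfold pathL
    exact mul_nonneg (Finset.prod_nonneg fun i _ => hS i)
      (Finset.prod_nonneg fun i _ => (WW_pos h0 h1 (ha _) (ha _)).le)
  refine ⟨hnn, ?_⟩
  rcases j with _ | j
  · simp [pathL, PP]
  · have e := pathalg_seg_eq θ a ha 0 j (Nat.zero_le j)
    have e2 : pathL θ a (j + 1) = Real.sqrt (1 - a 0 ^ 2) * Real.sqrt (1 - a j ^ 2) * PP θ a 0 j := by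
      rw [← e]
      unfold pathL
      simp only [Nat.add_sub_cancel, Finset.range_eq_Ico]
    simp only [Nat.add_sub_cancel]
    rw [e2]
    have hPP := PP_nonneg h0 h1 ha 0 j
    have s1 : Real.sqrt (1 - a 0 ^ 2) ≤ 1 := by
      exact Real.sqrt_le_iff.mpr ⟨by norm_num, by nlinarith [sq_nonneg (a 0)]⟩
    have s2 : Real.sqrt (1 - a j ^ 2) ≤ 1 := by
      exact Real.sqrt_le_iff.mpr ⟨by norm_num, by nlinarith [sq_nonneg (a j)]⟩
    have s3 := Real.sqrt_nonneg (1 - a 0 ^ 2)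
    have s4 := Real.sqrt_nonneg (1 - a j ^ 2)
    have : Real.sqrt (1 - a 0 ^ 2) * Real.sqrt (1 - a j ^ 2) ≤ 1 := mul_le_one₀ s1 s4 s2
    nlinarith

theorem pathR_le {a : ℕ → ℝ} (ha : ∀ i, |a i| ≤ 1) {j r : ℕ} (hj : j ≤ r) :
    0 ≤ pathR θ a j r ∧ pathR θ a j r ≤ PP θ a (j + 1) r := by
  have hS : ∀ i, 0 ≤ 1 - a i ^ 2 := by
    intro i; have h := abs_le.mp (ha i); nlinarith
  have hnn : 0 ≤ pathR θ a j r := by
    unfold pathR
    exact mul_nonneg (Finset.prod_nonneg fun i _ => hS i)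
      (Finset.prod_nonneg fun i _ => (WW_pos h0 h1 (ha _) (ha _)).le)
  refine ⟨hnn, ?_⟩
  rcases Nat.lt_or_ge j r with hlt | hge
  · have e := pathalg_seg_eq θ a ha (j + 1) r hlt
    have e2 : pathR θ a j r = Real.sqrt (1 - a (j + 1) ^ 2) * Real.sqrt (1 - a r ^ 2) *
        PP θ a (j + 1) r := by
      rw [← e]; rfl
    rw [e2]
    have hPP := PP_nonneg h0 h1 ha (j + 1) r
    have s1 : Real.sqrt (1 - a (j + 1) ^ 2) ≤ 1 := by
      exact Real.sqrt_le_iff.mpr ⟨by norm_num, by nlinarith [sq_nonneg (a (j + 1))]⟩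
    have s2 : Real.sqrt (1 - a r ^ 2) ≤ 1 := by
      exact Real.sqrt_le_iff.mpr ⟨by norm_num, by nlinarith [sq_nonneg (a r)]⟩
    have s4 := Real.sqrt_nonneg (1 - a r ^ 2)
    have : Real.sqrt (1 - a (j + 1) ^ 2) * Real.sqrt (1 - a r ^ 2) ≤ 1 := mul_le_one₀ s1 s4 s2
    nlinarith
  · have hjr : j = r := le_antisymm hj hge
    subst hjr
    simp [pathR, PP]

end

/-- The hybrid of two sequences. -/
noncomputable def pathHy (m m' : ℕ → ℝ) (j i : ℕ) : ℝ := if i < j then m' i else m i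

theorem pathM_eq (θ : ℝ) {a : ℕ → ℝ} {j r : ℕ} {u x b : ℝ} (h1 : j ≠ 0 → a (j - 1) = u)
    (h2 : a j = x) (h3 : a (j + 1) = b) :
    pathM θ a j r = (if j = 0 then 1 else WW θ u x) * (1 - x ^ 2) *
      (if j < r then WW θ x b else 1) := by
  unfold pathM
  rw [h2, h3]
  by_cases hj : j = 0
  · simp [hj]
  · rw [if_neg hj, if_neg hj, h1 hj]

/-- The difference of two consecutive hybrids. -/
theorem pathHy_step (θ : ℝ) (m m' : ℕ → ℝ) {j r : ℕ} (hj : j ≤ r) :
    pathG θ (pathHy m m' j) r - pathG θ (pathHy m m' (j + 1)) r =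
      pathL θ m' j * pathR θ m j r *
        ((if j = 0 then 1 else WW θ (m' (j - 1)) (m j)) * (1 - m j ^ 2) *
            (if j < r then WW θ (m j) (m (j + 1)) else 1) -
          (if j = 0 then 1 else WW θ (m' (j - 1)) (m' j)) * (1 - m' j ^ 2) *
            (if j < r then WW θ (m' j) (m (j + 1)) else 1)) := by
  rw [pathG_split θ _ hj, pathG_split θ (pathHy m m' (j + 1)) hj]
  have l1 : pathL θ (pathHy m m' j) j = pathL θ m' j :=
    pathL_congr θ fun i hi => by simp [pathHy, hi]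
  have l2 : pathL θ (pathHy m m' (j + 1)) j = pathL θ m' j :=
    pathL_congr θ fun i hi => by simp [pathHy, Nat.lt_succ_of_lt hi]
  have r1 : pathR θ (pathHy m m' j) j r = pathR θ m j r :=
    pathR_congr θ fun i hi => by simp [pathHy, Nat.not_lt.mpr hi.le]
  have r2 : pathR θ (pathHy m m' (j + 1)) j r = pathR θ m j r :=
    pathR_congr θ fun i hi => by
      have : ¬ i < j + 1 := by omega
      simp [pathHy, this]
  have m1 : pathM θ (pathHy m m' j) j r = (if j = 0 then 1 else WW θ (m' (j - 1)) (m j)) *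
      (1 - m j ^ 2) * (if j < r then WW θ (m j) (m (j + 1)) else 1) := by
    apply pathM_eq
    · intro h
      have : j - 1 < j := by omega
      simp [pathHy, this]
    · simp [pathHy]
    · simp [pathHy]
  have m2 : pathM θ (pathHy m m' (j + 1)) j r = (if j = 0 then 1 else WW θ (m' (j - 1)) (m' j)) *
      (1 - m' j ^ 2) * (if j < r then WW θ (m' j) (m (j + 1)) else 1) := by
    apply pathM_eq
    · intro h
      have : j - 1 < j + 1 := by omega
      simp [pathHy, this]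
    · simp [pathHy]
    · simp [pathHy]
  rw [l1, l2, r1, r2, m1, m2]
  ring

section
variable {θ : ℝ} (h0 : 0 ≤ θ) (h1 : θ < 1)
include h0 h1

/-- The bracket in all four cases. -/
theorem exists_pathM_bracket : ∃ K : ℝ, 0 < K ∧ ∀ (a b x x' : ℝ) (j r : ℕ), |a| ≤ 1 → |b| ≤ 1 →
    |x| ≤ 1 → |x'| ≤ 1 →
    |(if j = 0 then 1 else WW θ a x) * (1 - x ^ 2) * (if j < r then WW θ x b else 1) -
      (if j = 0 then 1 else WW θ a x') * (1 - x' ^ 2) * (if j < r then WW θ x' b else 1)| ≤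
      K * (|a| + |b| + |x| + |x'|) * |x - x'| := by
  obtain ⟨K, hK, hlip⟩ := exists_bracket_lip h0 h1
  refine ⟨K + 1, by linarith, ?_⟩
  intro a b x x' j r ha hb hx hx'
  have hT := abs_nonneg (x - x')
  have na := abs_nonneg a
  have nb := abs_nonneg b
  have nx := abs_nonneg x
  have nx' := abs_nonneg x'
  by_cases hj : j = 0
  · rw [if_pos hj, if_pos hj]
    by_cases hr : j < r
    · rw [if_pos hr, if_pos hr, one_mul, one_mul]
      refine (hlip a b x x' ha hb hx hx').2.trans ?_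
      apply mul_le_mul_of_nonneg_right _ hT
      nlinarith
    · rw [if_neg hr, if_neg hr]
      have e : 1 * (1 - x ^ 2) * 1 - 1 * (1 - x' ^ 2) * 1 = x' ^ 2 - x ^ 2 := by ring
      rw [e]
      refine (abs_sq_sub_sq_le x' x).trans ?_
      rw [abs_sub_comm x' x]
      apply mul_le_mul_of_nonneg_right _ hT
      nlinarith
  · rw [if_neg hj, if_neg hj]
    by_cases hr : j < r
    · rw [if_pos hr, if_pos hr]
      refine (hlip a b x x' ha hb hx hx').1.trans ?_
      apply mul_le_mul_of_nonneg_right _ hT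
      nlinarith
    · rw [if_neg hr, if_neg hr]
      have e1 : WW θ a x * (1 - x ^ 2) * 1 = (1 - x ^ 2) * WW θ x a := by
        rw [pathalg_WW_comm θ a x]; ring
      have e2 : WW θ a x' * (1 - x' ^ 2) * 1 = (1 - x' ^ 2) * WW θ x' a := by
        rw [pathalg_WW_comm θ a x']; ring
      rw [e1, e2]
      refine (hlip b a x x' hb ha hx hx').2.trans ?_
      apply mul_le_mul_of_nonneg_right _ hT
      nlinarith

/-- First step: the difference is bounded by the sum of the brackets. -/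
theorem pathG_sub_le {K : ℝ} (hK : 0 < K)
    (hb : ∀ (a b x x' : ℝ) (j r : ℕ), |a| ≤ 1 → |b| ≤ 1 → |x| ≤ 1 → |x'| ≤ 1 →
    |(if j = 0 then 1 else WW θ a x) * (1 - x ^ 2) * (if j < r then WW θ x b else 1) -
      (if j = 0 then 1 else WW θ a x') * (1 - x' ^ 2) * (if j < r then WW θ x' b else 1)| ≤
      K * (|a| + |b| + |x| + |x'|) * |x - x'|)
    {m m' : ℕ → ℝ} {r : ℕ} (hm : ∀ i, |m i| ≤ 1) (hm' : ∀ i, |m' i| ≤ 1) :
    |pathG θ m r - pathG θ m' r| ≤ K * ∑ j ∈ Finset.range (r + 1),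
      PP θ m' 0 (j - 1) * PP θ m (j + 1) r *
        (|m' (j - 1)| + |m (j + 1)| + |m j| + |m' j|) * |m j - m' j| := by
  have e : pathG θ m r - pathG θ m' r = ∑ j ∈ Finset.range (r + 1),
      (pathG θ (pathHy m m' j) r - pathG θ (pathHy m m' (j + 1)) r) := by
    have e0 : pathHy m m' 0 = m := by
      funext i
      simp [pathHy]
    have e1 : pathG θ (pathHy m m' (r + 1)) r = pathG θ m' r := by
      apply pathG_congr
      intro i hi
      have : i < r + 1 := by omega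
      simp [pathHy, this]
    rw [Finset.sum_range_sub' (fun j => pathG θ (pathHy m m' j) r), e0, e1]
  rw [e, Finset.mul_sum]
  refine (Finset.abs_sum_le_sum_abs _ _).trans (Finset.sum_le_sum ?_)
  intro j hj
  have hjr : j ≤ r := by have := Finset.mem_range.mp hj; omega
  rw [pathHy_step θ m m' hjr, abs_mul, abs_mul]
  obtain ⟨l0, l1⟩ := pathL_le h0 h1 hm' j
  obtain ⟨r0, r1⟩ := pathR_le h0 h1 hm hjr
  have hB := hb (m' (j - 1)) (m (j + 1)) (m j) (m' j) j r (hm' _) (hm _) (hm _) (hm' _)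
  rw [abs_of_nonneg l0, abs_of_nonneg r0]
  have hP1 := PP_nonneg h0 h1 hm' 0 (j - 1)
  have hP2 := PP_nonneg h0 h1 hm (j + 1) r
  have hLR : pathL θ m' j * pathR θ m j r ≤ PP θ m' 0 (j - 1) * PP θ m (j + 1) r :=
    mul_le_mul l1 r1 r0 hP1
  calc pathL θ m' j * pathR θ m j r * _ ≤ PP θ m' 0 (j - 1) * PP θ m (j + 1) r *
        (K * (|m' (j - 1)| + |m (j + 1)| + |m j| + |m' j|) * |m j - m' j|) :=
        mul_le_mul hLR hB (abs_nonneg _) (mul_nonneg hP1 hP2)
    _ = _ := by ring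

end

section
variable {θ : ℝ} (h0 : 0 ≤ θ) (h1 : θ < 1)
include h0 h1

/-- The bound on the weighted sum of the squared brackets. -/
theorem exists_sum_A_L_le : ∃ C : ℝ, 0 < C ∧ ∀ (m m' : ℕ → ℝ) (r : ℕ), PathOK θ m r → PathOK θ m' r →
    ∑ j ∈ Finset.range (r + 1), PP θ m' 0 (j - 1) * PP θ m (j + 1) r *
      (|m' (j - 1)| + |m (j + 1)| + |m j| + |m' j|) ^ 2 ≤ C := by
  have hc := pathalg_c_pos h0 h1
  set c := (1 - θ ^ 2) / 8 with hcdef
  have hD0 := pathalg_D_pos hc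
  set D := 1 / (1 - Real.exp (-c)) with hD
  have hDpos : 0 < D := by positivity
  set E := Real.exp c with hE
  have hEpos : 0 < E := Real.exp_pos _
  refine ⟨4 * (2 * (D + 1) + 2 * (E * D)), by positivity, ?_⟩
  intro m m' r hm hm'
  set x : ℕ → ℝ := fun i => m' i ^ 2 with hx
  set y : ℕ → ℝ := fun i => m i ^ 2 with hy
  have hsq : ∀ (a : ℕ → ℝ), (∀ i, |a i| ≤ 1) → ∀ i, a i ^ 2 ≤ 1 := by
    intro a ha i
    have := abs_le.mp (ha i)
    nlinarith
  have hx0 : ∀ i, 0 ≤ x i := fun i => sq_nonneg _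
  have hy0 : ∀ i, 0 ≤ y i := fun i => sq_nonneg _
  have hx1 : ∀ i, x i ≤ 1 := hsq m' hm'.1
  have hy1 : ∀ i, y i ≤ 1 := hsq m hm.1
  -- the two exponential bounds
  set E1 : ℕ → ℝ := fun j => Real.exp (-c * ∑ i ∈ Finset.range (j - 1), x i) with hE1
  set E2 : ℕ → ℝ := fun j => Real.exp (-c * ∑ i ∈ Finset.Ico (j + 1 + 1) (r + 1), y i) with hE2
  set A : ℕ → ℝ := fun j => PP θ m' 0 (j - 1) * PP θ m (j + 1) r with hA
  have hA0 : ∀ j, 0 ≤ A j := fun j =>
    mul_nonneg (PP_nonneg h0 h1 hm'.1 _ _) (PP_nonneg h0 h1 hm.1 _ _)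
  have hAE1 : ∀ j, j ≤ r → A j ≤ E1 j := by
    intro j hj
    have h3 := pathalg_PP_left h0 h1 hm' (l := j - 1) (by omega)
    have h4 := PP_le_one h0 h1 hm (s := j + 1) (le_refl r)
    have h5 := PP_nonneg h0 h1 hm'.1 0 (j - 1)
    have : A j ≤ PP θ m' 0 (j - 1) := by
      simp only [hA]
      exact mul_le_of_le_one_right h5 h4
    exact this.trans h3
  have hAE2 : ∀ j, j ≤ r → A j ≤ E2 j := by
    intro j hj
    have h3 := pathalg_PP_right h0 h1 hm (j + 1)
    have h4 := PP_le_one h0 h1 hm' (s := 0) (e := j - 1) (by omega)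
    have h5 := PP_nonneg h0 h1 hm.1 (j + 1) r
    have : A j ≤ PP θ m (j + 1) r := by
      simp only [hA]
      exact mul_le_of_le_one_left h5 h4
    exact this.trans h3
  -- the four sums
  have S1 : ∑ j ∈ Finset.range (r + 1), E1 j * x (j - 1) ≤ D + 1 := by
    rw [Finset.sum_range_succ']
    have h3 := sum_exp_neg_partial_le hc x hx0 hx1 r
    have h4 : E1 0 * x (0 - 1) ≤ 1 := by
      simp only [hE1, Nat.zero_sub, Finset.range_zero, Finset.sum_empty, mul_zero, Real.exp_zero,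
        one_mul]
      exact hx1 0
    simp only [hE1, Nat.add_sub_cancel] at h4 ⊢
    linarith
  have S2 : ∑ j ∈ Finset.range (r + 1), E1 j * x j ≤ E * D := by
    have h3 := sum_exp_neg_partial_le hc x hx0 hx1 (r + 1)
    have h4 : ∑ j ∈ Finset.range (r + 1), E1 j * x j ≤ ∑ j ∈ Finset.range (r + 1),
        E * (Real.exp (-c * ∑ i ∈ Finset.range j, x i) * x j) := by
      apply Finset.sum_le_sum
      intro j _
      have h5 : E1 j ≤ E * Real.exp (-c * ∑ i ∈ Finset.range j, x i) := by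
        simp only [hE1, hE]
        rw [← Real.exp_add]
        apply Real.exp_le_exp.mpr
        rcases j with _ | j
        · simp only [Nat.zero_sub, Finset.range_zero, Finset.sum_empty, mul_zero]; linarith
        · simp only [Nat.add_sub_cancel, Finset.sum_range_succ]
          have := hx1 j
          nlinarith
      have := mul_le_mul_of_nonneg_right h5 (hx0 j)
      linarith [this, mul_assoc E (Real.exp (-c * ∑ i ∈ Finset.range j, x i)) (x j)]
    rw [← Finset.mul_sum] at h4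
    exact h4.trans (mul_le_mul_of_nonneg_left h3 hEpos.le)
  have S3 : ∑ j ∈ Finset.range (r + 1), E2 j * y (j + 1) ≤ D + 1 := by
    have h3 := pathalg_back_le hc y hy0 hy1 (r + 1)
    rw [Finset.sum_range_succ'] at h3
    rw [Finset.sum_range_succ]
    have h5 : 0 ≤ Real.exp (-c * ∑ i ∈ Finset.Ico (0 + 1) (r + 1), y i) * y 0 :=
      mul_nonneg (Real.exp_pos _).le (hy0 0)
    have h6 : E2 r * y (r + 1) ≤ 1 := by
      simp only [hE2]
      rw [Finset.Ico_eq_empty (by omega)]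
      simp only [Finset.sum_empty, mul_zero, Real.exp_zero, one_mul]
      exact hy1 _
    simp only [hE2] at h6 ⊢
    linarith
  have S4 : ∑ j ∈ Finset.range (r + 1), E2 j * y j ≤ E * D := by
    have h3 := pathalg_back_le hc y hy0 hy1 (r + 1)
    have h4 : ∑ j ∈ Finset.range (r + 1), E2 j * y j ≤ ∑ j ∈ Finset.range (r + 1),
        E * (Real.exp (-c * ∑ i ∈ Finset.Ico (j + 1) (r + 1), y i) * y j) := by
      apply Finset.sum_le_sum
      intro j hj
      have hjr : j < r + 1 := Finset.mem_range.mp hj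
      have h5 : E2 j ≤ E * Real.exp (-c * ∑ i ∈ Finset.Ico (j + 1) (r + 1), y i) := by
        simp only [hE2, hE]
        rw [← Real.exp_add]
        apply Real.exp_le_exp.mpr
        have hY : 0 ≤ ∑ i ∈ Finset.Ico (j + 1 + 1) (r + 1), y i :=
          Finset.sum_nonneg fun i _ => hy0 i
        have hW : ∑ i ∈ Finset.Ico (j + 1) (r + 1), y i ≤
            ∑ i ∈ Finset.Ico (j + 1 + 1) (r + 1), y i + 1 := by
          rcases Nat.lt_or_ge (j + 1) (r + 1) with hlt | hge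
          · rw [Finset.sum_eq_sum_Ico_succ_bot hlt]
            have := hy1 (j + 1)
            linarith
          · rw [Finset.Ico_eq_empty (by omega)]
            simp only [Finset.sum_empty]
            linarith
        nlinarith
      have := mul_le_mul_of_nonneg_right h5 (hy0 j)
      linarith [this, mul_assoc E (Real.exp (-c * ∑ i ∈ Finset.Ico (j + 1) (r + 1), y i)) (y j)]
    rw [← Finset.mul_sum] at h4
    exact h4.trans (mul_le_mul_of_nonneg_left h3 hEpos.le)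
  -- the termwise bound
  have hterm : ∀ j ∈ Finset.range (r + 1),
      PP θ m' 0 (j - 1) * PP θ m (j + 1) r * (|m' (j - 1)| + |m (j + 1)| + |m j| + |m' j|) ^ 2 ≤
        4 * (E1 j * x (j - 1) + E2 j * y (j + 1) + E2 j * y j + E1 j * x j) := by
    intro j hj
    have hjr : j ≤ r := by have := Finset.mem_range.mp hj; omega
    have hsum : (|m' (j - 1)| + |m (j + 1)| + |m j| + |m' j|) ^ 2 ≤
        4 * (x (j - 1) + y (j + 1) + y j + x j) := by
      simp only [hx, hy]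
      rw [← sq_abs (m' (j - 1)), ← sq_abs (m (j + 1)), ← sq_abs (m j), ← sq_abs (m' j)]
      nlinarith [sq_nonneg (|m' (j - 1)| - |m (j + 1)|), sq_nonneg (|m' (j - 1)| - |m j|),
        sq_nonneg (|m' (j - 1)| - |m' j|), sq_nonneg (|m (j + 1)| - |m j|),
        sq_nonneg (|m (j + 1)| - |m' j|), sq_nonneg (|m j| - |m' j|)]
    have h3 : A j * (|m' (j - 1)| + |m (j + 1)| + |m j| + |m' j|) ^ 2 ≤
        A j * (4 * (x (j - 1) + y (j + 1) + y j + x j)) :=
      mul_le_mul_of_nonneg_left hsum (hA0 j)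
    have h4 : A j * x (j - 1) ≤ E1 j * x (j - 1) :=
      mul_le_mul_of_nonneg_right (hAE1 j hjr) (hx0 _)
    have h5 : A j * y (j + 1) ≤ E2 j * y (j + 1) :=
      mul_le_mul_of_nonneg_right (hAE2 j hjr) (hy0 _)
    have h6 : A j * y j ≤ E2 j * y j :=
      mul_le_mul_of_nonneg_right (hAE2 j hjr) (hy0 _)
    have h7 : A j * x j ≤ E1 j * x j :=
      mul_le_mul_of_nonneg_right (hAE1 j hjr) (hx0 _)
    simp only [hA] at h3 h4 h5 h6 h7
    nlinarith
  refine (Finset.sum_le_sum hterm).trans ?_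
  rw [← Finset.mul_sum, Finset.sum_add_distrib, Finset.sum_add_distrib, Finset.sum_add_distrib]
  nlinarith

end

/-- The hybrid telescoping bound. The constant depends on `θ` only. -/
theorem exists_pathC_sub_sq_le {θ : ℝ} (h0 : 0 ≤ θ) (h1 : θ < 1) :
    ∃ K : ℝ, 0 < K ∧ ∀ (m m' : ℕ → ℝ) (r : ℕ), PathOK θ m r → PathOK θ m' r →
      (pathC θ m r - pathC θ m' r) ^ 2 ≤
        θ ^ (2 * r) * K * ∑ j ∈ Finset.range (r + 1),
          PP θ m' 0 (j - 1) * PP θ m (j + 1) r * (m j - m' j) ^ 2 := by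
  obtain ⟨K, hK, hb⟩ := exists_pathM_bracket h0 h1
  obtain ⟨C, hC, hS⟩ := exists_sum_A_L_le h0 h1
  refine ⟨K ^ 2 * C, by positivity, ?_⟩
  intro m m' r hm hm'
  rw [pathC_eq_pathG, pathC_eq_pathG, ← mul_sub, mul_pow]
  have h2 := pathG_sub_le h0 h1 hK hb (m := m) (m' := m') (r := r) hm.1 hm'.1
  set A : ℕ → ℝ := fun j => PP θ m' 0 (j - 1) * PP θ m (j + 1) r with hA
  have hA0 : ∀ j, 0 ≤ A j := fun j =>
    mul_nonneg (PP_nonneg h0 h1 hm'.1 _ _) (PP_nonneg h0 h1 hm.1 _ _)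
  set L : ℕ → ℝ := fun j => |m' (j - 1)| + |m (j + 1)| + |m j| + |m' j| with hL
  set T := ∑ j ∈ Finset.range (r + 1), A j * L j * |m j - m' j| with hT
  have hT0 : 0 ≤ T := Finset.sum_nonneg fun j _ =>
    mul_nonneg (mul_nonneg (hA0 j) (by simp only [hL]; positivity)) (abs_nonneg _)
  have hCS : T ^ 2 ≤ (∑ j ∈ Finset.range (r + 1), A j * L j ^ 2) *
      ∑ j ∈ Finset.range (r + 1), A j * (m j - m' j) ^ 2 := by
    apply Finset.sum_sq_le_sum_mul_sum_of_sq_eq_mul
    · intro j _; exact mul_nonneg (hA0 j) (sq_nonneg _)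
    · intro j _; exact mul_nonneg (hA0 j) (sq_nonneg _)
    · intro j _
      rw [mul_pow, mul_pow, sq_abs]
      ring
  have hS' : ∑ j ∈ Finset.range (r + 1), A j * L j ^ 2 ≤ C := hS m m' r hm hm'
  have hQ0 : 0 ≤ ∑ j ∈ Finset.range (r + 1), A j * (m j - m' j) ^ 2 :=
    Finset.sum_nonneg fun j _ => mul_nonneg (hA0 j) (sq_nonneg _)
  have hG : (pathG θ m r - pathG θ m' r) ^ 2 ≤ K ^ 2 * T ^ 2 := by
    rw [← sq_abs, ← mul_pow]
    exact pow_le_pow_left₀ (abs_nonneg _) h2 2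
  have hfinal : (pathG θ m r - pathG θ m' r) ^ 2 ≤
      K ^ 2 * (C * ∑ j ∈ Finset.range (r + 1), A j * (m j - m' j) ^ 2) := by
    refine hG.trans (mul_le_mul_of_nonneg_left ?_ (by positivity))
    exact hCS.trans (mul_le_mul_of_nonneg_right hS' hQ0)
  have hθ : (θ ^ r) ^ 2 = θ ^ (2 * r) := by rw [← pow_mul, mul_comm]
  rw [hθ]
  have h5 : 0 ≤ θ ^ (2 * r) := by positivity
  calc θ ^ (2 * r) * (pathG θ m r - pathG θ m' r) ^ 2
      ≤ θ ^ (2 * r) * (K ^ 2 * (C * ∑ j ∈ Finset.range (r + 1), A j * (m j - m' j) ^ 2)) :=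
        mul_le_mul_of_nonneg_left hfinal h5
    _ = _ := by ring

theorem pathG_eq_PP (θ : ℝ) {m : ℕ → ℝ} (hm : ∀ i, |m i| ≤ 1) (r : ℕ) :
    pathG θ m r = Real.sqrt (1 - m 0 ^ 2) * Real.sqrt (1 - m r ^ 2) * PP θ m 0 r := by
  rw [← pathalg_seg_eq θ m hm 0 r (Nat.zero_le r)]
  unfold pathG
  simp only [Finset.range_eq_Ico]

/-- Bound on the path product. -/
theorem abs_pathC_le {θ : ℝ} (h0 : 0 ≤ θ) (h1 : θ < 1) (m : ℕ → ℝ) (r : ℕ) (hm : PathOK θ m r) :
    |pathC θ m r| ≤ θ ^ r := by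
  rw [pathC_eq_pathG, abs_mul, abs_of_nonneg (by positivity : 0 ≤ θ ^ r), pathG_eq_PP θ hm.1]
  have hPP := PP_nonneg h0 h1 hm.1 0 r
  have hPP1 := PP_le_one h0 h1 hm (s := 0) (le_refl r)
  have s1 : Real.sqrt (1 - m 0 ^ 2) ≤ 1 :=
    Real.sqrt_le_iff.mpr ⟨by norm_num, by nlinarith [sq_nonneg (m 0)]⟩
  have s2 : Real.sqrt (1 - m r ^ 2) ≤ 1 :=
    Real.sqrt_le_iff.mpr ⟨by norm_num, by nlinarith [sq_nonneg (m r)]⟩
  have s3 := Real.sqrt_nonneg (1 - m 0 ^ 2)
  have s4 := Real.sqrt_nonneg (1 - m r ^ 2)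
  have h5 : Real.sqrt (1 - m 0 ^ 2) * Real.sqrt (1 - m r ^ 2) ≤ 1 := mul_le_one₀ s1 s4 s2
  have h6 : 0 ≤ Real.sqrt (1 - m 0 ^ 2) * Real.sqrt (1 - m r ^ 2) * PP θ m 0 r := by positivity
  rw [abs_of_nonneg h6]
  have h7 : Real.sqrt (1 - m 0 ^ 2) * Real.sqrt (1 - m r ^ 2) * PP θ m 0 r ≤ 1 :=
    mul_le_one₀ h5 hPP hPP1
  have h8 : 0 ≤ θ ^ r := by positivity
  nlinarith

/-- The exponential form of the path product in the clamped region. -/
theorem pathC_eq_exp {θ : ℝ} (h0 : 0 ≤ θ) (h1 : θ < 1) (m : ℕ → ℝ) (r : ℕ) (hm : PathOK θ m r)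
    (hs : ∀ i, i ≤ r → |m i| ≤ 1 / 2) :
    pathC θ m r = θ ^ r * Real.exp (-(shat (m 0) + shat (m r) +
      ∑ i ∈ Finset.range r, vhat θ (m i) (m (i + 1)))) := by
  rw [pathC_eq_pathG, pathG_eq_PP θ hm.1]
  congr 1
  have e : -(shat (m 0) + shat (m r) + ∑ i ∈ Finset.range r, vhat θ (m i) (m (i + 1))) =
      -shat (m 0) + -shat (m r) + ∑ i ∈ Finset.range r, -vhat θ (m i) (m (i + 1)) := by
    rw [Finset.sum_neg_distrib]; ring
  rw [e, Real.exp_add, Real.exp_add, Real.exp_sum, exp_neg_shat (hs 0 (Nat.zero_le r)),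
    exp_neg_shat (hs r le_rfl)]
  congr 1
  unfold PP
  rw [Finset.range_eq_Ico]
  apply Finset.prod_congr rfl
  intro i hi
  have hi' := (Finset.mem_Ico.mp hi).2
  exact (exp_neg_vhat h0 h1 (hs i hi'.le) (hs (i + 1) hi') (hm.2 i hi').1).symm

end Crest.Agent.Lib.IT
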