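/-
Deterministic lemmas and a Hölder inequality for the a priori bound at small times (statement S0241).
-/
import Crest.Agent.Lib.IT.PathAlg

set_option autoImplicit false

namespace Crest.Agent.Lib.IT
namespace SA

open MeasureTheory

/-- The sum of the potentials along a path. -/
noncomputable def zhat (θ : ℝ) (m : ℕ → ℝ) (r : ℕ) : ℝ :=
  shat (m 0) + shat (m r) + ∑ i ∈ Finset.range r, vhat θ (m i) (m (i + 1))

/-- The exponential form of the path product. -/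
noncomputable def ftil (θ : ℝ) (m : ℕ → ℝ) (r : ℕ) : ℝ := θ ^ r * Real.exp (-zhat θ m r)

lemma zhat_nonneg (θ : ℝ) (m : ℕ → ℝ) (r : ℕ) : 0 ≤ zhat θ m r := by
  unfold zhat
  have h1 := shat_nonneg (m 0)
  have h2 := shat_nonneg (m r)
  have h3 : 0 ≤ ∑ i ∈ Finset.range r, vhat θ (m i) (m (i + 1)) :=
    Finset.sum_nonneg fun i _ => vhat_nonneg _ _
  linarith

lemma ftil_nonneg {θ : ℝ} (h0 : 0 ≤ θ) (m : ℕ → ℝ) (r : ℕ) : 0 ≤ ftil θ m r :=
  mul_nonneg (pow_nonneg h0 r) (Real.exp_pos _).le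

lemma ftil_le {θ : ℝ} (h0 : 0 ≤ θ) (m : ℕ → ℝ) (r : ℕ) : ftil θ m r ≤ θ ^ r := by
  unfold ftil
  have h1 : Real.exp (-zhat θ m r) ≤ 1 := Real.exp_le_one_iff.2 (by linarith [zhat_nonneg θ m r])
  exact mul_le_of_le_one_right (pow_nonneg h0 r) h1

/-- The path product agrees with its exponential form unless a magnetisation is large. -/
lemma pathC_sub_ftil_sq_le {θ : ℝ} (h0 : 0 ≤ θ) (h1 : θ < 1) (m : ℕ → ℝ) (r : ℕ)
    (hm : PathOK θ m r) (p : ℕ) :
    (pathC θ m r - ftil θ m r) ^ 2 ≤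
      4 * θ ^ (2 * r) * ∑ l ∈ Finset.range (r + 1), (4 : ℝ) ^ p * m l ^ (2 * p) := by
  have hnn : ∀ l ∈ Finset.range (r + 1), 0 ≤ (4 : ℝ) ^ p * m l ^ (2 * p) := fun l _ => by
    have : 0 ≤ m l ^ (2 * p) := by rw [pow_mul]; positivity
    positivity
  have hθ : 0 ≤ θ ^ (2 * r) := pow_nonneg h0 _
  by_cases hs : ∀ i, i ≤ r → |m i| ≤ 1 / 2
  · have e : pathC θ m r = ftil θ m r := pathC_eq_exp h0 h1 m r hm hs
    rw [e, sub_self]
    have := Finset.sum_nonneg hnn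
    simpa using by positivity
  · push Not at hs
    obtain ⟨l, hl, hl2⟩ := hs
    have h2 : 1 ≤ (4 : ℝ) ^ p * m l ^ (2 * p) := by
      rw [pow_mul, ← mul_pow]
      refine one_le_pow₀ ?_
      have h3 : (1 / 2 : ℝ) ^ 2 < |m l| ^ 2 := pow_lt_pow_left₀ hl2 (by norm_num) (by norm_num)
      rw [sq_abs] at h3
      nlinarith
    have h3 : 1 ≤ ∑ l ∈ Finset.range (r + 1), (4 : ℝ) ^ p * m l ^ (2 * p) :=
      h2.trans (Finset.single_le_sum hnn (Finset.mem_range.2 (Nat.lt_succ_of_le hl)))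
    have h4 := abs_le.1 (abs_pathC_le h0 h1 m r hm)
    have h5 := ftil_nonneg h0 m r
    have h6 := ftil_le h0 m r
    have h7 : |pathC θ m r - ftil θ m r| ≤ 2 * θ ^ r := by
      rw [abs_le]
      constructor <;> linarith [h4.1, h4.2, pow_nonneg h0 r]
    have h8 : (pathC θ m r - ftil θ m r) ^ 2 ≤ (2 * θ ^ r) ^ 2 := by
      rw [← sq_abs]
      exact pow_le_pow_left₀ (abs_nonneg _) h7 2
    have h9 : (2 * θ ^ r) ^ 2 = 4 * θ ^ (2 * r) := by
      rw [mul_pow, ← pow_mul, mul_comm r 2]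
      norm_num
    rw [h9] at h8
    refine h8.trans ?_
    exact le_mul_of_one_le_right (by positivity) h3

lemma abs_exp_neg_sub_le {x y : ℝ} (hx : 0 ≤ x) (hy : 0 ≤ y) :
    |Real.exp (-x) - Real.exp (-y)| ≤ |x - y| := by
  wlog hxy : x ≤ y generalizing x y
  · have := this hy hx (le_of_not_ge hxy)
    rwa [abs_sub_comm, abs_sub_comm y x] at this
  have h1 : Real.exp (-y) ≤ Real.exp (-x) := Real.exp_le_exp.2 (by linarith)
  rw [abs_of_nonneg (by linarith), abs_of_nonpos (by linarith)]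
  have h2 : Real.exp (-y) = Real.exp (-x) * Real.exp (-(y - x)) := by
    rw [← Real.exp_add]; congr 1; ring
  have h3 : 1 - (y - x) ≤ Real.exp (-(y - x)) := by
    have := Real.add_one_le_exp (-(y - x))
    linarith
  have h4 : Real.exp (-x) ≤ 1 := Real.exp_le_one_iff.2 (by linarith)
  have h5 := Real.exp_pos (-x)
  rw [h2]
  have hs : 0 ≤ y - x := by linarith
  nlinarith

lemma ftil_sub_sq_le {θ : ℝ} (h0 : 0 ≤ θ) (m m' : ℕ → ℝ) (r : ℕ) :
    (ftil θ m r - ftil θ m' r) ^ 2 ≤ θ ^ (2 * r) * (zhat θ m r - zhat θ m' r) ^ 2 := by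
  have h1 := abs_exp_neg_sub_le (zhat_nonneg θ m r) (zhat_nonneg θ m' r)
  have e : ftil θ m r - ftil θ m' r =
      θ ^ r * (Real.exp (-zhat θ m r) - Real.exp (-zhat θ m' r)) := by
    unfold ftil; ring
  rw [e, mul_pow, ← pow_mul, mul_comm r 2]
  refine mul_le_mul_of_nonneg_left ?_ (pow_nonneg h0 _)
  rw [← sq_abs, ← sq_abs (zhat θ m r - zhat θ m' r)]
  exact pow_le_pow_left₀ (abs_nonneg _) h1 2

lemma sq_split3 (a b a' b' : ℝ) :
    (a - b) ^ 2 ≤ 3 * (a - a') ^ 2 + 3 * (a' - b') ^ 2 + 3 * (b' - b) ^ 2 := by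
  nlinarith [sq_nonneg ((a - a') - (a' - b')), sq_nonneg ((a - a') - (b' - b)),
    sq_nonneg ((a' - b') - (b' - b))]

lemma sq_add3 (a b c : ℝ) : (a + b + c) ^ 2 ≤ 3 * a ^ 2 + 3 * b ^ 2 + 3 * c ^ 2 := by
  nlinarith [sq_nonneg (a - b), sq_nonneg (a - c), sq_nonneg (b - c)]

/-! ### Symmetry of the edge potential -/

lemma RR_comm (θ x y : ℝ) : RR θ x y = RR θ y x := by
  unfold RR
  congr 1
  ring

lemma WW_comm (θ x y : ℝ) : WW θ x y = WW θ y x := by
  unfold WW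
  rw [RR_comm θ x y, mul_comm x y]

lemma gE_comm (θ x y : ℝ) : gE θ x y = gE θ y x := by
  unfold gE
  rw [WW_comm θ x y]
  ring

lemma vhat_comm (θ x y : ℝ) : vhat θ x y = vhat θ y x := by
  unfold vhat
  rw [gE_comm θ (chi x) (chi y)]

/-! ### Measurability and boundedness of the potentials -/

lemma measurable_chi : Measurable chi := by
  unfold chi
  exact measurable_const.max (measurable_const.min measurable_id)

lemma measurable_shat : Measurable shat := by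
  unfold shat
  exact ((measurable_const.sub (measurable_chi.pow_const 2)).log).const_mul _

lemma measurable_RR (θ : ℝ) : Measurable (fun q : ℝ × ℝ => RR θ q.1 q.2) := by
  unfold RR
  refine Measurable.sqrt ?_
  fun_prop

lemma measurable_WW (θ : ℝ) : Measurable (fun q : ℝ × ℝ => WW θ q.1 q.2) := by
  unfold WW
  refine Measurable.div measurable_const ?_
  refine Measurable.add ?_ (measurable_RR θ)
  fun_prop

lemma measurable_gE (θ : ℝ) : Measurable (fun q : ℝ × ℝ => gE θ q.1 q.2) := by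
  unfold gE
  refine Measurable.mul (Measurable.mul ?_ ?_) (measurable_WW θ)
  · refine Measurable.sqrt ?_
    fun_prop
  · refine Measurable.sqrt ?_
    fun_prop

lemma measurable_vhat (θ : ℝ) : Measurable (fun q : ℝ × ℝ => vhat θ q.1 q.2) := by
  unfold vhat
  refine measurable_const.max (Measurable.neg (Measurable.log ?_))
  exact (measurable_gE θ).comp ((measurable_chi.comp measurable_fst).prodMk
    (measurable_chi.comp measurable_snd))

lemma exists_vhat_le {θ : ℝ} (h0 : 0 ≤ θ) (h1 : θ < 1) :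
    ∃ M : ℝ, 0 ≤ M ∧ ∀ x y, vhat θ x y ≤ M := by
  set m : ℝ := 1 / (2 * (1 + θ) ^ 2 + 4) with hm
  have hm0 : 0 < m := by positivity
  refine ⟨max 0 (-Real.log ((3 / 4) * m)), le_max_left _ _, fun x y => ?_⟩
  unfold vhat
  refine max_le (le_max_left _ _) (le_trans ?_ (le_max_right _ _))
  have hx := abs_chi_le_half x
  have hy := abs_chi_le_half y
  have hx1 : |chi x| ≤ 1 := hx.trans (by norm_num)
  have hy1 : |chi y| ≤ 1 := hy.trans (by norm_num)
  have hW : m ≤ WW θ (chi x) (chi y) := WW_ge h0 h1 hx1 hy1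
  have hsx : Real.sqrt (3 / 4) ≤ Real.sqrt (1 - chi x ^ 2) :=
    Real.sqrt_le_sqrt (one_sub_chi_sq_ge x)
  have hsy : Real.sqrt (3 / 4) ≤ Real.sqrt (1 - chi y ^ 2) :=
    Real.sqrt_le_sqrt (one_sub_chi_sq_ge y)
  have hs0 : 0 ≤ Real.sqrt (3 / 4 : ℝ) := Real.sqrt_nonneg _
  have hsq : Real.sqrt (3 / 4 : ℝ) * Real.sqrt (3 / 4) = 3 / 4 :=
    Real.mul_self_sqrt (by norm_num)
  have hg : (3 / 4) * m ≤ gE θ (chi x) (chi y) := by
    unfold gE
    have h2 : (3 / 4 : ℝ) ≤ Real.sqrt (1 - chi x ^ 2) * Real.sqrt (1 - chi y ^ 2) := by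
      rw [← hsq]
      exact mul_le_mul hsx hsy hs0 (hs0.trans hsx)
    have h3 : (0 : ℝ) ≤ Real.sqrt (1 - chi x ^ 2) * Real.sqrt (1 - chi y ^ 2) :=
      mul_nonneg (Real.sqrt_nonneg _) (Real.sqrt_nonneg _)
    exact mul_le_mul h2 hW hm0.le h3
  have h4 : Real.log ((3 / 4) * m) ≤ Real.log (gE θ (chi x) (chi y)) :=
    Real.log_le_log (by positivity) hg
  linarith

lemma abs_shat_le (x : ℝ) : |shat x| ≤ 1 := by
  rw [abs_of_nonneg (shat_nonneg x)]
  exact shat_le x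

/-! ### The Hölder inequality -/

lemma integrable_of_bdd {Ω : Type*} [MeasurableSpace Ω] {μ : Measure Ω} [IsFiniteMeasure μ]
    {Z : Ω → ℝ} (hm : Measurable Z) (C : ℝ) (hb : ∀ a, |Z a| ≤ C) : Integrable Z μ :=
  (integrable_const C).mono' hm.aestronglyMeasurable (ae_of_all _ fun a => by simpa using hb a)

/-- The Hölder inequality in the form needed: a high moment of `A` and a second moment of `η`. -/
lemma integral_sq_mul_sq_le {Ω : Type*} [MeasurableSpace Ω] {μ : Measure Ω} [IsProbabilityMeasure μ]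
    {A η : Ω → ℝ} (hA : Measurable A) (hη : Measurable η) (hA1 : ∀ a, |A a| ≤ 1)
    (hη2 : ∀ a, |η a| ≤ 2) (p : ℕ) (hp : 4 ≤ p) {X Y : ℝ}
    (hX : ∫ a, A a ^ (2 * p) ∂μ ≤ X) (hY : ∫ a, η a ^ 2 ∂μ ≤ Y) :
    ∫ a, A a ^ 2 * η a ^ 2 ∂μ ≤ X ^ (1 / (p : ℝ)) * (4 * Y) ^ (1 - 1 / (p : ℝ)) := by
  set P : ℝ := (p : ℝ) with hP
  have hP4 : (4 : ℝ) ≤ P := by rw [hP]; exact_mod_cast hp
  have hP1 : 1 < P := by linarith
  set q : ℝ := P / (P - 1) with hq
  have hpq : P.HolderConjugate q := by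
    simpa [hq, Real.conjExponent] using Real.HolderConjugate.conjExponent hP1
  have hq1 : 1 / q = 1 - 1 / P := by
    rw [hq]
    have : P - 1 ≠ 0 := by linarith
    have hP0 : P ≠ 0 := by linarith
    field_simp
  have hq2 : 1 ≤ q := by
    rw [hq, le_div_iff₀ (by linarith)]
    linarith
  have hq3 : q - 1 ≤ 1 := by
    have : q = 1 + 1 / (P - 1) := by
      rw [hq]
      have : P - 1 ≠ 0 := by linarith
      field_simp
      ring
    rw [this]
    have h5 : 1 / (P - 1) ≤ 1 := by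
      rw [div_le_one (by linarith)]
      linarith
    linarith
  have hf0 : (0 : Ω → ℝ) ≤ᵐ[μ] fun a => A a ^ 2 := ae_of_all _ fun a => sq_nonneg _
  have hg0 : (0 : Ω → ℝ) ≤ᵐ[μ] fun a => η a ^ 2 := ae_of_all _ fun a => sq_nonneg _
  have hfm : Measurable (fun a => A a ^ 2) := hA.pow_const 2
  have hgm : Measurable (fun a => η a ^ 2) := hη.pow_const 2
  have hfL : MemLp (fun a => A a ^ 2) (ENNReal.ofReal P) μ :=
    MemLp.of_bound hfm.aestronglyMeasurable 1 (ae_of_all _ fun a => by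
      rw [Real.norm_eq_abs, abs_pow]
      exact pow_le_one₀ (abs_nonneg _) (hA1 a))
  have hgL : MemLp (fun a => η a ^ 2) (ENNReal.ofReal q) μ :=
    MemLp.of_bound hgm.aestronglyMeasurable 4 (ae_of_all _ fun a => by
      rw [Real.norm_eq_abs, abs_pow]
      have := pow_le_pow_left₀ (abs_nonneg _) (hη2 a) 2
      norm_num at this ⊢
      exact this)
  have hH := integral_mul_le_Lp_mul_Lq_of_nonneg hpq hf0 hg0 hfL hgL
  refine hH.trans ?_
  -- the first factor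
  have e1 : ∀ a, (A a ^ 2) ^ P = A a ^ (2 * p) := fun a => by
    rw [hP, Real.rpow_natCast, ← pow_mul]
  simp_rw [e1]
  have h1nn : 0 ≤ ∫ a, A a ^ (2 * p) ∂μ := integral_nonneg fun a => by
    rw [pow_mul]; positivity
  have hX0 : 0 ≤ X := h1nn.trans hX
  have hF1 : (∫ a, A a ^ (2 * p) ∂μ) ^ (1 / P) ≤ X ^ (1 / P) :=
    Real.rpow_le_rpow h1nn hX (by positivity)
  -- the second factor
  have hp2 : ∀ a, (η a ^ 2) ^ q ≤ 4 * η a ^ 2 := fun a => by
    have hg1 : 0 ≤ η a ^ 2 := sq_nonneg _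
    have hg4 : η a ^ 2 ≤ 4 := by
      have := pow_le_pow_left₀ (abs_nonneg _) (hη2 a) 2
      rw [sq_abs] at this
      linarith
    rcases hg1.eq_or_lt with h | h
    · rw [← h, Real.zero_rpow (by linarith)]
      simp
    · have e : (η a ^ 2) ^ q = (η a ^ 2) ^ (q - 1) * η a ^ 2 := by
        rw [← Real.rpow_add_one h.ne']
        congr 1
        ring
      rw [e]
      refine mul_le_mul_of_nonneg_right ?_ hg1
      calc (η a ^ 2) ^ (q - 1) ≤ (4 : ℝ) ^ (q - 1) :=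
            Real.rpow_le_rpow hg1 hg4 (by linarith)
        _ ≤ (4 : ℝ) ^ (1 : ℝ) := Real.rpow_le_rpow_of_exponent_le (by norm_num) hq3
        _ = 4 := Real.rpow_one _
  have hgi : Integrable (fun a => η a ^ 2) μ := integrable_of_bdd hgm 4 fun a => by
    rw [abs_pow]
    have := pow_le_pow_left₀ (abs_nonneg _) (hη2 a) 2
    norm_num at this ⊢
    exact this
  have h2 : ∫ a, (η a ^ 2) ^ q ∂μ ≤ 4 * Y := by
    have h3 : ∫ a, (η a ^ 2) ^ q ∂μ ≤ ∫ a, 4 * η a ^ 2 ∂μ :=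
      integral_mono_of_nonneg (ae_of_all _ fun a => Real.rpow_nonneg (sq_nonneg _) _)
        (hgi.const_mul 4) (ae_of_all _ hp2)
    rw [integral_const_mul] at h3
    linarith
  have h2nn : 0 ≤ ∫ a, (η a ^ 2) ^ q ∂μ :=
    integral_nonneg fun a => Real.rpow_nonneg (sq_nonneg _) _
  have hF2 : (∫ a, (η a ^ 2) ^ q ∂μ) ^ (1 / q) ≤ (4 * Y) ^ (1 - 1 / P) := by
    rw [← hq1]
    exact Real.rpow_le_rpow h2nn h2 (by positivity)
  exact mul_le_mul hF1 hF2 (Real.rpow_nonneg h2nn _) (Real.rpow_nonneg hX0 _)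

end SA
end Crest.Agent.Lib.IT
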