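/-
The probabilistic estimates for the a priori bound at small times (statement S0241): the Hölder
step, the bounds on the edge potentials, non-coherence of the sum of the potentials along a path,
the bound on `VVu`.
-/
import Crest.Agent.Lib.IT.StepA1
import Crest.Agent.Lib.IT.NCApply
import Crest.Agent.Lib.IT.LinkTail

set_option autoImplicit false

namespace Crest.Agent.Lib.IT
namespace SA

open MeasureTheory ProbabilityTheory SimpleGraph Filter Topology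
open scoped ENNReal NNReal
open Crest.Agent.Lib.Loc

variable {V : Type*} {G : SimpleGraph V} [G.LocallyFinite] {k : ℕ} {θ : ℝ} [Countable V]
  {ν : Measure (V → Bool)} [IsProbabilityMeasure ν]

lemma integral_P2_fst (n j : ℕ) {f : TΩ V → ℝ} (hf : Measurable f) :
    ∫ q, f q.1 ∂(P2 ν G n j) = ∫ a, f a ∂(truthP ν) := by
  have h := P2_map_fst (ν := ν) (G := G) n j
  conv_rhs => rw [← h]
  rw [integral_map measurable_fst.aemeasurable hf.aestronglyMeasurable]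

lemma integral_P2_snd (n j : ℕ) {f : TΩ V → ℝ} (hf : Measurable f) :
    ∫ q, f q.2 ∂(P2 ν G n j) = ∫ a, f a ∂(truthP ν) := by
  have h := P2_map_snd (ν := ν) (G := G) n j
  conv_rhs => rw [← h]
  rw [integral_map measurable_snd.aemeasurable hf.aestronglyMeasurable]

omit [Countable V] [IsProbabilityMeasure ν] in
lemma dDt_nonneg (o : V) (n j : ℕ) : 0 ≤ dDt ν G o n j := by
  show 0 ≤ dD _ _ _ _ _ _ _ _
  unfold dD
  exact integral_nonneg fun a => sq_nonneg _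

lemma dDt_eq (hT : G.IsTree) (hk : 2 ≤ k) (hreg : G.IsRegularOfDegree (k + 1)) (h0 : 0 ≤ θ)
    (h1 : θ < 1) (hν : IsIsing G θ ν) (x y : V) (n j : ℕ) : dDt ν G x n j = dDt ν G y n j := by
  obtain ⟨k', rfl⟩ : ∃ k', k = k' + 1 := ⟨k - 1, by omega⟩
  obtain ⟨g, hg⟩ := exists_aut_vertex hT hreg y x
  rw [← hg]
  exact dDt_aut hT h0 h1 hν g n j y

/-- The bound from Hölder. -/
noncomputable def HE (ν : Measure (V → Bool)) (G : SimpleGraph V) [G.LocallyFinite] (Ci : ℝ) (i : ℕ)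
    (o : V) (n j : ℕ) : ℝ :=
  32 * Ci ^ (1 / ((2 ^ i : ℕ) : ℝ)) *
    (Real.sqrt (tm n j) * (dDt ν G o n j) ^ (1 - 1 / ((2 ^ i : ℕ) : ℝ)))

omit [Countable V] [IsProbabilityMeasure ν] in
lemma HE_nonneg {Ci : ℝ} (hCi : 0 ≤ Ci) (i : ℕ) (o : V) (n j : ℕ) : 0 ≤ HE ν G Ci i o n j := by
  unfold HE
  have h1 := dDt_nonneg (ν := ν) (G := G) o n j
  have h2 : 0 ≤ (dDt ν G o n j) ^ (1 - 1 / ((2 ^ i : ℕ) : ℝ)) := Real.rpow_nonneg h1 _
  have h3 : 0 ≤ Ci ^ (1 / ((2 ^ i : ℕ) : ℝ)) := Real.rpow_nonneg hCi _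
  have h4 := Real.sqrt_nonneg (tm n j)
  positivity

/-- The moment bound. -/
def MomB (ν : Measure (V → Bool)) (G : SimpleGraph V) [G.LocallyFinite] (i : ℕ) (Ci : ℝ) : Prop :=
  ∀ (x : V) (n j : ℕ), 0 < tm n j → tm n j ≤ 4 →
    ∫ a, mg ν G x n j a ^ (2 * 2 ^ i) ∂(truthP ν) ≤ Ci * Real.sqrt (tm n j) ^ (2 ^ i)

lemma holder_step {p : ℕ} (hp : 4 ≤ p) {Ci t D : ℝ} (hCi : 0 ≤ Ci) (ht : 0 ≤ t) (hD : 0 ≤ D) :
    (Ci * Real.sqrt t ^ p) ^ (1 / (p : ℝ)) * (4 * (8 * D)) ^ (1 - 1 / (p : ℝ)) ≤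
      32 * Ci ^ (1 / (p : ℝ)) * (Real.sqrt t * D ^ (1 - 1 / (p : ℝ))) := by
  have hp0 : p ≠ 0 := by omega
  have hpR : (4 : ℝ) ≤ p := by exact_mod_cast hp
  have hs : Real.sqrt t ^ p ≥ 0 := by positivity
  rw [Real.mul_rpow hCi hs, one_div, Real.pow_rpow_inv_natCast (Real.sqrt_nonneg t) hp0]
  have e : 4 * (8 * D) = 32 * D := by ring
  rw [e, Real.mul_rpow (by norm_num) hD]
  have h1 : (32 : ℝ) ^ (1 - (p : ℝ)⁻¹) ≤ 32 := by
    have hs1 : 1 - (p : ℝ)⁻¹ ≤ 1 := by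
      have : 0 ≤ (p : ℝ)⁻¹ := by positivity
      linarith
    calc (32 : ℝ) ^ (1 - (p : ℝ)⁻¹) ≤ (32 : ℝ) ^ (1 : ℝ) :=
          Real.rpow_le_rpow_of_exponent_le (by norm_num) hs1
      _ = 32 := Real.rpow_one _
  have h2 : 0 ≤ Ci ^ (p : ℝ)⁻¹ := Real.rpow_nonneg hCi _
  have h3 : 0 ≤ D ^ (1 - (p : ℝ)⁻¹) := Real.rpow_nonneg hD _
  have h4 := Real.sqrt_nonneg t
  have h5 : 0 ≤ Ci ^ (p : ℝ)⁻¹ * Real.sqrt t * D ^ (1 - (p : ℝ)⁻¹) := by positivity
  calc Ci ^ (p : ℝ)⁻¹ * Real.sqrt t * ((32 : ℝ) ^ (1 - (p : ℝ)⁻¹) * D ^ (1 - (p : ℝ)⁻¹))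
      = (32 : ℝ) ^ (1 - (p : ℝ)⁻¹) * (Ci ^ (p : ℝ)⁻¹ * Real.sqrt t * D ^ (1 - (p : ℝ)⁻¹)) := by ring
    _ ≤ 32 * (Ci ^ (p : ℝ)⁻¹ * Real.sqrt t * D ^ (1 - (p : ℝ)⁻¹)) :=
        mul_le_mul_of_nonneg_right h1 h5
    _ = 32 * Ci ^ (p : ℝ)⁻¹ * (Real.sqrt t * D ^ (1 - (p : ℝ)⁻¹)) := by ring

section
variable (hT : G.IsTree) (hk : 2 ≤ k) (hreg : G.IsRegularOfDegree (k + 1)) (h0 : 0 ≤ θ) (h1 : θ < 1)
  (hν : IsIsing G θ ν)
include hT hk hreg h0 h1 hν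

/-- The Hölder bound, for either copy. -/
theorem integral_T_le {i : ℕ} (hi : 2 ≤ i) {Ci : ℝ} (hCi : 0 < Ci) (hmom : MomB ν G i Ci)
    (x y o : V) {n j : ℕ} (ht : 0 < tm n j) (ht4 : tm n j ≤ 4) :
    ∫ q, mg ν G x n j q.1 ^ 2 * (mg ν G y n j q.1 - mg ν G y n j q.2) ^ 2 ∂(P2 ν G n j) ≤
        HE ν G Ci i o n j ∧
    ∫ q, mg ν G x n j q.2 ^ 2 * (mg ν G y n j q.1 - mg ν G y n j q.2) ^ 2 ∂(P2 ν G n j) ≤
        HE ν G Ci i o n j := by
  have hp : 4 ≤ 2 ^ i := by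
    calc 4 = 2 ^ 2 := rfl
      _ ≤ 2 ^ i := Nat.pow_le_pow_right (by norm_num) hi
  have hD := dDt_nonneg (ν := ν) (G := G) o n j
  have hY : ∫ q, (mg ν G y n j q.1 - mg ν G y n j q.2) ^ 2 ∂(P2 ν G n j) ≤ 8 * dDt ν G o n j := by
    have := dDt_eq_P2 (ν := ν) (G := G) n j y
    rw [dDt_eq hT hk hreg h0 h1 hν y o] at this
    linarith
  have hη : Measurable (fun q : TΩ V × TΩ V => mg ν G y n j q.1 - mg ν G y n j q.2) :=
    ((measurable_mg y n j).comp measurable_fst).sub ((measurable_mg y n j).comp measurable_snd)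
  have hη2 : ∀ q : TΩ V × TΩ V, |mg ν G y n j q.1 - mg ν G y n j q.2| ≤ 2 := by
    intro q
    have h3 := abs_mg_le (ν := ν) (G := G) y n j q.1
    have h4 := abs_mg_le (ν := ν) (G := G) y n j q.2
    exact (abs_sub _ _).trans (by linarith)
  have hstep := holder_step hp hCi.le ht.le hD
  constructor
  · have hX : ∫ q, (mg ν G x n j q.1) ^ (2 * 2 ^ i) ∂(P2 ν G n j) ≤
        Ci * Real.sqrt (tm n j) ^ (2 ^ i) := by
      rw [integral_P2_fst n j ((measurable_mg x n j).pow_const _)]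
      exact hmom x n j ht ht4
    have := integral_sq_mul_sq_le ((measurable_mg x n j).comp measurable_fst) hη
      (fun q => abs_mg_le (ν := ν) (G := G) x n j q.1) hη2 (2 ^ i) hp hX hY
    exact this.trans hstep
  · have hX : ∫ q, (mg ν G x n j q.2) ^ (2 * 2 ^ i) ∂(P2 ν G n j) ≤
        Ci * Real.sqrt (tm n j) ^ (2 ^ i) := by
      rw [integral_P2_snd n j ((measurable_mg x n j).pow_const _)]
      exact hmom x n j ht ht4
    have := integral_sq_mul_sq_le ((measurable_mg x n j).comp measurable_snd) hη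
      (fun q => abs_mg_le (ν := ν) (G := G) x n j q.2) hη2 (2 ^ i) hp hX hY
    exact this.trans hstep

end

/-- Integrability of the terms of the Hölder bound. -/
theorem integrable_T1 (x y : V) (n j : ℕ) :
    Integrable (fun q : TΩ V × TΩ V =>
      mg ν G x n j q.1 ^ 2 * (mg ν G y n j q.1 - mg ν G y n j q.2) ^ 2) (P2 ν G n j) := by
  refine integrable_of_bdd (C := 4) ?_ ?_
  · exact (((measurable_mg x n j).comp measurable_fst).pow_const 2).mul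
      ((((measurable_mg y n j).comp measurable_fst).sub
        ((measurable_mg y n j).comp measurable_snd)).pow_const 2)
  · intro q
    have h3 := abs_le.1 (abs_mg_le (ν := ν) (G := G) x n j q.1)
    have h4 := abs_le.1 (abs_mg_le (ν := ν) (G := G) y n j q.1)
    have h5 := abs_le.1 (abs_mg_le (ν := ν) (G := G) y n j q.2)
    rw [abs_of_nonneg (by positivity)]
    have h6 : mg ν G x n j q.1 ^ 2 ≤ 1 := by nlinarith
    have h7 : (mg ν G y n j q.1 - mg ν G y n j q.2) ^ 2 ≤ 4 := by nlinarith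
    have h8 := sq_nonneg (mg ν G x n j q.1)
    have h9 := sq_nonneg (mg ν G y n j q.1 - mg ν G y n j q.2)
    nlinarith

theorem integrable_T2 (x y : V) (n j : ℕ) :
    Integrable (fun q : TΩ V × TΩ V =>
      mg ν G x n j q.2 ^ 2 * (mg ν G y n j q.1 - mg ν G y n j q.2) ^ 2) (P2 ν G n j) := by
  refine integrable_of_bdd (C := 4) ?_ ?_
  · exact (((measurable_mg x n j).comp measurable_snd).pow_const 2).mul
      ((((measurable_mg y n j).comp measurable_fst).sub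
        ((measurable_mg y n j).comp measurable_snd)).pow_const 2)
  · intro q
    have h3 := abs_le.1 (abs_mg_le (ν := ν) (G := G) x n j q.2)
    have h4 := abs_le.1 (abs_mg_le (ν := ν) (G := G) y n j q.1)
    have h5 := abs_le.1 (abs_mg_le (ν := ν) (G := G) y n j q.2)
    rw [abs_of_nonneg (by positivity)]
    have h6 : mg ν G x n j q.2 ^ 2 ≤ 1 := by nlinarith
    have h7 : (mg ν G y n j q.1 - mg ν G y n j q.2) ^ 2 ≤ 4 := by nlinarith
    have h8 := sq_nonneg (mg ν G x n j q.2)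
    have h9 := sq_nonneg (mg ν G y n j q.1 - mg ν G y n j q.2)
    nlinarith

lemma integral_le_of_8 {Ω : Type*} [MeasurableSpace Ω] {μ : Measure Ω}
    {Z f1 f2 f3 f4 f5 f6 f7 f8 : Ω → ℝ} {c B : ℝ} (hZ : ∀ q, 0 ≤ Z q) (hc : 0 ≤ c)
    (h1 : Integrable f1 μ) (h2 : Integrable f2 μ) (h3 : Integrable f3 μ) (h4 : Integrable f4 μ)
    (h5 : Integrable f5 μ) (h6 : Integrable f6 μ) (h7 : Integrable f7 μ) (h8 : Integrable f8 μ)
    (b1 : ∫ q, f1 q ∂μ ≤ B) (b2 : ∫ q, f2 q ∂μ ≤ B) (b3 : ∫ q, f3 q ∂μ ≤ B) (b4 : ∫ q, f4 q ∂μ ≤ B)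
    (b5 : ∫ q, f5 q ∂μ ≤ B) (b6 : ∫ q, f6 q ∂μ ≤ B) (b7 : ∫ q, f7 q ∂μ ≤ B) (b8 : ∫ q, f8 q ∂μ ≤ B)
    (hle : ∀ q, Z q ≤ c * (f1 q + f2 q + f3 q + f4 q + f5 q + f6 q + f7 q + f8 q)) :
    ∫ q, Z q ∂μ ≤ c * (8 * B) := by
  have i2 : Integrable (fun q => f1 q + f2 q) μ := h1.add h2
  have i3 : Integrable (fun q => f1 q + f2 q + f3 q) μ := i2.add h3
  have i4 : Integrable (fun q => f1 q + f2 q + f3 q + f4 q) μ := i3.add h4
  have i5 : Integrable (fun q => f1 q + f2 q + f3 q + f4 q + f5 q) μ := i4.add h5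
  have i6 : Integrable (fun q => f1 q + f2 q + f3 q + f4 q + f5 q + f6 q) μ := i5.add h6
  have i7 : Integrable (fun q => f1 q + f2 q + f3 q + f4 q + f5 q + f6 q + f7 q) μ := i6.add h7
  have i8 : Integrable (fun q => f1 q + f2 q + f3 q + f4 q + f5 q + f6 q + f7 q + f8 q) μ := i7.add h8
  have hle2 := integral_mono_of_nonneg (ae_of_all μ hZ) (i8.const_mul c) (ae_of_all μ hle)
  refine hle2.trans ?_
  rw [integral_const_mul, integral_add i7 h8, integral_add i6 h7, integral_add i5 h6,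
    integral_add i4 h5, integral_add i3 h4, integral_add i2 h3, integral_add h1 h2]
  refine mul_le_mul_of_nonneg_left ?_ hc
  linarith

lemma integral_le_of_2 {Ω : Type*} [MeasurableSpace Ω] {μ : Measure Ω}
    {Z f1 f2 : Ω → ℝ} {c B : ℝ} (hZ : ∀ q, 0 ≤ Z q) (hc : 0 ≤ c)
    (h1 : Integrable f1 μ) (h2 : Integrable f2 μ)
    (b1 : ∫ q, f1 q ∂μ ≤ B) (b2 : ∫ q, f2 q ∂μ ≤ B)
    (hle : ∀ q, Z q ≤ c * (f1 q + f2 q)) :
    ∫ q, Z q ∂μ ≤ c * (2 * B) := by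
  have i2 : Integrable (fun q => f1 q + f2 q) μ := h1.add h2
  have hle2 := integral_mono_of_nonneg (ae_of_all μ hZ) (i2.const_mul c) (ae_of_all μ hle)
  refine hle2.trans ?_
  rw [integral_const_mul, integral_add h1 h2]
  refine mul_le_mul_of_nonneg_left ?_ hc
  linarith

/-- The elementary inequality behind the edge bound. -/
lemma vhat_sq_aux {K a b a' b' v : ℝ} (hK : 0 < K)
    (hv : |v| ≤ K * (|a| + |b| + |a'| + |b'|) * (|a - a'| + |b - b'|)) :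
    v ^ 2 ≤ 8 * K ^ 2 * (a ^ 2 * (a - a') ^ 2 + b ^ 2 * (a - a') ^ 2 + a' ^ 2 * (a - a') ^ 2 +
      b' ^ 2 * (a - a') ^ 2 + a ^ 2 * (b - b') ^ 2 + b ^ 2 * (b - b') ^ 2 + a' ^ 2 * (b - b') ^ 2 +
      b' ^ 2 * (b - b') ^ 2) := by
  have h1 : v ^ 2 ≤ (K * (|a| + |b| + |a'| + |b'|) * (|a - a'| + |b - b'|)) ^ 2 := by
    rw [← sq_abs v]
    exact pow_le_pow_left₀ (abs_nonneg _) hv 2
  have h2 : (|a| + |b| + |a'| + |b'|) ^ 2 ≤ 4 * (a ^ 2 + b ^ 2 + a' ^ 2 + b' ^ 2) := by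
    have e1 := sq_abs a
    have e2 := sq_abs b
    have e3 := sq_abs a'
    have e4 := sq_abs b'
    rw [← e1, ← e2, ← e3, ← e4]
    nlinarith [sq_nonneg (|a| - |b|), sq_nonneg (|a| - |a'|), sq_nonneg (|a| - |b'|),
      sq_nonneg (|b| - |a'|), sq_nonneg (|b| - |b'|), sq_nonneg (|a'| - |b'|)]
  have h3 : (|a - a'| + |b - b'|) ^ 2 ≤ 2 * ((a - a') ^ 2 + (b - b') ^ 2) := by
    have e1 := sq_abs (a - a')
    have e2 := sq_abs (b - b')
    rw [← e1, ← e2]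
    nlinarith [sq_nonneg (|a - a'| - |b - b'|)]
  have h4 : 0 ≤ (|a| + |b| + |a'| + |b'|) ^ 2 := sq_nonneg _
  have h5 : 0 ≤ (|a - a'| + |b - b'|) ^ 2 := sq_nonneg _
  have h6 : 0 ≤ a ^ 2 + b ^ 2 + a' ^ 2 + b' ^ 2 := by positivity
  have h7 := mul_le_mul h2 h3 h5 (by positivity)
  have h8 : (K * (|a| + |b| + |a'| + |b'|) * (|a - a'| + |b - b'|)) ^ 2 =
      K ^ 2 * ((|a| + |b| + |a'| + |b'|) ^ 2 * (|a - a'| + |b - b'|) ^ 2) := by ring
  rw [h8] at h1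
  have h9 := mul_le_mul_of_nonneg_left h7 (sq_nonneg K)
  have e : K ^ 2 * (4 * (a ^ 2 + b ^ 2 + a' ^ 2 + b' ^ 2) * (2 * ((a - a') ^ 2 + (b - b') ^ 2))) =
      8 * K ^ 2 * (a ^ 2 * (a - a') ^ 2 + b ^ 2 * (a - a') ^ 2 + a' ^ 2 * (a - a') ^ 2 +
      b' ^ 2 * (a - a') ^ 2 + a ^ 2 * (b - b') ^ 2 + b ^ 2 * (b - b') ^ 2 + a' ^ 2 * (b - b') ^ 2 +
      b' ^ 2 * (b - b') ^ 2) := by ring
  rw [e] at h9
  exact h1.trans h9

lemma shat_sq_aux {a a' : ℝ} :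
    (shat a - shat a') ^ 2 ≤ 2 * (a ^ 2 * (a - a') ^ 2 + a' ^ 2 * (a - a') ^ 2) := by
  have h1 : (shat a - shat a') ^ 2 ≤ ((|a| + |a'|) * |a - a'|) ^ 2 := by
    rw [← sq_abs (shat a - shat a')]
    exact pow_le_pow_left₀ (abs_nonneg _) (shat_lip a a') 2
  have h2 : (|a| + |a'|) ^ 2 ≤ 2 * (a ^ 2 + a' ^ 2) := by
    have e1 := sq_abs a
    have e2 := sq_abs a'
    rw [← e1, ← e2]
    nlinarith [sq_nonneg (|a| - |a'|)]
  have h3 : ((|a| + |a'|) * |a - a'|) ^ 2 = (|a| + |a'|) ^ 2 * (a - a') ^ 2 := by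
    rw [mul_pow, sq_abs]
  rw [h3] at h1
  have h4 := mul_le_mul_of_nonneg_right h2 (sq_nonneg (a - a'))
  have e : 2 * (a ^ 2 + a' ^ 2) * (a - a') ^ 2 = 2 * (a ^ 2 * (a - a') ^ 2 + a' ^ 2 * (a - a') ^ 2) := by
    ring
  rw [e] at h4
  exact h1.trans h4

section
variable (hT : G.IsTree) (hk : 2 ≤ k) (hreg : G.IsRegularOfDegree (k + 1)) (h0 : 0 ≤ θ) (h1 : θ < 1)
  (hν : IsIsing G θ ν)
include hT hk hreg h0 h1 hν

/-- The second moment of the increment of an edge potential. -/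
theorem integral_vhat_sub_sq_le {i : ℕ} (hi : 2 ≤ i) {Ci : ℝ} (hCi : 0 < Ci) (hmom : MomB ν G i Ci)
    {K : ℝ} (hK : 0 < K)
    (hlip : ∀ x y x' y' : ℝ, |x| ≤ 1 → |y| ≤ 1 → |x'| ≤ 1 → |y'| ≤ 1 →
      |vhat θ x y - vhat θ x' y'| ≤ K * (|x| + |y| + |x'| + |y'|) * (|x - x'| + |y - y'|))
    (x y o : V) {n j : ℕ} (ht : 0 < tm n j) (ht4 : tm n j ≤ 4) :
    ∫ q, (vhat θ (mg ν G x n j q.1) (mg ν G y n j q.1) -
        vhat θ (mg ν G x n j q.2) (mg ν G y n j q.2)) ^ 2 ∂(P2 ν G n j) ≤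
      64 * K ^ 2 * HE ν G Ci i o n j := by
  have T := fun a b => integral_T_le hT hk hreg h0 h1 hν hi hCi hmom a b o ht ht4
  have hxx1 := integrable_T1 (ν := ν) (G := G) x x n j
  have hyx1 := integrable_T1 (ν := ν) (G := G) y x n j
  have hxx2 := integrable_T2 (ν := ν) (G := G) x x n j
  have hyx2 := integrable_T2 (ν := ν) (G := G) y x n j
  have hxy1 := integrable_T1 (ν := ν) (G := G) x y n j
  have hyy1 := integrable_T1 (ν := ν) (G := G) y y n j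
  have hxy2 := integrable_T2 (ν := ν) (G := G) x y n j
  have hyy2 := integrable_T2 (ν := ν) (G := G) y y n j
  have hle : ∀ q : TΩ V × TΩ V, (vhat θ (mg ν G x n j q.1) (mg ν G y n j q.1) -
        vhat θ (mg ν G x n j q.2) (mg ν G y n j q.2)) ^ 2 ≤
      8 * K ^ 2 * (mg ν G x n j q.1 ^ 2 * (mg ν G x n j q.1 - mg ν G x n j q.2) ^ 2 +
        mg ν G y n j q.1 ^ 2 * (mg ν G x n j q.1 - mg ν G x n j q.2) ^ 2 +
        mg ν G x n j q.2 ^ 2 * (mg ν G x n j q.1 - mg ν G x n j q.2) ^ 2 +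
        mg ν G y n j q.2 ^ 2 * (mg ν G x n j q.1 - mg ν G x n j q.2) ^ 2 +
        mg ν G x n j q.1 ^ 2 * (mg ν G y n j q.1 - mg ν G y n j q.2) ^ 2 +
        mg ν G y n j q.1 ^ 2 * (mg ν G y n j q.1 - mg ν G y n j q.2) ^ 2 +
        mg ν G x n j q.2 ^ 2 * (mg ν G y n j q.1 - mg ν G y n j q.2) ^ 2 +
        mg ν G y n j q.2 ^ 2 * (mg ν G y n j q.1 - mg ν G y n j q.2) ^ 2) := fun q =>
    vhat_sq_aux hK (hlip _ _ _ _ (abs_mg_le x n j q.1) (abs_mg_le y n j q.1)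
      (abs_mg_le x n j q.2) (abs_mg_le y n j q.2))
  have := integral_le_of_8 (fun q => sq_nonneg _) (by positivity : 0 ≤ 8 * K ^ 2)
    hxx1 hyx1 hxx2 hyx2 hxy1 hyy1 hxy2 hyy2 (T x x).1 (T y x).1 (T x x).2 (T y x).2
    (T x y).1 (T y y).1 (T x y).2 (T y y).2 hle
  refine this.trans (le_of_eq ?_)
  ring

/-- The second moment of the increment of a vertex potential. -/
theorem integral_shat_sub_sq_le {i : ℕ} (hi : 2 ≤ i) {Ci : ℝ} (hCi : 0 < Ci) (hmom : MomB ν G i Ci)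
    (x o : V) {n j : ℕ} (ht : 0 < tm n j) (ht4 : tm n j ≤ 4) :
    ∫ q, (shat (mg ν G x n j q.1) - shat (mg ν G x n j q.2)) ^ 2 ∂(P2 ν G n j) ≤
      4 * HE ν G Ci i o n j := by
  have T := integral_T_le hT hk hreg h0 h1 hν hi hCi hmom x x o ht ht4
  have hxx1 := integrable_T1 (ν := ν) (G := G) x x n j
  have hxx2 := integrable_T2 (ν := ν) (G := G) x x n j
  have := integral_le_of_2 (fun q => sq_nonneg _) (by norm_num : (0 : ℝ) ≤ 2)
    hxx1 hxx2 T.1 T.2 (fun q => shat_sq_aux (a := mg ν G x n j q.1) (a' := mg ν G x n j q.2))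
  refine this.trans (le_of_eq ?_)
  ring

end

/-- The non-coherence bound, for a fixed constant. -/
def NCB (ν : Measure (V → Bool)) [IsProbabilityMeasure ν] (G : SimpleGraph V) [G.LocallyFinite]
    (C : ℝ) : Prop :=
  ∀ (f : V → V → TΩ V → ℝ) (M : ℝ) (_ : ∀ x y, Measurable (f x y))
      (_ : ∀ x y a, |f x y a| ≤ M) (_ : ∀ x y a, G.Adj x y → f x y a = f y x a)
      (_ : ∀ (g : G ≃g G) (x y : V) (a : TΩ V), f (g x) (g y) a = f x y (hatg g a))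
      (t : ℝ) (γ : ℕ → V) (r : ℕ) (_ : IsGeo G γ r) (e₁ e₂ : V) (_ : G.Adj e₁ e₂),
      ∫ a, (∑ i ∈ Finset.range r, (f (γ i) (γ (i + 1)) a -
          ((truthP ν)[f (γ i) (γ (i + 1)) | Gt ν (ballFs G) Prod.fst truthB t]) a)) ^ 2 ∂(truthP ν) ≤
        C * r * ∫ a, (f e₁ e₂ a -
          ((truthP ν)[f e₁ e₂ | Gt ν (ballFs G) Prod.fst truthB t]) a) ^ 2 ∂(truthP ν)

omit [Countable V] in
lemma exists_adj_of_reg (hreg : G.IsRegularOfDegree (k + 1)) (o : V) : ∃ y, G.Adj o y := by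
  have h : 0 < G.degree o := by rw [hreg o]; omega
  exact (G.degree_pos_iff_exists_adj o).1 h

omit [Countable V] [IsProbabilityMeasure ν] in
lemma measurable_vhat_comp {Ω : Type*} [MeasurableSpace Ω] {f g : Ω → ℝ} (hf : Measurable f)
    (hg : Measurable g) : Measurable (fun a => vhat θ (f a) (g a)) :=
  Measurable.comp (g := fun q : ℝ × ℝ => vhat θ q.1 q.2) (f := fun a => (f a, g a))
    (measurable_vhat θ) (hf.prodMk hg)

lemma measurable_vhat_mg (x y : V) (n j : ℕ) :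
    Measurable (fun a : TΩ V => vhat θ (mg ν G x n j a) (mg ν G y n j a)) :=
  measurable_vhat_comp (measurable_mg x n j) (measurable_mg y n j)

lemma measurable_zhat_mg (γ : ℕ → V) (r n j : ℕ) :
    Measurable (fun a : TΩ V => zhat θ (fun l => mg ν G (γ l) n j a) r) := by
  unfold zhat
  refine ((measurable_shat.comp (measurable_mg _ n j)).add
    (measurable_shat.comp (measurable_mg _ n j))).add ?_
  exact Finset.measurable_sum _ fun l _ => measurable_vhat_mg _ _ n j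

lemma abs_zhat_le {M : ℝ} (hM0 : 0 ≤ M) (hM : ∀ x y, vhat θ x y ≤ M) (m : ℕ → ℝ) (r : ℕ) :
    |zhat θ m r| ≤ 2 + r * M := by
  rw [abs_of_nonneg (zhat_nonneg θ m r)]
  unfold zhat
  have h1 := shat_le (m 0)
  have h2 := shat_le (m r)
  have h3 : ∑ i ∈ Finset.range r, vhat θ (m i) (m (i + 1)) ≤ ∑ _i ∈ Finset.range r, M :=
    Finset.sum_le_sum fun i _ => hM _ _
  rw [Finset.sum_const, Finset.card_range, nsmul_eq_mul] at h3
  linarith

lemma integrable_sq_sub {f : TΩ V → ℝ} (hf : Measurable f) (C : ℝ) (hb : ∀ a, |f a| ≤ C)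
    (n j : ℕ) : Integrable (fun q : TΩ V × TΩ V => (f q.1 - f q.2) ^ 2) (P2 ν G n j) := by
  refine integrable_of_bdd (C := (2 * C) ^ 2) ((((hf.comp measurable_fst).sub
    (hf.comp measurable_snd))).pow_const 2) fun q => ?_
  rw [abs_pow]
  refine pow_le_pow_left₀ (abs_nonneg _) ?_ 2
  have := hb q.1
  have := hb q.2
  exact (abs_sub _ _).trans (by linarith)

lemma integral_le_of_3 {Ω : Type*} [MeasurableSpace Ω] {μ : Measure Ω}
    {Z f1 f2 f3 : Ω → ℝ} {a b c B1 B2 B3 : ℝ} (hZ : ∀ᵐ q ∂μ, 0 ≤ Z q)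
    (ha : 0 ≤ a) (hb : 0 ≤ b) (hc : 0 ≤ c)
    (h1 : Integrable f1 μ) (h2 : Integrable f2 μ) (h3 : Integrable f3 μ)
    (b1 : ∫ q, f1 q ∂μ ≤ B1) (b2 : ∫ q, f2 q ∂μ ≤ B2) (b3 : ∫ q, f3 q ∂μ ≤ B3)
    (hle : ∀ᵐ q ∂μ, Z q ≤ a * f1 q + b * f2 q + c * f3 q) :
    ∫ q, Z q ∂μ ≤ a * B1 + b * B2 + c * B3 := by
  have i1 := h1.const_mul a
  have i2 := h2.const_mul b
  have i3 := h3.const_mul c
  have i12 : Integrable (fun q => a * f1 q + b * f2 q) μ := i1.add i2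
  have i123 : Integrable (fun q => a * f1 q + b * f2 q + c * f3 q) μ := i12.add i3
  have hle2 := integral_mono_of_nonneg hZ i123 hle
  refine hle2.trans ?_
  rw [integral_add i12 i3, integral_add i1 i2, integral_const_mul, integral_const_mul,
    integral_const_mul]
  have := mul_le_mul_of_nonneg_left b1 ha
  have := mul_le_mul_of_nonneg_left b2 hb
  have := mul_le_mul_of_nonneg_left b3 hc
  linarith

section
variable (hT : G.IsTree) (hk : 2 ≤ k) (hreg : G.IsRegularOfDegree (k + 1)) (h0 : 0 ≤ θ) (h1 : θ < 1)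
  (hν : IsIsing G θ ν)
include hT hk hreg h0 h1 hν

/-- Non-coherence of the sum of the edge potentials along a geodesic. -/
theorem integral_W_sub_sq_le {i : ℕ} (hi : 2 ≤ i) {Ci : ℝ} (hCi : 0 < Ci) (hmom : MomB ν G i Ci)
    {K : ℝ} (hK : 0 < K)
    (hlip : ∀ x y x' y' : ℝ, |x| ≤ 1 → |y| ≤ 1 → |x'| ≤ 1 → |y'| ≤ 1 →
      |vhat θ x y - vhat θ x' y'| ≤ K * (|x| + |y| + |x'| + |y'|) * (|x - x'| + |y - y'|))
    {C : ℝ} (hC : 0 < C) (hncb : NCB ν G C)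
    (γ : ℕ → V) (r : ℕ) (hγ : IsGeo G γ r) (o : V) {n j : ℕ} (ht : 0 < tm n j) (ht4 : tm n j ≤ 4) :
    ∫ q, (∑ l ∈ Finset.range r, vhat θ (mg ν G (γ l) n j q.1) (mg ν G (γ (l + 1)) n j q.1) -
        ∑ l ∈ Finset.range r, vhat θ (mg ν G (γ l) n j q.2) (mg ν G (γ (l + 1)) n j q.2)) ^ 2
          ∂(P2 ν G n j) ≤
      64 * C * r * K ^ 2 * HE ν G Ci i o n j := by
  set f : V → V → TΩ V → ℝ := fun x y a => vhat θ (mg ν G x n j a) (mg ν G y n j a) with hf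
  have hfm : ∀ x y, Measurable (f x y) := fun x y => measurable_vhat_mg x y n j
  obtain ⟨M, hM0, hM⟩ := exists_vhat_le h0 h1
  have hfb : ∀ x y a, |f x y a| ≤ M := by
    intro x y a
    rw [abs_of_nonneg (vhat_nonneg _ _)]
    exact hM _ _
  have hfs : ∀ x y a, G.Adj x y → f x y a = f y x a := fun _ _ _ _ => vhat_comm _ _ _
  have hfe : ∀ (g : G ≃g G) (x y : V) (a : TΩ V), f (g x) (g y) a = f x y (hatg g a) := by
    intro g x y a
    simp only [hf]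
    rw [mg_hatg hT h0 h1 hν g, mg_hatg hT h0 h1 hν g]
  have hfi : ∀ x y, Integrable (f x y) (truthP ν) := fun x y => integrable_of_bdd (hfm x y) M (hfb x y)
  set W : TΩ V → ℝ := ∑ l ∈ Finset.range r, f (γ l) (γ (l + 1)) with hWdef
  have hWa : ∀ a, W a = ∑ l ∈ Finset.range r, f (γ l) (γ (l + 1)) a := fun a => by
    rw [hWdef, Finset.sum_apply]
  have hW : Measurable W := by
    rw [show W = fun a => ∑ l ∈ Finset.range r, f (γ l) (γ (l + 1)) a from funext hWa]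
    exact Finset.measurable_sum _ fun l _ => hfm _ _
  have hWb : ∀ a, |W a| ≤ r * M := by
    intro a
    rw [hWa]
    refine (Finset.abs_sum_le_sum_abs _ _).trans ?_
    refine (Finset.sum_le_sum fun l _ => hfb _ _ a).trans ?_
    simp
  have e0 := integral_P2_sq_sub (ν := ν) (G := G) n j W hW (r * M) hWb
  have hce := condExp_finset_sum (μ := truthP ν) (s := Finset.range r)
    (f := fun l => f (γ l) (γ (l + 1))) (fun l _ => hfi _ _)
    (Gt ν (ballFs G) Prod.fst truthB (tm n j))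
  have e1 : ∫ a, (W a - ((truthP ν)[W | Gt ν (ballFs G) Prod.fst truthB (tm n j)]) a) ^ 2 ∂(truthP ν) =
      ∫ a, (∑ l ∈ Finset.range r, (f (γ l) (γ (l + 1)) a -
        ((truthP ν)[f (γ l) (γ (l + 1)) | Gt ν (ballFs G) Prod.fst truthB (tm n j)]) a)) ^ 2
          ∂(truthP ν) := by
    refine integral_congr_ae ?_
    filter_upwards [hce] with a ha
    rw [ha, hWa, Finset.sum_apply, Finset.sum_sub_distrib]
  obtain ⟨e₁, e₂, hadj⟩ : ∃ e₁ e₂, G.Adj e₁ e₂ := ⟨o, exists_adj_of_reg hreg o⟩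
  have e2 := hncb f M hfm hfb hfs hfe (tm n j) γ r hγ e₁ e₂ hadj
  have e3 := integral_P2_sq_sub (ν := ν) (G := G) n j (f e₁ e₂) (hfm e₁ e₂) M (hfb e₁ e₂)
  have e4 : ∫ q, (f e₁ e₂ q.1 - f e₁ e₂ q.2) ^ 2 ∂(P2 ν G n j) ≤ 64 * K ^ 2 * HE ν G Ci i o n j :=
    integral_vhat_sub_sq_le hT hk hreg h0 h1 hν hi hCi hmom hK hlip e₁ e₂ o ht ht4
  have hWq : ∀ a, (∑ l ∈ Finset.range r, vhat θ (mg ν G (γ l) n j a) (mg ν G (γ (l + 1)) n j a)) = W a :=
    fun a => (hWa a).symm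
  simp only [hWq]
  rw [e0, e1]
  have hCr : 0 ≤ C * (r : ℝ) := by positivity
  have e5 := mul_le_mul_of_nonneg_left (show
    ∫ a, (f e₁ e₂ a - ((truthP ν)[f e₁ e₂ | Gt ν (ballFs G) Prod.fst truthB (tm n j)]) a) ^ 2
      ∂(truthP ν) ≤ (1 / 2) * (64 * K ^ 2 * HE ν G Ci i o n j) by linarith) hCr
  have e6 := e2.trans e5
  calc _ ≤ 2 * (C * (r : ℝ) * ((1 / 2) * (64 * K ^ 2 * HE ν G Ci i o n j))) := by linarith
    _ = _ := by ring

/-- The second moment of the increment of the path potential. -/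
theorem integral_zhat_sub_sq_le {i : ℕ} (hi : 2 ≤ i) {Ci : ℝ} (hCi : 0 < Ci) (hmom : MomB ν G i Ci)
    {K : ℝ} (hK : 0 < K)
    (hlip : ∀ x y x' y' : ℝ, |x| ≤ 1 → |y| ≤ 1 → |x'| ≤ 1 → |y'| ≤ 1 →
      |vhat θ x y - vhat θ x' y'| ≤ K * (|x| + |y| + |x'| + |y'|) * (|x - x'| + |y - y'|))
    {C : ℝ} (hC : 0 < C) (hncb : NCB ν G C)
    (γ : ℕ → V) (r : ℕ) (hγ : IsGeo G γ r) (o : V) {n j : ℕ} (ht : 0 < tm n j) (ht4 : tm n j ≤ 4) :
    ∫ q, (zhat θ (fun l => mg ν G (γ l) n j q.1) r - zhat θ (fun l => mg ν G (γ l) n j q.2) r) ^ 2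
        ∂(P2 ν G n j) ≤
      ((r : ℝ) + 1) * ((24 + 192 * C * K ^ 2) * HE ν G Ci i o n j) := by
  obtain ⟨M, hM0, hM⟩ := exists_vhat_le h0 h1
  have hHE := HE_nonneg (ν := ν) (G := G) hCi.le i o n j
  have hs := fun x => integral_shat_sub_sq_le hT hk hreg h0 h1 hν hi hCi hmom x o ht ht4
  have hw := integral_W_sub_sq_le hT hk hreg h0 h1 hν hi hCi hmom hK hlip hC hncb γ r hγ o ht ht4
  have i1 := integrable_sq_sub (ν := ν) (G := G) (f := fun a => shat (mg ν G (γ 0) n j a))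
    (measurable_shat.comp (measurable_mg (γ 0) n j)) 1 (fun a => abs_shat_le _) n j
  have i2 := integrable_sq_sub (ν := ν) (G := G) (f := fun a => shat (mg ν G (γ r) n j a))
    (measurable_shat.comp (measurable_mg (γ r) n j)) 1 (fun a => abs_shat_le _) n j
  have hWm : Measurable (fun a : TΩ V => ∑ l ∈ Finset.range r,
      vhat θ (mg ν G (γ l) n j a) (mg ν G (γ (l + 1)) n j a)) :=
    Finset.measurable_sum _ fun l _ => measurable_vhat_mg _ _ n j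
  have hWb : ∀ a : TΩ V, |∑ l ∈ Finset.range r,
      vhat θ (mg ν G (γ l) n j a) (mg ν G (γ (l + 1)) n j a)| ≤ r * M := by
    intro a
    refine (Finset.abs_sum_le_sum_abs _ _).trans ?_
    refine (Finset.sum_le_sum (g := fun _ => M) fun l _ => ?_).trans ?_
    · rw [abs_of_nonneg (vhat_nonneg _ _)]
      exact hM _ _
    · simp
  have i3 := integrable_sq_sub (ν := ν) (G := G) hWm (r * M) hWb n j
  have := integral_le_of_3 (μ := P2 ν G n j)
    (Z := fun q => (zhat θ (fun l => mg ν G (γ l) n j q.1) r -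
      zhat θ (fun l => mg ν G (γ l) n j q.2) r) ^ 2)
    (ae_of_all _ fun q => sq_nonneg _)
    (by norm_num : (0 : ℝ) ≤ 3) (by norm_num : (0 : ℝ) ≤ 3) (by norm_num : (0 : ℝ) ≤ 3)
    i1 i2 i3 (hs (γ 0)) (hs (γ r)) hw
    (ae_of_all _ fun q => by
      have e : zhat θ (fun l => mg ν G (γ l) n j q.1) r - zhat θ (fun l => mg ν G (γ l) n j q.2) r =
          (shat (mg ν G (γ 0) n j q.1) - shat (mg ν G (γ 0) n j q.2)) +
          (shat (mg ν G (γ r) n j q.1) - shat (mg ν G (γ r) n j q.2)) +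
          (∑ l ∈ Finset.range r, vhat θ (mg ν G (γ l) n j q.1) (mg ν G (γ (l + 1)) n j q.1) -
            ∑ l ∈ Finset.range r, vhat θ (mg ν G (γ l) n j q.2) (mg ν G (γ (l + 1)) n j q.2)) := by
        unfold zhat
        ring
      simp only [e]
      exact sq_add3 _ _ _)
  refine this.trans ?_
  have hr : (0 : ℝ) ≤ r := Nat.cast_nonneg r
  have hCK : 0 ≤ C * K ^ 2 * HE ν G Ci i o n j := by positivity
  have : 3 * (4 * HE ν G Ci i o n j) + 3 * (4 * HE ν G Ci i o n j) +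
      3 * (64 * C * r * K ^ 2 * HE ν G Ci i o n j) =
      24 * HE ν G Ci i o n j + 192 * r * (C * K ^ 2 * HE ν G Ci i o n j) := by ring
  rw [this]
  have e2 : ((r : ℝ) + 1) * ((24 + 192 * C * K ^ 2) * HE ν G Ci i o n j) =
      (r + 1) * 24 * HE ν G Ci i o n j + (r + 1) * 192 * (C * K ^ 2 * HE ν G Ci i o n j) := by ring
  rw [e2]
  nlinarith

/-- The bound on the conditional variance of a covariance. -/
theorem VVu_le {i : ℕ} (hi : 2 ≤ i) {Ci : ℝ} (hCi : 0 < Ci) (hmom : MomB ν G i Ci)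
    {K : ℝ} (hK : 0 < K)
    (hlip : ∀ x y x' y' : ℝ, |x| ≤ 1 → |y| ≤ 1 → |x'| ≤ 1 → |y'| ≤ 1 →
      |vhat θ x y - vhat θ x' y'| ≤ K * (|x| + |y| + |x'| + |y'|) * (|x - x'| + |y - y'|))
    {C : ℝ} (hC : 0 < C) (hncb : NCB ν G C) (o u : V) {n j : ℕ} (ht : 0 < tm n j) (ht4 : tm n j ≤ 4) :
    VVu ν (ballFs G) (truthP ν) Prod.fst truthB o u n j ≤
      θ ^ (2 * G.dist o u) * ((G.dist o u : ℝ) + 1) *
        ((4 : ℝ) ^ (2 ^ i) * (Ci * Real.sqrt (tm n j) ^ (2 ^ i)) +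
          (24 + 192 * C * K ^ 2) * HE ν G Ci i o n j) := by
  set r := G.dist o u with hr
  set m : TΩ V → ℕ → ℝ := fun a l => mg ν G (gp hT o u l) n j a with hm
  have good : ∀ᵐ a ∂(truthP ν), 4 * CRT ν G o u n j a = pathC θ (m a) r ∧ PathOK θ (m a) r := by
    filter_upwards [ae_CRT_path hT h0 h1 hν o u n j, ae_gE_bounds hT h0 h1 hν n j] with a h1' h2'
    exact ⟨h1', fun l => abs_mg_le _ n j a, fun l hl => h2' _ _ (gp_adj hT o u hl)⟩
  have good2 := ae_P2_of_ae (ν := ν) (G := G) n j good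
  set S : TΩ V → ℝ := fun a => ∑ l ∈ Finset.range (r + 1), (4 : ℝ) ^ (2 ^ i) * m a l ^ (2 * 2 ^ i)
    with hS
  have hmem : ∀ l, Measurable (fun a : TΩ V => (4 : ℝ) ^ (2 ^ i) * m a l ^ (2 * 2 ^ i)) := fun l =>
    ((measurable_mg _ n j).pow_const _).const_mul _
  have hSm : Measurable S := Finset.measurable_sum _ fun l _ => hmem l
  have htermb : ∀ l a, |(4 : ℝ) ^ (2 ^ i) * m a l ^ (2 * 2 ^ i)| ≤ (4 : ℝ) ^ (2 ^ i) := by
    intro l a
    rw [abs_mul, abs_of_nonneg (by positivity : (0 : ℝ) ≤ 4 ^ (2 ^ i)), abs_pow]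
    have h3 : |m a l| ^ (2 * 2 ^ i) ≤ 1 := pow_le_one₀ (abs_nonneg _) (abs_mg_le _ n j a)
    have h4 : (0 : ℝ) ≤ 4 ^ (2 ^ i) := by positivity
    nlinarith
  have hSb : ∀ a, |S a| ≤ ((r : ℝ) + 1) * (4 : ℝ) ^ (2 ^ i) := by
    intro a
    refine (Finset.abs_sum_le_sum_abs _ _).trans ?_
    refine (Finset.sum_le_sum fun l _ => htermb l a).trans ?_
    simp
  have hSi : Integrable S (truthP ν) := integrable_of_bdd hSm _ hSb
  have hS_int : ∫ a, S a ∂(truthP ν) ≤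
      ((r : ℝ) + 1) * ((4 : ℝ) ^ (2 ^ i) * (Ci * Real.sqrt (tm n j) ^ (2 ^ i))) := by
    rw [hS, integral_finset_sum _ fun l _ => integrable_of_bdd (hmem l) _ (htermb l)]
    refine (Finset.sum_le_sum (g := fun _ => (4 : ℝ) ^ (2 ^ i) * (Ci * Real.sqrt (tm n j) ^ (2 ^ i)))
      fun l _ => ?_).trans ?_
    · rw [integral_const_mul]
      exact mul_le_mul_of_nonneg_left (hmom _ n j ht ht4) (by positivity)
    · simp
  have hS1 : ∫ q, S q.1 ∂(P2 ν G n j) ≤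
      ((r : ℝ) + 1) * ((4 : ℝ) ^ (2 ^ i) * (Ci * Real.sqrt (tm n j) ^ (2 ^ i))) := by
    rw [integral_P2_fst n j hSm]
    exact hS_int
  have hS2 : ∫ q, S q.2 ∂(P2 ν G n j) ≤
      ((r : ℝ) + 1) * ((4 : ℝ) ^ (2 ^ i) * (Ci * Real.sqrt (tm n j) ^ (2 ^ i))) := by
    rw [integral_P2_snd n j hSm]
    exact hS_int
  have hZ := integral_zhat_sub_sq_le hT hk hreg h0 h1 hν hi hCi hmom hK hlip hC hncb (gp hT o u) r
    (isGeo_gp hT o u) o ht ht4
  obtain ⟨M, hM0, hM⟩ := exists_vhat_le h0 h1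
  have i1 : Integrable (fun q : TΩ V × TΩ V => S q.1) (P2 ν G n j) :=
    integrable_of_bdd (hSm.comp measurable_fst) _ fun q => hSb q.1
  have i3 : Integrable (fun q : TΩ V × TΩ V => S q.2) (P2 ν G n j) :=
    integrable_of_bdd (hSm.comp measurable_snd) _ fun q => hSb q.2
  have i2 := integrable_sq_sub (ν := ν) (G := G)
    (f := fun a => zhat θ (fun l => mg ν G (gp hT o u l) n j a) r)
    (measurable_zhat_mg (gp hT o u) r n j) (2 + r * M)
    (fun a => abs_zhat_le hM0 hM _ r) n j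
  have hθ : 0 ≤ θ ^ (2 * r) := pow_nonneg h0 _
  have main := integral_le_of_3 (μ := P2 ν G n j)
    (Z := fun q => (CRT ν G o u n j q.1 - CRT ν G o u n j q.2) ^ 2)
    (ae_of_all _ fun q => sq_nonneg _)
    (a := θ ^ (2 * r) * (3 / 4)) (b := θ ^ (2 * r) * (3 / 16)) (c := θ ^ (2 * r) * (3 / 4))
    (by positivity) (by positivity) (by positivity)
    i1 i2 i3 hS1 hZ hS2
    (by
      filter_upwards [good2] with q hq
      obtain ⟨⟨g1, ok1⟩, ⟨g2, ok2⟩⟩ := hq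
      have e : (CRT ν G o u n j q.1 - CRT ν G o u n j q.2) ^ 2 =
          (1 / 16) * (pathC θ (m q.1) r - pathC θ (m q.2) r) ^ 2 := by
        rw [← g1, ← g2]
        ring
      have h3 := sq_split3 (pathC θ (m q.1) r) (pathC θ (m q.2) r) (ftil θ (m q.1) r)
        (ftil θ (m q.2) r)
      have h4 := pathC_sub_ftil_sq_le h0 h1 (m q.1) r ok1 (2 ^ i)
      have h5 := ftil_sub_sq_le h0 (m q.1) (m q.2) r
      have h6 := pathC_sub_ftil_sq_le h0 h1 (m q.2) r ok2 (2 ^ i)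
      have h7 : (ftil θ (m q.2) r - pathC θ (m q.2) r) ^ 2 =
          (pathC θ (m q.2) r - ftil θ (m q.2) r) ^ 2 := by ring
      show (CRT ν G o u n j q.1 - CRT ν G o u n j q.2) ^ 2 ≤ θ ^ (2 * r) * (3 / 4) * S q.1 +
        θ ^ (2 * r) * (3 / 16) * (zhat θ (m q.1) r - zhat θ (m q.2) r) ^ 2 +
        θ ^ (2 * r) * (3 / 4) * S q.2
      rw [e]
      rw [h7] at h3
      have h8 : S q.1 = ∑ l ∈ Finset.range (r + 1), (4 : ℝ) ^ (2 ^ i) * m q.1 l ^ (2 * 2 ^ i) := rfl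
      have h9 : S q.2 = ∑ l ∈ Finset.range (r + 1), (4 : ℝ) ^ (2 ^ i) * m q.2 l ^ (2 * 2 ^ i) := rfl
      rw [← h8] at h4
      rw [← h9] at h6
      linarith)
  rw [VVu_eq_P2]
  set Q1 := (4 : ℝ) ^ (2 ^ i) * (Ci * Real.sqrt (tm n j) ^ (2 ^ i)) with hQ1
  set Q2 := (24 + 192 * C * K ^ 2) * HE ν G Ci i o n j with hQ2
  have hQ1n : 0 ≤ Q1 := by
    have := Real.sqrt_nonneg (tm n j)
    positivity
  have hQ2n : 0 ≤ Q2 := by
    have := HE_nonneg (ν := ν) (G := G) hCi.le i o n j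
    positivity
  have hr1 : (0 : ℝ) ≤ (r : ℝ) + 1 := by positivity
  have h10 : 0 ≤ θ ^ (2 * r) * ((r : ℝ) + 1) := by positivity
  have e1 : (1 / 2) * (θ ^ (2 * r) * (3 / 4) * (((r : ℝ) + 1) * Q1) +
      θ ^ (2 * r) * (3 / 16) * (((r : ℝ) + 1) * Q2) + θ ^ (2 * r) * (3 / 4) * (((r : ℝ) + 1) * Q1)) =
      θ ^ (2 * r) * ((r : ℝ) + 1) * ((3 / 4) * Q1 + (3 / 32) * Q2) := by ring
  have e2 : θ ^ (2 * r) * ((r : ℝ) + 1) * ((3 / 4) * Q1 + (3 / 32) * Q2) ≤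
      θ ^ (2 * r) * ((r : ℝ) + 1) * (Q1 + Q2) :=
    mul_le_mul_of_nonneg_left (by linarith) h10
  linarith

end

/-- The conditional variance of a covariance is bounded by its second moment. -/
theorem VVu_le_tail (o u : V) (n j : ℕ) :
    VVu ν (ballFs G) (truthP ν) Prod.fst truthB o u n j ≤
      2 * ∫ a, CRT ν G o u n j a ^ 2 ∂(truthP ν) := by
  have hm : Measurable (CRT ν G o u n j) := measurable_CRt (truth_spec ν) o u n j
  have hb : ∀ a, |CRT ν G o u n j a| ≤ 1 := fun a => abs_CRt_le o u n j a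
  have hb2 : ∀ a, |CRT ν G o u n j a ^ 2| ≤ 1 := fun a => by
    rw [abs_pow]
    exact pow_le_one₀ (abs_nonneg _) (hb a)
  have hi : Integrable (fun a => CRT ν G o u n j a ^ 2) (truthP ν) :=
    integrable_of_bdd (hm.pow_const 2) 1 hb2
  have i1 : Integrable (fun q : TΩ V × TΩ V => CRT ν G o u n j q.1 ^ 2) (P2 ν G n j) :=
    integrable_of_bdd ((hm.comp measurable_fst).pow_const 2) 1 fun q => hb2 q.1
  have i2 : Integrable (fun q : TΩ V × TΩ V => CRT ν G o u n j q.2 ^ 2) (P2 ν G n j) :=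
    integrable_of_bdd ((hm.comp measurable_snd).pow_const 2) 1 fun q => hb2 q.2
  have e1 := integral_P2_fst (ν := ν) (G := G) n j (hm.pow_const 2)
  have e2 := integral_P2_snd (ν := ν) (G := G) n j (hm.pow_const 2)
  have := integral_le_of_2 (μ := P2 ν G n j) (fun q => sq_nonneg _) (by norm_num : (0 : ℝ) ≤ 2)
    i1 i2 e1.le e2.le
    (Z := fun q => (CRT ν G o u n j q.1 - CRT ν G o u n j q.2) ^ 2)
    (fun q => by nlinarith [sq_nonneg (CRT ν G o u n j q.1 + CRT ν G o u n j q.2)])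
  rw [VVu_eq_P2]
  linarith

end SA
end Crest.Agent.Lib.IT
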