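/-
Summation over spheres and the real-variable estimates for the a priori bound at small times
(statement S0241).
-/
import Crest.Agent.Lib.IT.StepA2

set_option autoImplicit false

namespace Crest.Agent.Lib.IT
namespace SA

open MeasureTheory ProbabilityTheory SimpleGraph Filter Topology
open scoped ENNReal NNReal
open Crest.Agent.Lib.Loc

variable {V : Type*} {G : SimpleGraph V} [G.LocallyFinite] {k : ℕ} {θ : ℝ}

lemma card_sphere_mul_le (hT : G.IsTree) (hk : 2 ≤ k) (hreg : G.IsRegularOfDegree (k + 1))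
    (h0 : 0 ≤ θ) (hkθ : (k : ℝ) * θ ^ 2 ≤ 1) (r : ℕ) (o : V) :
    ((sphereF G r o).card : ℝ) * θ ^ (2 * r) ≤ 2 := by
  cases r with
  | zero =>
    simp [sphereF]
  | succ r =>
    rw [sphereF_card hT k hreg r o]
    push_cast
    have hk2 : (2 : ℝ) ≤ k := by exact_mod_cast hk
    have e : ((k : ℝ) + 1) * (k : ℝ) ^ r * θ ^ (2 * (r + 1)) =
        ((k : ℝ) + 1) * θ ^ 2 * ((k : ℝ) * θ ^ 2) ^ r := by
      rw [mul_pow, ← pow_mul, show 2 * (r + 1) = 2 + 2 * r by ring, pow_add]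
      ring
    rw [e]
    have h3 : ((k : ℝ) * θ ^ 2) ^ r ≤ 1 := pow_le_one₀ (by positivity) hkθ
    have h4 : ((k : ℝ) + 1) * θ ^ 2 ≤ 2 := by nlinarith [sq_nonneg θ]
    have h5 : 0 ≤ ((k : ℝ) * θ ^ 2) ^ r := by positivity
    have h6 : 0 ≤ ((k : ℝ) + 1) * θ ^ 2 := by positivity
    nlinarith

lemma sum_ball_eq (hT : G.IsTree) (h : V → ℝ) (R : ℕ) (o : V) :
    ∑ u ∈ ballF G R o, h u = ∑ r ∈ Finset.range (R + 1), ∑ u ∈ sphereF G r o, h u := by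
  classical
  rw [← Finset.sum_fiberwise_of_maps_to (s := ballF G R o) (t := Finset.range (R + 1))
    (g := fun u => G.dist o u)
    (fun u hu => Finset.mem_range.2 (Nat.lt_succ_of_le ((mem_ballF hT).1 hu)))]
  refine Finset.sum_congr rfl fun r hr => ?_
  refine Finset.sum_congr ?_ fun _ _ => rfl
  ext x
  simp only [Finset.mem_filter, mem_ballF hT, mem_sphereF hT]
  constructor
  · exact fun h => h.2
  · intro h
    refine ⟨?_, h⟩
    have := Finset.mem_range.1 hr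
    omega

lemma sum_split_le {S : ℕ → ℝ} {Q β : ℝ} (hS0 : ∀ r, 0 ≤ S r) (hQ : 0 ≤ Q) (hβ0 : 0 ≤ β)
    (hβ1 : β < 1) (h1 : ∀ r, S r ≤ 2 * ((r : ℝ) + 1) * Q) (h2 : ∀ r, S (r + 1) ≤ β ^ r)
    (R R₀ : ℕ) :
    ∑ r ∈ Finset.range (R + 1), S r ≤ 2 * ((R₀ : ℝ) + 1) ^ 2 * Q + β ^ R₀ / (1 - β) := by
  have key : ∀ m, ∑ r ∈ Finset.range (R₀ + 1 + m), S r ≤
      2 * ((R₀ : ℝ) + 1) ^ 2 * Q + β ^ R₀ * ∑ l ∈ Finset.range m, β ^ l := by
    intro m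
    induction m with
    | zero =>
      simp only [add_zero, Finset.range_zero, Finset.sum_empty, mul_zero]
      refine (Finset.sum_le_sum (g := fun _ => 2 * ((R₀ : ℝ) + 1) * Q) fun r hr => ?_).trans ?_
      · refine (h1 r).trans ?_
        have h3 : (r : ℝ) ≤ R₀ := by
          have := Finset.mem_range.1 hr
          exact_mod_cast Nat.lt_succ_iff.1 this
        have h4 : 2 * ((r : ℝ) + 1) ≤ 2 * ((R₀ : ℝ) + 1) := by linarith
        exact mul_le_mul_of_nonneg_right h4 hQ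
      · rw [Finset.sum_const, Finset.card_range, nsmul_eq_mul]
        apply le_of_eq
        push_cast
        ring
    | succ m ih =>
      rw [← add_assoc, Finset.sum_range_succ, Finset.sum_range_succ]
      have h3 := h2 (R₀ + m)
      rw [show R₀ + m + 1 = R₀ + 1 + m by omega, pow_add] at h3
      rw [mul_add]
      linarith
  have hg : ∀ m, ∑ l ∈ Finset.range m, β ^ l ≤ 1 / (1 - β) := by
    intro m
    rw [le_div_iff₀ (by linarith)]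
    have h3 := geom_sum_mul_neg β m
    rw [h3]
    have := pow_nonneg hβ0 m
    linarith
  have h3 : ∑ r ∈ Finset.range (R + 1), S r ≤ ∑ r ∈ Finset.range (R₀ + 1 + (R + 1)), S r := by
    refine Finset.sum_le_sum_of_subset_of_nonneg ?_ fun r _ _ => hS0 r
    intro r hr
    simp only [Finset.mem_range] at hr ⊢
    omega
  refine h3.trans ((key (R + 1)).trans ?_)
  have h4 := mul_le_mul_of_nonneg_left (hg (R + 1)) (pow_nonneg hβ0 R₀)
  have e : β ^ R₀ * (1 / (1 - β)) = β ^ R₀ / (1 - β) := by ring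
  rw [e] at h4
  linarith

lemma exists_R0 {t c₀ : ℝ} (ht0 : 0 < t) (ht1 : t ≤ 1) (hc0 : 0 < c₀) (hc1 : c₀ ≤ 1) (p : ℕ) :
    ∃ R₀ : ℕ, (1 - c₀ * Real.sqrt t / 2) ^ R₀ ≤ t ^ p ∧
      ((R₀ : ℝ) + 1) ^ 2 ≤ (16 * p / c₀ + 2) ^ 2 * t ^ (-(5 / 4) : ℝ) := by
  have hs0 : 0 < Real.sqrt t := Real.sqrt_pos.2 ht0
  have hs1 : Real.sqrt t ≤ 1 := by
    rw [← Real.sqrt_one]
    exact Real.sqrt_le_sqrt ht1
  set b := c₀ * Real.sqrt t / 2 with hb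
  have hb0 : 0 < b := by positivity
  have hb1 : b ≤ 1 / 2 := by
    have : c₀ * Real.sqrt t ≤ 1 * 1 := mul_le_mul hc1 hs1 hs0.le (by norm_num)
    rw [hb]
    linarith
  set L := Real.log (1 / t) with hL
  have hL0 : 0 ≤ L := Real.log_nonneg (by rw [le_div_iff₀ ht0]; linarith)
  set x := (p : ℝ) / b * L with hx
  have hx0 : 0 ≤ x := by positivity
  refine ⟨⌈x⌉₊, ?_, ?_⟩
  · have h1 : 1 - b ≤ Real.exp (-b) := Real.one_sub_le_exp_neg b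
    have h2 : (1 - b) ^ ⌈x⌉₊ ≤ Real.exp (-b) ^ ⌈x⌉₊ :=
      pow_le_pow_left₀ (by linarith) h1 _
    refine h2.trans ?_
    rw [← Real.exp_nat_mul]
    have h3 : x ≤ ⌈x⌉₊ := Nat.le_ceil x
    have h4 : b * x = p * L := by
      rw [hx]
      field_simp
    have h5 : L = -Real.log t := by
      rw [hL, one_div, Real.log_inv]
    have h6 : t ^ p = Real.exp (p * Real.log t) := by
      rw [Real.exp_nat_mul, Real.exp_log ht0]
    rw [h6]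
    refine Real.exp_le_exp.2 ?_
    have h7 : b * x ≤ b * ⌈x⌉₊ := mul_le_mul_of_nonneg_left h3 hb0.le
    rw [h4, h5] at h7
    nlinarith
  · have h1 : (⌈x⌉₊ : ℝ) < x + 1 := Nat.ceil_lt_add_one hx0
    have hT8 : L ≤ 8 * t ^ (-(1 / 8) : ℝ) := by
      have h2 := Real.log_le_rpow_div (x := 1 / t) (by positivity) (by norm_num : (0 : ℝ) < 1 / 8)
      have e : (1 / t) ^ (1 / 8 : ℝ) = t ^ (-(1 / 8) : ℝ) := by
        rw [one_div, Real.inv_rpow ht0.le, Real.rpow_neg ht0.le]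
      rw [e] at h2
      calc L ≤ t ^ (-(1 / 8) : ℝ) / (1 / 8) := h2
        _ = 8 * t ^ (-(1 / 8) : ℝ) := by ring
    have hinv : 1 / Real.sqrt t = t ^ (-(1 / 2) : ℝ) := by
      rw [Real.sqrt_eq_rpow, Real.rpow_neg ht0.le, one_div]
    have h58 : t ^ (-(1 / 2) : ℝ) * t ^ (-(1 / 8) : ℝ) = t ^ (-(5 / 8) : ℝ) := by
      rw [← Real.rpow_add ht0]
      norm_num
    have hge : 1 ≤ t ^ (-(5 / 8) : ℝ) :=
      Real.one_le_rpow_of_pos_of_le_one_of_nonpos ht0 ht1 (by norm_num)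
    have hxle : x ≤ 16 * p / c₀ * t ^ (-(5 / 8) : ℝ) := by
      have e1 : (p : ℝ) / b = 2 * p / c₀ * (1 / Real.sqrt t) := by
        rw [hb]
        field_simp
      rw [hx, e1, hinv, ← h58]
      have h3 : 0 ≤ 2 * (p : ℝ) / c₀ * t ^ (-(1 / 2) : ℝ) := by positivity
      have := mul_le_mul_of_nonneg_left hT8 h3
      refine this.trans (le_of_eq ?_)
      ring
    have hp0 : 0 ≤ 16 * (p : ℝ) / c₀ := by positivity
    have h2 : (⌈x⌉₊ : ℝ) + 1 ≤ (16 * p / c₀ + 2) * t ^ (-(5 / 8) : ℝ) := by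
      have : 2 ≤ 2 * t ^ (-(5 / 8) : ℝ) := by linarith
      have e : (16 * (p : ℝ) / c₀ + 2) * t ^ (-(5 / 8) : ℝ) =
          16 * p / c₀ * t ^ (-(5 / 8) : ℝ) + 2 * t ^ (-(5 / 8) : ℝ) := by ring
      rw [e]
      linarith
    have h3 := pow_le_pow_left₀ (by positivity) h2 2
    refine h3.trans (le_of_eq ?_)
    rw [mul_pow, ← Real.rpow_natCast (t ^ (-(5 / 8) : ℝ)), ← Real.rpow_mul ht0.le]
    norm_num

lemma final_arith {t c₀ Ds A Q CH : ℝ} (p : ℕ) (hp : 4 ≤ p) (ht0 : 0 < t) (ht1 : t ≤ 1)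
    (hc0 : 0 < c₀) (hDs : 0 ≤ Ds) (hA : 0 ≤ A) (hQ : 0 ≤ Q) (hCH : 0 ≤ CH) {R₀ : ℕ}
    (h1 : (1 - c₀ * Real.sqrt t / 2) ^ R₀ ≤ t ^ p)
    (h2 : ((R₀ : ℝ) + 1) ^ 2 ≤ A * t ^ (-(5 / 4) : ℝ)) :
    2 * ((R₀ : ℝ) + 1) ^ 2 * (Q * Real.sqrt t ^ p + CH * (Real.sqrt t * Ds)) +
        (1 - c₀ * Real.sqrt t / 2) ^ R₀ / (1 - (1 - c₀ * Real.sqrt t / 2)) ≤
      (2 * A * CH + 2 * A * Q + 2 / c₀) * (t ^ (-(3 / 4) : ℝ) * Ds + t ^ ((p : ℝ) / 2 - 2)) := by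
  have hpR : (4 : ℝ) ≤ p := by exact_mod_cast hp
  have hs0 : 0 < Real.sqrt t := Real.sqrt_pos.2 ht0
  have e_s : Real.sqrt t = t ^ (1 / 2 : ℝ) := Real.sqrt_eq_rpow t
  have e_sp : Real.sqrt t ^ p = t ^ ((p : ℝ) / 2) := by
    rw [e_s, ← Real.rpow_natCast, ← Real.rpow_mul ht0.le]
    congr 1
    ring
  have a1 : t ^ (-(5 / 4) : ℝ) * Real.sqrt t = t ^ (-(3 / 4) : ℝ) := by
    rw [e_s, ← Real.rpow_add ht0]
    norm_num
  have a2 : t ^ (-(5 / 4) : ℝ) * Real.sqrt t ^ p ≤ t ^ ((p : ℝ) / 2 - 2) := by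
    rw [e_sp, ← Real.rpow_add ht0]
    exact Real.rpow_le_rpow_of_exponent_ge ht0 ht1 (by linarith)
  have a3 : (1 - c₀ * Real.sqrt t / 2) ^ R₀ / (1 - (1 - c₀ * Real.sqrt t / 2)) ≤
      2 / c₀ * t ^ ((p : ℝ) / 2 - 2) := by
    have e : 1 - (1 - c₀ * Real.sqrt t / 2) = c₀ * Real.sqrt t / 2 := by ring
    rw [e]
    have h3 : t ^ p / (c₀ * Real.sqrt t / 2) = 2 / c₀ * t ^ ((p : ℝ) - 1 / 2) := by
      have : t ^ ((p : ℝ) - 1 / 2) = t ^ p / Real.sqrt t := by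
        rw [Real.rpow_sub ht0, Real.rpow_natCast, ← e_s]
      rw [this]
      field_simp
    have h4 : (1 - c₀ * Real.sqrt t / 2) ^ R₀ / (c₀ * Real.sqrt t / 2) ≤
        t ^ p / (c₀ * Real.sqrt t / 2) :=
      div_le_div_of_nonneg_right h1 (by positivity)
    refine h4.trans ?_
    rw [h3]
    refine mul_le_mul_of_nonneg_left ?_ (by positivity)
    exact Real.rpow_le_rpow_of_exponent_ge ht0 ht1 (by linarith)
  have hnn : 0 ≤ Q * Real.sqrt t ^ p + CH * (Real.sqrt t * Ds) := by positivity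
  have h3 : 2 * ((R₀ : ℝ) + 1) ^ 2 * (Q * Real.sqrt t ^ p + CH * (Real.sqrt t * Ds)) ≤
      2 * (A * t ^ (-(5 / 4) : ℝ)) * (Q * Real.sqrt t ^ p + CH * (Real.sqrt t * Ds)) :=
    mul_le_mul_of_nonneg_right (by linarith) hnn
  have e : 2 * (A * t ^ (-(5 / 4) : ℝ)) * (Q * Real.sqrt t ^ p + CH * (Real.sqrt t * Ds)) =
      2 * A * Q * (t ^ (-(5 / 4) : ℝ) * Real.sqrt t ^ p) +
      2 * A * CH * Ds * (t ^ (-(5 / 4) : ℝ) * Real.sqrt t) := by ring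
  rw [e, a1] at h3
  have h4 : 2 * A * Q * (t ^ (-(5 / 4) : ℝ) * Real.sqrt t ^ p) ≤
      2 * A * Q * t ^ ((p : ℝ) / 2 - 2) :=
    mul_le_mul_of_nonneg_left a2 (by positivity)
  have hb1 : 0 ≤ t ^ (-(3 / 4) : ℝ) * Ds := by positivity
  have hb2 : 0 ≤ t ^ ((p : ℝ) / 2 - 2) := by positivity
  have hc : 0 ≤ 2 / c₀ := by positivity
  have e2 : (2 * A * CH + 2 * A * Q + 2 / c₀) * (t ^ (-(3 / 4) : ℝ) * Ds + t ^ ((p : ℝ) / 2 - 2)) =
      2 * A * CH * (t ^ (-(3 / 4) : ℝ) * Ds) + 2 * A * CH * t ^ ((p : ℝ) / 2 - 2) +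
      2 * A * Q * (t ^ (-(3 / 4) : ℝ) * Ds) + 2 * A * Q * t ^ ((p : ℝ) / 2 - 2) +
      2 / c₀ * (t ^ (-(3 / 4) : ℝ) * Ds) + 2 / c₀ * t ^ ((p : ℝ) / 2 - 2) := by ring
  rw [e2]
  have t1 : 0 ≤ 2 * A * CH * t ^ ((p : ℝ) / 2 - 2) := by positivity
  have t2 : 0 ≤ 2 * A * Q * (t ^ (-(3 / 4) : ℝ) * Ds) := by positivity
  have t3 : 0 ≤ 2 / c₀ * (t ^ (-(3 / 4) : ℝ) * Ds) := by positivity
  have e3 : 2 * A * CH * Ds * t ^ (-(3 / 4) : ℝ) = 2 * A * CH * (t ^ (-(3 / 4) : ℝ) * Ds) := by ring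
  linarith

end SA
end Crest.Agent.Lib.IT
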