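/-
The Green function of the edge weights and its exponential moments (statement S0241).
-/
import Crest.Agent.Lib.IT.LinkPath
import Crest.Agent.Lib.IT.PlantedC

set_option autoImplicit false

namespace Crest.Agent.Lib.IT

open MeasureTheory ProbabilityTheory SimpleGraph Filter Topology
open scoped ENNReal NNReal
open Crest.Agent.Lib.Loc

variable {V : Type*} {G : SimpleGraph V} [G.LocallyFinite] {k : ℕ} {θ : ℝ} [Countable V]
  {ν : Measure (V → Bool)} [IsProbabilityMeasure ν]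

/-- The Green function below a directed edge, truncated at depth `ℓ`, with edge weights `w`. -/
noncomputable def GrT (G : SimpleGraph V) [G.LocallyFinite] (θ : ℝ) (w : V → V → ℝ) :
    ℕ → V → V → ℝ
  | 0, _, _ => 1
  | ℓ + 1, c, p => 1 + θ ^ 2 * ∑ c' ∈ kids G c p, w c c' * GrT G θ w ℓ c' c

open Classical in
/-- The Green function at a vertex; the edges at the root do not carry a weight. -/
noncomputable def GrG (G : SimpleGraph V) [G.LocallyFinite] (θ : ℝ) (w : V → V → ℝ) (ℓ : ℕ) (o : V) : ℝ :=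
  1 + θ ^ 2 * ∑ c ∈ G.neighborFinset o, GrT G θ w ℓ c o

/-- The random edge weights. -/
noncomputable def geW (θ : ℝ) (ν : Measure (V → Bool)) (G : SimpleGraph V) [G.LocallyFinite]
    (n j : ℕ) (a : TΩ V) (x y : V) : ℝ :=
  gE θ (mg ν G x n j a) (mg ν G y n j a)

section
variable (hT : G.IsTree) (hk : 2 ≤ k) (hreg : G.IsRegularOfDegree (k + 1)) (h0 : 0 ≤ θ) (h1 : θ < 1)
  (hkθ : (k : ℝ) * θ ^ 2 ≤ 1) (hν : IsIsing G θ ν)

/-- Truncated edge weights at depth `N`. -/
noncomputable def lg_geN (θ : ℝ) (ν : Measure (V → Bool)) (G : SimpleGraph V) [G.LocallyFinite]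
    (N n j : ℕ) (a : TΩ V) (x y : V) : ℝ :=
  gE θ (MM ν (ballF G (N + 1) x) x (tm n j) (Yt n j a))
    (MM ν (ballF G (N + 1) x) y (tm n j) (Yt n j a))

omit [Countable V] [IsProbabilityMeasure ν] in
include h0 h1 in
lemma lg_geN_nonneg (N n j : ℕ) (a : TΩ V) (x y : V) : 0 ≤ lg_geN θ ν G N n j a x y :=
  gE_nonneg h0 h1 (abs_MM_le ν _ _ _ _) (abs_MM_le ν _ _ _ _)

omit [Countable V] in
/-- `GrT` is at least one. -/
lemma lg_one_le_GrT {w : V → V → ℝ} (hw : ∀ x y, 0 ≤ w x y) (ℓ : ℕ) (c p : V) :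
    1 ≤ GrT G θ w ℓ c p := by
  induction ℓ generalizing c p with
  | zero => simp [GrT]
  | succ ℓ ih =>
    simp only [GrT]
    have : 0 ≤ θ ^ 2 * ∑ c' ∈ kids G c p, w c c' * GrT G θ w ℓ c' c := by
      apply mul_nonneg (by positivity)
      apply Finset.sum_nonneg
      intro c' _
      exact mul_nonneg (hw _ _) (by linarith [ih c' c])
    linarith

lemma lg_sq_sg (b : Bool) : sg b ^ 2 = 1 := by cases b <;> simp [sg]

lemma lg_PhiF_sg (θ : ℝ) (b : Bool) (m : ℝ) : PhiF θ (sg b * m) = PhiF θ m := by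
  unfold PhiF
  rw [mul_pow, lg_sq_sg, one_mul]

include hT h0 h1 hν in
/-- The pointwise bound of the truncated weights by the messages. -/
lemma lg_geN_le (S : ChSys G k) {x y : V} (hxy : G.Adj x y) (N n j : ℕ) (a : TΩ V) :
    lg_geN θ ν G N n j a x y ≤
      Real.sqrt (PhiF θ (msg θ N (Dmap S a.1 (zOf n j a) y x))) := by
  classical
  set t := tm n j with ht
  set v := Yt n j a with hv
  have H := cutH_ball h0 h1 hT hν hxy N
  have hU := ballF_eq_union h0 h1 hT hν hxy N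
  have hl := MM_cut_left h0 h1 hT hν t v H
  have hr := MM_cut_right h0 h1 hT hν t v H
  rw [← hU] at hl hr
  set A := MM ν (subT G (N + 1) x y) x t v with hA
  set B := MM ν (subT G N y x) y t v with hB
  have hA1 : |A| ≤ 1 := abs_MM_le ν _ _ _ _
  have hB1 : |B| ≤ 1 := abs_MM_le ν _ _ _ _
  have hsq := gE_sq_pair h0 h1 hA1 hB1
  have hBmsg : B = sg (a.1 y) * msg θ N (Dmap S a.1 (zOf n j a) y x) :=
    MM_subT_eq_msg hT h0 h1 hν S hxy.symm N n j a
  have hPhiA0 := PhiF_nonneg h0 h1 hA1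
  have hPhiA1 := PhiF_le_one h0 h1 hA1
  have hPhiB0 := PhiF_nonneg h0 h1 hB1
  have hg : lg_geN θ ν G N n j a x y = gE θ (mob A (θ * B)) (mob B (θ * A)) := by
    unfold lg_geN
    rw [← ht, ← hv, hl, hr]
  rw [hg, ← lg_PhiF_sg θ (a.1 y), ← hBmsg]
  apply (le_abs_self _).trans
  apply Real.abs_le_sqrt
  rw [hsq]
  nlinarith

omit [Countable V] [IsProbabilityMeasure ν] in
/-- The children, through the system of children. -/
lemma lg_sum_kids (S : ChSys G k) {c p : V} (hcp : G.Adj c p) (f : V → ℝ) :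
    ∑ c' ∈ kids G c p, f c' = ∑ i : Fin k, f (S.ch c p i) := by
  classical
  have : kids G c p = Finset.univ.image (S.ch c p) := by
    ext x
    simp only [Finset.mem_image, Finset.mem_univ, true_and]
    constructor
    · intro hx
      exact S.surj hcp hx
    · rintro ⟨i, rfl⟩
      exact S.mem hcp i
  rw [this, Finset.sum_image (fun i _ i' _ h => S.inj hcp h)]

include hT h0 h1 hν in
/-- The Green function with truncated weights is bounded by the fixed-depth planted one. -/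
lemma lg_GrT_le (S : ChSys G k) (N n j : ℕ) (a : TΩ V) (ℓ : ℕ) {c p : V} (hcp : G.Adj c p) :
    GrT G θ (lg_geN θ ν G N n j a) ℓ c p ≤ Tg θ N ℓ (Dmap S a.1 (zOf n j a) c p) := by
  induction ℓ generalizing c p with
  | zero => simp [GrT, Tg]
  | succ ℓ ih =>
    simp only [GrT, Tg]
    rw [lg_sum_kids S hcp]
    have hm : θ ^ 2 * ∑ i : Fin k, lg_geN θ ν G N n j a c (S.ch c p i) *
          GrT G θ (lg_geN θ ν G N n j a) ℓ (S.ch c p i) c ≤
        θ ^ 2 * ∑ i : Fin k, Real.sqrt (PhiF θ (msg θ N (shiftD i (Dmap S a.1 (zOf n j a) c p)))) *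
          Tg θ N ℓ (shiftD i (Dmap S a.1 (zOf n j a) c p)) := by
      apply mul_le_mul_of_nonneg_left _ (by positivity)
      apply Finset.sum_le_sum
      intro i _
      rw [shiftD_Dmap]
      have hadj : G.Adj c (S.ch c p i) := S.ch_adj hcp i
      apply mul_le_mul (lg_geN_le hT h0 h1 hν S hadj N n j a) (ih hadj.symm)
      · linarith [lg_one_le_GrT (θ := θ) (G := G) (lg_geN_nonneg (G := G) (ν := ν) h0 h1 N n j a) ℓ (S.ch c p i) c]
      · exact Real.sqrt_nonneg _
    linarith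

omit [IsProbabilityMeasure ν] [Countable V] in
open Classical in
include hT h0 h1 hν in
lemma lg_GrG_le [Countable V] [IsProbabilityMeasure ν] (S : ChSys G k) (N n j : ℕ) (a : TΩ V) (ℓ : ℕ) (o : V) :
    GrG G θ (lg_geN θ ν G N n j a) ℓ o ≤
      1 + θ ^ 2 * ∑ c ∈ G.neighborFinset o, Tg θ N ℓ (Dmap S a.1 (zOf n j a) c o) := by
  unfold GrG
  have : ∑ c ∈ G.neighborFinset o, GrT G θ (lg_geN θ ν G N n j a) ℓ c o ≤
      ∑ c ∈ G.neighborFinset o, Tg θ N ℓ (Dmap S a.1 (zOf n j a) c o) := by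
    apply Finset.sum_le_sum
    intro c hc
    exact lg_GrT_le hT h0 h1 hν S N n j a ℓ ((mem_neighborFinset _ _ _).1 hc).symm
  nlinarith [sq_nonneg θ]

/-! ### Continuity and measurability -/

omit [Countable V] in
lemma lg_tendsto_GrT {w : ℕ → V → V → ℝ} {w₀ : V → V → ℝ}
    (hw : ∀ x y, Tendsto (fun N => w N x y) atTop (𝓝 (w₀ x y))) (ℓ : ℕ) (c p : V) :
    Tendsto (fun N => GrT G θ (w N) ℓ c p) atTop (𝓝 (GrT G θ w₀ ℓ c p)) := by
  induction ℓ generalizing c p with
  | zero => simp [GrT]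
  | succ ℓ ih =>
    simp only [GrT]
    apply Tendsto.add tendsto_const_nhds
    apply Tendsto.const_mul
    apply tendsto_finsetSum
    intro c' _
    exact (hw _ _).mul (ih c' c)

omit [Countable V] in
open Classical in
lemma lg_tendsto_GrG {w : ℕ → V → V → ℝ} {w₀ : V → V → ℝ}
    (hw : ∀ x y, Tendsto (fun N => w N x y) atTop (𝓝 (w₀ x y))) (ℓ : ℕ) (o : V) :
    Tendsto (fun N => GrG G θ (w N) ℓ o) atTop (𝓝 (GrG G θ w₀ ℓ o)) := by
  unfold GrG
  apply Tendsto.add tendsto_const_nhds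
  apply Tendsto.const_mul
  apply tendsto_finsetSum
  intro c _
  exact lg_tendsto_GrT hw ℓ c o

lemma lg_measurable_gE (θ : ℝ) : Measurable (fun p : ℝ × ℝ => gE θ p.1 p.2) := by
  unfold gE WW RR
  fun_prop

omit [Countable V] [G.LocallyFinite] [IsProbabilityMeasure ν] in
lemma lg_measurable_MM (F : Finset V) (x : V) (n j : ℕ) [IsProbabilityMeasure ν] :
    Measurable (fun a : TΩ V => MM ν F x (tm n j) (Yt n j a)) := by
  have hY : Measurable (fun a : TΩ V => Yt n j a) := by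
    refine measurable_pi_lambda _ fun l => ?_
    have h2 := (truth_spec ν).measurable_Yobs
    exact (measurable_pi_apply j).comp ((measurable_pi_apply n).comp ((measurable_pi_apply l).comp h2))
  unfold MM
  exact (((measurable_Mfin ν F x _).comp hY).const_mul 2).sub_const 1

omit [Countable V] in
lemma lg_measurable_geN (N n j : ℕ) (x y : V) :
    Measurable (fun a : TΩ V => lg_geN θ ν G N n j a x y) :=
  (lg_measurable_gE θ).comp ((lg_measurable_MM _ _ _ _).prodMk (lg_measurable_MM _ _ _ _))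

omit [Countable V] in
lemma lg_measurable_GrT (N n j ℓ : ℕ) (c p : V) :
    Measurable (fun a : TΩ V => GrT G θ (lg_geN θ ν G N n j a) ℓ c p) := by
  induction ℓ generalizing c p with
  | zero => simp [GrT]
  | succ ℓ ih =>
    simp only [GrT]
    apply Measurable.const_add
    apply Measurable.const_mul
    apply Finset.measurable_sum
    intro c' _
    exact (lg_measurable_geN N n j c c').mul (ih c' c)

omit [Countable V] in
open Classical in
lemma lg_measurable_GrG (N n j ℓ : ℕ) (o : V) :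
    Measurable (fun a : TΩ V => GrG G θ (lg_geN θ ν G N n j a) ℓ o) := by
  unfold GrG
  apply Measurable.const_add
  apply Measurable.const_mul
  apply Finset.measurable_sum
  intro c _
  exact lg_measurable_GrT N n j ℓ c o

include hT h0 h1 hν in
lemma lg_ae_tendsto_geN1 (n j : ℕ) (x y : V) : ∀ᵐ a ∂(truthP ν),
    Tendsto (fun N => lg_geN θ ν G N n j a x y) atTop (𝓝 (geW θ ν G n j a x y)) := by
  filter_upwards [ae_tendsto_MM_ball (G := G) (ν := ν) hT h0 h1 hν x x n j,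
    ae_tendsto_MM_ball (G := G) (ν := ν) hT h0 h1 hν x y n j] with a h1a h2a
  have h1a' := (tendsto_add_atTop_iff_nat 1).2 h1a
  have h2a' := (tendsto_add_atTop_iff_nat 1).2 h2a
  have hc := continuousOn_gE (θ := θ) h0 h1
  set m1 := mg ν G x n j a with hm1
  set m2 := mg ν G y n j a with hm2
  have hmem : (m1, m2) ∈ {p : ℝ × ℝ | |p.1| ≤ 1 ∧ |p.2| ≤ 1} :=
    ⟨abs_mg_le x n j a, abs_mg_le y n j a⟩
  have h3 : Tendsto (fun p : ℝ × ℝ => gE θ p.1 p.2) (𝓝[{p : ℝ × ℝ | |p.1| ≤ 1 ∧ |p.2| ≤ 1}] (m1, m2))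
      (𝓝 (gE θ m1 m2)) := hc _ hmem
  set A : ℕ → ℝ := fun N => MM ν (ballF G (N + 1) x) x (tm n j) (Yt n j a) with hA
  set B : ℕ → ℝ := fun N => MM ν (ballF G (N + 1) x) y (tm n j) (Yt n j a) with hB
  have h4 : Tendsto (fun N => (A N, B N)) atTop
      (𝓝[{p : ℝ × ℝ | |p.1| ≤ 1 ∧ |p.2| ≤ 1}] (m1, m2)) := by
    apply tendsto_nhdsWithin_of_tendsto_nhds_of_eventually_within
    · exact h1a'.prodMk_nhds h2a'
    · refine Eventually.of_forall fun N => ?_
      have hA1 : |A N| ≤ 1 := abs_MM_le ν _ _ _ _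
      have hB1 : |B N| ≤ 1 := abs_MM_le ν _ _ _ _
      exact ⟨hA1, hB1⟩
  have h5 := h3.comp h4
  exact h5

include hT h0 h1 hν in
lemma lg_ae_tendsto_geN (n j : ℕ) : ∀ᵐ a ∂(truthP ν), ∀ x y : V,
    Tendsto (fun N => lg_geN θ ν G N n j a x y) atTop (𝓝 (geW θ ν G n j a x y)) := by
  have h : ∀ x y : V, ∀ᵐ a ∂(truthP ν), Tendsto (fun N => lg_geN θ ν G N n j a x y) atTop
      (𝓝 (geW θ ν G n j a x y)) := fun x y => lg_ae_tendsto_geN1 hT h0 h1 hν n j x y
  exact ae_all_iff.2 fun x => ae_all_iff.2 fun y => h x y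

/-! ### The mgf at fixed depth -/

omit [Countable V] in
lemma lg_errE_mono {x y : ℝ} (hxy : x ≤ y) : errE x ≤ errE y := by
  unfold errE
  gcongr

/-- The real inequality at the end. -/
lemma lg_final {lam mu tb E : ℝ} (hlam : 0 ≤ lam) (hmu0 : 0 ≤ mu) (hmu : mu ≤ 2 * lam)
    (htb : 1 ≤ tb) (hE : E ≤ tb) :
    Real.exp lam * Real.exp (mu * (E + errE (mu * tb))) ≤
      Real.exp (lam * (1 + 2 * tb + 2 * errE (2 * lam * tb))) := by
  rw [← Real.exp_add]
  apply Real.exp_le_exp.mpr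
  have h1 : errE (mu * tb) ≤ errE (2 * lam * tb) :=
    lg_errE_mono (mul_le_mul_of_nonneg_right hmu (by linarith))
  have h2 : 0 ≤ errE (2 * lam * tb) := pc_errE_nonneg _
  have h3 : mu * (E + errE (mu * tb)) ≤ mu * (tb + errE (2 * lam * tb)) :=
    mul_le_mul_of_nonneg_left (by linarith) hmu0
  have h4 : mu * (tb + errE (2 * lam * tb)) ≤ (2 * lam) * (tb + errE (2 * lam * tb)) :=
    mul_le_mul_of_nonneg_right hmu (by linarith)
  nlinarith

open Classical in
include hT hk hreg h0 h1 hkθ hν in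
/-- The mgf at a fixed depth. -/
lemma lg_mgf_fixed (S : ChSys G k) (o : V) (n j : ℕ) (ht : 0 < tm n j) {b : ℝ} (hb : 0 < b) {N : ℕ}
    (hβ : (k : ℝ) * θ ^ 2 * (1 - kill θ (xN k θ (tm n j / 4) N)) ≤ 1 - b)
    (lam : ℝ) (hlam : 0 ≤ lam) (ℓ : ℕ) :
    ∫ a, Real.exp (lam * (1 + θ ^ 2 * ∑ c ∈ G.neighborFinset o,
        Tg θ (N + 1) ℓ (Dmap S a.1 (zOf n j a) c o))) ∂(truthP ν) ≤
      Real.exp (lam * (1 + 2 * (1 + 1 / b) + 2 * errE (2 * lam * (1 + 1 / b)))) := by
  set τ := tm n j / 4 with hτdef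
  have hτ : 0 < τ := by positivity
  set tb : ℝ := 1 + 1 / b with htb
  have htb1 : 1 ≤ tb := by
    have : 0 < 1 / b := by positivity
    linarith
  have hk1 : (1 : ℝ) ≤ k := by
    have : (2 : ℝ) ≤ k := by exact_mod_cast hk
    linarith
  have hk2 : (2 : ℝ) ≤ k := by exact_mod_cast hk
  have hβ1 : (k : ℝ) * θ ^ 2 * (1 - kill θ (xN k θ τ N)) < 1 := by linarith
  have hmean : ∀ ℓ, ∫ d, Tg θ (N + 1) ℓ d ∂(Pcan k θ τ) ≤ tb := by
    intro ℓ
    have h := Tg_mean_le h0 h1 hk hkθ hτ hβ1 ℓ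
    refine h.trans ?_
    have hbb : b ≤ 1 - (k : ℝ) * θ ^ 2 * (1 - kill θ (xN k θ τ N)) := by linarith
    have := one_div_le_one_div_of_le hb hbb
    rw [htb]
    linarith
  -- the exponent
  set mu : ℝ := ((k : ℝ) + 1) * (lam * θ ^ 2) with hmu
  have hθ2 : θ ^ 2 ≤ 1 := by nlinarith
  have hmu0 : 0 ≤ mu := by positivity
  have hmu2 : mu ≤ 2 * lam := by
    have : ((k : ℝ) + 1) * θ ^ 2 ≤ 2 := by nlinarith
    have h3 := mul_le_mul_of_nonneg_left this hlam
    rw [hmu]
    nlinarith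
  have hdeg : (G.neighborFinset o).card = k + 1 := by
    have := hreg o
    rw [← this, G.card_neighborFinset_eq_degree]
  -- the measurable maps
  have hD : ∀ c, G.Adj c o →
      (truthP ν).map (fun a : TΩ V => Dmap S a.1 (zOf n j a) c o) = Pcan k θ τ :=
    fun c hc => map_Dmap hT h0 h1 hν S hc n j
  have hDm : ∀ c, Measurable (fun a : TΩ V => Dmap S a.1 (zOf n j a) c o) :=
    fun c => measurable_Dmap S n j c o
  have hTgm := pc_measurable_Tg (k := k) θ (N + 1) ℓ
  have hprob := isProb_Pcan (k := k) (τ := τ) h0 h1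
  have hexpm : Measurable (fun d : OmCan k => Real.exp (mu * Tg θ (N + 1) ℓ d)) :=
    Real.measurable_exp.comp (hTgm.const_mul mu)
  have hTg1 : ∀ d : OmCan k, 1 ≤ Tg θ (N + 1) ℓ d := fun d => pc_one_le_Tg h0 h1 hkθ _ _ d
  have hTg2 : ∀ d : OmCan k, Tg θ (N + 1) ℓ d ≤ ℓ + 1 := fun d => pc_Tg_le h0 h1 hkθ _ _ d
  have hbdd : ∀ d : OmCan k, ‖Real.exp (mu * Tg θ (N + 1) ℓ d)‖ ≤ Real.exp (mu * (ℓ + 1)) := by
    intro d
    rw [Real.norm_eq_abs, abs_of_pos (Real.exp_pos _)]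
    exact Real.exp_le_exp.mpr (mul_le_mul_of_nonneg_left (hTg2 d) hmu0)
  have hintc : ∀ c, Integrable (fun a : TΩ V =>
      Real.exp (mu * Tg θ (N + 1) ℓ (Dmap S a.1 (zOf n j a) c o))) (truthP ν) := by
    intro c
    exact Integrable.of_bound (hexpm.comp (hDm c)).aestronglyMeasurable _
      (Eventually.of_forall fun a => hbdd _)
  have hint : ∀ c ∈ G.neighborFinset o, ∫ a : TΩ V,
      Real.exp (mu * Tg θ (N + 1) ℓ (Dmap S a.1 (zOf n j a) c o)) ∂(truthP ν) =
      ∫ d, Real.exp (mu * Tg θ (N + 1) ℓ d) ∂(Pcan k θ τ) := by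
    intro c hc
    have hadj : G.Adj c o := ((mem_neighborFinset _ _ _).1 hc).symm
    rw [← hD c hadj, integral_map (hDm c).aemeasurable (by
      rw [hD c hadj]; exact hexpm.aestronglyMeasurable)]
  -- the pointwise bound by convexity
  have hpt : ∀ a : TΩ V, Real.exp (lam * (1 + θ ^ 2 * ∑ c ∈ G.neighborFinset o,
        Tg θ (N + 1) ℓ (Dmap S a.1 (zOf n j a) c o))) ≤
      Real.exp lam * ((1 / ((k : ℝ) + 1)) * ∑ c ∈ G.neighborFinset o,
        Real.exp (mu * Tg θ (N + 1) ℓ (Dmap S a.1 (zOf n j a) c o))) := by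
    intro a
    have hk0 : (0 : ℝ) < (k : ℝ) + 1 := by linarith
    have hconv := convexOn_exp.map_sum_le (t := G.neighborFinset o)
      (w := fun _ => 1 / ((k : ℝ) + 1))
      (p := fun c => mu * Tg θ (N + 1) ℓ (Dmap S a.1 (zOf n j a) c o))
      (fun _ _ => by positivity)
      (by rw [Finset.sum_const, hdeg]; simp; field_simp)
      (fun _ _ => Set.mem_univ _)
    simp only [smul_eq_mul] at hconv
    have he : lam * (1 + θ ^ 2 * ∑ c ∈ G.neighborFinset o, Tg θ (N + 1) ℓ (Dmap S a.1 (zOf n j a) c o)) =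
        lam + ∑ c ∈ G.neighborFinset o, 1 / ((k : ℝ) + 1) * (mu * Tg θ (N + 1) ℓ (Dmap S a.1 (zOf n j a) c o)) := by
      rw [← Finset.mul_sum, ← Finset.mul_sum, hmu]
      field_simp
    rw [he, Real.exp_add]
    apply mul_le_mul_of_nonneg_left _ (Real.exp_pos _).le
    rw [Finset.mul_sum]
    exact hconv
  have hintR : Integrable (fun a : TΩ V => Real.exp lam * ((1 / ((k : ℝ) + 1)) * ∑ c ∈ G.neighborFinset o,
        Real.exp (mu * Tg θ (N + 1) ℓ (Dmap S a.1 (zOf n j a) c o)))) (truthP ν) := by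
    apply Integrable.const_mul
    apply Integrable.const_mul
    exact integrable_finsetSum _ fun c _ => hintc c
  have hmeas : Measurable (fun a : TΩ V => Real.exp (lam * (1 + θ ^ 2 * ∑ c ∈ G.neighborFinset o,
        Tg θ (N + 1) ℓ (Dmap S a.1 (zOf n j a) c o)))) := by
    apply Real.measurable_exp.comp
    apply Measurable.const_mul
    apply Measurable.const_add
    apply Measurable.const_mul
    apply Finset.measurable_sum
    intro c _
    exact hTgm.comp (hDm c)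
  have hmain : ∫ a, Real.exp (lam * (1 + θ ^ 2 * ∑ c ∈ G.neighborFinset o,
        Tg θ (N + 1) ℓ (Dmap S a.1 (zOf n j a) c o))) ∂(truthP ν) ≤
      ∫ a, Real.exp lam * ((1 / ((k : ℝ) + 1)) * ∑ c ∈ G.neighborFinset o,
        Real.exp (mu * Tg θ (N + 1) ℓ (Dmap S a.1 (zOf n j a) c o))) ∂(truthP ν) := by
    apply integral_mono_of_nonneg (Eventually.of_forall fun a => (Real.exp_pos _).le) hintR
    exact Eventually.of_forall hpt
  have hR : ∫ a, Real.exp lam * ((1 / ((k : ℝ) + 1)) * ∑ c ∈ G.neighborFinset o,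
        Real.exp (mu * Tg θ (N + 1) ℓ (Dmap S a.1 (zOf n j a) c o))) ∂(truthP ν) =
      Real.exp lam * ∫ d, Real.exp (mu * Tg θ (N + 1) ℓ d) ∂(Pcan k θ τ) := by
    rw [integral_const_mul, integral_const_mul, integral_finsetSum _ (fun c _ => hintc c),
      Finset.sum_congr rfl hint, Finset.sum_const, hdeg]
    have hk0 : ((k : ℝ) + 1) ≠ 0 := by linarith
    simp only [nsmul_eq_mul]
    push_cast
    field_simp
  have hTgmgf := Tg_mgf_le h0 h1 hk hkθ hτ htb1 hmean mu hmu0 ℓ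
  calc _ ≤ _ := hmain
    _ = _ := hR
    _ ≤ Real.exp lam * Real.exp (mu * (∫ d, Tg θ (N + 1) ℓ d ∂(Pcan k θ τ) + errE (mu * tb))) :=
        mul_le_mul_of_nonneg_left hTgmgf (Real.exp_pos _).le
    _ ≤ _ := lg_final hlam hmu0 hmu2 htb1 (hmean ℓ)

include hT hk hreg h0 h1 hkθ hν

/-- Exponential moments of the Green function. Here `b` is a rate of decay at large depth. -/
theorem mgf_GrG (o : V) (n j : ℕ) (ht : 0 < tm n j) {b : ℝ} (hb : 0 < b) {N₁ : ℕ}
    (hβ : ∀ N, N₁ ≤ N → (k : ℝ) * θ ^ 2 * (1 - kill θ (xN k θ (tm n j / 4) N)) ≤ 1 - b)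
    (lam : ℝ) (hlam : 0 ≤ lam) (ℓ : ℕ) :
    ∫ a, Real.exp (lam * GrG G θ (geW θ ν G n j a) ℓ o) ∂(truthP ν) ≤
      Real.exp (lam * (1 + 2 * (1 + 1 / b) + 2 * errE (2 * lam * (1 + 1 / b)))) := by
  classical
  -- a system of children
  have hS : Nonempty (ChSys G k) := by
    obtain ⟨k', rfl⟩ : ∃ k', k = k' + 1 := ⟨k - 1, by omega⟩
    obtain ⟨S, -⟩ := exists_chSys (k := k') hT hreg (fun _ => o) 0
      ⟨fun i hi => absurd hi (by omega), fun i hi => absurd hi (by omega)⟩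
    exact ⟨S⟩
  obtain ⟨S⟩ := hS
  set F : ℕ → TΩ V → ℝ := fun N a => Real.exp (lam * GrG G θ (lg_geN θ ν G (N + 1) n j a) ℓ o) with hF
  set B : ℝ := Real.exp (lam * (1 + 1 * (((k : ℝ) + 1) * (ℓ + 1)))) with hB
  have hdeg : (G.neighborFinset o).card = k + 1 := by
    have := hreg o
    rw [← this, G.card_neighborFinset_eq_degree]
  have hθ2 : θ ^ 2 ≤ 1 := by nlinarith
  have hle : ∀ N a, GrG G θ (lg_geN θ ν G N n j a) ℓ o ≤ 1 + 1 * (((k : ℝ) + 1) * (ℓ + 1)) := by
    intro N a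
    refine (lg_GrG_le hT h0 h1 hν S N n j a ℓ o).trans ?_
    have hs : ∑ c ∈ G.neighborFinset o, Tg θ N ℓ (Dmap S a.1 (zOf n j a) c o) ≤
        ((k : ℝ) + 1) * (ℓ + 1) := by
      have := Finset.sum_le_card_nsmul (G.neighborFinset o)
        (fun c => Tg θ N ℓ (Dmap S a.1 (zOf n j a) c o)) ((ℓ : ℝ) + 1)
        (fun c _ => pc_Tg_le h0 h1 hkθ _ _ _)
      rw [hdeg, nsmul_eq_mul] at this
      push_cast at this
      exact this
    have hs0 : 0 ≤ ∑ c ∈ G.neighborFinset o, Tg θ N ℓ (Dmap S a.1 (zOf n j a) c o) :=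
      Finset.sum_nonneg fun c _ => by linarith [pc_one_le_Tg (k := k) (θ := θ) h0 h1 hkθ N ℓ (Dmap S a.1 (zOf n j a) c o)]
    nlinarith [sq_nonneg θ]
  have hlim : ∀ᵐ a ∂(truthP ν), Tendsto (fun N => F N a) atTop
      (𝓝 (Real.exp (lam * GrG G θ (geW θ ν G n j a) ℓ o))) := by
    filter_upwards [lg_ae_tendsto_geN hT h0 h1 hν n j] with a ha
    have h1 := lg_tendsto_GrG (θ := θ) (G := G) ha ℓ o
    have h2 := (tendsto_add_atTop_iff_nat 1).2 h1
    exact (Real.continuous_exp.tendsto _).comp (h2.const_mul lam)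
  have hT1 : Tendsto (fun N => ∫ a, F N a ∂(truthP ν)) atTop
      (𝓝 (∫ a, Real.exp (lam * GrG G θ (geW θ ν G n j a) ℓ o) ∂(truthP ν))) := by
    apply tendsto_integral_of_dominated_convergence (fun _ => B)
    · intro N
      exact (Real.measurable_exp.comp ((lg_measurable_GrG (N + 1) n j ℓ o).const_mul lam)).aestronglyMeasurable
    · exact integrable_const _
    · intro N
      refine Eventually.of_forall fun a => ?_
      rw [Real.norm_eq_abs, abs_of_pos (Real.exp_pos _)]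
      exact Real.exp_le_exp.mpr (mul_le_mul_of_nonneg_left (hle _ _) hlam)
    · exact hlim
  refine le_of_tendsto hT1 ?_
  filter_upwards [eventually_ge_atTop N₁] with N hN
  have hfixed := lg_mgf_fixed hT hk hreg h0 h1 hkθ hν S o n j ht hb (hβ N hN) lam hlam ℓ
  refine le_trans ?_ hfixed
  have hintR : Integrable (fun a : TΩ V => Real.exp (lam * (1 + θ ^ 2 * ∑ c ∈ G.neighborFinset o,
        Tg θ (N + 1) ℓ (Dmap S a.1 (zOf n j a) c o)))) (truthP ν) := by
    refine Integrable.of_bound (C := B) ?_ ?_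
    · apply Measurable.aestronglyMeasurable
      apply Real.measurable_exp.comp
      apply Measurable.const_mul
      apply Measurable.const_add
      apply Measurable.const_mul
      apply Finset.measurable_sum
      intro c _
      exact (pc_measurable_Tg (k := k) θ (N + 1) ℓ).comp (measurable_Dmap S n j c o)
    · refine Eventually.of_forall fun a => ?_
      rw [Real.norm_eq_abs, abs_of_pos (Real.exp_pos _)]
      apply Real.exp_le_exp.mpr
      apply mul_le_mul_of_nonneg_left _ hlam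
      have hs : ∑ c ∈ G.neighborFinset o, Tg θ (N + 1) ℓ (Dmap S a.1 (zOf n j a) c o) ≤
          ((k : ℝ) + 1) * (ℓ + 1) := by
        have := Finset.sum_le_card_nsmul (G.neighborFinset o)
          (fun c => Tg θ (N + 1) ℓ (Dmap S a.1 (zOf n j a) c o)) ((ℓ : ℝ) + 1)
          (fun c _ => pc_Tg_le h0 h1 hkθ _ _ _)
        rw [hdeg, nsmul_eq_mul] at this
        push_cast at this
        exact this
      have hs0 : 0 ≤ ∑ c ∈ G.neighborFinset o, Tg θ (N + 1) ℓ (Dmap S a.1 (zOf n j a) c o) :=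
        Finset.sum_nonneg fun c _ => by
          linarith [pc_one_le_Tg (k := k) (θ := θ) h0 h1 hkθ (N + 1) ℓ (Dmap S a.1 (zOf n j a) c o)]
      nlinarith [sq_nonneg θ]
  apply integral_mono_of_nonneg (Eventually.of_forall fun a => (Real.exp_pos _).le) hintR
  refine Eventually.of_forall fun a => ?_
  apply Real.exp_le_exp.mpr
  exact mul_le_mul_of_nonneg_left (lg_GrG_le hT h0 h1 hν S (N + 1) n j a ℓ o) hlam

end

end Crest.Agent.Lib.IT
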