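/-
The mass transport on the regular tree and the levels of the Green function (statement S0241).
-/
import Crest.Agent.Lib.IT.PathAlg
import Crest.Agent.Lib.IT.LinkGreen

set_option autoImplicit false

namespace Crest.Agent.Lib.IT

open SimpleGraph

variable {V : Type*} {G : SimpleGraph V} [G.LocallyFinite]

open Classical in
/-- The pairs of points at distances `j` and `s` from `o` with `o` on their geodesic. -/
noncomputable def pairsF (G : SimpleGraph V) [G.LocallyFinite] (o : V) (j s : ℕ) : Finset (V × V) :=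
  ((sphereF G j o) ×ˢ (sphereF G s o)).filter (fun q => G.dist q.1 q.2 = j + s)

namespace TransportAux

lemma mem_pairsF (hT : G.IsTree) {o z w : V} {j s : ℕ} :
    (z, w) ∈ pairsF G o j s ↔ G.dist o z = j ∧ G.dist o w = s ∧ G.dist z w = j + s := by
  classical
  unfold pairsF
  simp only [Finset.mem_filter, Finset.mem_product, mem_sphereF hT, and_assoc]

/-- The concatenation of the geodesics `z → o` and `o → w`. -/
noncomputable def cat (hT : G.IsTree) (o z w : V) (j : ℕ) : ℕ → V :=
  fun i => if i ≤ j then gp hT o z (j - i) else gp hT o w (i - j)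

omit [G.LocallyFinite] in
lemma cat_le (hT : G.IsTree) (o z w : V) {j i : ℕ} (hi : i ≤ j) :
    cat hT o z w j i = gp hT o z (j - i) := by
  simp [cat, hi]

omit [G.LocallyFinite] in
lemma cat_ge (hT : G.IsTree) (o z w : V) {j i : ℕ} (hi : j ≤ i) :
    cat hT o z w j i = gp hT o w (i - j) := by
  rcases hi.eq_or_lt with rfl | hlt
  · simp [cat, gp_zero]
  · simp [cat, not_le.2 hlt]

omit [G.LocallyFinite] in
lemma isGeo_cat (hT : G.IsTree) {o z w : V} {j s : ℕ} (h1 : G.dist o z = j) (h2 : G.dist o w = s)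
    (h3 : G.dist z w = j + s) : IsGeo G (cat hT o z w j) (j + s) := by
  constructor
  · intro i hi
    rcases Nat.lt_or_ge i j with hij | hij
    · rw [cat_le hT o z w hij.le, cat_le hT o z w (by omega : i + 1 ≤ j)]
      have := gp_adj hT o z (i := j - i - 1) (by omega)
      rw [show j - i - 1 + 1 = j - i by omega] at this
      rw [show j - (i + 1) = j - i - 1 by omega]
      exact this.symm
    · rw [cat_ge hT o z w hij, cat_ge hT o z w (by omega : j ≤ i + 1)]
      have := gp_adj hT o w (i := i - j) (by omega)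
      rwa [show i - j + 1 = i + 1 - j by omega] at this
  · intro i hi he
    rcases Nat.lt_or_ge (i + 1) j with hij | hij
    · rw [cat_le hT o z w (by omega : i ≤ j), cat_le hT o z w (by omega : i + 2 ≤ j)] at he
      have d1 := gp_dist_start hT o z (i := j - i) (by omega)
      have d2 := gp_dist_start hT o z (i := j - (i + 2)) (by omega)
      rw [he] at d2
      omega
    · rcases Nat.lt_or_ge i j with hij' | hij'
      · -- the junction
        have hj : i + 1 = j := by omega
        subst hj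
        have hs : 1 ≤ s := by omega
        rw [cat_le hT o z w (by omega : i ≤ i + 1), cat_ge hT o z w (by omega : i + 1 ≤ i + 2)] at he
        rw [show i + 2 - (i + 1) = 1 by omega, show i + 1 - i = 1 by omega] at he
        have d1 := gp_dist hT o z 1
        have d2 := gp_dist hT o w 1
        rw [he] at d2
        rw [dist_comm (u := z) (v := o), h1] at d1
        rw [dist_comm (u := w) (v := o), h2] at d2
        have t := hT.connected.dist_triangle (u := z) (v := gp hT o z 1) (w := w)
        rw [dist_comm (u := gp hT o z 1) (v := w)] at t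
        omega
      · rw [cat_ge hT o z w hij', cat_ge hT o z w (by omega : j ≤ i + 2)] at he
        have d1 := gp_dist_start hT o w (i := i - j) (by omega)
        have d2 := gp_dist_start hT o w (i := i + 2 - j) (by omega)
        rw [he] at d2
        omega

omit [G.LocallyFinite] in
lemma cat_eq_gp (hT : G.IsTree) {o z w : V} {j s : ℕ} (h1 : G.dist o z = j) (h2 : G.dist o w = s)
    (h3 : G.dist z w = j + s) {i : ℕ} (hi : i ≤ j + s) : cat hT o z w j i = gp hT z w i := by
  have := (isGeo_cat hT h1 h2 h3).eq_gp hT hi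
  rw [this]
  have e0 : cat hT o z w j 0 = z := by
    rw [cat_le hT o z w (Nat.zero_le j), Nat.sub_zero]
    exact gp_end hT o z h1.le
  have e1 : cat hT o z w j (j + s) = w := by
    rw [cat_ge hT o z w (by omega : j ≤ j + s), Nat.add_sub_cancel_left]
    exact gp_end hT o w h2.le
  rw [e0, e1]

omit [G.LocallyFinite] in
lemma gp_shift (hT : G.IsTree) (c x : V) (i : ℕ) : gp hT c x (i + 1) = gp hT (nxt hT x c) x i := by
  induction i with
  | zero => rfl
  | succ i ih => rw [gp_succ, ih, gp_succ]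

lemma ring_disj (hT : G.IsTree) (r : ℕ) (c p : V) :
    ((kids G c p : Finset V) : Set V).PairwiseDisjoint (fun c' => ringF G r c' c) := by
  intro c1 h1 c2 h2 hne
  simp only [Function.onFun]
  rw [Finset.disjoint_left]
  intro x hx1 hx2
  have a1 := mem_kids.1 h1
  have a2 := mem_kids.1 h2
  have s1 := ((mem_ringF hT a1.1.symm).1 hx1).2
  have s2 := ((mem_ringF hT a2.1.symm).1 hx2).2
  simp only [mem_side] at s1 s2
  refine hne (closer_unique hT (z := x) a1.1 a2.1 ?_ ?_)
  · rw [dist_comm (u := x), dist_comm (u := x)]; omega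
  · rw [dist_comm (u := x), dist_comm (u := x)]; omega

lemma sphere_disj (hT : G.IsTree) (r : ℕ) (o : V) :
    ((G.neighborFinset o : Finset V) : Set V).PairwiseDisjoint (fun c => ringF G r c o) := by
  intro c1 h1 c2 h2 hne
  simp only [Function.onFun]
  rw [Finset.disjoint_left]
  intro x hx1 hx2
  have a1 := (mem_neighborFinset _ _ _).1 (Finset.mem_coe.1 h1)
  have a2 := (mem_neighborFinset _ _ _).1 (Finset.mem_coe.1 h2)
  have s1 := ((mem_ringF hT a1.symm).1 hx1).2
  have s2 := ((mem_ringF hT a2.symm).1 hx2).2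
  simp only [mem_side] at s1 s2
  refine hne (closer_unique hT (z := x) a1 a2 ?_ ?_)
  · rw [dist_comm (u := x), dist_comm (u := x)]; omega
  · rw [dist_comm (u := x), dist_comm (u := x)]; omega

lemma WW_comm (θ x y : ℝ) : WW θ x y = WW θ y x := by
  unfold WW RR
  rw [mul_comm x y, add_comm (x ^ 2) (y ^ 2)]

lemma gE_comm (θ x y : ℝ) : gE θ x y = gE θ y x := by
  unfold gE
  rw [WW_comm θ x y, mul_comm (Real.sqrt (1 - x ^ 2))]

lemma PP_one_succ (θ : ℝ) (b : ℕ → ℝ) (d : ℕ) :
    PP θ b 1 (d + 1) = PP θ (fun i => b (i + 1)) 0 d := by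
  unfold PP
  have := Finset.prod_Ico_add' (fun i => gE θ (b i) (b (i + 1))) 0 d 1
  simpa using this.symm

lemma PP_zero_succ (θ : ℝ) (b : ℕ → ℝ) (d : ℕ) :
    PP θ b 0 (d + 1) = gE θ (b 0) (b 1) * PP θ b 1 (d + 1) := by
  unfold PP
  rw [Finset.prod_eq_prod_Ico_succ_bot (by omega)]

omit [G.LocallyFinite] in
lemma nxt_of_side (hT : G.IsTree) {c c' x : V} (ha : G.Adj c c') (hx : x ∈ Side G c' c) :
    nxt hT x c = c' := by
  symm
  refine eq_nxt hT ha ?_
  simp only [mem_side] at hx
  rw [dist_comm (u := x), dist_comm (u := x)]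
  omega

omit [G.LocallyFinite] in
/-- Peeling the first edge of a path below `c`. -/
lemma PP_peel (hT : G.IsTree) (θ : ℝ) (a : V → ℝ) {c c' x : V} (ha : G.Adj c c')
    (hx : x ∈ Side G c' c) :
    PP θ (fun i => a (gp hT c x (i + 1))) 0 (G.dist c' x) =
      PP θ (fun i => a (gp hT c' x i)) 0 (G.dist c' x) := by
  have e := nxt_of_side hT ha hx
  have : ∀ i, gp hT c x (i + 1) = gp hT c' x i := fun i => by rw [gp_shift, e]
  simp only [this]

lemma GrT_eq (hT : G.IsTree) (θ : ℝ) (a : V → ℝ) (ℓ : ℕ) : ∀ c p : V, G.Adj c p →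
    GrT G θ (fun x y => gE θ (a x) (a y)) ℓ c p =
      ∑ d ∈ Finset.range (ℓ + 1), θ ^ (2 * d) *
        ∑ x ∈ ringF G d c p, PP θ (fun i => a (gp hT c x i)) 0 (G.dist c x) := by
  classical
  induction ℓ with
  | zero =>
    intro c p _
    simp [GrT, ringF, PP]
  | succ ℓ ih =>
    intro c p hcp
    rw [Finset.sum_range_succ']
    have hterm : ∀ d : ℕ, θ ^ (2 * (d + 1)) *
        ∑ x ∈ ringF G (d + 1) c p, PP θ (fun i => a (gp hT c x i)) 0 (G.dist c x) =
        θ ^ 2 * (θ ^ (2 * d) * ∑ c' ∈ kids G c p, gE θ (a c) (a c') *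
          ∑ x ∈ ringF G d c' c, PP θ (fun i => a (gp hT c' x i)) 0 (G.dist c' x)) := by
      intro d
      have hsum : ∑ x ∈ ringF G (d + 1) c p, PP θ (fun i => a (gp hT c x i)) 0 (G.dist c x) =
          ∑ c' ∈ kids G c p, gE θ (a c) (a c') *
            ∑ x ∈ ringF G d c' c, PP θ (fun i => a (gp hT c' x i)) 0 (G.dist c' x) := by
        simp only [ringF]
        rw [Finset.sum_biUnion (ring_disj hT d c p)]
        refine Finset.sum_congr rfl fun c' hc' => ?_
        rw [Finset.mul_sum]
        refine Finset.sum_congr rfl fun x hx => ?_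
        have hadj := (mem_kids.1 hc').1
        have hx' := (mem_ringF hT hadj.symm).1 hx
        have hd : G.dist c x = G.dist c' x + 1 := hx'.2
        rw [hd, PP_zero_succ, PP_one_succ, PP_peel hT θ a hadj hx'.2]
        have e := nxt_of_side hT hadj hx'.2
        have e1 : gp hT c x 1 = c' := by rw [gp_succ, gp_zero, e]
        rw [e1, gp_zero]
      rw [hsum]
      ring
    simp only [hterm]
    rw [← Finset.mul_sum]
    simp only [GrT]
    have hz : θ ^ (2 * 0) * ∑ x ∈ ringF G 0 c p, PP θ (fun i => a (gp hT c x i)) 0 (G.dist c x) = 1 := by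
      simp [ringF, PP]
    rw [hz, add_comm]
    congr 2
    calc ∑ c' ∈ kids G c p, gE θ (a c) (a c') * GrT G θ (fun x y => gE θ (a x) (a y)) ℓ c' c
        = ∑ c' ∈ kids G c p, ∑ d ∈ Finset.range (ℓ + 1), θ ^ (2 * d) * (gE θ (a c) (a c') *
            ∑ x ∈ ringF G d c' c, PP θ (fun i => a (gp hT c' x i)) 0 (G.dist c' x)) := by
          refine Finset.sum_congr rfl fun c' hc' => ?_
          rw [ih c' c (mem_kids.1 hc').1.symm, Finset.mul_sum]
          refine Finset.sum_congr rfl fun d _ => ?_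
          ring
      _ = ∑ d ∈ Finset.range (ℓ + 1), θ ^ (2 * d) * ∑ c' ∈ kids G c p, gE θ (a c) (a c') *
            ∑ x ∈ ringF G d c' c, PP θ (fun i => a (gp hT c' x i)) 0 (G.dist c' x) := by
          rw [Finset.sum_comm]
          refine Finset.sum_congr rfl fun d _ => ?_
          rw [Finset.mul_sum]

end TransportAux

open TransportAux

/-- The number of such pairs. -/
theorem card_pairsF {k : ℕ} (hT : G.IsTree) (hreg : G.IsRegularOfDegree (k + 1)) (o : V) (j s : ℕ) :
    (pairsF G o j s).card = (sphereF G (j + s) o).card := by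
  classical
  rcases Nat.eq_zero_or_pos j with rfl | hj
  · -- `j = 0`
    rw [Nat.zero_add]
    refine Finset.card_bij (fun q _ => q.2) ?_ ?_ ?_
    · rintro ⟨z, w⟩ hq
      exact (mem_sphereF hT).2 ((mem_pairsF hT).1 hq).2.1
    · rintro ⟨z, w⟩ hq ⟨z', w'⟩ hq' he
      have h1 := ((mem_pairsF hT).1 hq).1
      have h2 := ((mem_pairsF hT).1 hq').1
      have e1 : z = o := ((hT.connected.dist_eq_zero_iff).1 h1).symm
      have e2 : z' = o := ((hT.connected.dist_eq_zero_iff).1 h2).symm
      simp only at he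
      simp [e1, e2, he]
    · intro w hw
      refine ⟨(o, w), ?_, rfl⟩
      have := (mem_sphereF hT).1 hw
      exact (mem_pairsF hT).2 ⟨by simp, this, by simpa using this⟩
  rcases Nat.eq_zero_or_pos s with rfl | hs
  · -- `s = 0`
    rw [Nat.add_zero]
    refine Finset.card_bij (fun q _ => q.1) ?_ ?_ ?_
    · rintro ⟨z, w⟩ hq
      exact (mem_sphereF hT).2 ((mem_pairsF hT).1 hq).1
    · rintro ⟨z, w⟩ hq ⟨z', w'⟩ hq' he
      have h1 := ((mem_pairsF hT).1 hq).2.1
      have h2 := ((mem_pairsF hT).1 hq').2.1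
      have e1 : w = o := ((hT.connected.dist_eq_zero_iff).1 h1).symm
      have e2 : w' = o := ((hT.connected.dist_eq_zero_iff).1 h2).symm
      simp only at he
      simp [e1, e2, he]
    · intro z hz
      refine ⟨(z, o), ?_, rfl⟩
      have := (mem_sphereF hT).1 hz
      refine (mem_pairsF hT).2 ⟨this, by simp, ?_⟩
      rw [dist_comm]
      simpa using this
  obtain ⟨j', rfl⟩ : ∃ j', j = j' + 1 := ⟨j - 1, by omega⟩
  obtain ⟨s', rfl⟩ : ∃ s', s = s' + 1 := ⟨s - 1, by omega⟩
  have hmaps : ∀ q ∈ pairsF G o (j' + 1) (s' + 1), q.1 ∈ sphereF G (j' + 1) o := by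
    rintro ⟨z, w⟩ hq
    exact (mem_sphereF hT).2 ((mem_pairsF hT).1 hq).1
  rw [Finset.card_eq_sum_card_fiberwise hmaps]
  have hfib : ∀ z ∈ sphereF G (j' + 1) o,
      ((pairsF G o (j' + 1) (s' + 1)).filter (fun q => q.1 = z)).card = k ^ (s' + 1) := by
    intro z hz
    have hdz := (mem_sphereF hT).1 hz
    have hne : o ≠ z := by
      rintro rfl
      simp at hdz
    set x := nxt hT z o with hx
    have hadj : G.Adj o x := nxt_adj hT hne
    have hd : G.dist z x + 1 = G.dist z o := nxt_dist hT hne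
    have hdzx : G.dist z x = j' := by
      rw [dist_comm (u := z) (v := o), hdz] at hd
      omega
    have hside : z ∈ Side G x o := by
      simp only [mem_side]
      rw [dist_comm (u := x), hdz, hdzx]
    have hsub : ringF G s' x o ⊆ sphereF G (s' + 1) o := by
      intro w hw
      simp only [sphereF, Finset.mem_biUnion]
      exact ⟨x, (mem_neighborFinset _ _ _).2 hadj, hw⟩
    have himg : (pairsF G o (j' + 1) (s' + 1)).filter (fun q => q.1 = z) =
        (sphereF G (s' + 1) o \ ringF G s' x o).image (fun w => (z, w)) := by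
      ext ⟨z', w⟩
      simp only [Finset.mem_filter, Finset.mem_image, Finset.mem_sdiff, Prod.mk.injEq]
      constructor
      · rintro ⟨hq, rfl⟩
        obtain ⟨-, h2, h3⟩ := (mem_pairsF hT).1 hq
        refine ⟨w, ⟨(mem_sphereF hT).2 h2, ?_⟩, rfl, rfl⟩
        intro hw
        have hw' := (mem_ringF hT hadj.symm).1 hw
        have t := hT.connected.dist_triangle (u := z') (v := x) (w := w)
        omega
      · rintro ⟨w', ⟨h1, h2⟩, rfl, rfl⟩
        refine ⟨(mem_pairsF hT).2 ⟨hdz, (mem_sphereF hT).1 h1, ?_⟩, rfl⟩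
        have hdw := (mem_sphereF hT).1 h1
        have hnot : w' ∉ Side G x o := by
          intro hs
          apply h2
          refine (mem_ringF hT hadj.symm).2 ⟨?_, hs⟩
          simp only [mem_side] at hs
          omega
        have hw : w' ∈ Side G o x := (side_or hT hadj.symm w').resolve_left hnot
        have := dist_across hT hadj.symm hside hw
        omega
    rw [himg, Finset.card_image_of_injective _ (fun a b h => (Prod.mk.inj h).2),
      Finset.card_sdiff_of_subset hsub, sphereF_card hT k hreg s' o,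
      ringF_card hT k hreg s' hadj.symm]
    rw [pow_succ]
    have : (k + 1) * k ^ s' - k ^ s' = k ^ s' * k := by
      rw [add_mul, one_mul, mul_comm k, Nat.add_sub_cancel]
    exact this
  rw [Finset.sum_congr rfl hfib, Finset.sum_const, sphereF_card hT k hreg j' o, smul_eq_mul,
    show j' + 1 + (s' + 1) = (j' + s' + 1) + 1 by omega, sphereF_card hT k hreg (j' + s' + 1) o]
  ring

theorem gp_left_of_mem_pairsF (hT : G.IsTree) {o z w : V} {j s : ℕ} (hq : (z, w) ∈ pairsF G o j s)
    {i : ℕ} (hi : i ≤ j) : gp hT z w i = gp hT o z (j - i) := by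
  obtain ⟨h1, h2, h3⟩ := (mem_pairsF hT).1 hq
  rw [← cat_eq_gp hT h1 h2 h3 (by omega), cat_le hT o z w hi]

theorem gp_of_mem_pairsF (hT : G.IsTree) {o z w : V} {j s : ℕ} (hq : (z, w) ∈ pairsF G o j s) :
    gp hT z w j = o := by
  rw [gp_left_of_mem_pairsF hT hq le_rfl, Nat.sub_self, gp_zero]

theorem gp_right_of_mem_pairsF (hT : G.IsTree) {o z w : V} {j s : ℕ} (hq : (z, w) ∈ pairsF G o j s)
    (i : ℕ) : gp hT z w (j + i) = gp hT o w i := by
  obtain ⟨h1, h2, h3⟩ := (mem_pairsF hT).1 hq
  rcases Nat.lt_or_ge s i with hi | hi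
  · rw [gp_end hT z w (by omega), gp_end hT o w (by omega)]
  · rw [← cat_eq_gp hT h1 h2 h3 (by omega), cat_ge hT o z w (by omega), Nat.add_sub_cancel_left]

/-- The mass transport principle for a function of pairs invariant under the automorphisms. -/
theorem sum_sphere_eq_sum_pairs {k : ℕ} (hT : G.IsTree) (hk : 1 ≤ k)
    (hreg : G.IsRegularOfDegree (k + 1)) (o : V) (j s : ℕ) (hjs : 1 ≤ j + s) (F : V → V → ℝ)
    (hF : ∀ (g : G ≃g G) (z w : V), F (g z) (g w) = F z w) :
    ∑ u ∈ sphereF G (j + s) o, F o u = ∑ q ∈ pairsF G o j s, F q.1 q.2 := by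
  classical
  obtain ⟨k', rfl⟩ : ∃ k', k = k' + 1 := ⟨k - 1, by omega⟩
  have hinv : ∀ z w z' w' : V, G.dist z w = j + s → G.dist z' w' = j + s → F z' w' = F z w := by
    intro z w z' w' h1 h2
    have g1 : IsGeo G (gp hT z w) (j + s) := by rw [← h1]; exact isGeo_gp hT z w
    have g2 : IsGeo G (gp hT z' w') (j + s) := by rw [← h2]; exact isGeo_gp hT z' w'
    obtain ⟨g, hg⟩ := exists_aut_geo hT hreg _ _ (j + s) hjs g1 g2
    have e0 := hg 0 (Nat.zero_le _)
    have e1 := hg (j + s) le_rfl
    rw [gp_zero, gp_zero] at e0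
    rw [gp_end hT z w h1.le, gp_end hT z' w' h2.le] at e1
    rw [← e0, ← e1, hF]
  have hcard := card_pairsF hT hreg o j s
  rcases (sphereF G (j + s) o).eq_empty_or_nonempty with he | ⟨u₀, hu₀⟩
  · rw [he] at hcard ⊢
    have : pairsF G o j s = ∅ := by
      rw [← Finset.card_eq_zero, hcard]; simp
    rw [this]; simp
  · have hd₀ := (mem_sphereF hT).1 hu₀
    have e1 : ∑ u ∈ sphereF G (j + s) o, F o u = ∑ _u ∈ sphereF G (j + s) o, F o u₀ :=
      Finset.sum_congr rfl (fun u hu => hinv o u₀ o u hd₀ ((mem_sphereF hT).1 hu))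
    have e2 : ∑ q ∈ pairsF G o j s, F q.1 q.2 = ∑ _q ∈ pairsF G o j s, F o u₀ :=
      Finset.sum_congr rfl (fun q hq => by
        obtain ⟨z, w⟩ := q
        exact hinv o u₀ z w hd₀ ((mem_pairsF hT).1 hq).2.2)
    rw [e1, e2, Finset.sum_const, Finset.sum_const, hcard]

/-- The weight of the path from `o` to `w`, not counting the first edge. -/
noncomputable def RW (hT : G.IsTree) (θ : ℝ) (a : V → ℝ) (o w : V) : ℝ :=
  PP θ (fun i => a (gp hT o w i)) 1 (G.dist o w)

/-- The level `j` of the Green function. -/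
noncomputable def Lev (hT : G.IsTree) (θ : ℝ) (a : V → ℝ) (o : V) (j : ℕ) : ℝ :=
  ∑ z ∈ sphereF G j o, θ ^ (2 * j) * RW hT θ a o z

/-- The levels sum to the Green function. -/
theorem sum_Lev_eq_GrG (hT : G.IsTree) (θ : ℝ) (a : V → ℝ) (o : V) (ℓ : ℕ) :
    ∑ j ∈ Finset.range (ℓ + 2), Lev hT θ a o j = GrG G θ (fun x y => gE θ (a x) (a y)) ℓ o := by
  classical
  rw [Finset.sum_range_succ']
  have h0 : Lev hT θ a o 0 = 1 := by
    simp [Lev, sphereF, RW, PP]
  have hs : ∀ d : ℕ, Lev hT θ a o (d + 1) = θ ^ 2 * (θ ^ (2 * d) * ∑ c ∈ G.neighborFinset o,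
      ∑ x ∈ ringF G d c o, PP θ (fun i => a (gp hT c x i)) 0 (G.dist c x)) := by
    intro d
    unfold Lev
    simp only [sphereF]
    rw [Finset.sum_biUnion (sphere_disj hT d o)]
    rw [Finset.mul_sum, Finset.mul_sum]
    refine Finset.sum_congr rfl fun c hc => ?_
    rw [Finset.mul_sum, Finset.mul_sum]
    refine Finset.sum_congr rfl fun x hx => ?_
    have hadj := (mem_neighborFinset _ _ _).1 hc
    have hx' := (mem_ringF hT hadj.symm).1 hx
    have hd : G.dist o x = G.dist c x + 1 := hx'.2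
    unfold RW
    rw [hd, PP_one_succ, PP_peel hT θ a hadj hx'.2]
    ring
  simp only [hs, h0]
  unfold GrG
  rw [← Finset.mul_sum, add_comm]
  congr 2
  symm
  calc ∑ c ∈ G.neighborFinset o, GrT G θ (fun x y => gE θ (a x) (a y)) ℓ c o
      = ∑ c ∈ G.neighborFinset o, ∑ d ∈ Finset.range (ℓ + 1), θ ^ (2 * d) *
          ∑ x ∈ ringF G d c o, PP θ (fun i => a (gp hT c x i)) 0 (G.dist c x) := by
        refine Finset.sum_congr rfl fun c hc => ?_
        exact GrT_eq hT θ a ℓ c o ((mem_neighborFinset _ _ _).1 hc).symm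
    _ = _ := by
        rw [Finset.sum_comm]
        refine Finset.sum_congr rfl fun d _ => ?_
        rw [Finset.mul_sum]

/-- The weight of the left part of a pair, in terms of the ray from the midpoint. -/
theorem PP_left_of_mem_pairsF (hT : G.IsTree) {o z w : V} {j s : ℕ} (hq : (z, w) ∈ pairsF G o j s)
    {θ : ℝ} (a : V → ℝ) :
    PP θ (fun i => a (gp hT z w i)) 0 (j - 1) = RW hT θ a o z := by
  obtain ⟨h1, h2, h3⟩ := (mem_pairsF hT).1 hq
  unfold RW PP
  rw [h1]
  rcases Nat.eq_zero_or_pos j with rfl | hj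
  · simp
  have hrefl := Finset.prod_Ico_reflect
    (fun i => gE θ (a (gp hT o z i)) (a (gp hT o z (i + 1)))) 0 (m := j - 1) (n := j - 1) (by omega)
  rw [show j - 1 + 1 - (j - 1) = 1 by omega, show j - 1 + 1 - 0 = j by omega] at hrefl
  rw [← hrefl]
  refine Finset.prod_congr rfl fun i hi => ?_
  have hi' := (Finset.mem_Ico.1 hi).2
  show gE θ (a (gp hT z w i)) (a (gp hT z w (i + 1))) = _
  rw [gp_left_of_mem_pairsF hT hq (by omega : i ≤ j), gp_left_of_mem_pairsF hT hq (by omega : i + 1 ≤ j),
    gE_comm]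
  rw [show j - 1 - i = j - (i + 1) by omega, show j - (i + 1) + 1 = j - i by omega]

/-- The weight of the right part of a pair, in terms of the ray from the midpoint. -/
theorem PP_right_of_mem_pairsF (hT : G.IsTree) {o z w : V} {j s : ℕ} (hq : (z, w) ∈ pairsF G o j s)
    {θ : ℝ} (a : V → ℝ) :
    PP θ (fun i => a (gp hT z w i)) (j + 1) (j + s) = RW hT θ a o w := by
  obtain ⟨h1, h2, h3⟩ := (mem_pairsF hT).1 hq
  unfold RW PP
  rw [h2]
  have := Finset.prod_Ico_add (fun i => gE θ (a (gp hT z w i)) (a (gp hT z w (i + 1)))) 1 s j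
  rw [show 1 + j = j + 1 by omega, show s + j = j + s by omega] at this
  rw [← this]
  refine Finset.prod_congr rfl fun i _ => ?_
  rw [gp_right_of_mem_pairsF hT hq i, show j + i + 1 = j + (i + 1) by omega,
    gp_right_of_mem_pairsF hT hq (i + 1)]

end Crest.Agent.Lib.IT
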