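/-
The a priori bound for the formal derivative of the conditional variance at small times (statement
S0241).
-/
import Crest.Agent.Lib.IT.Transport
import Crest.Agent.Lib.IT.LinkTail
import Crest.Agent.Lib.IT.NCApply
import Crest.Agent.Lib.IT.StepA3

set_option autoImplicit false

namespace Crest.Agent.Lib.IT

open MeasureTheory ProbabilityTheory SimpleGraph Filter Topology
open scoped ENNReal NNReal
open Crest.Agent.Lib.Loc

variable {V : Type*} {G : SimpleGraph V} [G.LocallyFinite] {k : ℕ} {θ : ℝ} [Countable V]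
  {ν : Measure (V → Bool)} [IsProbabilityMeasure ν]

section
variable (hT : G.IsTree) (hk : 2 ≤ k) (hreg : G.IsRegularOfDegree (k + 1)) (h0 : 0 ≤ θ) (h1 : θ < 1)
  (hkθ : (k : ℝ) * θ ^ 2 ≤ 1) (hν : IsIsing G θ ν)
include hT hk hreg h0 h1 hkθ hν

/-- Step A: the a priori bound at small times. -/
theorem exists_stepA : ∃ t₀ : ℝ, 0 < t₀ ∧ ∀ i : ℕ, 2 ≤ i → ∃ C : ℝ, 0 < C ∧
    ∀ (o : V) (n j R : ℕ), 0 < j → tm n j ≤ t₀ →
      VVt ν G o (ballF G R o) n j ≤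
        C * ((tm n j) ^ (-(3 / 4) : ℝ) * (dDt ν G o n j) ^ (1 - 1 / (2 : ℝ) ^ i) +
          (tm n j) ^ ((2 : ℝ) ^ i / 2 - 2)) := by
  refine ⟨1, one_pos, fun i hi => ?_⟩
  obtain ⟨Ci, hCi, hmom⟩ := moment_mg hT h0 h1 hν hk hreg hkθ i
  have hmom' : SA.MomB ν G i Ci := hmom
  obtain ⟨K, hK, hlip⟩ := exists_vhat_lip h0 h1
  obtain ⟨Cnc, hCnc, hnc⟩ := exists_nc_sum_le (G := G) (ν := ν) (θ := θ) hk
  have hncb : SA.NCB ν G Cnc := hnc hT hreg h0 h1 hkθ hν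
  obtain ⟨c₀, hc0, hc1, hrate⟩ := exists_rate h0 h1 hk hkθ
  have hp4 : 4 ≤ 2 ^ i := by
    calc 4 = 2 ^ 2 := rfl
      _ ≤ 2 ^ i := Nat.pow_le_pow_right (by norm_num) hi
  have hpc : ((2 ^ i : ℕ) : ℝ) = (2 : ℝ) ^ i := by push_cast; rfl
  set A : ℝ := (16 * ((2 ^ i : ℕ) : ℝ) / c₀ + 2) ^ 2 with hA
  set Cz : ℝ := 24 + 192 * Cnc * K ^ 2 with hCz
  set H : ℝ := 32 * Ci ^ (1 / ((2 ^ i : ℕ) : ℝ)) with hH
  set Q : ℝ := (4 : ℝ) ^ (2 ^ i) * Ci with hQ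
  have hCz0 : 0 < Cz := by positivity
  have hH0 : 0 < H := by positivity
  have hQ0 : 0 < Q := by positivity
  have hA0 : 0 < A := by positivity
  refine ⟨2 * A * (Cz * H) + 2 * A * Q + 2 / c₀, by positivity, ?_⟩
  intro o n j R hj ht1
  have ht : 0 < tm n j := by
    unfold tm
    positivity
  have ht4 : tm n j ≤ 4 := by linarith
  have hs0 : 0 < Real.sqrt (tm n j) := Real.sqrt_pos.2 ht
  have hs1 : Real.sqrt (tm n j) ≤ 1 := by
    rw [← Real.sqrt_one]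
    exact Real.sqrt_le_sqrt ht1
  set β : ℝ := 1 - c₀ * Real.sqrt (tm n j) / 2 with hβ
  have hβ0 : 0 ≤ β := by
    have : c₀ * Real.sqrt (tm n j) ≤ 1 * 1 := mul_le_mul hc1 hs1 hs0.le (by norm_num)
    rw [hβ]
    linarith
  have hβ1 : β < 1 := by
    have : 0 < c₀ * Real.sqrt (tm n j) := by positivity
    rw [hβ]
    linarith
  obtain ⟨N₀, hN₀⟩ := hrate (tm n j / 4) (by positivity)
  have hrβ : ∀ N, N₀ ≤ N → (k : ℝ) * θ ^ 2 * (1 - kill θ (xN k θ (tm n j / 4) N)) ≤ β := by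
    intro N hN
    refine (hN₀ N hN).trans (le_of_eq ?_)
    have e : Real.sqrt (tm n j / 4) = Real.sqrt (tm n j) / 2 := by
      rw [Real.sqrt_div ht.le, show (4 : ℝ) = 2 ^ 2 by norm_num, Real.sqrt_sq (by norm_num)]
    rw [e, min_eq_right (by linarith), hβ]
    ring
  obtain ⟨R₀, hR1, hR2⟩ := SA.exists_R0 ht ht1 hc0 hc1 (2 ^ i)
  set S : ℕ → ℝ := fun r => ∑ u ∈ sphereF G r o, VVu ν (ballFs G) (truthP ν) Prod.fst truthB o u n j
    with hS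
  have hV0 : ∀ u, 0 ≤ VVu ν (ballFs G) (truthP ν) Prod.fst truthB o u n j := by
    intro u
    unfold VVu
    exact integral_nonneg fun a => sq_nonneg _
  have hS0 : ∀ r, 0 ≤ S r := fun r => Finset.sum_nonneg fun u _ => hV0 u
  set Ds : ℝ := (dDt ν G o n j) ^ (1 - 1 / ((2 ^ i : ℕ) : ℝ)) with hDs
  have hDs0 : 0 ≤ Ds := Real.rpow_nonneg (SA.dDt_nonneg o n j) _
  set Q' : ℝ := Q * Real.sqrt (tm n j) ^ (2 ^ i) + (Cz * H) * (Real.sqrt (tm n j) * Ds) with hQ'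
  have hQ'0 : 0 ≤ Q' := by positivity
  have hS1 : ∀ r, S r ≤ 2 * ((r : ℝ) + 1) * Q' := by
    intro r
    have e : ∀ u ∈ sphereF G r o, VVu ν (ballFs G) (truthP ν) Prod.fst truthB o u n j ≤
        θ ^ (2 * r) * ((r : ℝ) + 1) * Q' := by
      intro u hu
      have h3 := SA.VVu_le hT hk hreg h0 h1 hν hi hCi hmom' hK hlip hCnc hncb o u ht ht4
      rw [(mem_sphereF hT).1 hu] at h3
      refine h3.trans (le_of_eq ?_)
      congr 1
      rw [hQ', SA.HE, hQ, hH]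
      ring
    refine (Finset.sum_le_sum e).trans ?_
    rw [Finset.sum_const, nsmul_eq_mul]
    have h3 := SA.card_sphere_mul_le hT hk hreg h0 hkθ r o
    have h4 : 0 ≤ ((r : ℝ) + 1) * Q' := by positivity
    have h5 := mul_le_mul_of_nonneg_right h3 h4
    calc _ = ((sphereF G r o).card : ℝ) * θ ^ (2 * r) * (((r : ℝ) + 1) * Q') := by ring
      _ ≤ 2 * (((r : ℝ) + 1) * Q') := h5
      _ = _ := by ring
  have hS2 : ∀ r, S (r + 1) ≤ β ^ r := by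
    intro r
    have h3 := sum_sphere_CRT_le hT hk hreg h0 h1 hkθ hν o hβ0 n j ht hrβ (r + 1) (by omega)
    have h4 : S (r + 1) ≤ ∑ u ∈ sphereF G (r + 1) o, 2 * ∫ a, CRT ν G o u n j a ^ 2 ∂(truthP ν) :=
      Finset.sum_le_sum fun u _ => SA.VVu_le_tail o u n j
    rw [← Finset.mul_sum] at h4
    simp only [Nat.add_sub_cancel] at h3
    have hk2 : (2 : ℝ) ≤ k := by exact_mod_cast hk
    have h5 : ((k : ℝ) + 1) * θ ^ 2 ≤ 2 := by nlinarith [sq_nonneg θ]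
    have h6 : 0 ≤ β ^ r := pow_nonneg hβ0 r
    have h7 : (1 / 16) * ((k : ℝ) + 1) * θ ^ 2 * β ^ r ≤ (1 / 8) * β ^ r := by nlinarith
    linarith
  have hVV : VVt ν G o (ballF G R o) n j = ∑ r ∈ Finset.range (R + 1), S r := by
    show VV _ _ _ _ _ _ _ _ _ = _
    unfold VV
    exact SA.sum_ball_eq hT _ R o
  rw [hVV]
  have h3 := SA.sum_split_le hS0 hQ'0 hβ0 hβ1 hS1 hS2 R R₀
  refine h3.trans ?_
  have h4 := SA.final_arith (2 ^ i) hp4 ht ht1 hc0 hDs0 hA0.le hQ0.le (by positivity) hR1 hR2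
    (CH := Cz * H)
  rw [← hβ] at h4
  have e1 : (dDt ν G o n j) ^ (1 - 1 / (2 : ℝ) ^ i) = Ds := by rw [hDs, hpc]
  have e2 : ((2 : ℝ) ^ i / 2 - 2) = (((2 ^ i : ℕ) : ℝ) / 2 - 2) := by rw [hpc]
  rw [e1, e2]
  exact h4

end

end Crest.Agent.Lib.IT
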