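/-
The propagation bound for the formal derivative of the conditional variance (statement S0241).
-/
import Crest.Agent.Lib.IT.Transport

set_option autoImplicit false

namespace Crest.Agent.Lib.IT

open MeasureTheory ProbabilityTheory SimpleGraph Filter Topology
open scoped ENNReal NNReal
open Crest.Agent.Lib.Loc

namespace StepBa

section BM
variable {Ω : Type*} [MeasurableSpace Ω]

/-- Bounded measurable functions. -/
def BM (f : Ω → ℝ) : Prop := Measurable f ∧ ∃ C, ∀ a, |f a| ≤ C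

lemma BM.integrable {f : Ω → ℝ} (hf : BM f) (μ : Measure Ω) [IsFiniteMeasure μ] :
    Integrable f μ := by
  obtain ⟨hm, C, hC⟩ := hf
  exact Integrable.of_bound hm.aestronglyMeasurable C (ae_of_all _ fun a => by
    simpa [Real.norm_eq_abs] using hC a)

lemma BM.const (c : ℝ) : BM (fun _ : Ω => c) := ⟨measurable_const, |c|, fun _ => le_rfl⟩

lemma BM.mul {f g : Ω → ℝ} (hf : BM f) (hg : BM g) : BM (fun a => f a * g a) := by
  obtain ⟨hm, C, hC⟩ := hf
  obtain ⟨hm', C', hC'⟩ := hg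
  refine ⟨hm.mul hm', C * C', fun a => ?_⟩
  rw [abs_mul]
  exact mul_le_mul (hC a) (hC' a) (abs_nonneg _) ((abs_nonneg _).trans (hC a))

lemma BM.add {f g : Ω → ℝ} (hf : BM f) (hg : BM g) : BM (fun a => f a + g a) := by
  obtain ⟨hm, C, hC⟩ := hf
  obtain ⟨hm', C', hC'⟩ := hg
  exact ⟨hm.add hm', C + C', fun a => (abs_add_le _ _).trans (add_le_add (hC a) (hC' a))⟩

lemma BM.sub {f g : Ω → ℝ} (hf : BM f) (hg : BM g) : BM (fun a => f a - g a) := by
  obtain ⟨hm, C, hC⟩ := hf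
  obtain ⟨hm', C', hC'⟩ := hg
  exact ⟨hm.sub hm', C + C', fun a => (abs_sub _ _).trans (add_le_add (hC a) (hC' a))⟩

lemma BM.pow {f : Ω → ℝ} (hf : BM f) (n : ℕ) : BM (fun a => f a ^ n) := by
  induction n with
  | zero => simpa using BM.const (1 : ℝ)
  | succ n ih => simpa [pow_succ] using ih.mul hf

lemma BM.sum {ι : Type*} (s : Finset ι) (f : ι → Ω → ℝ) (h : ∀ i ∈ s, BM (f i)) :
    BM (fun a => ∑ i ∈ s, f i a) := by
  classical
  induction s using Finset.induction_on with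
  | empty => simpa using BM.const (0 : ℝ)
  | insert i s hi ih =>
    simp_rw [Finset.sum_insert hi]
    exact (h i (Finset.mem_insert_self _ _)).add
      (ih fun j hj => h j (Finset.mem_insert_of_mem hj))

lemma BM.prod {ι : Type*} (s : Finset ι) (f : ι → Ω → ℝ) (h : ∀ i ∈ s, BM (f i)) :
    BM (fun a => ∏ i ∈ s, f i a) := by
  classical
  induction s using Finset.induction_on with
  | empty => simpa using BM.const (1 : ℝ)
  | insert i s hi ih =>
    simp_rw [Finset.prod_insert hi]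
    exact (h i (Finset.mem_insert_self _ _)).mul
      (ih fun j hj => h j (Finset.mem_insert_of_mem hj))

end BM

lemma measurable_gE2 (θ : ℝ) : Measurable (fun p : ℝ × ℝ => gE θ p.1 p.2) := by
  unfold gE WW RR
  fun_prop

lemma BM_gE {Ω : Type*} [MeasurableSpace Ω] {θ : ℝ} (h0 : 0 ≤ θ) (h1 : θ < 1) {A B : Ω → ℝ}
    (hA : Measurable A) (hB : Measurable B) (hA1 : ∀ a, |A a| ≤ 1) (hB1 : ∀ a, |B a| ≤ 1) :
    BM (fun a => gE θ (A a) (B a)) := by
  refine ⟨(measurable_gE2 θ).comp (hA.prodMk hB), 1 / (1 - θ) ^ 2, fun a => ?_⟩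
  rw [abs_of_nonneg (gE_nonneg h0 h1 (hA1 a) (hB1 a))]
  unfold gE
  have hs1 : Real.sqrt (1 - A a ^ 2) ≤ 1 := Real.sqrt_le_one.2 (by nlinarith [sq_nonneg (A a)])
  have hs2 : Real.sqrt (1 - B a ^ 2) ≤ 1 := Real.sqrt_le_one.2 (by nlinarith [sq_nonneg (B a)])
  have hW := WW_le h0 h1 (hA1 a) (hB1 a)
  have hWp := WW_pos h0 h1 (hA1 a) (hB1 a)
  calc Real.sqrt (1 - A a ^ 2) * Real.sqrt (1 - B a ^ 2) * WW θ (A a) (B a)
      ≤ 1 * 1 * WW θ (A a) (B a) := by gcongr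
    _ ≤ 1 / (1 - θ) ^ 2 := by simpa using hW

lemma BM_PP {Ω : Type*} [MeasurableSpace Ω] {θ : ℝ} (h0 : 0 ≤ θ) (h1 : θ < 1) {A : Ω → ℕ → ℝ}
    (hA : ∀ i, Measurable fun a => A a i) (hA1 : ∀ a i, |A a i| ≤ 1) (s e : ℕ) :
    BM (fun a => PP θ (A a) s e) := by
  unfold PP
  exact BM.prod _ _ fun i _ => BM_gE h0 h1 (hA i) (hA (i + 1)) (fun a => hA1 a i) (fun a => hA1 a _)

lemma PP_nonneg {θ : ℝ} (h0 : 0 ≤ θ) (h1 : θ < 1) {a : ℕ → ℝ} (ha : ∀ i, |a i| ≤ 1) (s e : ℕ) :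
    0 ≤ PP θ a s e :=
  Finset.prod_nonneg fun _ _ => gE_nonneg h0 h1 (ha _) (ha _)

lemma sum_conv_le (a b : ℕ → ℝ) (ha : ∀ i, 0 ≤ a i) (hb : ∀ i, 0 ≤ b i) (R : ℕ) :
    ∑ r ∈ Finset.range (R + 1), ∑ i ∈ Finset.range (r + 1), a i * b (r - i) ≤
      (∑ i ∈ Finset.range (R + 1), a i) * ∑ s ∈ Finset.range (R + 1), b s := by
  have h1 : ∑ r ∈ Finset.range (R + 1), ∑ i ∈ Finset.range (r + 1), a i * b (r - i) =
      ∑ i ∈ Finset.range (R + 1), ∑ r ∈ Finset.Ico i (R + 1), a i * b (r - i) := by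
    refine Finset.sum_comm' ?_
    intro x y
    simp only [Finset.mem_range, Finset.mem_Ico]
    omega
  rw [h1, Finset.sum_mul]
  refine Finset.sum_le_sum fun i _ => ?_
  rw [← Finset.mul_sum]
  refine mul_le_mul_of_nonneg_left ?_ (ha i)
  rw [Finset.sum_Ico_eq_sum_range]
  simp only [Nat.add_sub_cancel_left]
  exact Finset.sum_le_sum_of_subset_of_nonneg (Finset.range_mono (by omega)) fun s _ _ => hb s

lemma pointwise_final (a b : ℕ → ℝ) (ha : ∀ i, 0 ≤ a i) (hb : ∀ i, 0 ≤ b i) {c : ℝ} (hc : 0 ≤ c)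
    (R : ℕ) :
    ∑ r ∈ Finset.range (R + 1), ∑ i ∈ Finset.range (r + 1), c * (a i * b (r - i)) ≤
      c * (∑ i ∈ Finset.range (R + 2), b i) * ∑ i ∈ Finset.range (R + 2), a i := by
  have h1 := sum_conv_le a b ha hb R
  have hs1 : ∑ i ∈ Finset.range (R + 1), a i ≤ ∑ i ∈ Finset.range (R + 2), a i :=
    Finset.sum_le_sum_of_subset_of_nonneg (Finset.range_mono (by omega)) fun i _ _ => ha i
  have hs2 : ∑ i ∈ Finset.range (R + 1), b i ≤ ∑ i ∈ Finset.range (R + 2), b i :=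
    Finset.sum_le_sum_of_subset_of_nonneg (Finset.range_mono (by omega)) fun i _ _ => hb i
  have hn1 : 0 ≤ ∑ i ∈ Finset.range (R + 1), b i := Finset.sum_nonneg fun i _ => hb i
  have hn2 : 0 ≤ ∑ i ∈ Finset.range (R + 2), a i := Finset.sum_nonneg fun i _ => ha i
  have e2 : ∑ r ∈ Finset.range (R + 1), ∑ i ∈ Finset.range (r + 1), c * (a i * b (r - i)) =
      c * ∑ r ∈ Finset.range (R + 1), ∑ i ∈ Finset.range (r + 1), a i * b (r - i) := by
    rw [Finset.mul_sum]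
    refine Finset.sum_congr rfl fun r _ => ?_
    rw [Finset.mul_sum]
  rw [e2, mul_assoc]
  refine mul_le_mul_of_nonneg_left ?_ hc
  calc _ ≤ (∑ i ∈ Finset.range (R + 1), a i) * ∑ s ∈ Finset.range (R + 1), b s := h1
    _ ≤ (∑ i ∈ Finset.range (R + 2), a i) * ∑ s ∈ Finset.range (R + 1), b s :=
      mul_le_mul_of_nonneg_right hs1 hn1
    _ ≤ (∑ i ∈ Finset.range (R + 2), a i) * ∑ s ∈ Finset.range (R + 2), b s :=
      mul_le_mul_of_nonneg_left hs2 hn2
    _ = _ := mul_comm _ _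

end StepBa

open StepBa

variable {V : Type*} {G : SimpleGraph V} [G.LocallyFinite] {k : ℕ} {θ : ℝ} [Countable V]
  {ν : Measure (V → Bool)} [IsProbabilityMeasure ν]

namespace StepBa

/-- The integrand of the hybrid bound. -/
noncomputable def itg (hT : G.IsTree) (θ : ℝ) (ν : Measure (V → Bool)) (n j i s : ℕ) (z w : V)
    (p : TΩ V × TΩ V) : ℝ :=
  PP θ (fun l => mg ν G (gp hT z w l) n j p.2) 0 (i - 1) *
    PP θ (fun l => mg ν G (gp hT z w l) n j p.1) (i + 1) (i + s) *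
    (mg ν G (gp hT z w i) n j p.1 - mg ν G (gp hT z w i) n j p.2) ^ 2

lemma BM_mg1 (x : V) (n j : ℕ) : BM (fun p : TΩ V × TΩ V => mg ν G x n j p.1) :=
  ⟨(measurable_mg x n j).comp measurable_fst, 1, fun p => abs_mg_le x n j p.1⟩

lemma BM_mg2 (x : V) (n j : ℕ) : BM (fun p : TΩ V × TΩ V => mg ν G x n j p.2) :=
  ⟨(measurable_mg x n j).comp measurable_snd, 1, fun p => abs_mg_le x n j p.2⟩

lemma BM_itg (hT : G.IsTree) (h0 : 0 ≤ θ) (h1 : θ < 1) (n j i s : ℕ) (z w : V) :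
    BM (itg hT θ ν n j i s z w) := by
  unfold itg
  refine ((BM_PP h0 h1 (A := fun (p : TΩ V × TΩ V) l => mg ν G (gp hT z w l) n j p.2)
    (fun l => (BM_mg2 _ n j).1) (fun p l => abs_mg_le _ n j p.2) _ _).mul
    (BM_PP h0 h1 (A := fun (p : TΩ V × TΩ V) l => mg ν G (gp hT z w l) n j p.1)
    (fun l => (BM_mg1 _ n j).1) (fun p l => abs_mg_le _ n j p.1) _ _)).mul
    (((BM_mg1 _ n j).sub (BM_mg2 _ n j)).pow 2)

/-- The integrated hybrid term. -/
noncomputable def FF (hT : G.IsTree) (θ : ℝ) (ν : Measure (V → Bool)) [IsProbabilityMeasure ν]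
    (n j i s : ℕ) (z w : V) : ℝ :=
  ∫ p, itg hT θ ν n j i s z w p ∂(P2 ν G n j)

/-- The hybrid term is invariant under the automorphisms. -/
lemma FF_inv (hT : G.IsTree) (h0 : 0 ≤ θ) (h1 : θ < 1) (hν : IsIsing G θ ν) (n j i s : ℕ)
    (g : G ≃g G) (z w : V) : FF hT θ ν n j i s (g z) (g w) = FF hT θ ν n j i s z w := by
  unfold FF
  have h := P2_map_hatg hT h0 h1 hν g n j
  have hm : Measurable (itg hT θ ν n j i s z w) := (BM_itg hT h0 h1 n j i s z w).1
  have hgm : Measurable (Prod.map (hatg g) (hatg g) : TΩ V × TΩ V → TΩ V × TΩ V) :=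
    (measurable_hatg g).prodMap (measurable_hatg g)
  conv_rhs => rw [← h]
  rw [integral_map hgm.aemeasurable hm.aestronglyMeasurable]
  refine integral_congr_ae (ae_of_all _ fun p => ?_)
  simp only [itg, Prod.map_fst, Prod.map_snd]
  simp_rw [mg_hatg hT h0 h1 hν g, gp_iso hT g]

lemma pathOK_of (hT : G.IsTree) (o u : V) (n j : ℕ) (a : TΩ V)
    (ha : ∀ x y : V, G.Adj x y →
      gE θ (mg ν G x n j a) (mg ν G y n j a) ≤ 1 ∧
      gE θ (mg ν G x n j a) (mg ν G y n j a) ^ 2 ≤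
        Real.exp (-((1 - θ ^ 2) / 4) * (mg ν G x n j a ^ 2 + mg ν G y n j a ^ 2))) :
    PathOK θ (fun i => mg ν G (gp hT o u i) n j a) (G.dist o u) :=
  ⟨fun _ => abs_mg_le _ _ _ _, fun _ hi => ha _ _ (gp_adj hT o u hi)⟩

/-- The bound of the conditional variance of one covariance. -/
lemma VVu_le (hT : G.IsTree) (h0 : 0 ≤ θ) (h1 : θ < 1) (hν : IsIsing G θ ν) {K₀ : ℝ} (hK₀ : 0 < K₀)
    (hK : ∀ (m m' : ℕ → ℝ) (r : ℕ), PathOK θ m r → PathOK θ m' r →
      (pathC θ m r - pathC θ m' r) ^ 2 ≤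
        θ ^ (2 * r) * K₀ * ∑ j ∈ Finset.range (r + 1),
          PP θ m' 0 (j - 1) * PP θ m (j + 1) r * (m j - m' j) ^ 2)
    (o u : V) (n j : ℕ) :
    VVu ν (ballFs G) (truthP ν) Prod.fst truthB o u n j ≤
      (K₀ / 32) * (θ ^ (2 * G.dist o u) *
        ∑ i ∈ Finset.range (G.dist o u + 1), FF hT θ ν n j i (G.dist o u - i) o u) := by
  have T := truth_spec ν
  set r := G.dist o u with hr
  rw [VVu_eq_P2]
  have hae : ∀ᵐ p ∂(P2 ν G n j), (CRT ν G o u n j p.1 - CRT ν G o u n j p.2) ^ 2 ≤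
      (K₀ / 16) * (θ ^ (2 * r) * ∑ i ∈ Finset.range (r + 1), itg hT θ ν n j i (r - i) o u p) := by
    filter_upwards [ae_P2_of_ae (G := G) n j (ae_CRT_path hT h0 h1 hν o u n j),
      ae_P2_of_ae (G := G) n j (ae_gE_bounds hT h0 h1 hν n j)] with p hp1 hp2
    have hm := pathOK_of hT o u n j p.1 hp2.1
    have hm' := pathOK_of hT o u n j p.2 hp2.2
    have key := hK _ _ r hm hm'
    rw [← hr] at hp1
    rw [← hp1.1, ← hp1.2] at key
    have e : ∑ i ∈ Finset.range (r + 1), itg hT θ ν n j i (r - i) o u p =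
        ∑ i ∈ Finset.range (r + 1),
          PP θ (fun i => mg ν G (gp hT o u i) n j p.2) 0 (i - 1) *
          PP θ (fun i => mg ν G (gp hT o u i) n j p.1) (i + 1) r *
          (mg ν G (gp hT o u i) n j p.1 - mg ν G (gp hT o u i) n j p.2) ^ 2 := by
      refine Finset.sum_congr rfl fun i hi => ?_
      have hir : i + (r - i) = r := by
        have := Finset.mem_range.1 hi
        omega
      unfold itg
      rw [hir]
    rw [e]
    nlinarith [key]
  have hil : Integrable (fun p : TΩ V × TΩ V => (CRT ν G o u n j p.1 - CRT ν G o u n j p.2) ^ 2)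
      (P2 ν G n j) := by
    have hb : BM (fun p : TΩ V × TΩ V => (CRT ν G o u n j p.1 - CRT ν G o u n j p.2) ^ 2) :=
      ((BM.sub ⟨(measurable_CRt T o u n j).comp measurable_fst, 1, fun p => abs_CRt_le o u n j p.1⟩
        ⟨(measurable_CRt T o u n j).comp measurable_snd, 1, fun p => abs_CRt_le o u n j p.2⟩)).pow 2
    exact hb.integrable _
  have hir : Integrable (fun p : TΩ V × TΩ V => (K₀ / 16) * (θ ^ (2 * r) *
      ∑ i ∈ Finset.range (r + 1), itg hT θ ν n j i (r - i) o u p)) (P2 ν G n j) := by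
    have hb : BM (fun p : TΩ V × TΩ V => (K₀ / 16) * (θ ^ (2 * r) *
        ∑ i ∈ Finset.range (r + 1), itg hT θ ν n j i (r - i) o u p)) :=
      (BM.const _).mul ((BM.const _).mul (BM.sum _ _ fun i _ => BM_itg hT h0 h1 n j i _ o u))
    exact hb.integrable _
  have hmono := integral_mono_ae hil hir hae
  rw [integral_const_mul, integral_const_mul,
    integral_finsetSum _ fun i _ => (BM_itg hT h0 h1 n j i _ o u).integrable _] at hmono
  have e2 : ∑ i ∈ Finset.range (r + 1), ∫ p, itg hT θ ν n j i (r - i) o u p ∂(P2 ν G n j) =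
      ∑ i ∈ Finset.range (r + 1), FF hT θ ν n j i (r - i) o u := rfl
  rw [e2] at hmono
  linarith

lemma sum_ball_eq (hT : G.IsTree) (o : V) (R : ℕ) (f : V → ℝ) :
    ∑ u ∈ ballF G R o, f u = ∑ r ∈ Finset.range (R + 1), ∑ u ∈ sphereF G r o, f u := by
  classical
  have hmaps : ∀ x ∈ ballF G R o, G.dist o x ∈ Finset.range (R + 1) := by
    intro x hx
    have := (mem_ballF hT).1 hx
    exact Finset.mem_range.2 (by omega)
  rw [← Finset.sum_fiberwise_of_maps_to hmaps f]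
  refine Finset.sum_congr rfl fun r hr => Finset.sum_congr ?_ fun _ _ => rfl
  ext x
  simp only [Finset.mem_filter, mem_ballF hT, mem_sphereF hT]
  have := Finset.mem_range.1 hr
  constructor
  · exact fun h => h.2
  · intro h
    exact ⟨by omega, h⟩

lemma FF_pairs (hT : G.IsTree) {o z w : V} {i s : ℕ} (hq : (z, w) ∈ pairsF G o i s) (n j : ℕ) :
    FF hT θ ν n j i s z w = ∫ p, RW hT θ (fun x => mg ν G x n j p.2) o z *
      RW hT θ (fun x => mg ν G x n j p.1) o w *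
      (mg ν G o n j p.1 - mg ν G o n j p.2) ^ 2 ∂(P2 ν G n j) := by
  unfold FF
  refine integral_congr_ae (ae_of_all _ fun p => ?_)
  have e1 := PP_left_of_mem_pairsF hT hq (θ := θ) (fun x => mg ν G x n j p.2)
  have e2 := PP_right_of_mem_pairsF hT hq (θ := θ) (fun x => mg ν G x n j p.1)
  show itg hT θ ν n j i s z w p = RW hT θ (fun x => mg ν G x n j p.2) o z *
      RW hT θ (fun x => mg ν G x n j p.1) o w * (mg ν G o n j p.1 - mg ν G o n j p.2) ^ 2
  unfold itg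
  rw [gp_of_mem_pairsF hT hq, e1, e2]

lemma RW_nonneg (hT : G.IsTree) (h0 : 0 ≤ θ) (h1 : θ < 1) {a : V → ℝ} (ha : ∀ x, |a x| ≤ 1)
    (o z : V) : 0 ≤ RW hT θ a o z :=
  PP_nonneg h0 h1 (fun _ => ha _) _ _

lemma Lev_nonneg (hT : G.IsTree) (h0 : 0 ≤ θ) (h1 : θ < 1) {a : V → ℝ} (ha : ∀ x, |a x| ≤ 1)
    (o : V) (i : ℕ) : 0 ≤ Lev hT θ a o i :=
  Finset.sum_nonneg fun _ _ => mul_nonneg (pow_nonneg h0 _) (RW_nonneg hT h0 h1 ha _ _)

lemma pairs_le (hT : G.IsTree) (h0 : 0 ≤ θ) (h1 : θ < 1) {a b : V → ℝ} (ha : ∀ x, |a x| ≤ 1)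
    (hb : ∀ x, |b x| ≤ 1) (o : V) (i s : ℕ) {c : ℝ} (hc : 0 ≤ c) :
    θ ^ (2 * (i + s)) * ∑ q ∈ pairsF G o i s, RW hT θ a o q.1 * RW hT θ b o q.2 * c ≤
      c * (Lev hT θ a o i * Lev hT θ b o s) := by
  classical
  calc θ ^ (2 * (i + s)) * ∑ q ∈ pairsF G o i s, RW hT θ a o q.1 * RW hT θ b o q.2 * c
      = ∑ q ∈ pairsF G o i s, c * ((θ ^ (2 * i) * RW hT θ a o q.1) *
          (θ ^ (2 * s) * RW hT θ b o q.2)) := by
        rw [Finset.mul_sum]
        refine Finset.sum_congr rfl fun q _ => ?_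
        rw [mul_add, pow_add]
        ring
    _ ≤ ∑ q ∈ sphereF G i o ×ˢ sphereF G s o, c * ((θ ^ (2 * i) * RW hT θ a o q.1) *
          (θ ^ (2 * s) * RW hT θ b o q.2)) :=
        Finset.sum_le_sum_of_subset_of_nonneg (Finset.filter_subset _ _) fun q _ _ =>
          mul_nonneg hc (mul_nonneg (mul_nonneg (pow_nonneg h0 _) (RW_nonneg hT h0 h1 ha _ _))
            (mul_nonneg (pow_nonneg h0 _) (RW_nonneg hT h0 h1 hb _ _)))
    _ = c * (Lev hT θ a o i * Lev hT θ b o s) := by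
        unfold Lev
        rw [Finset.sum_mul_sum, Finset.mul_sum, Finset.sum_product]
        refine Finset.sum_congr rfl fun z _ => ?_
        rw [Finset.mul_sum]

lemma BM_RW (hT : G.IsTree) (h0 : 0 ≤ θ) (h1 : θ < 1) {Ω : Type*} [MeasurableSpace Ω] {A : Ω → V → ℝ}
    (hA : ∀ x, Measurable fun a => A a x) (hA1 : ∀ a x, |A a x| ≤ 1) (o z : V) :
    BM (fun a => RW hT θ (A a) o z) :=
  BM_PP h0 h1 (A := fun a l => A a (gp hT o z l)) (fun _ => hA _) (fun _ _ => hA1 _ _) _ _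

lemma BM_Lev (hT : G.IsTree) (h0 : 0 ≤ θ) (h1 : θ < 1) {Ω : Type*} [MeasurableSpace Ω] {A : Ω → V → ℝ}
    (hA : ∀ x, Measurable fun a => A a x) (hA1 : ∀ a x, |A a x| ≤ 1) (o : V) (i : ℕ) :
    BM (fun a => Lev hT θ (A a) o i) :=
  BM.sum _ _ fun z _ => (BM.const _).mul (BM_RW hT h0 h1 hA hA1 o z)

lemma GrG_eq (hT : G.IsTree) (o : V) (n j R : ℕ) (a : TΩ V) :
    GrG G θ (geW θ ν G n j a) R o =
      ∑ i ∈ Finset.range (R + 2), Lev hT θ (fun x => mg ν G x n j a) o i :=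
  (sum_Lev_eq_GrG hT θ _ o R).symm

lemma sum_sphere_pairs' (hT : G.IsTree) (hk : 1 ≤ k) (hreg : G.IsRegularOfDegree (k + 1)) (o : V)
    (i s : ℕ) (F : V → V → ℝ) (hF : ∀ (g : G ≃g G) (z w : V), F (g z) (g w) = F z w) :
    ∑ u ∈ sphereF G (i + s) o, F o u = ∑ q ∈ pairsF G o i s, F q.1 q.2 := by
  classical
  by_cases h : 1 ≤ i + s
  · exact sum_sphere_eq_sum_pairs hT hk hreg o i s h F hF
  · obtain ⟨rfl, rfl⟩ : i = 0 ∧ s = 0 := by omega
    have e : pairsF G o 0 0 = {(o, o)} := by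
      unfold pairsF
      ext q
      simp only [sphereF, Finset.mem_filter, Finset.mem_product, Finset.mem_singleton]
      constructor
      · rintro ⟨⟨h1, h2⟩, -⟩
        exact Prod.ext h1 h2
      · rintro rfl
        simp
    rw [e]
    simp [sphereF]

end StepBa

section
variable (hT : G.IsTree) (hk : 2 ≤ k) (hreg : G.IsRegularOfDegree (k + 1)) (h0 : 0 ≤ θ) (h1 : θ < 1)
  (hkθ : (k : ℝ) * θ ^ 2 ≤ 1) (hν : IsIsing G θ ν)
include hT hk hreg h0 h1 hkθ hν

/-- The formal derivative is bounded by the variance at the root against the Green functions of the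
two copies. The constant depends only on `θ`. -/
theorem exists_VV_le_green : ∃ K : ℝ, 0 < K ∧ ∀ (o : V) (n j R : ℕ),
    VVt ν G o (ballF G R o) n j ≤
      K * ∫ p, (mg ν G o n j p.1 - mg ν G o n j p.2) ^ 2 *
        GrG G θ (geW θ ν G n j p.1) R o * GrG G θ (geW θ ν G n j p.2) R o ∂(P2 ν G n j) := by
  classical
  obtain ⟨K₀, hK₀, hK⟩ := exists_pathC_sub_sq_le h0 h1
  refine ⟨K₀ / 32, by positivity, fun o n j R => ?_⟩
  let η2 : TΩ V × TΩ V → ℝ := fun p => (mg ν G o n j p.1 - mg ν G o n j p.2) ^ 2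
  have hη2 : BM η2 := ((BM_mg1 o n j).sub (BM_mg2 o n j)).pow 2
  have hη0 : ∀ p, 0 ≤ η2 p := fun p => sq_nonneg _
  let L1 : ℕ → TΩ V × TΩ V → ℝ := fun i p => Lev hT θ (fun x => mg ν G x n j p.1) o i
  let L2 : ℕ → TΩ V × TΩ V → ℝ := fun i p => Lev hT θ (fun x => mg ν G x n j p.2) o i
  have hL1 : ∀ i, BM (L1 i) := fun i =>
    BM_Lev hT h0 h1 (A := fun (p : TΩ V × TΩ V) x => mg ν G x n j p.1)
      (fun x => (BM_mg1 x n j).1) (fun p x => abs_mg_le x n j p.1) o i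
  have hL2 : ∀ i, BM (L2 i) := fun i =>
    BM_Lev hT h0 h1 (A := fun (p : TΩ V × TΩ V) x => mg ν G x n j p.2)
      (fun x => (BM_mg2 x n j).1) (fun p x => abs_mg_le x n j p.2) o i
  have hL1n : ∀ i p, 0 ≤ L1 i p := fun i p =>
    Lev_nonneg hT h0 h1 (fun x => abs_mg_le x n j p.1) o i
  have hL2n : ∀ i p, 0 ≤ L2 i p := fun i p =>
    Lev_nonneg hT h0 h1 (fun x => abs_mg_le x n j p.2) o i
  have hT1 : ∀ (i s : ℕ), BM (fun p => η2 p * (L2 i p * L1 s p)) := fun i s =>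
    hη2.mul ((hL2 i).mul (hL1 s))
  have hLhs : VVt ν G o (ballF G R o) n j ≤ ∑ r ∈ Finset.range (R + 1), ∑ u ∈ sphereF G r o,
      (K₀ / 32) * (θ ^ (2 * r) * ∑ i ∈ Finset.range (r + 1), FF hT θ ν n j i (r - i) o u) := by
    show ∑ u ∈ ballF G R o, VVu ν (ballFs G) (truthP ν) Prod.fst truthB o u n j ≤ _
    rw [sum_ball_eq hT]
    refine Finset.sum_le_sum fun r _ => Finset.sum_le_sum fun u hu => ?_
    have hd := (mem_sphereF hT).1 hu
    have h2 := VVu_le hT h0 h1 hν hK₀ hK o u n j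
    rw [hd] at h2
    exact h2
  have hr : ∀ r, ∑ u ∈ sphereF G r o,
      (K₀ / 32) * (θ ^ (2 * r) * ∑ i ∈ Finset.range (r + 1), FF hT θ ν n j i (r - i) o u) ≤
      (K₀ / 32) * ∑ i ∈ Finset.range (r + 1), ∫ p, η2 p * (L2 i p * L1 (r - i) p) ∂(P2 ν G n j) := by
    intro r
    rw [← Finset.mul_sum, ← Finset.mul_sum]
    refine mul_le_mul_of_nonneg_left ?_ (by positivity)
    rw [Finset.sum_comm, Finset.mul_sum]
    refine Finset.sum_le_sum fun i hi => ?_
    have hir : i + (r - i) = r := by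
      have := Finset.mem_range.1 hi
      omega
    have h2 := sum_sphere_pairs' hT (by omega : 1 ≤ k) hreg o i (r - i)
      (FF hT θ ν n j i (r - i)) (FF_inv hT h0 h1 hν n j i (r - i))
    rw [hir] at h2
    rw [h2, Finset.sum_congr rfl (fun q (hq : q ∈ pairsF G o i (r - i)) =>
      FF_pairs hT (z := q.1) (w := q.2) hq n j)]
    have hiT : ∀ q : V × V, Integrable (fun p : TΩ V × TΩ V =>
        RW hT θ (fun x => mg ν G x n j p.2) o q.1 * RW hT θ (fun x => mg ν G x n j p.1) o q.2 *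
        (mg ν G o n j p.1 - mg ν G o n j p.2) ^ 2) (P2 ν G n j) := by
      intro q
      refine (((BM_RW hT h0 h1 (A := fun (p : TΩ V × TΩ V) x => mg ν G x n j p.2)
        (fun x => (BM_mg2 x n j).1) (fun p x => abs_mg_le x n j p.2) o q.1).mul
        (BM_RW hT h0 h1 (A := fun (p : TΩ V × TΩ V) x => mg ν G x n j p.1)
        (fun x => (BM_mg1 x n j).1) (fun p x => abs_mg_le x n j p.1) o q.2)).mul hη2).integrable _
    rw [← integral_finsetSum _ fun q _ => hiT q, ← integral_const_mul]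
    refine integral_mono ((integrable_finsetSum _ fun q _ => hiT q).const_mul _)
      ((hT1 i (r - i)).integrable _) fun p => ?_
    have h3 := pairs_le hT h0 h1 (a := fun x => mg ν G x n j p.2) (b := fun x => mg ν G x n j p.1)
      (fun x => abs_mg_le x n j p.2) (fun x => abs_mg_le x n j p.1) o i (r - i) (hη0 p)
    rw [hir] at h3
    exact h3
  have hint : ∀ r ∈ Finset.range (R + 1), ∀ i ∈ Finset.range (r + 1),
      Integrable (fun p => η2 p * (L2 i p * L1 (r - i) p)) (P2 ν G n j) := fun r _ i _ =>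
    (hT1 i (r - i)).integrable _
  have hfin : ∑ r ∈ Finset.range (R + 1), ∑ i ∈ Finset.range (r + 1),
      ∫ p, η2 p * (L2 i p * L1 (r - i) p) ∂(P2 ν G n j) ≤
      ∫ p, (mg ν G o n j p.1 - mg ν G o n j p.2) ^ 2 *
        GrG G θ (geW θ ν G n j p.1) R o * GrG G θ (geW θ ν G n j p.2) R o ∂(P2 ν G n j) := by
    have e1 : ∑ r ∈ Finset.range (R + 1), ∑ i ∈ Finset.range (r + 1),
        ∫ p, η2 p * (L2 i p * L1 (r - i) p) ∂(P2 ν G n j) =
        ∫ p, ∑ r ∈ Finset.range (R + 1), ∑ i ∈ Finset.range (r + 1),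
          η2 p * (L2 i p * L1 (r - i) p) ∂(P2 ν G n j) := by
      rw [integral_finsetSum _ fun r hr => integrable_finsetSum _ (hint r hr)]
      refine Finset.sum_congr rfl fun r hr => ?_
      rw [integral_finsetSum _ (hint r hr)]
    rw [e1]
    have hG : ∀ (p : TΩ V × TΩ V),
        GrG G θ (geW θ ν G n j p.1) R o = ∑ i ∈ Finset.range (R + 2), L1 i p ∧
        GrG G θ (geW θ ν G n j p.2) R o = ∑ i ∈ Finset.range (R + 2), L2 i p := fun p =>
      ⟨GrG_eq hT o n j R p.1, GrG_eq hT o n j R p.2⟩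
    have hBr : BM (fun p : TΩ V × TΩ V => (mg ν G o n j p.1 - mg ν G o n j p.2) ^ 2 *
        GrG G θ (geW θ ν G n j p.1) R o * GrG G θ (geW θ ν G n j p.2) R o) := by
      simp_rw [fun p : TΩ V × TΩ V => (hG p).1, fun p : TΩ V × TΩ V => (hG p).2]
      exact (hη2.mul (BM.sum _ _ fun i _ => hL1 i)).mul (BM.sum _ _ fun i _ => hL2 i)
    refine integral_mono (integrable_finsetSum _ fun r hr => integrable_finsetSum _ (hint r hr))
      (hBr.integrable _) fun p => ?_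
    show ∑ r ∈ Finset.range (R + 1), ∑ i ∈ Finset.range (r + 1), η2 p * (L2 i p * L1 (r - i) p) ≤
      η2 p * GrG G θ (geW θ ν G n j p.1) R o * GrG G θ (geW θ ν G n j p.2) R o
    rw [(hG p).1, (hG p).2]
    exact pointwise_final (fun i => L2 i p) (fun i => L1 i p) (fun i => hL2n i p)
      (fun i => hL1n i p) (hη0 p) R
  calc VVt ν G o (ballF G R o) n j ≤ _ := hLhs
    _ ≤ ∑ r ∈ Finset.range (R + 1), (K₀ / 32) * ∑ i ∈ Finset.range (r + 1),
          ∫ p, η2 p * (L2 i p * L1 (r - i) p) ∂(P2 ν G n j) :=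
        Finset.sum_le_sum fun r _ => hr r
    _ = (K₀ / 32) * ∑ r ∈ Finset.range (R + 1), ∑ i ∈ Finset.range (r + 1),
          ∫ p, η2 p * (L2 i p * L1 (r - i) p) ∂(P2 ν G n j) := by
        rw [Finset.mul_sum]
    _ ≤ _ := mul_le_mul_of_nonneg_left hfin (by positivity)

end

end Crest.Agent.Lib.IT
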