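/-
The propagation bound: the exponential moments of the Green function and the integration against the
two copies (statement S0241, Step B).
-/
import Crest.Agent.Lib.IT.StepB

set_option autoImplicit false

namespace Crest.Agent.Lib.IT

open MeasureTheory ProbabilityTheory SimpleGraph Filter Topology
open scoped ENNReal NNReal
open Crest.Agent.Lib.Loc

namespace StepB2

/-- The pointwise bound. -/
lemma pointwise {η A B x lam : ℝ} (hη : η ^ 2 ≤ 4) (hA : 0 ≤ A) (hB : 0 ≤ B) (hx : 0 ≤ x)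
    (hlam : 0 < lam) :
    η ^ 2 * A * B ≤ x ^ 2 * η ^ 2 +
      (8 / lam ^ 2) * (Real.exp (2 * lam * A) + Real.exp (2 * lam * B)) * Real.exp (-(lam * x)) := by
  have hη0 : 0 ≤ η ^ 2 := sq_nonneg _
  have key : ∀ y : ℝ, x < y → 4 * y ^ 2 ≤
      (8 / lam ^ 2) * Real.exp (2 * lam * y) * Real.exp (-(lam * x)) := by
    intro y hy
    have hy0 : 0 ≤ y := hx.trans hy.le
    have h1 : 1 + lam * y + (lam * y) ^ 2 / 2 ≤ Real.exp (lam * y) :=
      Real.quadratic_le_exp_of_nonneg (by positivity)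
    have h2 : Real.exp (lam * y) ≤ Real.exp (2 * lam * y) * Real.exp (-(lam * x)) := by
      rw [← Real.exp_add]
      apply Real.exp_le_exp.2
      nlinarith
    have h3 : (lam * y) ^ 2 / 2 ≤ Real.exp (2 * lam * y) * Real.exp (-(lam * x)) := by
      have : 0 ≤ lam * y := by positivity
      linarith
    have hl2 : 0 < lam ^ 2 := by positivity
    have e : (8 / lam ^ 2) * Real.exp (2 * lam * y) * Real.exp (-(lam * x)) =
        (8 / lam ^ 2) * (Real.exp (2 * lam * y) * Real.exp (-(lam * x))) := by ring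
    rw [e]
    have h4 := mul_le_mul_of_nonneg_left h3 (by positivity : (0 : ℝ) ≤ 8 / lam ^ 2)
    refine le_trans (le_of_eq ?_) h4
    field_simp
    ring
  have hEA : 0 ≤ (8 / lam ^ 2) * Real.exp (2 * lam * A) * Real.exp (-(lam * x)) := by positivity
  have hEB : 0 ≤ (8 / lam ^ 2) * Real.exp (2 * lam * B) * Real.exp (-(lam * x)) := by positivity
  have e2 : (8 / lam ^ 2) * (Real.exp (2 * lam * A) + Real.exp (2 * lam * B)) * Real.exp (-(lam * x)) =
      (8 / lam ^ 2) * Real.exp (2 * lam * A) * Real.exp (-(lam * x)) +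
      (8 / lam ^ 2) * Real.exp (2 * lam * B) * Real.exp (-(lam * x)) := by ring
  rw [e2]
  by_cases hAx : A ≤ x
  · by_cases hBx : B ≤ x
    · have : A * B ≤ x ^ 2 := by nlinarith
      nlinarith
    · have hBx' := not_le.1 hBx
      have k := key B hBx'
      have : A * B ≤ B ^ 2 := by nlinarith
      have h5 : η ^ 2 * (A * B) ≤ 4 * B ^ 2 := by
        have : η ^ 2 * (A * B) ≤ 4 * (A * B) :=
          mul_le_mul_of_nonneg_right hη (mul_nonneg hA hB)
        linarith
      have h6 : 0 ≤ x ^ 2 * η ^ 2 := by positivity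
      have e3 : η ^ 2 * A * B = η ^ 2 * (A * B) := by ring
      linarith
  · have hAx' := not_le.1 hAx
    by_cases hAB : B ≤ A
    · have k := key A hAx'
      have : A * B ≤ A ^ 2 := by nlinarith
      have h5 : η ^ 2 * (A * B) ≤ 4 * A ^ 2 := by
        have : η ^ 2 * (A * B) ≤ 4 * (A * B) :=
          mul_le_mul_of_nonneg_right hη (mul_nonneg hA hB)
        linarith
      have h6 : 0 ≤ x ^ 2 * η ^ 2 := by positivity
      have e3 : η ^ 2 * A * B = η ^ 2 * (A * B) := by ring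
      linarith
    · have hAB' := not_le.1 hAB
      have k := key B (hAx'.trans hAB')
      have : A * B ≤ B ^ 2 := by nlinarith
      have h5 : η ^ 2 * (A * B) ≤ 4 * B ^ 2 := by
        have : η ^ 2 * (A * B) ≤ 4 * (A * B) :=
          mul_le_mul_of_nonneg_right hη (mul_nonneg hA hB)
        linarith
      have h6 : 0 ≤ x ^ 2 * η ^ 2 := by positivity
      have e3 : η ^ 2 * A * B = η ^ 2 * (A * B) := by ring
      linarith

lemma integrable_of_bdd {Ω : Type*} [MeasurableSpace Ω] {Q : Measure Ω} [IsProbabilityMeasure Q]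
    {f : Ω → ℝ} (hf : Measurable f) (C : ℝ) (hC : ∀ p, |f p| ≤ C) : Integrable f Q :=
  Integrable.of_bound hf.aestronglyMeasurable C
    (Filter.Eventually.of_forall fun p => by simpa using hC p)

/-- Integration of the pointwise bound. -/
lemma integral_bound {Ω : Type*} [MeasurableSpace Ω] (Q : Measure Ω) [IsProbabilityMeasure Q]
    {η A B : Ω → ℝ} (hη : Measurable η) (hA : Measurable A) (hB : Measurable B)
    (hη2 : ∀ p, η p ^ 2 ≤ 4) (hA0 : ∀ p, 0 ≤ A p) (hB0 : ∀ p, 0 ≤ B p) {M : ℝ}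
    (hAM : ∀ p, A p ≤ M) (hBM : ∀ p, B p ≤ M) {x lam : ℝ} (hx : 0 ≤ x) (hlam : 0 < lam)
    (hEA : ∫ p, Real.exp (2 * lam * A p) ∂Q ≤ Real.exp (lam * (x - 1)))
    (hEB : ∫ p, Real.exp (2 * lam * B p) ∂Q ≤ Real.exp (lam * (x - 1))) :
    ∫ p, η p ^ 2 * A p * B p ∂Q ≤ x ^ 2 * ∫ p, η p ^ 2 ∂Q + (16 / lam ^ 2) * Real.exp (-lam) := by
  have hM0 : 0 ≤ M := by
    have : Nonempty Ω := by
      by_contra h
      have : IsEmpty Ω := not_nonempty_iff.1 h
      exact (IsProbabilityMeasure.ne_zero Q) (Measure.eq_zero_of_isEmpty Q)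
    obtain ⟨p⟩ := this
    exact (hA0 p).trans (hAM p)
  have hη2' : ∀ p, |η p ^ 2| ≤ 4 := fun p => by
    rw [abs_of_nonneg (sq_nonneg _)]
    exact hη2 p
  have mη2 : Measurable fun p => η p ^ 2 := hη.pow_const 2
  have iη2 : Integrable (fun p => η p ^ 2) Q := integrable_of_bdd mη2 4 hη2'
  have mexpA : Measurable fun p => Real.exp (2 * lam * A p) :=
    Real.measurable_exp.comp (hA.const_mul _)
  have mexpB : Measurable fun p => Real.exp (2 * lam * B p) :=
    Real.measurable_exp.comp (hB.const_mul _)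
  have bd : ∀ {f : Ω → ℝ}, (∀ p, 0 ≤ f p) → (∀ p, f p ≤ M) → ∀ p,
      |Real.exp (2 * lam * f p)| ≤ Real.exp (2 * lam * M) := by
    intro f h0 h1 p
    rw [abs_of_pos (Real.exp_pos _)]
    apply Real.exp_le_exp.2
    have := h1 p
    have h2 : 0 < 2 * lam := by positivity
    exact mul_le_mul_of_nonneg_left this h2.le
  have iexpA : Integrable (fun p => Real.exp (2 * lam * A p)) Q :=
    integrable_of_bdd mexpA _ (bd hA0 hAM)
  have iexpB : Integrable (fun p => Real.exp (2 * lam * B p)) Q :=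
    integrable_of_bdd mexpB _ (bd hB0 hBM)
  have mL : Measurable fun p => η p ^ 2 * A p * B p := (mη2.mul hA).mul hB
  have iL : Integrable (fun p => η p ^ 2 * A p * B p) Q := by
    refine integrable_of_bdd mL (4 * M * M) fun p => ?_
    have h1 := hA0 p
    have h2 := hB0 p
    have h3 := hAM p
    have h4 := hBM p
    have h5 : 0 ≤ η p ^ 2 := sq_nonneg _
    rw [abs_of_nonneg (by positivity)]
    have := hη2 p
    apply mul_le_mul _ h4 h2 (by positivity)
    exact mul_le_mul this h3 h1 (by norm_num)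
  have hpt := fun p => pointwise (hη2 p) (hA0 p) (hB0 p) hx hlam
  have iR : Integrable (fun p => x ^ 2 * η p ^ 2 + (8 / lam ^ 2) *
      (Real.exp (2 * lam * A p) + Real.exp (2 * lam * B p)) * Real.exp (-(lam * x))) Q :=
    (iη2.const_mul _).add (((iexpA.add iexpB).const_mul _).mul_const _)
  have h1 := integral_mono iL iR hpt
  have e : ∫ p, (x ^ 2 * η p ^ 2 + (8 / lam ^ 2) *
      (Real.exp (2 * lam * A p) + Real.exp (2 * lam * B p)) * Real.exp (-(lam * x))) ∂Q =
      x ^ 2 * ∫ p, η p ^ 2 ∂Q + (8 / lam ^ 2) * (∫ p, Real.exp (2 * lam * A p) ∂Q +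
        ∫ p, Real.exp (2 * lam * B p) ∂Q) * Real.exp (-(lam * x)) := by
    have iS : Integrable (fun p => Real.exp (2 * lam * A p) + Real.exp (2 * lam * B p)) Q :=
      iexpA.add iexpB
    have iT : Integrable (fun p => (8 / lam ^ 2) *
        (Real.exp (2 * lam * A p) + Real.exp (2 * lam * B p)) * Real.exp (-(lam * x))) Q :=
      (iS.const_mul _).mul_const _
    rw [integral_add (iη2.const_mul _) iT,
      integral_const_mul, integral_mul_const, integral_const_mul, integral_add iexpA iexpB]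
  rw [e] at h1
  refine h1.trans ?_
  have hE : (8 / lam ^ 2) * (∫ p, Real.exp (2 * lam * A p) ∂Q +
        ∫ p, Real.exp (2 * lam * B p) ∂Q) * Real.exp (-(lam * x)) ≤
      (16 / lam ^ 2) * Real.exp (-lam) := by
    have h2 : (∫ p, Real.exp (2 * lam * A p) ∂Q + ∫ p, Real.exp (2 * lam * B p) ∂Q) *
        Real.exp (-(lam * x)) ≤ 2 * Real.exp (-lam) := by
      have h3 : Real.exp (lam * (x - 1)) * Real.exp (-(lam * x)) = Real.exp (-lam) := by
        rw [← Real.exp_add]
        congr 1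
        ring
      have h4 : 0 < Real.exp (-(lam * x)) := Real.exp_pos _
      nlinarith
    have h5 := mul_le_mul_of_nonneg_left h2 (by positivity : (0 : ℝ) ≤ 8 / lam ^ 2)
    refine le_trans (le_of_eq ?_) (le_trans h5 (le_of_eq ?_))
    · ring
    · ring
  linarith

/-- The algebra of the constants. -/
lemma algebra {c₀ t D : ℝ} (hc₀ : 0 < c₀) (ht : 0 < t) (hD : 0 < D) (hD1 : D ≤ 1 / 2) :
    let b := c₀ * min 1 (Real.sqrt (t / 4))
    let lam := Real.log (1 / D) + 1
    let x := 2 * (1 + 2 * (1 + 1 / b) + 2 * errE (2 * (2 * lam) * (1 + 1 / b))) + 1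
    x ^ 2 + 1 ≤ (12336 * 8 / c₀ ^ 2) / t + (28 + 24672 + 24672 / c₀ ^ 2 + 12288) +
      12288 * Real.log (1 / D) := by
  intro b lam x
  have hmin : 0 < min 1 (Real.sqrt (t / 4)) :=
    lt_min one_pos (Real.sqrt_pos.2 (by positivity))
  have hb : 0 < b := mul_pos hc₀ hmin
  have hlogD : 0 ≤ Real.log (1 / D) := Real.log_nonneg (by
    rw [le_div_iff₀ hD]; linarith)
  have hlam : 0 < lam := by positivity
  set T := 1 + 1 / b with hT
  have hT1 : 1 ≤ T := by
    have : 0 < 1 / b := by positivity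
    linarith
  set S := Real.sqrt (Real.sqrt (2 * (2 * lam) * T)) with hS
  have hS0 : 0 ≤ S := Real.sqrt_nonneg _
  have hSS : S ^ 2 ≤ lam + T := by
    rw [hS, Real.sq_sqrt (Real.sqrt_nonneg _)]
    apply Real.sqrt_le_iff.2
    refine ⟨by positivity, ?_⟩
    nlinarith [sq_nonneg (lam - T)]
  have hx : x = 3 + 4 * T + 64 * S := by
    show 2 * (1 + 2 * T + 2 * errE (2 * (2 * lam) * T)) + 1 = _
    unfold errE
    ring
  have hx2 : x ^ 2 ≤ 27 + 48 * T ^ 2 + 12288 * S ^ 2 := by
    rw [hx]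
    nlinarith [sq_nonneg (3 - 4 * T), sq_nonneg (3 - 64 * S), sq_nonneg (4 * T - 64 * S)]
  have hTT : T ≤ T ^ 2 := by nlinarith
  have hT2 : T ^ 2 ≤ 2 + 2 * (1 / b) ^ 2 := by
    rw [hT]
    nlinarith [sq_nonneg (1 / b - 1)]
  have hb2 : (1 / b) ^ 2 ≤ (1 / c₀ ^ 2) * (1 + 4 / t) := by
    have hmin2 : 1 / (min 1 (Real.sqrt (t / 4))) ^ 2 ≤ 1 + 4 / t := by
      rcases le_total 1 (Real.sqrt (t / 4)) with h | h
      · rw [min_eq_left h]
        have : 0 < 4 / t := by positivity
        norm_num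
        linarith
      · rw [min_eq_right h, Real.sq_sqrt (by positivity)]
        have : 1 / (t / 4) = 4 / t := by field_simp
        rw [this]
        linarith
    have e : (1 / b) ^ 2 = (1 / c₀ ^ 2) * (1 / (min 1 (Real.sqrt (t / 4))) ^ 2) := by
      show (1 / (c₀ * min 1 (Real.sqrt (t / 4)))) ^ 2 = _
      field_simp
    rw [e]
    exact mul_le_mul_of_nonneg_left hmin2 (by positivity)
  have e1 : (12336 * 8 / c₀ ^ 2) / t + (28 + 24672 + 24672 / c₀ ^ 2 + 12288) +
      12288 * Real.log (1 / D) =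
      28 + 12336 * (2 + 2 * ((1 / c₀ ^ 2) * (1 + 4 / t))) + 12288 * lam := by
    show _ = 28 + 12336 * (2 + 2 * ((1 / c₀ ^ 2) * (1 + 4 / t))) + 12288 * (Real.log (1 / D) + 1)
    field_simp
    ring
  rw [e1]
  nlinarith

section Green

variable {V : Type*} {G : SimpleGraph V} [G.LocallyFinite] {θ : ℝ}

/-- The truncated Green function is bounded for bounded nonnegative weights. -/
lemma GrT_bounds (W : ℝ) (hW : 0 ≤ W) : ∀ (ℓ : ℕ) (c p : V), ∃ M : ℝ, ∀ w : V → V → ℝ,
    (∀ x y, 0 ≤ w x y ∧ w x y ≤ W) → 0 ≤ GrT G θ w ℓ c p ∧ GrT G θ w ℓ c p ≤ M := by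
  intro ℓ
  induction ℓ with
  | zero =>
    intro c p
    exact ⟨1, fun w _ => by simp [GrT]⟩
  | succ ℓ ih =>
    intro c p
    choose M hM using fun c' => ih c' c
    refine ⟨1 + θ ^ 2 * ∑ c' ∈ kids G c p, W * M c', fun w hw => ?_⟩
    have h0 : 0 ≤ ∑ c' ∈ kids G c p, w c c' * GrT G θ w ℓ c' c :=
      Finset.sum_nonneg fun c' _ => mul_nonneg (hw _ _).1 (hM c' w hw).1
    have h1 : ∑ c' ∈ kids G c p, w c c' * GrT G θ w ℓ c' c ≤ ∑ c' ∈ kids G c p, W * M c' :=
      Finset.sum_le_sum fun c' _ =>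
        mul_le_mul (hw _ _).2 (hM c' w hw).2 (hM c' w hw).1 hW
    have hθ : 0 ≤ θ ^ 2 := sq_nonneg _
    simp only [GrT]
    constructor
    · have := mul_nonneg hθ h0
      linarith
    · have := mul_le_mul_of_nonneg_left h1 hθ
      linarith

/-- The Green function is bounded for bounded nonnegative weights. -/
lemma GrG_bounds (W : ℝ) (hW : 0 ≤ W) (ℓ : ℕ) (o : V) : ∃ M : ℝ, ∀ w : V → V → ℝ,
    (∀ x y, 0 ≤ w x y ∧ w x y ≤ W) → 0 ≤ GrG G θ w ℓ o ∧ GrG G θ w ℓ o ≤ M := by
  classical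
  choose M hM using fun c => GrT_bounds (G := G) (θ := θ) W hW ℓ c o
  refine ⟨1 + θ ^ 2 * ∑ c ∈ G.neighborFinset o, M c, fun w hw => ?_⟩
  have h0 : 0 ≤ ∑ c ∈ G.neighborFinset o, GrT G θ w ℓ c o :=
    Finset.sum_nonneg fun c _ => (hM c w hw).1
  have h1 : ∑ c ∈ G.neighborFinset o, GrT G θ w ℓ c o ≤ ∑ c ∈ G.neighborFinset o, M c :=
    Finset.sum_le_sum fun c _ => (hM c w hw).2
  have hθ : 0 ≤ θ ^ 2 := sq_nonneg _
  have e : GrG G θ w ℓ o = 1 + θ ^ 2 * ∑ c ∈ G.neighborFinset o, GrT G θ w ℓ c o := by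
    unfold GrG
    congr!
  rw [e]
  constructor
  · have := mul_nonneg hθ h0
    linarith
  · have := mul_le_mul_of_nonneg_left h1 hθ
    linarith

variable {ν : Measure (V → Bool)}

lemma measurable_gE_comp {Ω : Type*} [MeasurableSpace Ω] {f g : Ω → ℝ} (hf : Measurable f)
    (hg : Measurable g) : Measurable fun a => gE θ (f a) (g a) := by
  unfold gE WW RR
  fun_prop

lemma geW_bounds (h0 : 0 ≤ θ) (h1 : θ < 1) (n j : ℕ) (a : TΩ V) (x y : V) :
    0 ≤ geW θ ν G n j a x y ∧ geW θ ν G n j a x y ≤ 1 / (1 - θ) ^ 2 := by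
  have hx := abs_mg_le (ν := ν) (G := G) x n j a
  have hy := abs_mg_le (ν := ν) (G := G) y n j a
  refine ⟨gE_nonneg h0 h1 hx hy, ?_⟩
  have hW := WW_le h0 h1 hx hy
  have hW0 := (WW_pos h0 h1 hx hy).le
  have s1 : Real.sqrt (1 - mg ν G x n j a ^ 2) ≤ 1 :=
    Real.sqrt_le_one.2 (by nlinarith [sq_nonneg (mg ν G x n j a)])
  have s2 : Real.sqrt (1 - mg ν G y n j a ^ 2) ≤ 1 :=
    Real.sqrt_le_one.2 (by nlinarith [sq_nonneg (mg ν G y n j a)])
  have s1' := Real.sqrt_nonneg (1 - mg ν G x n j a ^ 2)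
  have s2' := Real.sqrt_nonneg (1 - mg ν G y n j a ^ 2)
  show Real.sqrt (1 - mg ν G x n j a ^ 2) * Real.sqrt (1 - mg ν G y n j a ^ 2) *
    WW θ (mg ν G x n j a) (mg ν G y n j a) ≤ _
  have : Real.sqrt (1 - mg ν G x n j a ^ 2) * Real.sqrt (1 - mg ν G y n j a ^ 2) ≤ 1 :=
    mul_le_one₀ s1 s2' s2
  calc _ ≤ 1 * WW θ (mg ν G x n j a) (mg ν G y n j a) := mul_le_mul_of_nonneg_right this hW0
    _ ≤ _ := by rw [one_mul]; exact hW

variable [Countable V] [IsProbabilityMeasure ν]

lemma measurable_geW (n j : ℕ) (x y : V) : Measurable fun a : TΩ V => geW θ ν G n j a x y :=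
  measurable_gE_comp (measurable_mg x n j) (measurable_mg y n j)

lemma measurable_GrT (n j : ℕ) : ∀ (ℓ : ℕ) (c p : V),
    Measurable fun a : TΩ V => GrT G θ (geW θ ν G n j a) ℓ c p := by
  intro ℓ
  induction ℓ with
  | zero =>
    intro c p
    simp only [GrT]
    exact measurable_const
  | succ ℓ ih =>
    intro c p
    simp only [GrT]
    refine measurable_const.add (measurable_const.mul ?_)
    refine Finset.measurable_sum _ fun c' _ => ?_
    exact (measurable_geW n j c c').mul (ih c' c)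

lemma measurable_GrG (n j ℓ : ℕ) (o : V) :
    Measurable fun a : TΩ V => GrG G θ (geW θ ν G n j a) ℓ o := by
  classical
  unfold GrG
  refine measurable_const.add (measurable_const.mul ?_)
  exact Finset.measurable_sum _ fun c _ => measurable_GrT n j ℓ c o

end Green

end StepB2

end Crest.Agent.Lib.IT

namespace Crest.Agent.Lib.IT

open MeasureTheory ProbabilityTheory SimpleGraph Filter Topology
open scoped ENNReal NNReal
open Crest.Agent.Lib.Loc
open StepB2

variable {V : Type*} {G : SimpleGraph V} [G.LocallyFinite] {k : ℕ} {θ : ℝ} [Countable V]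
  {ν : Measure (V → Bool)} [IsProbabilityMeasure ν]

section
variable (hT : G.IsTree) (hk : 2 ≤ k) (hreg : G.IsRegularOfDegree (k + 1)) (h0 : 0 ≤ θ) (h1 : θ < 1)
  (hkθ : (k : ℝ) * θ ^ 2 ≤ 1) (hν : IsIsing G θ ν)
include hT hk hreg h0 h1 hkθ hν

/-- Step B: the propagation bound. -/
theorem exists_stepB : ∃ C₃ C₄ C₅ : ℝ, 0 ≤ C₃ ∧ 0 ≤ C₄ ∧ 0 < C₅ ∧ C₅ ≤ C₄ ∧
    ∀ (o : V) (n j R : ℕ), 0 < j →
      VVt ν G o (ballF G R o) n j ≤
        dDt ν G o n j * (C₃ / tm n j + C₄ + C₅ * Real.log (1 / dDt ν G o n j)) := by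
  obtain ⟨K, hK, hV⟩ := exists_VV_le_green hT hk hreg h0 h1 hkθ hν
  obtain ⟨c₀, hc₀, hc₁, hrate⟩ := exists_rate (k := k) (θ := θ) h0 h1 hk hkθ
  have hc2 : 0 < c₀ ^ 2 := by positivity
  refine ⟨8 * K * (12336 * 8 / c₀ ^ 2), 8 * K * (28 + 24672 + 24672 / c₀ ^ 2 + 12288),
    8 * K * 12288, by positivity, by positivity, by positivity, ?_, ?_⟩
  · apply mul_le_mul_of_nonneg_left _ (by positivity)
    have : 0 < 24672 / c₀ ^ 2 := by positivity
    linarith
  intro o n j R hj
  have ht : 0 < tm n j := by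
    unfold tm
    have : (0 : ℝ) < j := by exact_mod_cast hj
    positivity
  set t := tm n j with ht_def
  set D := dDt ν G o n j with hD_def
  set η : TΩ V × TΩ V → ℝ := fun p => mg ν G o n j p.1 - mg ν G o n j p.2 with hη_def
  set A : TΩ V → ℝ := fun a => GrG G θ (geW θ ν G n j a) R o with hA_def
  have mη : Measurable η := ((measurable_mg o n j).comp measurable_fst).sub
    ((measurable_mg o n j).comp measurable_snd)
  have mη2 : Measurable fun p => η p ^ 2 := mη.pow_const 2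
  have mA : Measurable A := measurable_GrG n j R o
  have hη2 : ∀ p, η p ^ 2 ≤ 4 := by
    intro p
    have h1' := abs_le.1 (abs_mg_le (ν := ν) (G := G) o n j p.1)
    have h2' := abs_le.1 (abs_mg_le (ν := ν) (G := G) o n j p.2)
    show (mg ν G o n j p.1 - mg ν G o n j p.2) ^ 2 ≤ 4
    nlinarith
  obtain ⟨M, hM⟩ := GrG_bounds (G := G) (θ := θ) (1 / (1 - θ) ^ 2)
    (by have : 0 ≤ (1 - θ) ^ 2 := sq_nonneg _; positivity) R o
  have hAb : ∀ a, 0 ≤ A a ∧ A a ≤ M := fun a => hM _ (geW_bounds h0 h1 n j a)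
  have hD8 : ∫ p, η p ^ 2 ∂(P2 ν G n j) = 8 * D := by
    have := dDt_eq_P2 (ν := ν) (G := G) n j o
    rw [hD_def, this]
    ring
  have iη2 : Integrable (fun p => η p ^ 2) (P2 ν G n j) :=
    StepB2.integrable_of_bdd mη2 4 fun p => by
      rw [abs_of_nonneg (sq_nonneg _)]
      exact hη2 p
  have hD0 : 0 ≤ D := by
    have : 0 ≤ ∫ p, η p ^ 2 ∂(P2 ν G n j) := integral_nonneg fun _ => sq_nonneg _
    linarith
  have hD1 : D ≤ 1 / 2 := by
    have : ∫ p, η p ^ 2 ∂(P2 ν G n j) ≤ ∫ p, (4 : ℝ) ∂(P2 ν G n j) :=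
      integral_mono iη2 (integrable_const _) hη2
    simp at this
    linarith
  refine (hV o n j R).trans ?_
  rcases hD0.eq_or_lt with hzero | hpos
  · -- the degenerate case
    rw [← hzero, zero_mul]
    have hae : (fun p => η p ^ 2) =ᵐ[P2 ν G n j] 0 := by
      have := (integral_eq_zero_iff_of_nonneg (fun p => sq_nonneg (η p)) iη2).1
        (by rw [hD8, ← hzero]; ring)
      exact this
    have : ∫ p, η p ^ 2 * A p.1 * A p.2 ∂(P2 ν G n j) = 0 := by
      apply integral_eq_zero_of_ae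
      filter_upwards [hae] with p hp
      simp only [Pi.zero_apply] at hp ⊢
      rw [hp]
      ring
    have e : (∫ p, (mg ν G o n j p.1 - mg ν G o n j p.2) ^ 2 *
        GrG G θ (geW θ ν G n j p.1) R o * GrG G θ (geW θ ν G n j p.2) R o ∂(P2 ν G n j)) =
        ∫ p, η p ^ 2 * A p.1 * A p.2 ∂(P2 ν G n j) := rfl
    rw [e, this, mul_zero]
  · -- the main case
    set b := c₀ * min 1 (Real.sqrt (t / 4)) with hb_def
    have hb : 0 < b := mul_pos hc₀ (lt_min one_pos (Real.sqrt_pos.2 (by positivity)))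
    obtain ⟨N₁, hN₁⟩ := hrate (t / 4) (by positivity)
    set lam := Real.log (1 / D) + 1 with hlam_def
    have hlog : 0 ≤ Real.log (1 / D) := Real.log_nonneg (by
      rw [le_div_iff₀ hpos]; linarith)
    have hlam1 : 1 ≤ lam := by linarith
    have hlam : 0 < lam := by linarith
    set x := 2 * (1 + 2 * (1 + 1 / b) + 2 * errE (2 * (2 * lam) * (1 + 1 / b))) + 1 with hx_def
    have hx : 0 ≤ x := by
      have := pc_errE_nonneg (2 * (2 * lam) * (1 + 1 / b))
      have : 0 < 1 / b := by positivity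
      rw [hx_def]
      linarith
    have hmgf := mgf_GrG hT hk hreg h0 h1 hkθ hν o n j ht hb hN₁ (2 * lam) (by linarith) R
    have hEA : ∫ p, Real.exp (2 * lam * A p.1) ∂(P2 ν G n j) ≤ Real.exp (lam * (x - 1)) := by
      have e : ∫ p, Real.exp (2 * lam * A p.1) ∂(P2 ν G n j) =
          ∫ a, Real.exp (2 * lam * A a) ∂(truthP ν) := by
        conv_rhs => rw [← P2_map_fst (ν := ν) (G := G) n j]
        have mE : Measurable fun a => Real.exp (2 * lam * A a) :=
          Real.measurable_exp.comp (mA.const_mul _)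
        exact (integral_map measurable_fst.aemeasurable mE.aestronglyMeasurable).symm
      rw [e]
      refine hmgf.trans (le_of_eq ?_)
      congr 1
      rw [hx_def]
      ring
    have hEB : ∫ p, Real.exp (2 * lam * A p.2) ∂(P2 ν G n j) ≤ Real.exp (lam * (x - 1)) := by
      have e : ∫ p, Real.exp (2 * lam * A p.2) ∂(P2 ν G n j) =
          ∫ a, Real.exp (2 * lam * A a) ∂(truthP ν) := by
        conv_rhs => rw [← P2_map_snd (ν := ν) (G := G) n j]
        have mE : Measurable fun a => Real.exp (2 * lam * A a) :=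
          Real.measurable_exp.comp (mA.const_mul _)
        exact (integral_map measurable_snd.aemeasurable mE.aestronglyMeasurable).symm
      rw [e]
      refine hmgf.trans (le_of_eq ?_)
      congr 1
      rw [hx_def]
      ring
    have hint := integral_bound (P2 ν G n j) (η := η) (A := fun p => A p.1) (B := fun p => A p.2)
      mη (mA.comp measurable_fst) (mA.comp measurable_snd) hη2 (fun p => (hAb p.1).1)
      (fun p => (hAb p.2).1) (M := M) (fun p => (hAb p.1).2) (fun p => (hAb p.2).2) hx hlam hEA hEB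
    rw [hD8] at hint
    have hexp : Real.exp (-lam) = D * Real.exp (-1) := by
      rw [hlam_def, neg_add, Real.exp_add, Real.exp_neg (Real.log _), Real.exp_log (by positivity)]
      field_simp
    have herr : (16 / lam ^ 2) * Real.exp (-lam) ≤ 8 * D := by
      rw [hexp]
      have h2 : Real.exp (-1) ≤ 1 / 2 := by
        rw [Real.exp_neg, inv_eq_one_div]
        apply one_div_le_one_div_of_le (by norm_num)
        have := Real.add_one_le_exp (1 : ℝ)
        linarith
      have h3 : 16 / lam ^ 2 ≤ 16 := by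
        apply div_le_self (by norm_num)
        nlinarith
      have h4 : 0 ≤ Real.exp (-1) := (Real.exp_pos _).le
      have h5 : 0 < 16 / lam ^ 2 := by positivity
      calc 16 / lam ^ 2 * (D * Real.exp (-1)) ≤ 16 * (D * (1 / 2)) := by
            apply mul_le_mul h3 _ (by positivity) (by norm_num)
            exact mul_le_mul_of_nonneg_left h2 hD0
        _ = 8 * D := by ring
    have halg := algebra hc₀ ht hpos hD1
    simp only at halg
    have hfin : ∫ p, η p ^ 2 * A p.1 * A p.2 ∂(P2 ν G n j) ≤ 8 * D * (x ^ 2 + 1) := by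
      nlinarith
    have e : (∫ p, (mg ν G o n j p.1 - mg ν G o n j p.2) ^ 2 *
        GrG G θ (geW θ ν G n j p.1) R o * GrG G θ (geW θ ν G n j p.2) R o ∂(P2 ν G n j)) =
        ∫ p, η p ^ 2 * A p.1 * A p.2 ∂(P2 ν G n j) := rfl
    rw [e]
    have h8 : 0 ≤ 8 * K * D := by positivity
    calc K * ∫ p, η p ^ 2 * A p.1 * A p.2 ∂(P2 ν G n j) ≤ K * (8 * D * (x ^ 2 + 1)) :=
          mul_le_mul_of_nonneg_left hfin hK.le
      _ = 8 * K * D * (x ^ 2 + 1) := by ring
      _ ≤ 8 * K * D * ((12336 * 8 / c₀ ^ 2) / t + (28 + 24672 + 24672 / c₀ ^ 2 + 12288) +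
            12288 * Real.log (1 / D)) := mul_le_mul_of_nonneg_left halg h8
      _ = _ := by ring

end

end Crest.Agent.Lib.IT
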