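
/-
The projection inequality for the conditional variance (statement S0241).
-/
import Crest.Agent.Lib.IT.TimeC

set_option autoImplicit false

namespace Crest.Agent.Lib.IT

open MeasureTheory ProbabilityTheory Filter Topology
open scoped ENNReal NNReal
open Crest.Agent.Lib.Loc

namespace TimeD

section abstract
variable {Ω : Type*} {m₀ : MeasurableSpace Ω} {μ : Measure Ω} [IsProbabilityMeasure μ]

lemma memLp_two_of_bdd {f : Ω → ℝ} (hf : AEStronglyMeasurable f μ) (C : ℝ)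
    (hb : ∀ᵐ a ∂μ, |f a| ≤ C) : MemLp f 2 μ :=
  MemLp.of_bound hf C (by simpa [Real.norm_eq_abs] using hb)

lemma imul {f g : Ω → ℝ} (hf : MemLp f 2 μ) (hg : MemLp g 2 μ) :
    Integrable (fun a => f a * g a) μ := hf.integrable_mul hg

/-- A bounded measurable version of the conditional expectation. -/
lemma exists_clip (m : MeasurableSpace Ω) {f : Ω → ℝ} (hb : ∀ a, |f a| ≤ 1) :
    ∃ c : Ω → ℝ, Measurable[m] c ∧ (∀ a, |c a| ≤ 1) ∧ c =ᵐ[μ] μ[f | m] := by
  refine ⟨fun a => clip1 ((μ[f | m]) a), ?_, fun a => abs_clip1_le _, ?_⟩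
  · exact measurable_clip1.comp stronglyMeasurable_condExp.measurable
  · have h1 : ∀ᵐ a ∂μ, |(μ[f | m]) a| ≤ ((1 : ℝ≥0) : ℝ) :=
      ae_bdd_condExp_of_ae_bdd (Eventually.of_forall fun a => by simpa using hb a)
    filter_upwards [h1] with a ha
    exact clip1_of_abs_le (by simpa using ha)

/-- The conditional expectation is the best `L²` approximation. -/
theorem integral_sq_sub_condExp_le {m : MeasurableSpace Ω} (hm : m ≤ m₀) {f g : Ω → ℝ}
    (hf : Measurable[m₀] f) (hfb : ∀ a, |f a| ≤ 1) (hg : Measurable[m] g) (hg2 : MemLp g 2 μ) :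
    ∫ a, (f a - (μ[f | m]) a) ^ 2 ∂μ ≤ ∫ a, (f a - g a) ^ 2 ∂μ := by
  have hf2 : MemLp f 2 μ :=
    memLp_two_of_bdd hf.aestronglyMeasurable 1 (Eventually.of_forall hfb)
  have hfi : Integrable f μ := hf2.integrable (by norm_num)
  have hpb : ∀ᵐ a ∂μ, |(μ[f | m]) a| ≤ ((1 : ℝ≥0) : ℝ) :=
    ae_bdd_condExp_of_ae_bdd (Eventually.of_forall fun a => by simpa using hfb a)
  have hpm : Measurable[m] (μ[f | m]) := stronglyMeasurable_condExp.measurable
  have hp2 : MemLp (μ[f | m]) 2 μ :=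
    memLp_two_of_bdd (hpm.mono hm le_rfl).aestronglyMeasurable ((1 : ℝ≥0) : ℝ) hpb
  set Z : Ω → ℝ := fun a => (μ[f | m]) a - g a with hZ
  have hZm : Measurable[m] Z := hpm.sub hg
  have hZ2 : MemLp Z 2 μ := hp2.sub hg2
  have hZf : Integrable (fun a => Z a * f a) μ := imul hZ2 hf2
  have key := integral_condExp_mul hm hZf hfi hZm
  have i1 : Integrable (fun a => (μ[f | m]) a * Z a) μ := imul hp2 hZ2
  have i2 : Integrable (fun a => f a * Z a) μ := imul hf2 hZ2
  have h0 : ∫ a, (f a - (μ[f | m]) a) * Z a ∂μ = 0 := by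
    simp_rw [sub_mul]
    rw [integral_sub i2 i1, key, sub_self]
  have hFp : MemLp (fun a => f a - (μ[f | m]) a) 2 μ := hf2.sub hp2
  have e : ∀ a, (f a - g a) ^ 2 =
      (f a - (μ[f | m]) a) ^ 2 + 2 * ((f a - (μ[f | m]) a) * Z a) + Z a ^ 2 := by
    intro a
    simp only [hZ]
    ring
  have s1 : Integrable (fun a => (f a - (μ[f | m]) a) ^ 2) μ := hFp.integrable_sq
  have s2 : Integrable (fun a => Z a ^ 2) μ := hZ2.integrable_sq
  have s3 : Integrable (fun a => (f a - (μ[f | m]) a) * Z a) μ := imul hFp hZ2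
  have s4 : Integrable (fun a => 2 * ((f a - (μ[f | m]) a) * Z a)) μ := s3.const_mul 2
  have s5 : Integrable (fun a => (f a - (μ[f | m]) a) ^ 2 + 2 * ((f a - (μ[f | m]) a) * Z a)) μ :=
    s1.add s4
  simp_rw [e]
  rw [integral_add s5 s2, integral_add s1 s4, integral_const_mul, h0]
  have : 0 ≤ ∫ a, Z a ^ 2 ∂μ := integral_nonneg fun a => sq_nonneg _
  linarith

/-- The abstract computation behind the projection inequality. -/
theorem step_abstract {ι : Type*} (U : Finset ι)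
    {𝒢 𝒢' 𝓕 𝓕' : MeasurableSpace Ω} (hG : 𝒢 ≤ 𝓕) (hGG : 𝒢 ≤ 𝒢') (hG' : 𝒢' ≤ 𝓕')
    (hF : 𝓕 ≤ m₀) (hF' : 𝓕' ≤ m₀) (hFF : 𝓕 ≤ 𝓕')
    {m m' b : Ω → ℝ} {dW C : ι → Ω → ℝ} {h δo : ℝ} {δ : ι → ℝ}
    (hm : Measurable[𝓕] m) (hmb : ∀ a, |m a| ≤ 1)
    (hm' : Measurable[𝓕'] m') (hmb' : ∀ a, |m' a| ≤ 1)
    (hbm : Measurable[m₀] b) (hbb : ∀ a, |b a| ≤ 1)
    (hCm : ∀ u, Measurable[m₀] (C u)) (hCb : ∀ u a, |C u a| ≤ 1)
    (H1 : ∀ Z : Ω → ℝ, Measurable[𝓕] Z → (∀ a, |Z a| ≤ 1) → ∫ a, m a * Z a ∂μ = ∫ a, b a * Z a ∂μ)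
    (H1' : m' =ᵐ[μ] μ[b | 𝓕'])
    (H2 : ∀ (u : ι) (Z : Ω → ℝ), Measurable[𝓕] Z → (∀ a, |Z a| ≤ 1) →
      ∫ a, dW u a * Z a ∂μ = 0)
    (H3 : ∀ (u u' : ι) (Z : Ω → ℝ), Measurable[𝓕] Z → (∀ a, |Z a| ≤ 1) →
      ∫ a, dW u a * dW u' a * Z a ∂μ =
        (open Classical in if u = u' then h else 0) * ∫ a, Z a ∂μ)
    (H4 : ∀ (u : ι) (Z : Ω → ℝ), Measurable[𝓕] Z → (∀ a, |Z a| ≤ 1) →
      |∫ a, b a * dW u a * Z a ∂μ - h * ∫ a, C u a * Z a ∂μ| ≤ h * (δo + δ u) / 2)
    (H5 : ∀ u, MemLp (dW u) 2 μ) (H6 : ∀ u, Measurable[𝒢'] (dW u))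
    (H8 : ∫ a, (m' a - m a) ^ 2 ∂μ = δo) :
    ∫ a, (m' a - (μ[m' | 𝒢']) a) ^ 2 ∂μ - ∫ a, (m a - (μ[m | 𝒢]) a) ^ 2 ∂μ ≤
      δo - h * ∑ u ∈ U, ∫ a, C u a ^ 2 ∂μ +
        h * ∑ u ∈ U, ∫ a, (C u a - (μ[C u | 𝒢]) a) ^ 2 ∂μ +
        h * ∑ u ∈ U, (δo + δ u) := by
  classical
  have hmG : Measurable[m₀] m := hm.mono hF le_rfl
  have hmG' : Measurable[m₀] m' := hm'.mono hF' le_rfl
  have hG'F : 𝒢' ≤ m₀ := hG'.trans hF'
  obtain ⟨π, hπm, hπb, hπe⟩ := exists_clip (μ := μ) 𝒢 hmb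
  choose c hcm hcb hce using fun u => exists_clip (μ := μ) 𝒢 (hCb u)
  have hcF : ∀ u, Measurable[𝓕] (c u) := fun u => (hcm u).mono hG le_rfl
  have hcG : ∀ u, Measurable[m₀] (c u) := fun u => (hcF u).mono hF le_rfl
  have hc2 : ∀ u, MemLp (c u) 2 μ := fun u =>
    memLp_two_of_bdd (hcG u).aestronglyMeasurable 1 (Eventually.of_forall (hcb u))
  have hπF : Measurable[𝓕] π := hπm.mono hG le_rfl
  have hπG : Measurable[m₀] π := hπF.mono hF le_rfl
  have hm2 : MemLp m 2 μ :=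
    memLp_two_of_bdd hmG.aestronglyMeasurable 1 (Eventually.of_forall hmb)
  have hm'2 : MemLp m' 2 μ :=
    memLp_two_of_bdd hmG'.aestronglyMeasurable 1 (Eventually.of_forall hmb')
  have hπ2 : MemLp π 2 μ :=
    memLp_two_of_bdd hπG.aestronglyMeasurable 1 (Eventually.of_forall hπb)
  have hb2 : MemLp b 2 μ :=
    memLp_two_of_bdd hbm.aestronglyMeasurable 1 (Eventually.of_forall hbb)
  have hC2 : ∀ u, MemLp (C u) 2 μ := fun u =>
    memLp_two_of_bdd (hCm u).aestronglyMeasurable 1 (Eventually.of_forall (hCb u))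
  -- the increments of the predictor
  set X : ι → Ω → ℝ := fun u a => dW u a * c u a with hX
  have hXm : ∀ u, Measurable[𝒢'] (X u) := fun u =>
    (H6 u).mul ((hcm u).mono hGG le_rfl)
  have hXF' : ∀ u, Measurable[𝓕'] (X u) := fun u => (hXm u).mono hG' le_rfl
  have hXG : ∀ u, Measurable[m₀] (X u) := fun u => (hXF' u).mono hF' le_rfl
  have hX2 : ∀ u, MemLp (X u) 2 μ := fun u => by
    refine (H5 u).mono (hXG u).aestronglyMeasurable (Eventually.of_forall fun a => ?_)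
    simp only [hX, Real.norm_eq_abs, abs_mul]
    exact mul_le_of_le_one_right (abs_nonneg _) (hcb u a)
  set S : Ω → ℝ := fun a => ∑ u ∈ U, X u a with hS
  have hS2 : MemLp S 2 μ := by
    have := memLp_finset_sum' (μ := μ) (p := 2) U (fun u _ => hX2 u)
    convert this using 1
    funext a
    simp [hS]
  have hSm : Measurable[𝒢'] S := by
    have := Finset.measurable_sum (m := 𝒢') U (fun u _ => hXm u)
    convert this using 1
  -- (a) projection
  set Pred : Ω → ℝ := fun a => π a + S a with hPred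
  have hPm : Measurable[𝒢'] Pred := (hπm.mono hGG le_rfl).add hSm
  have hP2 : MemLp Pred 2 μ := hπ2.add hS2
  have hproj := integral_sq_sub_condExp_le (μ := μ) hG'F hmG' hmb' hPm hP2
  -- the quantities
  set A : Ω → ℝ := fun a => m a - π a with hA
  set Rm : Ω → ℝ := fun a => m' a - m a with hRm
  have hAF : Measurable[𝓕] A := hm.sub hπF
  have hAhF : Measurable[𝓕] (fun a => A a / 2) := hAF.div_const 2
  have hAb : ∀ a, |A a / 2| ≤ 1 := fun a => by
    have h1 := hmb a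
    have h2 := hπb a
    simp only [hA]
    rw [abs_le] at h1 h2 ⊢
    constructor <;> linarith [h1.1, h1.2, h2.1, h2.2]
  have hA2 : MemLp A 2 μ := hm2.sub hπ2
  have hR2 : MemLp Rm 2 μ := hm'2.sub hm2
  -- the projected variance
  have hD : ∫ a, (m a - (μ[m | 𝒢]) a) ^ 2 ∂μ = ∫ a, A a ^ 2 ∂μ := by
    refine integral_congr_ae ?_
    filter_upwards [hπe] with a ha
    simp only [hA, ha]
  -- the unbounded martingale identity
  have hM : ∀ Y : Ω → ℝ, Measurable[𝓕'] Y → MemLp Y 2 μ →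
      ∫ a, m' a * Y a ∂μ = ∫ a, b a * Y a ∂μ := by
    intro Y hY hY2
    have hYb : Integrable (fun a => Y a * b a) μ := imul hY2 hb2
    have key := integral_condExp_mul hF' hYb (hb2.integrable (by norm_num)) hY
    rw [← key]
    refine integral_congr_ae ?_
    filter_upwards [H1'] with a ha
    simp only [ha]
  -- bounded tests
  have hmZ : ∀ Z : Ω → ℝ, Measurable[𝓕] Z → (∀ a, |Z a| ≤ 1) →
      ∫ a, m' a * Z a ∂μ = ∫ a, m a * Z a ∂μ := by
    intro Z hZ hZb
    rw [H1 Z hZ hZb]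
    refine hM Z (hZ.mono hFF le_rfl) ?_
    exact memLp_two_of_bdd (hZ.mono hF le_rfl).aestronglyMeasurable 1 (Eventually.of_forall hZb)
  -- orthogonality of `A` and `Rm`
  have hA2' : MemLp (fun a => A a / 2) 2 μ :=
    memLp_two_of_bdd (hAhF.mono hF le_rfl).aestronglyMeasurable 1 (Eventually.of_forall hAb)
  have hAR : ∫ a, A a * Rm a ∂μ = 0 := by
    have e : ∀ a, A a * Rm a = 2 * (m' a * (A a / 2)) - 2 * (m a * (A a / 2)) := by
      intro a
      simp only [hRm]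
      ring
    simp_rw [e]
    rw [integral_sub ((imul hm'2 hA2').const_mul 2) ((imul hm2 hA2').const_mul 2),
      integral_const_mul, integral_const_mul, hmZ _ hAhF hAb, sub_self]
  -- orthogonality of `A` and the increments
  have hAX : ∀ u, ∫ a, A a * X u a ∂μ = 0 := by
    intro u
    have e : ∀ a, A a * X u a = 2 * (dW u a * (A a / 2 * c u a)) := by
      intro a
      simp only [hX]
      ring
    simp_rw [e]
    have hb : ∀ a, |A a / 2 * c u a| ≤ 1 := fun a => by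
      rw [abs_mul]
      exact mul_le_one₀ (hAb a) (abs_nonneg _) (hcb u a)
    have hm' : Measurable[𝓕] (fun a => A a / 2 * c u a) := hAhF.mul (hcF u)
    rw [integral_const_mul, H2 u _ hm' hb, mul_zero]
  have hAS : ∫ a, A a * S a ∂μ = 0 := by
    simp only [hS, Finset.mul_sum]
    rw [integral_finset_sum _ fun u _ => imul hA2 (hX2 u)]
    exact Finset.sum_eq_zero fun u _ => hAX u
  -- the predictable part of the covariance
  have hCc : ∀ u, ∫ a, C u a * c u a ∂μ = ∫ a, c u a ^ 2 ∂μ := by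
    intro u
    have key := integral_condExp_mul (hG.trans hF) (imul (hc2 u) (hC2 u))
      ((hC2 u).integrable (by norm_num)) (hcm u)
    rw [← key]
    refine integral_congr_ae ?_
    filter_upwards [hce u] with a ha
    simp only [← ha]
    ring
  have hVV : ∀ u, ∫ a, (C u a - (μ[C u | 𝒢]) a) ^ 2 ∂μ =
      ∫ a, C u a ^ 2 ∂μ - ∫ a, c u a ^ 2 ∂μ := by
    intro u
    have e1 : ∫ a, (C u a - (μ[C u | 𝒢]) a) ^ 2 ∂μ =
        ∫ a, (C u a ^ 2 - 2 * (C u a * c u a) + c u a ^ 2) ∂μ := by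
      refine integral_congr_ae ?_
      filter_upwards [hce u] with a ha
      simp only [← ha]
      ring
    have j1 : Integrable (fun a => C u a ^ 2) μ := (hC2 u).integrable_sq
    have j2 : Integrable (fun a => 2 * (C u a * c u a)) μ := (imul (hC2 u) (hc2 u)).const_mul 2
    have j3 : Integrable (fun a => C u a ^ 2 - 2 * (C u a * c u a)) μ := j1.sub j2
    have j4 : Integrable (fun a => c u a ^ 2) μ := (hc2 u).integrable_sq
    rw [e1, integral_add j3 j4, integral_sub j1 j2, integral_const_mul, hCc u]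
    ring
  -- the covariation with the increments
  have hRX : ∀ u, h * ∫ a, c u a ^ 2 ∂μ - h * (δo + δ u) / 2 ≤ ∫ a, Rm a * X u a ∂μ := by
    intro u
    have e1 : ∫ a, m' a * X u a ∂μ = ∫ a, b a * X u a ∂μ := hM _ (hXF' u) (hX2 u)
    have e2 : ∫ a, m a * X u a ∂μ = 0 := by
      have e : ∀ a, m a * X u a = dW u a * (m a * c u a) := by
        intro a
        simp only [hX]
        ring
      simp_rw [e]
      refine H2 u _ (hm.mul (hcF u)) fun a => ?_
      rw [abs_mul]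
      exact mul_le_one₀ (hmb a) (abs_nonneg _) (hcb u a)
    have e3 : ∫ a, Rm a * X u a ∂μ = ∫ a, b a * dW u a * c u a ∂μ := by
      simp only [hRm, sub_mul]
      rw [integral_sub (imul hm'2 (hX2 u)) (imul hm2 (hX2 u)), e1, e2, sub_zero]
      refine integral_congr_ae (ae_of_all _ fun a => ?_)
      simp only [hX]
      ring
    have h4 := H4 u (c u) (hcF u) (hcb u)
    rw [hCc u, abs_le] at h4
    rw [e3]
    linarith [h4.1]
  -- the quadratic variation of the increments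
  have hXX : ∀ u u', ∫ a, X u a * X u' a ∂μ =
      (if u = u' then h else 0) * ∫ a, c u a * c u' a ∂μ := by
    intro u u'
    have e : ∀ a, X u a * X u' a = dW u a * dW u' a * (c u a * c u' a) := by
      intro a
      simp only [hX]
      ring
    simp_rw [e]
    refine H3 u u' _ ((hcF u).mul (hcF u')) fun a => ?_
    rw [abs_mul]
    exact mul_le_one₀ (hcb u a) (abs_nonneg _) (hcb u' a)
  have hSS : ∫ a, S a ^ 2 ∂μ = h * ∑ u ∈ U, ∫ a, c u a ^ 2 ∂μ := by
    have e : ∀ a, S a ^ 2 = ∑ u ∈ U, ∑ u' ∈ U, X u a * X u' a := by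
      intro a
      simp only [hS]
      rw [sq, Finset.sum_mul_sum]
    simp_rw [e]
    rw [integral_finset_sum _ fun u _ =>
      integrable_finset_sum _ fun u' _ => imul (hX2 u) (hX2 u')]
    rw [Finset.mul_sum]
    refine Finset.sum_congr rfl fun u hu => ?_
    rw [integral_finset_sum _ fun u' _ => imul (hX2 u) (hX2 u')]
    simp_rw [hXX]
    rw [Finset.sum_eq_single_of_mem u hu]
    · simp only [if_true]
      congr 1
      refine integral_congr_ae (ae_of_all _ fun a => ?_)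
      simp only
      ring
    · intro u' _ hne
      rw [if_neg (Ne.symm hne), zero_mul]
  -- expansion of the square
  have hexp : ∫ a, (m' a - Pred a) ^ 2 ∂μ =
      ∫ a, A a ^ 2 ∂μ + ∫ a, Rm a ^ 2 ∂μ + ∫ a, S a ^ 2 ∂μ + 2 * ∫ a, A a * Rm a ∂μ -
        2 * ∫ a, A a * S a ∂μ - 2 * ∫ a, Rm a * S a ∂μ := by
    have e : ∀ a, (m' a - Pred a) ^ 2 = A a ^ 2 + Rm a ^ 2 + S a ^ 2 + 2 * (A a * Rm a) -
        2 * (A a * S a) - 2 * (Rm a * S a) := by
      intro a
      simp only [hA, hRm, hPred]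
      ring
    simp_rw [e]
    have i1 := hA2.integrable_sq
    have i2 := hR2.integrable_sq
    have i3 := hS2.integrable_sq
    have i4 : Integrable (fun a => 2 * (A a * Rm a)) μ := (imul hA2 hR2).const_mul 2
    have i5 : Integrable (fun a => 2 * (A a * S a)) μ := (imul hA2 hS2).const_mul 2
    have i6 : Integrable (fun a => 2 * (Rm a * S a)) μ := (imul hR2 hS2).const_mul 2
    have i12 : Integrable (fun a => A a ^ 2 + Rm a ^ 2) μ := i1.add i2
    have i123 : Integrable (fun a => A a ^ 2 + Rm a ^ 2 + S a ^ 2) μ := i12.add i3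
    have i1234 : Integrable (fun a => A a ^ 2 + Rm a ^ 2 + S a ^ 2 + 2 * (A a * Rm a)) μ :=
      i123.add i4
    have i12345 : Integrable
        (fun a => A a ^ 2 + Rm a ^ 2 + S a ^ 2 + 2 * (A a * Rm a) - 2 * (A a * S a)) μ :=
      i1234.sub i5
    rw [integral_sub i12345 i6, integral_sub i1234 i5, integral_add i123 i4, integral_add i12 i3,
      integral_add i1 i2, integral_const_mul, integral_const_mul, integral_const_mul]
  have hRS : ∫ a, Rm a * S a ∂μ = ∑ u ∈ U, ∫ a, Rm a * X u a ∂μ := by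
    simp only [hS, Finset.mul_sum]
    rw [integral_finset_sum _ fun u _ => imul hR2 (hX2 u)]
  have hRSle : h * ∑ u ∈ U, ∫ a, c u a ^ 2 ∂μ - h * (∑ u ∈ U, (δo + δ u)) / 2 ≤
      ∫ a, Rm a * S a ∂μ := by
    rw [hRS, Finset.mul_sum, Finset.mul_sum, Finset.sum_div, ← Finset.sum_sub_distrib]
    exact Finset.sum_le_sum fun u _ => hRX u
  have hsumVV : ∑ u ∈ U, ∫ a, (C u a - (μ[C u | 𝒢]) a) ^ 2 ∂μ =
      ∑ u ∈ U, ∫ a, C u a ^ 2 ∂μ - ∑ u ∈ U, ∫ a, c u a ^ 2 ∂μ := by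
    rw [← Finset.sum_sub_distrib]
    exact Finset.sum_congr rfl fun u _ => hVV u
  have hR0 : ∫ a, Rm a ^ 2 ∂μ = δo := H8
  rw [hD]
  rw [hexp, hAR, hAS, hSS, hR0] at hproj
  rw [hsumVV]
  linarith

end abstract

end TimeD

variable {I : Type*} {Ω : Type*} [mΩ : MeasurableSpace Ω] {ν : Measure (I → Bool)}
  {P : Measure Ω} {ω : Ω → I → Bool} {B : Ω → I → Sk} {Fs : I → ℕ → Finset I}
  [Countable I] [IsProbabilityMeasure ν] [IsProbabilityMeasure P]

/-- One step of the conditional variance, for any finite set `U` of predictors. -/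
theorem dD_step (T : Truth ν P ω B) (hFs : GoodExh Fs) (o : I) (U : Finset I) (n k : ℕ) :
    dD ν Fs P ω B o n (k + 1) - dD ν Fs P ω B o n k ≤
      (qq ν Fs P ω B o n (k + 1) - qq ν Fs P ω B o n k) -
        (1 / 2 ^ n : ℝ) * ∑ u ∈ U, ∫ a, CRt ν Fs ω B o u n k a ^ 2 ∂P +
        (1 / 2 ^ n : ℝ) * VV ν Fs P ω B o U n k +
        (1 / 2 ^ n : ℝ) * ∑ u ∈ U, ((qq ν Fs P ω B o n (k + 1) - qq ν Fs P ω B o n k) +
          (qq ν Fs P ω B u n (k + 1) - qq ν Fs P ω B u n k)) := by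
  have hbm : Measurable (fun a => bv (ω a o)) :=
    (measurable_from_top (f := bv)).comp ((measurable_pi_apply o).comp T.mω)
  have hle : tm n k ≤ tm n (k + 1) := tm_mono_right n (Nat.le_succ k)
  have key := TimeD.step_abstract (μ := P) U
    (𝒢 := Gt ν Fs ω B (tm n k)) (𝒢' := Gt ν Fs ω B (tm n (k + 1)))
    (𝓕 := Ft ω B (tm n k)) (𝓕' := Ft ω B (tm n (k + 1)))
    (Gt_le_Ft _) (Gt_mono hle) (Gt_le_Ft _) (Ft_le T _) (Ft_le T _) (Ft_mono hle)
    (m := Mt ν Fs ω B o n k) (m' := Mt ν Fs ω B o n (k + 1)) (b := fun a => bv (ω a o))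
    (dW := fun u => dW ν Fs ω B u n k) (C := fun u => CRt ν Fs ω B o u n k)
    (h := (1 / 2 ^ n : ℝ)) (δo := qq ν Fs P ω B o n (k + 1) - qq ν Fs P ω B o n k)
    (δ := fun u => qq ν Fs P ω B u n (k + 1) - qq ν Fs P ω B u n k)
    (measurable_Mt_Ft o n k) (abs_Mt_le o n k)
    (measurable_Mt_Ft o n (k + 1)) (abs_Mt_le o n (k + 1))
    hbm (fun a => abs_bv_le_one _)
    (fun u => measurable_CRt T o u n k) (fun u => abs_CRt_le o u n k)
    (fun Z hZ hb => integral_Mt_mul T hFs o n k hZ hb)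
    (Mt_ae_condExp T hFs o n (k + 1))
    (fun u Z hZ hb => integral_past_mul_dW T hFs u n k hZ hb)
    (fun u u' Z hZ hb => integral_past_mul_dW_dW T hFs u u' n k hZ hb)
    (fun u Z hZ hb => abs_integral_bv_mul_dW_sub T hFs o u n k hZ hb)
    (fun u => memLp_dW T hFs u n k) (fun u => measurable_dW_Gt u n k)
    (integral_sq_Mt_sub T hFs o n (Nat.le_succ k))
  exact key

end Crest.Agent.Lib.IT
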