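/-
The integrated inequality for the conditional variance (statement S0241).
-/
import Crest.Agent.Lib.IT.TimeD
import Crest.Agent.Lib.IT.TimeE

set_option autoImplicit false

namespace Crest.Agent.Lib.IT

open MeasureTheory ProbabilityTheory Filter Topology
open scoped ENNReal NNReal
open Crest.Agent.Lib.Loc

variable {I : Type*} {Ω : Type*} [mΩ : MeasurableSpace Ω] {ν : Measure (I → Bool)}
  {P : Measure Ω} {ω : Ω → I → Bool} {B : Ω → I → Sk} {Fs : I → ℕ → Finset I}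
  [Countable I] [IsProbabilityMeasure ν] [IsProbabilityMeasure P]

/-- The integrated inequality for the conditional variance. -/
theorem dD_integ (T : Truth ν P ω B) (hFs : GoodExh Fs) (o : I) (U : Finset I) (ε : ℝ)
    (L j₁ j₂ : ℕ) (hj : j₁ ≤ j₂) (htail : TailHyp ν Fs P ω B o U ε L j₁ j₂) :
    dD ν Fs P ω B o L j₂ - dD ν Fs P ω B o L j₁ ≤
      ∑ j ∈ Finset.Ico j₁ j₂, (1 / 2 ^ L : ℝ) * VV ν Fs P ω B o U L j +
      (U.card : ℝ) * (6 * Real.sqrt (j₂ - j₁) * (1 / 2 ^ L) + 2 * (1 / 2 ^ L)) +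
      ε * ((j₂ - j₁) * (1 / 2 ^ L)) := by
  have hh0 : (0 : ℝ) ≤ 1 / 2 ^ L := by positivity
  have s1 : dD ν Fs P ω B o L j₂ - dD ν Fs P ω B o L j₁ ≤
      ∑ j ∈ Finset.Ico j₁ j₂, ((qq ν Fs P ω B o L (j + 1) - qq ν Fs P ω B o L j) -
        (1 / 2 ^ L : ℝ) * ∑ u ∈ U, ∫ a, CRt ν Fs ω B o u L j a ^ 2 ∂P +
        (1 / 2 ^ L : ℝ) * VV ν Fs P ω B o U L j +
        (1 / 2 ^ L : ℝ) * ∑ u ∈ U, ((qq ν Fs P ω B o L (j + 1) - qq ν Fs P ω B o L j) +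
          (qq ν Fs P ω B u L (j + 1) - qq ν Fs P ω B u L j))) := by
    rw [← Finset.sum_Ico_sub (fun j => dD ν Fs P ω B o L j) hj]
    exact Finset.sum_le_sum fun j _ => dD_step T hFs o U L j
  have s2 : ∑ j ∈ Finset.Ico j₁ j₂, ((qq ν Fs P ω B o L (j + 1) - qq ν Fs P ω B o L j) -
        (1 / 2 ^ L : ℝ) * ∑ u ∈ U, ∫ a, CRt ν Fs ω B o u L j a ^ 2 ∂P +
        (1 / 2 ^ L : ℝ) * VV ν Fs P ω B o U L j +
        (1 / 2 ^ L : ℝ) * ∑ u ∈ U, ((qq ν Fs P ω B o L (j + 1) - qq ν Fs P ω B o L j) +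
          (qq ν Fs P ω B u L (j + 1) - qq ν Fs P ω B u L j))) =
      (qq ν Fs P ω B o L j₂ - qq ν Fs P ω B o L j₁) -
        ∑ j ∈ Finset.Ico j₁ j₂, (1 / 2 ^ L : ℝ) * ∑ u ∈ U, ∫ a, CRt ν Fs ω B o u L j a ^ 2 ∂P +
        ∑ j ∈ Finset.Ico j₁ j₂, (1 / 2 ^ L : ℝ) * VV ν Fs P ω B o U L j +
        ∑ j ∈ Finset.Ico j₁ j₂, (1 / 2 ^ L : ℝ) *
          ∑ u ∈ U, ((qq ν Fs P ω B o L (j + 1) - qq ν Fs P ω B o L j) +
            (qq ν Fs P ω B u L (j + 1) - qq ν Fs P ω B u L j)) := by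
    rw [Finset.sum_add_distrib, Finset.sum_add_distrib, Finset.sum_sub_distrib,
      Finset.sum_Ico_sub (fun j => qq ν Fs P ω B o L j) hj]
  have s3 : ∑ j ∈ Finset.Ico j₁ j₂, (1 / 2 ^ L : ℝ) *
        ∑ u ∈ U, ((qq ν Fs P ω B o L (j + 1) - qq ν Fs P ω B o L j) +
          (qq ν Fs P ω B u L (j + 1) - qq ν Fs P ω B u L j)) ≤
      (U.card : ℝ) * (2 * (1 / 2 ^ L)) := by
    rw [← Finset.mul_sum, Finset.sum_comm]
    have hu : ∀ u ∈ U, ∑ j ∈ Finset.Ico j₁ j₂,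
        ((qq ν Fs P ω B o L (j + 1) - qq ν Fs P ω B o L j) +
          (qq ν Fs P ω B u L (j + 1) - qq ν Fs P ω B u L j)) ≤ 2 := by
      intro u _
      rw [Finset.sum_add_distrib, Finset.sum_Ico_sub (fun j => qq ν Fs P ω B o L j) hj,
        Finset.sum_Ico_sub (fun j => qq ν Fs P ω B u L j) hj]
      linarith [qq_le_one (ν := ν) (Fs := Fs) (P := P) (ω := ω) (B := B) T o L j₂,
        qq_le_one (ν := ν) (Fs := Fs) (P := P) (ω := ω) (B := B) T u L j₂,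
        qq_nonneg (ν := ν) (Fs := Fs) (P := P) (ω := ω) (B := B) T o L j₁,
        qq_nonneg (ν := ν) (Fs := Fs) (P := P) (ω := ω) (B := B) T u L j₁]
    have h2 := Finset.sum_le_card_nsmul U _ 2 hu
    rw [nsmul_eq_mul] at h2
    calc _ ≤ (1 / 2 ^ L : ℝ) * ((U.card : ℝ) * 2) := mul_le_mul_of_nonneg_left h2 hh0
      _ = _ := by ring
  have s4 := qq_incr_le T hFs o U ε L j₁ j₂ hj htail
  have e : (U.card : ℝ) * (6 * Real.sqrt (j₂ - j₁) * (1 / 2 ^ L) + 2 * (1 / 2 ^ L)) =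
      (U.card : ℝ) * (6 * Real.sqrt (j₂ - j₁) * (1 / 2 ^ L)) +
        (U.card : ℝ) * (2 * (1 / 2 ^ L)) := by ring
  rw [e]
  rw [s2] at s1
  linarith

end Crest.Agent.Lib.IT
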