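/-
The conditional variance vanishes at all times; the root spin is a function of the innovation field;
the Ising factor theorem (statement S0241).
-/
import Crest.Agent.Lib.IT.Assembly
import Crest.Agent.Lib.IT.StepA
import Crest.Agent.Lib.IT.StepB2
import Crest.Agent.Lib.IT.TimeF
import Crest.Agent.Lib.IT.FactorMap

set_option autoImplicit false

namespace Crest.Agent.Lib.IT

open MeasureTheory ProbabilityTheory SimpleGraph Filter Topology
open scoped ENNReal NNReal
open Crest.Agent.Lib.Loc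

variable {V : Type*} {G : SimpleGraph V} [G.LocallyFinite] {k : ℕ} {θ : ℝ} [Countable V]
  {ν : Measure (V → Bool)} [IsProbabilityMeasure ν]

namespace AM

lemma dDt_lift (o : V) (n k r : ℕ) : dDt ν G o (n + r) (k * 2 ^ r) = dDt ν G o n k := by
  have T := truth_spec ν
  unfold dDt dD
  have h1 : Mt ν (ballFs G) Prod.fst truthB o (n + r) (k * 2 ^ r) =
      Mt ν (ballFs G) Prod.fst truthB o n k := funext fun a => Mt_lift T o n k r a
  rw [h1, tm_lift]

lemma dDt_nonneg (o : V) (n k : ℕ) : 0 ≤ dDt ν G o n k :=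
  integral_nonneg fun _ => sq_nonneg _

lemma dDt_le (o : V) (n k : ℕ) :
    dDt ν G o n k ≤ ∫ a, (Mt ν (ballFs G) Prod.fst truthB o n k a - 1 / 2) ^ 2 ∂(truthP ν) := by
  have T := truth_spec ν
  exact TimeD.integral_sq_sub_condExp_le (g := fun _ => (1 / 2 : ℝ)) (Gt_le T _)
    (measurable_Mt T o n k) (abs_Mt_le o n k) measurable_const (memLp_const _)

lemma sq_Mt_eq (o : V) (n k : ℕ) (a : TΩ V) :
    (Mt ν (ballFs G) Prod.fst truthB o n k a - 1 / 2) ^ 2 = (1 / 4) * mg ν G o n k a ^ 2 := by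
  unfold mg
  ring

lemma dDt_le_mg (o : V) (n k : ℕ) :
    dDt ν G o n k ≤ (1 / 4) * ∫ a, mg ν G o n k a ^ 2 ∂(truthP ν) := by
  refine (dDt_le o n k).trans (le_of_eq ?_)
  rw [← integral_const_mul]
  exact integral_congr_ae (ae_of_all _ fun a => sq_Mt_eq o n k a)

lemma integral_mg_sq_le (o : V) (n k : ℕ) : ∫ a, mg ν G o n k a ^ 2 ∂(truthP ν) ≤ 1 := by
  have h : ∀ a, mg ν G o n k a ^ 2 ≤ 1 := fun a => by
    have := abs_mg_le (ν := ν) (G := G) o n k a
    rw [← sq_abs]
    nlinarith [abs_nonneg (mg ν G o n k a)]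
  have T := truth_spec ν
  have hi : Integrable (fun a => mg ν G o n k a ^ 2) (truthP ν) := by
    refine Integrable.of_bound ((measurable_mg o n k).pow_const 2).aestronglyMeasurable 1
      (ae_of_all _ fun a => ?_)
    rw [Real.norm_eq_abs, abs_of_nonneg (sq_nonneg _)]
    exact h a
  calc ∫ a, mg ν G o n k a ^ 2 ∂(truthP ν) ≤ ∫ _, (1 : ℝ) ∂(truthP ν) :=
        integral_mono hi (integrable_const _) h
    _ = 1 := by simp

lemma dDt_zero (o : V) (n : ℕ) : dDt ν G o n 0 = 0 := by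
  have T := truth_spec ν
  unfold dDt dD
  have h1 : Mt ν (ballFs G) Prod.fst truthB o n 0 =
      fun _ => mlim ν (ballFs G) o (tm n 0) (fun _ => 0) := by
    funext a
    unfold Mt
    simp_rw [Yobs_zero T a]
  rw [h1, condExp_const (Gt_le T _)]
  simp

lemma tm_eq_tdy (n k : ℕ) : tm n k = tdy n k := rfl

lemma aux_limsup {Ω : Type*} {m : MeasurableSpace Ω} (f : ℕ → Ω → ℝ) (hf : ∀ k, Measurable[m] (f k)) :
    Measurable[m] (fun a => limsup (fun k => f k a) atTop) := Measurable.limsup hf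

lemma aux_set {Ω : Type*} {m : MeasurableSpace Ω} {L : Ω → ℝ} (hL : Measurable[m] L) (c : ℝ) :
    MeasurableSet[m] {a | c < L a} := measurableSet_lt measurable_const hL

lemma sqrt_mul_div (A x N : ℝ) (hx : 0 < x) (hN : 0 < N) :
    Real.sqrt (A * x) * (1 / (N * x)) = Real.sqrt (A / x) * (1 / N) := by
  have h1 : A * x = (A / x) * x ^ 2 := by field_simp
  rw [h1, Real.sqrt_mul' _ (sq_nonneg x), Real.sqrt_sq hx.le]
  field_simp

lemma tendsto_middle (c n k₁ k₂ : ℕ) :
    Tendsto (fun r : ℕ => (c : ℝ) * (6 * Real.sqrt (((k₂ * 2 ^ r : ℕ) : ℝ) - ((k₁ * 2 ^ r : ℕ) : ℝ)) *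
      (1 / 2 ^ (n + r)) + 2 * (1 / 2 ^ (n + r)))) atTop (𝓝 0) := by
  have h2 : Tendsto (fun r : ℕ => ((2 : ℝ) ^ r)) atTop atTop :=
    tendsto_pow_atTop_atTop_of_one_lt one_lt_two
  have h3 : Tendsto (fun r : ℕ => ((k₂ : ℝ) - k₁) / 2 ^ r) atTop (𝓝 0) :=
    tendsto_const_nhds.div_atTop h2
  have h4 : Tendsto (fun r : ℕ => Real.sqrt (((k₂ : ℝ) - k₁) / 2 ^ r)) atTop (𝓝 0) := by
    have := Real.continuous_sqrt.tendsto' 0 0 Real.sqrt_zero
    exact this.comp h3
  have h5 : Tendsto (fun r : ℕ => (1 : ℝ) / 2 ^ r) atTop (𝓝 0) :=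
    tendsto_const_nhds.div_atTop h2
  have h6 : Tendsto (fun r : ℕ => (c : ℝ) * (6 * (Real.sqrt (((k₂ : ℝ) - k₁) / 2 ^ r) * (1 / 2 ^ n)) +
      2 * ((1 / 2 ^ n) * (1 / 2 ^ r)))) atTop (𝓝 ((c : ℝ) * (6 * (0 * (1 / 2 ^ n)) +
      2 * ((1 / 2 ^ n) * 0)))) :=
    ((((h4.mul_const _).const_mul _).add ((h5.const_mul _).const_mul _))).const_mul _
  have h7 : (c : ℝ) * (6 * (0 * (1 / 2 ^ n)) + 2 * ((1 / 2 ^ n) * 0)) = 0 := by ring
  rw [h7] at h6
  refine h6.congr fun r => ?_
  have h8 : ((k₂ * 2 ^ r : ℕ) : ℝ) - ((k₁ * 2 ^ r : ℕ) : ℝ) = ((k₂ : ℝ) - k₁) * 2 ^ r := by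
    push_cast
    ring
  rw [h8, pow_add, mul_assoc 6, sqrt_mul_div _ _ _ (by positivity) (by positivity)]
  congr 2
  congr 1
  field_simp

end AM

section
variable (hT : G.IsTree) (hk : 2 ≤ k) (hreg : G.IsRegularOfDegree (k + 1)) (h0 : 0 ≤ θ) (h1 : θ < 1)
  (hkθ : (k : ℝ) * θ ^ 2 ≤ 1) (hν : IsIsing G θ ν)
include hT hk hreg h0 h1 hkθ hν

/-- The conditional variance vanishes. -/
theorem dDt_eq_zero (o : V) (n j : ℕ) : dDt ν G o n j = 0 := by
  classical
  have T := truth_spec ν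
  obtain ⟨C₃, C₄, C₅, hC₃, hC₄, hC₅, hC₅₄, hB⟩ := exists_stepB hT hk hreg h0 h1 hkθ hν
  obtain ⟨t₀, ht₀, hA⟩ := exists_stepA hT hk hreg h0 h1 hkθ hν
  let Vv : ℕ → ℕ → ℝ := fun n k => if k = 0 then 0 else ⨆ R, VVt ν G o (ballF G R o) n k
  have hVVnn : ∀ (R n k : ℕ), 0 ≤ VVt ν G o (ballF G R o) n k := fun R n k =>
    Finset.sum_nonneg fun u _ => integral_nonneg fun _ => sq_nonneg _
  have hBdd : ∀ n k, 0 < k → BddAbove (Set.range fun R => VVt ν G o (ballF G R o) n k) := by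
    intro n k hk
    refine ⟨dDt ν G o n k * (C₃ / tm n k + C₄ + C₅ * Real.log (1 / dDt ν G o n k)), ?_⟩
    rintro _ ⟨R, rfl⟩
    exact hB o n k R hk
  have hle : ∀ R n k, 0 < k → VVt ν G o (ballF G R o) n k ≤ Vv n k := by
    intro R n k hk
    simp only [Vv, if_neg hk.ne']
    exact le_ciSup (hBdd n k hk) R
  have hVB : ∀ {B : ℝ} (n k : ℕ), 0 < k → (∀ R, VVt ν G o (ballF G R o) n k ≤ B) → Vv n k ≤ B := by
    intro B n k hk h
    simp only [Vv, if_neg hk.ne']
    exact ciSup_le h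
  obtain ⟨CM, hCM, hM⟩ := moment_mg (ν := ν) (G := G) hT h0 h1 hν hk hreg hkθ 0
  refine gronwall_no_mono (V := Vv) hC₃ hC₄ hC₅ hC₅₄ ht₀ ⟨?_, ?_, ?_, ?_, ?_, ?_, ?_, ?_⟩ n j
  · -- cons
    intro n k
    have := AM.dDt_lift (ν := ν) (G := G) o n k 1
    rw [pow_one, mul_comm] at this
    exact this
  · exact fun n k => AM.dDt_nonneg o n k
  · intro n k
    have h1 := AM.dDt_le_mg (ν := ν) (G := G) o n k
    have h2 := AM.integral_mg_sq_le (ν := ν) (G := G) o n k
    linarith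
  · intro n k
    by_cases hk : k = 0
    · simp [Vv, hk]
    · simp only [Vv, if_neg hk]
      exact Real.iSup_nonneg fun R => hVVnn R n k
  · -- integ
    intro n k₁ k₂ hk₁ hk₁₂ ε hε
    have hs₀ : 0 < tm n k₁ := by
      unfold tm
      have : (0 : ℝ) < k₁ := by exact_mod_cast hk₁
      positivity
    have hτ0 : 0 ≤ tm n k₂ := by
      unfold tm
      positivity
    have hε'pos : 0 < ε / (2 * (tm n k₂ + 1)) := by positivity
    obtain ⟨R, hR⟩ := exists_tailHyp hT hk hreg h0 h1 hkθ hν o hs₀ hε'pos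
    have hlim := AM.tendsto_middle (ballF G R o).card n k₁ k₂
    obtain ⟨r₀, hr₀⟩ := eventually_atTop.1 (hlim.eventually (gt_mem_nhds (half_pos hε)))
    refine ⟨r₀, fun r hr => ?_⟩
    have hm := hr₀ r hr
    have hj : k₁ * 2 ^ r ≤ k₂ * 2 ^ r := Nat.mul_le_mul_right _ hk₁₂
    have hI := dD_integ T (goodExh_ballFs hT) o (ballF G R o) (ε / (2 * (tm n k₂ + 1))) (n + r)
      (k₁ * 2 ^ r) (k₂ * 2 ^ r) hj (hR _ _ _ (by rw [tm_lift]))
    have e1 := AM.dDt_lift (ν := ν) (G := G) o n k₁ r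
    have e2 := AM.dDt_lift (ν := ν) (G := G) o n k₂ r
    have hsum : ∑ j ∈ Finset.Ico (k₁ * 2 ^ r) (k₂ * 2 ^ r),
          (1 / 2 ^ (n + r) : ℝ) * VV ν (ballFs G) (truthP ν) Prod.fst truthB o (ballF G R o) (n + r) j ≤
        ∑ j ∈ Finset.Ico (k₁ * 2 ^ r) (k₂ * 2 ^ r), (1 / 2 ^ (n + r) : ℝ) * Vv (n + r) j := by
      refine Finset.sum_le_sum fun j hj' => ?_
      have hjpos : 0 < j := by
        have h1 := (Finset.mem_Ico.1 hj').1
        have h2 : 0 < k₁ * 2 ^ r := by positivity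
        omega
      exact mul_le_mul_of_nonneg_left (hle R (n + r) j hjpos) (by positivity)
    have hlast : ε / (2 * (tm n k₂ + 1)) * (((k₂ * 2 ^ r : ℕ) - (k₁ * 2 ^ r : ℕ) : ℝ) * (1 / 2 ^ (n + r))) ≤
        ε / 2 := by
      have h1 : (((k₂ * 2 ^ r : ℕ) - (k₁ * 2 ^ r : ℕ) : ℝ) * (1 / 2 ^ (n + r))) =
          tm n k₂ - tm n k₁ := by
        rw [← tm_lift n k₂ r, ← tm_lift n k₁ r]
        unfold tm
        ring
      rw [h1]
      have h2 : ε / (2 * (tm n k₂ + 1)) * (tm n k₂ - tm n k₁) ≤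
          ε / (2 * (tm n k₂ + 1)) * (tm n k₂ + 1) :=
        mul_le_mul_of_nonneg_left (by linarith) hε'pos.le
      have h3 : ε / (2 * (tm n k₂ + 1)) * (tm n k₂ + 1) = ε / 2 := by
        field_simp
      linarith
    rw [← e1, ← e2]
    simp only [dDt] at hI ⊢
    push_cast at hI hm hlast ⊢
    linarith
  · -- small
    intro ε hε
    refine ⟨min 4 ((4 * ε / CM) ^ 2), lt_min (by norm_num) (by positivity), ?_⟩
    intro n k hlt
    by_cases hk : k = 0
    · subst hk
      rw [AM.dDt_zero]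
      exact hε.le
    · have hpos : 0 < tm n k := by
        unfold tm
        have : 0 < k := Nat.pos_of_ne_zero hk
        positivity
      have hlt' : tm n k < min 4 ((4 * ε / CM) ^ 2) := hlt
      have h4 : tm n k ≤ 4 := (hlt'.trans_le (min_le_left _ _)).le
      have hs : tm n k < (4 * ε / CM) ^ 2 := hlt'.trans_le (min_le_right _ _)
      have hsq : Real.sqrt (tm n k) ≤ 4 * ε / CM := by
        rw [Real.sqrt_le_left (by positivity)]
        exact hs.le
      have hm := hM o n k hpos h4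
      simp only [pow_zero, mul_one, pow_one] at hm
      have h1 := AM.dDt_le_mg (ν := ν) (G := G) o n k
      have h2 : CM * Real.sqrt (tm n k) ≤ 4 * ε := by
        calc CM * Real.sqrt (tm n k) ≤ CM * (4 * ε / CM) := by gcongr
          _ = 4 * ε := by field_simp
      linarith
  · -- stepB
    intro n k hk
    exact hVB n k hk fun R => hB o n k R hk
  · -- stepA
    intro i hi
    obtain ⟨C, hC, hCA⟩ := hA i hi
    refine ⟨C, hC, fun n k hk ht => hVB n k hk fun R => hCA o n k R hk ht⟩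

/-- The root spin is almost surely a measurable function of the innovation field. -/
theorem exists_root_fun (o : V) : ∃ ψ₀ : (V → Sk) → Bool, Measurable ψ₀ ∧
    ∀ᵐ a ∂(truthP ν), a.1 o = ψ₀ (Wmap ν (ballFs G) (Yobs Prod.fst truthB a)) := by
  classical
  have T := truth_spec ν
  have hFs := goodExh_ballFs hT
  -- the posterior mean is a function of the innovation
  have hae : ∀ k', Mt ν (ballFs G) Prod.fst truthB o 0 k' =ᵐ[truthP ν]
      (truthP ν)[Mt ν (ballFs G) Prod.fst truthB o 0 k' |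
        Gt ν (ballFs G) Prod.fst truthB (tm 0 k')] := by
    intro k'
    have hD := dDt_eq_zero hT hk hreg h0 h1 hkθ hν o 0 k'
    have hMm := measurable_Mt (ν := ν) (Fs := ballFs G) T o 0 k'
    have hpb : ∀ᵐ a ∂(truthP ν), |((truthP ν)[Mt ν (ballFs G) Prod.fst truthB o 0 k' |
        Gt ν (ballFs G) Prod.fst truthB (tm 0 k')]) a| ≤ ((1 : ℝ≥0) : ℝ) :=
      ae_bdd_abs_condExp_of_ae_bdd_abs (ae_of_all _ fun a => by
        simpa using abs_Mt_le (ν := ν) (Fs := ballFs G) (ω := Prod.fst) (B := truthB) o 0 k' a)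
    have hM2 : MemLp (Mt ν (ballFs G) Prod.fst truthB o 0 k') 2 (truthP ν) :=
      TimeD.memLp_two_of_bdd hMm.aestronglyMeasurable 1 (ae_of_all _ fun a => abs_Mt_le o 0 k' a)
    have hc2 : MemLp ((truthP ν)[Mt ν (ballFs G) Prod.fst truthB o 0 k' |
        Gt ν (ballFs G) Prod.fst truthB (tm 0 k')]) 2 (truthP ν) :=
      TimeD.memLp_two_of_bdd (stronglyMeasurable_condExp.mono (Gt_le T _)).aestronglyMeasurable 1
        (by simpa using hpb)
    have hint := (hM2.sub hc2).integrable_sq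
    have h := (integral_eq_zero_iff_of_nonneg (fun a => sq_nonneg _) hint).1 hD
    filter_upwards [h] with a ha
    have ha' : (Mt ν (ballFs G) Prod.fst truthB o 0 k' a - ((truthP ν)[Mt ν (ballFs G) Prod.fst truthB o 0 k' |
        Gt ν (ballFs G) Prod.fst truthB (tm 0 k')]) a) ^ 2 = 0 := ha
    exact sub_eq_zero.1 (pow_eq_zero_iff (two_ne_zero)|>.1 ha')
  have hrep : ∀ k', ∃ ψ : (V → Sk) → ℝ, Measurable ψ ∧
      (truthP ν)[Mt ν (ballFs G) Prod.fst truthB o 0 k' |
        Gt ν (ballFs G) Prod.fst truthB (tm 0 k')] = ψ ∘ WtT ν G (tm 0 k') := by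
    intro k'
    have hm : Measurable[Gt ν (ballFs G) Prod.fst truthB (tm 0 k')]
        ((truthP ν)[Mt ν (ballFs G) Prod.fst truthB o 0 k' |
          Gt ν (ballFs G) Prod.fst truthB (tm 0 k')]) :=
      stronglyMeasurable_condExp.measurable
    obtain ⟨ψ, hψ, he⟩ := hm.exists_eq_measurable_comp
    exact ⟨ψ, hψ, he⟩
  choose ψ hψm hψ using hrep
  -- Lévy upward
  let Fl : Filtration ℕ (inferInstance : MeasurableSpace (TΩ V)) :=
    { seq := fun k' => Ft Prod.fst truthB (tm 0 k')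
      mono' := fun i j hij => Ft_mono (tm_mono_right 0 hij)
      le' := fun k' => Ft_le T _ }
  have hFl : ∀ k', Fl k' = Ft Prod.fst truthB (tm 0 k') := fun _ => rfl
  have hbvm : Measurable (fun a : TΩ V => bv (a.1 o)) :=
    (measurable_from_top (f := bv)).comp ((measurable_pi_apply o).comp measurable_fst)
  have hbvi : Integrable (fun a : TΩ V => bv (a.1 o)) (truthP ν) :=
    integrable_of_bdd hbvm 1 fun a => abs_bv_le_one _
  have hL := tendsto_ae_condExp (μ := truthP ν) (ℱ := Fl) (fun a : TΩ V => bv (a.1 o))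
  -- the limit is the spin
  have hlim : ((truthP ν)[fun a : TΩ V => bv (a.1 o) | ⨆ k', Fl k']) =ᵐ[truthP ν]
      fun a : TΩ V => bv (a.1 o) := by
    have hae1 : (fun a : TΩ V => bv (a.1 o)) =ᵐ[truthP ν]
        fun a : TΩ V => bv (hatω (Yobs Prod.fst truthB a) o) := by
      filter_upwards [T.ae_hatω] with a ha
      rw [ha]
    have hmeasL : Measurable[⨆ k', Fl k'] (fun a : TΩ V =>
        limsup (fun k' : ℕ => Yobs Prod.fst truthB a o 0 k' / k') atTop) := by
      refine AM.aux_limsup _ ?_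
      intro k'
      have h1 : Measurable[Fl k'] (fun a : TΩ V => Yobs Prod.fst truthB a o 0 k') :=
        measurable_Yobs_Ft (le_refl (tm 0 k')) o
      exact (h1.mono (le_iSup (fun j => Fl j) k') le_rfl).div_const _
    have hmeas : Measurable[⨆ k', Fl k'] (fun a : TΩ V => bv (hatω (Yobs Prod.fst truthB a) o)) := by
      have hset : MeasurableSet[⨆ k', Fl k'] {a : TΩ V | (1 / 2 : ℝ) <
          limsup (fun k' : ℕ => Yobs Prod.fst truthB a o 0 k' / k') atTop} :=
        AM.aux_set hmeasL _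
      have heq : (fun a : TΩ V => bv (hatω (Yobs Prod.fst truthB a) o)) = fun a =>
          if (1 / 2 : ℝ) < limsup (fun k' : ℕ => Yobs Prod.fst truthB a o 0 k' / k') atTop
            then 1 else 0 := by
        funext a
        unfold hatω bv
        simp
      rw [heq]
      exact Measurable.ite hset (@measurable_const _ _ _ (⨆ k', Fl k') _)
        (@measurable_const _ _ _ (⨆ k', Fl k') _)
    have hsm : StronglyMeasurable[⨆ k', Fl k']
        (fun a : TΩ V => bv (hatω (Yobs Prod.fst truthB a) o)) := hmeas.stronglyMeasurable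
    have hle : (⨆ k', Fl k') ≤ (inferInstance : MeasurableSpace (TΩ V)) := iSup_le Fl.le
    have hi' : Integrable (fun a : TΩ V => bv (hatω (Yobs Prod.fst truthB a) o)) (truthP ν) :=
      hbvi.congr hae1
    calc ((truthP ν)[fun a : TΩ V => bv (a.1 o) | ⨆ k', Fl k'])
        =ᵐ[truthP ν] (truthP ν)[fun a : TΩ V => bv (hatω (Yobs Prod.fst truthB a) o) | ⨆ k', Fl k'] :=
          condExp_congr_ae hae1
      _ = fun a : TΩ V => bv (hatω (Yobs Prod.fst truthB a) o) :=
          condExp_of_stronglyMeasurable hle hsm hi'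
      _ =ᵐ[truthP ν] fun a : TΩ V => bv (a.1 o) := hae1.symm
  have hconv : ∀ᵐ a ∂(truthP ν), Tendsto
      (fun k' => ψ k' (cutSk (tm 0 k') (Wmap ν (ballFs G) (Yobs Prod.fst truthB a)))) atTop
      (𝓝 (bv (a.1 o))) := by
    have h1 : ∀ᵐ a ∂(truthP ν), ∀ k', Mt ν (ballFs G) Prod.fst truthB o 0 k' a =
        ((truthP ν)[fun a : TΩ V => bv (a.1 o) | Fl k']) a :=
      ae_all_iff.2 fun k' => Mt_ae_condExp T hFs o 0 k'
    have h2 : ∀ᵐ a ∂(truthP ν), ∀ k', Mt ν (ballFs G) Prod.fst truthB o 0 k' a =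
        ψ k' (cutSk (tm 0 k') (Wmap ν (ballFs G) (Yobs Prod.fst truthB a))) :=
      ae_all_iff.2 fun k' => by
        filter_upwards [hae k'] with a ha
        rw [ha, hψ k']
        rfl
    filter_upwards [h1, h2, hL, hlim] with a ha1 ha2 haL halim
    rw [halim] at haL
    refine haL.congr fun k' => ?_
    rw [← ha1 k', ha2 k']
  let 𝔽 : (V → Sk) → ℝ := fun y => limsup (fun k' => ψ k' (cutSk (tm 0 k') y)) atTop
  have h𝔽m : Measurable 𝔽 :=
    Measurable.limsup fun k' => (hψm k').comp (measurable_cutSk _)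
  refine ⟨fun y => decide ((1 / 2 : ℝ) < 𝔽 y), ?_, ?_⟩
  · refine measurable_to_bool ?_
    have h2 : MeasurableSet {y : V → Sk | (1 / 2 : ℝ) < 𝔽 y} := measurableSet_lt measurable_const h𝔽m
    convert h2 using 1
    ext y
    simp
  · filter_upwards [hconv] with a ha
    have h3 : 𝔽 (Wmap ν (ballFs G) (Yobs Prod.fst truthB a)) = bv (a.1 o) := ha.limsup_eq
    simp only [h3]
    cases h : a.1 o
    · simp [bv]
    · simp [bv]
      norm_num

end

/-- The free Ising state on the regular tree is a factor of i.i.d. -/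
theorem ising_factor {k : ℕ} (hT : G.IsTree) (hk : 2 ≤ k) (hreg : G.IsRegularOfDegree (k + 1))
    (h0 : 0 ≤ θ) (h1 : θ < 1) (hkθ : (k : ℝ) * θ ^ 2 ≤ 1) :
    ∃ Φ : (V → unitInterval) → (V → Bool), Measurable Φ ∧
      (∀ (g : G ≃g G) (x : V → unitInterval), Φ (x ∘ ⇑g) = Φ x ∘ ⇑g) ∧
      ∀ (S : Finset V) (η : V → Bool), (G.induce (S : Set V)).Connected →
        (Crest.ProbabilityR.Labels.labelMeasure V).map Φ {σ | ∀ v ∈ S, σ v = η v} =
          ENNReal.ofReal (Crest.ProbabilityR.TreeIsing.isingWeight G θ S η) := by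
  classical
  obtain ⟨o⟩ := hT.connected.nonempty
  haveI := isProb_broad (V := V) h0 h1
  let ν : Measure (V → Bool) := (broadLaw V θ).map (fun p => spinOf hT o p.1 p.2)
  haveI hprob : IsProbabilityMeasure ν :=
    Measure.isProbabilityMeasure_map (measurable_spinOf hT o).aemeasurable
  have hν : IsIsing G θ ν := isIsing_broad h0 h1 hT o
  obtain ⟨ψ₀, hψ₀, hroot⟩ := exists_root_fun hT hk hreg h0 h1 hkθ hν o
  have T := truth_spec ν
  have hFs := goodExh_ballFs hT
  let W : TΩ V → V → Sk := fun a => Wmap ν (ballFs G) (Yobs Prod.fst truthB a)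
  have hWm : Measurable W := (measurable_Wmap ν _).comp T.measurable_Yobs
  let J : TΩ V → (V → Bool) × (V → Sk) := fun a => (a.1, W a)
  have hJm : Measurable J := measurable_fst.prodMk hWm
  let Jt : Measure ((V → Bool) × (V → Sk)) := (truthP ν).map J
  haveI : IsProbabilityMeasure Jt := Measure.isProbabilityMeasure_map hJm.aemeasurable
  have hW : ∀ (g : G ≃g G) (a : TΩ V), W (hatg g a) = W a ∘ g := by
    intro g a
    funext x n k'
    have h2 := congrFun (congrFun (congrFun (WtT_hatg hT h0 h1 hν g (tm n k') a) x) n) k'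
    have e1 : WtT ν G (tm n k') (hatg g a) x n k' = W (hatg g a) x n k' :=
      cutSk_of_le (le_refl _) _ _
    have e2 : skAct g.toEquiv (WtT ν G (tm n k') a) x n k' = W a (g x) n k' :=
      cutSk_of_le (le_refl _) _ _
    rw [e1, e2] at h2
    exact h2
  have hinv : ∀ g : G ≃g G, Jt.map (fun p => (p.1 ∘ g, p.2 ∘ g)) = Jt := by
    intro g
    have hFm : Measurable (fun p : (V → Bool) × (V → Sk) => (p.1 ∘ g, p.2 ∘ g)) :=
      (measurable_pi_lambda _ fun v => (measurable_pi_apply _).comp measurable_fst).prodMk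
        (measurable_pi_lambda _ fun v => (measurable_pi_apply _).comp measurable_snd)
    have e : (fun p : (V → Bool) × (V → Sk) => (p.1 ∘ g, p.2 ∘ g)) ∘ J = J ∘ hatg g := by
      funext a
      simp only [Function.comp, J]
      rw [hW g a]
      rfl
    show ((truthP ν).map J).map _ = (truthP ν).map J
    rw [Measure.map_map hFm hJm, e, ← Measure.map_map hJm (measurable_hatg g),
      truthP_map_hatg hT h0 h1 hν g]
  have hlaw : Jt.map Prod.snd = Measure.infinitePi (fun _ : V => muBM) := by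
    show ((truthP ν).map J).map Prod.snd = _
    rw [Measure.map_map measurable_snd hJm]
    have e : Prod.snd ∘ J = fun a => Wmap ν (ballFs G) (Yobs Prod.fst truthB a) := rfl
    rw [e, T.law_W hFs, truthP_map_B]
    rfl
  have hfst : Jt.map Prod.fst = ν := by
    show ((truthP ν).map J).map Prod.fst = _
    rw [Measure.map_map measurable_fst hJm]
    have e : Prod.fst ∘ J = Prod.fst := rfl
    rw [e]
    unfold truthP
    simp
  have hroot' : ∀ᵐ p ∂Jt, p.1 o = ψ₀ p.2 := by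
    have hset : MeasurableSet {p : (V → Bool) × (V → Sk) | p.1 o = ψ₀ p.2} :=
      measurableSet_eq_fun ((measurable_pi_apply o).comp measurable_fst) (hψ₀.comp measurable_snd)
    exact (ae_map_iff hJm.aemeasurable hset).2 hroot
  obtain ⟨k', rfl⟩ : ∃ k', k = k' + 1 := ⟨k - 1, by omega⟩
  obtain ⟨Φ, hΦm, hΦe, hΦl⟩ := exists_factor hT hreg muBM Jt hinv hlaw o ψ₀ hψ₀ hroot'
  refine ⟨Φ, hΦm, hΦe, fun S η hS => ?_⟩
  rw [hΦl, hfst]
  exact hν S η hS

end Crest.Agent.Lib.IT
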